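import Mathlib

/-!
# P154: broadcasting the Potts channel on rooted trees — definitions
-/

namespace Vale.Agent.P154

open MeasureTheory Filter Topology
open scoped BigOperators NNReal

/-- The `q`-state Potts channel `P_λ(j ∣ i) = λ 1{i = j} + (1 - λ)/q`. -/
noncomputable def potts (q : ℕ) (lam : ℝ) (i j : Fin q) : ℝ :=
  lam * (if i = j then 1 else 0) + (1 - lam) / q

/-- Rooted trees in Ulam–Harris coding.  A vertex is a finite list of natural numbers, the root is
`[]`, and a vertex `v` has exactly `N v` children, namely `v ++ [k]` with `k < N v`.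
`gen N n` is the set `L_n` of vertices at distance `n` from the root. -/
def gen (N : List ℕ → ℕ) : ℕ → Finset (List ℕ)
  | 0 => {[]}
  | n + 1 => (gen N n).biUnion fun v => (Finset.range (N v)).image fun k => v ++ [k]

/-- The vertices at distance at most `n` from the root. -/
def ball (N : List ℕ → ℕ) (n : ℕ) : Finset (List ℕ) :=
  (Finset.range (n + 1)).biUnion (gen N)

/-- `v` is a child of `u`, i.e. `v = u ++ [k]` for some `k`. -/
def IsChild (u v : List ℕ) : Prop := ∃ k : ℕ, v = u ++ [k]

open Classical in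
/-- The law of the spins `s` on the vertex set `V` of a finite rooted tree: the root spin is
uniform on `Fin q` and each edge independently passes the parent's spin to the child through the
Potts channel. -/
noncomputable def spinLaw (q : ℕ) (lam : ℝ) (V : Finset (List ℕ)) (s : V → Fin q) : ℝ :=
  (1 / q) * ∏ u : V, ∏ v : V,
    if IsChild (u : List ℕ) (v : List ℕ) then potts q lam (s u) (s v) else 1

open Classical in
/-- `Pr(σ_ρ = i, σ_L = τ)`, where `L ⊆ V` is the set of observed vertices. -/
noncomputable def jointLaw (q : ℕ) (lam : ℝ) (V L : Finset (List ℕ)) (i : Fin q)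
    (τ : L → Fin q) : ℝ :=
  ∑ s : V → Fin q,
    if (∀ h : [] ∈ V, s ⟨[], h⟩ = i) ∧
        (∀ (v : L) (h : (v : List ℕ) ∈ V), s ⟨v, h⟩ = τ v)
    then spinLaw q lam V s else 0

/-- `Pr(σ_L = τ)`. -/
noncomputable def obsLaw (q : ℕ) (lam : ℝ) (V L : Finset (List ℕ)) (τ : L → Fin q) : ℝ :=
  ∑ i : Fin q, jointLaw q lam V L i τ

/-- For the tree `T` with offspring numbers `N`, the quenched value
`E[½ ∑_i |Pr(σ_ρ = i ∣ σ_{L_n}) - 1/q| ∣ T]`. -/
noncomputable def quenched (q : ℕ) (lam : ℝ) (N : List ℕ → ℕ) (n : ℕ) : ℝ :=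
  ∑ τ : gen N n → Fin q, obsLaw q lam (ball N n) (gen N n) τ *
    (1 / 2 * ∑ i : Fin q,
      |jointLaw q lam (ball N n) (gen N n) i τ / obsLaw q lam (ball N n) (gen N n) τ - 1 / q|)

/-- `a_n` on the rooted `d`-ary tree. -/
noncomputable def aRegular (q : ℕ) (lam : ℝ) (d n : ℕ) : ℝ :=
  quenched q lam (fun _ => d) n

/-- The law of the Galton–Watson tree with independent Poisson(`d`) offspring counts. -/
noncomputable def poissonTree (d : ℝ≥0) : Measure (List ℕ → ℕ) :=
  Measure.infinitePi fun _ : List ℕ => ProbabilityTheory.poissonMeasure d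

/-- `a_n` on the Galton–Watson tree with Poisson(`d`) offspring. -/
noncomputable def aPoisson (q : ℕ) (lam : ℝ) (d : ℝ≥0) (n : ℕ) : ℝ :=
  ∫ N, quenched q lam N n ∂(poissonTree d)

/-- Reconstruction: `lim a_n > 0`. -/
def Reconstruction (a : ℕ → ℝ) : Prop := ∃ l : ℝ, 0 < l ∧ Tendsto a atTop (𝓝 l)

/-- Nonreconstruction: `lim a_n = 0`. -/
def Nonreconstruction (a : ℕ → ℝ) : Prop := Tendsto a atTop (𝓝 0)

end Vale.Agent.P154
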