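import Mathlib
import Vale.Agent.P154.Defs

/-!
# P154: symmetric channels, product and edge operations, and the Lyapunov certificate
-/

namespace Vale.Agent.P154

open Finset
open scoped BigOperators

variable {q : ℕ}

/-- mean of a likelihood vector -/
noncomputable def Z (x : Fin q → ℝ) : ℝ := (∑ i, x i) / q

/-- chi-square weight of a likelihood vector -/
noncomputable def W (x : Fin q → ℝ) : ℝ := (∑ i, x i ^ 2) / (∑ i, x i) - (∑ i, x i) / q

/-- the edge operator on likelihood vectors -/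
noncomputable def edge (lam : ℝ) (x : Fin q → ℝ) : Fin q → ℝ := fun i => ∑ j, potts q lam i j * x j

lemma edge_eq (lam : ℝ) (x : Fin q → ℝ) (i : Fin q) :
    edge lam x i = lam * x i + (1 - lam) * Z x := by
  unfold edge potts Z
  simp only [add_mul, Finset.sum_add_distrib]
  congr 1
  · simp
  · rw [← Finset.mul_sum]; ring

/-- A symmetric channel from `Fin q` to the finite set `X` (likelihood vectors `f x`). -/
structure IsChan {X : Type} [Fintype X] (f : X → Fin q → ℝ) : Prop where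
  nonneg : ∀ x i, 0 ≤ f x i
  sum_one : ∀ i, ∑ x, f x i = 1
  symm : ∀ π : Equiv.Perm (Fin q), ∃ r : Equiv.Perm X, ∀ x i, f (r x) (π i) = f x i

/-- sum of a functional over a channel -/
noncomputable def tot (H : (Fin q → ℝ) → ℝ) {X : Type} [Fintype X] (f : X → Fin q → ℝ) : ℝ :=
  ∑ x, H (f x)

/-- product of two channels -/
def prod2 {X Y : Type} (f : X → Fin q → ℝ) (g : Y → Fin q → ℝ) : X × Y → Fin q → ℝ :=
  fun p i => f p.1 i * g p.2 i

/-- product of finitely many channels -/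
def prodN {k : ℕ} {X : Fin k → Type} (f : ∀ c, X c → Fin q → ℝ) : (∀ c, X c) → Fin q → ℝ :=
  fun x i => ∏ c, f c (x c) i

section basic

lemma tot_comp_equiv (H : (Fin q → ℝ) → ℝ) {X Y : Type} [Fintype X] [Fintype Y]
    (f : X → Fin q → ℝ) (e : Y ≃ X) : tot H (fun y => f (e y)) = tot H f :=
  Equiv.sum_comp e fun x => H (f x)

lemma IsChan.comp_equiv {X Y : Type} [Fintype X] [Fintype Y] {f : X → Fin q → ℝ}
    (hf : IsChan f) (e : Y ≃ X) : IsChan (fun y => f (e y)) where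
  nonneg y i := hf.nonneg _ _
  sum_one i := by
    rw [← hf.sum_one i]
    exact Equiv.sum_comp e fun x => f x i
  symm π := by
    obtain ⟨r, hr⟩ := hf.symm π
    refine ⟨(e.trans r).trans e.symm, fun y i => ?_⟩
    simp [hr]

lemma sum_potts_left (hq : 0 < q) (lam : ℝ) (i : Fin q) : ∑ j, potts q lam i j = 1 := by
  have hq' : (q : ℝ) ≠ 0 := by exact_mod_cast hq.ne'
  unfold potts
  rw [Finset.sum_add_distrib]
  simp
  field_simp
  ring

lemma potts_comm (lam : ℝ) (i j : Fin q) : potts q lam i j = potts q lam j i := by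
  unfold potts
  simp [eq_comm]

lemma potts_perm (lam : ℝ) (π : Equiv.Perm (Fin q)) (i j : Fin q) :
    potts q lam (π i) (π j) = potts q lam i j := by
  unfold potts
  simp

/-- nonnegativity of the channel matrix -/
def Admissible (q : ℕ) (lam : ℝ) : Prop := ∀ i j : Fin q, 0 ≤ potts q lam i j

lemma admissible_of_mem (q : ℕ) {lam : ℝ} (h0 : 0 ≤ lam) (h1 : lam ≤ 1) : Admissible q lam := by
  intro i j
  unfold potts
  have : (0 : ℝ) ≤ (1 - lam) / q := div_nonneg (by linarith) (Nat.cast_nonneg _)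
  split_ifs
  · linarith
  · linarith

lemma Z_edge (hq : 0 < q) (lam : ℝ) (x : Fin q → ℝ) : Z (edge lam x) = Z x := by
  have hq' : (q : ℝ) ≠ 0 := by exact_mod_cast hq.ne'
  have : ∑ i, edge lam x i = ∑ i, x i := by
    simp_rw [edge_eq]
    rw [Finset.sum_add_distrib, ← Finset.mul_sum]
    simp only [Finset.sum_const, Finset.card_univ, Fintype.card_fin, nsmul_eq_mul]
    unfold Z
    field_simp
    ring
  unfold Z
  rw [this]

lemma sum_edge (hq : 0 < q) (lam : ℝ) (x : Fin q → ℝ) : ∑ i, edge lam x i = ∑ i, x i := by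
  have hq' : (q : ℝ) ≠ 0 := by exact_mod_cast hq.ne'
  have := Z_edge hq lam x
  unfold Z at this
  field_simp at this
  exact this

/-- `W` as a sum of squares of deviations -/
lemma W_eq (hq : 0 < q) (x : Fin q → ℝ) :
    W x = (∑ i, (x i - Z x) ^ 2) / (∑ i, x i) := by
  have hq' : (q : ℝ) ≠ 0 := by exact_mod_cast hq.ne'
  by_cases h0 : ∑ i, x i = 0
  · unfold W
    simp [h0]
  · have : ∑ i, (x i - Z x) ^ 2 = ∑ i, x i ^ 2 - (∑ i, x i) ^ 2 / q := by
      simp_rw [sub_sq]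
      rw [Finset.sum_add_distrib, Finset.sum_sub_distrib]
      rw [← Finset.sum_mul, ← Finset.mul_sum]
      simp only [Finset.sum_const, Finset.card_univ, Fintype.card_fin, nsmul_eq_mul]
      unfold Z
      field_simp
      ring
    rw [this]
    unfold W
    field_simp

lemma W_nonneg (hq : 0 < q) (x : Fin q → ℝ) (hx : ∀ i, 0 ≤ x i) : 0 ≤ W x := by
  rw [W_eq hq x]
  exact div_nonneg (Finset.sum_nonneg fun i _ => sq_nonneg _) (Finset.sum_nonneg fun i _ => hx i)

lemma edge_nonneg {lam : ℝ} (h : Admissible q lam) {x : Fin q → ℝ} (hx : ∀ i, 0 ≤ x i) (i : Fin q) :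
    0 ≤ edge lam x i :=
  Finset.sum_nonneg fun j _ => mul_nonneg (h i j) (hx j)

lemma W_edge (hq : 0 < q) (lam : ℝ) (x : Fin q → ℝ) :
    W (edge lam x) = lam ^ 2 * W x := by
  rw [W_eq hq _, W_eq hq x, sum_edge hq, Z_edge hq, ← mul_div_assoc,
    Finset.mul_sum]
  congr 1
  refine Finset.sum_congr rfl fun i _ => ?_
  rw [edge_eq]
  ring

lemma IsChan.edge {X : Type} [Fintype X] {f : X → Fin q → ℝ} (hf : IsChan f) (hq : 0 < q)
    {lam : ℝ} (h : Admissible q lam) : IsChan (fun x => edge lam (f x)) where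
  nonneg x i := edge_nonneg h (hf.nonneg x) i
  sum_one i := by
    unfold Vale.Agent.P154.edge
    rw [Finset.sum_comm]
    simp_rw [← Finset.mul_sum, hf.sum_one, mul_one]
    exact sum_potts_left hq lam i
  symm π := by
    obtain ⟨r, hr⟩ := hf.symm π
    refine ⟨r, fun x i => ?_⟩
    unfold Vale.Agent.P154.edge
    rw [← Equiv.sum_comp π]
    refine Finset.sum_congr rfl fun j _ => ?_
    rw [hr, potts_perm]

lemma IsChan.prod2 {X Y : Type} [Fintype X] [Fintype Y] {f : X → Fin q → ℝ} {g : Y → Fin q → ℝ}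
    (hf : IsChan f) (hg : IsChan g) : IsChan (prod2 f g) where
  nonneg p i := mul_nonneg (hf.nonneg _ _) (hg.nonneg _ _)
  sum_one i := by
    rw [Fintype.sum_prod_type]
    simp only [Vale.Agent.P154.prod2]
    simp_rw [← Finset.mul_sum, hg.sum_one, mul_one, hf.sum_one]
  symm π := by
    obtain ⟨r, hr⟩ := hf.symm π
    obtain ⟨r', hr'⟩ := hg.symm π
    refine ⟨Equiv.prodCongr r r', fun p i => ?_⟩
    simp [Vale.Agent.P154.prod2, hr, hr']

lemma IsChan.sum_Z {X : Type} [Fintype X] {f : X → Fin q → ℝ} (hf : IsChan f) (hq : 0 < q) :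
    ∑ x, Z (f x) = 1 := by
  have hq' : (q : ℝ) ≠ 0 := by exact_mod_cast hq.ne'
  unfold Z
  rw [← Finset.sum_div, Finset.sum_comm]
  simp_rw [hf.sum_one]
  simp [hq']

lemma IsChan.tot_W_nonneg {X : Type} [Fintype X] {f : X → Fin q → ℝ} (hf : IsChan f)
    (hq : 0 < q) : 0 ≤ tot W f :=
  Finset.sum_nonneg fun x _ => W_nonneg hq _ (hf.nonneg x)

/-- averaging the second factor of a product over permutations -/
lemma tot_prod2_avg (H : (Fin q → ℝ) → ℝ) {X Y : Type} [Fintype X] [Fintype Y]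
    {f : X → Fin q → ℝ} {g : Y → Fin q → ℝ} (hg : IsChan g) (S : Finset (Equiv.Perm (Fin q))) :
    (S.card : ℝ) * tot H (prod2 f g) =
      ∑ x, ∑ y, ∑ π ∈ S, H (fun i => f x i * g y (π i)) := by
  have key : ∀ π : Equiv.Perm (Fin q),
      tot H (prod2 f g) = ∑ x, ∑ y, H (fun i => f x i * g y (π i)) := by
    intro π
    obtain ⟨r, hr⟩ := hg.symm π.symm
    unfold tot
    rw [Fintype.sum_prod_type]
    refine Finset.sum_congr rfl fun x _ => ?_
    rw [← Equiv.sum_comp r]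
    refine Finset.sum_congr rfl fun y _ => ?_
    congr 1
    funext i
    simp only [prod2]
    have := hr y (π i)
    simp only [Equiv.symm_apply_apply] at this
    rw [this]
  calc (S.card : ℝ) * tot H (prod2 f g) = ∑ π ∈ S, tot H (prod2 f g) := by simp
    _ = ∑ π ∈ S, ∑ x, ∑ y, H (fun i => f x i * g y (π i)) :=
        Finset.sum_congr rfl fun π _ => key π
    _ = ∑ x, ∑ y, ∑ π ∈ S, H (fun i => f x i * g y (π i)) := by
        rw [Finset.sum_comm]
        refine Finset.sum_congr rfl fun x _ => ?_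
        rw [Finset.sum_comm]

end basic

/-- A Lyapunov certificate for the Potts channel `P_λ` on `q` states. -/
structure Cert (q : ℕ) (lam : ℝ) where
  /-- auxiliary functional; the invariant is `∑ₓ H (f x) ≥ 0` -/
  H : (Fin q → ℝ) → ℝ
  A : (Fin q → ℝ) → ℝ
  r : (Fin q → ℝ) → ℝ
  mu : ℝ
  S : Finset (Equiv.Perm (Fin q))
  c : ℝ
  c_nonneg : 0 ≤ c
  mu_nonneg : 0 ≤ mu
  S_nonempty : S.Nonempty
  A_nonneg : ∀ u : Fin q → ℝ, (∀ i, 0 ≤ u i) → 0 ≤ A u
  r_nonneg : ∀ u : Fin q → ℝ, (∀ i, 0 ≤ u i) → 0 ≤ r u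
  H_leaf : 0 ≤ ∑ j : Fin q, H (fun i => if j = i then 1 else 0)
  H_one : 0 ≤ H (fun _ => 1)
  H_edge : ∀ u : Fin q → ℝ, (∀ i, 0 ≤ u i) → c * H u ≤ H (edge lam u)
  pairH : ∀ u v : Fin q → ℝ, (∀ i, 0 ≤ u i) → (∀ i, 0 ≤ v i) →
    (S.card : ℝ) * (A v * H u + A u * H v) ≤ ∑ π ∈ S, H (fun i => u i * v (π i))
  pairW : ∀ u v : Fin q → ℝ, (∀ i, 0 ≤ u i) → (∀ i, 0 ≤ v i) →
    ∑ π ∈ S, W (fun i => u i * v (π i)) ≤
      (S.card : ℝ) * (W u * Z v + W v * Z u - H u * r v - H v * r u - mu * (W u * W v))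

namespace Cert

variable {lam : ℝ} (C : Cert q lam)

include C

lemma card_pos : (0 : ℝ) < C.S.card := by
  exact_mod_cast C.S_nonempty.card_pos

lemma tot_edge {X : Type} [Fintype X] {f : X → Fin q → ℝ} (hf : IsChan f)
    (hK : 0 ≤ tot C.H f) : 0 ≤ tot C.H (fun x => edge lam (f x)) := by
  have h : C.c * tot C.H f ≤ tot C.H (fun x => edge lam (f x)) := by
    unfold tot
    rw [Finset.mul_sum]
    exact Finset.sum_le_sum fun x _ => C.H_edge _ (hf.nonneg x)
  exact (mul_nonneg C.c_nonneg hK).trans h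

lemma pair_H {X Y : Type} [Fintype X] [Fintype Y] {f : X → Fin q → ℝ} {g : Y → Fin q → ℝ}
    (hf : IsChan f) (hg : IsChan g) (hKf : 0 ≤ tot C.H f) (hKg : 0 ≤ tot C.H g) :
    0 ≤ tot C.H (prod2 f g) := by
  have h1 := tot_prod2_avg C.H (f := f) hg C.S
  have h2 : ∑ x, ∑ y, (C.S.card : ℝ) * (C.A (g y) * C.H (f x) + C.A (f x) * C.H (g y)) ≤
      ∑ x, ∑ y, ∑ π ∈ C.S, C.H (fun i => f x i * g y (π i)) :=
    Finset.sum_le_sum fun x _ => Finset.sum_le_sum fun y _ =>
      C.pairH _ _ (hf.nonneg x) (hg.nonneg y)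
  have h3 : ∑ x, ∑ y, (C.S.card : ℝ) * (C.A (g y) * C.H (f x) + C.A (f x) * C.H (g y)) =
      (C.S.card : ℝ) * (tot C.A g * tot C.H f + tot C.A f * tot C.H g) := by
    unfold tot
    simp_rw [← Finset.mul_sum, Finset.sum_add_distrib]
    congr 2
    · rw [Finset.mul_sum]
      refine Finset.sum_congr rfl fun x _ => ?_
      rw [Finset.sum_mul]
    · rw [Finset.sum_mul]
      refine Finset.sum_congr rfl fun x _ => ?_
      rw [Finset.mul_sum]
  have h4 : 0 ≤ (C.S.card : ℝ) * (tot C.A g * tot C.H f + tot C.A f * tot C.H g) := by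
    refine mul_nonneg C.card_pos.le (add_nonneg (mul_nonneg ?_ hKf) (mul_nonneg ?_ hKg))
    · exact Finset.sum_nonneg fun y _ => C.A_nonneg _ (hg.nonneg y)
    · exact Finset.sum_nonneg fun x _ => C.A_nonneg _ (hf.nonneg x)
  have h5 : 0 ≤ (C.S.card : ℝ) * tot C.H (prod2 f g) := by
    rw [h1]; linarith
  exact nonneg_of_mul_nonneg_right h5 C.card_pos

lemma pair_W {X Y : Type} [Fintype X] [Fintype Y] {f : X → Fin q → ℝ} {g : Y → Fin q → ℝ}
    (hq : 0 < q) (hf : IsChan f) (hg : IsChan g) (hKf : 0 ≤ tot C.H f) (hKg : 0 ≤ tot C.H g) :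
    tot W (prod2 f g) ≤ tot W f + tot W g - C.mu * (tot W f * tot W g) := by
  have h1 := tot_prod2_avg W (f := f) hg C.S
  have h2 : ∑ x, ∑ y, ∑ π ∈ C.S, W (fun i => f x i * g y (π i)) ≤
      ∑ x, ∑ y, (C.S.card : ℝ) * (W (f x) * Z (g y) + W (g y) * Z (f x) - C.H (f x) * C.r (g y)
        - C.H (g y) * C.r (f x) - C.mu * (W (f x) * W (g y))) :=
    Finset.sum_le_sum fun x _ => Finset.sum_le_sum fun y _ =>
      C.pairW _ _ (hf.nonneg x) (hg.nonneg y)
  have h3 : ∑ x, ∑ y, (C.S.card : ℝ) * (W (f x) * Z (g y) + W (g y) * Z (f x)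
        - C.H (f x) * C.r (g y) - C.H (g y) * C.r (f x) - C.mu * (W (f x) * W (g y))) =
      (C.S.card : ℝ) * (tot W f * tot Z g + tot W g * tot Z f - tot C.H f * tot C.r g
        - tot C.H g * tot C.r f - C.mu * (tot W f * tot W g)) := by
    unfold tot
    simp_rw [← Finset.mul_sum, Finset.sum_sub_distrib, Finset.sum_add_distrib]
    congr 1
    simp_rw [← Finset.mul_sum, ← Finset.sum_mul]
    simp_rw [← Finset.mul_sum]
  have h4 : tot Z g = 1 := hg.sum_Z hq
  have h5 : tot Z f = 1 := hf.sum_Z hq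
  have h6 : 0 ≤ tot C.H f * tot C.r g :=
    mul_nonneg hKf (Finset.sum_nonneg fun y _ => C.r_nonneg _ (hg.nonneg y))
  have h7 : 0 ≤ tot C.H g * tot C.r f :=
    mul_nonneg hKg (Finset.sum_nonneg fun x _ => C.r_nonneg _ (hf.nonneg x))
  have h8 : (C.S.card : ℝ) * tot W (prod2 f g) ≤ (C.S.card : ℝ) *
      (tot W f + tot W g - C.mu * (tot W f * tot W g)) := by
    rw [h1]
    refine (h2.trans_eq h3).trans ?_
    refine mul_le_mul_of_nonneg_left ?_ C.card_pos.le
    rw [h4, h5]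
    linarith
  exact le_of_mul_le_mul_left h8 C.card_pos

end Cert

end Vale.Agent.P154
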