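import Mathlib
import Vale.Agent.P154.Chan

namespace Vale.Agent.P154

open Finset
open scoped BigOperators

variable {q : ℕ}

lemma tot_prodN_succ (H : (Fin q → ℝ) → ℝ) {k : ℕ} {X : Fin (k + 1) → Type}
    [∀ c, Fintype (X c)] (f : ∀ c, X c → Fin q → ℝ) :
    tot H (prodN f) = tot H (prod2 (f (Fin.last k)) (prodN fun c : Fin k => f c.castSucc)) := by
  rw [← tot_comp_equiv H (prodN f) (Fin.snocEquiv X)]
  unfold tot
  refine Finset.sum_congr rfl fun p _ => ?_
  congr 1
  funext i
  simp [prodN, prod2, Fin.prod_univ_castSucc, mul_comm]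

lemma IsChan.prodN : ∀ {k : ℕ} {X : Fin k → Type} [∀ c, Fintype (X c)]
    {f : ∀ c, X c → Fin q → ℝ}, (∀ c, IsChan (f c)) → IsChan (prodN f) := by
  intro k X _ f hf
  refine ⟨fun x i => Finset.prod_nonneg fun c _ => (hf c).nonneg _ _, fun i => ?_, fun π => ?_⟩
  · unfold Vale.Agent.P154.prodN
    have := Finset.prod_univ_sum (fun c : Fin k => (Finset.univ : Finset (X c)))
      (fun c x => f c x i)
    rw [Fintype.piFinset_univ] at this
    rw [← this]
    exact Finset.prod_eq_one fun c _ => (hf c).sum_one i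
  · choose r hr using fun c => (hf c).symm π
    refine ⟨Equiv.piCongrRight r, fun x i => ?_⟩
    unfold Vale.Agent.P154.prodN
    exact Finset.prod_congr rfl fun c _ => hr c (x c) i

lemma tot_prodN_zero (H : (Fin q → ℝ) → ℝ) {X : Fin 0 → Type}
    [∀ c, Fintype (X c)] (f : ∀ c, X c → Fin q → ℝ) :
    tot H (prodN f) = H (fun _ => 1) := by
  unfold tot
  rw [Fintype.sum_unique]
  congr 1

lemma tot_prodN_one (H : (Fin q → ℝ) → ℝ) {X : Fin 1 → Type}
    [∀ c, Fintype (X c)] (f : ∀ c, X c → Fin q → ℝ) :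
    tot H (prodN f) = tot H (f 0) := by
  rw [tot_prodN_succ]
  unfold tot
  rw [Fintype.sum_prod_type]
  refine Finset.sum_congr rfl fun x _ => ?_
  rw [Fintype.sum_unique]
  congr 1
  funext i
  simp [prodN, prod2]

lemma W_one (hq : 0 < q) : W (fun _ : Fin q => (1 : ℝ)) = 0 := by
  have hq' : (q : ℝ) ≠ 0 := by exact_mod_cast hq.ne'
  simp [W, hq']

theorem Cert.prodN_bound {lam : ℝ} (C : Cert q lam) (hq : 0 < q) :
    ∀ (k : ℕ) (X : Fin k → Type) [∀ c, Fintype (X c)] (f : ∀ c, X c → Fin q → ℝ),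
      (∀ c, IsChan (f c)) → (∀ c, 0 ≤ tot C.H (f c)) →
      0 ≤ tot C.H (prodN f) ∧
      tot W (prodN f) ≤ ∑ c, tot W (f c) -
        C.mu * (if h : 2 ≤ k then tot W (f ⟨0, by omega⟩) * tot W (f ⟨1, by omega⟩) else 0) := by
  intro k
  induction k with
  | zero =>
    intro X _ f _ _
    rw [tot_prodN_zero, tot_prodN_zero, W_one hq]
    exact ⟨C.H_one, by simp⟩
  | succ k ih =>
    intro X _ f hf hK
    obtain ⟨ih1, ih2⟩ := ih (fun c => X c.castSucc) (fun c => f c.castSucc)
      (fun c => hf _) (fun c => hK _)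
    have hc : IsChan (prodN fun c : Fin k => f c.castSucc) := IsChan.prodN fun c => hf _
    rw [tot_prodN_succ C.H, tot_prodN_succ W]
    refine ⟨C.pair_H (hf _) hc (hK _) ih1, ?_⟩
    have hp := C.pair_W hq (hf (Fin.last k)) hc (hK _) ih1
    have hW1 : 0 ≤ tot W (f (Fin.last k)) := (hf _).tot_W_nonneg hq
    have hW2 : 0 ≤ tot W (prodN fun c : Fin k => f c.castSucc) := hc.tot_W_nonneg hq
    have hmu := C.mu_nonneg
    have hmm : 0 ≤ C.mu * (tot W (f (Fin.last k)) * tot W (prodN fun c : Fin k => f c.castSucc)) :=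
      mul_nonneg hmu (mul_nonneg hW1 hW2)
    rw [Fin.sum_univ_castSucc]
    rcases Nat.lt_or_ge k 1 with h0 | h1
    · have : k = 0 := by omega
      subst this
      rw [dif_neg (by omega)] at ih2 ⊢
      have e3 : ∑ c : Fin 0, tot W (f c.castSucc) = 0 := by simp
      rw [e3] at ih2 ⊢
      linarith
    · rcases Nat.lt_or_ge k 2 with h2 | h2
      · have : k = 1 := by omega
        subst this
        have e1 : tot W (prodN fun c : Fin 1 => f c.castSucc) = tot W (f 0) := tot_prodN_one W _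
        have e2 : (Fin.last 1) = (1 : Fin 2) := rfl
        rw [e1, e2] at hp
        rw [e2]
        have e3 : ∑ c : Fin 1, tot W (f c.castSucc) = tot W (f 0) := by simp
        rw [e3, dif_pos (by norm_num)]
        have e4 : (⟨0, by omega⟩ : Fin 2) = 0 := rfl
        have e5 : (⟨1, by omega⟩ : Fin 2) = 1 := rfl
        rw [e4, e5]
        linarith [mul_comm (tot W (f 0)) (tot W (f 1))]
      · rw [dif_pos h2] at ih2
        rw [dif_pos (by omega)]
        have e0 : (Fin.castSucc (⟨0, by omega⟩ : Fin k)) = (⟨0, by omega⟩ : Fin (k + 1)) := rfl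
        have e1 : (Fin.castSucc (⟨1, by omega⟩ : Fin k)) = (⟨1, by omega⟩ : Fin (k + 1)) := rfl
        rw [e0, e1] at ih2
        linarith

end Vale.Agent.P154
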