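import Mathlib
import Vale.Agent.P154.ChanN

/-!
# P154: the likelihood recursion for the broadcast process
-/

namespace Vale.Agent.P154

open Finset
open scoped BigOperators

variable {q : ℕ}

/-- the subtree hanging off the child `c` of the root -/
def sub (N : List ℕ → ℕ) (c : ℕ) : List ℕ → ℕ := fun u => N (c :: u)

lemma mem_gen_succ {N : List ℕ → ℕ} {n : ℕ} {u : List ℕ} :
    u ∈ gen N (n + 1) ↔ ∃ v ∈ gen N n, ∃ k < N v, v ++ [k] = u := by
  simp [gen]

lemma nil_mem_gen {N : List ℕ → ℕ} {n : ℕ} : [] ∈ gen N n ↔ n = 0 := by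
  cases n with
  | zero => simp [gen]
  | succ n => simp [gen]

lemma cons_mem_gen {N : List ℕ → ℕ} {n : ℕ} : ∀ {c : ℕ} {u : List ℕ},
    c :: u ∈ gen N (n + 1) ↔ c < N [] ∧ u ∈ gen (sub N c) n := by
  induction n with
  | zero =>
    intro c u
    rw [mem_gen_succ]
    simp [gen]
  | succ n ih =>
    intro c u
    rw [mem_gen_succ]
    constructor
    · rintro ⟨v, hv, k, hk, he⟩
      cases v with
      | nil => simp [nil_mem_gen] at hv
      | cons c' w =>
        simp only [List.cons_append, List.cons.injEq] at he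
        obtain ⟨rfl, rfl⟩ := he
        rw [ih] at hv
        exact ⟨hv.1, mem_gen_succ.2 ⟨w, hv.2, k, hk, rfl⟩⟩
    · rintro ⟨hc, hu⟩
      obtain ⟨w, hw, k, hk, rfl⟩ := mem_gen_succ.1 hu
      exact ⟨c :: w, ih.2 ⟨hc, hw⟩, k, hk, rfl⟩

lemma mem_ball {N : List ℕ → ℕ} {n : ℕ} {u : List ℕ} :
    u ∈ ball N n ↔ ∃ m, m ≤ n ∧ u ∈ gen N m := by
  simp [ball]

lemma nil_mem_ball {N : List ℕ → ℕ} {n : ℕ} : [] ∈ ball N n :=
  mem_ball.2 ⟨0, Nat.zero_le _, by simp [gen]⟩

lemma cons_mem_ball {N : List ℕ → ℕ} {n : ℕ} {c : ℕ} {u : List ℕ} :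
    c :: u ∈ ball N (n + 1) ↔ c < N [] ∧ u ∈ ball (sub N c) n := by
  rw [mem_ball, mem_ball]
  constructor
  · rintro ⟨m, hm, hu⟩
    cases m with
    | zero => simp [gen] at hu
    | succ m =>
      rw [cons_mem_gen] at hu
      exact ⟨hu.1, m, by omega, hu.2⟩
  · rintro ⟨hc, m, hm, hu⟩
    exact ⟨m + 1, by omega, cons_mem_gen.2 ⟨hc, hu⟩⟩

lemma gen_subset_ball {N : List ℕ → ℕ} {n : ℕ} {u : List ℕ} (h : u ∈ gen N n) : u ∈ ball N n :=
  mem_ball.2 ⟨n, le_rfl, h⟩

lemma ball_zero (N : List ℕ → ℕ) : ball N 0 = {[]} := by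
  simp [ball, gen]

lemma not_isChild_nil {u : List ℕ} : ¬ IsChild u [] := by
  rintro ⟨k, hk⟩
  simp at hk

lemma isChild_nil_cons {c : ℕ} {v : List ℕ} : IsChild [] (c :: v) ↔ v = [] := by
  unfold IsChild
  constructor
  · rintro ⟨k, hk⟩
    simp at hk
    exact hk.2
  · rintro rfl
    exact ⟨c, rfl⟩

lemma isChild_cons_cons {c c' : ℕ} {u v : List ℕ} :
    IsChild (c :: u) (c' :: v) ↔ c' = c ∧ IsChild u v := by
  unfold IsChild
  constructor
  · rintro ⟨k, hk⟩
    simp at hk
    exact ⟨hk.1, k, hk.2⟩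
  · rintro ⟨rfl, k, rfl⟩
    exact ⟨k, rfl⟩

/-- vertices of the tree: the root, or a child of the root and a vertex of its subtree -/
def ballEquiv (N : List ℕ → ℕ) (n : ℕ) :
    Option (Σ c : Fin (N []), ball (sub N c) n) ≃ ball N (n + 1) where
  toFun
    | none => ⟨[], nil_mem_ball⟩
    | some ⟨c, u⟩ => ⟨(c : ℕ) :: (u : List ℕ), cons_mem_ball.2 ⟨c.2, u.2⟩⟩
  invFun
    | ⟨[], _⟩ => none
    | ⟨c :: u, h⟩ => some ⟨⟨c, (cons_mem_ball.1 h).1⟩, ⟨u, (cons_mem_ball.1 h).2⟩⟩
  left_inv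
    | none => rfl
    | some ⟨_, _⟩ => rfl
  right_inv
    | ⟨[], _⟩ => rfl
    | ⟨_ :: _, _⟩ => rfl

/-- generation `n + 1`: a child of the root and a vertex of generation `n` of its subtree -/
def genEquiv (N : List ℕ → ℕ) (n : ℕ) :
    (Σ c : Fin (N []), gen (sub N c) n) ≃ gen N (n + 1) where
  toFun p := ⟨(p.1 : ℕ) :: (p.2 : List ℕ), cons_mem_gen.2 ⟨p.1.2, p.2.2⟩⟩
  invFun
    | ⟨[], h⟩ => absurd (nil_mem_gen.1 h) (Nat.succ_ne_zero n)
    | ⟨c :: u, h⟩ => ⟨⟨c, (cons_mem_gen.1 h).1⟩, ⟨u, (cons_mem_gen.1 h).2⟩⟩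
  left_inv _ := rfl
  right_inv
    | ⟨[], h⟩ => absurd (nil_mem_gen.1 h) (Nat.succ_ne_zero n)
    | ⟨_ :: _, _⟩ => rfl

/-- gluing observed configurations -/
def glueG (q : ℕ) (N : List ℕ → ℕ) (n : ℕ) :
    (∀ c : Fin (N []), gen (sub N c) n → Fin q) ≃ (gen N (n + 1) → Fin q) where
  toFun t v := t ((genEquiv N n).symm v).1 ((genEquiv N n).symm v).2
  invFun t c u := t (genEquiv N n ⟨c, u⟩)
  left_inv t := by
    funext c u
    rfl
  right_inv t := by
    funext v
    change t ((genEquiv N n) ((genEquiv N n).symm v)) = t v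
    rw [Equiv.apply_symm_apply]

/-- gluing spin configurations of the whole ball -/
def glueB (q : ℕ) (N : List ℕ → ℕ) (n : ℕ) :
    (Fin q × ∀ c : Fin (N []), ball (sub N c) n → Fin q) ≃ (ball N (n + 1) → Fin q) where
  toFun p v := match (ballEquiv N n).symm v with
    | none => p.1
    | some a => p.2 a.1 a.2
  invFun s := (s (ballEquiv N n none), fun c u => s (ballEquiv N n (some ⟨c, u⟩)))
  left_inv p := rfl
  right_inv s := by
    funext v
    obtain ⟨a, rfl⟩ := (ballEquiv N n).surjective v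
    simp only [Equiv.symm_apply_apply]
    cases a with
    | none => rfl
    | some a => rfl

open Classical in
/-- product of edge weights -/
noncomputable def wt (q : ℕ) (lam : ℝ) (V : Finset (List ℕ)) (s : V → Fin q) : ℝ :=
  ∏ u : V, ∏ v : V,
    if IsChild (u : List ℕ) (v : List ℕ) then potts q lam (s u) (s v) else 1

open Classical in
/-- likelihood `Pr(σ_{L_n} = τ ∣ σ_ρ = i)` -/
noncomputable def lik (q : ℕ) (lam : ℝ) (N : List ℕ → ℕ) (n : ℕ) (τ : gen N n → Fin q)
    (i : Fin q) : ℝ :=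
  ∑ s : ball N n → Fin q,
    if (∀ h : [] ∈ ball N n, s ⟨[], h⟩ = i) ∧
        (∀ (v : gen N n) (h : (v : List ℕ) ∈ ball N n), s ⟨v, h⟩ = τ v)
    then wt q lam (ball N n) s else 0

lemma jointLaw_eq (lam : ℝ) (N : List ℕ → ℕ) (n : ℕ) (i : Fin q) (τ : gen N n → Fin q) :
    jointLaw q lam (ball N n) (gen N n) i τ = (1 / q) * lik q lam N n τ i := by
  unfold jointLaw lik spinLaw wt
  rw [Finset.mul_sum]
  refine Finset.sum_congr rfl fun s _ => ?_
  rw [mul_ite, mul_zero]

lemma wt_glue (lam : ℝ) (N : List ℕ → ℕ) (n : ℕ) (i : Fin q)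
    (s : ∀ c : Fin (N []), ball (sub N c) n → Fin q) :
    wt q lam (ball N (n + 1)) (glueB q N n (i, s)) =
      ∏ c : Fin (N []), (potts q lam i (s c ⟨[], nil_mem_ball⟩) *
        wt q lam (ball (sub N c) n) (s c)) := by
  classical
  unfold wt
  rw [← (ballEquiv N n).prod_comp]
  simp_rw [← (ballEquiv N n).prod_comp (fun v => ite _ _ _)]
  simp_rw [Fintype.prod_option, Fintype.prod_sigma]
  have h1 : ∀ a, ¬ IsChild ((ballEquiv N n a : ball N (n + 1)) : List ℕ)
      ((ballEquiv N n none : ball N (n + 1)) : List ℕ) := fun a => not_isChild_nil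
  simp only [h1, if_false, one_mul]
  rw [Finset.prod_mul_distrib]
  congr 1
  · refine Finset.prod_congr rfl fun c _ => ?_
    rw [Finset.prod_eq_single (⟨[], nil_mem_ball⟩ : ball (sub N c) n)]
    · rw [if_pos]
      · rfl
      · exact isChild_nil_cons.2 rfl
    · intro u _ hu
      rw [if_neg]
      intro h
      exact hu (Subtype.ext (isChild_nil_cons.1 h))
    · simp
  · refine Finset.prod_congr rfl fun c _ => ?_
    refine Finset.prod_congr rfl fun u _ => ?_
    rw [Finset.prod_eq_single c]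
    · refine Finset.prod_congr rfl fun v _ => ?_
      have : IsChild ((ballEquiv N n (some ⟨c, u⟩) : ball N (n + 1)) : List ℕ)
          ((ballEquiv N n (some ⟨c, v⟩) : ball N (n + 1)) : List ℕ) ↔
          IsChild (u : List ℕ) (v : List ℕ) := by
        change IsChild ((c : ℕ) :: (u : List ℕ)) ((c : ℕ) :: (v : List ℕ)) ↔ _
        rw [isChild_cons_cons]
        simp
      by_cases h : IsChild (u : List ℕ) (v : List ℕ)
      · rw [if_pos (this.2 h), if_pos h]
        rfl
      · rw [if_neg (fun h' => h (this.1 h')), if_neg h]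
    · intro c' _ hc'
      refine Finset.prod_eq_one fun v _ => ?_
      rw [if_neg]
      intro h
      have h' : IsChild ((c : ℕ) :: (u : List ℕ)) ((c' : ℕ) :: (v : List ℕ)) := h
      rw [isChild_cons_cons] at h'
      exact hc' (Fin.ext h'.1)
    · simp

lemma lik_zero (lam : ℝ) (N : List ℕ → ℕ) (τ : gen N 0 → Fin q) (i : Fin q) :
    lik q lam N 0 τ i = if τ ⟨[], by simp [gen]⟩ = i then 1 else 0 := by
  classical
  unfold lik
  have hmem : ∀ v : ball N 0, v = ⟨[], nil_mem_ball⟩ := by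
    rintro ⟨v, hv⟩
    have hv' := hv
    rw [ball_zero] at hv'
    exact Subtype.ext (by simpa using hv')
  have hmem' : ∀ v : gen N 0, v = ⟨[], by simp [gen]⟩ := by
    intro v
    have := v.2
    exact Subtype.ext (by simpa [gen] using this)
  have hw : ∀ s : ball N 0 → Fin q, wt q lam (ball N 0) s = 1 := by
    intro s
    unfold wt
    refine Finset.prod_eq_one fun u _ => Finset.prod_eq_one fun v _ => ?_
    rw [if_neg]
    rw [hmem v]
    exact not_isChild_nil
  simp_rw [hw]
  rw [Finset.sum_eq_single (fun _ : ball N 0 => τ ⟨[], by simp [gen]⟩)]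
  · by_cases h : τ ⟨[], by simp [gen]⟩ = i
    · rw [if_pos h, if_pos]
      refine ⟨fun _ => h, fun v _ => ?_⟩
      exact congrArg τ (hmem' v).symm
    · rw [if_neg h, if_neg]
      intro h'
      exact h (h'.1 nil_mem_ball)
  · intro s _ hs
    rw [if_neg]
    intro h'
    apply hs
    funext v
    rw [hmem v]
    exact h'.2 ⟨[], by simp [gen]⟩ nil_mem_ball
  · simp

lemma lik_succ (lam : ℝ) (N : List ℕ → ℕ) (n : ℕ)
    (t : ∀ c : Fin (N []), gen (sub N c) n → Fin q) (i : Fin q) :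
    lik q lam N (n + 1) (glueG q N n t) i =
      ∏ c : Fin (N []), edge lam (lik q lam (sub N c) n (t c)) i := by
  classical
  have key : ∀ (j : Fin q) (s : ∀ c : Fin (N []), ball (sub N c) n → Fin q),
      (if (∀ h : [] ∈ ball N (n + 1), glueB q N n (j, s) ⟨[], h⟩ = i) ∧
        (∀ (v : gen N (n + 1)) (h : (v : List ℕ) ∈ ball N (n + 1)),
          glueB q N n (j, s) ⟨v, h⟩ = glueG q N n t v)
      then wt q lam (ball N (n + 1)) (glueB q N n (j, s)) else 0) =
      if j = i then ∏ c : Fin (N []), (if ∀ (v : gen (sub N c) n)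
          (h : (v : List ℕ) ∈ ball (sub N c) n), s c ⟨v, h⟩ = t c v then
          potts q lam i (s c ⟨[], nil_mem_ball⟩) * wt q lam (ball (sub N c) n) (s c) else 0)
        else 0 := by
    intro j s
    by_cases hj : j = i
    · subst hj
      rw [if_pos rfl]
      by_cases hs : ∀ (c : Fin (N [])) (v : gen (sub N c) n)
          (h : (v : List ℕ) ∈ ball (sub N c) n), s c ⟨v, h⟩ = t c v
      · rw [if_pos, wt_glue]
        · refine Finset.prod_congr rfl fun c _ => ?_
          rw [if_pos (hs c)]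
        · refine ⟨fun h => rfl, fun v h => ?_⟩
          obtain ⟨⟨c, u⟩, rfl⟩ := (genEquiv N n).surjective v
          exact hs c u (cons_mem_ball.1 h).2
      · rw [if_neg]
        · push Not at hs
          obtain ⟨c, v, h, hne⟩ := hs
          rw [Finset.prod_eq_zero (Finset.mem_univ c)]
          rw [if_neg]
          intro h'
          exact hne (h' v h)
        · rintro ⟨_, h2⟩
          apply hs
          intro c v h
          exact h2 (genEquiv N n ⟨c, v⟩) (cons_mem_ball.2 ⟨c.2, h⟩)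
    · rw [if_neg hj, if_neg]
      rintro ⟨h1, _⟩
      exact hj (h1 nil_mem_ball)
  unfold lik
  rw [← (glueB q N n).sum_comp, Fintype.sum_prod_type]
  simp_rw [key]
  rw [Finset.sum_eq_single i]
  · simp only [if_true]
    have := Finset.prod_univ_sum (fun c : Fin (N []) =>
      (Finset.univ : Finset (ball (sub N c) n → Fin q)))
      (fun c s => if ∀ (v : gen (sub N c) n)
          (h : (v : List ℕ) ∈ ball (sub N c) n), s ⟨v, h⟩ = t c v then
          potts q lam i (s ⟨[], nil_mem_ball⟩) * wt q lam (ball (sub N c) n) s else 0)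
    rw [Fintype.piFinset_univ] at this
    rw [← this]
    refine Finset.prod_congr rfl fun c _ => ?_
    unfold edge
    simp_rw [Finset.mul_sum]
    rw [Finset.sum_comm]
    refine Finset.sum_congr rfl fun s _ => ?_
    rw [Finset.sum_eq_single (s ⟨[], nil_mem_ball⟩)]
    · by_cases hs : ∀ (v : gen (sub N c) n) (h : (v : List ℕ) ∈ ball (sub N c) n),
        s ⟨v, h⟩ = t c v
      · rw [if_pos hs, if_pos ⟨fun _ => rfl, hs⟩]
      · rw [if_neg hs, if_neg (fun h => hs h.2), mul_zero]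
    · intro j _ hj
      rw [if_neg, mul_zero]
      intro h
      exact hj (h.1 nil_mem_ball).symm
    · simp
  · intro j _ hj
    simp [hj]
  · simp

end Vale.Agent.P154
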