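import Mathlib
import Vale.Agent.P154.Rec

/-!
# P154: the tree-by-tree Lyapunov inequality
-/

namespace Vale.Agent.P154

open Finset
open scoped BigOperators

variable {q : ℕ}

/-- the reindexed likelihood of a tree of depth `n + 1` is a product channel -/
lemma lik_succ' (lam : ℝ) (N : List ℕ → ℕ) (n : ℕ) :
    (fun t => lik q lam N (n + 1) (glueG q N n t)) =
      prodN (fun c : Fin (N []) => fun τ : (gen (sub N c) n → Fin q) =>
        edge lam (lik q lam (sub N c) n τ)) := by
  funext t i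
  rw [lik_succ]
  rfl

lemma isChan_lik_zero (lam : ℝ) (N : List ℕ → ℕ) : IsChan (lik q lam N 0) := by
  classical
  have hmem' : ∀ v : gen N 0, v = ⟨[], by simp [gen]⟩ := by
    rintro ⟨v, hv⟩
    exact Subtype.ext (by simpa [gen] using hv)
  refine ⟨fun τ i => ?_, fun i => ?_, fun π => ?_⟩
  · rw [lik_zero]; split_ifs <;> norm_num
  · simp_rw [lik_zero]
    rw [Finset.sum_eq_single (fun _ => i)]
    · simp
    · intro τ _ hτ
      rw [if_neg]
      intro h
      apply hτ
      funext v
      rw [← h, hmem' v]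
    · simp
  · refine ⟨Equiv.arrowCongr (Equiv.refl _) π, fun τ i => ?_⟩
    rw [lik_zero, lik_zero]
    simp [Equiv.arrowCongr]

lemma tot_lik_zero (H : (Fin q → ℝ) → ℝ) (lam : ℝ) (N : List ℕ → ℕ) :
    tot H (lik q lam N 0) = ∑ j : Fin q, H (fun i => if j = i then 1 else 0) := by
  classical
  have hmem' : ∀ v : gen N 0, v = ⟨[], by simp [gen]⟩ := by
    rintro ⟨v, hv⟩
    exact Subtype.ext (by simpa [gen] using hv)
  let e : Fin q ≃ (gen N 0 → Fin q) :=
    { toFun := fun j _ => j
      invFun := fun τ => τ ⟨[], by simp [gen]⟩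
      left_inv := fun j => rfl
      right_inv := fun τ => by
        funext v
        exact congrArg τ (hmem' v).symm }
  rw [← tot_comp_equiv H (lik q lam N 0) e]
  unfold tot
  refine Finset.sum_congr rfl fun j _ => ?_
  congr 1
  funext i
  change lik q lam N 0 (e j) i = _
  rw [lik_zero]
  rfl

theorem isChan_lik (hq : 0 < q) {lam : ℝ} (h : Admissible q lam) :
    ∀ (n : ℕ) (N : List ℕ → ℕ), IsChan (lik q lam N n) := by
  intro n
  induction n with
  | zero => exact fun N => isChan_lik_zero lam N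
  | succ n ih =>
    intro N
    have h1 : IsChan (fun t => lik q lam N (n + 1) (glueG q N n t)) := by
      rw [lik_succ']
      exact IsChan.prodN fun c => (ih (sub N c)).edge hq h
    have := h1.comp_equiv (glueG q N n).symm
    simpa using this

/-- the chi-square information of the channel root → generation `n` -/
noncomputable def chi (q : ℕ) (lam : ℝ) (N : List ℕ → ℕ) (n : ℕ) : ℝ := tot W (lik q lam N n)

lemma chi_nonneg (hq : 0 < q) {lam : ℝ} (h : Admissible q lam) (N : List ℕ → ℕ) (n : ℕ) :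
    0 ≤ chi q lam N n := (isChan_lik hq h n N).tot_W_nonneg hq

lemma W_le (hq : 0 < q) (x : Fin q → ℝ) (hx : ∀ i, 0 ≤ x i) : W x ≤ (q - 1) * Z x := by
  have hq' : (q : ℝ) ≠ 0 := by exact_mod_cast hq.ne'
  unfold W Z
  have hs : 0 ≤ ∑ i, x i := Finset.sum_nonneg fun i _ => hx i
  have h2 : ∑ i, x i ^ 2 ≤ (∑ i, x i) * (∑ i, x i) := by
    rw [Finset.sum_mul]
    refine Finset.sum_le_sum fun i _ => ?_
    rw [sq]
    exact mul_le_mul_of_nonneg_left (Finset.single_le_sum (fun j _ => hx j) (Finset.mem_univ i))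
      (hx i)
  have h3 : (∑ i, x i ^ 2) / (∑ i, x i) ≤ ∑ i, x i := by
    rcases hs.eq_or_lt with h0 | h0
    · rw [← h0]; simp
    · rw [div_le_iff₀ h0]; exact h2
  have : (∑ i, x i) = q * ((∑ i, x i) / q) := by field_simp
  linarith

lemma chi_le (hq : 0 < q) {lam : ℝ} (h : Admissible q lam) (N : List ℕ → ℕ) (n : ℕ) :
    chi q lam N n ≤ q - 1 := by
  have hc := isChan_lik hq h n N
  unfold chi tot
  calc ∑ x, W (lik q lam N n x) ≤ ∑ x, (q - 1) * Z (lik q lam N n x) :=
        Finset.sum_le_sum fun x _ => W_le hq _ (hc.nonneg x)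
    _ = q - 1 := by rw [← Finset.mul_sum, hc.sum_Z hq, mul_one]

theorem Cert.lik_H {lam : ℝ} (C : Cert q lam) (hq : 0 < q) (h : Admissible q lam) :
    ∀ (n : ℕ) (N : List ℕ → ℕ), 0 ≤ tot C.H (lik q lam N n) := by
  intro n
  induction n with
  | zero => intro N; rw [tot_lik_zero]; exact C.H_leaf
  | succ n ih =>
    intro N
    rw [← tot_comp_equiv C.H _ (glueG q N n), lik_succ']
    exact (C.prodN_bound hq (N []) _ _ (fun c => (isChan_lik hq h n _).edge hq h)
      (fun c => C.tot_edge (isChan_lik hq h n _) (ih _))).1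

lemma tot_W_edge {X : Type} [Fintype X] (hq : 0 < q) (lam : ℝ) (f : X → Fin q → ℝ) :
    tot W (fun x => edge lam (f x)) = lam ^ 2 * tot W f := by
  unfold tot
  rw [Finset.mul_sum]
  exact Finset.sum_congr rfl fun x _ => W_edge hq lam _

theorem Cert.chi_succ {lam : ℝ} (C : Cert q lam) (hq : 0 < q) (h : Admissible q lam)
    (n : ℕ) (N : List ℕ → ℕ) :
    chi q lam N (n + 1) + C.mu * lam ^ 4 *
        (if 2 ≤ N [] then chi q lam (sub N 0) n * chi q lam (sub N 1) n else 0) ≤
      lam ^ 2 * ∑ c ∈ Finset.range (N []), chi q lam (sub N c) n := by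
  have h1 := (C.prodN_bound hq (N []) _ (fun c : Fin (N []) =>
      fun τ : (gen (sub N c) n → Fin q) => edge lam (lik q lam (sub N c) n τ))
    (fun c => (isChan_lik hq h n _).edge hq h)
      (fun c => C.tot_edge (isChan_lik hq h n _) (C.lik_H hq h n _))).2
  have h2 : chi q lam N (n + 1) = tot W (prodN (fun c : Fin (N []) =>
      fun τ : (gen (sub N c) n → Fin q) => edge lam (lik q lam (sub N c) n τ))) := by
    unfold chi
    rw [← tot_comp_equiv W _ (glueG q N n), lik_succ']
  rw [h2]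
  simp only [tot_W_edge hq] at h1
  have h3 : ∑ c : Fin (N []), lam ^ 2 * tot W (lik q lam (sub N c) n) =
      lam ^ 2 * ∑ c ∈ Finset.range (N []), chi q lam (sub N c) n := by
    rw [← Finset.mul_sum, Finset.sum_range]
    rfl
  rw [h3] at h1
  by_cases h4 : 2 ≤ N []
  · rw [dif_pos h4] at h1
    rw [if_pos h4]
    unfold chi at *
    linarith
  · rw [dif_neg h4] at h1
    rw [if_neg h4]
    linarith

/-- the summand of the total variation distance -/
noncomputable def advF (x : Fin q → ℝ) : ℝ := Z x * (1 / 2 * ∑ i, |(1 / q * x i) / Z x - 1 / q|)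

lemma quenched_eq (lam : ℝ) (N : List ℕ → ℕ) (n : ℕ) :
    quenched q lam N n = tot advF (lik q lam N n) := by
  unfold quenched tot
  refine Finset.sum_congr rfl fun τ _ => ?_
  have : obsLaw q lam (ball N n) (gen N n) τ = Z (lik q lam N n τ) := by
    unfold obsLaw Z
    simp_rw [jointLaw_eq]
    rw [← Finset.mul_sum]
    ring
  rw [this]
  unfold advF
  simp_rw [jointLaw_eq]

lemma advF_le (hq : 0 < q) (x : Fin q → ℝ) (hx : ∀ i, 0 ≤ x i) :
    advF x ≤ 1 / 2 * (Real.sqrt (W x) * Real.sqrt (Z x)) := by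
  have hq' : (q : ℝ) ≠ 0 := by exact_mod_cast hq.ne'
  have hq0 : (0 : ℝ) < q := by exact_mod_cast hq
  have hZ : 0 ≤ Z x := div_nonneg (Finset.sum_nonneg fun i _ => hx i) hq0.le
  rcases hZ.eq_or_lt with h0 | h0
  · unfold advF
    rw [← h0]
    simp
  · have hs : ∑ i, x i = q * Z x := by unfold Z; field_simp
    have e1 : advF x = 1 / (2 * q) * ∑ i, |x i - Z x| := by
      unfold advF
      have : ∀ i, |(1 / q * x i) / Z x - 1 / q| = 1 / (q * Z x) * |x i - Z x| := by
        intro i
        rw [← abs_of_pos (show (0 : ℝ) < 1 / (q * Z x) by positivity), ← abs_mul]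
        congr 1
        field_simp
      simp_rw [this, ← Finset.mul_sum]
      field_simp
    have e2 : (∑ i, |x i - Z x|) ^ 2 ≤ q * ∑ i, |x i - Z x| ^ 2 := by
      have := sq_sum_le_card_mul_sum_sq (s := (Finset.univ : Finset (Fin q)))
        (f := fun i => |x i - Z x|)
      simpa using this
    have e3 : ∑ i, |x i - Z x| ^ 2 = q * (Z x * W x) := by
      simp_rw [sq_abs]
      rw [W_eq hq x, hs]
      field_simp
    have e4 : ∑ i, |x i - Z x| ≤ q * Real.sqrt (W x * Z x) := by
      rw [e3] at e2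
      have h5 : (∑ i, |x i - Z x|) ≤ Real.sqrt (q * (q * (Z x * W x))) := by
        apply Real.le_sqrt_of_sq_le e2
      refine h5.trans_eq ?_
      rw [show (q : ℝ) * (q * (Z x * W x)) = q ^ 2 * (W x * Z x) by ring,
        Real.sqrt_mul (by positivity), Real.sqrt_sq hq0.le]
    rw [e1, ← Real.sqrt_mul (W_nonneg hq x hx)]
    calc 1 / (2 * q) * ∑ i, |x i - Z x| ≤ 1 / (2 * q) * (q * Real.sqrt (W x * Z x)) := by gcongr
      _ = 1 / 2 * Real.sqrt (W x * Z x) := by field_simp

lemma quenched_nonneg (hq : 0 < q) {lam : ℝ} (h : Admissible q lam) (N : List ℕ → ℕ) (n : ℕ) :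
    0 ≤ quenched q lam N n := by
  rw [quenched_eq]
  refine Finset.sum_nonneg fun x _ => ?_
  unfold advF
  have : 0 ≤ Z (lik q lam N n x) :=
    div_nonneg (Finset.sum_nonneg fun i _ => (isChan_lik hq h n N).nonneg x i) (Nat.cast_nonneg _)
  positivity

theorem quenched_le (hq : 0 < q) {lam : ℝ} (h : Admissible q lam) (N : List ℕ → ℕ) (n : ℕ) :
    quenched q lam N n ≤ 1 / 2 * Real.sqrt (chi q lam N n) := by
  have hc := isChan_lik hq h n N
  have hW : ∀ x, 0 ≤ W (lik q lam N n x) := fun x => W_nonneg hq _ (hc.nonneg x)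
  have hZ : ∀ x, 0 ≤ Z (lik q lam N n x) := fun x =>
    div_nonneg (Finset.sum_nonneg fun i _ => hc.nonneg x i) (Nat.cast_nonneg _)
  rw [quenched_eq]
  calc tot advF (lik q lam N n)
      ≤ ∑ x, 1 / 2 * (Real.sqrt (W (lik q lam N n x)) * Real.sqrt (Z (lik q lam N n x))) :=
        Finset.sum_le_sum fun x _ => advF_le hq _ (hc.nonneg x)
    _ = 1 / 2 * ∑ x, Real.sqrt (W (lik q lam N n x)) * Real.sqrt (Z (lik q lam N n x)) := by
        rw [Finset.mul_sum]
    _ ≤ 1 / 2 * (Real.sqrt (∑ x, W (lik q lam N n x)) *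
          Real.sqrt (∑ x, Z (lik q lam N n x))) := by
        have := Real.sum_sqrt_mul_sqrt_le (s := (Finset.univ : Finset (gen N n → Fin q)))
          (f := fun x => W (lik q lam N n x)) (g := fun x => Z (lik q lam N n x)) hW hZ
        linarith
    _ = 1 / 2 * Real.sqrt (chi q lam N n) := by
        rw [hc.sum_Z hq, Real.sqrt_one, mul_one]
        rfl

end Vale.Agent.P154
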