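import Mathlib
import Vale.Agent.P154.TreeBound

/-!
# P154: expectations over Galton–Watson trees
-/

namespace Vale.Agent.P154

open MeasureTheory ProbabilityTheory
open scoped BigOperators ENNReal

/-- The law of the Galton–Watson tree with i.i.d. offspring numbers of law `P`. -/
noncomputable def gwLaw (P : Measure ℕ) [IsProbabilityMeasure P] : Measure (List ℕ → ℕ) :=
  Measure.infinitePi fun _ : List ℕ => P

instance (P : Measure ℕ) [IsProbabilityMeasure P] : IsProbabilityMeasure (gwLaw P) := by
  unfold gwLaw; infer_instance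

lemma measurable_sub (c : ℕ) : Measurable (fun N : List ℕ → ℕ => sub N c) := by
  unfold sub; fun_prop

/-- σ-algebra generated by the offspring numbers of the vertices in `S` -/
@[instance_reducible]
def blk (S : Set (List ℕ)) : MeasurableSpace (List ℕ → ℕ) :=
  ⨆ u ∈ S, MeasurableSpace.comap (fun N : List ℕ → ℕ => N u) inferInstance

lemma blk_le (S : Set (List ℕ)) : blk S ≤ MeasurableSpace.pi := by
  refine iSup₂_le fun u _ => ?_
  exact (measurable_pi_apply u).comap_le

lemma measurable_eval_blk {S : Set (List ℕ)} {u : List ℕ} (hu : u ∈ S) :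
    Measurable[blk S] (fun N : List ℕ → ℕ => N u) := by
  rw [measurable_iff_comap_le]
  exact le_iSup₂_of_le u hu le_rfl

lemma measurable_sub_blk {S : Set (List ℕ)} {c : ℕ} (h : ∀ u, c :: u ∈ S) :
    Measurable[blk S] (fun N : List ℕ → ℕ => sub N c) := by
  exact @measurable_pi_lambda _ _ _ (blk S) _ _ fun u => measurable_eval_blk (h u)

section

variable (P : Measure ℕ) [IsProbabilityMeasure P]

lemma map_sub (c : ℕ) : (gwLaw P).map (fun N => sub N c) = gwLaw P := by
  unfold gwLaw
  exact Measure.map_infinitePi_infinitePi_of_inj (P := fun _ : List ℕ => P)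
    (f := fun u : List ℕ => c :: u) (fun a b h => by simpa using h)

lemma lintegral_sub (c : ℕ) {F : (List ℕ → ℕ) → ℝ≥0∞} (hF : Measurable F) :
    ∫⁻ N, F (sub N c) ∂(gwLaw P) = ∫⁻ N, F N ∂(gwLaw P) := by
  conv_rhs => rw [← map_sub P c]
  rw [lintegral_map hF (measurable_sub c)]

lemma lintegral_root {g : ℕ → ℝ≥0∞} :
    ∫⁻ N, g (N []) ∂(gwLaw P) = ∫⁻ k, g k ∂P := by
  have h : (gwLaw P).map (fun N : List ℕ → ℕ => N []) = P := by
    unfold gwLaw
    exact Measure.infinitePi_map_eval (fun _ : List ℕ => P) []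
  conv_rhs => rw [← h]
  rw [lintegral_map (measurable_of_countable g) (measurable_pi_apply _)]

lemma indep_blk {S T : Set (List ℕ)} (h : Disjoint S T) : Indep (blk S) (blk T) (gwLaw P) := by
  have h1 : iIndepFun (fun (u : List ℕ) (N : List ℕ → ℕ) => N u) (gwLaw P) := by
    unfold gwLaw
    exact iIndepFun_infinitePi (P := fun _ : List ℕ => P) (X := fun _ k => k)
      (fun _ => measurable_id)
  exact indep_iSup_of_disjoint (fun u => (measurable_pi_apply u).comap_le) h1.iIndep h

lemma lintegral_root_mul {g : ℕ → ℝ≥0∞} {F : (List ℕ → ℕ) → ℝ≥0∞}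
    (hF : Measurable[blk {u | u ≠ []}] F) :
    ∫⁻ N, g (N []) * F N ∂(gwLaw P) = (∫⁻ k, g k ∂P) * ∫⁻ N, F N ∂(gwLaw P) := by
  rw [← lintegral_root P]
  exact lintegral_mul_eq_lintegral_mul_lintegral_of_independent_measurableSpace
    (blk_le _) (blk_le _) (indep_blk P (S := {[]}) (T := {u | u ≠ []}) (by
      rw [Set.disjoint_left]; intro u hu hu'; exact hu' hu))
    ((measurable_of_countable g).comp (measurable_eval_blk (Set.mem_singleton _))) hF

lemma lintegral_sum_children {F : (List ℕ → ℕ) → ℝ≥0∞} (hF : Measurable F) :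
    ∫⁻ N, ∑ c ∈ Finset.range (N []), F (sub N c) ∂(gwLaw P) =
      (∫⁻ k, (k : ℝ≥0∞) ∂P) * ∫⁻ N, F N ∂(gwLaw P) := by
  have h1 : ∀ N : List ℕ → ℕ, ∑ c ∈ Finset.range (N []), F (sub N c) =
      ∑' c : ℕ, (if c < N [] then (1 : ℝ≥0∞) else 0) * F (sub N c) := by
    intro N
    rw [tsum_eq_sum (s := Finset.range (N []))]
    · refine Finset.sum_congr rfl fun c hc => ?_
      rw [if_pos (Finset.mem_range.1 hc), one_mul]
    · intro c hc
      rw [if_neg (fun h => hc (Finset.mem_range.2 h)), zero_mul]
  simp_rw [h1]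
  rw [lintegral_tsum]
  · have h2 : ∀ c : ℕ, ∫⁻ N, (if c < N [] then (1 : ℝ≥0∞) else 0) * F (sub N c) ∂(gwLaw P) =
        (∫⁻ k, (if c < k then (1 : ℝ≥0∞) else 0) ∂P) * ∫⁻ N, F N ∂(gwLaw P) := by
      intro c
      rw [lintegral_root_mul P (g := fun k => if c < k then (1 : ℝ≥0∞) else 0)
        (F := fun N => F (sub N c)), lintegral_sub P c hF]
      exact hF.comp (measurable_sub_blk (fun u => by simp))
    simp_rw [h2]
    rw [ENNReal.tsum_mul_right]
    congr 1
    rw [← lintegral_tsum (fun c => (measurable_of_countable _).aemeasurable)]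
    refine lintegral_congr fun k => ?_
    rw [tsum_eq_sum (s := Finset.range k)]
    · rw [Finset.sum_congr rfl (g := fun _ => (1 : ℝ≥0∞))
        (fun c hc => if_pos (Finset.mem_range.1 hc))]
      simp
    · intro c hc
      rw [if_neg (fun h => hc (Finset.mem_range.2 h))]
  · intro c
    refine Measurable.aemeasurable ?_
    refine Measurable.mul ?_ (hF.comp (measurable_sub c))
    exact (measurable_of_countable (fun k : ℕ => if c < k then (1 : ℝ≥0∞) else 0)).comp
      (measurable_pi_apply [])

lemma lintegral_pair {F : (List ℕ → ℕ) → ℝ≥0∞} (hF : Measurable F) {c c' : ℕ} (hc : c ≠ c') :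
    ∫⁻ N, F (sub N c) * F (sub N c') ∂(gwLaw P) = (∫⁻ N, F N ∂(gwLaw P)) ^ 2 := by
  have := lintegral_mul_eq_lintegral_mul_lintegral_of_independent_measurableSpace
    (blk_le _) (blk_le _) (indep_blk P (S := {u | ∃ w, u = c :: w}) (T := {u | ∃ w, u = c' :: w})
      (by
        rw [Set.disjoint_left]
        rintro u ⟨w, rfl⟩ ⟨w', h'⟩
        exact hc (by simpa using congrArg List.head? h')))
    (hF.comp (measurable_sub_blk (c := c) (S := {u | ∃ w, u = c :: w}) (fun u => ⟨u, rfl⟩)))
    (hF.comp (measurable_sub_blk (c := c') (S := {u | ∃ w, u = c' :: w}) (fun u => ⟨u, rfl⟩)))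
  simp only [Function.comp_def] at this
  rw [this, lintegral_sub P c hF, lintegral_sub P c' hF, sq]

lemma lintegral_two_children {F : (List ℕ → ℕ) → ℝ≥0∞} (hF : Measurable F) :
    ∫⁻ N, (if 2 ≤ N [] then F (sub N 0) * F (sub N 1) else 0) ∂(gwLaw P) =
      P {k | 2 ≤ k} * (∫⁻ N, F N ∂(gwLaw P)) ^ 2 := by
  have h1 : ∀ N : List ℕ → ℕ, (if 2 ≤ N [] then F (sub N 0) * F (sub N 1) else 0) =
      (if 2 ≤ N [] then (1 : ℝ≥0∞) else 0) * (F (sub N 0) * F (sub N 1)) := by
    intro N; split_ifs <;> simp
  simp_rw [h1]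
  rw [lintegral_root_mul P (g := fun k => if 2 ≤ k then (1 : ℝ≥0∞) else 0)
    (F := fun N => F (sub N 0) * F (sub N 1)), lintegral_pair P hF zero_ne_one]
  · congr 1
    rw [← lintegral_indicator_one (s := {k : ℕ | 2 ≤ k}) (MeasurableSet.of_discrete)]
    refine lintegral_congr fun k => ?_
    simp [Set.indicator]
  · exact Measurable.mul (hF.comp (measurable_sub_blk (fun u => by simp)))
      (hF.comp (measurable_sub_blk (fun u => by simp)))

end

section measurability

lemma measurableSet_mem_gen (n : ℕ) : ∀ u : List ℕ,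
    MeasurableSet {N : List ℕ → ℕ | u ∈ gen N n} := by
  induction n with
  | zero => intro u; simp [gen]
  | succ n ih =>
    intro u
    have : {N : List ℕ → ℕ | u ∈ gen N (n + 1)} =
        ⋃ v : List ℕ, ⋃ k : ℕ, ({N : List ℕ → ℕ | v ∈ gen N n} ∩
          ((fun N : List ℕ → ℕ => N v) ⁻¹' {m | k < m ∧ v ++ [k] = u})) := by
      ext N
      simp only [Set.mem_ofPred_eq, Set.mem_iUnion, Set.mem_inter_iff, Set.mem_preimage]
      rw [mem_gen_succ]
      constructor
      · rintro ⟨v, hv, k, hk, h⟩; exact ⟨v, k, hv, hk, h⟩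
      · rintro ⟨v, k, hv, hk, h⟩; exact ⟨v, hv, k, hk, h⟩
    rw [this]
    refine MeasurableSet.iUnion fun v => MeasurableSet.iUnion fun k => (ih v).inter ?_
    exact (measurable_pi_apply v) MeasurableSet.of_discrete

lemma measurableSet_mem_ball (n : ℕ) (u : List ℕ) :
    MeasurableSet {N : List ℕ → ℕ | u ∈ ball N n} := by
  have : {N : List ℕ → ℕ | u ∈ ball N n} =
      ⋃ m : ℕ, ⋃ _ : m ≤ n, {N : List ℕ → ℕ | u ∈ gen N m} := by
    ext N
    simp only [Set.mem_ofPred_eq, Set.mem_iUnion]
    rw [mem_ball]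
    simp
  rw [this]
  exact MeasurableSet.iUnion fun m => MeasurableSet.iUnion fun _ => measurableSet_mem_gen m u

/-- Anything that depends on the tree only through its first `n` generations is measurable. -/
lemma measurable_of_ball_gen {α : Type*} [MeasurableSpace α] (n : ℕ)
    (Φ : Finset (List ℕ) → Finset (List ℕ) → α) :
    Measurable (fun N : List ℕ → ℕ => Φ (ball N n) (gen N n)) := by
  let _ : MeasurableSpace (Finset (List ℕ)) := ⊤
  have h1 : Measurable (fun N : List ℕ → ℕ => (ball N n, gen N n)) := by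
    refine Measurable.prodMk ?_ ?_
    · refine measurable_to_countable' fun B => ?_
      have : (fun N : List ℕ → ℕ => ball N n) ⁻¹' {B} =
          ⋂ u : List ℕ, (if u ∈ B then {N : List ℕ → ℕ | u ∈ ball N n}
            else {N : List ℕ → ℕ | u ∈ ball N n}ᶜ) := by
        ext N
        simp only [Set.mem_preimage, Set.mem_singleton_iff, Set.mem_iInter, Finset.ext_iff]
        refine forall_congr' fun u => ?_
        by_cases hu : u ∈ B <;> simp [hu]
      rw [this]
      refine MeasurableSet.iInter fun u => ?_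
      split_ifs
      · exact measurableSet_mem_ball n u
      · exact (measurableSet_mem_ball n u).compl
    · refine measurable_to_countable' fun B => ?_
      have : (fun N : List ℕ → ℕ => gen N n) ⁻¹' {B} =
          ⋂ u : List ℕ, (if u ∈ B then {N : List ℕ → ℕ | u ∈ gen N n}
            else {N : List ℕ → ℕ | u ∈ gen N n}ᶜ) := by
        ext N
        simp only [Set.mem_preimage, Set.mem_singleton_iff, Set.mem_iInter, Finset.ext_iff]
        refine forall_congr' fun u => ?_
        by_cases hu : u ∈ B <;> simp [hu]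
      rw [this]
      refine MeasurableSet.iInter fun u => ?_
      split_ifs
      · exact measurableSet_mem_gen n u
      · exact (measurableSet_mem_gen n u).compl
  have h2 : Measurable (fun p : Finset (List ℕ) × Finset (List ℕ) => Φ p.1 p.2) :=
    measurable_of_countable _
  exact h2.comp h1

variable {q : ℕ}

lemma measurable_quenched (lam : ℝ) (n : ℕ) :
    Measurable (fun N : List ℕ → ℕ => quenched q lam N n) :=
  measurable_of_ball_gen n (fun B L => ∑ τ : L → Fin q, obsLaw q lam B L τ *
    (1 / 2 * ∑ i : Fin q, |jointLaw q lam B L i τ / obsLaw q lam B L τ - 1 / q|))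

open Classical in
lemma measurable_chi (lam : ℝ) (n : ℕ) :
    Measurable (fun N : List ℕ → ℕ => chi q lam N n) :=
  measurable_of_ball_gen n (fun B L => ∑ τ : L → Fin q, W (fun i => ∑ s : B → Fin q,
    if (∀ h : [] ∈ B, s ⟨[], h⟩ = i) ∧
        (∀ (v : L) (h : (v : List ℕ) ∈ B), s ⟨v, h⟩ = τ v)
    then wt q lam B s else 0))

end measurability

end Vale.Agent.P154
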