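import Mathlib
import Vale.Agent.P154.GW

/-!
# P154: nonreconstruction from a certificate
-/

namespace Vale.Agent.P154

open MeasureTheory ProbabilityTheory Filter Topology
open scoped BigOperators ENNReal NNReal Nat

variable {q : ℕ}

lemma tendsto_zero_of_rec {x : ℕ → ℝ} {c : ℝ} (hc : 0 < c) (h0 : ∀ n, 0 ≤ x n)
    (h : ∀ n, x (n + 1) + c * x n ^ 2 ≤ x n) : Tendsto x atTop (𝓝 0) := by
  have hanti : Antitone x := antitone_nat_of_succ_le fun n => by
    have := mul_nonneg hc.le (sq_nonneg (x n))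
    linarith [h n]
  have hb : BddBelow (Set.range x) := ⟨0, by rintro _ ⟨n, rfl⟩; exact h0 n⟩
  have hl := tendsto_atTop_ciInf hanti hb
  set L := ⨅ n, x n
  have h1 : L + c * L ^ 2 ≤ L :=
    le_of_tendsto_of_tendsto' ((hl.comp (tendsto_add_atTop_nat 1)).add ((hl.pow 2).const_mul c))
      hl h
  have h2 : c * L ^ 2 ≤ 0 := by linarith
  have h3 : L ^ 2 ≤ 0 := by
    by_contra h4
    push Not at h4
    have := mul_pos hc h4
    linarith
  have h4 : L = 0 := by
    have := sq_nonneg L
    exact pow_eq_zero_iff (two_ne_zero) |>.1 (le_antisymm h3 this)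
  rwa [h4] at hl

theorem Cert.nonreconstruction_regular {lam : ℝ} (C : Cert q lam) (hq : 0 < q)
    (h : Admissible q lam) (hmu : 0 < C.mu) {d : ℕ} (hd : 2 ≤ d) (hdl : d * lam ^ 2 ≤ 1) :
    Nonreconstruction (aRegular q lam d) := by
  have hx0 : ∀ n, 0 ≤ chi q lam (fun _ => d) n := fun n => chi_nonneg hq h _ n
  have hrec : ∀ n, chi q lam (fun _ => d) (n + 1) +
      C.mu * lam ^ 4 * (chi q lam (fun _ => d) n) ^ 2 ≤
      d * lam ^ 2 * chi q lam (fun _ => d) n := by
    intro n
    have h1 := C.chi_succ hq h n (fun _ => d)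
    rw [if_pos hd] at h1
    have h2 : ∀ c, sub (fun _ => d) c = fun _ => d := fun c => rfl
    simp only [h2] at h1
    rw [Finset.sum_const, Finset.card_range, nsmul_eq_mul] at h1
    linarith [sq (chi q lam (fun _ => d) n)]
  have hx : Tendsto (fun n => chi q lam (fun _ => d) n) atTop (𝓝 0) := by
    by_cases hl : lam = 0
    · have : ∀ n, chi q lam (fun _ => d) (n + 1) = 0 := by
        intro n
        have h1 := hrec n
        have h2 : lam ^ 2 = 0 := by rw [hl]; norm_num
        have h4 : lam ^ 4 = 0 := by rw [hl]; norm_num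
        rw [h2, h4] at h1
        simp only [mul_zero, zero_mul, add_zero] at h1
        exact le_antisymm h1 (hx0 (n + 1))
      rw [← tendsto_add_atTop_iff_nat 1]
      simp [this]
    · refine tendsto_zero_of_rec (c := C.mu * lam ^ 4) (by positivity) hx0 fun n => ?_
      refine (hrec n).trans ?_
      exact mul_le_of_le_one_left (hx0 n) hdl
  have hs : Tendsto (fun n => 1 / 2 * Real.sqrt (chi q lam (fun _ => d) n)) atTop (𝓝 0) := by
    have := ((Real.continuous_sqrt.tendsto 0).comp hx).const_mul (1 / 2)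
    simpa using this
  exact squeeze_zero (fun n => quenched_nonneg hq h _ n) (fun n => quenched_le hq h _ n) hs

/-- `a_n` on the Galton–Watson tree with offspring law `P`. -/
noncomputable def aGW (q : ℕ) (lam : ℝ) (P : Measure ℕ) [IsProbabilityMeasure P] (n : ℕ) : ℝ :=
  ∫ N, quenched q lam N n ∂(gwLaw P)

lemma integrable_chi (hq : 0 < q) {lam : ℝ} (h : Admissible q lam) (P : Measure ℕ)
    [IsProbabilityMeasure P] (n : ℕ) : Integrable (fun N => chi q lam N n) (gwLaw P) := by
  refine Integrable.of_bound (measurable_chi lam n).aestronglyMeasurable (q - 1 : ℝ)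
    (ae_of_all _ fun N => ?_)
  rw [Real.norm_eq_abs, abs_of_nonneg (chi_nonneg hq h N n)]
  exact chi_le hq h N n

lemma quenched_le_one (hq : 0 < q) {lam : ℝ} (h : Admissible q lam) (N : List ℕ → ℕ) (n : ℕ) :
    quenched q lam N n ≤ 1 / 2 * Real.sqrt q := by
  refine (quenched_le hq h N n).trans ?_
  have : chi q lam N n ≤ q := by linarith [chi_le hq h N n]
  have := Real.sqrt_le_sqrt this
  linarith

lemma integrable_quenched (hq : 0 < q) {lam : ℝ} (h : Admissible q lam) (P : Measure ℕ)
    [IsProbabilityMeasure P] (n : ℕ) : Integrable (fun N => quenched q lam N n) (gwLaw P) := by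
  refine Integrable.of_bound (measurable_quenched lam n).aestronglyMeasurable (1 / 2 * Real.sqrt q)
    (ae_of_all _ fun N => ?_)
  rw [Real.norm_eq_abs, abs_of_nonneg (quenched_nonneg hq h N n)]
  exact quenched_le_one hq h N n

lemma sqrt_le_eps {c e : ℝ} (hc : 0 ≤ c) (he : 0 < e) : Real.sqrt c ≤ (e + c / e) / 2 := by
  have h1 : 0 ≤ (Real.sqrt c - e) ^ 2 / e := by positivity
  have h2 : (Real.sqrt c - e) ^ 2 / e = c / e - 2 * Real.sqrt c + e := by
    rw [sub_sq, Real.sq_sqrt hc]; field_simp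
  linarith

theorem Cert.nonreconstruction_gw {lam : ℝ} (C : Cert q lam) (hq : 0 < q)
    (h : Admissible q lam) (hmu : 0 < C.mu) (P : Measure ℕ) [IsProbabilityMeasure P] {m : ℝ}
    (hm : ∫⁻ k, (k : ℝ≥0∞) ∂P ≤ ENNReal.ofReal m) (hm0 : 0 ≤ m)
    (hP : P {k | 2 ≤ k} ≠ 0) (hdl : m * lam ^ 2 ≤ 1) :
    Nonreconstruction (aGW q lam P) := by
  set X : ℕ → ℝ≥0∞ := fun n => ∫⁻ N, ENNReal.ofReal (chi q lam N n) ∂(gwLaw P) with hX
  have hF : ∀ n, Measurable (fun N : List ℕ → ℕ => ENNReal.ofReal (chi q lam N n)) :=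
    fun n => (measurable_chi lam n).ennreal_ofReal
  have hXlt : ∀ n, X n ≠ ⊤ := by
    intro n
    refine ne_top_of_le_ne_top (b := ENNReal.ofReal (q - 1)) ENNReal.ofReal_ne_top ?_
    calc X n ≤ ∫⁻ _, ENNReal.ofReal (q - 1) ∂(gwLaw P) :=
          lintegral_mono fun N => ENNReal.ofReal_le_ofReal (chi_le hq h N n)
      _ = ENNReal.ofReal (q - 1) := by simp
  have hrec : ∀ n, X (n + 1) + ENNReal.ofReal (C.mu * lam ^ 4) * (P {k | 2 ≤ k} * X n ^ 2) ≤
      ENNReal.ofReal (m * lam ^ 2) * X n := by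
    intro n
    have h1 : ∀ N : List ℕ → ℕ, ENNReal.ofReal (chi q lam N (n + 1)) +
        ENNReal.ofReal (C.mu * lam ^ 4) * (if 2 ≤ N [] then
          ENNReal.ofReal (chi q lam (sub N 0) n) * ENNReal.ofReal (chi q lam (sub N 1) n) else 0) ≤
        ENNReal.ofReal (lam ^ 2) * ∑ c ∈ Finset.range (N []),
          ENNReal.ofReal (chi q lam (sub N c) n) := by
      intro N
      have h2 := C.chi_succ hq h n N
      have h3 : 0 ≤ C.mu * lam ^ 4 := by positivity
      have h4 : ENNReal.ofReal (C.mu * lam ^ 4) * (if 2 ≤ N [] then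
          ENNReal.ofReal (chi q lam (sub N 0) n) * ENNReal.ofReal (chi q lam (sub N 1) n) else 0) =
          ENNReal.ofReal (C.mu * lam ^ 4 *
            (if 2 ≤ N [] then chi q lam (sub N 0) n * chi q lam (sub N 1) n else 0)) := by
        rw [ENNReal.ofReal_mul h3]
        congr 1
        split_ifs
        · rw [ENNReal.ofReal_mul (chi_nonneg hq h _ _)]
        · simp
      have h5 : 0 ≤ (if 2 ≤ N [] then chi q lam (sub N 0) n * chi q lam (sub N 1) n else 0) := by
        split_ifs
        · exact mul_nonneg (chi_nonneg hq h _ _) (chi_nonneg hq h _ _)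
        · exact le_rfl
      rw [h4, ← ENNReal.ofReal_add (chi_nonneg hq h _ _) (mul_nonneg h3 h5),
        ← ENNReal.ofReal_sum_of_nonneg (fun c _ => chi_nonneg hq h _ _),
        ← ENNReal.ofReal_mul (sq_nonneg lam)]
      exact ENNReal.ofReal_le_ofReal h2
    have h2 := lintegral_mono (μ := gwLaw P) h1
    rw [lintegral_add_left (hF (n + 1)), lintegral_const_mul' _ _ ENNReal.ofReal_ne_top,
      lintegral_const_mul' _ _ ENNReal.ofReal_ne_top, lintegral_two_children P (hF n),
      lintegral_sum_children P (hF n)] at h2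
    refine h2.trans ?_
    rw [← mul_assoc]
    refine mul_le_mul_left ?_ _
    rw [mul_comm m, ENNReal.ofReal_mul (sq_nonneg lam)]
    exact mul_le_mul_right hm _
  -- pass to real numbers
  set x : ℕ → ℝ := fun n => (X n).toReal with hx
  have hx0 : ∀ n, 0 ≤ x n := fun n => ENNReal.toReal_nonneg
  have hxrec : ∀ n, x (n + 1) + (C.mu * lam ^ 4 * (P {k | 2 ≤ k}).toReal) * x n ^ 2 ≤
      m * lam ^ 2 * x n := by
    intro n
    have h1 := hrec n
    have h2 : ENNReal.ofReal (m * lam ^ 2) * X n ≠ ⊤ :=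
      ENNReal.mul_ne_top ENNReal.ofReal_ne_top (hXlt n)
    have h3 := ENNReal.toReal_mono h2 h1
    have h4 : ENNReal.ofReal (C.mu * lam ^ 4) * (P {k | 2 ≤ k} * X n ^ 2) ≠ ⊤ :=
      ENNReal.mul_ne_top ENNReal.ofReal_ne_top
        (ENNReal.mul_ne_top (measure_ne_top _ _) (ENNReal.pow_ne_top (hXlt n)))
    rw [ENNReal.toReal_add (hXlt _) h4, ENNReal.toReal_mul, ENNReal.toReal_mul, ENNReal.toReal_mul,
      ENNReal.toReal_pow, ENNReal.toReal_ofReal (by positivity),
      ENNReal.toReal_ofReal (by positivity)] at h3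
    simp only [hx]
    linarith
  have hxlim : Tendsto x atTop (𝓝 0) := by
    by_cases hl : lam = 0
    · have : ∀ n, x (n + 1) = 0 := by
        intro n
        have h1 := hxrec n
        have h2 : lam ^ 2 = 0 := by rw [hl]; norm_num
        have h4 : lam ^ 4 = 0 := by rw [hl]; norm_num
        rw [h2, h4] at h1
        simp only [mul_zero, zero_mul, add_zero] at h1
        exact le_antisymm h1 (hx0 _)
      rw [← tendsto_add_atTop_iff_nat 1]
      simp [this]
    · have hp : 0 < (P {k | 2 ≤ k}).toReal := ENNReal.toReal_pos hP (measure_ne_top _ _)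
      refine tendsto_zero_of_rec (c := C.mu * lam ^ 4 * (P {k | 2 ≤ k}).toReal)
        (by positivity) hx0 fun n => ?_
      exact (hxrec n).trans (mul_le_of_le_one_left (hx0 n) hdl)
  have hxint : ∀ n, ∫ N, chi q lam N n ∂(gwLaw P) = x n := by
    intro n
    rw [integral_eq_lintegral_of_nonneg_ae (ae_of_all _ fun N => chi_nonneg hq h N n)
      (measurable_chi lam n).aestronglyMeasurable]
  have hbound : ∀ (n : ℕ) (e : ℝ), 0 < e → aGW q lam P n ≤ (e + x n / e) / 4 := by
    intro n e he
    calc aGW q lam P n ≤ ∫ N, ((e + chi q lam N n / e) / 4) ∂(gwLaw P) := by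
          refine integral_mono (integrable_quenched hq h P n) ?_ fun N => ?_
          · exact ((integrable_const e).add ((integrable_chi hq h P n).div_const e)).div_const 4
          · have h1 := quenched_le hq h N n
            have h2 := sqrt_le_eps (chi_nonneg hq h N n) he
            simp only
            linarith
      _ = (e + x n / e) / 4 := by
          rw [integral_div, integral_add (integrable_const e)
            ((integrable_chi hq h P n).div_const e), integral_div, hxint]
          simp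
  have h0 : ∀ n, 0 ≤ aGW q lam P n := fun n =>
    integral_nonneg fun N => quenched_nonneg hq h N n
  unfold Nonreconstruction
  rw [Metric.tendsto_atTop]
  intro e he
  obtain ⟨n0, hn0⟩ := (Metric.tendsto_atTop.1 hxlim) (e ^ 2) (by positivity)
  refine ⟨n0, fun n hn => ?_⟩
  have h1 := hn0 n hn
  rw [Real.dist_eq, sub_zero, abs_of_nonneg (hx0 n)] at h1
  rw [Real.dist_eq, sub_zero, abs_of_nonneg (h0 n)]
  have h2 := hbound n e he
  have h3 : x n / e < e := by
    rw [div_lt_iff₀ he]; linarith [sq e]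
  linarith

lemma lintegral_poisson (d : ℝ≥0) :
    ∫⁻ k, (k : ℝ≥0∞) ∂(poissonMeasure d) = ENNReal.ofReal d := by
  have hs : HasSum (fun n : ℕ => (n : ℝ) * (Real.exp (-d) * d ^ n / (n)!)) d := by
    rw [← hasSum_nat_add_iff' 1]
    have h1 := (hasSum_one_poissonMeasure d).mul_left (d : ℝ)
    simp only [mul_one, Finset.sum_range_one, Nat.cast_zero, zero_mul, sub_zero] at h1 ⊢
    have e : (fun n : ℕ => ((n + 1 : ℕ) : ℝ) * (Real.exp (-d) * d ^ (n + 1) / (n + 1)!)) =
        fun n : ℕ => (d : ℝ) * (Real.exp (-d) * d ^ n / (n)!) := by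
      funext n
      rw [Nat.factorial_succ]
      push_cast
      field_simp
      ring
    rw [e]
    exact h1
  rw [lintegral_countable']
  have h2 : ∀ n : ℕ, (n : ℝ≥0∞) * poissonMeasure d {n} =
      ENNReal.ofReal ((n : ℝ) * (Real.exp (-d) * d ^ n / (n)!)) := by
    intro n
    rw [poissonMeasure_singleton, ENNReal.ofReal_mul (Nat.cast_nonneg n), ENNReal.ofReal_natCast]
  simp_rw [h2]
  rw [← ENNReal.ofReal_tsum_of_nonneg (fun n => by positivity) hs.summable, hs.tsum_eq]

lemma poisson_two_ne_zero {d : ℝ≥0} (hd : 0 < d) : poissonMeasure d {k | 2 ≤ k} ≠ 0 := by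
  intro h0
  have h1 : poissonMeasure d {2} = 0 := by
    refine measure_mono_null ?_ h0
    intro k hk
    rw [Set.mem_singleton_iff] at hk
    subst hk
    simp
  have h2 := poissonMeasure_real_singleton_pos (r := d) 2 hd
  rw [measureReal_def, h1] at h2
  simp at h2

theorem Cert.nonreconstruction_poisson {lam : ℝ} (C : Cert q lam) (hq : 0 < q)
    (h : Admissible q lam) (hmu : 0 < C.mu) {d : ℝ≥0} (hd : 0 < d) (hdl : d * lam ^ 2 ≤ 1) :
    Nonreconstruction (aPoisson q lam d) :=
  C.nonreconstruction_gw hq h hmu (poissonMeasure d) (lintegral_poisson d).le d.2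
    (poisson_two_ne_zero hd) hdl

end Vale.Agent.P154
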