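import Mathlib
import Vale.Agent.P154.Limit

/-!
# P154: monotonicity of `a_n` (data processing)
-/

namespace Vale.Agent.P154

open MeasureTheory Filter Topology Finset
open scoped BigOperators

variable {q : ℕ}

/-- `g` is a degradation of `f` -/
def Deg {X Y : Type} [Fintype X] [Fintype Y] (g : Y → Fin q → ℝ) (f : X → Fin q → ℝ) : Prop :=
  ∃ Q : X → Y → ℝ, (∀ x y, 0 ≤ Q x y) ∧ (∀ x, ∑ y, Q x y = 1) ∧
    ∀ y i, g y i = ∑ x, Q x y * f x i

lemma Deg.edge {X Y : Type} [Fintype X] [Fintype Y] {g : Y → Fin q → ℝ} {f : X → Fin q → ℝ}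
    (h : Deg g f) (lam : ℝ) : Deg (fun y => edge lam (g y)) (fun x => edge lam (f x)) := by
  obtain ⟨Q, h0, h1, h2⟩ := h
  refine ⟨Q, h0, h1, fun y i => ?_⟩
  unfold Vale.Agent.P154.edge
  simp_rw [h2, Finset.mul_sum]
  rw [Finset.sum_comm]
  refine Finset.sum_congr rfl fun x _ => Finset.sum_congr rfl fun j _ => ?_
  ring

lemma Deg.prodN {k : ℕ} {X Y : Fin k → Type} [∀ c, Fintype (X c)] [∀ c, Fintype (Y c)]
    {g : ∀ c, Y c → Fin q → ℝ} {f : ∀ c, X c → Fin q → ℝ} (h : ∀ c, Deg (g c) (f c)) :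
    Deg (prodN g) (prodN f) := by
  choose Q h0 h1 h2 using h
  refine ⟨fun x y => ∏ c, Q c (x c) (y c), fun x y => Finset.prod_nonneg fun c _ => h0 _ _ _,
    fun x => ?_, fun y i => ?_⟩
  · have := Finset.prod_univ_sum (fun c : Fin k => (Finset.univ : Finset (Y c)))
      (fun c y => Q c (x c) y)
    rw [Fintype.piFinset_univ] at this
    rw [← this]
    exact Finset.prod_eq_one fun c _ => h1 c _
  · unfold Vale.Agent.P154.prodN
    have := Finset.prod_univ_sum (fun c : Fin k => (Finset.univ : Finset (X c)))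
      (fun c x => Q c x (y c) * f c x i)
    rw [Fintype.piFinset_univ] at this
    simp_rw [h2, this, Finset.prod_mul_distrib]

lemma Deg.comp_equiv {X Y X' Y' : Type} [Fintype X] [Fintype Y] [Fintype X'] [Fintype Y']
    {g : Y → Fin q → ℝ} {f : X → Fin q → ℝ}
    (e : X' ≃ X) (e' : Y' ≃ Y) (h : Deg (fun y => g (e' y)) (fun x => f (e x))) : Deg g f := by
  obtain ⟨Q, h0, h1, h2⟩ := h
  refine ⟨fun x y => Q (e.symm x) (e'.symm y), fun x y => h0 _ _, fun x => ?_, fun y i => ?_⟩
  · rw [← h1 (e.symm x)]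
    exact Equiv.sum_comp e'.symm fun y => Q (e.symm x) y
  · have := h2 (e'.symm y) i
    simp only [Equiv.apply_symm_apply] at this
    rw [this, ← e.sum_comp]
    simp

lemma deg_lik_zero {Y : Type} [Fintype Y] {g : Y → Fin q → ℝ} (hg : IsChan g) (lam : ℝ)
    (N : List ℕ → ℕ) : Deg g (lik q lam N 0) := by
  refine ⟨fun τ y => g y (τ ⟨[], by simp [gen]⟩), fun τ y => hg.nonneg _ _,
    fun τ => hg.sum_one _, fun y i => ?_⟩
  have hmem' : ∀ v : gen N 0, v = ⟨[], by simp [gen]⟩ := by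
    rintro ⟨v, hv⟩
    exact Subtype.ext (by simpa [gen] using hv)
  simp_rw [lik_zero]
  rw [Finset.sum_eq_single (fun _ => i)]
  · simp
  · intro τ _ hτ
    rw [if_neg, mul_zero]
    intro h
    apply hτ
    funext v
    rw [← h, hmem' v]
  · simp

theorem deg_lik (hq : 0 < q) {lam : ℝ} (h : Admissible q lam) :
    ∀ (n : ℕ) (N : List ℕ → ℕ), Deg (lik q lam N (n + 1)) (lik q lam N n) := by
  intro n
  induction n with
  | zero => exact fun N => deg_lik_zero (isChan_lik hq h 1 N) lam N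
  | succ n ih =>
    intro N
    refine Deg.comp_equiv (glueG q N n) (glueG q N (n + 1)) ?_
    rw [lik_succ', lik_succ']
    exact Deg.prodN fun c => (ih (sub N c)).edge lam

lemma advF_eq (hq : 0 < q) (x : Fin q → ℝ) (hx : ∀ i, 0 ≤ x i) :
    advF x = 1 / (2 * q) * ∑ i, |x i - Z x| := by
  have hq' : (q : ℝ) ≠ 0 := by exact_mod_cast hq.ne'
  have hq0 : (0 : ℝ) < q := by exact_mod_cast hq
  have hZ : 0 ≤ Z x := div_nonneg (Finset.sum_nonneg fun i _ => hx i) hq0.le
  rcases hZ.eq_or_lt with h0 | h0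
  · have hs : ∑ i, x i = 0 := by
      unfold Z at h0
      rw [eq_comm, div_eq_zero_iff] at h0
      exact h0.resolve_right hq'
    have hx0 : ∀ i, x i = 0 := by
      intro i
      exact (Finset.sum_eq_zero_iff_of_nonneg (fun j _ => hx j)).1 hs i (Finset.mem_univ i)
    unfold advF
    rw [← h0]
    simp [hx0]
  · unfold advF
    have : ∀ i, |(1 / q * x i) / Z x - 1 / q| = 1 / (q * Z x) * |x i - Z x| := by
      intro i
      rw [← abs_of_pos (show (0 : ℝ) < 1 / (q * Z x) by positivity), ← abs_mul]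
      congr 1
      field_simp
    simp_rw [this, ← Finset.mul_sum]
    field_simp

lemma tot_advF_le_of_deg (hq : 0 < q) {X Y : Type} [Fintype X] [Fintype Y]
    {g : Y → Fin q → ℝ} {f : X → Fin q → ℝ} (hg : ∀ y i, 0 ≤ g y i) (hf : ∀ x i, 0 ≤ f x i)
    (h : Deg g f) : tot advF g ≤ tot advF f := by
  obtain ⟨Q, h0, h1, h2⟩ := h
  have hZ : ∀ y, Z (g y) = ∑ x, Q x y * Z (f x) := by
    intro y
    unfold Z
    simp_rw [h2]
    rw [Finset.sum_comm, Finset.sum_div]
    refine Finset.sum_congr rfl fun x _ => ?_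
    rw [← Finset.mul_sum]
    ring
  have key : ∀ y, advF (g y) ≤ ∑ x, Q x y * advF (f x) := by
    intro y
    rw [advF_eq hq _ (hg y)]
    simp_rw [fun x => advF_eq hq _ (hf x)]
    have h3 : ∑ x, Q x y * (1 / (2 * q) * ∑ i, |f x i - Z (f x)|) =
        1 / (2 * q) * ∑ i, ∑ x, Q x y * |f x i - Z (f x)| := by
      rw [Finset.sum_comm, Finset.mul_sum]
      refine Finset.sum_congr rfl fun x _ => ?_
      rw [← Finset.mul_sum]
      ring
    rw [h3]
    refine mul_le_mul_of_nonneg_left ?_ (by positivity)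
    refine Finset.sum_le_sum fun i _ => ?_
    rw [h2, hZ, ← Finset.sum_sub_distrib]
    refine (Finset.abs_sum_le_sum_abs _ _).trans ?_
    refine Finset.sum_le_sum fun x _ => ?_
    rw [← mul_sub, abs_mul, abs_of_nonneg (h0 x y)]
  unfold tot
  calc ∑ y, advF (g y) ≤ ∑ y, ∑ x, Q x y * advF (f x) := Finset.sum_le_sum fun y _ => key y
    _ = ∑ x, (∑ y, Q x y) * advF (f x) := by
        rw [Finset.sum_comm]
        refine Finset.sum_congr rfl fun x _ => ?_
        rw [Finset.sum_mul]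
    _ = ∑ x, advF (f x) := by simp_rw [h1, one_mul]

theorem quenched_succ_le (hq : 0 < q) {lam : ℝ} (h : Admissible q lam) (N : List ℕ → ℕ) (n : ℕ) :
    quenched q lam N (n + 1) ≤ quenched q lam N n := by
  rw [quenched_eq, quenched_eq]
  exact tot_advF_le_of_deg hq (isChan_lik hq h _ _).nonneg (isChan_lik hq h _ _).nonneg
    (deg_lik hq h n N)

theorem aGW_antitone (hq : 0 < q) {lam : ℝ} (h : Admissible q lam) (P : Measure ℕ)
    [IsProbabilityMeasure P] : Antitone (aGW q lam P) :=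
  antitone_nat_of_succ_le fun n => integral_mono (integrable_quenched hq h P (n + 1))
    (integrable_quenched hq h P n) fun N => quenched_succ_le hq h N n

theorem aGW_nonneg (hq : 0 < q) {lam : ℝ} (h : Admissible q lam) (P : Measure ℕ)
    [IsProbabilityMeasure P] (n : ℕ) : 0 ≤ aGW q lam P n :=
  integral_nonneg fun N => quenched_nonneg hq h N n

theorem aRegular_eq (lam : ℝ) (d n : ℕ) :
    aRegular q lam d n = aGW q lam (Measure.dirac d) n := by
  unfold aRegular aGW gwLaw
  rw [Measure.infinitePi_dirac, integral_dirac]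

theorem aPoisson_eq (lam : ℝ) (d : NNReal) (n : ℕ) :
    aPoisson q lam d n = aGW q lam (ProbabilityTheory.poissonMeasure d) n := rfl

/-- a nonincreasing nonnegative sequence bounded away from `0` has a positive limit -/
lemma reconstruction_of_lower {a : ℕ → ℝ} (ha : Antitone a) {c : ℝ} (hc : 0 < c)
    (h : ∀ n, c ≤ a n) : Reconstruction a := by
  have hb : BddBelow (Set.range a) := ⟨c, by rintro _ ⟨n, rfl⟩; exact h n⟩
  exact ⟨⨅ n, a n, hc.trans_le (le_ciInf h), tendsto_atTop_ciInf ha hb⟩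

lemma not_both {a : ℕ → ℝ} (h1 : Reconstruction a) (h2 : Nonreconstruction a) : False := by
  obtain ⟨l, hl, h⟩ := h1
  exact hl.ne' (tendsto_nhds_unique h h2)

end Vale.Agent.P154
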