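import Mathlib
import Vale.Agent.P154.Mono

/-!
# P154: linear statistics (Kesten–Stigum direction)
-/

namespace Vale.Agent.P154

open MeasureTheory Filter Topology Finset
open scoped BigOperators

variable {q : ℕ}

/-- a statistic with signal `A` and second moment at most `B` -/
def Stat {X : Type} [Fintype X] (f : X → Fin q → ℝ) (A B : ℝ) : Prop :=
  ∃ S : X → Fin q → ℝ,
    (∀ i j, ∑ x, f x i * S x j = A * ((if i = j then 1 else 0) - 1 / q)) ∧
    ∑ x, Z (f x) * ∑ j, S x j ^ 2 ≤ B

lemma Stat.edge {X : Type} [Fintype X] {f : X → Fin q → ℝ} {A B : ℝ} (h : Stat f A B)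
    (hq : 0 < q) (lam : ℝ) : Stat (fun x => edge lam (f x)) (lam * A) B := by
  obtain ⟨S, h1, h2⟩ := h
  refine ⟨S, fun i j => ?_, ?_⟩
  · have e1 : ∑ x, Vale.Agent.P154.edge lam (f x) i * S x j =
        ∑ k, potts q lam i k * ∑ x, f x k * S x j := by
      unfold Vale.Agent.P154.edge
      simp_rw [Finset.sum_mul, Finset.mul_sum]
      rw [Finset.sum_comm]
      refine Finset.sum_congr rfl fun k _ => Finset.sum_congr rfl fun x _ => ?_
      ring
    rw [e1]
    simp_rw [h1]
    have e2 : ∀ k, potts q lam i k * (A * ((if k = j then (1 : ℝ) else 0) - 1 / q)) =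
        A * (potts q lam i k * (if k = j then 1 else 0)) - A * (1 / q) * potts q lam i k := by
      intro k; ring
    simp_rw [e2]
    rw [Finset.sum_sub_distrib, ← Finset.mul_sum, ← Finset.mul_sum, sum_potts_left hq]
    simp only [mul_ite, mul_one, mul_zero, Finset.sum_ite_eq', Finset.mem_univ, if_true]
    unfold potts
    ring
  · simp_rw [Z_edge hq]
    exact h2

lemma Stat.zero {X : Type} [Fintype X] (f : X → Fin q → ℝ) : Stat f 0 0 :=
  ⟨fun _ _ => 0, by simp, by simp⟩

lemma Stat.neg {X : Type} [Fintype X] {f : X → Fin q → ℝ} {A B : ℝ} (h : Stat f A B) :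
    Stat f (-A) B := by
  obtain ⟨S, h1, h2⟩ := h
  refine ⟨fun x j => - S x j, fun i j => ?_, ?_⟩
  · simp_rw [mul_neg]
    rw [Finset.sum_neg_distrib, h1]
    ring
  · simpa using h2

lemma Stat.of_equiv {X Y : Type} [Fintype X] [Fintype Y] {f : X → Fin q → ℝ} {A B : ℝ}
    (e : Y ≃ X) (h : Stat (fun y => f (e y)) A B) : Stat f A B := by
  obtain ⟨S, h1, h2⟩ := h
  refine ⟨fun x => S (e.symm x), fun i j => ?_, ?_⟩
  · rw [← h1 i j, ← e.sum_comp]
    simp
  · refine le_trans (le_of_eq ?_) h2
    rw [← e.sum_comp]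
    simp

lemma sum_delta_sq (hq : 0 < q) :
    ∑ i : Fin q, ∑ j : Fin q, ((if i = j then (1 : ℝ) else 0) - 1 / q) ^ 2 = (q : ℝ) - 1 := by
  have hq' : (q : ℝ) ≠ 0 := by exact_mod_cast hq.ne'
  have e : ∀ i j : Fin q, ((if i = j then (1 : ℝ) else 0) - 1 / q) ^ 2 =
      (if i = j then (1 - 2 / q : ℝ) else 0) + (1 / q) ^ 2 := by
    intro i j
    split_ifs
    · ring
    · ring
  simp_rw [e, Finset.sum_add_distrib]
  simp
  field_simp
  ring

lemma Stat.prod2 {X Y : Type} [Fintype X] [Fintype Y] {f : X → Fin q → ℝ} {g : Y → Fin q → ℝ}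
    {A B A' B' : ℝ} (hq : 0 < q) (hf : IsChan f) (hg : IsChan g) (h : Stat f A B)
    (h' : Stat g A' B') :
    Stat (prod2 f g) (A + A') (B + B' + 2 * (1 - 1 / q) * (A * A')) := by
  have hq' : (q : ℝ) ≠ 0 := by exact_mod_cast hq.ne'
  obtain ⟨S, h1, h2⟩ := h
  obtain ⟨S', h1', h2'⟩ := h'
  refine ⟨fun p j => S p.1 j + S' p.2 j, fun i j => ?_, ?_⟩
  · rw [Fintype.sum_prod_type]
    have e : ∀ x y, Vale.Agent.P154.prod2 f g (x, y) i * (S x j + S' y j) =
        (f x i * S x j) * g y i + f x i * (g y i * S' y j) := by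
      intro x y
      simp only [Vale.Agent.P154.prod2]
      ring
    simp_rw [e, Finset.sum_add_distrib, ← Finset.mul_sum, ← Finset.sum_mul, hg.sum_one, h1',
      hf.sum_one, mul_one, h1]
    ring
  · have hB : ∀ {X : Type} [Fintype X] (f : X → Fin q → ℝ) (S : X → Fin q → ℝ),
        ∑ x, Z (f x) * ∑ j, S x j ^ 2 = (1 / q) * ∑ i, ∑ j, ∑ x, f x i * S x j ^ 2 := by
      intro X _ f S
      unfold Z
      have : ∀ i, ∑ j, ∑ x, f x i * S x j ^ 2 = ∑ x, f x i * ∑ j, S x j ^ 2 := by
        intro i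
        rw [Finset.sum_comm]
        exact Finset.sum_congr rfl fun x _ => by rw [Finset.mul_sum]
      simp_rw [this]
      rw [Finset.sum_comm, Finset.mul_sum]
      refine Finset.sum_congr rfl fun x _ => ?_
      rw [← Finset.sum_mul]
      ring
    rw [hB]
    rw [hB] at h2 h2'
    have e : ∀ i j, ∑ p : X × Y, Vale.Agent.P154.prod2 f g p i * (S p.1 j + S' p.2 j) ^ 2 =
        ∑ x, f x i * S x j ^ 2 + ∑ y, g y i * S' y j ^ 2 +
          2 * (A * A') * ((if i = j then (1 : ℝ) else 0) - 1 / q) ^ 2 := by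
      intro i j
      rw [Fintype.sum_prod_type]
      have e' : ∀ x y, Vale.Agent.P154.prod2 f g (x, y) i * (S x j + S' y j) ^ 2 =
          (f x i * S x j ^ 2) * g y i + f x i * (g y i * S' y j ^ 2) +
            2 * (f x i * S x j) * (g y i * S' y j) := by
        intro x y
        simp only [Vale.Agent.P154.prod2]
        ring
      simp_rw [e', Finset.sum_add_distrib, ← Finset.mul_sum, ← Finset.sum_mul, hg.sum_one,
        hf.sum_one, mul_one, one_mul]
      rw [← Finset.mul_sum, h1', h1]
      ring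
    simp_rw [e, Finset.sum_add_distrib, ← Finset.mul_sum]
    rw [sum_delta_sq hq, mul_add, mul_add]
    have : 1 / (q : ℝ) * (2 * (A * A') * (q - 1)) = 2 * (1 - 1 / q) * (A * A') := by
      field_simp
    rw [this]
    linarith

lemma Stat.prodN (hq : 0 < q) : ∀ (k : ℕ) (X : Fin k → Type) [∀ c, Fintype (X c)]
    (f : ∀ c, X c → Fin q → ℝ) (A B : Fin k → ℝ), (∀ c, IsChan (f c)) →
    (∀ c, Stat (f c) (A c) (B c)) →
    Stat (prodN f) (∑ c, A c) (∑ c, B c + (1 - 1 / q) * ((∑ c, A c) ^ 2 - ∑ c, A c ^ 2)) := by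
  intro k
  induction k with
  | zero =>
    intro X _ f A B _ _
    simpa using Stat.zero (Vale.Agent.P154.prodN f)
  | succ k ih =>
    intro X _ f A B hf h
    have h1 := ih (fun c => X c.castSucc) (fun c => f c.castSucc) (fun c => A c.castSucc)
      (fun c => B c.castSucc) (fun c => hf _) (fun c => h _)
    have h2 := Stat.prod2 hq (hf (Fin.last k)) (IsChan.prodN fun c : Fin k => hf c.castSucc)
      (h (Fin.last k)) h1
    refine Stat.of_equiv (Fin.snocEquiv X) ?_
    have e1 : (fun y => Vale.Agent.P154.prodN f (Fin.snocEquiv X y)) =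
        Vale.Agent.P154.prod2 (f (Fin.last k))
          (Vale.Agent.P154.prodN fun c : Fin k => f c.castSucc) := by
      funext p i
      simp [Vale.Agent.P154.prodN, Vale.Agent.P154.prod2, Fin.prod_univ_castSucc, mul_comm]
    rw [e1, Fin.sum_univ_castSucc, Fin.sum_univ_castSucc (f := B),
      Fin.sum_univ_castSucc (f := fun c => A c ^ 2)]
    convert h2 using 1
    · ring
    · ring

lemma amgm_aux {u S z s r : ℝ} (hs : 0 < s) (hz : 0 ≤ z) (hu : |u| ≤ r * z) :
    u * S ≤ s * r / 2 * |u| + z * S ^ 2 / (2 * s) := by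
  rcases hz.eq_or_lt with h0 | h0
  · subst h0
    have : u = 0 := abs_eq_zero.1 (le_antisymm (by simpa using hu) (abs_nonneg u))
    subst this
    simp
  · have h1 : u * S ≤ |u| * |S| := by rw [← abs_mul]; exact le_abs_self _
    refine h1.trans ?_
    have h2 : 0 ≤ (s * |u| - z * |S|) ^ 2 := sq_nonneg _
    have h3 : |u| * |u| ≤ r * z * |u| := mul_le_mul_of_nonneg_right hu (abs_nonneg u)
    have h4 : 2 * s * z * (|u| * |S|) ≤ 2 * s * z * (s * r / 2 * |u| + z * S ^ 2 / (2 * s)) := by
      have e : 2 * s * z * (s * r / 2 * |u| + z * S ^ 2 / (2 * s)) =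
          s ^ 2 * (r * z * |u|) + z ^ 2 * |S| ^ 2 := by
        rw [sq_abs]; field_simp
      rw [e]
      nlinarith [mul_le_mul_of_nonneg_left h3 (sq_nonneg s)]
    exact le_of_mul_le_mul_left h4 (by positivity)

lemma Stat.lower {X : Type} [Fintype X] {f : X → Fin q → ℝ} {A B : ℝ} (hq : 0 < q)
    (hf : IsChan f) (h : Stat f A B) {s : ℝ} (hs : 0 < s) :
    A * (q - 1) ≤ s * q ^ 2 * tot advF f + B / (2 * s) := by
  have hq' : (q : ℝ) ≠ 0 := by exact_mod_cast hq.ne'
  have hq0 : (0 : ℝ) < q := by exact_mod_cast hq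
  have hq1 : (1 : ℝ) ≤ q := by exact_mod_cast hq
  obtain ⟨S, h1, h2⟩ := h
  have hZ : ∀ x, 0 ≤ Z (f x) := fun x =>
    div_nonneg (Finset.sum_nonneg fun i _ => hf.nonneg x i) hq0.le
  have e1 : ∑ i, ∑ x, f x i * S x i = A * (q - 1) := by
    simp_rw [h1]
    simp
    field_simp
  have e2 : ∀ j, ∑ x, Z (f x) * S x j = 0 := by
    intro j
    have : ∑ x, Z (f x) * S x j = (1 / q) * ∑ i, ∑ x, f x i * S x j := by
      unfold Z
      rw [Finset.sum_comm, Finset.mul_sum]
      refine Finset.sum_congr rfl fun x _ => ?_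
      rw [← Finset.sum_mul]
      ring
    rw [this]
    simp_rw [h1, ← Finset.mul_sum]
    rw [Finset.sum_sub_distrib]
    simp [hq']
  have e3 : A * (q - 1) = ∑ i, ∑ x, (f x i - Z (f x)) * S x i := by
    simp_rw [sub_mul, Finset.sum_sub_distrib]
    rw [e1]
    simp_rw [e2]
    simp
  have e4 : tot advF f = 1 / (2 * q) * ∑ i, ∑ x, |f x i - Z (f x)| := by
    unfold tot
    simp_rw [fun x => advF_eq hq _ (hf.nonneg x)]
    rw [← Finset.mul_sum, Finset.sum_comm]
  have hu : ∀ x i, |f x i - Z (f x)| ≤ q * Z (f x) := by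
    intro x i
    have h3 : f x i ≤ q * Z (f x) := by
      have : q * Z (f x) = ∑ j, f x j := by unfold Z; field_simp
      rw [this]
      exact Finset.single_le_sum (fun j _ => hf.nonneg x j) (Finset.mem_univ i)
    have h4 := hf.nonneg x i
    have h5 := hZ x
    have h6 : Z (f x) ≤ q * Z (f x) := by nlinarith
    rw [abs_le]
    constructor <;> linarith
  calc A * (q - 1) = ∑ i, ∑ x, (f x i - Z (f x)) * S x i := e3
    _ ≤ ∑ i, ∑ x, (s * q / 2 * |f x i - Z (f x)| + Z (f x) * S x i ^ 2 / (2 * s)) :=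
        Finset.sum_le_sum fun i _ => Finset.sum_le_sum fun x _ =>
          amgm_aux hs (hZ x) (hu x i)
    _ = s * q ^ 2 * tot advF f + (∑ x, Z (f x) * ∑ j, S x j ^ 2) / (2 * s) := by
        simp_rw [Finset.sum_add_distrib]
        congr 1
        · rw [e4]
          simp_rw [← Finset.mul_sum]
          field_simp
        · rw [Finset.sum_comm, Finset.sum_div]
          refine Finset.sum_congr rfl fun x _ => ?_
          rw [← Finset.sum_div, ← Finset.mul_sum]
    _ ≤ s * q ^ 2 * tot advF f + B / (2 * s) := by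
        gcongr

/-- signal of the recursive statistic of the tree pruned to at most `M` children per vertex -/
noncomputable def An (lam : ℝ) (M : ℕ) : ℕ → (List ℕ → ℕ) → ℝ
  | 0, _ => 1
  | n + 1, N => ∑ c ∈ Finset.range M, if c < N [] then lam * An lam M n (sub N c) else 0

/-- second moment of the recursive statistic -/
noncomputable def Bn (q : ℕ) (lam : ℝ) (M : ℕ) : ℕ → (List ℕ → ℕ) → ℝ
  | 0, _ => 1
  | n + 1, N => ∑ c ∈ Finset.range M, (if c < N [] then Bn q lam M n (sub N c) else 0) +
      (1 - 1 / q) *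
        ((∑ c ∈ Finset.range M, if c < N [] then lam * An lam M n (sub N c) else 0) ^ 2 -
          ∑ c ∈ Finset.range M, (if c < N [] then lam * An lam M n (sub N c) else 0) ^ 2)

lemma sum_swap (m M : ℕ) (F : ℕ → ℝ) :
    ∑ c : Fin m, (if (c : ℕ) < M then F c else 0) =
      ∑ c ∈ Finset.range M, if c < m then F c else 0 := by
  rw [← Finset.sum_range (fun c => if c < M then F c else 0), ← Finset.sum_filter,
    ← Finset.sum_filter]
  congr 1
  ext c
  simp [and_comm]

theorem stat_lik (hq : 0 < q) {lam : ℝ} (h : Admissible q lam) (M : ℕ) :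
    ∀ (n : ℕ) (N : List ℕ → ℕ), Stat (lik q lam N n) (An lam M n N) (Bn q lam M n N) := by
  intro n
  have hq' : (q : ℝ) ≠ 0 := by exact_mod_cast hq.ne'
  have hq0 : (0 : ℝ) < q := by exact_mod_cast hq
  induction n with
  | zero =>
    intro N
    classical
    have hmem' : ∀ v : gen N 0, v = ⟨[], by simp [gen]⟩ := by
      rintro ⟨v, hv⟩
      exact Subtype.ext (by simpa [gen] using hv)
    let e : Fin q ≃ (gen N 0 → Fin q) :=
      { toFun := fun j _ => j
        invFun := fun τ => τ ⟨[], by simp [gen]⟩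
        left_inv := fun j => rfl
        right_inv := fun τ => by
          funext v
          exact congrArg τ (hmem' v).symm }
    refine Stat.of_equiv e ?_
    have e1 : (fun y => lik q lam N 0 (e y)) =
        fun (x : Fin q) (i : Fin q) => if x = i then (1 : ℝ) else 0 := by
      funext x i
      rw [lik_zero]
      rfl
    rw [e1]
    refine ⟨fun x j => (if x = j then 1 else 0) - 1 / q, fun i j => ?_, ?_⟩
    · simp only [An, one_mul]
      simp
    · have hZ : ∀ x : Fin q, Z (fun i : Fin q => if x = i then (1 : ℝ) else 0) = 1 / q := by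
        intro x
        unfold Z
        simp
      simp_rw [hZ, ← Finset.mul_sum]
      rw [sum_delta_sq hq]
      simp only [Bn]
      rw [one_div, inv_mul_le_iff₀ hq0]
      linarith
  | succ n ih =>
    intro N
    refine Stat.of_equiv (glueG q N n) ?_
    rw [lik_succ']
    have key := Stat.prodN hq (N []) _ (fun c : Fin (N []) =>
        fun τ : (gen (sub N c) n → Fin q) => edge lam (lik q lam (sub N c) n τ))
      (fun c => if (c : ℕ) < M then lam * An lam M n (sub N c) else 0)
      (fun c => if (c : ℕ) < M then Bn q lam M n (sub N c) else 0)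
      (fun c => (isChan_lik hq h n _).edge hq h) (fun c => by
        by_cases hc : (c : ℕ) < M
        · simp only [hc, if_true]
          exact (ih (sub N c)).edge hq lam
        · simp only [hc, if_false]
          exact Stat.zero _)
    rw [sum_swap _ _ (fun c => lam * An lam M n (sub N c)),
      sum_swap _ _ (fun c => Bn q lam M n (sub N c))] at key
    have e2 : ∑ c : Fin (N []), (if (c : ℕ) < M then lam * An lam M n (sub N c) else 0) ^ 2 =
        ∑ c ∈ Finset.range M, (if c < N [] then lam * An lam M n (sub N c) else 0) ^ 2 := by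
      have := sum_swap (N []) M (fun c => (lam * An lam M n (sub N c)) ^ 2)
      convert this using 1
      · refine Finset.sum_congr rfl fun c _ => ?_
        split_ifs <;> simp
      · refine Finset.sum_congr rfl fun c _ => ?_
        split_ifs <;> simp
    rw [e2] at key
    simpa only [An, Bn] using key

end Vale.Agent.P154
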