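import Mathlib
import Vale.Agent.P154.Stat

/-!
# P154: the Kesten–Stigum lower bound
-/

namespace Vale.Agent.P154

open MeasureTheory ProbabilityTheory Filter Topology
open scoped BigOperators ENNReal

variable {q : ℕ}

/-- bounded measurable functions of the tree -/
def BM (F : (List ℕ → ℕ) → ℝ) : Prop := Measurable F ∧ ∃ K : ℝ, ∀ N, |F N| ≤ K

lemma BM.const (c : ℝ) : BM fun _ => c := ⟨measurable_const, |c|, fun _ => le_rfl⟩

lemma BM.add {F G : (List ℕ → ℕ) → ℝ} (hF : BM F) (hG : BM G) : BM fun N => F N + G N := by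
  obtain ⟨h1, K, hK⟩ := hF
  obtain ⟨h2, L, hL⟩ := hG
  exact ⟨h1.add h2, K + L, fun N => (abs_add_le _ _).trans (add_le_add (hK N) (hL N))⟩

lemma BM.mul {F G : (List ℕ → ℕ) → ℝ} (hF : BM F) (hG : BM G) : BM fun N => F N * G N := by
  obtain ⟨h1, K, hK⟩ := hF
  obtain ⟨h2, L, hL⟩ := hG
  refine ⟨h1.mul h2, K * L, fun N => ?_⟩
  rw [abs_mul]
  exact mul_le_mul (hK N) (hL N) (abs_nonneg _) ((abs_nonneg _).trans (hK N))

lemma BM.sub {F G : (List ℕ → ℕ) → ℝ} (hF : BM F) (hG : BM G) : BM fun N => F N - G N := by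
  have := hF.add ((BM.const (-1)).mul hG)
  simpa [sub_eq_add_neg] using this

lemma BM.pow {F : (List ℕ → ℕ) → ℝ} (hF : BM F) : BM fun N => F N ^ 2 := by
  have := hF.mul hF
  simpa [sq] using this

lemma BM.sum {ι : Type*} (s : Finset ι) {F : ι → (List ℕ → ℕ) → ℝ} (hF : ∀ c ∈ s, BM (F c)) :
    BM fun N => ∑ c ∈ s, F c N := by
  classical
  induction s using Finset.induction_on with
  | empty => simpa using BM.const 0
  | insert a s ha ih =>
    have h1 := (hF a (Finset.mem_insert_self _ _)).add
      (ih fun c hc => hF c (Finset.mem_insert_of_mem hc))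
    have e : (fun N => ∑ c ∈ insert a s, F c N) = fun N => F a N + ∑ c ∈ s, F c N := by
      funext N
      rw [Finset.sum_insert ha]
    rw [e]
    exact h1

lemma BM.child {F : (List ℕ → ℕ) → ℝ} (hF : BM F) (c : ℕ) :
    BM fun N => if c < N [] then F (Vale.Agent.P154.sub N c) else 0 := by
  obtain ⟨h1, K, hK⟩ := hF
  refine ⟨?_, K, fun N => ?_⟩
  · refine Measurable.ite ?_ (h1.comp (measurable_sub c)) measurable_const
    exact (measurable_pi_apply (X := fun _ : List ℕ => ℕ) []) (t := {m | c < m})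
      MeasurableSet.of_discrete
  · change |if c < N [] then F (Vale.Agent.P154.sub N c) else 0| ≤ K
    split_ifs
    · exact hK _
    · simpa using (abs_nonneg _).trans (hK N)

lemma BM.integrable {F : (List ℕ → ℕ) → ℝ} (hF : BM F) (P : Measure ℕ)
    [IsProbabilityMeasure P] : Integrable F (gwLaw P) := by
  obtain ⟨h1, K, hK⟩ := hF
  exact Integrable.of_bound h1.aestronglyMeasurable K (ae_of_all _ fun N => by
    rw [Real.norm_eq_abs]; exact hK N)

section

variable (P : Measure ℕ) [IsProbabilityMeasure P]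

/-- `p c = P(ξ > c)` -/
noncomputable def pr (c : ℕ) : ℝ := (P {k | c < k}).toReal

lemma pr_le_one (c : ℕ) : pr P c ≤ 1 := by
  unfold pr
  exact measureReal_le_one

lemma integral_root (c : ℕ) :
    ∫ N, (if c < N [] then (1 : ℝ) else 0) ∂(gwLaw P) = pr P c := by
  have h : (gwLaw P).map (fun N : List ℕ → ℕ => N []) = P := by
    unfold gwLaw
    exact Measure.infinitePi_map_eval (fun _ : List ℕ => P) []
  have h1 : ∫ N, (if c < N [] then (1 : ℝ) else 0) ∂(gwLaw P) =
      ∫ k, (if c < k then (1 : ℝ) else 0) ∂P := by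
    conv_rhs => rw [← h]
    rw [integral_map (measurable_pi_apply _).aemeasurable
      (measurable_of_countable _).aestronglyMeasurable]
  rw [h1]
  have h2 : (fun k : ℕ => if c < k then (1 : ℝ) else 0) = Set.indicator {k | c < k} 1 := by
    funext k
    simp [Set.indicator]
  rw [h2, integral_indicator_one MeasurableSet.of_discrete]
  rfl

lemma integral_sub {F : (List ℕ → ℕ) → ℝ} (hF : Measurable F) (c : ℕ) :
    ∫ N, F (sub N c) ∂(gwLaw P) = ∫ N, F N ∂(gwLaw P) := by
  conv_rhs => rw [← map_sub P c]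
  rw [integral_map (measurable_sub c).aemeasurable hF.aestronglyMeasurable]

lemma integral_indep {S T : Set (List ℕ)} (h : Disjoint S T) {F G : (List ℕ → ℕ) → ℝ}
    (hF : Measurable[blk S] F) (hG : Measurable[blk T] G) :
    ∫ N, F N * G N ∂(gwLaw P) = (∫ N, F N ∂(gwLaw P)) * ∫ N, G N ∂(gwLaw P) := by
  have h1 : IndepFun F G (gwLaw P) := by
    rw [IndepFun_iff_Indep]
    refine indep_of_indep_of_le_left (indep_of_indep_of_le_right (indep_blk P h) ?_) ?_
    · exact hG.comap_le
    · exact hF.comap_le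
  exact h1.integral_fun_mul_eq_mul_integral (hF.mono (blk_le S) le_rfl).aestronglyMeasurable
    (hG.mono (blk_le T) le_rfl).aestronglyMeasurable

lemma integral_child {F : (List ℕ → ℕ) → ℝ} (hF : Measurable F) (c : ℕ) :
    ∫ N, (if c < N [] then F (sub N c) else 0) ∂(gwLaw P) = pr P c * ∫ N, F N ∂(gwLaw P) := by
  have e : (fun N : List ℕ → ℕ => if c < N [] then F (sub N c) else 0) =
      fun N => (if c < N [] then (1 : ℝ) else 0) * F (sub N c) := by
    funext N; split_ifs <;> simp
  rw [e, integral_indep P (S := {[]}) (T := {u | u ≠ []}) (by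
      rw [Set.disjoint_left]; intro u hu hu'; exact hu' hu)
    (F := fun N => if c < N [] then (1 : ℝ) else 0) (G := fun N => F (sub N c)),
    integral_root, integral_sub P hF]
  · exact (measurable_of_countable (fun k : ℕ => if c < k then (1 : ℝ) else 0)).comp
      (measurable_eval_blk (Set.mem_singleton _))
  · exact hF.comp (measurable_sub_blk (fun u => by simp))

lemma integral_two {F : (List ℕ → ℕ) → ℝ} (hF : Measurable F) {c c' : ℕ} (hc : c ≠ c') :
    ∫ N, (if c < N [] then F (sub N c) else 0) * (if c' < N [] then F (sub N c') else 0)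
      ∂(gwLaw P) = pr P (max c c') * (∫ N, F N ∂(gwLaw P)) ^ 2 := by
  have e : (fun N : List ℕ → ℕ => (if c < N [] then F (sub N c) else 0) *
        (if c' < N [] then F (sub N c') else 0)) =
      fun N => (if max c c' < N [] then (1 : ℝ) else 0) * (F (sub N c) * F (sub N c')) := by
    funext N
    by_cases h1 : c < N [] <;> by_cases h2 : c' < N [] <;> simp [h1, h2]
  rw [e, integral_indep P (S := {[]}) (T := {u | u ≠ []}) (by
      rw [Set.disjoint_left]; intro u hu hu'; exact hu' hu)
    (F := fun N => if max c c' < N [] then (1 : ℝ) else 0)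
    (G := fun N => F (sub N c) * F (sub N c')), integral_root]
  · congr 1
    rw [integral_indep P (S := {u | ∃ w, u = c :: w}) (T := {u | ∃ w, u = c' :: w})
      (F := fun N => F (sub N c)) (G := fun N => F (sub N c')), integral_sub P hF,
      integral_sub P hF, sq]
    · rw [Set.disjoint_left]
      rintro u ⟨w, rfl⟩ ⟨w', h'⟩
      exact hc (by simpa using congrArg List.head? h')
    · exact hF.comp (measurable_sub_blk (c := c) (S := {u | ∃ w, u = c :: w}) (fun u => ⟨u, rfl⟩))
    · exact hF.comp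
        (measurable_sub_blk (c := c') (S := {u | ∃ w, u = c' :: w}) (fun u => ⟨u, rfl⟩))
  · exact (measurable_of_countable (fun k : ℕ => if max c c' < k then (1 : ℝ) else 0)).comp
      (measurable_eval_blk (Set.mem_singleton _))
  · exact Measurable.mul (hF.comp (measurable_sub_blk (fun u => by simp)))
      (hF.comp (measurable_sub_blk (fun u => by simp)))

lemma bm_An (lam : ℝ) (M : ℕ) : ∀ n, BM (An lam M n) := by
  intro n
  induction n with
  | zero => exact BM.const 1
  | succ n ih =>
    exact BM.sum _ fun c _ => ((BM.const lam).mul ih).child c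

lemma bm_Bn (lam : ℝ) (M : ℕ) : ∀ n, BM (Bn q lam M n) := by
  intro n
  induction n with
  | zero => exact BM.const 1
  | succ n ih =>
    refine BM.add (BM.sum _ fun c _ => ih.child c) ((BM.const _).mul ?_)
    refine BM.sub (BM.pow (BM.sum _ fun c _ => ((BM.const lam).mul (bm_An lam M n)).child c)) ?_
    exact BM.sum _ fun c _ => (((BM.const lam).mul (bm_An lam M n)).child c).pow

/-- truncated mean `E min(ξ, M)` -/
noncomputable def mM (M : ℕ) : ℝ := ∑ c ∈ Finset.range M, pr P c

lemma integral_An (lam : ℝ) (M : ℕ) (n : ℕ) :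
    ∫ N, An lam M n N ∂(gwLaw P) = (lam * mM P M) ^ n := by
  induction n with
  | zero => simp [An]
  | succ n ih =>
    simp only [An]
    rw [integral_finsetSum _ fun c _ =>
      (((BM.const lam).mul (bm_An lam M n)).child c).integrable P]
    have : ∀ c, ∫ N, (if c < N [] then lam * An lam M n (sub N c) else 0) ∂(gwLaw P) =
        pr P c * (lam * (lam * mM P M) ^ n) := by
      intro c
      rw [integral_child P (F := fun N => lam * An lam M n N)
        (((BM.const lam).mul (bm_An lam M n)).1), integral_const_mul, ih]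
    simp_rw [this]
    rw [← Finset.sum_mul]
    unfold mM
    ring

lemma integral_Bn_le (hq : 0 < q) (lam : ℝ) (M : ℕ) (n : ℕ) :
    ∫ N, Bn q lam M (n + 1) N ∂(gwLaw P) ≤
      mM P M * ∫ N, Bn q lam M n N ∂(gwLaw P) + (M : ℝ) ^ 2 * lam ^ 2 * ((lam * mM P M) ^ n) ^ 2 := by
  have hq0 : (0 : ℝ) < q := by exact_mod_cast hq
  have hq1 : (1 : ℝ) ≤ q := by exact_mod_cast hq
  have hbm : BM (fun N => lam * An lam M n N) := (BM.const lam).mul (bm_An lam M n)
  have e0 : ∀ N : List ℕ → ℕ,
      (∑ c ∈ Finset.range M, if c < N [] then lam * An lam M n (sub N c) else 0) ^ 2 -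
          ∑ c ∈ Finset.range M, (if c < N [] then lam * An lam M n (sub N c) else 0) ^ 2 =
      ∑ c ∈ Finset.range M, ∑ c' ∈ (Finset.range M).erase c,
        (if c < N [] then lam * An lam M n (sub N c) else 0) *
          (if c' < N [] then lam * An lam M n (sub N c') else 0) := by
    intro N
    rw [sq, Finset.sum_mul_sum, ← Finset.sum_sub_distrib]
    refine Finset.sum_congr rfl fun c hc => ?_
    rw [← Finset.add_sum_erase _ _ hc, sq]
    ring
  have e1 : ∀ N : List ℕ → ℕ, Bn q lam M (n + 1) N =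
      ∑ c ∈ Finset.range M, (if c < N [] then Bn q lam M n (sub N c) else 0) +
      (1 - 1 / q) * ∑ c ∈ Finset.range M, ∑ c' ∈ (Finset.range M).erase c,
        (if c < N [] then lam * An lam M n (sub N c) else 0) *
          (if c' < N [] then lam * An lam M n (sub N c') else 0) := by
    intro N
    rw [← e0]
    rfl
  simp_rw [e1]
  rw [integral_add]
  · refine add_le_add ?_ ?_
    · rw [integral_finsetSum _ fun c _ => ((bm_Bn lam M n).child c).integrable P]
      simp_rw [integral_child P (bm_Bn (q := q) lam M n).1]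
      rw [← Finset.sum_mul]
      exact le_rfl
    · rw [integral_const_mul, integral_finsetSum _ fun c _ =>
        (BM.sum _ fun c' _ => (hbm.child c).mul (hbm.child c')).integrable P]
      have e2 : ∀ c ∈ Finset.range M, ∫ N, (∑ c' ∈ (Finset.range M).erase c,
          (if c < N [] then lam * An lam M n (sub N c) else 0) *
          (if c' < N [] then lam * An lam M n (sub N c') else 0)) ∂(gwLaw P) ≤
          M * (lam ^ 2 * ((lam * mM P M) ^ n) ^ 2) := by
        intro c _
        rw [integral_finsetSum _ fun c' _ => ((hbm.child c).mul (hbm.child c')).integrable P]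
        calc ∑ c' ∈ (Finset.range M).erase c, ∫ N,
            (if c < N [] then lam * An lam M n (sub N c) else 0) *
            (if c' < N [] then lam * An lam M n (sub N c') else 0) ∂(gwLaw P)
            ≤ ∑ c' ∈ (Finset.range M).erase c, lam ^ 2 * ((lam * mM P M) ^ n) ^ 2 := by
              refine Finset.sum_le_sum fun c' hc' => ?_
              have hne : c ≠ c' := (Finset.ne_of_mem_erase hc').symm
              rw [integral_two P hbm.1 hne, integral_const_mul, integral_An, mul_pow]
              exact mul_le_of_le_one_left (by positivity) (pr_le_one P _)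
          _ = (((Finset.range M).erase c).card : ℝ) * (lam ^ 2 * ((lam * mM P M) ^ n) ^ 2) := by
              rw [Finset.sum_const, nsmul_eq_mul]
          _ ≤ M * (lam ^ 2 * ((lam * mM P M) ^ n) ^ 2) := by
              refine mul_le_mul_of_nonneg_right ?_ (by positivity)
              have := Finset.card_le_card (Finset.erase_subset c (Finset.range M))
              rw [Finset.card_range] at this
              exact_mod_cast this
      have e3 := Finset.sum_le_sum e2
      rw [Finset.sum_const, Finset.card_range, nsmul_eq_mul] at e3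
      have e4 : (1 - 1 / (q : ℝ)) ≤ 1 := by
        have : 0 ≤ 1 / (q : ℝ) := by positivity
        linarith
      have e5 : 0 ≤ (1 - 1 / (q : ℝ)) := by
        have : 1 / (q : ℝ) ≤ 1 := by rw [div_le_one hq0]; exact hq1
        linarith
      refine (mul_le_mul_of_nonneg_left e3 e5).trans ?_
      refine (mul_le_of_le_one_left (by positivity) e4).trans (le_of_eq ?_)
      ring
  · exact (BM.sum _ fun c _ => (bm_Bn lam M n).child c).integrable P
  · exact ((BM.const _).mul (BM.sum _ fun c _ => BM.sum _ fun c' _ =>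
      (hbm.child c).mul (hbm.child c'))).integrable P

lemma integral_Bn_bound (hq : 0 < q) (lam : ℝ) (M : ℕ) (hM : 1 < lam ^ 2 * mM P M) :
    ∃ R : ℝ, 0 < R ∧ ∀ n, ∫ N, Bn q lam M n N ∂(gwLaw P) ≤ R * ((lam * mM P M) ^ n) ^ 2 := by
  have hm : 0 < mM P M := by
    by_contra h
    push Not at h
    have := mul_nonpos_of_nonneg_of_nonpos (sq_nonneg lam) h
    linarith
  set m := mM P M with hmdef
  have hd : 0 < m * (lam ^ 2 * m - 1) := mul_pos hm (by linarith)
  refine ⟨1 + (M : ℝ) ^ 2 * lam ^ 2 / (m * (lam ^ 2 * m - 1)), by positivity, fun n => ?_⟩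
  set R := 1 + (M : ℝ) ^ 2 * lam ^ 2 / (m * (lam ^ 2 * m - 1)) with hR
  have hR1 : 1 ≤ R := by
    have : 0 ≤ (M : ℝ) ^ 2 * lam ^ 2 / (m * (lam ^ 2 * m - 1)) := by positivity
    linarith
  have hR2 : m * R + (M : ℝ) ^ 2 * lam ^ 2 ≤ R * (lam * m) ^ 2 := by
    have e : R * (lam * m) ^ 2 - m * R = R * (m * (lam ^ 2 * m - 1)) := by ring
    have e2 : (M : ℝ) ^ 2 * lam ^ 2 ≤ R * (m * (lam ^ 2 * m - 1)) := by
      rw [hR, add_mul, one_mul, div_mul_cancel₀ _ hd.ne']
      linarith
    linarith
  induction n with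
  | zero => simpa [Bn] using hR1
  | succ n ih =>
    refine (integral_Bn_le P hq lam M n).trans ?_
    rw [← hmdef]
    calc m * ∫ N, Bn q lam M n N ∂(gwLaw P) + (M : ℝ) ^ 2 * lam ^ 2 * ((lam * m) ^ n) ^ 2
        ≤ m * (R * ((lam * m) ^ n) ^ 2) + (M : ℝ) ^ 2 * lam ^ 2 * ((lam * m) ^ n) ^ 2 := by
          gcongr
      _ = (m * R + (M : ℝ) ^ 2 * lam ^ 2) * ((lam * m) ^ n) ^ 2 := by ring
      _ ≤ (R * (lam * m) ^ 2) * ((lam * m) ^ n) ^ 2 :=
          mul_le_mul_of_nonneg_right hR2 (by positivity)
      _ = R * ((lam * m) ^ (n + 1)) ^ 2 := by ring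

theorem ks_lower (hq : 2 ≤ q) {lam : ℝ} (h : Admissible q lam) (M : ℕ)
    (hM : 1 < lam ^ 2 * mM P M) :
    ∃ c : ℝ, 0 < c ∧ ∀ n, c ≤ aGW q lam P n := by
  have hq' : 0 < q := by omega
  have hq0 : (0 : ℝ) < q := by exact_mod_cast hq'
  have hq1 : (0 : ℝ) < q - 1 := by
    have : (2 : ℝ) ≤ q := by exact_mod_cast hq
    linarith
  obtain ⟨R, hR, hB⟩ := integral_Bn_bound (q := q) P hq' lam M hM
  have hl : lam * mM P M ≠ 0 := by
    intro h0
    have : lam ^ 2 * mM P M = lam * (lam * mM P M) := by ring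
    rw [this, h0, mul_zero] at hM
    linarith
  refine ⟨(q - 1) ^ 2 / (2 * R * q ^ 2), by positivity, fun n => ?_⟩
  -- the bound for either sign
  have key : ∀ s : ℝ, 0 < s → |(lam * mM P M) ^ n| * (q - 1) ≤
      s * q ^ 2 * aGW q lam P n + (R * ((lam * mM P M) ^ n) ^ 2) / (2 * s) := by
    intro s hs
    have h1 : ∀ (e : ℝ), (e = 1 ∨ e = -1) → e * (lam * mM P M) ^ n * (q - 1) ≤
        s * q ^ 2 * aGW q lam P n + (R * ((lam * mM P M) ^ n) ^ 2) / (2 * s) := by
      intro e he
      have h2 : ∀ N, e * An lam M n N * (q - 1) ≤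
          s * q ^ 2 * quenched q lam N n + Bn q lam M n N / (2 * s) := by
        intro N
        rw [quenched_eq]
        rcases he with rfl | rfl
        · rw [one_mul]
          exact (stat_lik hq' h M n N).lower hq' (isChan_lik hq' h n N) hs
        · have := (stat_lik hq' h M n N).neg.lower hq' (isChan_lik hq' h n N) hs
          linarith
      have h3 := integral_mono (μ := gwLaw P)
        ((((BM.const e).mul (bm_An lam M n)).mul (BM.const (q - 1))).integrable P)
        (((integrable_quenched hq' h P n).const_mul (s * q ^ 2)).add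
          (((bm_Bn lam M n).integrable P).div_const (2 * s))) h2
      rw [integral_mul_const, integral_const_mul, integral_An] at h3
      refine h3.trans ?_
      simp only [Pi.add_apply]
      rw [integral_add ((integrable_quenched hq' h P n).const_mul (s * q ^ 2))
        (((bm_Bn lam M n).integrable P).div_const (2 * s)), integral_const_mul, integral_div]
      refine add_le_add le_rfl ?_
      exact div_le_div_of_nonneg_right (hB n) (by positivity)
    rcases abs_choice ((lam * mM P M) ^ n) with h0 | h0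
    · rw [h0]; simpa using h1 1 (Or.inl rfl)
    · rw [h0]; simpa using h1 (-1) (Or.inr rfl)
  have hx : 0 < |(lam * mM P M) ^ n| := abs_pos.2 (pow_ne_zero _ hl)
  set x := |(lam * mM P M) ^ n| with hxdef
  have hx2 : ((lam * mM P M) ^ n) ^ 2 = x ^ 2 := by rw [hxdef, sq_abs]
  have h4 := key (R * x / (q - 1)) (by positivity)
  rw [hx2] at h4
  have h5 : R * x ^ 2 / (2 * (R * x / (q - 1))) = x * (q - 1) / 2 := by
    field_simp
  rw [h5] at h4
  have h6 : x * (q - 1) / 2 ≤ R * x / (q - 1) * q ^ 2 * aGW q lam P n := by linarith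
  have h7 : (q - 1) ^ 2 / (2 * R * q ^ 2) * (R * x / (q - 1) * q ^ 2) = x * (q - 1) / 2 := by
    field_simp
  have h8 : (q - 1) ^ 2 / (2 * R * q ^ 2) * (R * x / (q - 1) * q ^ 2) ≤
      aGW q lam P n * (R * x / (q - 1) * q ^ 2) := by
    rw [h7]; linarith
  exact le_of_mul_le_mul_right h8 (by positivity)

lemma exists_mM {lam : ℝ} (hm : 1 < ENNReal.ofReal (lam ^ 2) * ∫⁻ k, (k : ℝ≥0∞) ∂P) :
    ∃ M, 1 < lam ^ 2 * mM P M := by
  have h1 : ∫⁻ k, (k : ℝ≥0∞) ∂P = ∑' c : ℕ, P {k | c < k} := by
    have h2 : ∀ k : ℕ, (k : ℝ≥0∞) = ∑' c : ℕ, (if c < k then (1 : ℝ≥0∞) else 0) := by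
      intro k
      rw [tsum_eq_sum (s := Finset.range k)]
      · rw [Finset.sum_congr rfl (g := fun _ => (1 : ℝ≥0∞))
          (fun c hc => if_pos (Finset.mem_range.1 hc))]
        simp
      · intro c hc
        rw [if_neg (fun h => hc (Finset.mem_range.2 h))]
    simp_rw [h2]
    rw [lintegral_tsum (fun c => (measurable_of_countable _).aemeasurable)]
    congr 1
    funext c
    rw [← lintegral_indicator_one (s := {k : ℕ | c < k}) MeasurableSet.of_discrete]
    refine lintegral_congr fun k => ?_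
    simp [Set.indicator]
  rw [h1, ← ENNReal.tsum_mul_left, ENNReal.tsum_eq_iSup_nat, lt_iSup_iff] at hm
  obtain ⟨M, hM⟩ := hm
  refine ⟨M, ?_⟩
  rw [← Finset.mul_sum] at hM
  have h3 : ∑ c ∈ Finset.range M, P {k | c < k} = ENNReal.ofReal (mM P M) := by
    unfold mM pr
    rw [ENNReal.ofReal_sum_of_nonneg (fun _ _ => ENNReal.toReal_nonneg)]
    exact Finset.sum_congr rfl fun c _ => (ENNReal.ofReal_toReal (measure_ne_top _ _)).symm
  rw [h3, ← ENNReal.ofReal_mul (sq_nonneg lam)] at hM
  by_contra h4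
  push Not at h4
  have := ENNReal.ofReal_le_ofReal h4
  rw [ENNReal.ofReal_one] at this
  exact absurd hM (not_lt.2 this)

/-- Kesten–Stigum: reconstruction above the threshold. -/
theorem ks_gw (hq : 2 ≤ q) {lam : ℝ} (h : Admissible q lam)
    (hm : 1 < ENNReal.ofReal (lam ^ 2) * ∫⁻ k, (k : ℝ≥0∞) ∂P) :
    Reconstruction (aGW q lam P) := by
  obtain ⟨M, hM⟩ := exists_mM P hm
  obtain ⟨c, hc, hlow⟩ := ks_lower P hq h M hM
  exact reconstruction_of_lower (aGW_antitone (by omega) h P) hc hlow

end

theorem ks_regular (hq : 2 ≤ q) {lam : ℝ} (h : Admissible q lam) {d : ℕ}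
    (hd : 1 < d * lam ^ 2) : Reconstruction (aRegular q lam d) := by
  have h1 := ks_gw (Measure.dirac d) hq h (by
    rw [lintegral_dirac, ← ENNReal.ofReal_natCast, ← ENNReal.ofReal_mul (sq_nonneg lam)]
    rw [← ENNReal.ofReal_one]
    exact (ENNReal.ofReal_lt_ofReal_iff (by linarith)).2 (by linarith))
  have e : aRegular q lam d = aGW q lam (Measure.dirac d) := by
    funext n
    exact aRegular_eq lam d n
  rw [e]
  exact h1

theorem ks_poisson (hq : 2 ≤ q) {lam : ℝ} (h : Admissible q lam) {d : NNReal}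
    (hd : 1 < d * lam ^ 2) : Reconstruction (aPoisson q lam d) := by
  have h1 := ks_gw (poissonMeasure d) hq h (by
    rw [lintegral_poisson, ← ENNReal.ofReal_mul (sq_nonneg lam)]
    rw [← ENNReal.ofReal_one]
    exact (ENNReal.ofReal_lt_ofReal_iff (by linarith)).2 (by linarith))
  have e : aPoisson q lam d = aGW q lam (poissonMeasure d) := by
    funext n
    exact aPoisson_eq lam d n
  rw [e]
  exact h1

/-- A certificate settles the threshold for both tree models. -/
theorem Cert.threshold_regular (hq : 2 ≤ q) {lam : ℝ} (C : Cert q lam) (h : Admissible q lam)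
    (hmu : 0 < C.mu) {d : ℕ} (hd : 2 ≤ d) :
    (Reconstruction (aRegular q lam d) ↔ 1 < d * lam ^ 2) ∧
    (Nonreconstruction (aRegular q lam d) ↔ d * lam ^ 2 ≤ 1) := by
  have h1 : d * lam ^ 2 ≤ 1 → Nonreconstruction (aRegular q lam d) :=
    C.nonreconstruction_regular (by omega) h hmu hd
  have h2 : 1 < d * lam ^ 2 → Reconstruction (aRegular q lam d) := ks_regular hq h
  refine ⟨⟨fun hr => ?_, h2⟩, ⟨fun hn => ?_, h1⟩⟩
  · by_contra h3
    exact not_both hr (h1 (not_lt.1 h3))
  · by_contra h3
    exact not_both (h2 (not_le.1 h3)) hn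

theorem Cert.threshold_poisson (hq : 2 ≤ q) {lam : ℝ} (C : Cert q lam) (h : Admissible q lam)
    (hmu : 0 < C.mu) {d : NNReal} (hd : 0 < d) :
    (Reconstruction (aPoisson q lam d) ↔ 1 < d * lam ^ 2) ∧
    (Nonreconstruction (aPoisson q lam d) ↔ d * lam ^ 2 ≤ 1) := by
  have h1 : d * lam ^ 2 ≤ 1 → Nonreconstruction (aPoisson q lam d) :=
    C.nonreconstruction_poisson (by omega) h hmu hd
  have h2 : 1 < d * lam ^ 2 → Reconstruction (aPoisson q lam d) := ks_poisson hq h
  refine ⟨⟨fun hr => ?_, h2⟩, ⟨fun hn => ?_, h1⟩⟩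
  · by_contra h3
    exact not_both hr (h1 (not_lt.1 h3))
  · by_contra h3
    exact not_both (h2 (not_le.1 h3)) hn

end Vale.Agent.P154
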