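import Mathlib
import Vale.Agent.P154.KS

/-!
# P154: abstract certificates (two classes of channels, quadratic and cubic gains)
-/

namespace Vale.Agent.P154

open MeasureTheory ProbabilityTheory Filter Topology Finset
open scoped BigOperators ENNReal

/-- An abstract Lyapunov certificate: `V` holds for the channels of (partial) vertices, `E` for
the channels seen through an edge. -/
structure ACert (q : ℕ) (lam : ℝ) where
  V : ∀ {X : Type} [Fintype X], (X → Fin q → ℝ) → Prop
  E : ∀ {X : Type} [Fintype X], (X → Fin q → ℝ) → Prop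
  V_equiv : ∀ {X Y : Type} [Fintype X] [Fintype Y] (e : Y ≃ X) (f : X → Fin q → ℝ),
    V f → V (fun y => f (e y))
  E_equiv : ∀ {X Y : Type} [Fintype X] [Fintype Y] (e : Y ≃ X) (f : X → Fin q → ℝ),
    E f → E (fun y => f (e y))
  V_unit : V (fun (_ : Unit) (_ : Fin q) => (1 : ℝ))
  E_leaf : E (fun j : Fin q => edge lam (fun i : Fin q => if j = i then (1 : ℝ) else 0))
  E_edge : ∀ {X : Type} [Fintype X] (f : X → Fin q → ℝ), IsChan f → V f →
    E (fun x => edge lam (f x))
  V_prod : ∀ {X Y : Type} [Fintype X] [Fintype Y] (f : X → Fin q → ℝ) (g : Y → Fin q → ℝ),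
    IsChan f → IsChan g → V f → E g → V (prod2 f g)
  mu : ℝ
  nu : ℝ
  mu_nonneg : 0 ≤ mu
  nu_nonneg : 0 ≤ nu
  gain : ∀ {X Y : Type} [Fintype X] [Fintype Y] (f : X → Fin q → ℝ) (g : Y → Fin q → ℝ),
    IsChan f → IsChan g → V f → E g → tot W (prod2 f g) ≤ tot W f + tot W g -
      (mu * (tot W f * tot W g) + nu * (tot W f ^ 2 * tot W g + tot W f * tot W g ^ 2))

variable {q : ℕ}

namespace ACert

variable {lam : ℝ} (C : ACert q lam)

/-- the gain of a pair -/
def phi (x y : ℝ) : ℝ := C.mu * (x * y) + C.nu * (x ^ 2 * y + x * y ^ 2)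

lemma phi_nonneg {x y : ℝ} (hx : 0 ≤ x) (hy : 0 ≤ y) : 0 ≤ C.phi x y := by
  unfold phi
  have := C.mu_nonneg
  have := C.nu_nonneg
  positivity

lemma phi_comm (x y : ℝ) : C.phi x y = C.phi y x := by
  unfold phi; ring

theorem prodN_bound (hq : 0 < q) :
    ∀ (k : ℕ) (X : Fin k → Type) [∀ c, Fintype (X c)] (f : ∀ c, X c → Fin q → ℝ),
      (∀ c, IsChan (f c)) → (∀ c, C.E (f c)) →
      C.V (prodN f) ∧
      tot W (prodN f) ≤ ∑ c, tot W (f c) -
        (if h : 2 ≤ k then C.phi (tot W (f ⟨0, by omega⟩)) (tot W (f ⟨1, by omega⟩)) else 0) := by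
  intro k
  induction k with
  | zero =>
    intro X _ f _ _
    rw [tot_prodN_zero, W_one hq]
    refine ⟨?_, by simp⟩
    have h1 := C.V_equiv (Equiv.ofUnique (∀ c, X c) Unit)
      (fun (_ : Unit) (_ : Fin q) => (1 : ℝ)) C.V_unit
    have e : (fun y => (fun (_ : Unit) (_ : Fin q) => (1 : ℝ)) (Equiv.ofUnique (∀ c, X c) Unit y)) =
        prodN f := by
      funext y i
      simp [prodN]
    rw [e] at h1
    exact h1
  | succ k ih =>
    intro X _ f hf hK
    obtain ⟨ih1, ih2⟩ := ih (fun c => X c.castSucc) (fun c => f c.castSucc)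
      (fun c => hf _) (fun c => hK _)
    have hc : IsChan (prodN fun c : Fin k => f c.castSucc) := IsChan.prodN fun c => hf _
    -- decomposition with the last factor second
    let e : (∀ c, X c) ≃ ((∀ c : Fin k, X c.castSucc) × X (Fin.last k)) :=
      (Fin.snocEquiv X).symm.trans (Equiv.prodComm _ _)
    have he : (fun x => prod2 (prodN fun c : Fin k => f c.castSucc) (f (Fin.last k)) (e x)) =
        prodN f := by
      funext x i
      obtain ⟨p, rfl⟩ := (Fin.snocEquiv X).surjective x
      simp [e, prodN, prod2, Fin.prod_univ_castSucc]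
    have hV := C.V_equiv e _ (C.V_prod _ _ hc (hf (Fin.last k)) ih1 (hK _))
    rw [he] at hV
    refine ⟨hV, ?_⟩
    have hp := C.gain _ _ hc (hf (Fin.last k)) ih1 (hK _)
    have ht : tot W (prodN f) =
        tot W (prod2 (prodN fun c : Fin k => f c.castSucc) (f (Fin.last k))) := by
      rw [← he]
      exact tot_comp_equiv W _ e
    rw [ht]
    have hW1 : 0 ≤ tot W (f (Fin.last k)) := (hf _).tot_W_nonneg hq
    have hW2 : 0 ≤ tot W (prodN fun c : Fin k => f c.castSucc) := hc.tot_W_nonneg hq
    have hp' : tot W (prod2 (prodN fun c : Fin k => f c.castSucc) (f (Fin.last k))) ≤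
        tot W (prodN fun c : Fin k => f c.castSucc) + tot W (f (Fin.last k)) -
          C.phi (tot W (prodN fun c : Fin k => f c.castSucc)) (tot W (f (Fin.last k))) := hp
    have hmm := C.phi_nonneg hW2 hW1
    rw [Fin.sum_univ_castSucc]
    rcases Nat.lt_or_ge k 1 with h0 | h1
    · have : k = 0 := by omega
      subst this
      rw [dif_neg (by omega)] at ih2 ⊢
      have e3 : ∑ c : Fin 0, tot W (f c.castSucc) = 0 := by simp
      rw [e3] at ih2 ⊢
      linarith
    · rcases Nat.lt_or_ge k 2 with h2 | h2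
      · have : k = 1 := by omega
        subst this
        have e1 : tot W (prodN fun c : Fin 1 => f c.castSucc) = tot W (f 0) := tot_prodN_one W _
        have e2 : (Fin.last 1) = (1 : Fin 2) := rfl
        rw [e1, e2] at hp'
        rw [e2]
        have e3 : ∑ c : Fin 1, tot W (f c.castSucc) = tot W (f 0) := by simp
        rw [e3, dif_pos (by norm_num)]
        have e4 : (⟨0, by omega⟩ : Fin 2) = 0 := rfl
        have e5 : (⟨1, by omega⟩ : Fin 2) = 1 := rfl
        rw [e4, e5]
        linarith
      · rw [dif_pos h2] at ih2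
        rw [dif_pos (by omega)]
        have e0 : (Fin.castSucc (⟨0, by omega⟩ : Fin k)) = (⟨0, by omega⟩ : Fin (k + 1)) := rfl
        have e1 : (Fin.castSucc (⟨1, by omega⟩ : Fin k)) = (⟨1, by omega⟩ : Fin (k + 1)) := rfl
        rw [e0, e1] at ih2
        linarith

theorem lik_E (hq : 0 < q) (h : Admissible q lam) :
    ∀ (n : ℕ) (N : List ℕ → ℕ), C.E (fun τ => edge lam (lik q lam N n τ)) := by
  intro n
  induction n with
  | zero =>
    intro N
    have hmem' : ∀ v : gen N 0, v = ⟨[], by simp [gen]⟩ := by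
      rintro ⟨v, hv⟩
      exact Subtype.ext (by simpa [gen] using hv)
    let e : (gen N 0 → Fin q) ≃ Fin q :=
      { toFun := fun τ => τ ⟨[], by simp [gen]⟩
        invFun := fun j _ => j
        left_inv := fun τ => by
          funext v
          exact congrArg τ (hmem' v).symm
        right_inv := fun j => rfl }
    have h1 := C.E_equiv e _ C.E_leaf
    have h2 : (fun τ => edge lam (lik q lam N 0 τ)) = fun y =>
        (fun j : Fin q => edge lam (fun i : Fin q => if j = i then (1 : ℝ) else 0)) (e y) := by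
      funext τ
      have : lik q lam N 0 τ = fun i : Fin q => if e τ = i then (1 : ℝ) else 0 := by
        funext i
        rw [lik_zero]
        rfl
      rw [this]
    rw [h2]
    exact h1
  | succ n ih =>
    intro N
    refine C.E_edge _ (isChan_lik hq h (n + 1) N) ?_
    have h1 := (C.prodN_bound hq (N []) _ (fun c : Fin (N []) =>
      fun τ : (gen (sub N c) n → Fin q) => edge lam (lik q lam (sub N c) n τ))
      (fun c => (isChan_lik hq h n _).edge hq h) (fun c => ih _)).1
    rw [← lik_succ'] at h1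
    have h2 := C.V_equiv (glueG q N n).symm _ h1
    simpa using h2

theorem chi_succ (hq : 0 < q) (h : Admissible q lam) (n : ℕ) (N : List ℕ → ℕ) :
    chi q lam N (n + 1) + (if 2 ≤ N [] then
        C.phi (lam ^ 2 * chi q lam (sub N 0) n) (lam ^ 2 * chi q lam (sub N 1) n) else 0) ≤
      lam ^ 2 * ∑ c ∈ Finset.range (N []), chi q lam (sub N c) n := by
  have h1 := (C.prodN_bound hq (N []) _ (fun c : Fin (N []) =>
      fun τ : (gen (sub N c) n → Fin q) => edge lam (lik q lam (sub N c) n τ))
    (fun c => (isChan_lik hq h n _).edge hq h) (fun c => C.lik_E hq h n _)).2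
  have h2 : chi q lam N (n + 1) = tot W (prodN (fun c : Fin (N []) =>
      fun τ : (gen (sub N c) n → Fin q) => edge lam (lik q lam (sub N c) n τ))) := by
    unfold chi
    rw [← tot_comp_equiv W _ (glueG q N n), lik_succ']
  rw [h2]
  simp only [tot_W_edge hq] at h1
  have h3 : ∑ c : Fin (N []), lam ^ 2 * tot W (lik q lam (sub N c) n) =
      lam ^ 2 * ∑ c ∈ Finset.range (N []), chi q lam (sub N c) n := by
    rw [← Finset.mul_sum, Finset.sum_range]
    rfl
  rw [h3] at h1
  by_cases h4 : 2 ≤ N []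
  · rw [dif_pos h4] at h1
    rw [if_pos h4]
    unfold chi at *
    linarith
  · rw [dif_neg h4] at h1
    rw [if_neg h4]
    linarith

end ACert

/-- `(E F)² ≤ E F²` for bounded `F` -/
lemma sq_integral_le {F : (List ℕ → ℕ) → ℝ} (hF : BM F) (P : Measure ℕ)
    [IsProbabilityMeasure P] :
    (∫ N, F N ∂(gwLaw P)) ^ 2 ≤ ∫ N, F N ^ 2 ∂(gwLaw P) := by
  set m := ∫ N, F N ∂(gwLaw P) with hm
  have h1 : 0 ≤ ∫ N, (F N - m) ^ 2 ∂(gwLaw P) := integral_nonneg fun N => sq_nonneg _
  have h2 : ∫ N, (F N - m) ^ 2 ∂(gwLaw P) = ∫ N, F N ^ 2 ∂(gwLaw P) - m ^ 2 := by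
    have e : (fun N => (F N - m) ^ 2) = fun N => F N ^ 2 - (2 * m * F N - m ^ 2) := by
      funext N; ring
    have hi : Integrable (fun N => 2 * m * F N - m ^ 2) (gwLaw P) :=
      ((hF.integrable P).const_mul (2 * m)).sub (integrable_const _)
    have e1 : ∫ N, (F N ^ 2 - (2 * m * F N - m ^ 2)) ∂(gwLaw P) =
        ∫ N, F N ^ 2 ∂(gwLaw P) - ∫ N, (2 * m * F N - m ^ 2) ∂(gwLaw P) :=
      MeasureTheory.integral_sub (hF.pow.integrable P) hi
    have e2 : ∫ N, (2 * m * F N - m ^ 2) ∂(gwLaw P) =
        ∫ N, 2 * m * F N ∂(gwLaw P) - ∫ _, m ^ 2 ∂(gwLaw P) :=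
      MeasureTheory.integral_sub ((hF.integrable P).const_mul (2 * m)) (integrable_const _)
    rw [e, e1, e2, integral_const_mul, ← hm]
    simp
    ring
  linarith

lemma tendsto_zero_of_rec' {x : ℕ → ℝ} {a b : ℝ} (ha : 0 ≤ a) (hb : 0 ≤ b) (hab : 0 < a + b)
    (h0 : ∀ n, 0 ≤ x n) (h : ∀ n, x (n + 1) + (a * x n ^ 2 + b * x n ^ 3) ≤ x n) :
    Tendsto x atTop (𝓝 0) := by
  have hanti : Antitone x := antitone_nat_of_succ_le fun n => by
    have h1 := mul_nonneg ha (sq_nonneg (x n))
    have h2 := mul_nonneg hb (pow_nonneg (h0 n) 3)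
    linarith [h n]
  have hbd : BddBelow (Set.range x) := ⟨0, by rintro _ ⟨n, rfl⟩; exact h0 n⟩
  have hl := tendsto_atTop_ciInf hanti hbd
  have hL0 : 0 ≤ ⨅ n, x n := le_ciInf h0
  set L := ⨅ n, x n
  have h1 : L + (a * L ^ 2 + b * L ^ 3) ≤ L :=
    le_of_tendsto_of_tendsto' ((hl.comp (tendsto_add_atTop_nat 1)).add
      (((hl.pow 2).const_mul a).add ((hl.pow 3).const_mul b))) hl h
  have h2 : L = 0 := by
    by_contra hne
    have hpos : 0 < L := lt_of_le_of_ne hL0 (Ne.symm hne)
    have h3 : 0 < a * L ^ 2 + b * L ^ 3 := by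
      rcases ha.eq_or_lt with h4 | h4
      · have h5 : 0 < b := by linarith
        have : 0 < b * L ^ 3 := by positivity
        have : a * L ^ 2 = 0 := by rw [← h4]; ring
        linarith
      · have h5 : 0 < a * L ^ 2 := by positivity
        have h6 : 0 ≤ b * L ^ 3 := by positivity
        linarith
    linarith
  rwa [h2] at hl

namespace ACert

variable {lam : ℝ} (C : ACert q lam)

theorem nonreconstruction_regular (hq : 0 < q) (h : Admissible q lam) (hmu : 0 < C.mu + C.nu)
    {d : ℕ} (hd : 2 ≤ d) (hdl : d * lam ^ 2 ≤ 1) :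
    Nonreconstruction (aRegular q lam d) := by
  have hmu0 := C.mu_nonneg
  have hnu0 := C.nu_nonneg
  have hx0 : ∀ n, 0 ≤ chi q lam (fun _ => d) n := fun n => chi_nonneg hq h _ n
  have hrec : ∀ n, chi q lam (fun _ => d) (n + 1) +
      (C.mu * lam ^ 4 * (chi q lam (fun _ => d) n) ^ 2 +
        2 * C.nu * lam ^ 6 * (chi q lam (fun _ => d) n) ^ 3) ≤
      d * lam ^ 2 * chi q lam (fun _ => d) n := by
    intro n
    have h1 := C.chi_succ hq h n (fun _ => d)
    rw [if_pos hd] at h1
    have h2 : ∀ c, sub (fun _ => d) c = fun _ => d := fun c => rfl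
    simp only [h2] at h1
    rw [Finset.sum_const, Finset.card_range, nsmul_eq_mul] at h1
    unfold phi at h1
    refine le_trans (le_of_eq ?_) (h1.trans (le_of_eq ?_)) <;> ring
  have hx : Tendsto (fun n => chi q lam (fun _ => d) n) atTop (𝓝 0) := by
    by_cases hl : lam = 0
    · have : ∀ n, chi q lam (fun _ => d) (n + 1) = 0 := by
        intro n
        have h1 := hrec n
        have h2 : lam ^ 2 = 0 := by rw [hl]; norm_num
        have h4 : lam ^ 4 = 0 := by rw [hl]; norm_num
        have h6 : lam ^ 6 = 0 := by rw [hl]; norm_num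
        rw [h2, h4, h6] at h1
        simp only [mul_zero, zero_mul, add_zero] at h1
        exact le_antisymm h1 (hx0 (n + 1))
      rw [← tendsto_add_atTop_iff_nat 1]
      simp [this]
    · refine tendsto_zero_of_rec' (a := C.mu * lam ^ 4) (b := 2 * C.nu * lam ^ 6)
        (by positivity) (by positivity) ?_ hx0 fun n => ?_
      · have h4 : 0 < lam ^ 4 := by positivity
        have h6 : 0 < lam ^ 6 := by positivity
        rcases hmu0.eq_or_lt with h7 | h7
        · have : 0 < C.nu := by linarith
          rw [← h7]; positivity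
        · positivity
      · refine (hrec n).trans ?_
        exact mul_le_of_le_one_left (hx0 n) hdl
  have hs : Tendsto (fun n => 1 / 2 * Real.sqrt (chi q lam (fun _ => d) n)) atTop (𝓝 0) := by
    have := ((Real.continuous_sqrt.tendsto 0).comp hx).const_mul (1 / 2)
    simpa using this
  exact squeeze_zero (fun n => quenched_nonneg hq h _ n) (fun n => quenched_le hq h _ n) hs

lemma bm_chi (hq : 0 < q) (h : Admissible q lam) (n : ℕ) :
    BM (fun N => chi q lam N n) :=
  ⟨measurable_chi lam n, (q : ℝ) - 1, fun N => by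
    rw [abs_of_nonneg (chi_nonneg hq h N n)]; exact chi_le hq h N n⟩

/-- `E (F(T_0) G(T_1); ξ ≥ 2) = P(ξ ≥ 2) E F E G` -/
lemma integral_two' (P : Measure ℕ) [IsProbabilityMeasure P] {F G : (List ℕ → ℕ) → ℝ}
    (hF : Measurable F) (hG : Measurable G) :
    ∫ N, (if 2 ≤ N [] then F (sub N 0) * G (sub N 1) else 0) ∂(gwLaw P) =
      pr P 1 * ((∫ N, F N ∂(gwLaw P)) * ∫ N, G N ∂(gwLaw P)) := by
  have e : (fun N : List ℕ → ℕ => if 2 ≤ N [] then F (sub N 0) * G (sub N 1) else 0) =
      fun N => (if 1 < N [] then (1 : ℝ) else 0) * (F (sub N 0) * G (sub N 1)) := by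
    funext N
    by_cases h1 : 2 ≤ N []
    · rw [if_pos h1, if_pos (by omega), one_mul]
    · rw [if_neg h1, if_neg (by omega), zero_mul]
  rw [e, integral_indep P (S := {[]}) (T := {u | u ≠ []}) (by
      rw [Set.disjoint_left]; intro u hu hu'; exact hu' hu)
    (F := fun N => if 1 < N [] then (1 : ℝ) else 0)
    (G := fun N => F (sub N 0) * G (sub N 1)), integral_root]
  · congr 1
    rw [integral_indep P (S := {u | ∃ w, u = 0 :: w}) (T := {u | ∃ w, u = 1 :: w})
      (F := fun N => F (sub N 0)) (G := fun N => G (sub N 1)),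
      Vale.Agent.P154.integral_sub P hF, Vale.Agent.P154.integral_sub P hG]
    · rw [Set.disjoint_left]
      rintro u ⟨w, rfl⟩ ⟨w', h'⟩
      simpa using congrArg List.head? h'
    · exact hF.comp (measurable_sub_blk (c := 0) (S := {u | ∃ w, u = 0 :: w}) (fun u => ⟨u, rfl⟩))
    · exact hG.comp (measurable_sub_blk (c := 1) (S := {u | ∃ w, u = 1 :: w}) (fun u => ⟨u, rfl⟩))
  · exact (measurable_of_countable (fun k : ℕ => if 1 < k then (1 : ℝ) else 0)).comp
      (measurable_eval_blk (Set.mem_singleton _))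
  · exact Measurable.mul (hF.comp (measurable_sub_blk (fun u => by simp)))
      (hG.comp (measurable_sub_blk (fun u => by simp)))

/-- nonnegative version of `lintegral_sum_children` for real functions -/
lemma integral_sum_children_le (P : Measure ℕ) [IsProbabilityMeasure P] {m : ℝ}
    (hm : ∫⁻ k, (k : ℝ≥0∞) ∂P ≤ ENNReal.ofReal m) (hm0 : 0 ≤ m) {F : (List ℕ → ℕ) → ℝ}
    (hF : BM F) (hF0 : ∀ N, 0 ≤ F N) {G : (List ℕ → ℕ) → ℝ} (hG : BM G) (hG0 : ∀ N, 0 ≤ G N)
    (h : ∀ N, G N ≤ ∑ c ∈ Finset.range (N []), F (sub N c)) :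
    ∫ N, G N ∂(gwLaw P) ≤ m * ∫ N, F N ∂(gwLaw P) := by
  have h1 : ENNReal.ofReal (∫ N, G N ∂(gwLaw P)) ≤
      ENNReal.ofReal (m * ∫ N, F N ∂(gwLaw P)) := by
    rw [ofReal_integral_eq_lintegral_ofReal (hG.integrable P) (ae_of_all _ hG0),
      ENNReal.ofReal_mul hm0,
      ofReal_integral_eq_lintegral_ofReal (hF.integrable P) (ae_of_all _ hF0)]
    calc ∫⁻ N, ENNReal.ofReal (G N) ∂(gwLaw P)
        ≤ ∫⁻ N, ∑ c ∈ Finset.range (N []), ENNReal.ofReal (F (sub N c)) ∂(gwLaw P) := by
          refine lintegral_mono fun N => ?_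
          rw [← ENNReal.ofReal_sum_of_nonneg (fun c _ => hF0 _)]
          exact ENNReal.ofReal_le_ofReal (h N)
      _ = (∫⁻ k, (k : ℝ≥0∞) ∂P) * ∫⁻ N, ENNReal.ofReal (F N) ∂(gwLaw P) :=
          lintegral_sum_children P hF.1.ennreal_ofReal
      _ ≤ ENNReal.ofReal m * ∫⁻ N, ENNReal.ofReal (F N) ∂(gwLaw P) := mul_le_mul_left hm _
  exact (ENNReal.ofReal_le_ofReal_iff
    (mul_nonneg hm0 (integral_nonneg hF0))).1 h1

theorem nonreconstruction_gw (hq : 0 < q) (h : Admissible q lam) (hmu : 0 < C.mu + C.nu)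
    (P : Measure ℕ) [IsProbabilityMeasure P] {m : ℝ}
    (hm : ∫⁻ k, (k : ℝ≥0∞) ∂P ≤ ENNReal.ofReal m) (hm0 : 0 ≤ m)
    (hP : P {k | 2 ≤ k} ≠ 0) (hdl : m * lam ^ 2 ≤ 1) :
    Nonreconstruction (aGW q lam P) := by
  have hmu0 := C.mu_nonneg
  have hnu0 := C.nu_nonneg
  have hbm : ∀ n, BM (fun N => chi q lam N n) := fun n => bm_chi hq h n
  have hl0 : 0 ≤ lam ^ 2 := sq_nonneg lam
  set x : ℕ → ℝ := fun n => ∫ N, chi q lam N n ∂(gwLaw P) with hx
  have hx0 : ∀ n, 0 ≤ x n := fun n => integral_nonneg fun N => chi_nonneg hq h N n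
  have hp : 0 < pr P 1 := by
    refine ENNReal.toReal_pos ?_ (measure_ne_top _ _)
    have : {k : ℕ | 1 < k} = {k | 2 ≤ k} := by ext k; simp; omega
    rw [this]; exact hP
  have hrec : ∀ n, x (n + 1) + (pr P 1 * C.mu * lam ^ 4 * x n ^ 2 +
      2 * pr P 1 * C.nu * lam ^ 6 * x n ^ 3) ≤ m * lam ^ 2 * x n := by
    intro n
    -- the gain
    have bmphi : BM (fun N => if 2 ≤ N [] then
        C.phi (lam ^ 2 * chi q lam (sub N 0) n) (lam ^ 2 * chi q lam (sub N 1) n) else 0) := by
      have b0 : BM (fun N => if 0 < N [] then chi q lam (sub N 0) n else 0) := (hbm n).child 0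
      have b1 : BM (fun N => if 1 < N [] then chi q lam (sub N 1) n else 0) := (hbm n).child 1
      have e : (fun N : List ℕ → ℕ => if 2 ≤ N [] then
          C.phi (lam ^ 2 * chi q lam (sub N 0) n) (lam ^ 2 * chi q lam (sub N 1) n) else 0) =
          fun N => C.mu * lam ^ 4 * ((if 0 < N [] then chi q lam (sub N 0) n else 0) *
            (if 1 < N [] then chi q lam (sub N 1) n else 0)) +
            C.nu * lam ^ 6 * ((if 0 < N [] then chi q lam (sub N 0) n else 0) ^ 2 *
              (if 1 < N [] then chi q lam (sub N 1) n else 0) +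
              (if 0 < N [] then chi q lam (sub N 0) n else 0) *
              (if 1 < N [] then chi q lam (sub N 1) n else 0) ^ 2) := by
        funext N
        by_cases h1 : 2 ≤ N []
        · rw [if_pos h1, if_pos (by omega), if_pos (by omega)]
          unfold phi
          ring
        · rw [if_neg h1]
          have : ¬ 1 < N [] := by omega
          simp [this]
      rw [e]
      exact ((BM.const _).mul (b0.mul b1)).add
        ((BM.const _).mul ((b0.pow.mul b1).add (b0.mul b1.pow)))
    have h1 : ∫ N, (chi q lam N (n + 1) + (if 2 ≤ N [] then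
        C.phi (lam ^ 2 * chi q lam (sub N 0) n) (lam ^ 2 * chi q lam (sub N 1) n) else 0))
        ∂(gwLaw P) ≤ m * ∫ N, lam ^ 2 * chi q lam N n ∂(gwLaw P) := by
      refine integral_sum_children_le P hm hm0 ((BM.const _).mul (hbm n))
        (fun N => mul_nonneg hl0 (chi_nonneg hq h N n)) ((hbm (n + 1)).add bmphi) ?_ ?_
      · intro N
        refine add_nonneg (chi_nonneg hq h _ _) ?_
        split_ifs
        · exact C.phi_nonneg (mul_nonneg hl0 (chi_nonneg hq h _ _))
            (mul_nonneg hl0 (chi_nonneg hq h _ _))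
        · exact le_rfl
      · intro N
        have := C.chi_succ hq h n N
        rw [Finset.mul_sum] at this
        exact this
    rw [MeasureTheory.integral_add ((hbm (n + 1)).integrable P) (bmphi.integrable P),
      integral_const_mul] at h1
    have h2 : pr P 1 * C.mu * lam ^ 4 * x n ^ 2 + 2 * pr P 1 * C.nu * lam ^ 6 * x n ^ 3 ≤
        ∫ N, (if 2 ≤ N [] then
        C.phi (lam ^ 2 * chi q lam (sub N 0) n) (lam ^ 2 * chi q lam (sub N 1) n) else 0)
        ∂(gwLaw P) := by
      have hm1 : Measurable (fun N => chi q lam N n) := (hbm n).1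
      have hm2 : Measurable (fun N => chi q lam N n ^ 2) := (hbm n).pow.1
      have i1 := integral_two' P hm1 hm1
      have i2 := integral_two' P hm2 hm1
      have i3 := integral_two' P hm1 hm2
      have e : (fun N : List ℕ → ℕ => if 2 ≤ N [] then
          C.phi (lam ^ 2 * chi q lam (sub N 0) n) (lam ^ 2 * chi q lam (sub N 1) n) else 0) =
          fun N => C.mu * lam ^ 4 *
            (if 2 ≤ N [] then chi q lam (sub N 0) n * chi q lam (sub N 1) n else 0) +
            (C.nu * lam ^ 6 *
            (if 2 ≤ N [] then chi q lam (sub N 0) n ^ 2 * chi q lam (sub N 1) n else 0) +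
            C.nu * lam ^ 6 *
            (if 2 ≤ N [] then chi q lam (sub N 0) n * chi q lam (sub N 1) n ^ 2 else 0)) := by
        funext N
        split_ifs
        · unfold phi
          ring
        · ring
      have two : ∀ {F G : (List ℕ → ℕ) → ℝ}, BM F → BM G →
          BM (fun N => if 2 ≤ N [] then F (sub N 0) * G (sub N 1) else 0) := by
        intro F G hF hG
        have e : (fun N : List ℕ → ℕ => if 2 ≤ N [] then F (sub N 0) * G (sub N 1) else 0) =
            fun N => (if 0 < N [] then F (sub N 0) else 0) *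
              (if 1 < N [] then G (sub N 1) else 0) := by
          funext N
          by_cases h1 : 2 ≤ N []
          · rw [if_pos h1, if_pos (by omega), if_pos (by omega)]
          · rw [if_neg h1]
            have : ¬ 1 < N [] := by omega
            simp [this]
        rw [e]
        exact (hF.child 0).mul (hG.child 1)
      rw [e, MeasureTheory.integral_add, MeasureTheory.integral_add, integral_const_mul,
        integral_const_mul, integral_const_mul, i1, i2, i3]
      · have hsq := sq_integral_le (hbm n) P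
        have hsq' : x n ^ 2 ≤ ∫ N, chi q lam N n ^ 2 ∂(gwLaw P) := hsq
        have h3 : x n ^ 3 ≤ (∫ N, chi q lam N n ^ 2 ∂(gwLaw P)) * x n := by
          have := mul_le_mul_of_nonneg_right hsq' (hx0 n)
          linarith [pow_succ (x n) 2]
        have h4 : 0 ≤ C.nu * lam ^ 6 * pr P 1 := by positivity
        have h5 := mul_le_mul_of_nonneg_left h3 h4
        have h6 : ∫ N, chi q lam N n ∂(gwLaw P) = x n := rfl
        rw [h6]
        nlinarith [h5]
      · exact ((BM.const _).mul (two (hbm n).pow (hbm n))).integrable P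
      · exact ((BM.const _).mul (two (hbm n) (hbm n).pow)).integrable P
      · exact ((BM.const _).mul (two (hbm n) (hbm n))).integrable P
      · exact (((BM.const _).mul (two (hbm n).pow (hbm n))).add
          ((BM.const _).mul (two (hbm n) (hbm n).pow))).integrable P
    have h3 : ∫ N, chi q lam N (n + 1) ∂(gwLaw P) = x (n + 1) := rfl
    have h4 : ∫ N, chi q lam N n ∂(gwLaw P) = x n := rfl
    rw [h3, h4] at h1
    linarith
  have hxlim : Tendsto x atTop (𝓝 0) := by
    by_cases hl : lam = 0
    · have : ∀ n, x (n + 1) = 0 := by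
        intro n
        have h1 := hrec n
        have h2 : lam ^ 2 = 0 := by rw [hl]; norm_num
        have h4 : lam ^ 4 = 0 := by rw [hl]; norm_num
        have h6 : lam ^ 6 = 0 := by rw [hl]; norm_num
        rw [h2, h4, h6] at h1
        simp only [mul_zero, zero_mul, add_zero] at h1
        exact le_antisymm h1 (hx0 _)
      rw [← tendsto_add_atTop_iff_nat 1]
      simp [this]
    · refine tendsto_zero_of_rec' (a := pr P 1 * C.mu * lam ^ 4)
        (b := 2 * pr P 1 * C.nu * lam ^ 6) (by positivity) (by positivity) ?_ hx0 fun n => ?_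
      · have h4 : 0 < lam ^ 4 := by positivity
        have h6 : 0 < lam ^ 6 := by positivity
        rcases hmu0.eq_or_lt with h7 | h7
        · have : 0 < C.nu := by linarith
          rw [← h7]; positivity
        · positivity
      · refine (hrec n).trans ?_
        exact mul_le_of_le_one_left (hx0 n) hdl
  have hbound : ∀ (n : ℕ) (e : ℝ), 0 < e → aGW q lam P n ≤ (e + x n / e) / 4 := by
    intro n e he
    calc aGW q lam P n ≤ ∫ N, ((e + chi q lam N n / e) / 4) ∂(gwLaw P) := by
          refine integral_mono (integrable_quenched hq h P n) ?_ fun N => ?_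
          · exact ((integrable_const e).add ((integrable_chi hq h P n).div_const e)).div_const 4
          · have h1 := quenched_le hq h N n
            have h2 := sqrt_le_eps (chi_nonneg hq h N n) he
            simp only
            linarith
      _ = (e + x n / e) / 4 := by
          rw [integral_div, MeasureTheory.integral_add (integrable_const e)
            ((integrable_chi hq h P n).div_const e), integral_div]
          simp [hx]
  have h0 : ∀ n, 0 ≤ aGW q lam P n := fun n => aGW_nonneg hq h P n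
  unfold Nonreconstruction
  rw [Metric.tendsto_atTop]
  intro e he
  obtain ⟨n0, hn0⟩ := (Metric.tendsto_atTop.1 hxlim) (e ^ 2) (by positivity)
  refine ⟨n0, fun n hn => ?_⟩
  have h1 := hn0 n hn
  rw [Real.dist_eq, sub_zero, abs_of_nonneg (hx0 n)] at h1
  rw [Real.dist_eq, sub_zero, abs_of_nonneg (h0 n)]
  have h2 := hbound n e he
  have h3 : x n / e < e := by
    rw [div_lt_iff₀ he]; linarith [sq e]
  linarith

/-- An abstract certificate settles the threshold for the `d`-ary tree. -/
theorem threshold_regular (hq : 2 ≤ q) (h : Admissible q lam)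
    (hmu : 0 < C.mu + C.nu) {d : ℕ} (hd : 2 ≤ d) :
    (Reconstruction (aRegular q lam d) ↔ 1 < d * lam ^ 2) ∧
    (Nonreconstruction (aRegular q lam d) ↔ d * lam ^ 2 ≤ 1) := by
  have h1 : d * lam ^ 2 ≤ 1 → Nonreconstruction (aRegular q lam d) :=
    C.nonreconstruction_regular (by omega) h hmu hd
  have h2 : 1 < d * lam ^ 2 → Reconstruction (aRegular q lam d) := ks_regular hq h
  refine ⟨⟨fun hr => ?_, h2⟩, ⟨fun hn => ?_, h1⟩⟩
  · by_contra h3
    exact not_both hr (h1 (not_lt.1 h3))
  · by_contra h3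
    exact not_both (h2 (not_le.1 h3)) hn

/-- An abstract certificate settles the threshold for the Poisson tree. -/
theorem threshold_poisson (hq : 2 ≤ q) (h : Admissible q lam)
    (hmu : 0 < C.mu + C.nu) {d : NNReal} (hd : 0 < d) :
    (Reconstruction (aPoisson q lam d) ↔ 1 < d * lam ^ 2) ∧
    (Nonreconstruction (aPoisson q lam d) ↔ d * lam ^ 2 ≤ 1) := by
  have h1 : d * lam ^ 2 ≤ 1 → Nonreconstruction (aPoisson q lam d) := fun hdl =>
    C.nonreconstruction_gw (by omega) h hmu (poissonMeasure d) (lintegral_poisson d).le d.2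
      (poisson_two_ne_zero hd) hdl
  have h2 : 1 < d * lam ^ 2 → Reconstruction (aPoisson q lam d) := ks_poisson hq h
  refine ⟨⟨fun hr => ?_, h2⟩, ⟨fun hn => ?_, h1⟩⟩
  · by_contra h3
    exact not_both hr (h1 (not_lt.1 h3))
  · by_contra h3
    exact not_both (h2 (not_le.1 h3)) hn

end ACert

end Vale.Agent.P154
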