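import Mathlib
import Vale.Agent.P154.Abs

/-!
# P154: Hamilton–Jacobi certificates
-/

namespace Vale.Agent.P154

open MeasureTheory ProbabilityTheory Filter Topology Finset
open scoped BigOperators ENNReal

variable {q : ℕ}

/-- value at time `s` of the time-dependent functional with coefficients `V 0, ..., V J` -/
noncomputable def Vs (V : ℕ → (Fin q → ℝ) → ℝ) (J : ℕ) (s : ℝ) (u : Fin q → ℝ) : ℝ :=
  ∑ j ∈ range (J + 1), s ^ j * V j u

/-- time derivative -/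
noncomputable def dVs (V : ℕ → (Fin q → ℝ) → ℝ) (J : ℕ) (s : ℝ) (u : Fin q → ℝ) : ℝ :=
  ∑ j ∈ range (J + 1), (j : ℝ) * s ^ (j - 1) * V j u

/-- A Hamilton–Jacobi certificate for the cone of the vectors `edge lam0 t`. -/
structure HJ (q : ℕ) (lam0 : ℝ) where
  J : ℕ
  V : ℕ → (Fin q → ℝ) → ℝ
  m : (Fin q → ℝ) → ℝ
  qq : (Fin q → ℝ) → ℝ
  K : ℝ → (Fin q → ℝ) → ℝ
  R : (Fin q → ℝ) → ℝ
  T : ℝ
  S : Finset (Equiv.Perm (Fin q))
  S_nonempty : S.Nonempty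
  B : ℝ
  V_bound : ∀ j, ∀ u : Fin q → ℝ, (∀ i, 0 ≤ u i) → |V j u| ≤ B * Z u
  R_bound : ∀ t : Fin q → ℝ, (∀ i, 0 ≤ t i) → |R t| ≤ B * Z t
  m_bound : ∀ t : Fin q → ℝ, (∀ i, 0 ≤ t i) → m (edge lam0 t) ≤ B * Z t
  m_nonneg : ∀ t : Fin q → ℝ, (∀ i, 0 ≤ t i) → 0 ≤ m (edge lam0 t)
  K_nonpos : ∀ s, 0 ≤ s → s ≤ T → ∀ u : Fin q → ℝ, (∀ i, 0 ≤ u i) → K s u ≤ 0
  qq_nonneg : ∀ t : Fin q → ℝ, (∀ i, 0 ≤ t i) → 0 ≤ qq (edge lam0 t)
  main : ∀ s, 0 ≤ s → s ≤ T → ∀ u t : Fin q → ℝ, (∀ i, 0 ≤ u i) → (∀ i, 0 ≤ t i) →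
    ∑ π ∈ S, Vs V J s (fun i => u i * edge lam0 t (π i)) ≤
      (S.card : ℝ) * (Vs V J s u * Z (edge lam0 t) + m (edge lam0 t) * dVs V J s u +
        qq (edge lam0 t) * K s u)
  m_le : ∀ t : Fin q → ℝ, (∀ i, 0 ≤ t i) → m (edge lam0 t) ≤ lam0 ^ 2 * R t
  R_le : ∀ t : Fin q → ℝ, (∀ i, 0 ≤ t i) → R t ≤ V 0 t
  R_edge : ∀ r, 0 ≤ r → r ≤ 1 → ∀ t : Fin q → ℝ, (∀ i, 0 ≤ t i) → R (edge r t) ≤ r ^ 2 * R t
  c : ℝ
  c_pos : 0 < c
  W_le : ∀ t : Fin q → ℝ, (∀ i, 0 ≤ t i) → c * W t ≤ V 0 t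
  gam : ℝ
  gam_pos : 0 < gam
  unit_le : ∀ s, 0 ≤ s → s ≤ T → Vs V J s (fun _ => 1) ≤ s - gam * s ^ 2

namespace HJ

variable {lam0 : ℝ} (C : HJ q lam0)

lemma card_pos : (0 : ℝ) < C.S.card := by
  exact_mod_cast C.S_nonempty.card_pos

/-- channels with values in the cone -/
def InCone {Y : Type} (lam0 : ℝ) (g : Y → Fin q → ℝ) : Prop :=
  ∀ y, ∃ t : Fin q → ℝ, (∀ i, 0 ≤ t i) ∧ g y = edge lam0 t

lemma pair (hq : 0 < q) {X Y : Type} [Fintype X] [Fintype Y] {f : X → Fin q → ℝ}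
    {g : Y → Fin q → ℝ} (hf : IsChan f) (hg : IsChan g) (hc : InCone lam0 g) {s : ℝ}
    (hs : 0 ≤ s) (hs' : s ≤ C.T) :
    tot (Vs C.V C.J s) (prod2 f g) ≤
      tot (Vs C.V C.J s) f + tot C.m g * tot (dVs C.V C.J s) f + tot C.qq g * tot (C.K s) f := by
  have h1 := tot_prod2_avg (Vs C.V C.J s) (f := f) hg C.S
  have h2 : ∑ x, ∑ y, ∑ π ∈ C.S, Vs C.V C.J s (fun i => f x i * g y (π i)) ≤
      ∑ x, ∑ y, (C.S.card : ℝ) * (Vs C.V C.J s (f x) * Z (g y) +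
        C.m (g y) * dVs C.V C.J s (f x) + C.qq (g y) * C.K s (f x)) := by
    refine Finset.sum_le_sum fun x _ => Finset.sum_le_sum fun y _ => ?_
    obtain ⟨t, ht, e⟩ := hc y
    have := C.main s hs hs' (f x) t (hf.nonneg x) ht
    rw [← e] at this
    exact this
  have h3 : ∑ x, ∑ y, (C.S.card : ℝ) * (Vs C.V C.J s (f x) * Z (g y) +
        C.m (g y) * dVs C.V C.J s (f x) + C.qq (g y) * C.K s (f x)) =
      (C.S.card : ℝ) * (tot (Vs C.V C.J s) f * tot Z g + tot C.m g * tot (dVs C.V C.J s) f +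
        tot C.qq g * tot (C.K s) f) := by
    unfold tot
    simp_rw [← Finset.mul_sum, Finset.sum_add_distrib]
    congr 1
    simp_rw [← Finset.mul_sum, ← Finset.sum_mul, ← Finset.mul_sum]
  have h4 : tot Z g = 1 := hg.sum_Z hq
  rw [h4, mul_one] at h3
  have h5 : (C.S.card : ℝ) * tot (Vs C.V C.J s) (prod2 f g) ≤ (C.S.card : ℝ) *
      (tot (Vs C.V C.J s) f + tot C.m g * tot (dVs C.V C.J s) f + tot C.qq g * tot (C.K s) f) := by
    rw [h1]
    exact h2.trans_eq h3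
  exact le_of_mul_le_mul_left h5 C.card_pos

lemma tot_prod2_comm (H : (Fin q → ℝ) → ℝ) {X Y : Type} [Fintype X] [Fintype Y]
    (f : X → Fin q → ℝ) (g : Y → Fin q → ℝ) : tot H (prod2 g f) = tot H (prod2 f g) := by
  rw [← tot_comp_equiv H (prod2 g f) (Equiv.prodComm X Y)]
  unfold tot
  refine Finset.sum_congr rfl fun p _ => ?_
  congr 1
  funext i
  simp [prod2, mul_comm]

lemma tot_m_nonneg {Y : Type} [Fintype Y] {g : Y → Fin q → ℝ} (hc : InCone lam0 g) :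
    0 ≤ tot C.m g := by
  refine Finset.sum_nonneg fun y _ => ?_
  obtain ⟨t, ht, e⟩ := hc y
  rw [e]
  exact C.m_nonneg t ht

lemma tot_K_nonpos {X : Type} [Fintype X] {f : X → Fin q → ℝ} (hf : IsChan f) {s : ℝ}
    (hs : 0 ≤ s) (hs' : s ≤ C.T) : tot (C.K s) f ≤ 0 :=
  Finset.sum_nonpos fun x _ => C.K_nonpos s hs hs' _ (hf.nonneg x)

lemma tot_qq_nonneg {Y : Type} [Fintype Y] {g : Y → Fin q → ℝ} (hc : InCone lam0 g) :
    0 ≤ tot C.qq g := by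
  refine Finset.sum_nonneg fun y _ => ?_
  obtain ⟨t, ht, e⟩ := hc y
  rw [e]
  exact C.qq_nonneg t ht

/-- extra conditions for deterministic numbers of children -/
structure Reg : Prop where
  conv : ∀ s r, 0 ≤ s → 0 ≤ r → s + r ≤ C.T → ∀ u : Fin q → ℝ, (∀ i, 0 ≤ u i) →
    Vs C.V C.J s u + r * dVs C.V C.J s u + r ^ 2 * C.K s u ≤ Vs C.V C.J (s + r) u
  qq_ge : ∀ t : Fin q → ℝ, (∀ i, 0 ≤ t i) →
    C.m (edge lam0 t) ^ 2 ≤ C.qq (edge lam0 t) * Z (edge lam0 t)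

variable {C}

lemma Reg.sq_le (hR : C.Reg) (hq : 0 < q) {Y : Type} [Fintype Y] {g : Y → Fin q → ℝ}
    (hg : IsChan g) (hc : InCone lam0 g) : tot C.m g ^ 2 ≤ tot C.qq g := by
  have hZ : ∀ y, 0 ≤ Z (g y) := fun y =>
    div_nonneg (Finset.sum_nonneg fun i _ => hg.nonneg y i) (Nat.cast_nonneg _)
  have hqq : ∀ y, 0 ≤ C.qq (g y) := by
    intro y
    obtain ⟨t, ht, e⟩ := hc y
    rw [e]; exact C.qq_nonneg t ht
  have hm : ∀ y, 0 ≤ C.m (g y) := by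
    intro y
    obtain ⟨t, ht, e⟩ := hc y
    rw [e]; exact C.m_nonneg t ht
  have h1 : ∀ y, C.m (g y) ≤ Real.sqrt (C.qq (g y)) * Real.sqrt (Z (g y)) := by
    intro y
    obtain ⟨t, ht, e⟩ := hc y
    rw [← Real.sqrt_mul (hqq y)]
    apply Real.le_sqrt_of_sq_le
    rw [e]
    exact hR.qq_ge t ht
  have h2 : tot C.m g ≤ Real.sqrt (tot C.qq g) * Real.sqrt (tot Z g) := by
    unfold tot
    refine (Finset.sum_le_sum fun y _ => h1 y).trans ?_
    exact Real.sum_sqrt_mul_sqrt_le _ hqq hZ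
  have h3 : tot Z g = 1 := hg.sum_Z hq
  rw [h3, Real.sqrt_one, mul_one] at h2
  have h4 : 0 ≤ tot C.qq g := C.tot_qq_nonneg hc
  have h5 : 0 ≤ tot C.m g := C.tot_m_nonneg hc
  calc tot C.m g ^ 2 ≤ Real.sqrt (tot C.qq g) ^ 2 := by gcongr
    _ = tot C.qq g := Real.sq_sqrt h4

theorem Reg.chain (hR : C.Reg) (hq : 0 < q) :
    ∀ (k : ℕ) (X : Fin k → Type) [∀ c, Fintype (X c)] (f : ∀ c, X c → Fin q → ℝ),
      (∀ c, IsChan (f c)) → (∀ c, InCone lam0 (f c)) → ∀ s, 0 ≤ s →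
      s + ∑ c, tot C.m (f c) ≤ C.T →
      tot (Vs C.V C.J s) (prodN f) ≤ Vs C.V C.J (s + ∑ c, tot C.m (f c)) (fun _ => 1) := by
  intro k
  induction k with
  | zero =>
    intro X _ f _ _ s _ _
    rw [tot_prodN_zero]
    simp
  | succ k ih =>
    intro X _ f hf hcn s hs hT
    have hpos : ∀ c, 0 ≤ tot C.m (f c) := fun c => C.tot_m_nonneg (hcn c)
    rw [Fin.sum_univ_castSucc] at hT ⊢
    set r := tot C.m (f (Fin.last k)) with hr
    have hsum : 0 ≤ ∑ c : Fin k, tot C.m (f c.castSucc) :=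
      Finset.sum_nonneg fun c _ => hpos _
    have hr0 : 0 ≤ r := hpos _
    have hci : IsChan (prodN fun c : Fin k => f c.castSucc) := IsChan.prodN fun c => hf _
    have h1 := ih (fun c => X c.castSucc) (fun c => f c.castSucc) (fun c => hf _)
      (fun c => hcn _) (s + r) (by linarith) (by linarith)
    have h2 := C.pair hq hci (hf (Fin.last k)) (hcn (Fin.last k)) hs (by linarith)
    rw [tot_prodN_succ, tot_prod2_comm]
    refine h2.trans (le_trans ?_ (h1.trans_eq ?_))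
    · have h3 := hR.sq_le hq (hf (Fin.last k)) (hcn (Fin.last k))
      have h4 := C.tot_K_nonpos hci hs (by linarith : s ≤ C.T)
      have h5 : tot C.qq (f (Fin.last k)) * tot (C.K s) (prodN fun c : Fin k => f c.castSucc) ≤
          r ^ 2 * tot (C.K s) (prodN fun c : Fin k => f c.castSucc) :=
        mul_le_mul_of_nonpos_right h3 h4
      have h6 : tot (Vs C.V C.J s) (prodN fun c : Fin k => f c.castSucc) +
          r * tot (dVs C.V C.J s) (prodN fun c : Fin k => f c.castSucc) +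
          r ^ 2 * tot (C.K s) (prodN fun c : Fin k => f c.castSucc) ≤
          tot (Vs C.V C.J (s + r)) (prodN fun c : Fin k => f c.castSucc) := by
        unfold tot
        rw [Finset.mul_sum, Finset.mul_sum, ← Finset.sum_add_distrib, ← Finset.sum_add_distrib]
        exact Finset.sum_le_sum fun x _ => hR.conv s r hs hr0 (by linarith) _ (hci.nonneg x)
      linarith
    · congr 1
      ring

end HJ

end Vale.Agent.P154
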