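import Mathlib
import Vale.Agent.P154.HJ

/-!
# P154: Hamilton–Jacobi certificates, regular trees
-/

namespace Vale.Agent.P154

open MeasureTheory ProbabilityTheory Filter Topology Finset
open scoped BigOperators ENNReal

variable {q : ℕ}

lemma edge_edge (hq : 0 < q) (a b : ℝ) (x : Fin q → ℝ) : edge a (edge b x) = edge (a * b) x := by
  funext i
  rw [edge_eq, Z_edge hq, edge_eq, edge_eq]
  ring

lemma Vs_zero (V : ℕ → (Fin q → ℝ) → ℝ) (J : ℕ) (u : Fin q → ℝ) : Vs V J 0 u = V 0 u := by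
  unfold Vs
  rw [Finset.sum_range_succ']
  simp

lemma potts_one_nonneg {r : ℝ} (h0 : 0 ≤ r) (h1 : r ≤ 1) : Admissible q r :=
  admissible_of_mem q h0 h1

namespace HJ

variable {lam0 : ℝ} (C : HJ q lam0)

lemma inCone_edge (hq : 0 < q) {r : ℝ} (h0 : 0 ≤ r) (h1 : r ≤ 1) {X : Type} [Fintype X]
    {f : X → Fin q → ℝ} (hf : IsChan f) : InCone lam0 (fun x => edge (lam0 * r) (f x)) := by
  intro x
  exact ⟨edge r (f x), fun i => edge_nonneg (admissible_of_mem q h0 h1) (hf.nonneg x) i,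
    (edge_edge hq lam0 r (f x)).symm⟩

lemma R_nonneg (hl : lam0 ≠ 0) (t : Fin q → ℝ) (ht : ∀ i, 0 ≤ t i) : 0 ≤ C.R t := by
  have h1 := (C.m_nonneg t ht).trans (C.m_le t ht)
  have h2 : 0 < lam0 ^ 2 := by positivity
  exact nonneg_of_mul_nonneg_right h1 h2

/-- the edge inequality -/
lemma m_edge_le (hq : 0 < q) (hl : lam0 ≠ 0) {r : ℝ} (h0 : 0 ≤ r) (h1 : r ≤ 1) {d : ℝ}
    (hd : 0 ≤ d) (hdl : d * (lam0 * r) ^ 2 ≤ 1) (t : Fin q → ℝ) (ht : ∀ i, 0 ≤ t i) :
    d * C.m (edge (lam0 * r) t) ≤ C.R t := by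
  rw [← edge_edge hq]
  have ht' : ∀ i, 0 ≤ edge r t i := fun i => edge_nonneg (admissible_of_mem q h0 h1) ht i
  have h2 := C.m_le (edge r t) ht'
  have h3 := C.R_edge r h0 h1 t ht
  have h4 := C.R_nonneg hl t ht
  calc d * C.m (edge lam0 (edge r t)) ≤ d * (lam0 ^ 2 * (r ^ 2 * C.R t)) := by
        gcongr
        exact h2.trans (by gcongr)
    _ = (d * (lam0 * r) ^ 2) * C.R t := by ring
    _ ≤ C.R t := mul_le_of_le_one_left h4 hdl

lemma tot_m_edge_le (hq : 0 < q) (hl : lam0 ≠ 0) {r : ℝ} (h0 : 0 ≤ r) (h1 : r ≤ 1) {d : ℝ}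
    (hd : 0 ≤ d) (hdl : d * (lam0 * r) ^ 2 ≤ 1) {X : Type} [Fintype X]
    {f : X → Fin q → ℝ} (hf : IsChan f) :
    d * tot C.m (fun x => edge (lam0 * r) (f x)) ≤ tot C.R f := by
  unfold tot
  rw [Finset.mul_sum]
  exact Finset.sum_le_sum fun x _ => C.m_edge_le hq hl h0 h1 hd hdl _ (hf.nonneg x)

lemma tot_R_le {X : Type} [Fintype X] {f : X → Fin q → ℝ} (hf : IsChan f) :
    tot C.R f ≤ tot (C.V 0) f :=
  Finset.sum_le_sum fun x _ => C.R_le _ (hf.nonneg x)

lemma tot_W_le {X : Type} [Fintype X] {f : X → Fin q → ℝ} (hf : IsChan f) :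
    C.c * tot W f ≤ tot (C.V 0) f := by
  unfold tot
  rw [Finset.mul_sum]
  exact Finset.sum_le_sum fun x _ => C.W_le _ (hf.nonneg x)

/-- the scalar recursion -/
lemma tendsto_of_rec {y : ℕ → ℝ} (h0 : ∀ n, 0 ≤ y n) {n0 : ℕ} (hT : y n0 ≤ C.T)
    (h : ∀ n, y n ≤ C.T → y (n + 1) ≤ Vs C.V C.J (y n) (fun _ => 1)) :
    (∀ n, n0 ≤ n → y n ≤ C.T) ∧ Tendsto y atTop (𝓝 0) := by
  have hb : ∀ n, n0 ≤ n → y n ≤ C.T := by
    intro n hn
    induction n, hn using Nat.le_induction with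
    | base => exact hT
    | succ n _ ih =>
      have h1 := (h n ih).trans (C.unit_le (y n) (h0 n) ih)
      have h2 : 0 ≤ C.gam * y n ^ 2 := mul_nonneg C.gam_pos.le (sq_nonneg _)
      linarith
  refine ⟨hb, ?_⟩
  rw [← tendsto_add_atTop_iff_nat n0]
  refine tendsto_zero_of_rec' C.gam_pos.le le_rfl (by linarith [C.gam_pos])
    (fun n => h0 _) fun n => ?_
  have h2 : n + 1 + n0 = n + n0 + 1 := by omega
  have h1 := (h (n + n0) (hb _ (by omega))).trans
    (C.unit_le (y (n + n0)) (h0 _) (hb _ (by omega)))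
  rw [h2]
  linarith

theorem nonreconstruction_regular (hR : C.Reg) (hq : 0 < q) (hl : lam0 ≠ 0) {r : ℝ}
    (h0 : 0 ≤ r) (h1 : r ≤ 1) (h : Admissible q (lam0 * r)) {d : ℕ}
    (hdl : d * (lam0 * r) ^ 2 ≤ 1) {n0 : ℕ}
    (hstart : tot C.R (lik q (lam0 * r) (fun _ => d) n0) ≤ C.T) :
    Nonreconstruction (aRegular q (lam0 * r) d) := by
  set lam := lam0 * r with hlam
  set N : List ℕ → ℕ := fun _ => d with hN
  set y : ℕ → ℝ := fun n => d * tot C.m (fun x => edge lam (lik q lam N n x)) with hy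
  have hch : ∀ n, IsChan (lik q lam N n) := fun n => isChan_lik hq h n N
  have hy0 : ∀ n, 0 ≤ y n := fun n => mul_nonneg (Nat.cast_nonneg _)
    (C.tot_m_nonneg (inCone_edge hq h0 h1 (hch n)))
  have key : ∀ n, y n ≤ C.T → tot (C.V 0) (lik q lam N (n + 1)) ≤
      Vs C.V C.J (y n) (fun _ => 1) := by
    intro n hn
    have e1 : ∑ c : Fin (N []), tot C.m (fun τ : (gen (sub N c) n → Fin q) =>
        edge lam (lik q lam (sub N c) n τ)) = y n := by
      have : ∀ c : Fin (N []), tot C.m (fun τ : (gen (sub N c) n → Fin q) =>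
        edge lam (lik q lam (sub N c) n τ)) = tot C.m (fun x => edge lam (lik q lam N n x)) :=
        fun c => rfl
      simp_rw [this]
      rw [Finset.sum_const, Finset.card_univ, Fintype.card_fin, nsmul_eq_mul]
    have h2 := hR.chain hq (N []) _ (fun c : Fin (N []) =>
      fun τ : (gen (sub N c) n → Fin q) => edge lam (lik q lam (sub N c) n τ))
      (fun c => (isChan_lik hq h n _).edge hq h)
      (fun c => inCone_edge hq h0 h1 (isChan_lik hq h n _)) 0 le_rfl (by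
        rw [e1, zero_add]; exact hn)
    rw [e1, zero_add, ← lik_succ'] at h2
    have h3 : tot (Vs C.V C.J 0) (fun t => lik q lam N (n + 1) (glueG q N n t)) =
        tot (C.V 0) (lik q lam N (n + 1)) := by
      rw [tot_comp_equiv]
      unfold tot
      exact Finset.sum_congr rfl fun x _ => Vs_zero _ _ _
    rw [h3] at h2
    exact h2
  have hrec : ∀ n, y n ≤ C.T → y (n + 1) ≤ Vs C.V C.J (y n) (fun _ => 1) := by
    intro n hn
    exact ((C.tot_m_edge_le hq hl h0 h1 (Nat.cast_nonneg _) hdl (hch (n + 1))).trans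
      (C.tot_R_le (hch (n + 1)))).trans (key n hn)
  have hT : y n0 ≤ C.T :=
    (C.tot_m_edge_le hq hl h0 h1 (Nat.cast_nonneg _) hdl (hch n0)).trans hstart
  obtain ⟨hb, hlim⟩ := C.tendsto_of_rec hy0 hT hrec
  have hx : Tendsto (fun n => chi q lam N n) atTop (𝓝 0) := by
    rw [← tendsto_add_atTop_iff_nat (n0 + 1)]
    refine squeeze_zero (fun n => chi_nonneg hq h _ _) (g := fun n => C.c⁻¹ * y (n + n0))
      (fun n => ?_) ?_
    · have h2 := (C.tot_W_le (hch (n + n0 + 1))).trans ((key (n + n0) (hb _ (by omega))).trans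
        (C.unit_le (y (n + n0)) (hy0 _) (hb _ (by omega))))
      have h3 : 0 ≤ C.gam * y (n + n0) ^ 2 := mul_nonneg C.gam_pos.le (sq_nonneg _)
      have h4 : C.c * chi q lam N (n + n0 + 1) ≤ y (n + n0) := by unfold chi; linarith
      have h5 : n + (n0 + 1) = n + n0 + 1 := by omega
      rw [← div_eq_inv_mul, le_div_iff₀ C.c_pos, h5]
      linarith
    · have := ((tendsto_add_atTop_iff_nat n0).2 hlim).const_mul C.c⁻¹
      simpa using this
  have hs : Tendsto (fun n => 1 / 2 * Real.sqrt (chi q lam N n)) atTop (𝓝 0) := by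
    have := ((Real.continuous_sqrt.tendsto 0).comp hx).const_mul (1 / 2)
    simpa using this
  exact squeeze_zero (fun n => quenched_nonneg hq h _ n) (fun n => quenched_le hq h _ n) hs

end HJ

end Vale.Agent.P154
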