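import Mathlib

/-!
# P154: differentiation of Poisson mixtures
-/

namespace Vale.Agent.P154

open Finset Filter Topology
open scoped BigOperators

/-- exponential generating function of a bounded sequence -/
noncomputable def egf (a : ℕ → ℝ) (x : ℝ) : ℝ := ∑' k : ℕ, a k * (x ^ k / k.factorial)

lemma egf_summable {a : ℕ → ℝ} {B : ℝ} (ha : ∀ k, |a k| ≤ B) (x : ℝ) :
    Summable fun k : ℕ => a k * (x ^ k / k.factorial) := by
  have h1 : Summable fun k : ℕ => B * (|x| ^ k / k.factorial) :=
    (Real.summable_pow_div_factorial |x|).mul_left B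
  refine Summable.of_norm_bounded h1 fun k => ?_
  rw [Real.norm_eq_abs, abs_mul, abs_div, abs_pow, Nat.abs_cast]
  exact mul_le_mul_of_nonneg_right (ha k) (by positivity)

lemma egf_hasDerivAt {a : ℕ → ℝ} {B : ℝ} (ha : ∀ k, |a k| ≤ B) (x : ℝ) :
    HasDerivAt (egf a) (egf (fun k => a (k + 1)) x) x := by
  have hB : 0 ≤ B := (abs_nonneg _).trans (ha 0)
  set R : ℝ := |x| + 1 with hR
  have hR0 : 0 ≤ R := by positivity
  have hx : x ∈ Metric.ball (0 : ℝ) R := by
    rw [mem_ball_zero_iff, Real.norm_eq_abs]; linarith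
  -- derivative of the k-th term
  have hd : ∀ (k : ℕ) (y : ℝ), HasDerivAt (fun y : ℝ => a k * (y ^ k / k.factorial))
      (a k * (k * y ^ (k - 1) / k.factorial)) y := by
    intro k y
    exact ((hasDerivAt_pow k y).div_const _).const_mul _
  have hu : Summable fun k : ℕ => B * (k * R ^ (k - 1) / k.factorial) := by
    refine Summable.mul_left B ?_
    rw [← summable_nat_add_iff 1]
    have : (fun k : ℕ => ((k + 1 : ℕ) : ℝ) * R ^ (k + 1 - 1) / (k + 1).factorial) =
        fun k : ℕ => R ^ k / k.factorial := by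
      funext k
      rw [Nat.factorial_succ, Nat.add_sub_cancel]
      push_cast
      have h1 : ((k : ℝ) + 1) ≠ 0 := by positivity
      have h2 : (k.factorial : ℝ) ≠ 0 := by positivity
      field_simp
    rw [this]
    exact Real.summable_pow_div_factorial R
  have hb : ∀ (k : ℕ) (y : ℝ), y ∈ Metric.ball (0 : ℝ) R →
      ‖a k * (k * y ^ (k - 1) / k.factorial)‖ ≤ B * (k * R ^ (k - 1) / k.factorial) := by
    intro k y hy
    rw [mem_ball_zero_iff] at hy
    rw [norm_mul, Real.norm_eq_abs]
    refine mul_le_mul (ha k) ?_ (norm_nonneg _) hB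
    rw [norm_div, norm_mul, norm_pow]
    simp only [Real.norm_natCast]
    gcongr
  have h := hasDerivAt_tsum_of_isPreconnected hu Metric.isOpen_ball
    (convex_ball (0 : ℝ) R).isPreconnected (fun k y _ => hd k y) hb
    (Metric.mem_ball_self (by positivity)) (egf_summable ha 0) hx
  have e : ∑' k : ℕ, a k * (k * x ^ (k - 1) / k.factorial) = egf (fun k => a (k + 1)) x := by
    have hs : Summable fun k : ℕ => a k * (k * x ^ (k - 1) / k.factorial) :=
      Summable.of_norm_bounded hu fun k => hb k x hx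
    rw [hs.tsum_eq_zero_add]
    unfold egf
    simp only [Nat.cast_zero, zero_mul, zero_div, mul_zero, zero_add]
    refine tsum_congr fun k => ?_
    congr 1
    rw [Nat.factorial_succ, Nat.add_sub_cancel]
    push_cast
    have h1 : ((k : ℝ) + 1) ≠ 0 := by positivity
    have h2 : (k.factorial : ℝ) ≠ 0 := by positivity
    field_simp
  rw [e] at h
  exact h

lemma egf_zero (a : ℕ → ℝ) : egf a 0 = a 0 := by
  unfold egf
  rw [tsum_eq_single 0]
  · simp
  · intro k hk
    simp [hk]

/-- The Poisson mixture of a family satisfying the one-step inequality. -/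
theorem poisson_mix {J : ℕ} {a : ℕ → ℕ → ℝ} {B mu d T : ℝ} (ha : ∀ k j, |a k j| ≤ B)
    (hmu : 0 ≤ mu) (hd : 0 ≤ d) (hT : d * mu ≤ T)
    (hstep : ∀ k s, 0 ≤ s → s ≤ T →
      ∑ j ∈ range (J + 1), s ^ j * a (k + 1) j ≤ ∑ j ∈ range (J + 1), s ^ j * a k j +
        mu * ∑ j ∈ range (J + 1), (j : ℝ) * s ^ (j - 1) * a k j) :
    Real.exp (-d) * egf (fun k => a k 0) d ≤ ∑ j ∈ range (J + 1), (d * mu) ^ j * a 0 j := by
  -- the interpolating function
  set F : ℕ → ℝ → ℝ := fun j x => egf (fun k => a k j) x with hF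
  set G : ℕ → ℝ → ℝ := fun j x => egf (fun k => a (k + 1) j) x with hG
  set P : ℝ → ℝ := fun x => Real.exp (-x) *
    ∑ j ∈ range (J + 1), (mu * (d - x)) ^ j * F j x with hP
  have hFd : ∀ j x, HasDerivAt (F j) (G j x) x := fun j x =>
    egf_hasDerivAt (fun k => ha k j) x
  have hPd : ∀ x, HasDerivAt P (Real.exp (-x) * (-1) *
      (∑ j ∈ range (J + 1), (mu * (d - x)) ^ j * F j x) + Real.exp (-x) *
      (∑ j ∈ range (J + 1), ((j : ℝ) * (mu * (d - x)) ^ (j - 1) * (mu * (-1)) * F j x +
        (mu * (d - x)) ^ j * G j x))) x := by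
    intro x
    have h1 : HasDerivAt (fun x : ℝ => Real.exp (-x)) (Real.exp (-x) * (-1)) x :=
      (hasDerivAt_neg x).exp
    have h2 : ∀ j ∈ range (J + 1), HasDerivAt (fun x => (mu * (d - x)) ^ j * F j x)
        ((j : ℝ) * (mu * (d - x)) ^ (j - 1) * (mu * (-1)) * F j x +
          (mu * (d - x)) ^ j * G j x) x := by
      intro j _
      have h3 : HasDerivAt (fun x : ℝ => mu * (d - x)) (mu * (-1)) x := by
        have := ((hasDerivAt_id x).const_sub d).const_mul mu
        simpa using this
      exact (h3.pow j).mul (hFd j x)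
    have h3 := HasDerivAt.fun_sum h2
    exact h1.mul h3
  have hneg : ∀ x, 0 ≤ x → x ≤ d → Real.exp (-x) * (-1) *
      (∑ j ∈ range (J + 1), (mu * (d - x)) ^ j * F j x) + Real.exp (-x) *
      (∑ j ∈ range (J + 1), ((j : ℝ) * (mu * (d - x)) ^ (j - 1) * (mu * (-1)) * F j x +
        (mu * (d - x)) ^ j * G j x)) ≤ 0 := by
    intro x hx0 hxd
    set s := mu * (d - x) with hs
    have hs0 : 0 ≤ s := mul_nonneg hmu (by linarith)
    have hsT : s ≤ T := by
      have : s ≤ mu * d := mul_le_mul_of_nonneg_left (by linarith) hmu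
      linarith [mul_comm mu d]
    -- everything as a sum over k
    have sF : ∀ j, Summable fun k : ℕ => a k j * (x ^ k / k.factorial) := fun j =>
      egf_summable (fun k => ha k j) x
    have sG : ∀ j, Summable fun k : ℕ => a (k + 1) j * (x ^ k / k.factorial) := fun j =>
      egf_summable (fun k => ha (k + 1) j) x
    have e1 : (∑ j ∈ range (J + 1), s ^ j * F j x) =
        ∑' k : ℕ, (∑ j ∈ range (J + 1), s ^ j * a k j) * (x ^ k / k.factorial) := by
      simp only [hF, egf]
      simp_rw [Finset.sum_mul]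
      rw [Summable.tsum_finsetSum fun j _ => by
        simpa [mul_assoc] using (sF j).mul_left (s ^ j)]
      refine Finset.sum_congr rfl fun j _ => ?_
      rw [← tsum_mul_left]
      exact tsum_congr fun k => by ring
    have e2 : (∑ j ∈ range (J + 1), ((j : ℝ) * s ^ (j - 1) * (mu * (-1)) * F j x +
        s ^ j * G j x)) = ∑' k : ℕ, ((∑ j ∈ range (J + 1), s ^ j * a (k + 1) j) -
          mu * ∑ j ∈ range (J + 1), (j : ℝ) * s ^ (j - 1) * a k j) * (x ^ k / k.factorial) := by
      have : ∀ k : ℕ, ((∑ j ∈ range (J + 1), s ^ j * a (k + 1) j) -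
          mu * ∑ j ∈ range (J + 1), (j : ℝ) * s ^ (j - 1) * a k j) * (x ^ k / k.factorial) =
          ∑ j ∈ range (J + 1), ((j : ℝ) * s ^ (j - 1) * (mu * (-1)) *
            (a k j * (x ^ k / k.factorial)) + s ^ j * (a (k + 1) j * (x ^ k / k.factorial))) := by
        intro k
        rw [Finset.mul_sum, ← Finset.sum_sub_distrib, Finset.sum_mul]
        exact Finset.sum_congr rfl fun j _ => by ring
      simp_rw [this]
      rw [Summable.tsum_finsetSum fun j _ =>
        ((sF j).mul_left _).add ((sG j).mul_left _)]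
      refine Finset.sum_congr rfl fun j _ => ?_
      rw [Summable.tsum_add ((sF j).mul_left _) ((sG j).mul_left _), tsum_mul_left, tsum_mul_left]
      rfl
    have t1 : Summable fun k : ℕ =>
        (∑ j ∈ range (J + 1), s ^ j * a k j) * (x ^ k / k.factorial) := by
      simp_rw [Finset.sum_mul]
      exact summable_sum fun j _ => by simpa [mul_assoc] using (sF j).mul_left (s ^ j)
    have t2 : Summable fun k : ℕ => ((∑ j ∈ range (J + 1), s ^ j * a (k + 1) j) -
          mu * ∑ j ∈ range (J + 1), (j : ℝ) * s ^ (j - 1) * a k j) * (x ^ k / k.factorial) := by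
      have : ∀ k : ℕ, ((∑ j ∈ range (J + 1), s ^ j * a (k + 1) j) -
          mu * ∑ j ∈ range (J + 1), (j : ℝ) * s ^ (j - 1) * a k j) * (x ^ k / k.factorial) =
          ∑ j ∈ range (J + 1), ((j : ℝ) * s ^ (j - 1) * (mu * (-1)) *
            (a k j * (x ^ k / k.factorial)) + s ^ j * (a (k + 1) j * (x ^ k / k.factorial))) := by
        intro k
        rw [Finset.mul_sum, ← Finset.sum_sub_distrib, Finset.sum_mul]
        exact Finset.sum_congr rfl fun j _ => by ring
      simp_rw [this]
      exact summable_sum fun j _ => ((sF j).mul_left _).add ((sG j).mul_left _)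
    rw [e1, e2]
    have e3 : Real.exp (-x) * (-1) * (∑' k : ℕ, (∑ j ∈ range (J + 1), s ^ j * a k j) *
        (x ^ k / k.factorial)) + Real.exp (-x) * (∑' k : ℕ,
          ((∑ j ∈ range (J + 1), s ^ j * a (k + 1) j) -
          mu * ∑ j ∈ range (J + 1), (j : ℝ) * s ^ (j - 1) * a k j) * (x ^ k / k.factorial)) =
        Real.exp (-x) * (∑' k : ℕ,
          (((∑ j ∈ range (J + 1), s ^ j * a (k + 1) j) -
          mu * ∑ j ∈ range (J + 1), (j : ℝ) * s ^ (j - 1) * a k j) * (x ^ k / k.factorial) -
          (∑ j ∈ range (J + 1), s ^ j * a k j) * (x ^ k / k.factorial))) := by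
      rw [Summable.tsum_sub t2 t1]
      ring
    rw [e3]
    refine mul_nonpos_of_nonneg_of_nonpos (Real.exp_pos _).le ?_
    refine tsum_nonpos fun k => ?_
    have h1 := hstep k s hs0 hsT
    have h2 : 0 ≤ x ^ k / (k.factorial : ℝ) := by positivity
    rw [← sub_mul]
    exact mul_nonpos_of_nonpos_of_nonneg (by linarith) h2
  have hanti : AntitoneOn P (Set.Icc 0 d) := by
    refine antitoneOn_of_deriv_nonpos (convex_Icc 0 d) ?_ ?_ ?_
    · exact fun x _ => (hPd x).continuousAt.continuousWithinAt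
    · exact fun x _ => (hPd x).differentiableAt.differentiableWithinAt
    · intro x hx
      rw [interior_Icc] at hx
      rw [(hPd x).deriv]
      exact hneg x hx.1.le hx.2.le
  have h := hanti (Set.left_mem_Icc.2 hd) (Set.right_mem_Icc.2 hd) hd
  have h0 : P 0 = ∑ j ∈ range (J + 1), (d * mu) ^ j * a 0 j := by
    simp only [hP, neg_zero, Real.exp_zero, one_mul, sub_zero]
    refine Finset.sum_congr rfl fun j _ => ?_
    simp only [hF]
    rw [egf_zero, mul_comm mu d]
  have hdd : P d = Real.exp (-d) * egf (fun k => a k 0) d := by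
    simp only [hP, sub_self, mul_zero]
    rw [Finset.sum_range_succ']
    simp [hF]
  rw [h0, hdd] at h
  exact h

end Vale.Agent.P154
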