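import Mathlib
import Vale.Agent.P154.HJReg
import Vale.Agent.P154.PoisMix

/-!
# P154: Hamilton–Jacobi certificates, Poisson trees
-/

namespace Vale.Agent.P154

open MeasureTheory ProbabilityTheory Filter Topology Finset
open scoped BigOperators ENNReal NNReal

variable {q : ℕ}

/-- functional of the product of the channels hanging off the children `M 0, ..., M (k-1)` -/
noncomputable def tk (q : ℕ) (lam : ℝ) (n : ℕ) (H : (Fin q → ℝ) → ℝ) (k : ℕ)
    (M : Fin k → List ℕ → ℕ) : ℝ :=
  tot H (prodN (fun c : Fin k => fun τ : (gen (M c) n → Fin q) => edge lam (lik q lam (M c) n τ)))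

/-- the tree with root degree `k` and the first `k` subtrees of `N` -/
def trunc (k : ℕ) (N : List ℕ → ℕ) : List ℕ → ℕ
  | [] => k
  | c :: w => if c < k then N (c :: w) else 0

lemma tot_lik_succ (lam : ℝ) (n : ℕ) (H : (Fin q → ℝ) → ℝ) (N : List ℕ → ℕ) :
    tot H (lik q lam N (n + 1)) = tk q lam n H (N []) (fun c => sub N c) := by
  unfold tk
  rw [← lik_succ' lam N n, tot_comp_equiv]

lemma tk_trunc (lam : ℝ) (n : ℕ) (H : (Fin q → ℝ) → ℝ) (k : ℕ) (N : List ℕ → ℕ) :
    tk q lam n H k (fun c => sub N c) = tot H (lik q lam (trunc k N) (n + 1)) := by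
  rw [tot_lik_succ]
  have e : (fun c : Fin k => sub N c) = fun c : Fin k => sub (trunc k N) c := by
    funext c w
    simp [sub, trunc, c.2]
  rw [e]
  rfl

/-- the part of the tree that the first `k` subtrees depend on -/
def firstS (k : ℕ) : Set (List ℕ) := {u | ∃ c < k, ∃ w, u = c :: w}

lemma measurable_trunc (k : ℕ) : Measurable[blk (firstS k)] (trunc k) := by
  refine @measurable_pi_lambda _ _ _ (blk (firstS k)) _ _ fun u => ?_
  cases u with
  | nil => exact @measurable_const _ _ _ (blk (firstS k)) k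
  | cons c w =>
    by_cases hc : c < k
    · have : (fun N : List ℕ → ℕ => trunc k N (c :: w)) = fun N => N (c :: w) := by
        funext N; simp [trunc, hc]
      rw [this]
      exact measurable_eval_blk ⟨c, hc, w, rfl⟩
    · have : (fun N : List ℕ → ℕ => trunc k N (c :: w)) = fun _ => 0 := by
        funext N; simp [trunc, hc]
      rw [this]
      exact @measurable_const _ _ _ (blk (firstS k)) 0

open Classical in
lemma measurable_tot_lik (lam : ℝ) (H : (Fin q → ℝ) → ℝ) (n : ℕ) :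
    Measurable (fun N : List ℕ → ℕ => tot H (lik q lam N n)) :=
  measurable_of_ball_gen n (fun B L => ∑ τ : L → Fin q, H (fun i => ∑ s : B → Fin q,
    if (∀ h : [] ∈ B, s ⟨[], h⟩ = i) ∧
        (∀ (v : L) (h : (v : List ℕ) ∈ B), s ⟨v, h⟩ = τ v)
    then wt q lam B s else 0))

lemma measurable_tk (lam : ℝ) (n : ℕ) (H : (Fin q → ℝ) → ℝ) (k : ℕ) :
    Measurable[blk (firstS k)] (fun N : List ℕ → ℕ => tk q lam n H k (fun c => sub N c)) := by
  have e : (fun N : List ℕ → ℕ => tk q lam n H k (fun c => sub N c)) =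
      (fun N : List ℕ → ℕ => tot H (lik q lam N (n + 1))) ∘ trunc k := by
    funext N
    exact tk_trunc lam n H k N
  rw [e]
  exact (measurable_tot_lik lam H (n + 1)).comp (measurable_trunc k)

lemma measurable_tot_edge (lam : ℝ) (H : (Fin q → ℝ) → ℝ) (n : ℕ) :
    Measurable (fun N : List ℕ → ℕ => tot H (fun x => edge lam (lik q lam N n x))) :=
  measurable_tot_lik lam (fun u => H (edge lam u)) n

lemma abs_tot_le {H : (Fin q → ℝ) → ℝ} {B : ℝ} (hq : 0 < q)
    (hH : ∀ u : Fin q → ℝ, (∀ i, 0 ≤ u i) → |H u| ≤ B * Z u) {X : Type} [Fintype X]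
    {f : X → Fin q → ℝ} (hf : IsChan f) : |tot H f| ≤ B := by
  unfold tot
  calc |∑ x, H (f x)| ≤ ∑ x, |H (f x)| := Finset.abs_sum_le_sum_abs _ _
    _ ≤ ∑ x, B * Z (f x) := Finset.sum_le_sum fun x _ => hH _ (hf.nonneg x)
    _ = B := by rw [← Finset.mul_sum, hf.sum_Z hq, mul_one]

lemma isChan_tk (hq : 0 < q) {lam : ℝ} (h : Admissible q lam) (n k : ℕ)
    (M : Fin k → List ℕ → ℕ) : IsChan (prodN (fun c : Fin k =>
      fun τ : (gen (M c) n → Fin q) => edge lam (lik q lam (M c) n τ))) :=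
  IsChan.prodN fun _ => (isChan_lik hq h n _).edge hq h

lemma bm_tk (hq : 0 < q) {lam : ℝ} (h : Admissible q lam) (n : ℕ) {H : (Fin q → ℝ) → ℝ} {B : ℝ}
    (hH : ∀ u : Fin q → ℝ, (∀ i, 0 ≤ u i) → |H u| ≤ B * Z u) (k : ℕ) :
    BM (fun N : List ℕ → ℕ => tk q lam n H k (fun c => sub N c)) :=
  ⟨(measurable_tk lam n H k).mono (blk_le _) le_rfl, B, fun _ =>
    abs_tot_le hq hH (isChan_tk hq h n k _)⟩

lemma poisson_real (d : ℝ≥0) (k : ℕ) :
    (poissonMeasure d {k}).toReal = Real.exp (-d) * (d ^ k / k.factorial) := by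
  rw [poissonMeasure_singleton]
  rw [ENNReal.toReal_ofReal (by positivity)]
  ring

/-- the annealed functional of the next generation as a Poisson mixture -/
lemma integral_tot_succ (hq : 0 < q) {lam : ℝ} (h : Admissible q lam) (n : ℕ)
    {H : (Fin q → ℝ) → ℝ} {B : ℝ} (hH : ∀ u : Fin q → ℝ, (∀ i, 0 ≤ u i) → |H u| ≤ B * Z u)
    (d : ℝ≥0) :
    ∫ N, tot H (lik q lam N (n + 1)) ∂(gwLaw (poissonMeasure d)) =
      Real.exp (-d) * egf (fun k => ∫ N, tk q lam n H k (fun c => sub N c)
        ∂(gwLaw (poissonMeasure d))) d := by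
  set P := poissonMeasure d with hP
  have hbm := bm_tk hq h n hH
  have hpr : ∀ k : ℕ, (P {k}).toReal = Real.exp (-d) * ((d : ℝ) ^ k / k.factorial) :=
    poisson_real d
  have e1 : ∀ N : List ℕ → ℕ, tot H (lik q lam N (n + 1)) =
      ∑' k : ℕ, (if N [] = k then (1 : ℝ) else 0) * tk q lam n H k (fun c => sub N c) := by
    intro N
    rw [tsum_eq_single (N [])]
    · rw [if_pos rfl, one_mul]
      exact tot_lik_succ lam n H N
    · intro k hk
      rw [if_neg (Ne.symm hk), zero_mul]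
  have hmi : ∀ k : ℕ, Measurable[blk {[]}] (fun N : List ℕ → ℕ => if N [] = k then (1 : ℝ) else 0) :=
    fun k => (measurable_of_countable (fun m : ℕ => if m = k then (1 : ℝ) else 0)).comp
      (measurable_eval_blk (Set.mem_singleton _))
  have hi : ∀ k : ℕ, BM (fun N : List ℕ → ℕ => if N [] = k then (1 : ℝ) else 0) := by
    intro k
    refine ⟨(hmi k).mono (blk_le _) le_rfl, 1, fun N => ?_⟩
    change |(if N [] = k then (1 : ℝ) else 0)| ≤ 1
    split_ifs <;> simp
  have hint : ∀ k : ℕ, ∫ N, (if N [] = k then (1 : ℝ) else 0) ∂(gwLaw P) = (P {k}).toReal := by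
    intro k
    have h0 : (gwLaw P).map (fun N : List ℕ → ℕ => N []) = P := by
      unfold gwLaw
      exact Measure.infinitePi_map_eval (fun _ : List ℕ => P) []
    have h1 : ∫ N, (if N [] = k then (1 : ℝ) else 0) ∂(gwLaw P) =
        ∫ m, (if m = k then (1 : ℝ) else 0) ∂P := by
      conv_rhs => rw [← h0]
      rw [integral_map (measurable_pi_apply _).aemeasurable
        (measurable_of_countable _).aestronglyMeasurable]
    rw [h1]
    have h2 : (fun m : ℕ => if m = k then (1 : ℝ) else 0) = Set.indicator {k} 1 := by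
      funext m
      simp [Set.indicator]
    rw [h2, integral_indicator_one MeasurableSet.of_discrete]
    rfl
  have e2 : ∀ k : ℕ, ∫ N, (if N [] = k then (1 : ℝ) else 0) *
      tk q lam n H k (fun c => sub N c) ∂(gwLaw P) =
      (P {k}).toReal * ∫ N, tk q lam n H k (fun c => sub N c) ∂(gwLaw P) := by
    intro k
    rw [← hint k]
    refine integral_indep P (S := {[]}) (T := firstS k) ?_ (hmi k) (measurable_tk lam n H k)
    rw [Set.disjoint_left]
    rintro u hu ⟨c, _, w, rfl⟩
    simp at hu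
  have hB : 0 ≤ B := by
    have h1 := abs_tot_le hq hH (isChan_lik hq h n (fun _ => 0))
    exact (abs_nonneg _).trans h1
  have hsumm : Summable fun k : ℕ => ∫ N, ‖(if N [] = k then (1 : ℝ) else 0) *
      tk q lam n H k (fun c => sub N c)‖ ∂(gwLaw P) := by
    have hs : Summable fun k : ℕ => (P {k}).toReal * B := by
      have : (fun k : ℕ => (P {k}).toReal * B) =
          fun k : ℕ => (Real.exp (-d) * B) * ((d : ℝ) ^ k / k.factorial) := by
        funext k
        rw [hpr]
        ring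
      rw [this]
      exact (Real.summable_pow_div_factorial _).mul_left _
    refine Summable.of_nonneg_of_le (fun k => integral_nonneg fun N => norm_nonneg _)
      (fun k => ?_) hs
    rw [← hint k, ← integral_mul_const]
    refine integral_mono (((hi k).mul (hbm k)).integrable P).norm
      (((hi k).mul (BM.const B)).integrable P) fun N => ?_
    simp only [norm_mul, Real.norm_eq_abs]
    refine mul_le_mul ?_ (abs_tot_le hq hH (isChan_tk hq h n k _)) (abs_nonneg _) ?_
    · split_ifs <;> simp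
    · split_ifs <;> simp
  have key := hasSum_integral_of_summable_integral_norm
    (fun k => ((hi k).mul (hbm k)).integrable P) hsumm
  simp_rw [e1]
  rw [← key.tsum_eq]
  unfold egf
  rw [← tsum_mul_left]
  refine tsum_congr fun k => ?_
  rw [e2 k, hpr k]
  ring

namespace HJ

variable {lam0 : ℝ} (C : HJ q lam0)

lemma abs_Vs_le (s : ℝ) (u : Fin q → ℝ) (hu : ∀ i, 0 ≤ u i) :
    |Vs C.V C.J s u| ≤ (C.B * ∑ j ∈ range (C.J + 1), |s| ^ j) * Z u := by
  unfold Vs
  calc |∑ j ∈ range (C.J + 1), s ^ j * C.V j u|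
      ≤ ∑ j ∈ range (C.J + 1), |s ^ j * C.V j u| := Finset.abs_sum_le_sum_abs _ _
    _ ≤ ∑ j ∈ range (C.J + 1), |s| ^ j * (C.B * Z u) := by
        refine Finset.sum_le_sum fun j _ => ?_
        rw [abs_mul, abs_pow]
        exact mul_le_mul_of_nonneg_left (C.V_bound j u hu) (by positivity)
    _ = _ := by rw [← Finset.sum_mul]; ring

lemma abs_dVs_le (s : ℝ) (u : Fin q → ℝ) (hu : ∀ i, 0 ≤ u i) :
    |dVs C.V C.J s u| ≤ (C.B * ∑ j ∈ range (C.J + 1), (j : ℝ) * |s| ^ (j - 1)) * Z u := by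
  unfold dVs
  calc |∑ j ∈ range (C.J + 1), (j : ℝ) * s ^ (j - 1) * C.V j u|
      ≤ ∑ j ∈ range (C.J + 1), |(j : ℝ) * s ^ (j - 1) * C.V j u| :=
        Finset.abs_sum_le_sum_abs _ _
    _ ≤ ∑ j ∈ range (C.J + 1), (j : ℝ) * |s| ^ (j - 1) * (C.B * Z u) := by
        refine Finset.sum_le_sum fun j _ => ?_
        rw [abs_mul, abs_mul, abs_pow, Nat.abs_cast]
        exact mul_le_mul_of_nonneg_left (C.V_bound j u hu) (by positivity)
    _ = _ := by rw [← Finset.sum_mul]; ring

lemma tk_Vs (lam : ℝ) (n k : ℕ) (V : ℕ → (Fin q → ℝ) → ℝ) (J : ℕ) (s : ℝ)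
    (M : Fin k → List ℕ → ℕ) :
    tk q lam n (Vs V J s) k M = ∑ j ∈ range (J + 1), s ^ j * tk q lam n (V j) k M := by
  unfold tk tot Vs
  rw [Finset.sum_comm]
  exact Finset.sum_congr rfl fun j _ => by rw [Finset.mul_sum]

lemma tk_dVs (lam : ℝ) (n k : ℕ) (V : ℕ → (Fin q → ℝ) → ℝ) (J : ℕ) (s : ℝ)
    (M : Fin k → List ℕ → ℕ) :
    tk q lam n (dVs V J s) k M =
      ∑ j ∈ range (J + 1), (j : ℝ) * s ^ (j - 1) * tk q lam n (V j) k M := by
  unfold tk tot dVs
  rw [Finset.sum_comm]
  exact Finset.sum_congr rfl fun j _ => by rw [Finset.mul_sum]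

lemma tk_step (hq : 0 < q) {r : ℝ} (h0 : 0 ≤ r) (h1 : r ≤ 1) (h : Admissible q (lam0 * r))
    (n k : ℕ) {s : ℝ} (hs : 0 ≤ s) (hs' : s ≤ C.T) (N : List ℕ → ℕ) :
    tk q (lam0 * r) n (Vs C.V C.J s) (k + 1) (fun c => sub N c) ≤
      tk q (lam0 * r) n (Vs C.V C.J s) k (fun c => sub N c) +
      tot C.m (fun x => edge (lam0 * r) (lik q (lam0 * r) (sub N k) n x)) *
        tk q (lam0 * r) n (dVs C.V C.J s) k (fun c => sub N c) := by
  set lam := lam0 * r with hlam
  have hg : IsChan (fun τ : (gen (sub N k) n → Fin q) => edge lam (lik q lam (sub N k) n τ)) :=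
    (isChan_lik hq h n _).edge hq h
  have hf : IsChan (prodN (fun c : Fin k => fun τ : (gen (sub N c) n → Fin q) =>
      edge lam (lik q lam (sub N c) n τ))) := isChan_tk hq h n k _
  have hc : InCone lam0 (fun τ : (gen (sub N k) n → Fin q) =>
      edge lam (lik q lam (sub N k) n τ)) := inCone_edge hq h0 h1 (isChan_lik hq h n _)
  have h2 := C.pair hq hf hg hc hs hs'
  have h3 : tk q lam n (Vs C.V C.J s) (k + 1) (fun c => sub N c) =
      tot (Vs C.V C.J s) (prod2 (prodN (fun c : Fin k => fun τ : (gen (sub N c) n → Fin q) =>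
        edge lam (lik q lam (sub N c) n τ)))
        (fun τ : (gen (sub N k) n → Fin q) => edge lam (lik q lam (sub N k) n τ))) := by
    unfold tk
    rw [tot_prodN_succ, tot_prod2_comm]
    rfl
  have h4 : tot C.qq (fun τ : (gen (sub N k) n → Fin q) => edge lam (lik q lam (sub N k) n τ)) *
      tot (C.K s) (prodN (fun c : Fin k => fun τ : (gen (sub N c) n → Fin q) =>
      edge lam (lik q lam (sub N c) n τ))) ≤ 0 :=
    mul_nonpos_of_nonneg_of_nonpos (C.tot_qq_nonneg hc) (C.tot_K_nonpos hf hs hs')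
  rw [h3]
  unfold tk
  linarith

theorem annealed (hq : 0 < q) {r : ℝ} (h0 : 0 ≤ r) (h1 : r ≤ 1) (h : Admissible q (lam0 * r))
    (n : ℕ) (d : ℝ≥0)
    (hT : d * ∫ N, tot C.m (fun x => edge (lam0 * r) (lik q (lam0 * r) N n x))
      ∂(gwLaw (poissonMeasure d)) ≤ C.T) :
    ∫ N, tot (C.V 0) (lik q (lam0 * r) N (n + 1)) ∂(gwLaw (poissonMeasure d)) ≤
      Vs C.V C.J (d * ∫ N, tot C.m (fun x => edge (lam0 * r) (lik q (lam0 * r) N n x))
        ∂(gwLaw (poissonMeasure d))) (fun _ => 1) := by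
  set lam := lam0 * r with hlam
  set P := poissonMeasure d with hP
  set mu := ∫ N, tot C.m (fun x => edge lam (lik q lam N n x)) ∂(gwLaw P) with hmu
  have hmb : BM (fun N => tot C.m (fun x => edge lam (lik q lam N n x))) := by
    refine ⟨measurable_tot_edge lam C.m n, C.B, fun N => ?_⟩
    have hc := inCone_edge (lam0 := lam0) hq h0 h1 (isChan_lik hq h n N)
    have h2 : 0 ≤ tot C.m (fun x => edge lam (lik q lam N n x)) := C.tot_m_nonneg hc
    rw [abs_of_nonneg h2]
    have hch := isChan_lik hq h n N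
    calc tot C.m (fun x => edge lam (lik q lam N n x))
        ≤ ∑ x, C.B * Z (lik q lam N n x) := by
          refine Finset.sum_le_sum fun x _ => ?_
          have hx : ∀ i, 0 ≤ edge r (lik q lam N n x) i :=
            fun i => edge_nonneg (admissible_of_mem q h0 h1) (hch.nonneg x) i
          have h3 := C.m_bound _ hx
          rw [edge_edge hq, Z_edge hq] at h3
          exact h3
      _ = C.B := by rw [← Finset.mul_sum, hch.sum_Z hq, mul_one]
  have hmu0 : 0 ≤ mu := integral_nonneg fun N =>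
    C.tot_m_nonneg (inCone_edge hq h0 h1 (isChan_lik hq h n N))
  have hbm : ∀ j k, BM (fun N : List ℕ → ℕ => tk q lam n (C.V j) k (fun c => sub N c)) :=
    fun j k => bm_tk hq h n (C.V_bound j) k
  set a : ℕ → ℕ → ℝ := fun k j => ∫ N, tk q lam n (C.V j) k (fun c => sub N c) ∂(gwLaw P) with ha
  have hab : ∀ k j, |a k j| ≤ C.B := by
    intro k j
    have h2 : ∀ N : List ℕ → ℕ, ‖tk q lam n (C.V j) k (fun c => sub N c)‖ ≤ C.B := fun N =>
      abs_tot_le hq (C.V_bound j) (isChan_tk hq h n k _)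
    have h3 := norm_integral_le_of_norm_le_const (μ := gwLaw P) (ae_of_all _ h2)
    simpa [Real.norm_eq_abs] using h3
  have hVs : ∀ k s, ∑ j ∈ range (C.J + 1), s ^ j * a k j =
      ∫ N, tk q lam n (Vs C.V C.J s) k (fun c => sub N c) ∂(gwLaw P) := by
    intro k s
    simp_rw [tk_Vs]
    rw [integral_finsetSum _ fun j _ => ((BM.const (s ^ j)).mul (hbm j k)).integrable P]
    exact Finset.sum_congr rfl fun j _ => (integral_const_mul _ _).symm
  have hdVs : ∀ k s, ∑ j ∈ range (C.J + 1), (j : ℝ) * s ^ (j - 1) * a k j =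
      ∫ N, tk q lam n (dVs C.V C.J s) k (fun c => sub N c) ∂(gwLaw P) := by
    intro k s
    simp_rw [tk_dVs]
    rw [integral_finsetSum _ fun (j : ℕ) _ =>
      ((BM.const ((j : ℝ) * s ^ (j - 1))).mul (hbm j k)).integrable P]
    exact Finset.sum_congr rfl fun j _ => (integral_const_mul _ _).symm
  have hstep : ∀ k s, 0 ≤ s → s ≤ C.T →
      ∑ j ∈ range (C.J + 1), s ^ j * a (k + 1) j ≤ ∑ j ∈ range (C.J + 1), s ^ j * a k j +
        mu * ∑ j ∈ range (C.J + 1), (j : ℝ) * s ^ (j - 1) * a k j := by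
    intro k s hs hs'
    rw [hVs, hVs, hdVs]
    have b1 : BM (fun N : List ℕ → ℕ => tk q lam n (Vs C.V C.J s) k (fun c => sub N c)) :=
      bm_tk hq h n (C.abs_Vs_le s) k
    have b2 : BM (fun N : List ℕ → ℕ => tk q lam n (Vs C.V C.J s) (k + 1) (fun c => sub N c)) :=
      bm_tk hq h n (C.abs_Vs_le s) (k + 1)
    have b3 : BM (fun N : List ℕ → ℕ => tk q lam n (dVs C.V C.J s) k (fun c => sub N c)) :=
      bm_tk hq h n (C.abs_dVs_le s) k
    have b4 : BM (fun N : List ℕ → ℕ =>
        tot C.m (fun x => edge lam (lik q lam (sub N k) n x))) := by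
      obtain ⟨hm1, K, hK⟩ := hmb
      exact ⟨hm1.comp (measurable_sub k), K, fun N => hK (sub N k)⟩
    have e : ∫ N, tot C.m (fun x => edge lam (lik q lam (sub N k) n x)) *
        tk q lam n (dVs C.V C.J s) k (fun c => sub N c) ∂(gwLaw P) =
        mu * ∫ N, tk q lam n (dVs C.V C.J s) k (fun c => sub N c) ∂(gwLaw P) := by
      rw [hmu, ← integral_sub P hmb.1 k]
      refine integral_indep P (S := {u | ∃ w, u = k :: w}) (T := firstS k) ?_ ?_
        (measurable_tk lam n _ k)
      · rw [Set.disjoint_left]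
        rintro u ⟨w, rfl⟩ ⟨c, hc, w', h'⟩
        have : k = c := by simpa using congrArg List.head? h'
        omega
      · exact hmb.1.comp (measurable_sub_blk (c := k) (fun u => ⟨u, rfl⟩))
    rw [← e, ← MeasureTheory.integral_add (b1.integrable P) ((b4.mul b3).integrable P)]
    exact integral_mono (b2.integrable P) ((b1.add (b4.mul b3)).integrable P) fun N =>
      C.tk_step hq h0 h1 h n k hs hs' N
  have hmix := poisson_mix (J := C.J) (a := a) (B := C.B) (mu := mu) (d := d) (T := C.T) hab hmu0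
    d.2 hT hstep
  have e0 : ∫ N, tot (C.V 0) (lik q lam N (n + 1)) ∂(gwLaw P) =
      Real.exp (-d) * egf (fun k => a k 0) d :=
    integral_tot_succ hq h n (C.V_bound 0) d
  rw [e0]
  refine hmix.trans (le_of_eq ?_)
  unfold Vs
  refine Finset.sum_congr rfl fun j _ => ?_
  congr 1
  have : ∀ N : List ℕ → ℕ, tk q lam n (C.V j) 0 (fun c => sub N c) = C.V j (fun _ => 1) := by
    intro N
    unfold tk
    rw [tot_prodN_zero]
  simp only [ha]
  simp_rw [this]
  simp

lemma nonrec_of_integral_chi {lam : ℝ} (hq : 0 < q) (h : Admissible q lam) (P : Measure ℕ)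
    [IsProbabilityMeasure P]
    (hx : Tendsto (fun n => ∫ N, chi q lam N n ∂(gwLaw P)) atTop (𝓝 0)) :
    Nonreconstruction (aGW q lam P) := by
  set x : ℕ → ℝ := fun n => ∫ N, chi q lam N n ∂(gwLaw P) with hxd
  have hx0 : ∀ n, 0 ≤ x n := fun n => integral_nonneg fun N => chi_nonneg hq h N n
  have hbound : ∀ (n : ℕ) (e : ℝ), 0 < e → aGW q lam P n ≤ (e + x n / e) / 4 := by
    intro n e he
    calc aGW q lam P n ≤ ∫ N, ((e + chi q lam N n / e) / 4) ∂(gwLaw P) := by
          refine integral_mono (integrable_quenched hq h P n) ?_ fun N => ?_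
          · exact ((integrable_const e).add ((integrable_chi hq h P n).div_const e)).div_const 4
          · have h1 := quenched_le hq h N n
            have h2 := sqrt_le_eps (chi_nonneg hq h N n) he
            simp only
            linarith
      _ = (e + x n / e) / 4 := by
          rw [integral_div, MeasureTheory.integral_add (integrable_const e)
            ((integrable_chi hq h P n).div_const e), integral_div]
          simp [hxd]
  have h0 : ∀ n, 0 ≤ aGW q lam P n := fun n => aGW_nonneg hq h P n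
  unfold Nonreconstruction
  rw [Metric.tendsto_atTop]
  intro e he
  obtain ⟨n0, hn0⟩ := (Metric.tendsto_atTop.1 hx) (e ^ 2) (by positivity)
  refine ⟨n0, fun n hn => ?_⟩
  have h1 := hn0 n hn
  rw [Real.dist_eq, sub_zero, abs_of_nonneg (hx0 n)] at h1
  rw [Real.dist_eq, sub_zero, abs_of_nonneg (h0 n)]
  have h2 := hbound n e he
  have h3 : x n / e < e := by
    rw [div_lt_iff₀ he]; linarith [sq e]
  linarith

include C in
theorem nonreconstruction_poisson (hq : 0 < q) (hl : lam0 ≠ 0) {r : ℝ}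
    (h0 : 0 ≤ r) (h1 : r ≤ 1) (h : Admissible q (lam0 * r)) {d : ℝ≥0}
    (hdl : d * (lam0 * r) ^ 2 ≤ 1) {n0 : ℕ}
    (hstart : ∫ N, tot C.R (lik q (lam0 * r) N n0) ∂(gwLaw (poissonMeasure d)) ≤ C.T) :
    Nonreconstruction (aPoisson q (lam0 * r) d) := by
  set lam := lam0 * r with hlam
  set P := poissonMeasure d with hP
  set y : ℕ → ℝ := fun n => d * ∫ N, tot C.m (fun x => edge lam (lik q lam N n x)) ∂(gwLaw P)
    with hy
  have hch : ∀ n N, IsChan (lik q lam N n) := fun n N => isChan_lik hq h n N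
  have hy0 : ∀ n, 0 ≤ y n := fun n => mul_nonneg d.2 (integral_nonneg fun N =>
    C.tot_m_nonneg (inCone_edge hq h0 h1 (hch n N)))
  have bV : ∀ n, BM (fun N => tot (C.V 0) (lik q lam N n)) := fun n =>
    ⟨measurable_tot_lik lam _ n, C.B, fun N => abs_tot_le hq (C.V_bound 0) (hch n N)⟩
  have bR : ∀ n, BM (fun N => tot C.R (lik q lam N n)) := fun n =>
    ⟨measurable_tot_lik lam _ n, C.B, fun N => abs_tot_le hq C.R_bound (hch n N)⟩
  have hyR : ∀ n, y n ≤ ∫ N, tot C.R (lik q lam N n) ∂(gwLaw P) := by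
    intro n
    rw [hy]
    simp only
    rw [← integral_const_mul]
    refine integral_mono_of_nonneg (ae_of_all _ fun N => ?_) ((bR n).integrable P)
      (ae_of_all _ fun N => ?_)
    · exact mul_nonneg d.2 (C.tot_m_nonneg (inCone_edge hq h0 h1 (hch n N)))
    · exact C.tot_m_edge_le hq hl h0 h1 d.2 hdl (hch n N)
  have hyle : ∀ n, y n ≤ ∫ N, tot (C.V 0) (lik q lam N n) ∂(gwLaw P) := fun n =>
    (hyR n).trans (integral_mono ((bR n).integrable P) ((bV n).integrable P)
      fun N => C.tot_R_le (hch n N))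
  have key : ∀ n, y n ≤ C.T → ∫ N, tot (C.V 0) (lik q lam N (n + 1)) ∂(gwLaw P) ≤
      Vs C.V C.J (y n) (fun _ => 1) := fun n hn => C.annealed hq h0 h1 h n d hn
  have hrec : ∀ n, y n ≤ C.T → y (n + 1) ≤ Vs C.V C.J (y n) (fun _ => 1) := fun n hn =>
    (hyle (n + 1)).trans (key n hn)
  have hT : y n0 ≤ C.T := (hyR n0).trans hstart
  obtain ⟨hb, hlim⟩ := C.tendsto_of_rec hy0 hT hrec
  have e : aPoisson q lam d = aGW q lam P := funext fun n => aPoisson_eq lam d n
  rw [e]
  refine nonrec_of_integral_chi hq h P ?_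
  rw [← tendsto_add_atTop_iff_nat (n0 + 1)]
  refine squeeze_zero (fun n => integral_nonneg fun N => chi_nonneg hq h _ _)
    (g := fun n => C.c⁻¹ * y (n + n0)) (fun n => ?_) ?_
  · have h2 : C.c * ∫ N, chi q lam N (n + n0 + 1) ∂(gwLaw P) ≤
        ∫ N, tot (C.V 0) (lik q lam N (n + n0 + 1)) ∂(gwLaw P) := by
      rw [← integral_const_mul]
      exact integral_mono
        (((BM.const C.c).mul (ACert.bm_chi hq h (n + n0 + 1))).integrable P)
        ((bV (n + n0 + 1)).integrable P) fun N => C.tot_W_le (hch (n + n0 + 1) N)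
    have h3 := h2.trans ((key (n + n0) (hb _ (by omega))).trans
      (C.unit_le (y (n + n0)) (hy0 _) (hb _ (by omega))))
    have h4 : 0 ≤ C.gam * y (n + n0) ^ 2 := mul_nonneg C.gam_pos.le (sq_nonneg _)
    have h5 : n + (n0 + 1) = n + n0 + 1 := by omega
    rw [← div_eq_inv_mul, le_div_iff₀ C.c_pos, h5]
    linarith
  · have := ((tendsto_add_atTop_iff_nat n0).2 hlim).const_mul C.c⁻¹
    simpa using this

end HJ

end Vale.Agent.P154
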