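import Mathlib
import Vale.Agent.P154.HJReg

/-!
# P154: monotonicity in the eigenvalue and in the number of children
-/

namespace Vale.Agent.P154

open MeasureTheory Filter Topology Finset
open scoped BigOperators

variable {q : ℕ}

lemma Deg.refl {X : Type} [Fintype X] (f : X → Fin q → ℝ) : Deg f f := by
  classical
  refine ⟨fun x y => if x = y then 1 else 0, fun x y => ?_,
    fun x => by simp, fun y i => by simp⟩
  simp only
  split_ifs <;> norm_num

lemma Deg.trans {X Y W : Type} [Fintype X] [Fintype Y] [Fintype W] {h : W → Fin q → ℝ}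
    {g : Y → Fin q → ℝ} {f : X → Fin q → ℝ} (h1 : Deg h g) (h2 : Deg g f) : Deg h f := by
  obtain ⟨Q, a0, a1, a2⟩ := h1
  obtain ⟨R, b0, b1, b2⟩ := h2
  refine ⟨fun x w => ∑ y, R x y * Q y w, fun x w =>
    Finset.sum_nonneg fun y _ => mul_nonneg (b0 _ _) (a0 _ _), fun x => ?_, fun w i => ?_⟩
  · rw [Finset.sum_comm]
    simp_rw [← Finset.mul_sum, a1, mul_one]
    exact b1 x
  · rw [a2]
    simp_rw [b2, Finset.mul_sum, Finset.sum_mul]
    rw [Finset.sum_comm]
    refine Finset.sum_congr rfl fun x _ => Finset.sum_congr rfl fun y _ => ?_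
    ring

/-- a symmetric channel seen through a ferromagnetic Potts channel is a degradation -/
lemma IsChan.deg_edge {X : Type} [Fintype X] {f : X → Fin q → ℝ} (hf : IsChan f) (hq : 0 < q)
    {r : ℝ} (h0 : 0 ≤ r) (h1 : r ≤ 1) : Deg (fun x => Vale.Agent.P154.edge r (f x)) f := by
  classical
  have : NeZero q := ⟨hq.ne'⟩
  have hq' : (q : ℝ) ≠ 0 := by exact_mod_cast hq.ne'
  have hq0 : (0 : ℝ) < q := by exact_mod_cast hq
  choose R hR using hf.symm
  have hR' : ∀ (π : Equiv.Perm (Fin q)) x i, f x (π i) = f ((R π).symm x) i := by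
    intro π x i
    have := hR π ((R π).symm x) i
    rw [Equiv.apply_symm_apply] at this
    exact this
  refine ⟨fun x' x => r * (if x' = x then 1 else 0) +
    (1 - r) / q * ∑ k : Fin q, (if x' = (R (Equiv.addRight k)).symm x then 1 else 0),
    fun x' x => ?_, fun x' => ?_, fun x i => ?_⟩
  · refine add_nonneg (mul_nonneg h0 (by split_ifs <;> norm_num))
      (mul_nonneg (div_nonneg (by linarith) hq0.le) (Finset.sum_nonneg fun k _ => by
        split_ifs <;> norm_num))
  · rw [Finset.sum_add_distrib, ← Finset.mul_sum, ← Finset.mul_sum, Finset.sum_comm]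
    have e1 : ∑ x, (if x' = x then (1 : ℝ) else 0) = 1 := by simp
    have e2 : ∀ k : Fin q, ∑ x, (if x' = (R (Equiv.addRight k)).symm x then (1 : ℝ) else 0) = 1 := by
      intro k
      rw [← Equiv.sum_comp (R (Equiv.addRight k))]
      simp
    simp_rw [e2]
    rw [e1]
    simp
  · simp only
    rw [edge_eq]
    have e1 : ∑ x', (r * (if x' = x then (1 : ℝ) else 0) + (1 - r) / q *
        ∑ k : Fin q, (if x' = (R (Equiv.addRight k)).symm x then 1 else 0)) * f x' i =
        r * f x i + (1 - r) / q * ∑ k : Fin q, f ((R (Equiv.addRight k)).symm x) i := by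
      simp_rw [add_mul, Finset.sum_add_distrib]
      congr 1
      · simp
      · simp_rw [mul_assoc, ← Finset.mul_sum, Finset.sum_mul]
        rw [Finset.sum_comm]
        simp
    rw [e1]
    have e2 : ∑ k : Fin q, f ((R (Equiv.addRight k)).symm x) i = ∑ j, f x j := by
      simp_rw [← hR']
      simp only [Equiv.coe_addRight]
      exact Equiv.sum_comp (Equiv.addLeft i) (fun j => f x j)
    rw [e2]
    unfold Z
    ring

/-- the weaker the channel, the less information -/
theorem deg_lik_lam (hq : 0 < q) {a : ℝ} (r : ℝ) (h0 : 0 ≤ r) (h1 : r ≤ 1)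
    (ha : Admissible q (a * r)) :
    ∀ (n : ℕ) (N : List ℕ → ℕ), Deg (lik q (a * r) N n) (lik q a N n) := by
  intro n
  induction n with
  | zero => exact fun N => deg_lik_zero (isChan_lik hq ha 0 N) a N
  | succ n ih =>
    intro N
    refine Deg.comp_equiv (glueG q N n) (glueG q N n) ?_
    rw [lik_succ', lik_succ']
    refine Deg.prodN fun c => ?_
    have hch := isChan_lik hq ha n (sub N c)
    have h2 : Deg (fun τ => edge a (edge r (lik q (a * r) (sub N c) n τ)))
        (fun τ => edge a (lik q (a * r) (sub N c) n τ)) := (hch.deg_edge hq h0 h1).edge a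
    have h3 := h2.trans ((ih (sub N c)).edge a)
    have e : (fun τ => edge (a * r) (lik q (a * r) (sub N c) n τ)) =
        (fun τ => edge a (edge r (lik q (a * r) (sub N c) n τ))) := by
      funext τ
      rw [edge_edge hq]
    rw [e]
    exact h3

/-- forgetting the last factor of a product -/
lemma Deg.drop_last {k : ℕ} {X : Fin (k + 1) → Type} [∀ c, Fintype (X c)]
    {f : ∀ c, X c → Fin q → ℝ} (hf : IsChan (f (Fin.last k))) :
    Deg (Vale.Agent.P154.prodN fun c : Fin k => f c.castSucc) (Vale.Agent.P154.prodN f) := by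
  classical
  refine Deg.comp_equiv (Fin.snocEquiv X) (Equiv.refl _) ?_
  refine ⟨fun p y => if p.2 = y then 1 else 0, fun p y => ?_,
    fun p => by simp, fun y i => ?_⟩
  · simp only
    split_ifs <;> norm_num
  rw [Fintype.sum_prod_type]
  simp only [Equiv.refl_apply]
  have e : ∀ (x : X (Fin.last k)) (z : ∀ c : Fin k, X c.castSucc),
      (if z = y then (1 : ℝ) else 0) * Vale.Agent.P154.prodN f (Fin.snocEquiv X (x, z)) i =
      if z = y then f (Fin.last k) x i *
        Vale.Agent.P154.prodN (fun c : Fin k => f c.castSucc) y i else 0 := by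
    intro x z
    by_cases h : z = y
    · subst h
      simp [Vale.Agent.P154.prodN, Fin.prod_univ_castSucc, mul_comm]
    · simp [h]
  simp_rw [e]
  simp only [Finset.sum_ite_eq', Finset.mem_univ, if_true]
  rw [← Finset.sum_mul, hf.sum_one, one_mul]

/-- a tree with fewer children carries less information -/
theorem deg_lik_tree (hq : 0 < q) {a : ℝ} (ha : Admissible q a) :
    ∀ (n : ℕ) (N N' : List ℕ → ℕ), (∀ u, N u ≤ N' u) →
      Deg (lik q a N n) (lik q a N' n) := by
  intro n
  induction n with
  | zero => exact fun N N' _ => deg_lik_zero (isChan_lik hq ha 0 N) a N'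
  | succ n ih =>
    intro N N' hN
    refine Deg.comp_equiv (glueG q N' n) (glueG q N n) ?_
    rw [lik_succ', lik_succ']
    have key : ∀ k' k, k ≤ k' →
        Deg (prodN (fun c : Fin k => fun τ : (gen (sub N c) n → Fin q) =>
          edge a (lik q a (sub N c) n τ)))
        (prodN (fun c : Fin k' => fun τ : (gen (sub N' c) n → Fin q) =>
          edge a (lik q a (sub N' c) n τ))) := by
      intro k'
      induction k' with
      | zero =>
        intro k hk
        have : k = 0 := by omega
        subst this
        exact Deg.prodN fun c => c.elim0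
      | succ k' ih' =>
        intro k hk
        rcases Nat.lt_or_ge k' k with h | h
        · have : k = k' + 1 := by omega
          subst this
          exact Deg.prodN fun c => (ih (sub N c) (sub N' c) fun u => hN _).edge a
        · refine (ih' k h).trans ?_
          exact Deg.drop_last (f := fun c : Fin (k' + 1) =>
            fun τ : (gen (sub N' c) n → Fin q) => edge a (lik q a (sub N' c) n τ))
            ((isChan_lik hq ha n _).edge hq ha)
    exact key _ _ (hN [])

lemma quenched_le_of_deg (hq : 0 < q) {a b : ℝ} (ha : Admissible q a) (hb : Admissible q b)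
    {n : ℕ} {N N' : List ℕ → ℕ} (h : Deg (lik q a N n) (lik q b N' n)) :
    quenched q a N n ≤ quenched q b N' n := by
  rw [quenched_eq, quenched_eq]
  exact tot_advF_le_of_deg hq (isChan_lik hq ha _ _).nonneg (isChan_lik hq hb _ _).nonneg h

lemma admissible_three {lam : ℝ} (h0 : -1 / 2 ≤ lam) (h1 : lam ≤ 1) : Admissible 3 lam := by
  intro i j
  unfold potts
  push_cast
  split_ifs <;> linarith

/-- monotonicity used for the antiferromagnetic three-state channel -/
theorem quenched_mono_neg {lam : ℝ} (h0 : -1 / 2 ≤ lam) (h1 : lam ≤ 0) {N N' : List ℕ → ℕ}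
    (hN : ∀ u, N u ≤ N' u) (n : ℕ) :
    quenched 3 lam N n ≤ quenched 3 (-1 / 2) N' n := by
  have e : lam = (-1 / 2) * (-2 * lam) := by ring
  have ha : Admissible 3 lam := admissible_three h0 (by linarith)
  have hb : Admissible 3 (-1 / 2 : ℝ) := admissible_three le_rfl (by norm_num)
  refine quenched_le_of_deg (by norm_num) ha hb ?_
  refine Deg.trans ?_ (deg_lik_tree (by norm_num) hb n N N' hN)
  have ha' : Admissible 3 ((-1 / 2 : ℝ) * (-2 * lam)) := by rw [← e]; exact ha
  have := deg_lik_lam (q := 3) (by norm_num) (a := -1 / 2) (-2 * lam) (by linarith) (by linarith)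
    ha' n N
  rw [← e] at this
  exact this

end Vale.Agent.P154
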