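import Mathlib

namespace Vale.Agent.P154

open MvPolynomial Finset

/-- Polynomial expressions with integer constants. -/
inductive PExp
  | k : ℤ → PExp
  | v : ℕ → PExp
  | add : PExp → PExp → PExp
  | sub : PExp → PExp → PExp
  | mul : PExp → PExp → PExp
  | pow : PExp → ℕ → PExp

namespace PExp

/-- value in a commutative ring -/
def ev {R : Type*} [CommRing R] (x : ℕ → R) : PExp → R
  | .k z => (z : R)
  | .v i => x i
  | .add a b => ev x a + ev x b
  | .sub a b => ev x a - ev x b
  | .mul a b => ev x a * ev x b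
  | .pow a n => ev x a ^ n

/-- product of pairs -/
def pmul {R : Type*} [CommSemiring R] (a b : R × R) : R × R :=
  (a.1 * b.1 + a.2 * b.2, a.1 * b.2 + a.2 * b.1)

/-- power of pairs -/
def ppow {R : Type*} [CommSemiring R] (a : R × R) : ℕ → R × R
  | 0 => (1, 0)
  | n + 1 => pmul (ppow a n) a

/-- positive and negative part, in a commutative semiring -/
def pr {R : Type*} [CommSemiring R] (x : ℕ → R) : PExp → R × R
  | .k z => ((z.toNat : R), ((-z).toNat : R))
  | .v i => (x i, 0)
  | .add a b => ((pr x a).1 + (pr x b).1, (pr x a).2 + (pr x b).2)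
  | .sub a b => ((pr x a).1 + (pr x b).2, (pr x a).2 + (pr x b).1)
  | .mul a b => pmul (pr x a) (pr x b)
  | .pow a n => ppow (pr x a) n

theorem pmul_sub {R : Type*} [CommRing R] (a b : R × R) :
    (pmul a b).1 - (pmul a b).2 = (a.1 - a.2) * (b.1 - b.2) := by
  simp only [pmul]; ring

theorem ppow_sub {R : Type*} [CommRing R] (a : R × R) (n : ℕ) :
    (ppow a n).1 - (ppow a n).2 = (a.1 - a.2) ^ n := by
  induction n with
  | zero => simp [ppow]
  | succ n ih => rw [ppow, pmul_sub, ih, pow_succ]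

theorem ev_eq {R : Type*} [CommRing R] (x : ℕ → R) (e : PExp) :
    ev x e = (pr x e).1 - (pr x e).2 := by
  induction e with
  | k z =>
    simp only [ev, pr]
    have h : z = (z.toNat : ℤ) - ((-z).toNat : ℤ) := by omega
    conv_lhs => rw [h]
    push_cast
    rfl
  | v i => simp [ev, pr]
  | add a b iha ihb => simp only [ev, pr, iha, ihb]; ring
  | sub a b iha ihb => simp only [ev, pr, iha, ihb]; ring
  | mul a b iha ihb => simp only [ev, pr]; rw [pmul_sub, iha, ihb]
  | pow a n ih => simp only [ev, pr]; rw [ppow_sub, ih]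

theorem pr_map {R S : Type*} [CommSemiring R] [CommSemiring S] (f : R →+* S) (x : ℕ → R)
    (e : PExp) :
    pr (fun i => f (x i)) e = (f (pr x e).1, f (pr x e).2) := by
  induction e with
  | k z => simp [pr]
  | v i => simp [pr]
  | add a b iha ihb => simp only [pr, iha, ihb, map_add]
  | sub a b iha ihb => simp only [pr, iha, ihb, map_add]
  | mul a b iha ihb => simp only [pr, iha, ihb, pmul, map_add, map_mul]
  | pow a n ih =>
    simp only [pr, ih]
    induction n with
    | zero => simp [ppow]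
    | succ n ihn => simp only [ppow, ihn, pmul, map_add, map_mul]

/-- degree bound in variable `i` -/
def dg (i : ℕ) : PExp → ℕ
  | .k _ => 0
  | .v j => if j = i then 1 else 0
  | .add a b => max (dg i a) (dg i b)
  | .sub a b => max (dg i a) (dg i b)
  | .mul a b => dg i a + dg i b
  | .pow a n => n * dg i a

/-- all variables are `< m` -/
def vb (m : ℕ) : PExp → Bool
  | .k _ => true
  | .v j => Nat.blt j m
  | .add a b => vb m a && vb m b
  | .sub a b => vb m a && vb m b
  | .mul a b => vb m a && vb m b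
  | .pow a _ => vb m a

abbrev MP := MvPolynomial ℕ ℕ

theorem pmul_deg (i : ℕ) (a b : MP × MP) (s t : ℕ)
    (ha : degreeOf i a.1 ≤ s ∧ degreeOf i a.2 ≤ s)
    (hb : degreeOf i b.1 ≤ t ∧ degreeOf i b.2 ≤ t) :
    degreeOf i (pmul a b).1 ≤ s + t ∧ degreeOf i (pmul a b).2 ≤ s + t := by
  constructor
  · refine (degreeOf_add_le i _ _).trans (max_le ?_ ?_)
    · exact (degreeOf_mul_le i _ _).trans (add_le_add ha.1 hb.1)
    · exact (degreeOf_mul_le i _ _).trans (add_le_add ha.2 hb.2)
  · refine (degreeOf_add_le i _ _).trans (max_le ?_ ?_)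
    · exact (degreeOf_mul_le i _ _).trans (add_le_add ha.1 hb.2)
    · exact (degreeOf_mul_le i _ _).trans (add_le_add ha.2 hb.1)

theorem dg_spec (i : ℕ) (e : PExp) :
    degreeOf i (pr (R := MP) X e).1 ≤ dg i e ∧ degreeOf i (pr (R := MP) X e).2 ≤ dg i e := by
  induction e with
  | k z =>
    simp only [pr, dg]
    constructor
    · rw [← MvPolynomial.C_eq_coe_nat]; exact (degreeOf_C _ _).le
    · rw [← MvPolynomial.C_eq_coe_nat]; exact (degreeOf_C _ _).le
  | v j =>
    simp only [pr, dg]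
    refine ⟨?_, by simp [degreeOf_zero]⟩
    rw [degreeOf_X]
    split_ifs with h1 h2 <;> simp_all
  | add a b iha ihb =>
    simp only [pr, dg]
    exact ⟨(degreeOf_add_le i _ _).trans (max_le_max iha.1 ihb.1),
      (degreeOf_add_le i _ _).trans (max_le_max iha.2 ihb.2)⟩
  | sub a b iha ihb =>
    simp only [pr, dg]
    exact ⟨(degreeOf_add_le i _ _).trans (max_le_max iha.1 ihb.2),
      (degreeOf_add_le i _ _).trans (max_le_max iha.2 ihb.1)⟩
  | mul a b iha ihb =>
    simp only [pr, dg]
    exact pmul_deg i _ _ _ _ iha ihb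
  | pow a n ih =>
    simp only [pr, dg]
    induction n with
    | zero => simp [ppow, degreeOf_one, degreeOf_zero]
    | succ n ihn =>
      rw [ppow, Nat.succ_mul]
      exact pmul_deg i _ _ _ _ ihn ih

theorem dg_eq_zero (m i : ℕ) (hi : m ≤ i) (e : PExp) (h : vb m e = true) : dg i e = 0 := by
  induction e with
  | k z => rfl
  | v j =>
    simp only [vb, Nat.blt_eq] at h
    simp only [dg]
    rw [if_neg (by omega)]
  | add a b iha ihb =>
    simp only [vb, Bool.and_eq_true] at h
    simp [dg, iha h.1, ihb h.2]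
  | sub a b iha ihb =>
    simp only [vb, Bool.and_eq_true] at h
    simp [dg, iha h.1, ihb h.2]
  | mul a b iha ihb =>
    simp only [vb, Bool.and_eq_true] at h
    simp [dg, iha h.1, ihb h.2]
  | pow a n ih =>
    simp only [vb] at h
    simp [dg, ih h]

/-- a digit of a number written in base `D` -/
theorem digit_sum (D : ℕ) (f : ℕ → ℕ) (hf : ∀ i, f i < D) (n j : ℕ) (hj : j < n) :
    (∑ i ∈ range n, f i * D ^ i) / D ^ j % D = f j := by
  have hD : 0 < D := lt_of_le_of_lt (Nat.zero_le _) (hf 0)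
  have hlow : ∀ t : ℕ, ∑ i ∈ range t, f i * D ^ i < D ^ t := by
    intro t
    induction t with
    | zero => simp
    | succ t ih =>
      rw [sum_range_succ, pow_succ]
      have h1 : f t * D ^ t + D ^ t ≤ D ^ t * D := by
        have := Nat.mul_le_mul_right (D ^ t) (hf t)
        rw [Nat.succ_mul] at this
        linarith [Nat.mul_comm D (D ^ t)]
      omega
  have hsplit : ∑ i ∈ range n, f i * D ^ i
      = ∑ i ∈ range j, f i * D ^ i + D ^ j * (∑ i ∈ range (n - j), f (j + i) * D ^ i) := by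
    have : n = j + (n - j) := by omega
    conv_lhs => rw [this]
    rw [sum_range_add, mul_sum]
    congr 1
    apply sum_congr rfl
    intro i _
    rw [pow_add]; ring
  rw [hsplit, Nat.add_mul_div_left _ _ (pow_pos hD j), Nat.div_eq_of_lt (hlow j), zero_add]
  have : n - j = (n - j - 1) + 1 := by omega
  rw [this, sum_range_succ']
  simp only [pow_succ, add_zero, pow_zero, mul_one]
  have h2 : ∑ i ∈ range (n - j - 1), f (j + (i + 1)) * (D ^ i * D)
      = D * ∑ i ∈ range (n - j - 1), f (j + (i + 1)) * D ^ i := by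
    rw [mul_sum]; apply sum_congr rfl; intro i _; ring
  rw [h2, Nat.mul_add_mod]
  exact Nat.mod_eq_of_lt (hf j)

/-- comparison of all digits with one bitwise operation -/
theorem land_spec (b K : ℕ) (p q : ℕ → ℕ) (hp : ∀ k, p k < 2 ^ (b - 1))
    (hq : ∀ k, q k < 2 ^ (b - 1)) (hb : 0 < b)
    (G : ℕ) (hG : G = ∑ k ∈ range K, 2 ^ (b - 1) * (2 ^ b) ^ k)
    (h : Nat.land (∑ k ∈ range K, p k * (2 ^ b) ^ k + G - ∑ k ∈ range K, q k * (2 ^ b) ^ k) G = G)
    (k : ℕ) (hk : k < K) : q k ≤ p k := by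
  have h2b : 2 ^ b = 2 * 2 ^ (b - 1) := by
    rw [← pow_succ']; congr 1; omega
  set w : ℕ → ℕ := fun k => p k + 2 ^ (b - 1) - q k with hw
  have hwlt : ∀ k, w k < 2 ^ b := by
    intro k; have := hp k; have := hq k; simp only [hw]; omega
  have hW : ∑ k ∈ range K, p k * (2 ^ b) ^ k + G - ∑ k ∈ range K, q k * (2 ^ b) ^ k
      = ∑ k ∈ range K, w k * (2 ^ b) ^ k := by
    have : ∑ k ∈ range K, p k * (2 ^ b) ^ k + G
        = ∑ k ∈ range K, w k * (2 ^ b) ^ k + ∑ k ∈ range K, q k * (2 ^ b) ^ k := by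
      rw [hG, ← sum_add_distrib, ← sum_add_distrib]
      apply sum_congr rfl
      intro k _
      rw [← add_mul, ← add_mul]
      congr 1
      have := hp k; have := hq k
      simp only [hw]; omega
    omega
  rw [hW] at h
  have hbitG : G.testBit (b * k + (b - 1)) = true := by
    have hG' : G = ∑ k ∈ range K, (fun _ : ℕ => 2 ^ (b - 1)) k * (2 ^ b) ^ k := hG
    have := digit_sum (2 ^ b) (fun _ : ℕ => 2 ^ (b - 1)) (fun _ => by
      have := Nat.pos_of_ne_zero (pow_ne_zero (b - 1) (two_ne_zero (α := ℕ)))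
      omega) K k hk
    rw [← hG'] at this
    have h3 : (G / (2 ^ b) ^ k % 2 ^ b).testBit (b - 1) = true := by
      rw [this]; exact Nat.testBit_two_pow_self
    rw [← pow_mul, Nat.testBit_mod_two_pow, Nat.testBit_div_two_pow] at h3
    rw [Bool.and_eq_true] at h3
    rw [add_comm]; exact h3.2
  have hbitW : (∑ k ∈ range K, w k * (2 ^ b) ^ k).testBit (b * k + (b - 1)) = true := by
    have h4 : (Nat.land (∑ k ∈ range K, w k * (2 ^ b) ^ k) G).testBit (b * k + (b - 1)) = true := by
      rw [h]; exact hbitG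
    have h5 := Nat.testBit_and (∑ k ∈ range K, w k * (2 ^ b) ^ k) G (b * k + (b - 1))
    have h6 : (∑ k ∈ range K, w k * (2 ^ b) ^ k) &&& G
        = Nat.land (∑ k ∈ range K, w k * (2 ^ b) ^ k) G := rfl
    rw [h6, h4] at h5
    have := h5.symm
    rw [Bool.and_eq_true] at this
    exact this.1
  have hd := digit_sum (2 ^ b) w hwlt K k hk
  have h7 : (w k).testBit (b - 1) = true := by
    rw [← hd, ← pow_mul, Nat.testBit_mod_two_pow, Nat.testBit_div_two_pow, Bool.and_eq_true]
    refine ⟨by simp; omega, ?_⟩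
    rw [add_comm]; exact hbitW
  have h8 := Nat.ge_two_pow_of_testBit h7
  have := hp k; have := hq k
  simp only [hw] at h8
  omega

/-- Kronecker exponent -/
def kx (D m : ℕ) (d : ℕ →₀ ℕ) : ℕ := ∑ i ∈ range m, d i * D ^ i

theorem kx_lt (D m : ℕ) (d : ℕ →₀ ℕ) (hd : ∀ i, d i < D) : kx D m d < D ^ m := by
  unfold kx
  induction m with
  | zero => simp
  | succ t ih =>
    rw [sum_range_succ, pow_succ]
    have h1 : d t * D ^ t + D ^ t ≤ D ^ t * D := by
      have := Nat.mul_le_mul_right (D ^ t) (hd t)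
      rw [Nat.succ_mul] at this
      linarith [Nat.mul_comm D (D ^ t)]
    omega

theorem kx_inj (D m : ℕ) (c d : ℕ →₀ ℕ) (hc : ∀ i, c i < D) (hd : ∀ i, d i < D)
    (hc' : ∀ i, m ≤ i → c i = 0) (hd' : ∀ i, m ≤ i → d i = 0) (h : kx D m c = kx D m d) :
    c = d := by
  ext i
  by_cases hi : i < m
  · rw [← digit_sum D c hc m i hi, ← digit_sum D d hd m i hi]
    unfold kx at h
    rw [h]
  · rw [hc' i (by omega), hd' i (by omega)]

/-- grouped coefficients -/
noncomputable def gc (D m : ℕ) (P : MP) (k : ℕ) : ℕ :=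
  ∑ d ∈ P.support with kx D m d = k, P.coeff d

theorem gc_le (D m : ℕ) (P : MP) (k : ℕ) : gc D m P k ≤ MvPolynomial.eval (fun _ => 1) P := by
  rw [MvPolynomial.eval_eq]
  simp only [one_pow, prod_const_one, mul_one]
  exact sum_le_sum_of_subset (filter_subset _ _)

theorem eval_kron (b D m : ℕ) (P : MP) (hP : ∀ d ∈ P.support, ∀ i, d i < D)
    (hP' : ∀ d ∈ P.support, ∀ i, m ≤ i → d i = 0) :
    MvPolynomial.eval (fun i => 2 ^ (b * D ^ i)) P
      = ∑ k ∈ range (D ^ m), gc D m P k * (2 ^ b) ^ k := by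
  rw [MvPolynomial.eval_eq]
  have h1 : ∀ d ∈ P.support, P.coeff d * ∏ i ∈ d.support, ((2 : ℕ) ^ (b * D ^ i)) ^ d i
      = P.coeff d * (2 ^ b) ^ (kx D m d) := by
    intro d hd
    congr 1
    have : d.support ⊆ range m := by
      intro i hi
      rw [mem_range]
      by_contra hcon
      exact (Finsupp.mem_support_iff.mp hi) (hP' d hd i (by omega))
    rw [prod_subset this]
    · unfold kx
      rw [← prod_pow_eq_pow_sum]
      apply prod_congr rfl
      intro i _
      rw [← pow_mul, ← pow_mul]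
      congr 1; ring
    · intro i _ hi
      rw [Finsupp.notMem_support_iff.mp hi, pow_zero]
  rw [sum_congr rfl h1]
  unfold gc
  simp only [sum_mul]
  rw [← sum_fiberwise_of_maps_to (s := P.support) (t := range (D ^ m)) (g := kx D m)]
  · apply sum_congr rfl
    intro k _
    apply sum_congr rfl
    intro d hd
    rw [(mem_filter.mp hd).2]
  · intro d hd
    rw [mem_range]
    exact kx_lt D m d (hP d hd)

/-- the boolean test -/
def chk (b D m : ℕ) (e : PExp) : Bool :=
  let K := D ^ m
  let G := 2 ^ (b - 1) * ((2 ^ (b * K) - 1) / (2 ^ b - 1))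
  let p := pr (fun i => 2 ^ (b * D ^ i)) e
  let q := pr (fun _ => 1) e
  Nat.blt 0 b && (vb m e && ((List.range m).all (fun i => Nat.blt (dg i e) D) &&
    (Nat.blt q.1 (2 ^ (b - 1)) && (Nat.blt q.2 (2 ^ (b - 1)) &&
      Nat.beq (Nat.land (p.1 + G - p.2) G) G))))

theorem coeff_le_of_chk (b D m : ℕ) (e : PExp) (h : chk b D m e = true) (hm : 0 < m) :
    ∀ d, (pr (R := MP) X e).2.coeff d ≤ (pr (R := MP) X e).1.coeff d := by
  simp only [chk, Bool.and_eq_true, List.all_eq_true, Nat.blt_eq, List.mem_range] at h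
  obtain ⟨hb, hv, hdg, hq1, hq2, hland⟩ := h
  have hland := Nat.eq_of_beq_eq_true hland
  set P := (pr (R := MP) X e).1 with hPdef
  set Q := (pr (R := MP) X e).2 with hQdef
  have hdgall : ∀ i, dg i e < D := by
    intro i
    by_cases hi : i < m
    · exact hdg i hi
    · rw [dg_eq_zero m i (by omega) e hv]
      exact lt_of_le_of_lt (Nat.zero_le _) (hdg 0 hm)
  have hPd : ∀ d ∈ P.support, ∀ i, d i < D := fun d hd i =>
    lt_of_le_of_lt ((monomial_le_degreeOf i hd).trans (dg_spec i e).1) (hdgall i)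
  have hQd : ∀ d ∈ Q.support, ∀ i, d i < D := fun d hd i =>
    lt_of_le_of_lt ((monomial_le_degreeOf i hd).trans (dg_spec i e).2) (hdgall i)
  have hPz : ∀ d ∈ P.support, ∀ i, m ≤ i → d i = 0 := fun d hd i hi => by
    have := (monomial_le_degreeOf i hd).trans (dg_spec i e).1
    rw [dg_eq_zero m i hi e hv] at this
    omega
  have hQz : ∀ d ∈ Q.support, ∀ i, m ≤ i → d i = 0 := fun d hd i hi => by
    have := (monomial_le_degreeOf i hd).trans (dg_spec i e).2
    rw [dg_eq_zero m i hi e hv] at this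
    omega
  have e1 := pr_map (MvPolynomial.eval (fun i : ℕ => (2 : ℕ) ^ (b * D ^ i))) (X (R := ℕ)) e
  simp only [eval_X] at e1
  have e2 := pr_map (MvPolynomial.eval (fun _ : ℕ => (1 : ℕ))) (X (R := ℕ)) e
  simp only [eval_X] at e2
  rw [e2] at hq1 hq2
  simp only [← hPdef, ← hQdef] at hq1 hq2
  rw [e1] at hland
  simp only [← hPdef, ← hQdef] at hland
  rw [eval_kron b D m P hPd hPz, eval_kron b D m Q hQd hQz] at hland
  have hG : 2 ^ (b - 1) * ((2 ^ (b * D ^ m) - 1) / (2 ^ b - 1))
      = ∑ k ∈ range (D ^ m), 2 ^ (b - 1) * (2 ^ b) ^ k := by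
    rw [← mul_sum, pow_mul, Nat.geomSum_eq]
    calc 2 = 2 ^ 1 := by norm_num
      _ ≤ 2 ^ b := Nat.pow_le_pow_right (by norm_num) hb
  have key := land_spec b (D ^ m) (gc D m P) (gc D m Q)
    (fun k => lt_of_le_of_lt (gc_le D m P k) hq1)
    (fun k => lt_of_le_of_lt (gc_le D m Q k) hq2) hb _ hG hland
  intro d
  by_cases hd : d ∈ Q.support
  · have h1 : Q.coeff d ≤ gc D m Q (kx D m d) := by
      unfold gc
      exact single_le_sum (f := fun d => Q.coeff d) (fun _ _ => Nat.zero_le _)
        (mem_filter.mpr ⟨hd, rfl⟩)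
    have h2 := key (kx D m d) (kx_lt D m d (hQd d hd))
    have h3 : gc D m P (kx D m d) ≤ P.coeff d := by
      unfold gc
      calc ∑ c ∈ P.support with kx D m c = kx D m d, P.coeff c
          ≤ ∑ c ∈ ({d} : Finset (ℕ →₀ ℕ)), P.coeff c := by
            apply sum_le_sum_of_subset
            intro c hc
            rw [mem_filter] at hc
            rw [mem_singleton]
            exact kx_inj D m c d (hPd c hc.1) (hQd d hd) (hPz c hc.1) (hQz d hd) hc.2
        _ = P.coeff d := by simp
    exact h1.trans (h2.trans h3)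
  · rw [MvPolynomial.notMem_support_iff.mp hd]
    exact Nat.zero_le _

/-- soundness: nonnegative values at nonnegative points -/
theorem ev_nonneg (b D m : ℕ) (e : PExp) (h : chk b D m e = true) (hm : 0 < m)
    (x : ℕ → ℝ) (hx : ∀ i, 0 ≤ x i) : 0 ≤ ev x e := by
  rw [ev_eq]
  have hmap := pr_map (MvPolynomial.eval₂Hom (Nat.castRingHom ℝ) x) (X (R := ℕ)) e
  simp only [eval₂Hom_X'] at hmap
  have hx' : (fun i => x i) = x := rfl
  rw [hmap, sub_nonneg]
  simp only [coe_eval₂Hom]
  have hc := coeff_le_of_chk b D m e h hm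
  set P := (pr (R := MP) X e).1
  set Q := (pr (R := MP) X e).2
  have hdec : P = Q + ∑ d ∈ P.support ∪ Q.support, monomial d (P.coeff d - Q.coeff d) := by
    ext d
    rw [coeff_add, coeff_sum]
    simp only [coeff_monomial]
    rw [sum_ite_eq']
    split_ifs with hd
    · have := hc d; omega
    · rw [mem_union, not_or] at hd
      rw [MvPolynomial.notMem_support_iff.mp hd.1, MvPolynomial.notMem_support_iff.mp hd.2]
      rfl
  rw [hdec, eval₂_add]
  have : 0 ≤ eval₂ (Nat.castRingHom ℝ) x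
      (∑ d ∈ P.support ∪ Q.support, monomial d (P.coeff d - Q.coeff d)) := by
    rw [← coe_eval₂Hom, map_sum]
    apply sum_nonneg
    intro d _
    rw [coe_eval₂Hom, eval₂_monomial]
    apply mul_nonneg
    · simp
    · unfold Finsupp.prod
      exact prod_nonneg fun i _ => pow_nonneg (hx i) _
  linarith

end PExp

section test
open PExp
example (x y : ℝ) (hx : 0 ≤ x) (hy : 0 ≤ y) : 0 ≤ (x + 2 * y) ^ 3 - x * y * (6 * x + 12 * y) := by
  have := ev_nonneg 16 4 2 (sub (pow (add (v 0) (mul (k 2) (v 1))) 3)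
    (mul (mul (v 0) (v 1)) (add (mul (k 6) (v 0)) (mul (k 12) (v 1))))) (by decide +kernel) (by norm_num)
    (fun i => if i = 0 then x else y) (by intro i; split_ifs <;> assumption)
  simpa [ev] using this
end test

end Vale.Agent.P154
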