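import Mathlib
import Vale.Agent.P154.Kron

/-!
# P154: row-wise check of the coefficients of `∑ U(x) (B⁺(z) - B⁻(z))`
-/

namespace Vale.Agent.P154

open MvPolynomial Finset

namespace Sep2

open PExp

/-- digit `k` in base `2 ^ b` -/
def dig (b k n : ℕ) : ℕ := n / 2 ^ (b * k) % 2 ^ b

def mask (b K : ℕ) : ℕ := 2 ^ (b - 1) * ((2 ^ (b * K) - 1) / (2 ^ b - 1))

/-- two variables, total degree at most `n` -/
def BD (n : ℕ) (P : MP) : Prop := ∀ d ∈ P.support, d 0 + d 1 ≤ n ∧ ∀ i, 2 ≤ i → d i = 0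

lemma BD.lt {n : ℕ} {P : MP} (h : BD n P) : ∀ d ∈ P.support, ∀ i, d i < n + 1 := by
  intro d hd i
  have := (h d hd).1
  rcases Nat.lt_or_ge i 2 with hi | hi
  · interval_cases i <;> omega
  · rw [(h d hd).2 i hi]; omega

lemma BD.vars {n : ℕ} {P : MP} (h : BD n P) : ∀ d ∈ P.support, ∀ i, 2 ≤ i → d i = 0 :=
  fun d hd => (h d hd).2

lemma BD.mono {n m : ℕ} {P : MP} (h : BD n P) (hm : n ≤ m) : BD m P :=
  fun d hd => ⟨(h d hd).1.trans hm, (h d hd).2⟩

lemma BD.add {n : ℕ} {P Q : MP} (hP : BD n P) (hQ : BD n Q) : BD n (P + Q) := by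
  intro d hd
  rcases mem_union.1 (support_add hd) with h | h
  · exact hP d h
  · exact hQ d h

lemma BD.zero {n : ℕ} : BD n (0 : MP) := by
  intro d hd; simp at hd

lemma BD.natCast {n : ℕ} (c : ℕ) : BD n (c : MP) := by
  intro d hd
  have hc : (c : MP) = C c := (map_natCast (C (σ := ℕ) (R := ℕ)) c).symm
  rw [hc, mem_support_iff, coeff_C] at hd
  have h0 : 0 = d := by
    by_contra hne
    simp [hne] at hd
  subst h0
  simp

lemma BD.X0 : BD 1 (X 0 : MP) := by
  intro d hd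
  rw [support_X, mem_singleton] at hd
  subst hd
  refine ⟨by simp, fun i hi => ?_⟩
  rw [Finsupp.single_apply, if_neg (by omega)]

lemma BD.X1 : BD 1 (X 1 : MP) := by
  intro d hd
  rw [support_X, mem_singleton] at hd
  subst hd
  refine ⟨by simp, fun i hi => ?_⟩
  rw [Finsupp.single_apply, if_neg (by omega)]

lemma BD.mul {n m : ℕ} {P Q : MP} (hP : BD n P) (hQ : BD m Q) : BD (n + m) (P * Q) := by
  intro d hd
  obtain ⟨a, ha, b, hb, rfl⟩ := Finset.mem_add.1 (support_mul P Q hd)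
  have h1 := hP a ha
  have h2 := hQ b hb
  refine ⟨?_, fun i hi => ?_⟩
  · simp only [Finsupp.add_apply]
    omega
  · simp only [Finsupp.add_apply]
    rw [h1.2 i hi, h2.2 i hi]

lemma BD.natmul {n : ℕ} {P : MP} (c : ℕ) (hP : BD n P) : BD n ((c : MP) * P) := by
  have := (BD.natCast (n := 0) c).mul hP
  rwa [zero_add] at this

lemma BD.pow {n : ℕ} {P : MP} (hP : BD n P) (k : ℕ) : BD (n * k) (P ^ k) := by
  induction k with
  | zero =>
    rw [pow_zero]
    have := BD.natCast (n := n * 0) 1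
    rwa [Nat.cast_one] at this
  | succ k ih =>
    rw [pow_succ]
    exact (ih.mul hP).mono (by rw [Nat.mul_succ])

lemma BD.pow1 {P : MP} (hP : BD 1 P) (k : ℕ) : BD k (P ^ k) := by
  have := hP.pow k
  rwa [one_mul] at this

lemma BD.sum {n : ℕ} {ι : Type} {L : List ι} {f : ι → MP} (h : ∀ t ∈ L, BD n (f t)) :
    BD n (L.map f).sum := by
  induction L with
  | nil => exact BD.zero
  | cons t l ih =>
    rw [List.map_cons, List.sum_cons]
    exact (h t (by simp)).add (ih fun s hs => h s (by simp [hs]))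

noncomputable def pk (b D : ℕ) : MP →+* ℕ := MvPolynomial.eval (fun i => 2 ^ (b * D ^ i))
noncomputable def on : MP →+* ℕ := MvPolynomial.eval (fun _ => 1)

def pt (x0 x1 : ℝ) (i : ℕ) : ℝ := if i = 0 then x0 else x1

noncomputable def rl (x0 x1 : ℝ) : MP →+* ℝ :=
  MvPolynomial.eval₂Hom (Nat.castRingHom ℝ) (pt x0 x1)

lemma rl_eq {n : ℕ} {P : MP} (h : BD n P) (x0 x1 : ℝ) :
    rl x0 x1 P = ∑ k ∈ range ((n + 1) ^ 2), (gc (n + 1) 2 P k : ℝ) *
      (x0 ^ (k % (n + 1)) * x1 ^ (k / (n + 1))) := by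
  unfold rl
  rw [coe_eval₂Hom, MvPolynomial.eval₂_eq]
  have h1 : ∀ d ∈ P.support, (Nat.castRingHom ℝ) (P.coeff d) * ∏ i ∈ d.support, (pt x0 x1 i) ^ d i
      = ((P.coeff d : ℕ) : ℝ) *
        (x0 ^ (kx (n + 1) 2 d % (n + 1)) * x1 ^ (kx (n + 1) 2 d / (n + 1))) := by
    intro d hd
    have hD : 0 < n + 1 := Nat.succ_pos n
    have hk : kx (n + 1) 2 d = d 0 + (n + 1) * d 1 := by
      unfold kx
      rw [sum_range_succ, sum_range_succ, sum_range_zero]
      ring
    have e1 : kx (n + 1) 2 d % (n + 1) = d 0 := by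
      rw [hk, Nat.add_mul_mod_self_left]
      exact Nat.mod_eq_of_lt (h.lt d hd 0)
    have e2 : kx (n + 1) 2 d / (n + 1) = d 1 := by
      rw [hk, Nat.add_mul_div_left _ _ hD, Nat.div_eq_of_lt (h.lt d hd 0), zero_add]
    rw [e1, e2]
    simp only [Nat.coe_castRingHom]
    congr 1
    have hs : d.support ⊆ range 2 := by
      intro i hi
      rw [mem_range]
      by_contra hcon
      exact (Finsupp.mem_support_iff.mp hi) (h.vars d hd i (by omega))
    rw [prod_subset hs]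
    · rw [prod_range_succ, prod_range_succ, prod_range_zero]
      simp [pt]
    · intro i _ hi
      rw [Finsupp.notMem_support_iff.mp hi, pow_zero]
  rw [sum_congr rfl h1]
  unfold gc
  push_cast
  simp only [sum_mul]
  rw [← sum_fiberwise_of_maps_to (s := P.support) (t := range ((n + 1) ^ 2))
    (g := kx (n + 1) 2)]
  · apply sum_congr rfl
    intro k _
    apply sum_congr rfl
    intro d hd
    rw [(mem_filter.mp hd).2]
  · intro d hd
    rw [mem_range]
    exact kx_lt (n + 1) 2 d (h.lt d hd)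

lemma gc_zero {n : ℕ} {P : MP} (h : BD n P) {k : ℕ} (hk : n < k % (n + 1) + k / (n + 1)) :
    gc (n + 1) 2 P k = 0 := by
  unfold gc
  apply sum_eq_zero
  intro d hd
  exfalso
  obtain ⟨hd, e⟩ := mem_filter.mp hd
  have hk' : kx (n + 1) 2 d = d 0 + (n + 1) * d 1 := by
    unfold kx
    rw [sum_range_succ, sum_range_succ, sum_range_zero]
    ring
  have e1 : k % (n + 1) = d 0 := by
    rw [← e, hk', Nat.add_mul_mod_self_left]
    exact Nat.mod_eq_of_lt (h.lt d hd 0)
  have e2 : k / (n + 1) = d 1 := by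
    rw [← e, hk', Nat.add_mul_div_left _ _ (Nat.succ_pos n), Nat.div_eq_of_lt (h.lt d hd 0),
      zero_add]
  have := (h d hd).1
  omega

/-- positive combination of a row -/
noncomputable def rowPoly (n k : ℕ) (sel : MP × MP × MP → MP) (L : List (MP × MP × MP)) : MP :=
  (L.map fun t => (gc (n + 1) 2 t.1 k : MP) * sel t).sum

lemma rowPoly_bd {n m k : ℕ} {sel : MP × MP × MP → MP} {L : List (MP × MP × MP)}
    (h : ∀ t ∈ L, BD m (sel t)) : BD m (rowPoly n k sel L) :=
  BD.sum fun t ht => (h t ht).natmul _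

lemma map_rowPoly {R : Type*} [CommSemiring R] (φ : MP →+* R) (n k : ℕ)
    (sel : MP × MP × MP → MP) (L : List (MP × MP × MP)) :
    φ (rowPoly n k sel L) = (L.map fun t => (gc (n + 1) 2 t.1 k : R) * φ (sel t)).sum := by
  unfold rowPoly
  rw [map_list_sum, List.map_map]
  congr 1
  apply List.map_congr_left
  intro t _
  simp

lemma dig_eq {bu n : ℕ} {P : MP} (h : BD n P) (hlt : on P < 2 ^ bu) {k : ℕ}
    (hk : k < (n + 1) ^ 2) : dig bu k (pk bu (n + 1) P) = gc (n + 1) 2 P k := by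
  unfold dig pk
  rw [eval_kron bu (n + 1) 2 P h.lt h.vars, pow_mul]
  exact digit_sum (2 ^ bu) (gc (n + 1) 2 P)
    (fun i => lt_of_le_of_lt (gc_le (n + 1) 2 P i) hlt) _ _ hk

lemma list_sum_le {ι : Type} {L : List ι} {f g : ι → ℕ} (h : ∀ t ∈ L, f t ≤ g t) :
    (L.map f).sum ≤ (L.map g).sum := by
  induction L with
  | nil => exact le_rfl
  | cons t l ih =>
    simp only [List.map_cons, List.sum_cons]
    exact Nat.add_le_add (h t (by simp)) (ih fun s hs => h s (by simp [hs]))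

/-- soundness of the row-wise test -/
theorem sep_sound {bu n b m : ℕ} {L : List (MP × MP × MP)}
    (hU : ∀ t ∈ L, BD n t.1) (hP : ∀ t ∈ L, BD m t.2.1) (hM : ∀ t ∈ L, BD m t.2.2)
    (hb : 0 < b) (hone : ∀ t ∈ L, on t.1 < 2 ^ bu)
    (hp1 : (L.map fun t => on t.1 * on t.2.1).sum < 2 ^ (b - 1))
    (hm1 : (L.map fun t => on t.1 * on t.2.2).sum < 2 ^ (b - 1))
    (hrows : ∀ k, k < (n + 1) ^ 2 → n < k % (n + 1) + k / (n + 1) ∨
      Nat.land ((L.map fun t => dig bu k (pk bu (n + 1) t.1) * pk b (m + 1) t.2.1).sum +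
        mask b ((m + 1) ^ 2) -
        (L.map fun t => dig bu k (pk bu (n + 1) t.1) * pk b (m + 1) t.2.2).sum)
        (mask b ((m + 1) ^ 2)) = mask b ((m + 1) ^ 2))
    {x0 x1 z0 z1 : ℝ} (hx0 : 0 ≤ x0) (hx1 : 0 ≤ x1) (hz0 : 0 ≤ z0) (hz1 : 0 ≤ z1) :
    0 ≤ (L.map fun t => rl x0 x1 t.1 * (rl z0 z1 t.2.1 - rl z0 z1 t.2.2)).sum := by
  have hG : mask b ((m + 1) ^ 2) = ∑ k ∈ range ((m + 1) ^ 2), 2 ^ (b - 1) * (2 ^ b) ^ k := by
    unfold mask
    rw [← mul_sum, pow_mul, Nat.geomSum_eq]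
    calc 2 = 2 ^ 1 := by norm_num
      _ ≤ 2 ^ b := Nat.pow_le_pow_right (by norm_num) hb
  -- the rows as polynomials
  set A : ℕ → MP := fun k => rowPoly n k (fun t => t.2.1) L with hA
  set B : ℕ → MP := fun k => rowPoly n k (fun t => t.2.2) L with hB
  have hAbd : ∀ k, BD m (A k) := fun k => rowPoly_bd hP
  have hBbd : ∀ k, BD m (B k) := fun k => rowPoly_bd hM
  have hAp : ∀ k, k < (n + 1) ^ 2 → pk b (m + 1) (A k) =
      (L.map fun t => dig bu k (pk bu (n + 1) t.1) * pk b (m + 1) t.2.1).sum := by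
    intro k hk
    rw [hA]
    simp only
    rw [map_rowPoly]
    congr 1
    apply List.map_congr_left
    intro t ht
    rw [dig_eq (hU t ht) (hone t ht) hk]
    rfl
  have hBp : ∀ k, k < (n + 1) ^ 2 → pk b (m + 1) (B k) =
      (L.map fun t => dig bu k (pk bu (n + 1) t.1) * pk b (m + 1) t.2.2).sum := by
    intro k hk
    rw [hB]
    simp only
    rw [map_rowPoly]
    congr 1
    apply List.map_congr_left
    intro t ht
    rw [dig_eq (hU t ht) (hone t ht) hk]
    rfl
  have hAone : ∀ k, on (A k) < 2 ^ (b - 1) := by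
    intro k
    refine lt_of_le_of_lt ?_ hp1
    rw [hA]
    simp only
    rw [map_rowPoly]
    exact list_sum_le fun t _ => Nat.mul_le_mul_right _ (gc_le (n + 1) 2 t.1 k)
  have hBone : ∀ k, on (B k) < 2 ^ (b - 1) := by
    intro k
    refine lt_of_le_of_lt ?_ hm1
    rw [hB]
    simp only
    rw [map_rowPoly]
    exact list_sum_le fun t _ => Nat.mul_le_mul_right _ (gc_le (n + 1) 2 t.1 k)
  have hreal : ∀ k, k < (n + 1) ^ 2 → 0 ≤ rl z0 z1 (A k) - rl z0 z1 (B k) := by
    intro k hk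
    rcases hrows k hk with hskip | h1
    · have hz : ∀ t ∈ L, gc (n + 1) 2 t.1 k = 0 := fun t ht => gc_zero (hU t ht) hskip
      rw [hA, hB]
      simp only
      rw [map_rowPoly, map_rowPoly]
      have e1 : (L.map fun t => (gc (n + 1) 2 t.1 k : ℝ) * rl z0 z1 t.2.1) =
          L.map fun t => (gc (n + 1) 2 t.1 k : ℝ) * rl z0 z1 t.2.2 := by
        apply List.map_congr_left
        intro t ht
        rw [hz t ht]
        simp
      rw [e1, sub_self]
    · rw [← hAp k hk, ← hBp k hk] at h1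
      unfold pk at h1
      rw [eval_kron b (m + 1) 2 (A k) (hAbd k).lt (hAbd k).vars,
        eval_kron b (m + 1) 2 (B k) (hBbd k).lt (hBbd k).vars] at h1
      rw [rl_eq (hAbd k), rl_eq (hBbd k), ← sum_sub_distrib]
      refine sum_nonneg fun j hj => ?_
      rw [← sub_mul]
      refine mul_nonneg ?_ (mul_nonneg (pow_nonneg hz0 _) (pow_nonneg hz1 _))
      rw [sub_nonneg]
      have := land_spec b ((m + 1) ^ 2) (gc (m + 1) 2 (A k)) (gc (m + 1) 2 (B k))
        (fun i => lt_of_le_of_lt (gc_le (m + 1) 2 (A k) i) (hAone k))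
        (fun i => lt_of_le_of_lt (gc_le (m + 1) 2 (B k) i) (hBone k)) hb _ hG h1 j
        (mem_range.1 hj)
      exact_mod_cast this
  have hfin : (L.map fun t => rl x0 x1 t.1 * (rl z0 z1 t.2.1 - rl z0 z1 t.2.2)).sum =
      ∑ k ∈ range ((n + 1) ^ 2), (x0 ^ (k % (n + 1)) * x1 ^ (k / (n + 1))) *
        (rl z0 z1 (A k) - rl z0 z1 (B k)) := by
    simp only [hA, hB, map_rowPoly]
    clear hrows hAbd hBbd hp1 hm1 hone hAp hBp hAone hBone hreal hA hB hP hM
    induction L with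
    | nil => simp
    | cons t l ih =>
      simp only [List.map_cons, List.sum_cons]
      rw [ih (fun s hs => hU s (by simp [hs])), rl_eq (hU t (by simp)), sum_mul,
        ← sum_add_distrib]
      refine sum_congr rfl fun k _ => ?_
      ring
  rw [hfin]
  refine sum_nonneg fun k hk => ?_
  exact mul_nonneg (mul_nonneg (pow_nonneg hx0 _) (pow_nonneg hx1 _)) (hreal k (mem_range.1 hk))

end Sep2

end Vale.Agent.P154
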