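import Mathlib
import Vale.Agent.P154.SepChk

/-!
# P154: kernel-checkable leaf test for certificates made of symmetrised monomials
-/

namespace Vale.Agent.P154

open MvPolynomial Finset

namespace Sep2

open PExp

/-- exponents of a monomial in three variables (also used for generators of cells) -/
abbrev Mon := ℕ × ℕ × ℕ

/-- a cell: three generators -/
abbrev Cell := Mon × Mon × Mon

/-- a feature: exponents, coefficients of `V 0, ..., V 3`, of `m` and of `qq` -/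
structure FD where
  g : Mon
  a0 : ℤ
  a1 : ℤ
  a2 : ℤ
  a3 : ℤ
  mc : ℤ
  qc : ℤ

/-- all data of a certificate -/
structure Dat where
  r : ℕ
  F : List FD
  G : List (Mon × ℤ × ℤ)
  c0 : ℕ
  c1 : ℕ
  c2 : ℕ

def ssum (g : Mon) : ℕ := g.1 + g.2.1 + g.2.2

/-- degree conditions -/
def Dat.ok (D : Dat) : Bool :=
  (D.F.all fun f => Nat.beq (ssum f.g) D.r) && D.G.all fun e => Nat.beq (ssum e.1) (2 * D.r)

/-- Bernstein weights -/
abbrev Wt := ℕ × ℕ × ℕ × ℕ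

def al (D : Dat) (f : FD) (w : Wt) : ℤ :=
  (D.c0 : ℤ) * ((w.1 : ℤ) * f.a0 + (w.2.1 : ℤ) * f.a1 + (w.2.2.1 : ℤ) * f.a2 +
    (w.2.2.2 : ℤ) * f.a3)
def be (D : Dat) (f : FD) (w : Wt) : ℤ :=
  (D.c1 : ℤ) * ((w.1 : ℤ) * f.a1 + 2 * (w.2.1 : ℤ) * f.a2 + 3 * (w.2.2.1 : ℤ) * f.a3)
def ka (D : Dat) (f : FD) (w : Wt) : ℤ :=
  (D.c2 : ℤ) * ((w.1 : ℤ) * f.a2 + 3 * (w.2.1 : ℤ) * f.a3)

/-! ### generic expressions -/

section poly

variable {R : Type*} [CommSemiring R]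

/-- symmetrised monomial -/
def ms (g : Mon) (y0 y1 y2 : R) : R :=
  y0 ^ g.1 * y1 ^ g.2.1 * y2 ^ g.2.2 + y0 ^ g.1 * y1 ^ g.2.2 * y2 ^ g.2.1 +
    y0 ^ g.2.1 * y1 ^ g.1 * y2 ^ g.2.2 + y0 ^ g.2.1 * y1 ^ g.2.2 * y2 ^ g.1 +
    y0 ^ g.2.2 * y1 ^ g.1 * y2 ^ g.2.1 + y0 ^ g.2.2 * y1 ^ g.2.1 * y2 ^ g.1

/-- positive part of a linear combination (degree two) -/
def lc (D : Dat) (c1 : FD → ℤ) (c2 : ℤ × ℤ → ℤ) (z0 z1 z2 : R) : R :=
  (D.F.map fun f => ((c1 f).toNat : R) *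
    (ms f.g z0 z1 z2 * ms (D.r, 0, 0) z0 z1 z2)).sum +
  (D.G.map fun e => ((c2 e.2).toNat : R) * (6 * ms e.1 z0 z1 z2)).sum

def cP (a b c : ℤ) (ZZ v mP mM qP qM : R) : R :=
  ((a.toNat : R) * ZZ + ((-a).toNat : R) * v) + ((b.toNat : R) * mP + ((-b).toNat : R) * mM) +
    ((c.toNat : R) * qP + ((-c).toNat : R) * qM)

def BP (D : Dat) (w : Wt) (f : FD) (z0 z1 z2 : R) : R :=
  cP (al D f w) (be D f w) (ka D f w) (ms (D.r, 0, 0) z0 z1 z2 * ms (D.r, 0, 0) z0 z1 z2)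
    (ms f.g z0 z1 z2 * ms (D.r, 0, 0) z0 z1 z2)
    (lc D (fun f => f.mc) (fun e => e.1) z0 z1 z2) (lc D (fun f => -f.mc) (fun e => -e.1) z0 z1 z2)
    (lc D (fun f => f.qc) (fun e => e.2) z0 z1 z2) (lc D (fun f => -f.qc) (fun e => -e.2) z0 z1 z2)

def BM (D : Dat) (w : Wt) (f : FD) (z0 z1 z2 : R) : R :=
  cP (-al D f w) (-be D f w) (-ka D f w) (ms (D.r, 0, 0) z0 z1 z2 * ms (D.r, 0, 0) z0 z1 z2)
    (ms f.g z0 z1 z2 * ms (D.r, 0, 0) z0 z1 z2)
    (lc D (fun f => f.mc) (fun e => e.1) z0 z1 z2) (lc D (fun f => -f.mc) (fun e => -e.1) z0 z1 z2)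
    (lc D (fun f => f.qc) (fun e => e.2) z0 z1 z2) (lc D (fun f => -f.qc) (fun e => -e.2) z0 z1 z2)

variable {S : Type*} [CommSemiring S] (φ : R →+* S)

lemma map_ms (g : Mon) (y0 y1 y2 : R) : φ (ms g y0 y1 y2) = ms g (φ y0) (φ y1) (φ y2) := by
  simp [ms]

lemma map_lc (D : Dat) (c1 : FD → ℤ) (c2 : ℤ × ℤ → ℤ) (z0 z1 z2 : R) :
    φ (lc D c1 c2 z0 z1 z2) = lc D c1 c2 (φ z0) (φ z1) (φ z2) := by
  unfold lc
  rw [map_add, map_list_sum, map_list_sum, List.map_map, List.map_map]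
  congr 2
  · apply List.map_congr_left
    intro f _
    simp [map_ms]
  · apply List.map_congr_left
    intro f _
    simp only [Function.comp_def, map_mul, map_natCast, map_ms, map_ofNat]

lemma map_cP (a b c : ℤ) (ZZ v mP mM qP qM : R) :
    φ (cP a b c ZZ v mP mM qP qM) = cP a b c (φ ZZ) (φ v) (φ mP) (φ mM) (φ qP) (φ qM) := by
  simp [cP]

lemma map_BP (D : Dat) (w : Wt) (f : FD) (z0 z1 z2 : R) :
    φ (BP D w f z0 z1 z2) = BP D w f (φ z0) (φ z1) (φ z2) := by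
  simp only [BP, map_cP, map_mul, map_ms, map_lc]

lemma map_BM (D : Dat) (w : Wt) (f : FD) (z0 z1 z2 : R) :
    φ (BM D w f z0 z1 z2) = BM D w f (φ z0) (φ z1) (φ z2) := by
  simp only [BM, map_cP, map_mul, map_ms, map_lc]

end poly

/-! ### degrees -/

lemma BD.ms {g : Mon} {y0 y1 y2 : MP} (h0 : BD 1 y0) (h1 : BD 1 y1) (h2 : BD 1 y2) {n : ℕ}
    (hn : ssum g = n) : BD n (ms g y0 y1 y2) := by
  subst hn
  unfold Sep2.ms ssum
  have key : ∀ a b c : ℕ, a + b + c = g.1 + g.2.1 + g.2.2 →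
      BD (g.1 + g.2.1 + g.2.2) (y0 ^ a * y1 ^ b * y2 ^ c) := by
    intro a b c h
    rw [← h]
    exact ((h0.pow1 a).mul (h1.pow1 b)).mul (h2.pow1 c)
  exact (((((key _ _ _ rfl).add (key _ _ _ (by omega))).add (key _ _ _ (by omega))).add
    (key _ _ _ (by omega))).add (key _ _ _ (by omega))).add (key _ _ _ (by omega))

lemma Dat.ok_F {D : Dat} (h : D.ok = true) : ∀ f ∈ D.F, ssum f.g = D.r := by
  simp only [Dat.ok, Bool.and_eq_true, List.all_eq_true] at h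
  exact fun f hf => Nat.eq_of_beq_eq_true (h.1 f hf)

lemma Dat.ok_G {D : Dat} (h : D.ok = true) : ∀ e ∈ D.G, ssum e.1 = 2 * D.r := by
  simp only [Dat.ok, Bool.and_eq_true, List.all_eq_true] at h
  exact fun f hf => Nat.eq_of_beq_eq_true (h.2 f hf)

lemma BD.msr {D : Dat} {z0 z1 z2 : MP} (h0 : BD 1 z0) (h1 : BD 1 z1) (h2 : BD 1 z2) :
    BD D.r (Sep2.ms (D.r, 0, 0) z0 z1 z2) := BD.ms h0 h1 h2 (by simp [ssum])

lemma BD.lc {D : Dat} (h : D.ok = true) {c1 : FD → ℤ} {c2 : ℤ × ℤ → ℤ} {z0 z1 z2 : MP}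
    (h0 : BD 1 z0) (h1 : BD 1 z1) (h2 : BD 1 z2) : BD (2 * D.r) (lc D c1 c2 z0 z1 z2) := by
  unfold Sep2.lc
  refine (BD.sum fun f hf => BD.natmul _ ?_).add (BD.sum fun e he => BD.natmul _ ?_)
  · have := (BD.ms h0 h1 h2 (Dat.ok_F h f hf)).mul (BD.msr (D := D) h0 h1 h2)
    rwa [← two_mul] at this
  · have := BD.natmul 6 (BD.ms h0 h1 h2 (Dat.ok_G h e he))
    simpa using this

lemma BD.cP {n : ℕ} {a b c : ℤ} {ZZ v mP mM qP qM : MP} (h1 : BD n ZZ) (h2 : BD n v)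
    (h3 : BD n mP) (h4 : BD n mM) (h5 : BD n qP) (h6 : BD n qM) :
    BD n (cP a b c ZZ v mP mM qP qM) :=
  (((h1.natmul _).add (h2.natmul _)).add ((h3.natmul _).add (h4.natmul _))).add
    ((h5.natmul _).add (h6.natmul _))

lemma BD.BP {D : Dat} (h : D.ok = true) {w : Wt} {f : FD} (hf : f ∈ D.F) {z0 z1 z2 : MP}
    (h0 : BD 1 z0) (h1 : BD 1 z1) (h2 : BD 1 z2) : BD (2 * D.r) (BP D w f z0 z1 z2) := by
  have e := BD.msr (D := D) h0 h1 h2
  refine BD.cP ?_ ?_ (BD.lc h h0 h1 h2) (BD.lc h h0 h1 h2) (BD.lc h h0 h1 h2) (BD.lc h h0 h1 h2)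
  · have := e.mul e
    rwa [← two_mul] at this
  · have := (BD.ms h0 h1 h2 (Dat.ok_F h f hf)).mul e
    rwa [← two_mul] at this

lemma BD.BM {D : Dat} (h : D.ok = true) {w : Wt} {f : FD} (hf : f ∈ D.F) {z0 z1 z2 : MP}
    (h0 : BD 1 z0) (h1 : BD 1 z1) (h2 : BD 1 z2) : BD (2 * D.r) (BM D w f z0 z1 z2) := by
  have e := BD.msr (D := D) h0 h1 h2
  refine BD.cP ?_ ?_ (BD.lc h h0 h1 h2) (BD.lc h h0 h1 h2) (BD.lc h h0 h1 h2) (BD.lc h h0 h1 h2)
  · have := e.mul e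
    rwa [← two_mul] at this
  · have := (BD.ms h0 h1 h2 (Dat.ok_F h f hf)).mul e
    rwa [← two_mul] at this

/-! ### fast arithmetic -/

/-- force evaluation of a number -/
noncomputable def fc {α : Type} (n : ℕ) (k : ℕ → α) : α :=
  Nat.rec (k 0) (fun m _ => k (Nat.succ m)) n

theorem fc_eq {α : Type} (n : ℕ) (k : ℕ → α) : fc n k = k n := by cases n <;> rfl

def msN (g : Mon) (a b c : ℕ) : ℕ :=
  Nat.add (Nat.add (Nat.add (Nat.add (Nat.add
    (Nat.mul (Nat.mul (Nat.pow a g.1) (Nat.pow b g.2.1)) (Nat.pow c g.2.2))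
    (Nat.mul (Nat.mul (Nat.pow a g.1) (Nat.pow b g.2.2)) (Nat.pow c g.2.1)))
    (Nat.mul (Nat.mul (Nat.pow a g.2.1) (Nat.pow b g.1)) (Nat.pow c g.2.2)))
    (Nat.mul (Nat.mul (Nat.pow a g.2.1) (Nat.pow b g.2.2)) (Nat.pow c g.1)))
    (Nat.mul (Nat.mul (Nat.pow a g.2.2) (Nat.pow b g.1)) (Nat.pow c g.2.1)))
    (Nat.mul (Nat.mul (Nat.pow a g.2.2) (Nat.pow b g.2.1)) (Nat.pow c g.1))

lemma msN_eq (g : Mon) (a b c : ℕ) : msN g a b c = ms g a b c := rfl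

/-- positive part times `x` plus negative part times `y` -/
def zm (c : ℤ) (x y : ℕ) : ℕ :=
  match c with
  | Int.ofNat n => Nat.mul n x
  | Int.negSucc n => Nat.mul (Nat.succ n) y

lemma zm_eq (c : ℤ) (x y : ℕ) : zm c x y = c.toNat * x + (-c).toNat * y := by
  cases c with
  | ofNat n =>
    simp only [zm, Int.ofNat_eq_natCast, Int.toNat_natCast]
    have : (-(n : ℤ)).toNat = 0 := by omega
    rw [this, zero_mul, add_zero]; rfl
  | negSucc n =>
    simp only [zm, Int.toNat_negSucc, zero_mul, zero_add, Int.neg_negSucc, Int.toNat_natCast]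
    rfl

/-- map to triples, forced -/
noncomputable def fmap3 {α : Type} (f g h : α → ℕ) (L : List α) (k : List (ℕ × ℕ × ℕ) → Bool) :
    Bool :=
  List.rec (motive := fun _ => (List (ℕ × ℕ × ℕ) → Bool) → Bool) (fun k => k [])
    (fun a _ ih k => fc (f a) fun x => fc (g a) fun y => fc (h a) fun z =>
      ih fun t => k ((x, y, z) :: t)) L k

lemma fmap3_eq {α : Type} (f g h : α → ℕ) (L : List α) (k : List (ℕ × ℕ × ℕ) → Bool) :
    fmap3 f g h L k = k (L.map fun a => (f a, g a, h a)) := by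
  induction L generalizing k with
  | nil => rfl
  | cons a l ih =>
    have : fmap3 f g h (a :: l) k = fc (f a) fun x => fc (g a) fun y => fc (h a) fun z =>
      fmap3 f g h l fun t => k ((x, y, z) :: t) := rfl
    rw [this, fc_eq, fc_eq, fc_eq, ih]
    rfl

noncomputable def fmapE {α : Type} (f g : α → ℕ) (L : List α) (k : List (ℕ × ℕ × α) → Bool) :
    Bool :=
  List.rec (motive := fun _ => (List (ℕ × ℕ × α) → Bool) → Bool) (fun k => k [])
    (fun a _ ih k => fc (f a) fun x => fc (g a) fun y =>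
      ih fun t => k ((x, y, a) :: t)) L k

lemma fmapE_eq {α : Type} (f g : α → ℕ) (L : List α) (k : List (ℕ × ℕ × α) → Bool) :
    fmapE f g L k = k (L.map fun a => (f a, g a, a)) := by
  induction L generalizing k with
  | nil => rfl
  | cons a l ih =>
    have : fmapE f g (a :: l) k = fc (f a) fun x => fc (g a) fun y =>
      fmapE f g l fun t => k ((x, y, a) :: t) := rfl
    rw [this, fc_eq, fc_eq, ih]
    rfl

/-- sum over a list -/
noncomputable def lsum {α : Type} (f : α → ℕ) (L : List α) : ℕ :=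
  List.rec 0 (fun a _ ih => Nat.add (f a) ih) L

lemma lsum_eq {α : Type} (f : α → ℕ) (L : List α) : lsum f L = (L.map f).sum := by
  induction L with
  | nil => rfl
  | cons a l ih =>
    have : lsum f (a :: l) = f a + lsum f l := rfl
    rw [this, ih, List.map_cons, List.sum_cons]

/-- the common part of the evaluation -/
noncomputable def core (D : Dat) (y0 y1 y2 z0 z1 z2 : ℕ)
    (k : List (ℕ × ℕ × FD) → ℕ → ℕ → ℕ → ℕ → ℕ → Bool) : Bool :=
  fc (msN (D.r, 0, 0) z0 z1 z2) fun Zs =>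
  fc (Nat.mul Zs Zs) fun ZZ =>
  fmapE (fun f => msN f.g y0 y1 y2) (fun f => Nat.mul (msN f.g z0 z1 z2) Zs) D.F fun E =>
  fc (Nat.add (lsum (fun e => zm e.2.2.mc e.2.1 0) E)
    (lsum (fun e => zm e.2.1 (Nat.mul 6 (msN e.1 z0 z1 z2)) 0) D.G)) fun mP =>
  fc (Nat.add (lsum (fun e => zm e.2.2.mc 0 e.2.1) E)
    (lsum (fun e => zm e.2.1 0 (Nat.mul 6 (msN e.1 z0 z1 z2))) D.G)) fun mM =>
  fc (Nat.add (lsum (fun e => zm e.2.2.qc e.2.1 0) E)
    (lsum (fun e => zm e.2.2 (Nat.mul 6 (msN e.1 z0 z1 z2)) 0) D.G)) fun qP =>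
  fc (Nat.add (lsum (fun e => zm e.2.2.qc 0 e.2.1) E)
    (lsum (fun e => zm e.2.2 0 (Nat.mul 6 (msN e.1 z0 z1 z2))) D.G)) fun qM =>
  k E ZZ mP mM qP qM

lemma core_eq (D : Dat) (y0 y1 y2 z0 z1 z2 : ℕ)
    (k : List (ℕ × ℕ × FD) → ℕ → ℕ → ℕ → ℕ → ℕ → Bool) :
    core D y0 y1 y2 z0 z1 z2 k =
      k (D.F.map fun f => (ms f.g y0 y1 y2, ms f.g z0 z1 z2 * ms (D.r, 0, 0) z0 z1 z2, f))
        (ms (D.r, 0, 0) z0 z1 z2 * ms (D.r, 0, 0) z0 z1 z2)
        (lc D (fun f => f.mc) (fun e => e.1) z0 z1 z2)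
        (lc D (fun f => -f.mc) (fun e => -e.1) z0 z1 z2)
        (lc D (fun f => f.qc) (fun e => e.2) z0 z1 z2)
        (lc D (fun f => -f.qc) (fun e => -e.2) z0 z1 z2) := by
  unfold core
  rw [fc_eq, fc_eq, fmapE_eq, fc_eq, fc_eq, fc_eq, fc_eq]
  simp only [lsum_eq, List.map_map, Function.comp_def, zm_eq, mul_zero, add_zero, zero_add,
    msN_eq]
  rfl

noncomputable def trip (D : Dat) (E : List (ℕ × ℕ × FD)) (w : Wt) (ZZ mP mM qP qM : ℕ)
    (k : List (ℕ × ℕ × ℕ) → Bool) : Bool :=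
  fmap3 (fun e => e.1)
    (fun e => Nat.add (Nat.add (zm (al D e.2.2 w) ZZ e.2.1) (zm (be D e.2.2 w) mP mM))
      (zm (ka D e.2.2 w) qP qM))
    (fun e => Nat.add (Nat.add (zm (al D e.2.2 w) e.2.1 ZZ) (zm (be D e.2.2 w) mM mP))
      (zm (ka D e.2.2 w) qM qP)) E k

lemma trip_eq (D : Dat) (y0 y1 y2 z0 z1 z2 : ℕ) (w : Wt) (k : List (ℕ × ℕ × ℕ) → Bool) :
    trip D (D.F.map fun f => (ms f.g y0 y1 y2, ms f.g z0 z1 z2 * ms (D.r, 0, 0) z0 z1 z2, f)) w
        (ms (D.r, 0, 0) z0 z1 z2 * ms (D.r, 0, 0) z0 z1 z2)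
        (lc D (fun f => f.mc) (fun e => e.1) z0 z1 z2)
        (lc D (fun f => -f.mc) (fun e => -e.1) z0 z1 z2)
        (lc D (fun f => f.qc) (fun e => e.2) z0 z1 z2)
        (lc D (fun f => -f.qc) (fun e => -e.2) z0 z1 z2) k =
      k (D.F.map fun f => (ms f.g y0 y1 y2, BP D w f z0 z1 z2, BM D w f z0 z1 z2)) := by
  unfold trip
  rw [fmap3_eq, List.map_map]
  congr 1
  apply List.map_congr_left
  intro f _
  simp only [Function.comp_def, zm_eq, Nat.add_eq, BP, BM, cP, neg_neg]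
  simp only [Nat.cast_id]
  congr 2
  ring

def digF (mb sh n : ℕ) : ℕ := Nat.land (Nat.shiftRight n sh) mb

lemma digF_eq (bu k n : ℕ) : digF (2 ^ bu - 1) (Nat.mul bu k) n = dig bu k n := by
  unfold digF dig
  have h1 : Nat.land (Nat.shiftRight n (Nat.mul bu k)) (2 ^ bu - 1) =
      (n >>> (bu * k)) &&& (2 ^ bu - 1) := rfl
  rw [h1, Nat.shiftRight_eq_div_pow, Nat.and_two_pow_sub_one_eq_mod]

/-- triples `(U, P, M)` replaced by pairs `(U, P + B0 - M)`, forced -/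
noncomputable def fmapD {α : Type} (f g h : α → ℕ) (B0 : ℕ) (L : List α)
    (k : List (ℕ × ℕ) → Bool) : Bool :=
  List.rec (motive := fun _ => (List (ℕ × ℕ) → Bool) → Bool) (fun k => k [])
    (fun a _ ih k => fc (h a) fun z => Nat.ble z B0 &&
      fc (f a) fun x => fc (Nat.sub (Nat.add (g a) B0) z) fun w => ih fun t => k ((x, w) :: t)) L k

lemma fmapD_eq {α : Type} (f g h : α → ℕ) (B0 : ℕ) (L : List α) (k : List (ℕ × ℕ) → Bool)
    (hk : fmapD f g h B0 L k = true) :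
    (∀ a ∈ L, h a ≤ B0) ∧ k (L.map fun a => (f a, g a + B0 - h a)) = true := by
  induction L generalizing k with
  | nil => exact ⟨by simp, hk⟩
  | cons a l ih =>
    have e : fmapD f g h B0 (a :: l) k = fc (h a) fun z => Nat.ble z B0 &&
      fc (f a) fun x => fc (Nat.sub (Nat.add (g a) B0) z) fun w =>
        fmapD f g h B0 l fun t => k ((x, w) :: t) := rfl
    rw [e, fc_eq, Bool.and_eq_true, fc_eq, fc_eq] at hk
    obtain ⟨h1, h2⟩ := ih _ hk.2
    refine ⟨?_, h2⟩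
    intro b hb
    rcases List.mem_cons.1 hb with rfl | hb
    · exact Nat.le_of_ble_eq_true hk.1
    · exact h1 b hb

/-- case distinction, forced -/
noncomputable def fcz {α : Type} (n : ℕ) (z : α) (k : ℕ → α) : α :=
  Nat.rec z (fun m _ => k (Nat.succ m)) n

/-- one row -/
noncomputable def rowS (mb sh G B0 : ℕ) (L : List (ℕ × ℕ)) : Bool :=
  List.rec (motive := fun _ => ℕ → ℕ → Bool)
    (fun p n => Nat.beq (Nat.land (Nat.sub (Nat.add p G) (Nat.mul n B0)) G) G)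
    (fun t _ ih p n => fcz (digF mb sh t.1) (ih p n) fun d =>
      ih (Nat.add p (Nat.mul d t.2)) (Nat.add n d)) L 0 0

lemma rowS_eq (bu k G B0 : ℕ) (L : List (ℕ × ℕ))
    (h : rowS (2 ^ bu - 1) (Nat.mul bu k) G B0 L = true) :
    Nat.land ((L.map fun t => dig bu k t.1 * t.2).sum + G -
      (L.map fun t => dig bu k t.1).sum * B0) G = G := by
  have key : ∀ (q : ℕ → ℕ) (L : List (ℕ × ℕ)) (p m : ℕ), List.rec (motive := fun _ => ℕ → ℕ → Bool)
      (fun p n => Nat.beq (Nat.land (Nat.sub (Nat.add p G) (Nat.mul n B0)) G) G)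
      (fun t _ ih p n => fcz (q t.1) (ih p n) fun d =>
        ih (Nat.add p (Nat.mul d t.2)) (Nat.add n d)) L p m = true →
      Nat.land (p + (L.map fun t => q t.1 * t.2).sum + G -
        (m + (L.map fun t => q t.1).sum) * B0) G = G := by
    intro q L
    induction L with
    | nil =>
      intro p m h
      simpa using Nat.eq_of_beq_eq_true h
    | cons t l ih =>
      intro p m h
      simp only [List.map_cons, List.sum_cons]
      simp only at h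
      cases hd : q t.1 with
      | zero =>
        rw [hd] at h
        have := ih _ _ h
        simpa using this
      | succ d =>
        rw [hd] at h
        have := ih _ _ h
        simp only [Nat.add_eq, Nat.mul_eq] at this
        rw [← add_assoc, ← add_assoc]
        exact this
  have := key (digF (2 ^ bu - 1) (Nat.mul bu k)) L 0 0 h
  simp only [digF_eq] at this
  rwa [zero_add, zero_add] at this

/-- all rows -/
noncomputable def rowsS (r bu mb G B0 : ℕ) (L : List (ℕ × ℕ)) (n : ℕ) : Bool :=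
  Nat.rec true (fun k ih =>
    (Nat.blt r (Nat.add (Nat.mod k (Nat.succ r)) (Nat.div k (Nat.succ r))) ||
      rowS mb (Nat.mul bu k) G B0 L) && ih) n

lemma rowsS_eq (r bu G B0 : ℕ) (L : List (ℕ × ℕ)) (n : ℕ)
    (h : rowsS r bu (2 ^ bu - 1) G B0 L n = true) :
    ∀ k, k < n → r < k % (r + 1) + k / (r + 1) ∨
    Nat.land ((L.map fun t => dig bu k t.1 * t.2).sum + G -
      (L.map fun t => dig bu k t.1).sum * B0) G = G := by
  induction n with
  | zero => intro k hk; omega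
  | succ n ih =>
    have e : rowsS r bu (2 ^ bu - 1) G B0 L (n + 1) =
      ((Nat.blt r (Nat.add (Nat.mod n (Nat.succ r)) (Nat.div n (Nat.succ r))) ||
      rowS (2 ^ bu - 1) (Nat.mul bu n) G B0 L) && rowsS r bu (2 ^ bu - 1) G B0 L n) := rfl
    rw [e, Bool.and_eq_true, Bool.or_eq_true] at h
    intro k hk
    rcases Nat.lt_or_ge k n with h1 | h1
    · exact ih h.2 k h1
    · have : k = n := by omega
      subst this
      rcases h.1 with h2 | h2
      · left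
        exact Nat.le_of_ble_eq_true h2
      · right
        exact rowS_eq _ _ _ _ _ h2

lemma sum_shift {α : Type} (L : List α) (d P M : α → ℕ) (B0 : ℕ) (h : ∀ a ∈ L, M a ≤ B0) :
    (L.map fun a => d a * (P a + B0 - M a)).sum + (L.map fun a => d a * M a).sum =
      (L.map fun a => d a * P a).sum + (L.map d).sum * B0 := by
  induction L with
  | nil => simp
  | cons a l ih =>
    have h1 := h a (by simp)
    have h2 := ih fun b hb => h b (by simp [hb])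
    simp only [List.map_cons, List.sum_cons]
    have e : d a * (P a + B0 - M a) + d a * M a = d a * P a + d a * B0 := by
      rw [← mul_add, ← mul_add]
      congr 1
      omega
    rw [add_mul]
    omega

noncomputable def tripD (D : Dat) (E : List (ℕ × ℕ × FD)) (w : Wt) (ZZ mP mM qP qM B0 : ℕ)
    (k : List (ℕ × ℕ) → Bool) : Bool :=
  fmapD (fun e => e.1)
    (fun e => Nat.add (Nat.add (zm (al D e.2.2 w) ZZ e.2.1) (zm (be D e.2.2 w) mP mM))
      (zm (ka D e.2.2 w) qP qM))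
    (fun e => Nat.add (Nat.add (zm (al D e.2.2 w) e.2.1 ZZ) (zm (be D e.2.2 w) mM mP))
      (zm (ka D e.2.2 w) qM qP)) B0 E k

lemma tripD_eq (D : Dat) (y0 y1 y2 z0 z1 z2 : ℕ) (w : Wt) (B0 : ℕ) (k : List (ℕ × ℕ) → Bool)
    (h : tripD D (D.F.map fun f => (ms f.g y0 y1 y2, ms f.g z0 z1 z2 *
        ms (D.r, 0, 0) z0 z1 z2, f)) w
        (ms (D.r, 0, 0) z0 z1 z2 * ms (D.r, 0, 0) z0 z1 z2)
        (lc D (fun f => f.mc) (fun e => e.1) z0 z1 z2)
        (lc D (fun f => -f.mc) (fun e => -e.1) z0 z1 z2)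
        (lc D (fun f => f.qc) (fun e => e.2) z0 z1 z2)
        (lc D (fun f => -f.qc) (fun e => -e.2) z0 z1 z2) B0 k = true) :
    (∀ f ∈ D.F, BM D w f z0 z1 z2 ≤ B0) ∧
      k (D.F.map fun f => (ms f.g y0 y1 y2, BP D w f z0 z1 z2 + B0 - BM D w f z0 z1 z2)) =
        true := by
  unfold tripD at h
  obtain ⟨h1, h2⟩ := fmapD_eq _ _ _ _ _ _ h
  have eP : ∀ f : FD, Nat.add (Nat.add (zm (al D f w) (ms (D.r, 0, 0) z0 z1 z2 *
      ms (D.r, 0, 0) z0 z1 z2) (ms f.g z0 z1 z2 * ms (D.r, 0, 0) z0 z1 z2))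
      (zm (be D f w) (lc D (fun f => f.mc) (fun e => e.1) z0 z1 z2)
        (lc D (fun f => -f.mc) (fun e => -e.1) z0 z1 z2)))
      (zm (ka D f w) (lc D (fun f => f.qc) (fun e => e.2) z0 z1 z2)
        (lc D (fun f => -f.qc) (fun e => -e.2) z0 z1 z2)) = BP D w f z0 z1 z2 := by
    intro f
    simp only [zm_eq, Nat.add_eq, BP, cP]
    simp only [Nat.cast_id]
  have eM : ∀ f : FD, Nat.add (Nat.add (zm (al D f w) (ms f.g z0 z1 z2 *
      ms (D.r, 0, 0) z0 z1 z2) (ms (D.r, 0, 0) z0 z1 z2 * ms (D.r, 0, 0) z0 z1 z2))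
      (zm (be D f w) (lc D (fun f => -f.mc) (fun e => -e.1) z0 z1 z2)
        (lc D (fun f => f.mc) (fun e => e.1) z0 z1 z2)))
      (zm (ka D f w) (lc D (fun f => -f.qc) (fun e => -e.2) z0 z1 z2)
        (lc D (fun f => f.qc) (fun e => e.2) z0 z1 z2)) = BM D w f z0 z1 z2 := by
    intro f
    simp only [zm_eq, Nat.add_eq, BM, cP, neg_neg]
    simp only [Nat.cast_id]
    ring
  rw [List.map_map] at h2
  refine ⟨fun f hf => ?_, ?_⟩
  · have := h1 _ (List.mem_map.2 ⟨f, hf, rfl⟩)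
    rw [← eM f]
    exact this
  · rw [← h2]
    congr 1
    apply List.map_congr_left
    intro f _
    rw [← eP f, ← eM f]
    rfl

/-- Bernstein weights of degree three on `[s0, s1]` -/
def wts (s0 s1 : ℕ) : List Wt :=
  [(1, s0, s0 ^ 2, s0 ^ 3), (3, 2 * s0 + s1, s0 ^ 2 + 2 * s0 * s1, 3 * s0 ^ 2 * s1),
    (3, s0 + 2 * s1, 2 * s0 * s1 + s1 ^ 2, 3 * s0 * s1 ^ 2), (1, s1, s1 ^ 2, s1 ^ 3)]

def ones (a : ℕ × ℕ × ℕ) : ℕ := Nat.add (Nat.add a.1 a.2.1) a.2.2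
def pkN (b D : ℕ) (a : ℕ × ℕ × ℕ) : ℕ :=
  Nat.add (Nat.add (Nat.mul a.1 (Nat.pow 2 b)) (Nat.mul a.2.1 (Nat.pow 2 (Nat.mul b D)))) a.2.2

/-- coordinates of the point `X0 P1 + X1 P2 + P3` -/
def crd0 (P : Cell) : ℕ × ℕ × ℕ := (P.1.1, P.2.1.1, P.2.2.1)
def crd1 (P : Cell) : ℕ × ℕ × ℕ := (P.1.2.1, P.2.1.2.1, P.2.2.2.1)
def crd2 (P : Cell) : ℕ × ℕ × ℕ := (P.1.2.2, P.2.1.2.2, P.2.2.2.2)

/-- the leaf test -/
noncomputable def leafF (D : Dat) (P Q : Cell) (s0 s1 bu b : ℕ) : Bool :=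
  Nat.blt 0 b && (
  (core D (ones (crd0 P)) (ones (crd1 P)) (ones (crd2 P)) (ones (crd0 Q)) (ones (crd1 Q))
    (ones (crd2 Q)) fun E ZZ mP mM qP qM =>
      (E.all fun e => Nat.blt e.1 (2 ^ bu)) && (wts s0 s1).all fun w =>
        trip D E w ZZ mP mM qP qM fun T =>
          Nat.blt (lsum (fun t => Nat.mul t.1 t.2.1) T) (2 ^ (b - 1)) &&
          Nat.blt (lsum (fun t => Nat.mul t.1 t.2.2) T) (2 ^ (b - 1))) &&
  fc (pkN bu (D.r + 1) (crd0 P)) fun y0 => fc (pkN bu (D.r + 1) (crd1 P)) fun y1 =>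
  fc (pkN bu (D.r + 1) (crd2 P)) fun y2 => fc (pkN b (2 * D.r + 1) (crd0 Q)) fun z0 =>
  fc (pkN b (2 * D.r + 1) (crd1 Q)) fun z1 => fc (pkN b (2 * D.r + 1) (crd2 Q)) fun z2 =>
  fc (mask b ((2 * D.r + 1) ^ 2)) fun G => fc (2 ^ bu - 1) fun mb =>
  fc (Nat.pow 2 (Nat.mul b ((2 * D.r + 1) ^ 2))) fun B0 =>
  core D y0 y1 y2 z0 z1 z2 fun E ZZ mP mM qP qM =>
      (wts s0 s1).all fun w =>
        tripD D E w ZZ mP mM qP qM B0 fun T => rowsS D.r bu mb G B0 T ((D.r + 1) ^ 2))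

end Sep2

end Vale.Agent.P154
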