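import Mathlib
import Vale.Agent.P154.PMChk

/-!
# P154: soundness of the leaf test and of the tree test
-/

namespace Vale.Agent.P154

open MvPolynomial Finset

namespace Sep2

open PExp

/-- linear form as a polynomial, last coordinate equal to one -/
noncomputable def lin3 (a : ℕ × ℕ × ℕ) : MP := (a.1 : MP) * X 0 + (a.2.1 : MP) * X 1 + (a.2.2 : MP)

def linR (a : ℕ × ℕ × ℕ) (x0 x1 x2 : ℝ) : ℝ := (a.1 : ℝ) * x0 + (a.2.1 : ℝ) * x1 + (a.2.2 : ℝ) * x2

lemma BD.lin3 (a : ℕ × ℕ × ℕ) : BD 1 (lin3 a) :=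
  ((BD.natmul _ BD.X0).add (BD.natmul _ BD.X1)).add (BD.natCast _)

lemma on_lin3 (a : ℕ × ℕ × ℕ) : on (lin3 a) = ones a := by
  simp [on, lin3, ones]

lemma pk_lin3 (b D : ℕ) (a : ℕ × ℕ × ℕ) : pk b D (lin3 a) = pkN b D a := by
  simp [pk, lin3, pkN]

lemma rl_lin3 (x0 x1 : ℝ) (a : ℕ × ℕ × ℕ) : rl x0 x1 (lin3 a) = linR a x0 x1 1 := by
  simp [rl, lin3, linR, pt]

/-- the tested expression for one Bernstein weight -/
noncomputable def Gw (D : Dat) (w : Wt) (y0 y1 y2 z0 z1 z2 : ℝ) : ℝ :=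
  (D.F.map fun f => ms f.g y0 y1 y2 * (BP D w f z0 z1 z2 - BM D w f z0 z1 z2)).sum

theorem leaf_one {D : Dat} (hD : D.ok = true) {P Q : Cell} {s0 s1 bu b : ℕ}
    (h : leafF D P Q s0 s1 bu b = true) {w : Wt} (hw : w ∈ wts s0 s1) {x0 x1 t0 t1 : ℝ}
    (hx0 : 0 ≤ x0) (hx1 : 0 ≤ x1) (ht0 : 0 ≤ t0) (ht1 : 0 ≤ t1) :
    0 ≤ Gw D w (linR (crd0 P) x0 x1 1) (linR (crd1 P) x0 x1 1) (linR (crd2 P) x0 x1 1)
      (linR (crd0 Q) t0 t1 1) (linR (crd1 Q) t0 t1 1) (linR (crd2 Q) t0 t1 1) := by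
  unfold leafF at h
  simp only [fc_eq, core_eq, Bool.and_eq_true, List.all_eq_true, trip_eq, lsum_eq,
    Nat.blt_eq] at h
  obtain ⟨hb, ⟨hu, h1⟩, h2⟩ := h
  obtain ⟨hp1, hm1⟩ := h1 w hw
  obtain ⟨hB, h2'⟩ := tripD_eq _ _ _ _ _ _ _ _ _ _ (h2 w hw)
  have h3 := rowsS_eq _ _ _ _ _ _ h2'
  have := sep_sound (bu := bu) (n := D.r) (b := b) (m := 2 * D.r)
    (L := D.F.map fun f => (ms f.g (lin3 (crd0 P)) (lin3 (crd1 P)) (lin3 (crd2 P)),
      BP D w f (lin3 (crd0 Q)) (lin3 (crd1 Q)) (lin3 (crd2 Q)),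
      BM D w f (lin3 (crd0 Q)) (lin3 (crd1 Q)) (lin3 (crd2 Q))))
    (fun t ht => by
      obtain ⟨f, hf, rfl⟩ := List.mem_map.1 ht
      exact BD.ms (BD.lin3 _) (BD.lin3 _) (BD.lin3 _) (Dat.ok_F hD f hf))
    (fun t ht => by
      obtain ⟨f, hf, rfl⟩ := List.mem_map.1 ht
      exact BD.BP hD hf (BD.lin3 _) (BD.lin3 _) (BD.lin3 _))
    (fun t ht => by
      obtain ⟨f, hf, rfl⟩ := List.mem_map.1 ht
      exact BD.BM hD hf (BD.lin3 _) (BD.lin3 _) (BD.lin3 _))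
    hb
    (fun t ht => by
      obtain ⟨f, hf, rfl⟩ := List.mem_map.1 ht
      have := hu _ (List.mem_map.2 ⟨f, hf, rfl⟩)
      simpa only [map_ms, on_lin3] using this)
    (by
      rw [List.map_map] at hp1 ⊢
      refine lt_of_eq_of_lt ?_ hp1
      congr 1
      apply List.map_congr_left
      intro f _
      simp only [Function.comp_def, map_ms, map_BP, on_lin3]
      rfl)
    (by
      rw [List.map_map] at hm1 ⊢
      refine lt_of_eq_of_lt ?_ hm1
      congr 1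
      apply List.map_congr_left
      intro f _
      simp only [Function.comp_def, map_ms, map_BM, on_lin3]
      rfl)
    (by
      intro k hk
      rcases h3 k hk with h4 | h4
      · exact Or.inl h4
      · right
        rw [List.map_map, List.map_map] at h4 ⊢
        have hsh := sum_shift D.F (fun f => dig bu k (ms f.g (pkN bu (D.r + 1) (crd0 P))
            (pkN bu (D.r + 1) (crd1 P)) (pkN bu (D.r + 1) (crd2 P))))
          (fun f => BP D w f (pkN b (2 * D.r + 1) (crd0 Q)) (pkN b (2 * D.r + 1) (crd1 Q))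
                (pkN b (2 * D.r + 1) (crd2 Q)))
          (fun f => BM D w f (pkN b (2 * D.r + 1) (crd0 Q)) (pkN b (2 * D.r + 1) (crd1 Q))
                (pkN b (2 * D.r + 1) (crd2 Q))) _ hB
        have e1 : (D.F.map ((fun t : MP × MP × MP => dig bu k (pk bu (D.r + 1) t.1) *
            pk b (2 * D.r + 1) t.2.1) ∘ fun f => (ms f.g (lin3 (crd0 P)) (lin3 (crd1 P))
            (lin3 (crd2 P)), BP D w f (lin3 (crd0 Q)) (lin3 (crd1 Q)) (lin3 (crd2 Q)),
            BM D w f (lin3 (crd0 Q)) (lin3 (crd1 Q)) (lin3 (crd2 Q))))) =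
            D.F.map ((fun t : ℕ × ℕ × ℕ => dig bu k t.1 * t.2.1) ∘ fun f =>
              (ms f.g (pkN bu (D.r + 1) (crd0 P)) (pkN bu (D.r + 1) (crd1 P))
                (pkN bu (D.r + 1) (crd2 P)),
              BP D w f (pkN b (2 * D.r + 1) (crd0 Q)) (pkN b (2 * D.r + 1) (crd1 Q))
                (pkN b (2 * D.r + 1) (crd2 Q)),
              BM D w f (pkN b (2 * D.r + 1) (crd0 Q)) (pkN b (2 * D.r + 1) (crd1 Q))
                (pkN b (2 * D.r + 1) (crd2 Q)))) := by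
          apply List.map_congr_left
          intro f _
          simp only [Function.comp_def, map_ms, map_BP, pk_lin3]
        have e2 : (D.F.map ((fun t : MP × MP × MP => dig bu k (pk bu (D.r + 1) t.1) *
            pk b (2 * D.r + 1) t.2.2) ∘ fun f => (ms f.g (lin3 (crd0 P)) (lin3 (crd1 P))
            (lin3 (crd2 P)), BP D w f (lin3 (crd0 Q)) (lin3 (crd1 Q)) (lin3 (crd2 Q)),
            BM D w f (lin3 (crd0 Q)) (lin3 (crd1 Q)) (lin3 (crd2 Q))))) =
            D.F.map ((fun t : ℕ × ℕ × ℕ => dig bu k t.1 * t.2.2) ∘ fun f =>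
              (ms f.g (pkN bu (D.r + 1) (crd0 P)) (pkN bu (D.r + 1) (crd1 P))
                (pkN bu (D.r + 1) (crd2 P)),
              BP D w f (pkN b (2 * D.r + 1) (crd0 Q)) (pkN b (2 * D.r + 1) (crd1 Q))
                (pkN b (2 * D.r + 1) (crd2 Q)),
              BM D w f (pkN b (2 * D.r + 1) (crd0 Q)) (pkN b (2 * D.r + 1) (crd1 Q))
                (pkN b (2 * D.r + 1) (crd2 Q)))) := by
          apply List.map_congr_left
          intro f _
          simp only [Function.comp_def, map_ms, map_BM, pk_lin3]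
        rw [e1, e2]
        simp only [Function.comp_def] at h4 ⊢
        have e3 : ∀ X a b c G' : ℕ, X + b = a + c → X + G' - c = a + G' - b := by
          intro X a b c G' h; omega
        rw [e3 _ _ _ _ _ hsh] at h4
        exact h4)
    hx0 hx1 ht0 ht1
  rw [List.map_map] at this
  refine this.trans_eq ?_
  unfold Gw
  congr 1
  apply List.map_congr_left
  intro f _
  simp only [Function.comp_def, map_ms, map_BP, map_BM, rl_lin3]

/-! ### homogeneity -/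

lemma ms_smul (g : Mon) (c y0 y1 y2 : ℝ) :
    ms g (c * y0) (c * y1) (c * y2) = c ^ ssum g * ms g y0 y1 y2 := by
  unfold ms ssum
  simp only [mul_pow, pow_add]
  ring

lemma lc_smul {D : Dat} (hD : D.ok = true) (c1 : FD → ℤ) (c2 : ℤ × ℤ → ℤ) (c z0 z1 z2 : ℝ) :
    lc D c1 c2 (c * z0) (c * z1) (c * z2) = c ^ (2 * D.r) * lc D c1 c2 z0 z1 z2 := by
  unfold lc
  rw [mul_add, ← List.sum_map_mul_left, ← List.sum_map_mul_left]
  congr 2
  · apply List.map_congr_left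
    intro f hf
    rw [ms_smul, ms_smul, Dat.ok_F hD f hf]
    have : ssum (D.r, 0, 0) = D.r := by simp [ssum]
    rw [this, two_mul, pow_add]
    ring
  · apply List.map_congr_left
    intro e he
    rw [ms_smul, Dat.ok_G hD e he]
    ring

lemma cP_smul (a b e : ℤ) (c ZZ v mP mM qP qM : ℝ) :
    cP a b e (c * ZZ) (c * v) (c * mP) (c * mM) (c * qP) (c * qM) =
      c * cP a b e ZZ v mP mM qP qM := by
  unfold cP; ring

lemma BPM_smul {D : Dat} (hD : D.ok = true) (w : Wt) {f : FD} (hf : f ∈ D.F)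
    (c z0 z1 z2 : ℝ) : BP D w f (c * z0) (c * z1) (c * z2) = c ^ (2 * D.r) * BP D w f z0 z1 z2 ∧
    BM D w f (c * z0) (c * z1) (c * z2) = c ^ (2 * D.r) * BM D w f z0 z1 z2 := by
  unfold BP BM
  have e1 : ssum (D.r, 0, 0) = D.r := by simp [ssum]
  have e2 : ms (D.r, 0, 0) (c * z0) (c * z1) (c * z2) * ms (D.r, 0, 0) (c * z0) (c * z1) (c * z2)
      = c ^ (2 * D.r) * (ms (D.r, 0, 0) z0 z1 z2 * ms (D.r, 0, 0) z0 z1 z2) := by
    rw [ms_smul, e1, two_mul, pow_add]; ring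
  have e3 : ms f.g (c * z0) (c * z1) (c * z2) * ms (D.r, 0, 0) (c * z0) (c * z1) (c * z2)
      = c ^ (2 * D.r) * (ms f.g z0 z1 z2 * ms (D.r, 0, 0) z0 z1 z2) := by
    rw [ms_smul, ms_smul, e1, Dat.ok_F hD f hf, two_mul, pow_add]; ring
  simp only [e2, e3, lc_smul hD, cP_smul]
  exact ⟨trivial, trivial⟩

lemma Gw_smul {D : Dat} (hD : D.ok = true) (w : Wt) (c e y0 y1 y2 z0 z1 z2 : ℝ) :
    Gw D w (c * y0) (c * y1) (c * y2) (e * z0) (e * z1) (e * z2) =
      c ^ D.r * e ^ (2 * D.r) * Gw D w y0 y1 y2 z0 z1 z2 := by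
  unfold Gw
  rw [← List.sum_map_mul_left]
  congr 1
  apply List.map_congr_left
  intro f hf
  rw [ms_smul, (BPM_smul hD w hf e z0 z1 z2).1, (BPM_smul hD w hf e z0 z1 z2).2,
    Dat.ok_F hD f hf]
  ring

lemma continuous_listsum {ι : Type} (L : List ι) (f : ι → ℝ → ℝ) (h : ∀ i ∈ L, Continuous (f i)) :
    Continuous fun x => (L.map fun i => f i x).sum := by
  induction L with
  | nil => simpa using continuous_const
  | cons a l ih =>
    simp only [List.map_cons, List.sum_cons]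
    exact (h a (by simp)).add (ih fun i hi => h i (by simp [hi]))

lemma continuous_ms (g : Mon) {f0 f1 f2 : ℝ → ℝ} (h0 : Continuous f0) (h1 : Continuous f1)
    (h2 : Continuous f2) : Continuous fun x => ms g (f0 x) (f1 x) (f2 x) := by
  unfold ms
  fun_prop

lemma continuous_lc (D : Dat) (c1 : FD → ℤ) (c2 : ℤ × ℤ → ℤ) {f0 f1 f2 : ℝ → ℝ}
    (h0 : Continuous f0) (h1 : Continuous f1) (h2 : Continuous f2) :
    Continuous fun x => lc D c1 c2 (f0 x) (f1 x) (f2 x) := by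
  unfold lc
  refine (continuous_listsum _ _ fun f _ => ?_).add (continuous_listsum _ _ fun e _ => ?_)
  · exact continuous_const.mul ((continuous_ms _ h0 h1 h2).mul (continuous_ms _ h0 h1 h2))
  · exact continuous_const.mul (continuous_const.mul (continuous_ms _ h0 h1 h2))

lemma continuous_cP (a b c : ℤ) {f0 f1 f2 f3 f4 f5 : ℝ → ℝ} (h0 : Continuous f0)
    (h1 : Continuous f1) (h2 : Continuous f2) (h3 : Continuous f3) (h4 : Continuous f4)
    (h5 : Continuous f5) :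
    Continuous fun x => cP a b c (f0 x) (f1 x) (f2 x) (f3 x) (f4 x) (f5 x) := by
  unfold cP
  fun_prop

lemma continuous_Gw (D : Dat) (w : Wt) {f0 f1 f2 g0 g1 g2 : ℝ → ℝ} (h0 : Continuous f0)
    (h1 : Continuous f1) (h2 : Continuous f2) (k0 : Continuous g0)
    (k1 : Continuous g1) (k2 : Continuous g2) :
    Continuous fun x => Gw D w (f0 x) (f1 x) (f2 x) (g0 x) (g1 x) (g2 x) := by
  unfold Gw
  refine continuous_listsum _ _ fun f _ => (continuous_ms _ h0 h1 h2).mul (Continuous.sub ?_ ?_)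
  · unfold BP
    exact continuous_cP _ _ _ ((continuous_ms _ k0 k1 k2).mul (continuous_ms _ k0 k1 k2))
      ((continuous_ms _ k0 k1 k2).mul (continuous_ms _ k0 k1 k2)) (continuous_lc _ _ _ k0 k1 k2)
      (continuous_lc _ _ _ k0 k1 k2) (continuous_lc _ _ _ k0 k1 k2) (continuous_lc _ _ _ k0 k1 k2)
  · unfold BM
    exact continuous_cP _ _ _ ((continuous_ms _ k0 k1 k2).mul (continuous_ms _ k0 k1 k2))
      ((continuous_ms _ k0 k1 k2).mul (continuous_ms _ k0 k1 k2)) (continuous_lc _ _ _ k0 k1 k2)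
      (continuous_lc _ _ _ k0 k1 k2) (continuous_lc _ _ _ k0 k1 k2) (continuous_lc _ _ _ k0 k1 k2)

/-- the point with barycentric-type coordinates `x` in a cell -/
def InC (P : Cell) (y0 y1 y2 : ℝ) : Prop :=
  ∃ x0 x1 x2 : ℝ, 0 ≤ x0 ∧ 0 ≤ x1 ∧ 0 ≤ x2 ∧ y0 = linR (crd0 P) x0 x1 x2 ∧
    y1 = linR (crd1 P) x0 x1 x2 ∧ y2 = linR (crd2 P) x0 x1 x2

lemma linR_smul (a : ℕ × ℕ × ℕ) (c x0 x1 x2 : ℝ) :
    linR a (c * x0) (c * x1) (c * x2) = c * linR a x0 x1 x2 := by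
  unfold linR; ring

lemma continuous_linR (a : ℕ × ℕ × ℕ) (x0 x1 x2 : ℝ) :
    Continuous fun t => linR a x0 x1 (x2 + t) := by
  unfold linR; fun_prop

theorem leaf_hom {D : Dat} (hD : D.ok = true) {P Q : Cell} {s0 s1 bu b : ℕ}
    (h : leafF D P Q s0 s1 bu b = true) {w : Wt} (hw : w ∈ wts s0 s1)
    {y0 y1 y2 z0 z1 z2 : ℝ} (hy : InC P y0 y1 y2) (hz : InC Q z0 z1 z2) :
    0 ≤ Gw D w y0 y1 y2 z0 z1 z2 := by
  obtain ⟨x0, x1, x2, hx0, hx1, hx2, rfl, rfl, rfl⟩ := hy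
  obtain ⟨t0, t1, t2, ht0, ht1, ht2, rfl, rfl, rfl⟩ := hz
  have pos : ∀ x2 t2 : ℝ, 0 < x2 → 0 < t2 →
      0 ≤ Gw D w (linR (crd0 P) x0 x1 x2) (linR (crd1 P) x0 x1 x2) (linR (crd2 P) x0 x1 x2)
        (linR (crd0 Q) t0 t1 t2) (linR (crd1 Q) t0 t1 t2) (linR (crd2 Q) t0 t1 t2) := by
    intro x2 t2 hx ht
    have key : ∀ a : ℕ × ℕ × ℕ, linR a x0 x1 x2 = x2 * linR a (x0 / x2) (x1 / x2) 1 := by
      intro a
      rw [← linR_smul]
      congr 1 <;> field_simp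
    have key' : ∀ a : ℕ × ℕ × ℕ, linR a t0 t1 t2 = t2 * linR a (t0 / t2) (t1 / t2) 1 := by
      intro a
      rw [← linR_smul]
      congr 1 <;> field_simp
    rw [key, key, key, key', key', key', Gw_smul hD]
    exact mul_nonneg (by positivity) (leaf_one hD h hw (div_nonneg hx0 hx.le)
      (div_nonneg hx1 hx.le) (div_nonneg ht0 ht.le) (div_nonneg ht1 ht.le))
  have hc : Continuous fun e : ℝ => Gw D w (linR (crd0 P) x0 x1 (x2 + e))
      (linR (crd1 P) x0 x1 (x2 + e)) (linR (crd2 P) x0 x1 (x2 + e))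
      (linR (crd0 Q) t0 t1 (t2 + e)) (linR (crd1 Q) t0 t1 (t2 + e))
      (linR (crd2 Q) t0 t1 (t2 + e)) :=
    continuous_Gw D w (continuous_linR _ _ _ _) (continuous_linR _ _ _ _)
      (continuous_linR _ _ _ _) (continuous_linR _ _ _ _) (continuous_linR _ _ _ _)
      (continuous_linR _ _ _ _)
  have hcl : IsClosed {e : ℝ | 0 ≤ Gw D w (linR (crd0 P) x0 x1 (x2 + e))
      (linR (crd1 P) x0 x1 (x2 + e)) (linR (crd2 P) x0 x1 (x2 + e))
      (linR (crd0 Q) t0 t1 (t2 + e)) (linR (crd1 Q) t0 t1 (t2 + e))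
      (linR (crd2 Q) t0 t1 (t2 + e))} := isClosed_le continuous_const hc
  have hsub : Set.Ioi (0 : ℝ) ⊆ {e : ℝ | 0 ≤ Gw D w (linR (crd0 P) x0 x1 (x2 + e))
      (linR (crd1 P) x0 x1 (x2 + e)) (linR (crd2 P) x0 x1 (x2 + e))
      (linR (crd0 Q) t0 t1 (t2 + e)) (linR (crd1 Q) t0 t1 (t2 + e))
      (linR (crd2 Q) t0 t1 (t2 + e))} := fun e he =>
    pos _ _ (add_pos_of_nonneg_of_pos hx2 he) (add_pos_of_nonneg_of_pos ht2 he)
  have h0 : (0 : ℝ) ∈ closure (Set.Ioi (0 : ℝ)) := by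
    rw [closure_Ioi]; exact Set.mem_Ici.2 le_rfl
  have := hcl.closure_subset_iff.2 hsub h0
  simpa using this

end Sep2

end Vale.Agent.P154
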