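import Mathlib
import Vale.Agent.P154.PMSound

/-!
# P154: Bernstein combination in the time variable and subdivision trees
-/

namespace Vale.Agent.P154

open MvPolynomial Finset

namespace Sep2

lemma toNat_sub (a : ℤ) : ((a.toNat : ℕ) : ℝ) - (((-a).toNat : ℕ) : ℝ) = (a : ℝ) := by
  have h : a = (a.toNat : ℤ) - ((-a).toNat : ℤ) := by omega
  conv_rhs => rw [h]
  push_cast
  rfl

/-- linear combination (degree two) -/
noncomputable def lcR (D : Dat) (c1 : FD → ℤ) (c2 : ℤ × ℤ → ℤ) (z0 z1 z2 : ℝ) : ℝ :=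
  (D.F.map fun f => (c1 f : ℝ) * (ms f.g z0 z1 z2 * ms (D.r, 0, 0) z0 z1 z2)).sum +
  (D.G.map fun e => (c2 e.2 : ℝ) * (6 * ms e.1 z0 z1 z2)).sum

lemma list_sum_sub {ι : Type} (L : List ι) (f g h : ι → ℝ) (e : ∀ i, f i - g i = h i) :
    (L.map f).sum - (L.map g).sum = (L.map h).sum := by
  induction L with
  | nil => simp
  | cons a l ih =>
    simp only [List.map_cons, List.sum_cons]
    rw [← ih, ← e]; ring

lemma lc_sub (D : Dat) (c1 : FD → ℤ) (c2 : ℤ × ℤ → ℤ) (z0 z1 z2 : ℝ) :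
    lc D c1 c2 z0 z1 z2 - lc D (fun f => -c1 f) (fun e => -c2 e) z0 z1 z2 =
      lcR D c1 c2 z0 z1 z2 := by
  unfold lc lcR
  rw [← list_sum_sub D.F (fun f => ((c1 f).toNat : ℝ) * (ms f.g z0 z1 z2 * ms (D.r, 0, 0) z0 z1 z2))
    (fun f => ((-c1 f).toNat : ℝ) * (ms f.g z0 z1 z2 * ms (D.r, 0, 0) z0 z1 z2))
    (fun f => (c1 f : ℝ) * (ms f.g z0 z1 z2 * ms (D.r, 0, 0) z0 z1 z2)) (fun f => by
      rw [← toNat_sub (c1 f)]; ring),
    ← list_sum_sub D.G (fun e => ((c2 e.2).toNat : ℝ) * (6 * ms e.1 z0 z1 z2))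
    (fun e => ((-c2 e.2).toNat : ℝ) * (6 * ms e.1 z0 z1 z2))
    (fun e => (c2 e.2 : ℝ) * (6 * ms e.1 z0 z1 z2)) (fun f => by
      rw [← toNat_sub (c2 f.2)]; ring)]
  ring

lemma BPM_sub (D : Dat) (w : Wt) (f : FD) (z0 z1 z2 : ℝ) :
    BP D w f z0 z1 z2 - BM D w f z0 z1 z2 =
      (al D f w : ℝ) * (ms (D.r, 0, 0) z0 z1 z2 * ms (D.r, 0, 0) z0 z1 z2 -
        ms f.g z0 z1 z2 * ms (D.r, 0, 0) z0 z1 z2) +
      (be D f w : ℝ) * lcR D (fun f => f.mc) (fun e => e.1) z0 z1 z2 +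
      (ka D f w : ℝ) * lcR D (fun f => f.qc) (fun e => e.2) z0 z1 z2 := by
  unfold BP BM cP
  rw [← lc_sub, ← lc_sub, ← toNat_sub (al D f w), ← toNat_sub (be D f w),
    ← toNat_sub (ka D f w)]
  simp only [neg_neg]
  ring

/-- the pair expression at time `s` -/
noncomputable def GR (D : Dat) (s y0 y1 y2 z0 z1 z2 : ℝ) : ℝ :=
  (D.F.map fun f => ms f.g y0 y1 y2 *
    ((D.c0 : ℝ) * ((f.a0 : ℝ) + f.a1 * s + f.a2 * s ^ 2 + f.a3 * s ^ 3) *
      (ms (D.r, 0, 0) z0 z1 z2 * ms (D.r, 0, 0) z0 z1 z2 -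
        ms f.g z0 z1 z2 * ms (D.r, 0, 0) z0 z1 z2) +
    (D.c1 : ℝ) * ((f.a1 : ℝ) + 2 * f.a2 * s + 3 * f.a3 * s ^ 2) *
      lcR D (fun f => f.mc) (fun e => e.1) z0 z1 z2 +
    (D.c2 : ℝ) * ((f.a2 : ℝ) + 3 * f.a3 * s) *
      lcR D (fun f => f.qc) (fun e => e.2) z0 z1 z2)).sum

lemma list_bern {ι : Type} (L : List ι) (g g1 g2 g3 g4 : ι → ℝ) (c a1 a2 a3 a4 : ℝ)
    (h : ∀ i, c * g i = a1 * g1 i + a2 * g2 i + a3 * g3 i + a4 * g4 i) :
    c * (L.map g).sum = a1 * (L.map g1).sum + a2 * (L.map g2).sum + a3 * (L.map g3).sum +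
      a4 * (L.map g4).sum := by
  induction L with
  | nil => simp
  | cons a l ih =>
    simp only [List.map_cons, List.sum_cons]
    have := h a
    linear_combination this + ih

lemma bern (D : Dat) (s0 s1 : ℕ) (s y0 y1 y2 z0 z1 z2 : ℝ) :
    ((s1 : ℝ) - s0) ^ 3 * GR D s y0 y1 y2 z0 z1 z2 =
      ((s1 : ℝ) - s) ^ 3 * Gw D (1, s0, s0 ^ 2, s0 ^ 3) y0 y1 y2 z0 z1 z2 +
      ((s1 : ℝ) - s) ^ 2 * (s - s0) *
        Gw D (3, 2 * s0 + s1, s0 ^ 2 + 2 * s0 * s1, 3 * s0 ^ 2 * s1) y0 y1 y2 z0 z1 z2 +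
      ((s1 : ℝ) - s) * (s - s0) ^ 2 *
        Gw D (3, s0 + 2 * s1, 2 * s0 * s1 + s1 ^ 2, 3 * s0 * s1 ^ 2) y0 y1 y2 z0 z1 z2 +
      (s - s0) ^ 3 * Gw D (1, s1, s1 ^ 2, s1 ^ 3) y0 y1 y2 z0 z1 z2 := by
  unfold GR Gw
  apply list_bern
  intro f
  rw [BPM_sub, BPM_sub, BPM_sub, BPM_sub]
  unfold al be ka
  push_cast
  ring

lemma GR_self (D : Dat) (s0 : ℕ) (y0 y1 y2 z0 z1 z2 : ℝ) :
    GR D s0 y0 y1 y2 z0 z1 z2 = Gw D (1, s0, s0 ^ 2, s0 ^ 3) y0 y1 y2 z0 z1 z2 := by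
  unfold GR Gw
  congr 1
  apply List.map_congr_left
  intro f _
  rw [BPM_sub]
  unfold al be ka
  push_cast
  ring

/-- nonnegativity on a pair of cells and a time interval -/
def Pos (D : Dat) (P Q : Cell) (s0 s1 : ℕ) : Prop :=
  ∀ s y0 y1 y2 z0 z1 z2 : ℝ, (s0 : ℝ) ≤ s → s ≤ s1 → InC P y0 y1 y2 → InC Q z0 z1 z2 →
    0 ≤ GR D s y0 y1 y2 z0 z1 z2

theorem leaf_pos {D : Dat} (hD : D.ok = true) {P Q : Cell} {s0 s1 bu b : ℕ}
    (h : leafF D P Q s0 s1 bu b = true) : Pos D P Q s0 s1 := by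
  intro s y0 y1 y2 z0 z1 z2 h0 h1 hy hz
  rcases (h0.trans h1).lt_or_eq with hlt | heq
  · have e := bern D s0 s1 s y0 y1 y2 z0 z1 z2
    have hw : ∀ w ∈ wts s0 s1, 0 ≤ Gw D w y0 y1 y2 z0 z1 z2 := fun w hw =>
      leaf_hom hD h hw hy hz
    have g1 := hw (1, s0, s0 ^ 2, s0 ^ 3) (by simp [wts])
    have g2 := hw (3, 2 * s0 + s1, s0 ^ 2 + 2 * s0 * s1, 3 * s0 ^ 2 * s1) (by simp [wts])
    have g3 := hw (3, s0 + 2 * s1, 2 * s0 * s1 + s1 ^ 2, 3 * s0 * s1 ^ 2) (by simp [wts])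
    have g4 := hw (1, s1, s1 ^ 2, s1 ^ 3) (by simp [wts])
    have hp : (0 : ℝ) < ((s1 : ℝ) - s0) ^ 3 := pow_pos (sub_pos.2 hlt) 3
    have hn : 0 ≤ ((s1 : ℝ) - s0) ^ 3 * GR D s y0 y1 y2 z0 z1 z2 := by
      rw [e]
      have u1 : 0 ≤ (s1 : ℝ) - s := sub_nonneg.2 h1
      have u0 : 0 ≤ s - (s0 : ℝ) := sub_nonneg.2 h0
      positivity
    exact (mul_nonneg_iff_of_pos_left hp).1 hn
  · have : s = s0 := le_antisymm (by rw [heq]; exact h1) h0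
    subst this
    rw [GR_self]
    exact leaf_hom hD h (by simp [wts]) hy hz

/-! ### trees -/

def rot (k : ℕ) (P : Cell) : Cell :=
  match k with
  | 0 => P
  | 1 => (P.2.1, P.2.2, P.1)
  | _ => (P.2.2, P.1, P.2.1)

/-- `d * p = a * g + b * h` -/
def comb (a b d : ℕ) (p g h : Mon) : Bool :=
  Nat.blt 0 a && (Nat.blt 0 b && (Nat.blt 0 d &&
    (Nat.beq (Nat.mul d p.1) (Nat.add (Nat.mul a g.1) (Nat.mul b h.1)) &&
    (Nat.beq (Nat.mul d p.2.1) (Nat.add (Nat.mul a g.2.1) (Nat.mul b h.2.1)) &&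
    Nat.beq (Nat.mul d p.2.2) (Nat.add (Nat.mul a g.2.2) (Nat.mul b h.2.2))))))

inductive Tree
  | ext : Tree
  | leaf : ℕ → ℕ → Tree
  | spU : ℕ → ℕ → ℕ → ℕ → Mon → Tree → Tree → Tree
  | spV : ℕ → ℕ → ℕ → ℕ → Mon → Tree → Tree → Tree
  | spS : ℕ → Tree → Tree → Tree

def monEq (a b : Mon) : Bool := Nat.beq a.1 b.1 && (Nat.beq a.2.1 b.2.1 && Nat.beq a.2.2 b.2.2)
def cellEq (a b : Cell) : Bool := monEq a.1 b.1 && (monEq a.2.1 b.2.1 && monEq a.2.2 b.2.2)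

lemma monEq_eq {a b : Mon} (h : monEq a b = true) : a = b := by
  simp only [monEq, Bool.and_eq_true] at h
  obtain ⟨h1, h2, h3⟩ := h
  exact Prod.ext (Nat.eq_of_beq_eq_true h1)
    (Prod.ext (Nat.eq_of_beq_eq_true h2) (Nat.eq_of_beq_eq_true h3))

lemma cellEq_eq {a b : Cell} (h : cellEq a b = true) : a = b := by
  simp only [cellEq, Bool.and_eq_true] at h
  obtain ⟨h1, h2, h3⟩ := h
  exact Prod.ext (monEq_eq h1) (Prod.ext (monEq_eq h2) (monEq_eq h3))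

noncomputable def chkT (D : Dat) (K : List (Cell × Cell × ℕ × ℕ)) : Tree → Cell → Cell → ℕ → ℕ → Bool
  | .ext, P, Q, s0, s1 => K.any fun c => cellEq c.1 P && (cellEq c.2.1 Q &&
      (Nat.beq c.2.2.1 s0 && Nat.beq c.2.2.2 s1))
  | .leaf bu b, P, Q, s0, s1 => leafF D P Q s0 s1 bu b
  | .spU k a b d p l r, P, Q, s0, s1 =>
      comb a b d p (rot k P).1 (rot k P).2.1 &&
        (chkT D K l (p, (rot k P).2.1, (rot k P).2.2) Q s0 s1 &&
          chkT D K r ((rot k P).1, p, (rot k P).2.2) Q s0 s1)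
  | .spV k a b d p l r, P, Q, s0, s1 =>
      comb a b d p (rot k Q).1 (rot k Q).2.1 &&
        (chkT D K l P (p, (rot k Q).2.1, (rot k Q).2.2) s0 s1 &&
          chkT D K r P ((rot k Q).1, p, (rot k Q).2.2) s0 s1)
  | .spS m l r, P, Q, s0, s1 => chkT D K l P Q s0 m && chkT D K r P Q m s1

lemma rot_inC {P : Cell} {y0 y1 y2 : ℝ} (h : InC P y0 y1 y2) (k : ℕ) : InC (rot k P) y0 y1 y2 := by
  obtain ⟨x0, x1, x2, h0, h1, h2, e0, e1, e2⟩ := h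
  match k with
  | 0 => exact ⟨x0, x1, x2, h0, h1, h2, e0, e1, e2⟩
  | 1 =>
    refine ⟨x1, x2, x0, h1, h2, h0, ?_, ?_, ?_⟩
    · rw [e0]; simp only [linR, crd0, rot]; ring
    · rw [e1]; simp only [linR, crd1, rot]; ring
    · rw [e2]; simp only [linR, crd2, rot]; ring
  | n + 2 =>
    refine ⟨x2, x0, x1, h2, h0, h1, ?_, ?_, ?_⟩
    · rw [e0]; simp only [linR, crd0, rot]; ring
    · rw [e1]; simp only [linR, crd1, rot]; ring
    · rw [e2]; simp only [linR, crd2, rot]; ring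

lemma comb_split {a b d : ℕ} {p : Mon} {P : Cell} (h : comb a b d p P.1 P.2.1 = true)
    {y0 y1 y2 : ℝ} (hy : InC P y0 y1 y2) :
    InC (p, P.2.1, P.2.2) y0 y1 y2 ∨ InC (P.1, p, P.2.2) y0 y1 y2 := by
  simp only [comb, Bool.and_eq_true, Nat.blt_eq] at h
  obtain ⟨ha, hb, hd, h1, h2, h3⟩ := h
  have e1 : d * p.1 = a * P.1.1 + b * P.2.1.1 := Nat.eq_of_beq_eq_true h1
  have e2 : d * p.2.1 = a * P.1.2.1 + b * P.2.1.2.1 := Nat.eq_of_beq_eq_true h2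
  have e3 : d * p.2.2 = a * P.1.2.2 + b * P.2.1.2.2 := Nat.eq_of_beq_eq_true h3
  have ha' : (0 : ℝ) < a := by exact_mod_cast ha
  have hb' : (0 : ℝ) < b := by exact_mod_cast hb
  have hd' : (0 : ℝ) < d := by exact_mod_cast hd
  have f1 : (d : ℝ) * p.1 = a * P.1.1 + b * P.2.1.1 := by exact_mod_cast e1
  have f2 : (d : ℝ) * p.2.1 = a * P.1.2.1 + b * P.2.1.2.1 := by exact_mod_cast e2
  have f3 : (d : ℝ) * p.2.2 = a * P.1.2.2 + b * P.2.1.2.2 := by exact_mod_cast e3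
  obtain ⟨x0, x1, x2, h0, h1, h2, rfl, rfl, rfl⟩ := hy
  simp only [linR, crd0, crd1, crd2]
  rcases le_total (x1 * a) (x0 * b) with hc | hc
  · -- x0/a ≥ x1/b : replace the second generator
    right
    refine ⟨x0 - x1 * a / b, x1 * d / b, x2, ?_, by positivity, h2, ?_, ?_, ?_⟩
    · rw [sub_nonneg, div_le_iff₀ hb']; exact hc
    · simp only [linR, crd0]
      field_simp
      linear_combination (-x1) * f1
    · simp only [linR, crd1]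
      field_simp
      linear_combination (-x1) * f2
    · simp only [linR, crd2]
      field_simp
      linear_combination (-x1) * f3
  · left
    refine ⟨x0 * d / a, x1 - x0 * b / a, x2, by positivity, ?_, h2, ?_, ?_, ?_⟩
    · rw [sub_nonneg, div_le_iff₀ ha']; exact hc
    · simp only [linR, crd0]
      field_simp
      linear_combination (-x0) * f1
    · simp only [linR, crd1]
      field_simp
      linear_combination (-x0) * f2
    · simp only [linR, crd2]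
      field_simp
      linear_combination (-x0) * f3

theorem chkT_sound {D : Dat} (hD : D.ok = true) {K : List (Cell × Cell × ℕ × ℕ)}
    (hK : ∀ c ∈ K, Pos D c.1 c.2.1 c.2.2.1 c.2.2.2) :
    ∀ (t : Tree) (P Q : Cell) (s0 s1 : ℕ), chkT D K t P Q s0 s1 = true → Pos D P Q s0 s1 := by
  intro t
  induction t with
  | ext =>
    intro P Q s0 s1 h
    simp only [chkT, List.any_eq_true, Bool.and_eq_true] at h
    obtain ⟨c, hc, h1, h2, h3, h4⟩ := h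
    have := hK c hc
    rw [cellEq_eq h1, cellEq_eq h2, Nat.eq_of_beq_eq_true h3, Nat.eq_of_beq_eq_true h4] at this
    exact this
  | leaf bu b =>
    intro P Q s0 s1 h
    exact leaf_pos hD h
  | spU k a b d p l r ihl ihr =>
    intro P Q s0 s1 h
    simp only [chkT, Bool.and_eq_true] at h
    obtain ⟨h1, h2, h3⟩ := h
    intro s y0 y1 y2 z0 z1 z2 hs0 hs1 hy hz
    rcases comb_split h1 (rot_inC hy k) with h4 | h4
    · exact ihl _ _ _ _ h2 s y0 y1 y2 z0 z1 z2 hs0 hs1 h4 hz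
    · exact ihr _ _ _ _ h3 s y0 y1 y2 z0 z1 z2 hs0 hs1 h4 hz
  | spV k a b d p l r ihl ihr =>
    intro P Q s0 s1 h
    simp only [chkT, Bool.and_eq_true] at h
    obtain ⟨h1, h2, h3⟩ := h
    intro s y0 y1 y2 z0 z1 z2 hs0 hs1 hy hz
    rcases comb_split h1 (rot_inC hz k) with h4 | h4
    · exact ihl _ _ _ _ h2 s y0 y1 y2 z0 z1 z2 hs0 hs1 hy h4
    · exact ihr _ _ _ _ h3 s y0 y1 y2 z0 z1 z2 hs0 hs1 hy h4
  | spS m l r ihl ihr =>
    intro P Q s0 s1 h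
    simp only [chkT, Bool.and_eq_true] at h
    obtain ⟨h2, h3⟩ := h
    intro s y0 y1 y2 z0 z1 z2 hs0 hs1 hy hz
    rcases le_total s m with h4 | h4
    · exact ihl _ _ _ _ h2 s y0 y1 y2 z0 z1 z2 hs0 h4 hy hz
    · exact ihr _ _ _ _ h3 s y0 y1 y2 z0 z1 z2 h4 hs1 hy hz

end Sep2

end Vale.Agent.P154
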