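import Mathlib
import Vale.Agent.P154.PMTree

/-!
# P154: kernel-checkable nonnegativity of one-vector forms on cells
-/

namespace Vale.Agent.P154

open MvPolynomial Finset

namespace Sep2

/-- powers of a pair, forced -/
noncomputable def powF (a1 a2 : ℕ) (n : ℕ) (k : ℕ → ℕ → Bool) : Bool :=
  Nat.rec (motive := fun _ => Bool) (fc (Nat.pow a1 n) fun p => k p 0)
    (fun _ _ => Nat.rec (motive := fun _ => (ℕ → ℕ → Bool) → Bool) (fun k => k 1 0)
      (fun _ ih k => ih fun p m => fc (Nat.add (Nat.mul p a1) (Nat.mul m a2)) fun p' =>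
        fc (Nat.add (Nat.mul p a2) (Nat.mul m a1)) fun m' => k p' m') n k) a2

lemma powF_eq (a1 a2 n : ℕ) (k : ℕ → ℕ → Bool) :
    powF a1 a2 n k = k (PExp.ppow (a1, a2) n).1 (PExp.ppow (a1, a2) n).2 := by
  cases a2 with
  | zero =>
    have h : ∀ n, PExp.ppow (a1, 0) n = (a1 ^ n, 0) := by
      intro n
      induction n with
      | zero => simp [PExp.ppow]
      | succ n ih => simp [PExp.ppow, PExp.pmul, ih, pow_succ]
    have : powF a1 0 n k = fc (Nat.pow a1 n) fun p => k p 0 := rfl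
    rw [this, fc_eq, h]
    rfl
  | succ a2 =>
    have h : ∀ (n : ℕ) (k : ℕ → ℕ → Bool), Nat.rec (motive := fun _ => (ℕ → ℕ → Bool) → Bool)
        (fun k => k 1 0)
        (fun _ ih k => ih fun p m => fc (Nat.add (Nat.mul p a1) (Nat.mul m (a2 + 1))) fun p' =>
        fc (Nat.add (Nat.mul p (a2 + 1)) (Nat.mul m a1)) fun m' => k p' m') n k =
        k (PExp.ppow (a1, a2 + 1) n).1 (PExp.ppow (a1, a2 + 1) n).2 := by
      intro n
      induction n with
      | zero => intro k; rfl
      | succ n ih =>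
        intro k
        simp only
        rw [ih]
        simp only [fc_eq, PExp.ppow, PExp.pmul]
        rfl
    exact h n k

/-- evaluation of an expression as a pair, forced -/
noncomputable def prF (x : ℕ → ℕ) : PExp → (ℕ → ℕ → Bool) → Bool
  | .k z, k => k z.toNat (-z).toNat
  | .v i, k => k (x i) 0
  | .add a b, k => prF x a fun a1 a2 => prF x b fun b1 b2 =>
      fc (Nat.add a1 b1) fun p => fc (Nat.add a2 b2) fun m => k p m
  | .sub a b, k => prF x a fun a1 a2 => prF x b fun b1 b2 =>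
      fc (Nat.add a1 b2) fun p => fc (Nat.add a2 b1) fun m => k p m
  | .mul a b, k => prF x a fun a1 a2 => prF x b fun b1 b2 =>
      fc (Nat.add (Nat.mul a1 b1) (Nat.mul a2 b2)) fun p =>
      fc (Nat.add (Nat.mul a1 b2) (Nat.mul a2 b1)) fun m => k p m
  | .pow a n, k => prF x a fun a1 a2 => powF a1 a2 n k

lemma prF_eq (x : ℕ → ℕ) (e : PExp) (k : ℕ → ℕ → Bool) :
    prF x e k = k (PExp.pr x e).1 (PExp.pr x e).2 := by
  induction e generalizing k with
  | k z => simp [prF, PExp.pr]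
  | v i => simp [prF, PExp.pr]
  | add a b iha ihb => simp only [prF, iha, ihb, fc_eq, PExp.pr]; rfl
  | sub a b iha ihb => simp only [prF, iha, ihb, fc_eq, PExp.pr]; rfl
  | mul a b iha ihb => simp only [prF, iha, ihb, fc_eq, PExp.pr, PExp.pmul]; rfl
  | pow a n ih => simp only [prF, ih, powF_eq, PExp.pr]

/-- syntactic homogeneity of degree `n` -/
def hom : ℕ → PExp → Bool
  | n, .k _ => Nat.beq n 0
  | n, .v _ => Nat.beq n 1
  | n, .add a b => hom n a && hom n b
  | n, .sub a b => hom n a && hom n b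
  | n, .mul a b => Nat.ble (hd a) n && (hom (hd a) a && hom (n - hd a) b)
  | n, .pow a m => Nat.beq n (hd a * m) && hom (hd a) a
where
  /-- the degree, if homogeneous -/
  hd : PExp → ℕ
  | .k _ => 0
  | .v _ => 1
  | .add a _ => hd a
  | .sub a _ => hd a
  | .mul a b => hd a + hd b
  | .pow a m => hd a * m

lemma hom_ev {n : ℕ} {e : PExp} (h : hom n e = true) (c : ℝ) (x : ℕ → ℝ) :
    PExp.ev (fun i => c * x i) e = c ^ n * PExp.ev x e := by
  induction e generalizing n with
  | k z =>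
    simp only [hom] at h
    rw [Nat.eq_of_beq_eq_true h]
    simp [PExp.ev]
  | v i =>
    simp only [hom] at h
    rw [Nat.eq_of_beq_eq_true h]
    simp [PExp.ev]
  | add a b iha ihb =>
    simp only [hom, Bool.and_eq_true] at h
    simp only [PExp.ev, iha h.1, ihb h.2]; ring
  | sub a b iha ihb =>
    simp only [hom, Bool.and_eq_true] at h
    simp only [PExp.ev, iha h.1, ihb h.2]; ring
  | mul a b iha ihb =>
    simp only [hom, Bool.and_eq_true] at h
    obtain ⟨h1, h2, h3⟩ := h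
    have hle : hom.hd a ≤ n := Nat.le_of_ble_eq_true h1
    simp only [PExp.ev, iha h2, ihb h3]
    conv_rhs => rw [← Nat.add_sub_cancel' hle, pow_add]
    ring
  | pow a m ih =>
    simp only [hom, Bool.and_eq_true] at h
    rw [Nat.eq_of_beq_eq_true h.1]
    simp only [PExp.ev, ih h.2]
    rw [mul_pow, ← pow_mul]

lemma ppow_BD {n : ℕ} {a : PExp.MP × PExp.MP} (h : BD n a.1 ∧ BD n a.2) (m : ℕ) :
    BD (n * m) (PExp.ppow a m).1 ∧ BD (n * m) (PExp.ppow a m).2 := by
  induction m with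
  | zero =>
    simp only [PExp.ppow, Nat.mul_zero]
    refine ⟨?_, BD.zero⟩
    have := BD.natCast (n := 0) 1
    rwa [Nat.cast_one] at this
  | succ m ih =>
    simp only [PExp.ppow, PExp.pmul]
    rw [Nat.mul_succ]
    exact ⟨(ih.1.mul h.1).add (ih.2.mul h.2), (ih.1.mul h.2).add (ih.2.mul h.1)⟩

lemma hom_BD {n : ℕ} {e : PExp} (h : hom n e = true) (x : ℕ → PExp.MP) (hx : ∀ i, BD 1 (x i)) :
    BD n (PExp.pr x e).1 ∧ BD n (PExp.pr x e).2 := by
  induction e generalizing n with
  | k z => exact ⟨BD.natCast _, BD.natCast _⟩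
  | v i =>
    simp only [hom] at h
    rw [Nat.eq_of_beq_eq_true h]
    exact ⟨hx i, BD.zero⟩
  | add a b iha ihb =>
    simp only [hom, Bool.and_eq_true] at h
    exact ⟨(iha h.1).1.add (ihb h.2).1, (iha h.1).2.add (ihb h.2).2⟩
  | sub a b iha ihb =>
    simp only [hom, Bool.and_eq_true] at h
    exact ⟨(iha h.1).1.add (ihb h.2).2, (iha h.1).2.add (ihb h.2).1⟩
  | mul a b iha ihb =>
    simp only [hom, Bool.and_eq_true] at h
    obtain ⟨h1, h2, h3⟩ := h
    have hle : hom.hd a ≤ n := Nat.le_of_ble_eq_true h1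
    have ha := iha h2
    have hb := ihb h3
    have key : BD (hom.hd a + (n - hom.hd a)) (PExp.pr x (.mul a b)).1 ∧
        BD (hom.hd a + (n - hom.hd a)) (PExp.pr x (.mul a b)).2 :=
      ⟨(ha.1.mul hb.1).add (ha.2.mul hb.2), (ha.1.mul hb.2).add (ha.2.mul hb.1)⟩
    rwa [Nat.add_sub_cancel' hle] at key
  | pow a m ih =>
    simp only [hom, Bool.and_eq_true] at h
    rw [Nat.eq_of_beq_eq_true h.1]
    exact ppow_BD (ih h.2) m

/-- three coordinates as a sequence -/
def vec {R : Type*} [Zero R] (a b c : R) (i : ℕ) : R :=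
  if i = 0 then a else if i = 1 then b else if i = 2 then c else 0

def vecN (a b c i : ℕ) : ℕ := cond (Nat.beq i 0) a (cond (Nat.beq i 1) b (cond (Nat.beq i 2) c 0))

lemma vecN_eq (a b c : ℕ) : vecN a b c = vec a b c := by
  funext i
  unfold vecN vec
  by_cases h0 : i = 0
  · subst h0; rfl
  by_cases h1 : i = 1
  · subst h1; rfl
  by_cases h2 : i = 2
  · subst h2; rfl
  have e0 : Nat.beq i 0 = false := by
    rw [Bool.eq_false_iff]; intro h; exact h0 (Nat.eq_of_beq_eq_true h)
  have e1 : Nat.beq i 1 = false := by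
    rw [Bool.eq_false_iff]; intro h; exact h1 (Nat.eq_of_beq_eq_true h)
  have e2 : Nat.beq i 2 = false := by
    rw [Bool.eq_false_iff]; intro h; exact h2 (Nat.eq_of_beq_eq_true h)
  rw [e0, e1, e2, if_neg h0, if_neg h1, if_neg h2]
  rfl

/-- the one-vector leaf test -/
noncomputable def oneF (e : PExp) (n : ℕ) (P : Cell) (b : ℕ) : Bool :=
  Nat.blt 0 b && (
  (prF (vecN (ones (crd0 P)) (ones (crd1 P)) (ones (crd2 P))) e fun p m =>
    Nat.blt p (2 ^ (b - 1)) && Nat.blt m (2 ^ (b - 1))) &&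
  fc (pkN b (n + 1) (crd0 P)) fun y0 => fc (pkN b (n + 1) (crd1 P)) fun y1 =>
  fc (pkN b (n + 1) (crd2 P)) fun y2 => fc (mask b ((n + 1) ^ 2)) fun G =>
  prF (vecN y0 y1 y2) e fun p m => Nat.beq (Nat.land (Nat.sub (Nat.add p G) m) G) G)

theorem one_leaf {e : PExp} {n : ℕ} {P : Cell} {b : ℕ} (hh : hom n e = true)
    (h : oneF e n P b = true) {x0 x1 : ℝ} (hx0 : 0 ≤ x0) (hx1 : 0 ≤ x1) :
    0 ≤ PExp.ev (vec (linR (crd0 P) x0 x1 1) (linR (crd1 P) x0 x1 1) (linR (crd2 P) x0 x1 1)) e := by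
  unfold oneF at h
  simp only [fc_eq, prF_eq, Bool.and_eq_true, Nat.blt_eq, vecN_eq] at h
  obtain ⟨hb, ⟨hp, hm⟩, hl⟩ := h
  have hl := Nat.eq_of_beq_eq_true hl
  set lv : ℕ → PExp.MP := vec (lin3 (crd0 P)) (lin3 (crd1 P)) (lin3 (crd2 P)) with hlv
  have hlv1 : ∀ i, BD 1 (lv i) := by
    intro i
    rw [hlv]; unfold vec
    split_ifs
    · exact BD.lin3 _
    · exact BD.lin3 _
    · exact BD.lin3 _
    · exact BD.zero
  have hBD := hom_BD hh lv hlv1
  have mp : ∀ {S : Type} [CommSemiring S] (φ : PExp.MP →+* S) ,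
      PExp.pr (vec (φ (lin3 (crd0 P))) (φ (lin3 (crd1 P))) (φ (lin3 (crd2 P)))) e =
        (φ (PExp.pr lv e).1, φ (PExp.pr lv e).2) := by
    intro S _ φ
    rw [← PExp.pr_map]
    congr 1
    funext i
    rw [hlv]; unfold vec
    split_ifs <;> simp
  have h1 := mp on
  have h2 := mp (pk b (n + 1))
  have h3 := mp (rl x0 x1)
  simp only [on_lin3] at h1
  simp only [pk_lin3] at h2
  simp only [rl_lin3] at h3
  rw [h1] at hp hm
  rw [h2] at hl
  have one1 : BD 0 (1 : PExp.MP) := by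
    have := BD.natCast (n := 0) 1
    rwa [Nat.cast_one] at this
  have key := sep_sound (bu := 1) (n := 0) (b := b) (m := n)
    (L := [((1 : PExp.MP), (PExp.pr lv e).1, (PExp.pr lv e).2)])
    (by intro t ht; rw [List.mem_singleton.1 ht]; exact one1)
    (by intro t ht; rw [List.mem_singleton.1 ht]; exact hBD.1)
    (by intro t ht; rw [List.mem_singleton.1 ht]; exact hBD.2)
    hb
    (by intro t ht; rw [List.mem_singleton.1 ht]; simp)
    (by simpa using hp)
    (by simpa using hm)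
    (by
      intro k hk
      have hk0 : k = 0 := by simpa using hk
      subst hk0
      right
      simpa [dig] using hl)
    hx0 hx1 hx0 hx1
  simp only [List.map_cons, List.map_nil, List.sum_cons, List.sum_nil, map_one, one_mul,
    add_zero] at key
  rw [PExp.ev_eq]
  have h3' : PExp.pr (vec (linR (crd0 P) x0 x1 1) (linR (crd1 P) x0 x1 1) (linR (crd2 P) x0 x1 1)) e
      = (rl x0 x1 (PExp.pr lv e).1, rl x0 x1 (PExp.pr lv e).2) := h3
  rw [h3']
  exact key

lemma continuous_ev (e : PExp) {f : ℝ → ℕ → ℝ} (h : ∀ i, Continuous fun x => f x i) :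
    Continuous fun x => PExp.ev (f x) e := by
  induction e with
  | k z => exact continuous_const
  | v i => exact h i
  | add a b iha ihb => exact iha.add ihb
  | sub a b iha ihb => exact iha.sub ihb
  | mul a b iha ihb => exact iha.mul ihb
  | pow a n ih => exact ih.pow n

lemma vec_smul (c a0 a1 a2 : ℝ) :
    vec (c * a0) (c * a1) (c * a2) = fun i => c * vec a0 a1 a2 i := by
  funext i; unfold vec; split_ifs <;> simp

theorem one_hom {e : PExp} {n : ℕ} {P : Cell} {b : ℕ} (hh : hom n e = true)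
    (h : oneF e n P b = true) {y0 y1 y2 : ℝ} (hy : InC P y0 y1 y2) :
    0 ≤ PExp.ev (vec y0 y1 y2) e := by
  obtain ⟨x0, x1, x2, hx0, hx1, hx2, rfl, rfl, rfl⟩ := hy
  have pos : ∀ x2 : ℝ, 0 < x2 → 0 ≤ PExp.ev (vec (linR (crd0 P) x0 x1 x2)
      (linR (crd1 P) x0 x1 x2) (linR (crd2 P) x0 x1 x2)) e := by
    intro x2 hx
    have key : ∀ a : ℕ × ℕ × ℕ, linR a x0 x1 x2 = x2 * linR a (x0 / x2) (x1 / x2) 1 := by
      intro a
      rw [← linR_smul]
      congr 1 <;> field_simp
    rw [key, key, key, vec_smul, hom_ev hh]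
    exact mul_nonneg (by positivity) (one_leaf hh h (div_nonneg hx0 hx.le) (div_nonneg hx1 hx.le))
  have hc : Continuous fun t : ℝ => PExp.ev (vec (linR (crd0 P) x0 x1 (x2 + t))
      (linR (crd1 P) x0 x1 (x2 + t)) (linR (crd2 P) x0 x1 (x2 + t))) e := by
    apply continuous_ev
    intro i
    unfold vec
    split_ifs
    · exact continuous_linR _ _ _ _
    · exact continuous_linR _ _ _ _
    · exact continuous_linR _ _ _ _
    · exact continuous_const
  have hcl : IsClosed {t : ℝ | 0 ≤ PExp.ev (vec (linR (crd0 P) x0 x1 (x2 + t))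
      (linR (crd1 P) x0 x1 (x2 + t)) (linR (crd2 P) x0 x1 (x2 + t))) e} :=
    isClosed_le continuous_const hc
  have hsub : Set.Ioi (0 : ℝ) ⊆ {t : ℝ | 0 ≤ PExp.ev (vec (linR (crd0 P) x0 x1 (x2 + t))
      (linR (crd1 P) x0 x1 (x2 + t)) (linR (crd2 P) x0 x1 (x2 + t))) e} := fun t ht =>
    pos _ (add_pos_of_nonneg_of_pos hx2 ht)
  have h0 : (0 : ℝ) ∈ closure (Set.Ioi (0 : ℝ)) := by
    rw [closure_Ioi]; exact Set.mem_Ici.2 le_rfl
  have := hcl.closure_subset_iff.2 hsub h0
  simpa using this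

/-- subdivision trees for one vector -/
noncomputable def chk1 (e : PExp) (n : ℕ) : Tree → Cell → Bool
  | .ext, _ => false
  | .leaf _ b, P => oneF e n P b
  | .spU k a b d p l r, P =>
      comb a b d p (rot k P).1 (rot k P).2.1 &&
        (chk1 e n l (p, (rot k P).2.1, (rot k P).2.2) &&
          chk1 e n r ((rot k P).1, p, (rot k P).2.2))
  | .spV _ _ _ _ _ _ _, _ => false
  | .spS _ _ _, _ => false

theorem chk1_sound {e : PExp} {n : ℕ} (hh : hom n e = true) :
    ∀ (t : Tree) (P : Cell), chk1 e n t P = true → ∀ y0 y1 y2 : ℝ, InC P y0 y1 y2 →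
      0 ≤ PExp.ev (vec y0 y1 y2) e := by
  intro t
  induction t with
  | ext => intro P h; simp [chk1] at h
  | leaf bu b => intro P h y0 y1 y2 hy; exact one_hom hh h hy
  | spU k a b d p l r ihl ihr =>
    intro P h y0 y1 y2 hy
    simp only [chk1, Bool.and_eq_true] at h
    obtain ⟨h1, h2, h3⟩ := h
    rcases comb_split h1 (rot_inC hy k) with h4 | h4
    · exact ihl _ h2 y0 y1 y2 h4
    · exact ihr _ h3 y0 y1 y2 h4
  | spV k a b d p l r ihl ihr => intro P h; simp [chk1] at h
  | spS m l r ihl ihr => intro P h; simp [chk1] at h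

end Sep2

end Vale.Agent.P154
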