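import Mathlib
import Vale.Agent.P154.PMTree
import Vale.Agent.P154.HJ

/-!
# P154: functionals given by symmetrised monomials in the roots
-/

namespace Vale.Agent.P154

open Finset

namespace Sep2

/-- root -/
noncomputable def rt (r : ℕ) (x : ℝ) : ℝ := x ^ ((r : ℝ)⁻¹)

lemma rt_nonneg (r : ℕ) {x : ℝ} (hx : 0 ≤ x) : 0 ≤ rt r x := Real.rpow_nonneg hx _

lemma rt_pow {r : ℕ} (hr : r ≠ 0) {x : ℝ} (hx : 0 ≤ x) : rt r x ^ r = x :=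
  Real.rpow_inv_natCast_pow hx hr

lemma rt_mul (r : ℕ) {x y : ℝ} (hx : 0 ≤ x) (hy : 0 ≤ y) : rt r (x * y) = rt r x * rt r y :=
  Real.mul_rpow hx hy

lemma rt_one (r : ℕ) : rt r 1 = 1 := Real.one_rpow _

lemma rt_mono (r : ℕ) {x y : ℝ} (hx : 0 ≤ x) (h : x ≤ y) : rt r x ≤ rt r y :=
  Real.rpow_le_rpow hx h (by positivity)

/-- normalised symmetrised monomial in the roots -/
noncomputable def MM (r : ℕ) (g : Mon) (u : Fin 3 → ℝ) : ℝ :=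
  ms g (rt r (u 0)) (rt r (u 1)) (rt r (u 2)) / 6

lemma ms_r (r : ℕ) (y0 y1 y2 : ℝ) : ms (r, 0, 0) y0 y1 y2 = 2 * (y0 ^ r + y1 ^ r + y2 ^ r) := by
  unfold ms; simp; ring

lemma ms_rt {r : ℕ} (hr : r ≠ 0) {u : Fin 3 → ℝ} (hu : ∀ i, 0 ≤ u i) :
    ms (r, 0, 0) (rt r (u 0)) (rt r (u 1)) (rt r (u 2)) = 6 * Z u := by
  rw [ms_r, rt_pow hr (hu 0), rt_pow hr (hu 1), rt_pow hr (hu 2)]
  unfold Z
  rw [Fin.sum_univ_three]
  push_cast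
  ring

lemma sum_perm3 (G : Fin 3 → Fin 3 → Fin 3 → ℝ) :
    ∑ π : Equiv.Perm (Fin 3), G (π 0) (π 1) (π 2) =
      G 0 1 2 + G 0 2 1 + G 1 0 2 + G 1 2 0 + G 2 0 1 + G 2 1 0 := by
  have h : (univ : Finset (Equiv.Perm (Fin 3))) = {1, Equiv.swap 1 2, Equiv.swap 0 1,
      Equiv.swap 0 1 * Equiv.swap 1 2, Equiv.swap 1 2 * Equiv.swap 0 1, Equiv.swap 0 2} := by
    decide
  rw [h]
  rw [sum_insert (by decide), sum_insert (by decide), sum_insert (by decide),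
    sum_insert (by decide), sum_insert (by decide), sum_singleton]
  have e1 : G ((1 : Equiv.Perm (Fin 3)) 0) ((1 : Equiv.Perm (Fin 3)) 1)
      ((1 : Equiv.Perm (Fin 3)) 2) = G 0 1 2 := rfl
  have e2 : G ((Equiv.swap 1 2 : Equiv.Perm (Fin 3)) 0) ((Equiv.swap 1 2 : Equiv.Perm (Fin 3)) 1)
      ((Equiv.swap 1 2 : Equiv.Perm (Fin 3)) 2) = G 0 2 1 := rfl
  have e3 : G ((Equiv.swap 0 1 : Equiv.Perm (Fin 3)) 0) ((Equiv.swap 0 1 : Equiv.Perm (Fin 3)) 1)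
      ((Equiv.swap 0 1 : Equiv.Perm (Fin 3)) 2) = G 1 0 2 := rfl
  have e4 : G ((Equiv.swap 0 1 * Equiv.swap 1 2 : Equiv.Perm (Fin 3)) 0)
      ((Equiv.swap 0 1 * Equiv.swap 1 2 : Equiv.Perm (Fin 3)) 1)
      ((Equiv.swap 0 1 * Equiv.swap 1 2 : Equiv.Perm (Fin 3)) 2) = G 1 2 0 := rfl
  have e5 : G ((Equiv.swap 1 2 * Equiv.swap 0 1 : Equiv.Perm (Fin 3)) 0)
      ((Equiv.swap 1 2 * Equiv.swap 0 1 : Equiv.Perm (Fin 3)) 1)
      ((Equiv.swap 1 2 * Equiv.swap 0 1 : Equiv.Perm (Fin 3)) 2) = G 2 0 1 := rfl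
  have e6 : G ((Equiv.swap 0 2 : Equiv.Perm (Fin 3)) 0) ((Equiv.swap 0 2 : Equiv.Perm (Fin 3)) 1)
      ((Equiv.swap 0 2 : Equiv.Perm (Fin 3)) 2) = G 2 1 0 := rfl
  rw [e1, e2, e3, e4, e5, e6]
  ring

lemma ms_mul (g : Mon) (y0 y1 y2 z0 z1 z2 : ℝ) :
    ms g (y0 * z0) (y1 * z1) (y2 * z2) + ms g (y0 * z0) (y1 * z2) (y2 * z1) +
      ms g (y0 * z1) (y1 * z0) (y2 * z2) + ms g (y0 * z1) (y1 * z2) (y2 * z0) +
      ms g (y0 * z2) (y1 * z0) (y2 * z1) + ms g (y0 * z2) (y1 * z1) (y2 * z0) =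
      ms g y0 y1 y2 * ms g z0 z1 z2 := by
  unfold ms
  simp only [mul_pow]
  ring

lemma MM_mul (r : ℕ) (g : Mon) {u v : Fin 3 → ℝ} (hu : ∀ i, 0 ≤ u i) (hv : ∀ i, 0 ≤ v i) :
    ∑ π : Equiv.Perm (Fin 3), MM r g (fun i => u i * v (π i)) = 6 * (MM r g u * MM r g v) := by
  have h := sum_perm3 (fun a b c => ms g (rt r (u 0) * rt r (v a)) (rt r (u 1) * rt r (v b))
    (rt r (u 2) * rt r (v c)))
  simp only [ms_mul] at h
  unfold MM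
  simp only [rt_mul r (hu _) (hv _)]
  rw [← Finset.sum_div, h]
  ring

/-! ### bounds -/

lemma ms_nonneg (g : Mon) {y0 y1 y2 : ℝ} (h0 : 0 ≤ y0) (h1 : 0 ≤ y1) (h2 : 0 ≤ y2) :
    0 ≤ ms g y0 y1 y2 := by
  unfold ms; positivity

lemma ms_le (g : Mon) {y0 y1 y2 M : ℝ} (h0 : 0 ≤ y0) (h1 : 0 ≤ y1) (h2 : 0 ≤ y2)
    (k0 : y0 ≤ M) (k1 : y1 ≤ M) (k2 : y2 ≤ M) : ms g y0 y1 y2 ≤ 6 * M ^ ssum g := by
  have hM : 0 ≤ M := h0.trans k0
  have key : ∀ a b c : ℕ, a + b + c = ssum g → y0 ^ a * y1 ^ b * y2 ^ c ≤ M ^ ssum g := by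
    intro a b c h
    rw [← h, pow_add, pow_add]
    gcongr
  have e1 := key g.1 g.2.1 g.2.2 rfl
  have e2 := key g.1 g.2.2 g.2.1 (by unfold ssum; omega)
  have e3 := key g.2.1 g.1 g.2.2 (by unfold ssum; omega)
  have e4 := key g.2.1 g.2.2 g.1 (by unfold ssum; omega)
  have e5 := key g.2.2 g.1 g.2.1 (by unfold ssum; omega)
  have e6 := key g.2.2 g.2.1 g.1 (by unfold ssum; omega)
  unfold ms
  linarith

lemma Z3 (u : Fin 3 → ℝ) : Z u = (u 0 + u 1 + u 2) / 3 := by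
  unfold Z; rw [Fin.sum_univ_three]; norm_num

lemma Z_nn {u : Fin 3 → ℝ} (hu : ∀ i, 0 ≤ u i) : 0 ≤ Z u := by
  rw [Z3]; have := hu 0; have := hu 1; have := hu 2; positivity

lemma rt_le_Z (r : ℕ) {u : Fin 3 → ℝ} (hu : ∀ i, 0 ≤ u i) (i : Fin 3) :
    rt r (u i) ≤ rt r (3 * Z u) := by
  apply rt_mono r (hu i)
  rw [Z3]
  have h0 := hu 0
  have h1 := hu 1
  have h2 := hu 2
  fin_cases i <;> simp <;> linarith

lemma MM_nonneg (r : ℕ) (g : Mon) {u : Fin 3 → ℝ} (hu : ∀ i, 0 ≤ u i) : 0 ≤ MM r g u :=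
  div_nonneg (ms_nonneg g (rt_nonneg r (hu 0)) (rt_nonneg r (hu 1)) (rt_nonneg r (hu 2)))
    (by norm_num)

lemma MM_le {r : ℕ} (hr : r ≠ 0) {g : Mon} (hg : ssum g = r) {u : Fin 3 → ℝ}
    (hu : ∀ i, 0 ≤ u i) : MM r g u ≤ 3 * Z u := by
  have h := ms_le g (rt_nonneg r (hu 0)) (rt_nonneg r (hu 1)) (rt_nonneg r (hu 2))
    (rt_le_Z r hu 0) (rt_le_Z r hu 1) (rt_le_Z r hu 2)
  rw [hg, rt_pow hr (by have := Z_nn hu; positivity)] at h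
  unfold MM
  linarith

lemma ms_rt_le {r : ℕ} (hr : r ≠ 0) {g : Mon} (hg : ssum g = 2 * r) {u : Fin 3 → ℝ}
    (hu : ∀ i, 0 ≤ u i) : ms g (rt r (u 0)) (rt r (u 1)) (rt r (u 2)) ≤ 54 * Z u ^ 2 := by
  have h := ms_le g (rt_nonneg r (hu 0)) (rt_nonneg r (hu 1)) (rt_nonneg r (hu 2))
    (rt_le_Z r hu 0) (rt_le_Z r hu 1) (rt_le_Z r hu 2)
  rw [hg, mul_comm 2 r, pow_mul, rt_pow hr (by have := Z_nn hu; positivity)] at h
  nlinarith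

/-! ### functionals -/

/-- coefficient selector -/
def cf : ℕ → FD → ℤ
  | 0, f => f.a0
  | 1, f => f.a1
  | 2, f => f.a2
  | 3, f => f.a3
  | _, _ => 0

noncomputable def SL (r : ℕ) (L : List FD) (j : ℕ) (u : Fin 3 → ℝ) : ℝ :=
  (L.map fun f => (cf j f : ℝ) * MM r f.g u).sum

noncomputable def TL (r : ℕ) (L : List FD) (j : ℕ) (u v : Fin 3 → ℝ) : ℝ :=
  (L.map fun f => (cf j f : ℝ) * (MM r f.g u * MM r f.g v)).sum

/-- the functionals `V j` -/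
noncomputable def VV (D : Dat) (Da dl : ℝ) (j : ℕ) (u : Fin 3 → ℝ) : ℝ :=
  SL D.r D.F j u / (Da * dl ^ j)

/-- `lcR` at the roots -/
noncomputable def lcU (D : Dat) (c1 : FD → ℤ) (c2 : ℤ × ℤ → ℤ) (u : Fin 3 → ℝ) : ℝ :=
  lcR D c1 c2 (rt D.r (u 0)) (rt D.r (u 1)) (rt D.r (u 2))

noncomputable def mF (D : Dat) (dl : ℝ) (u : Fin 3 → ℝ) : ℝ :=
  dl * D.c1 / D.c0 * (lcU D (fun f => f.mc) (fun e => e.1) u / (36 * Z u))

noncomputable def qF (D : Dat) (dl : ℝ) (u : Fin 3 → ℝ) : ℝ :=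
  dl ^ 2 * D.c2 / D.c0 * (lcU D (fun f => f.qc) (fun e => e.2) u / (36 * Z u))

noncomputable def KF (D : Dat) (Da dl : ℝ) (s : ℝ) (u : Fin 3 → ℝ) : ℝ :=
  (SL D.r D.F 2 u + 3 * (s / dl) * SL D.r D.F 3 u) / (Da * dl ^ 2)

lemma Vs_VV (D : Dat) {Da dl : ℝ} (hdl : dl ≠ 0) (hDa : Da ≠ 0) (s : ℝ) (u : Fin 3 → ℝ) :
    Vs (VV D Da dl) 3 s u = (SL D.r D.F 0 u + (s / dl) * SL D.r D.F 1 u +
      (s / dl) ^ 2 * SL D.r D.F 2 u + (s / dl) ^ 3 * SL D.r D.F 3 u) / Da := by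
  unfold Vs VV
  simp only [sum_range_succ, sum_range_zero]
  field_simp
  ring

lemma dVs_VV (D : Dat) {Da dl : ℝ} (hdl : dl ≠ 0) (hDa : Da ≠ 0) (s : ℝ) (u : Fin 3 → ℝ) :
    dVs (VV D Da dl) 3 s u = (SL D.r D.F 1 u + 2 * (s / dl) * SL D.r D.F 2 u +
      3 * (s / dl) ^ 2 * SL D.r D.F 3 u) / (Da * dl) := by
  unfold dVs VV
  simp only [sum_range_succ, sum_range_zero]
  norm_num
  field_simp

lemma SL_perm (r : ℕ) (L : List FD) (j : ℕ) {u v : Fin 3 → ℝ} (hu : ∀ i, 0 ≤ u i)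
    (hv : ∀ i, 0 ≤ v i) :
    ∑ π : Equiv.Perm (Fin 3), SL r L j (fun i => u i * v (π i)) = 6 * TL r L j u v := by
  unfold SL TL
  induction L with
  | nil => simp
  | cons f l ih =>
    simp only [List.map_cons, List.sum_cons]
    rw [sum_add_distrib, ih, ← mul_sum, MM_mul r f.g hu hv]
    ring

lemma GRL (L : List FD) (c0 c1 c2 τ lm lq zv : ℝ) (X Y : FD → ℝ) :
    (L.map fun f => (6 * X f) *
      (c0 * ((f.a0 : ℝ) + f.a1 * τ + f.a2 * τ ^ 2 + f.a3 * τ ^ 3) *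
        ((6 * zv) * (6 * zv) - (6 * Y f) * (6 * zv)) +
      c1 * ((f.a1 : ℝ) + 2 * f.a2 * τ + 3 * f.a3 * τ ^ 2) * lm +
      c2 * ((f.a2 : ℝ) + 3 * f.a3 * τ) * lq)).sum =
    6 * (c0 * 36 * zv * (
      (zv * (L.map fun f => (cf 0 f : ℝ) * X f).sum - (L.map fun f => (cf 0 f : ℝ) * (X f * Y f)).sum)
      + τ * (zv * (L.map fun f => (cf 1 f : ℝ) * X f).sum -
        (L.map fun f => (cf 1 f : ℝ) * (X f * Y f)).sum)
      + τ ^ 2 * (zv * (L.map fun f => (cf 2 f : ℝ) * X f).sum -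
        (L.map fun f => (cf 2 f : ℝ) * (X f * Y f)).sum)
      + τ ^ 3 * (zv * (L.map fun f => (cf 3 f : ℝ) * X f).sum -
        (L.map fun f => (cf 3 f : ℝ) * (X f * Y f)).sum)) +
      c1 * ((L.map fun f => (cf 1 f : ℝ) * X f).sum +
        2 * τ * (L.map fun f => (cf 2 f : ℝ) * X f).sum +
        3 * τ ^ 2 * (L.map fun f => (cf 3 f : ℝ) * X f).sum) * lm +
      c2 * ((L.map fun f => (cf 2 f : ℝ) * X f).sum +
        3 * τ * (L.map fun f => (cf 3 f : ℝ) * X f).sum) * lq) := by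
  induction L with
  | nil => simp
  | cons f l ih =>
    simp only [List.map_cons, List.sum_cons]
    rw [ih]
    simp only [cf]
    ring

lemma GR_eq (D : Dat) (hr : D.r ≠ 0) (τ : ℝ) {u v : Fin 3 → ℝ} (hv : ∀ i, 0 ≤ v i) :
    GR D τ (rt D.r (u 0)) (rt D.r (u 1)) (rt D.r (u 2)) (rt D.r (v 0)) (rt D.r (v 1))
      (rt D.r (v 2)) =
    6 * (D.c0 * 36 * Z v * (
      (Z v * SL D.r D.F 0 u - TL D.r D.F 0 u v) + τ * (Z v * SL D.r D.F 1 u - TL D.r D.F 1 u v)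
      + τ ^ 2 * (Z v * SL D.r D.F 2 u - TL D.r D.F 2 u v)
      + τ ^ 3 * (Z v * SL D.r D.F 3 u - TL D.r D.F 3 u v)) +
      D.c1 * (SL D.r D.F 1 u + 2 * τ * SL D.r D.F 2 u + 3 * τ ^ 2 * SL D.r D.F 3 u) *
        lcU D (fun f => f.mc) (fun e => e.1) v +
      D.c2 * (SL D.r D.F 2 u + 3 * τ * SL D.r D.F 3 u) *
        lcU D (fun f => f.qc) (fun e => e.2) v) := by
  have h := GRL D.F D.c0 D.c1 D.c2 τ (lcU D (fun f => f.mc) (fun e => e.1) v)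
    (lcU D (fun f => f.qc) (fun e => e.2) v) (Z v) (fun f => MM D.r f.g u) (fun f => MM D.r f.g v)
  unfold SL TL
  rw [← h]
  unfold GR
  congr 1
  apply List.map_congr_left
  intro f _
  rw [ms_rt hr hv]
  unfold lcU MM
  ring

/-- the averaged pair inequality -/
theorem main_ineq (D : Dat) (hD : D.ok = true) (hr : D.r ≠ 0) {Da dl : ℝ} (hDa : 0 < Da)
    (hdl : 0 < dl) (hc0 : 0 < D.c0) {s : ℝ} {u v : Fin 3 → ℝ} (hu : ∀ i, 0 ≤ u i)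
    (hv : ∀ i, 0 ≤ v i)
    (h : 0 ≤ GR D (s / dl) (rt D.r (u 0)) (rt D.r (u 1)) (rt D.r (u 2)) (rt D.r (v 0))
      (rt D.r (v 1)) (rt D.r (v 2))) :
    ∑ π : Equiv.Perm (Fin 3), Vs (VV D Da dl) 3 s (fun i => u i * v (π i)) ≤
      6 * (Vs (VV D Da dl) 3 s u * Z v + mF D dl v * dVs (VV D Da dl) 3 s u +
        qF D dl v * KF D Da dl s u) := by
  have hc : (0 : ℝ) < D.c0 := by exact_mod_cast hc0
  simp only [Vs_VV D hdl.ne' hDa.ne', dVs_VV D hdl.ne' hDa.ne']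
  rw [← Finset.sum_div, sum_add_distrib, sum_add_distrib, sum_add_distrib, ← mul_sum, ← mul_sum,
    ← mul_sum, SL_perm _ _ _ hu hv, SL_perm _ _ _ hu hv, SL_perm _ _ _ hu hv,
    SL_perm _ _ _ hu hv]
  rcases (Z_nn hv).lt_or_eq with hZ | hZ
  · rw [GR_eq D hr _ hv] at h
    unfold mF qF KF
    set τ := s / dl
    set S0 := SL D.r D.F 0 u
    set S1 := SL D.r D.F 1 u
    set S2 := SL D.r D.F 2 u
    set S3 := SL D.r D.F 3 u
    set T0 := TL D.r D.F 0 u v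
    set T1 := TL D.r D.F 1 u v
    set T2 := TL D.r D.F 2 u v
    set T3 := TL D.r D.F 3 u v
    set lm := lcU D (fun f => f.mc) (fun e => e.1) v
    set lq := lcU D (fun f => f.qc) (fun e => e.2) v
    rw [← sub_nonneg]
    have e : 6 * ((S0 + τ * S1 + τ ^ 2 * S2 + τ ^ 3 * S3) / Da * Z v +
        dl * D.c1 / D.c0 * (lm / (36 * Z v)) *
          ((S1 + 2 * τ * S2 + 3 * τ ^ 2 * S3) / (Da * dl)) +
        dl ^ 2 * D.c2 / D.c0 * (lq / (36 * Z v)) * ((S2 + 3 * τ * S3) / (Da * dl ^ 2))) -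
        (6 * T0 + τ * (6 * T1) + τ ^ 2 * (6 * T2) + τ ^ 3 * (6 * T3)) / Da =
        6 * (D.c0 * 36 * Z v * ((Z v * S0 - T0) + τ * (Z v * S1 - T1)
          + τ ^ 2 * (Z v * S2 - T2) + τ ^ 3 * (Z v * S3 - T3)) +
          D.c1 * (S1 + 2 * τ * S2 + 3 * τ ^ 2 * S3) * lm +
          D.c2 * (S2 + 3 * τ * S3) * lq) / (36 * D.c0 * Z v * Da) := by
      field_simp
      ring
    rw [e]
    positivity
  · -- everything vanishes
    have hz : ∀ j, TL D.r D.F j u v = 0 := by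
      intro j
      unfold TL
      apply List.sum_eq_zero
      intro x hx
      obtain ⟨f, hf, rfl⟩ := List.mem_map.1 hx
      have h1 := MM_le hr (Dat.ok_F hD f hf) hv
      have h2 := MM_nonneg D.r f.g hv
      rw [← hZ, mul_zero] at h1
      rw [le_antisymm h1 h2]
      ring
    simp only [hz]
    unfold mF qF
    rw [← hZ]
    simp

end Sep2

end Vale.Agent.P154
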