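import Mathlib
import Vale.Agent.P154.PMReal
import Vale.Agent.P154.PMOne

/-!
# P154: data of a full certificate, and its one-vector conditions
-/

namespace Vale.Agent.P154

open Finset

namespace Sep2

/-- All data of a certificate: `lam0 = -ln/ld`, time unit `dn/dd`, final time `N` units,
`R = Z (a + r20/den a^2 + r30/den a^3 + r11/den a e + r02/den e^2)`. -/
structure Full where
  D : Dat
  ln : ℕ
  ld : ℕ
  dn : ℕ
  dd : ℕ
  N : ℕ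
  Da : ℕ
  den : ℕ
  r20 : ℤ
  r30 : ℤ
  r11 : ℤ
  r02 : ℤ
  cn : ℕ
  cd : ℕ
  gn : ℕ
  gd : ℕ
  fan : List Mon

/-! ### expressions -/

/-- symmetrised monomial as an expression -/
def msE (g : Mon) : PExp :=
  .add (.add (.add (.add (.add
    (.mul (.mul (.pow (.v 0) g.1) (.pow (.v 1) g.2.1)) (.pow (.v 2) g.2.2))
    (.mul (.mul (.pow (.v 0) g.1) (.pow (.v 1) g.2.2)) (.pow (.v 2) g.2.1)))
    (.mul (.mul (.pow (.v 0) g.2.1) (.pow (.v 1) g.1)) (.pow (.v 2) g.2.2)))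
    (.mul (.mul (.pow (.v 0) g.2.1) (.pow (.v 1) g.2.2)) (.pow (.v 2) g.1)))
    (.mul (.mul (.pow (.v 0) g.2.2) (.pow (.v 1) g.1)) (.pow (.v 2) g.2.1)))
    (.mul (.mul (.pow (.v 0) g.2.2) (.pow (.v 1) g.2.1)) (.pow (.v 2) g.1))

/-- sum of expressions of degree `n` -/
def lsE (n : ℕ) (L : List PExp) : PExp := L.foldr .add (.mul (.k 0) (.pow (.v 0) n))

/-- linear combination of the features (degree `r`) -/
def SE (D : Dat) (c : FD → ℤ) : PExp := lsE D.r (D.F.map fun f => .mul (.k (c f)) (msE f.g))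

/-- linear combination (degree `2 r`) -/
def lcE (D : Dat) (c1 : FD → ℤ) (c2 : ℤ × ℤ → ℤ) : PExp :=
  .add (.mul (SE D c1) (msE (D.r, 0, 0)))
    (lsE (2 * D.r) (D.G.map fun e => .mul (.k (c2 e.2)) (.mul (.k 6) (msE e.1))))

/-- `36 Z² a` -/
def AE (r : ℕ) : PExp := .sub (.mul (.k 6) (msE (2 * r, 0, 0))) (.pow (msE (r, 0, 0)) 2)

/-- `216 Z³ e` -/
def EE (r : ℕ) : PExp :=
  .mul (.mul (.sub (.mul (.k 6) (.pow (.v 0) r)) (msE (r, 0, 0)))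
    (.sub (.mul (.k 6) (.pow (.v 1) r)) (msE (r, 0, 0))))
    (.sub (.mul (.k 6) (.pow (.v 2) r)) (msE (r, 0, 0)))

/-- `Z` times a polynomial in `a, e`, of degree `6 r` -/
def RE (r : ℕ) (a0 a20 a30 a11 a02 : ℤ) : PExp :=
  .add (.mul (AE r) (.add (.add (.add (.mul (.k a0) (.pow (msE (r, 0, 0)) 4))
    (.mul (.k a20) (.mul (AE r) (.pow (msE (r, 0, 0)) 2)))) (.mul (.k a30) (.pow (AE r) 2)))
    (.mul (.k a11) (.mul (EE r) (msE (r, 0, 0)))))) (.mul (.k a02) (.pow (EE r) 2))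

variable (F : Full)

def eM : PExp := lcE F.D (fun f => f.mc) (fun e => e.1)
def eQ : PExp := lcE F.D (fun f => f.qc) (fun e => e.2)
def eML : PExp :=
  .sub (.mul (.k (F.D.c0 * F.dd : ℕ)) (RE F.D.r (F.den * F.ln ^ 4 : ℕ)
      (F.r20 * (F.ln ^ 2 * F.ld ^ 2 : ℕ)) (F.r30 * (F.ld ^ 4 : ℕ))
      (-(F.r11 * (F.ln * F.ld ^ 3 : ℕ))) (F.r02 * (F.ld ^ 4 : ℕ))))
    (.mul (.k (F.dn * F.D.c1 * F.den * F.ln ^ 4 : ℕ)) (.mul (eM F) (.pow (msE (F.D.r, 0, 0)) 4)))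
def eR : PExp :=
  .sub (.mul (.k (F.den : ℕ)) (.mul (SE F.D (fun f => f.a0)) (.pow (msE (F.D.r, 0, 0)) 5)))
    (.mul (.k (F.Da : ℕ)) (RE F.D.r (F.den : ℕ) F.r20 F.r30 F.r11 F.r02))
def eW : PExp :=
  .sub (.mul (.k (F.cd : ℕ)) (.mul (SE F.D (fun f => f.a0)) (msE (F.D.r, 0, 0))))
    (.mul (.k (F.cn * F.Da : ℕ)) (AE F.D.r))
def eS : PExp := RE 1 0 (2 * F.r20) (4 * F.r30) (3 * F.r11) (4 * F.r02)
def eK0 : PExp := SE F.D (fun f => -f.a2)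
def eKN : PExp := SE F.D (fun f => -(f.a2 + 3 * (F.N : ℤ) * f.a3))
def eV3 : PExp := SE F.D (fun f => f.a3)
def eQM : PExp :=
  .sub (.mul (.k (F.D.c0 * F.D.c2 : ℕ)) (.mul (.pow (msE (F.D.r, 0, 0)) 2) (eQ F)))
    (.mul (.k (F.D.c1 ^ 2 : ℕ)) (.pow (eM F) 2))

/-! ### values of the expressions -/

lemma ev_msE (g : Mon) (y0 y1 y2 : ℝ) : PExp.ev (vec y0 y1 y2) (msE g) = ms g y0 y1 y2 := by
  simp [msE, PExp.ev, vec, ms]

lemma ev_lsE (n : ℕ) (L : List PExp) (x : ℕ → ℝ) :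
    PExp.ev x (lsE n L) = (L.map (PExp.ev x)).sum := by
  unfold lsE
  induction L with
  | nil => simp [PExp.ev]
  | cons a l ih => simp only [List.foldr_cons, PExp.ev, List.map_cons, List.sum_cons, ih]

lemma ev_SE (D : Dat) (c : FD → ℤ) (y0 y1 y2 : ℝ) :
    PExp.ev (vec y0 y1 y2) (SE D c) = (D.F.map fun f => (c f : ℝ) * ms f.g y0 y1 y2).sum := by
  unfold SE
  rw [ev_lsE, List.map_map]
  exact congrArg List.sum (List.map_congr_left fun f _ => by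
    simp only [Function.comp_def, PExp.ev, ev_msE])

lemma ev_lcE (D : Dat) (c1 : FD → ℤ) (c2 : ℤ × ℤ → ℤ) (y0 y1 y2 : ℝ) :
    PExp.ev (vec y0 y1 y2) (lcE D c1 c2) = lcR D c1 c2 y0 y1 y2 := by
  unfold lcE lcR
  simp only [PExp.ev]
  rw [ev_SE, ev_lsE, ev_msE, List.map_map, ← List.sum_map_mul_right]
  have e1 : (D.F.map fun f => (c1 f : ℝ) * ms f.g y0 y1 y2 * ms (D.r, 0, 0) y0 y1 y2) =
      D.F.map fun f => (c1 f : ℝ) * (ms f.g y0 y1 y2 * ms (D.r, 0, 0) y0 y1 y2) :=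
    List.map_congr_left fun f _ => by ring
  have e2 : D.G.map (PExp.ev (vec y0 y1 y2) ∘ fun e => PExp.mul (.k (c2 e.2))
      (.mul (.k 6) (msE e.1))) = D.G.map fun e => (c2 e.2 : ℝ) * (6 * ms e.1 y0 y1 y2) :=
    List.map_congr_left fun f _ => by
      simp only [Function.comp_def, PExp.ev, ev_msE]
      push_cast
      ring
  rw [e1, e2]

/-- `36 Z² a` as a function of `t` -/
noncomputable def Ah (t0 t1 t2 : ℝ) : ℝ :=
  12 * (t0 ^ 2 + t1 ^ 2 + t2 ^ 2) - (2 * (t0 + t1 + t2)) ^ 2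
noncomputable def Eh (t0 t1 t2 : ℝ) : ℝ :=
  (6 * t0 - 2 * (t0 + t1 + t2)) * (6 * t1 - 2 * (t0 + t1 + t2)) * (6 * t2 - 2 * (t0 + t1 + t2))

noncomputable def Rh (a0 a20 a30 a11 a02 : ℝ) (t0 t1 t2 : ℝ) : ℝ :=
  Ah t0 t1 t2 * (a0 * (2 * (t0 + t1 + t2)) ^ 4 + a20 * (Ah t0 t1 t2 * (2 * (t0 + t1 + t2)) ^ 2) +
    a30 * Ah t0 t1 t2 ^ 2 + a11 * (Eh t0 t1 t2 * (2 * (t0 + t1 + t2)))) +
    a02 * Eh t0 t1 t2 ^ 2

lemma ev_AE (r : ℕ) (y0 y1 y2 : ℝ) :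
    PExp.ev (vec y0 y1 y2) (AE r) = Ah (y0 ^ r) (y1 ^ r) (y2 ^ r) := by
  unfold AE Ah
  simp only [PExp.ev, ev_msE, ms_r]
  rw [mul_comm 2 r, pow_mul, pow_mul, pow_mul]
  push_cast
  ring

lemma ev_EE (r : ℕ) (y0 y1 y2 : ℝ) :
    PExp.ev (vec y0 y1 y2) (EE r) = Eh (y0 ^ r) (y1 ^ r) (y2 ^ r) := by
  unfold EE Eh
  simp only [PExp.ev, ev_msE, ms_r]
  simp [vec]

lemma ev_RE (r : ℕ) (a0 a20 a30 a11 a02 : ℤ) (y0 y1 y2 : ℝ) :
    PExp.ev (vec y0 y1 y2) (RE r a0 a20 a30 a11 a02) =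
      Rh a0 a20 a30 a11 a02 (y0 ^ r) (y1 ^ r) (y2 ^ r) := by
  unfold RE Rh
  simp only [PExp.ev, ev_msE, ms_r, ev_AE, ev_EE]

/-! ### symmetry -/

lemma wlog3 {P : ℝ → ℝ → ℝ → Prop} (h01 : ∀ a b c, P b a c → P a b c)
    (h12 : ∀ a b c, P a c b → P a b c) (hs : ∀ a b c, b ≤ a → c ≤ b → P a b c) :
    ∀ a b c, P a b c := by
  intro a b c
  rcases le_total a b with h1 | h1 <;> rcases le_total b c with h2 | h2 <;>
    rcases le_total a c with h3 | h3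
  · -- a ≤ b ≤ c
    exact h01 _ _ _ (h12 _ _ _ (h01 _ _ _ (hs _ _ _ h2 h1)))
  · exact h01 _ _ _ (h12 _ _ _ (h01 _ _ _ (hs _ _ _ h2 h1)))
  · exact h01 _ _ _ (h12 _ _ _ (hs _ _ _ h2 h3))
  · exact h01 _ _ _ (hs _ _ _ h1 h3)
  · exact h12 _ _ _ (h01 _ _ _ (hs _ _ _ h3 h1))
  · exact h12 _ _ _ (hs _ _ _ h3 h2)
  · exact hs _ _ _ h1 h2
  · exact hs _ _ _ h1 h2

lemma ms_swap01 {R : Type*} [CommSemiring R] (g : Mon) (a b c : R) : ms g b a c = ms g a b c := by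
  unfold ms; ring
lemma ms_swap12 {R : Type*} [CommSemiring R] (g : Mon) (a b c : R) : ms g a c b = ms g a b c := by
  unfold ms; ring

/-- the standard cell -/
def U0 : Cell := ((1, 0, 0), (1, 1, 0), (1, 1, 1))

lemma inC_U0 {a b c : ℝ} (hc : 0 ≤ c) (h1 : b ≤ a) (h2 : c ≤ b) : InC U0 a b c := by
  refine ⟨a - b, b - c, c, by linarith, by linarith, hc, ?_, ?_, ?_⟩
  · simp [linR, crd0, U0]
  · simp [linR, crd1, U0]
  · simp [linR, crd2, U0]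

/-- a symmetric expression which is nonnegative on the standard cell -/
lemma sym_nonneg {e : PExp} (h01 : ∀ a b c : ℝ, PExp.ev (vec b a c) e = PExp.ev (vec a b c) e)
    (h12 : ∀ a b c : ℝ, PExp.ev (vec a c b) e = PExp.ev (vec a b c) e)
    (h : ∀ y0 y1 y2 : ℝ, InC U0 y0 y1 y2 → 0 ≤ PExp.ev (vec y0 y1 y2) e) :
    ∀ a b c : ℝ, 0 ≤ a → 0 ≤ b → 0 ≤ c → 0 ≤ PExp.ev (vec a b c) e := by
  refine wlog3 (P := fun a b c => 0 ≤ a → 0 ≤ b → 0 ≤ c → 0 ≤ PExp.ev (vec a b c) e) ?_ ?_ ?_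
  · intro a b c hP ha hb hc
    rw [← h01]; exact hP hb ha hc
  · intro a b c hP ha hb hc
    rw [← h12]; exact hP ha hc hb
  · intro a b c h1 h2 ha hb hc
    exact h _ _ _ (inC_U0 hc h1 h2)

lemma Ah_01 (a b c : ℝ) : Ah b a c = Ah a b c := by unfold Ah; ring
lemma Ah_12 (a b c : ℝ) : Ah a c b = Ah a b c := by unfold Ah; ring
lemma Eh_01 (a b c : ℝ) : Eh b a c = Eh a b c := by unfold Eh; ring
lemma Eh_12 (a b c : ℝ) : Eh a c b = Eh a b c := by unfold Eh; ring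
lemma Rh_01 (a0 a20 a30 a11 a02 a b c : ℝ) :
    Rh a0 a20 a30 a11 a02 b a c = Rh a0 a20 a30 a11 a02 a b c := by
  unfold Rh; rw [Ah_01, Eh_01, add_comm b a]
lemma Rh_12 (a0 a20 a30 a11 a02 a b c : ℝ) :
    Rh a0 a20 a30 a11 a02 a c b = Rh a0 a20 a30 a11 a02 a b c := by
  unfold Rh; rw [Ah_12, Eh_12, add_right_comm a c b]

lemma lcR_01 (D : Dat) (c1 : FD → ℤ) (c2 : ℤ × ℤ → ℤ) (a b c : ℝ) :
    lcR D c1 c2 b a c = lcR D c1 c2 a b c := by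
  unfold lcR; simp only [ms_swap01 _ a b c]
lemma lcR_12 (D : Dat) (c1 : FD → ℤ) (c2 : ℤ × ℤ → ℤ) (a b c : ℝ) :
    lcR D c1 c2 a c b = lcR D c1 c2 a b c := by
  unfold lcR; simp only [ms_swap12 _ a b c]

/-! ### the fan covering the image of the edge operator -/

/-- cells of the fan -/
def fanCells : List Mon → List Cell
  | b :: b' :: l => (b, (1, 1, 1), b') :: fanCells (b' :: l)
  | _ => []

/-- mixed inequalities for two generators (`c = cn / cd`) -/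
def mixOk (r cn cd : ℕ) (b b' : Mon) : Bool :=
  (List.range (r + 1)).all fun k => Nat.ble
    (cd * (b.2.1 ^ k * b'.2.1 ^ (r - k) + b.2.2 ^ k * b'.2.2 ^ (r - k)))
    (cn * (b.1 ^ k * b'.1 ^ (r - k)))

/-- sorted generators, consecutive ones positively oriented, mixed inequalities; the last one
lies on the boundary of the sorted cone -/
def fanOk (r cn cd : ℕ) : List Mon → Bool
  | b :: b' :: l => Nat.ble b.2.1 b.1 && (Nat.ble b.2.2 b.2.1 && (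
      Nat.blt ((b.1 - b.2.1) * (b'.2.1 - b'.2.2)) ((b'.1 - b'.2.1) * (b.2.1 - b.2.2)) &&
      (mixOk r cn cd b b' && fanOk r cn cd (b' :: l))))
  | [b] => Nat.ble b.2.1 b.1 && Nat.beq b.2.1 b.2.2
  | [] => false

/-- the first generator lies on the other boundary -/
def fanFirst : List Mon → Bool
  | b :: _ => Nat.beq b.1 b.2.1
  | [] => false

end Sep2

end Vale.Agent.P154
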