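import Mathlib
import Vale.Agent.P154.PMBuild

/-!
# P154: the fan of cells covers the roots of the image of the edge operator
-/

namespace Vale.Agent.P154

open Finset

namespace Sep2

lemma mix_le {r cn cd : ℕ} {b b' : Mon} (h : mixOk r cn cd b b' = true) {x y : ℝ} (hx : 0 ≤ x)
    (hy : 0 ≤ y) :
    (cd : ℝ) * ((x * b.2.1 + y * b'.2.1) ^ r + (x * b.2.2 + y * b'.2.2) ^ r) ≤
      cn * (x * b.1 + y * b'.1) ^ r := by
  simp only [mixOk, List.all_eq_true, List.mem_range] at h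
  rw [add_pow, add_pow, add_pow, ← sum_add_distrib, mul_sum, mul_sum]
  refine sum_le_sum fun k hk => ?_
  have h1 := Nat.le_of_ble_eq_true (h k (mem_range.1 hk))
  have h2 : (cd : ℝ) * ((b.2.1 : ℝ) ^ k * (b'.2.1 : ℝ) ^ (r - k) +
      (b.2.2 : ℝ) ^ k * (b'.2.2 : ℝ) ^ (r - k)) ≤ cn * ((b.1 : ℝ) ^ k * (b'.1 : ℝ) ^ (r - k)) := by
    exact_mod_cast h1
  have h3 : 0 ≤ x ^ k * y ^ (r - k) * (r.choose k : ℝ) := by positivity
  have h4 := mul_le_mul_of_nonneg_left h2 h3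
  simp only [mul_pow]
  nlinarith [h4]

lemma shift_lt {r cn cd : ℕ} (hc : cn < 2 * cd) {z0 z1 z2 t : ℝ} (h2 : 0 ≤ z2)
    (h12 : z2 ≤ z1) (h01 : z1 ≤ z0) (ht : 0 < t)
    (hd : (cn : ℝ) * z0 ^ r ≤ cd * (z1 ^ r + z2 ^ r)) :
    (cn : ℝ) * (z0 + t) ^ r < cd * ((z1 + t) ^ r + (z2 + t) ^ r) := by
  have hcr : (cn : ℝ) < 2 * cd := by exact_mod_cast hc
  have h1 : 0 ≤ z1 := h2.trans h12
  have h0 : 0 ≤ z0 := h1.trans h01
  rw [add_pow, add_pow, add_pow, ← sum_add_distrib, mul_sum, mul_sum]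
  have key : ∀ k, k ≤ r → (cn : ℝ) * z0 ^ k ≤ cd * (z1 ^ k + z2 ^ k) := by
    intro k hk
    rcases h0.lt_or_eq with hz | hz
    · have hp : 0 < z0 ^ (r - k) := pow_pos hz _
      have e0 : z0 ^ r = z0 ^ k * z0 ^ (r - k) := by rw [← pow_add, Nat.add_sub_cancel' hk]
      have e1 : z1 ^ r ≤ z1 ^ k * z0 ^ (r - k) := by
        conv_lhs => rw [← Nat.add_sub_cancel' hk, pow_add]
        gcongr
      have e2 : z2 ^ r ≤ z2 ^ k * z0 ^ (r - k) := by
        conv_lhs => rw [← Nat.add_sub_cancel' hk, pow_add]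
        gcongr
        exact h12.trans h01
      have hcd : (0 : ℝ) ≤ cd := Nat.cast_nonneg _
      have : (cn * z0 ^ k) * z0 ^ (r - k) ≤ (cd * (z1 ^ k + z2 ^ k)) * z0 ^ (r - k) := by
        nlinarith [mul_le_mul_of_nonneg_left (add_le_add e1 e2) hcd]
      exact le_of_mul_le_mul_right this hp
    · have e1 : z1 = 0 := le_antisymm (hz ▸ h01) h1
      have e2 : z2 = 0 := le_antisymm (e1 ▸ h12) h2
      rw [← hz, e1, e2]
      rcases Nat.eq_zero_or_pos k with hk0 | hk0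
      · rw [hk0]; simp only [pow_zero]; linarith
      · rw [zero_pow hk0.ne']; simp
  refine sum_lt_sum (fun k hk => ?_) ⟨0, mem_range.2 (Nat.succ_pos r), ?_⟩
  · have h3 : 0 ≤ t ^ (r - k) * (r.choose k : ℝ) := by positivity
    have h4 := mul_le_mul_of_nonneg_right (key k (Nat.lt_succ_iff.1 (mem_range.1 hk))) h3
    nlinarith [h4]
  · simp only [pow_zero, one_mul, Nat.sub_zero, Nat.choose_zero_right, Nat.cast_one, mul_one]
    have : 0 < t ^ r := pow_pos ht r
    nlinarith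

theorem fan_aux {r cn cd : ℕ} (hc : cn < 2 * cd) {z0 z1 z2 : ℝ} (h2 : 0 ≤ z2)
    (h12 : z2 ≤ z1) (h01 : z1 ≤ z0) (hd : (cn : ℝ) * z0 ^ r ≤ cd * (z1 ^ r + z2 ^ r)) :
    ∀ (L : List Mon), fanOk r cn cd L = true → ∀ b l, L = b :: l →
      0 ≤ (z0 - z1) * ((b.2.1 : ℝ) - b.2.2) - ((b.1 : ℝ) - b.2.1) * (z1 - z2) →
      (l = [] → 0 < (z0 - z1) * ((b.2.1 : ℝ) - b.2.2) - ((b.1 : ℝ) - b.2.1) * (z1 - z2)) →
      ∃ Q ∈ fanCells L, InC Q z0 z1 z2 := by
  intro L
  induction L with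
  | nil => intro _ b l h; exact absurd h (by simp)
  | cons a L ih =>
    intro hf b l hL hX hX'
    obtain ⟨rfl, rfl⟩ := List.cons.inj hL
    cases L with
    | nil =>
      exfalso
      simp only [fanOk, Bool.and_eq_true] at hf
      have h1 : a.2.1 = a.2.2 := Nat.eq_of_beq_eq_true hf.2
      have h3 : (a.2.1 : ℝ) ≤ a.1 := by exact_mod_cast Nat.le_of_ble_eq_true hf.1
      have h4 := hX' rfl
      rw [h1] at h4 h3
      nlinarith
    | cons b' l =>
      simp only [fanOk, Bool.and_eq_true, Nat.blt_eq] at hf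
      obtain ⟨g1, g2, g3, g4, g5⟩ := hf
      have g1' := Nat.le_of_ble_eq_true g1
      have g2' := Nat.le_of_ble_eq_true g2
      by_cases hn : (z0 - z1) * ((b'.2.1 : ℝ) - b'.2.2) - ((b'.1 : ℝ) - b'.2.1) * (z1 - z2) ≤ 0
      · -- found
        refine ⟨(a, (1, 1, 1), b'), by simp [fanCells], ?_⟩
        have hb' : b'.2.2 ≤ b'.2.1 ∧ b'.2.1 ≤ b'.1 := by
          cases l with
          | nil =>
            simp only [fanOk, Bool.and_eq_true] at g5
            have := Nat.eq_of_beq_eq_true g5.2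
            exact ⟨by omega, Nat.le_of_ble_eq_true g5.1⟩
          | cons c l =>
            simp only [fanOk, Bool.and_eq_true] at g5
            exact ⟨Nat.le_of_ble_eq_true g5.2.1, Nat.le_of_ble_eq_true g5.1⟩
        have hD : (0 : ℝ) < ((b'.1 : ℝ) - b'.2.1) * ((a.2.1 : ℝ) - a.2.2) -
            ((a.1 : ℝ) - a.2.1) * ((b'.2.1 : ℝ) - b'.2.2) := by
          have e1 : (((a.1 - a.2.1) * (b'.2.1 - b'.2.2) : ℕ) : ℝ) <
              (((b'.1 - b'.2.1) * (a.2.1 - a.2.2) : ℕ) : ℝ) := by exact_mod_cast g3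
          push_cast [Nat.cast_sub g1', Nat.cast_sub g2', Nat.cast_sub hb'.1,
            Nat.cast_sub hb'.2] at e1
          linarith
        set Dt := ((b'.1 : ℝ) - b'.2.1) * ((a.2.1 : ℝ) - a.2.2) -
            ((a.1 : ℝ) - a.2.1) * ((b'.2.1 : ℝ) - b'.2.2) with hDt
        set x := -((z0 - z1) * ((b'.2.1 : ℝ) - b'.2.2) - ((b'.1 : ℝ) - b'.2.1) * (z1 - z2)) / Dt
          with hx
        set y := ((z0 - z1) * ((a.2.1 : ℝ) - a.2.2) - ((a.1 : ℝ) - a.2.1) * (z1 - z2)) / Dt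
          with hy
        have hx0 : 0 ≤ x := div_nonneg (by linarith) hD.le
        have hy0 : 0 ≤ y := div_nonneg hX hD.le
        have e1 : x * ((a.1 : ℝ) - a.2.1) + y * ((b'.1 : ℝ) - b'.2.1) = z0 - z1 := by
          rw [hx, hy]
          field_simp
          rw [hDt]; ring
        have e2 : x * ((a.2.1 : ℝ) - a.2.2) + y * ((b'.2.1 : ℝ) - b'.2.2) = z1 - z2 := by
          rw [hx, hy]
          field_simp
          rw [hDt]; ring
        set β := z2 - x * a.2.2 - y * b'.2.2 with hβ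
        have hβ0 : 0 ≤ β := by
          by_contra hneg
          push Not at hneg
          have h3 := shift_lt hc h2 h12 h01 (t := -β) (by linarith) hd
          have h4 := mix_le g4 hx0 hy0
          have f0 : z0 + -β = x * a.1 + y * b'.1 := by rw [hβ]; linarith
          have f1 : z1 + -β = x * a.2.1 + y * b'.2.1 := by rw [hβ]; linarith
          have f2 : z2 + -β = x * a.2.2 + y * b'.2.2 := by rw [hβ]; ring
          rw [f0, f1, f2] at h3
          linarith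
        refine ⟨x, β, y, hx0, hβ0, hy0, ?_, ?_, ?_⟩
        · simp only [linR, crd0]
          rw [hβ]; push_cast; linarith
        · simp only [linR, crd1]
          rw [hβ]; push_cast; linarith
        · simp only [linR, crd2]
          rw [hβ]; push_cast; ring
      · push Not at hn
        obtain ⟨Q, hQ, hin⟩ := ih g5 b' l rfl hn.le (fun _ => hn)
        exact ⟨Q, by simp only [fanCells, List.mem_cons]; exact Or.inr hQ, hin⟩

theorem fan_cover {r cn cd : ℕ} (hc : cn < 2 * cd) {L : List Mon} (hf : fanOk r cn cd L = true)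
    (hfirst : fanFirst L = true) (hlen : 2 ≤ L.length) {z0 z1 z2 : ℝ} (h2 : 0 ≤ z2)
    (h12 : z2 ≤ z1) (h01 : z1 ≤ z0) (hd : (cn : ℝ) * z0 ^ r ≤ cd * (z1 ^ r + z2 ^ r)) :
    ∃ Q ∈ fanCells L, InC Q z0 z1 z2 := by
  cases L with
  | nil => simp at hlen
  | cons b l =>
    simp only [fanFirst] at hfirst
    have hb : b.1 = b.2.1 := Nat.eq_of_beq_eq_true hfirst
    have hb2 : (b.2.2 : ℝ) ≤ b.2.1 := by
      cases l with
      | nil => simp at hlen
      | cons c l =>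
        simp only [fanOk, Bool.and_eq_true] at hf
        exact_mod_cast Nat.le_of_ble_eq_true hf.2.1
    refine fan_aux hc h2 h12 h01 hd (b :: l) hf b l rfl ?_ ?_
    · rw [hb, sub_self, zero_mul, sub_zero]
      exact mul_nonneg (by linarith) (by linarith)
    · intro hl; subst hl; simp at hlen

/-- domain of the roots of the vectors `edge lam0 t` -/
def Dom (r cn cd : ℕ) (a b c : ℝ) : Prop :=
  (cn : ℝ) * a ^ r ≤ cd * (b ^ r + c ^ r) ∧ (cn : ℝ) * b ^ r ≤ cd * (a ^ r + c ^ r) ∧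
    (cn : ℝ) * c ^ r ≤ cd * (a ^ r + b ^ r)

/-- a symmetric predicate which holds on the cells of the fan -/
theorem fan_all {r cn cd : ℕ} (hc : cn < 2 * cd) {L : List Mon} (hf : fanOk r cn cd L = true)
    (hfirst : fanFirst L = true) (hlen : 2 ≤ L.length) {P : ℝ → ℝ → ℝ → Prop}
    (h01 : ∀ a b c, P b a c → P a b c) (h12 : ∀ a b c, P a c b → P a b c)
    (h : ∀ Q ∈ fanCells L, ∀ a b c, InC Q a b c → P a b c) :
    ∀ a b c, 0 ≤ a → 0 ≤ b → 0 ≤ c → Dom r cn cd a b c → P a b c := by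
  refine wlog3 (P := fun a b c => 0 ≤ a → 0 ≤ b → 0 ≤ c → Dom r cn cd a b c → P a b c) ?_ ?_ ?_
  · intro a b c hP ha hb hc' hD
    exact h01 _ _ _ (hP hb ha hc' ⟨hD.2.1, hD.1, by rw [add_comm]; exact hD.2.2⟩)
  · intro a b c hP ha hb hc' hD
    exact h12 _ _ _ (hP ha hc' hb ⟨by rw [add_comm]; exact hD.1, hD.2.2, hD.2.1⟩)
  · intro a b c h1 h2 ha hb hc' hD
    obtain ⟨Q, hQ, hin⟩ := fan_cover hc hf hfirst hlen hc' h2 h1 hD.1
    exact h Q hQ _ _ _ hin

end Sep2

end Vale.Agent.P154
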