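import Mathlib
import Vale.Agent.P154.PMCover
import Vale.Agent.P154.HJPois
import Vale.Agent.P154.HJReg
import Vale.Agent.P154.MonoNeg

/-!
# P154: from checked data to a Hamilton–Jacobi certificate
-/

namespace Vale.Agent.P154

open Finset

namespace Sep2

/-- normalised second and third invariants -/
noncomputable def Av (t : Fin 3 → ℝ) : ℝ := (t 0 ^ 2 + t 1 ^ 2 + t 2 ^ 2) / 3 / Z t ^ 2 - 1
noncomputable def Ev (t : Fin 3 → ℝ) : ℝ := (t 0 / Z t - 1) * (t 1 / Z t - 1) * (t 2 / Z t - 1)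

/-- `R` -/
noncomputable def RF (F : Full) (t : Fin 3 → ℝ) : ℝ :=
  Z t * (Av t + (F.r20 / F.den * Av t ^ 2 + F.r30 / F.den * Av t ^ 3 +
    F.r11 / F.den * (Av t * Ev t) + F.r02 / F.den * Ev t ^ 2))

lemma S3 (t : Fin 3 → ℝ) : t 0 + t 1 + t 2 = 3 * Z t := by rw [Z3]; ring

lemma Ah_eq {t : Fin 3 → ℝ} (hZ : Z t ≠ 0) : Ah (t 0) (t 1) (t 2) = (6 * Z t) ^ 2 * Av t := by
  unfold Ah Av
  rw [S3]
  field_simp
  ring

lemma Eh_eq {t : Fin 3 → ℝ} (hZ : Z t ≠ 0) : Eh (t 0) (t 1) (t 2) = (6 * Z t) ^ 3 * Ev t := by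
  unfold Eh Ev
  rw [S3]
  field_simp
  ring

lemma Rh_eq (a0 a20 a30 a11 a02 : ℝ) {t : Fin 3 → ℝ} (hZ : Z t ≠ 0) :
    Rh a0 a20 a30 a11 a02 (t 0) (t 1) (t 2) = (6 * Z t) ^ 6 * (a0 * Av t + a20 * Av t ^ 2 +
      a30 * Av t ^ 3 + a11 * (Av t * Ev t) + a02 * Ev t ^ 2) := by
  unfold Rh
  rw [Ah_eq hZ, Eh_eq hZ, S3]
  ring

lemma edge_sub (lam : ℝ) (t : Fin 3 → ℝ) (i : Fin 3) :
    edge lam t i - Z t = lam * (t i - Z t) := by
  rw [edge_eq]; ring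

lemma Av_edge (lam : ℝ) {t : Fin 3 → ℝ} (hZ : Z t ≠ 0) : Av (edge lam t) = lam ^ 2 * Av t := by
  have h0 := edge_eq lam t 0
  have h1 := edge_eq lam t 1
  have h2 := edge_eq lam t 2
  have hs := S3 t
  unfold Av
  rw [Z_edge (by norm_num), h0, h1, h2]
  field_simp
  have e : t 2 = 3 * Z t - t 0 - t 1 := by linarith
  rw [e]
  ring

lemma Ev_edge (lam : ℝ) {t : Fin 3 → ℝ} (hZ : Z t ≠ 0) : Ev (edge lam t) = lam ^ 3 * Ev t := by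
  have h0 := edge_eq lam t 0
  have h1 := edge_eq lam t 1
  have h2 := edge_eq lam t 2
  unfold Ev
  rw [Z_edge (by norm_num), h0, h1, h2]
  field_simp
  ring

lemma div_Z {t : Fin 3 → ℝ} (ht : ∀ i, 0 ≤ t i) (hZ : 0 < Z t) (i : Fin 3) :
    0 ≤ t i / Z t ∧ t i / Z t ≤ 3 := by
  refine ⟨div_nonneg (ht i) hZ.le, ?_⟩
  rw [div_le_iff₀ hZ]
  have := S3 t
  have h0 := ht 0
  have h1 := ht 1
  have h2 := ht 2
  fin_cases i <;> simp <;> linarith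

lemma AvEv_bound {t : Fin 3 → ℝ} (ht : ∀ i, 0 ≤ t i) (hZ : 0 < Z t) :
    0 ≤ Av t ∧ Av t ≤ 2 ∧ |Ev t| ≤ 8 := by
  have hs : t 0 / Z t + t 1 / Z t + t 2 / Z t = 3 := by
    rw [← add_div, ← add_div, S3]; field_simp
  obtain ⟨a0, a1⟩ := div_Z ht hZ 0
  obtain ⟨b0, b1⟩ := div_Z ht hZ 1
  obtain ⟨c0, c1⟩ := div_Z ht hZ 2
  have e : Av t = ((t 0 / Z t) ^ 2 + (t 1 / Z t) ^ 2 + (t 2 / Z t) ^ 2) / 3 - 1 := by
    unfold Av; field_simp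
  set x := t 0 / Z t
  set y := t 1 / Z t
  set z := t 2 / Z t
  refine ⟨?_, ?_, ?_⟩
  · rw [e]
    nlinarith [sq_nonneg (x - y), sq_nonneg (y - z), sq_nonneg (x - z)]
  · rw [e]
    nlinarith [mul_nonneg a0 b0, mul_nonneg b0 c0, mul_nonneg a0 c0]
  · have : Ev t = (x - 1) * (y - 1) * (z - 1) := rfl
    rw [this, abs_mul, abs_mul]
    have k0 : |x - 1| ≤ 2 := abs_le.2 ⟨by linarith, by linarith⟩
    have k1 : |y - 1| ≤ 2 := abs_le.2 ⟨by linarith, by linarith⟩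
    have k2 : |z - 1| ≤ 2 := abs_le.2 ⟨by linarith, by linarith⟩
    calc |x - 1| * |y - 1| * |z - 1| ≤ 2 * 2 * 2 := by gcongr
      _ = 8 := by norm_num

/-- checked data -/
structure Valid (F : Full) : Prop where
  ok : F.D.ok = true
  r0 : F.D.r ≠ 0
  c0 : 0 < F.D.c0
  ln0 : 0 < F.ln
  ld0 : 2 * F.ln ≤ F.ld
  dn0 : 0 < F.dn
  dd0 : 0 < F.dd
  Da0 : 0 < F.Da
  den0 : 0 < F.den
  cn0 : 0 < F.cn
  cd0 : 0 < F.cd
  gn0 : 0 < F.gn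
  gd0 : 0 < F.gd
  fan : fanOk F.D.r (2 * F.ld - F.ln) (F.ld + F.ln) F.fan = true
  fan1 : fanFirst F.fan = true
  fan2 : 2 ≤ F.fan.length
  main : ∀ Q ∈ fanCells F.fan, Pos F.D U0 Q 0 F.N
  hm : ∀ Q ∈ fanCells F.fan, ∀ a b c, InC Q a b c → 0 ≤ PExp.ev (vec a b c) (eM F)
  hml : ∀ Q ∈ fanCells F.fan, ∀ a b c, InC Q a b c → 0 ≤ PExp.ev (vec a b c) (eML F)
  hr : ∀ a b c, InC U0 a b c → 0 ≤ PExp.ev (vec a b c) (eR F)
  hw : ∀ a b c, InC U0 a b c → 0 ≤ PExp.ev (vec a b c) (eW F)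
  hs : ∀ a b c, InC U0 a b c → 0 ≤ PExp.ev (vec a b c) (eS F)
  s0 : (F.D.F.map fun f => f.a0).sum = 0
  s1 : (F.D.F.map fun f => f.a1).sum * F.dd = F.Da * F.dn
  v2 : (F.D.F.map fun f => f.a2).sum * (F.dd ^ 2 * F.gd : ℕ) ≤ -(F.gn * F.Da * F.dn ^ 2 : ℕ)
  v3 : ((F.D.F.map fun f => f.a2).sum + F.N * (F.D.F.map fun f => f.a3).sum) *
    (F.dd ^ 2 * F.gd : ℕ) ≤ -(F.gn * F.Da * F.dn ^ 2 : ℕ)

/-- `lam0` -/
noncomputable def Full.lam (F : Full) : ℝ := -(F.ln / F.ld : ℝ)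
/-- unit of time -/
noncomputable def Full.dl (F : Full) : ℝ := F.dn / F.dd

namespace Valid

variable {F : Full} (H : Valid F)

include H

lemma ld_pos : (0 : ℝ) < F.ld := by
  have := H.ln0; have := H.ld0
  exact_mod_cast (by omega : 0 < F.ld)
lemma ln_pos : (0 : ℝ) < F.ln := by exact_mod_cast H.ln0
lemma dl_pos : 0 < F.dl := by
  have h1 : (0 : ℝ) < F.dn := by exact_mod_cast H.dn0
  have h2 : (0 : ℝ) < F.dd := by exact_mod_cast H.dd0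
  unfold Full.dl; positivity
lemma Da_pos : (0 : ℝ) < F.Da := by exact_mod_cast H.Da0
lemma den_pos : (0 : ℝ) < F.den := by exact_mod_cast H.den0
lemma c0_pos : (0 : ℝ) < F.D.c0 := by exact_mod_cast H.c0

lemma lam_neg : F.lam < 0 := by
  have := H.ld_pos; have := H.ln_pos
  unfold Full.lam
  rw [neg_lt_zero]; positivity

lemma lam_ge : -1 / 2 ≤ F.lam := by
  have h1 := H.ld_pos
  have h2 : (2 : ℝ) * F.ln ≤ F.ld := by exact_mod_cast H.ld0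
  unfold Full.lam
  rw [neg_div, neg_le_neg_iff, div_le_div_iff₀ h1 (by norm_num)]
  linarith

lemma adm : Admissible 3 F.lam := admissible_three H.lam_ge (by have := H.lam_neg; linarith)

lemma edge_nn {t : Fin 3 → ℝ} (ht : ∀ i, 0 ≤ t i) (i : Fin 3) : 0 ≤ edge F.lam t i :=
  edge_nonneg H.adm ht i

lemma cnd : 2 * F.ld - F.ln < 2 * (F.ld + F.ln) := by
  have := H.ln0; have := H.ld0; omega

lemma dom {t : Fin 3 → ℝ} (ht : ∀ i, 0 ≤ t i) :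
    Dom F.D.r (2 * F.ld - F.ln) (F.ld + F.ln) (rt F.D.r (edge F.lam t 0))
      (rt F.D.r (edge F.lam t 1)) (rt F.D.r (edge F.lam t 2)) := by
  unfold Dom
  rw [rt_pow H.r0 (H.edge_nn ht 0), rt_pow H.r0 (H.edge_nn ht 1), rt_pow H.r0 (H.edge_nn ht 2)]
  have hle : F.ln ≤ 2 * F.ld := by have := H.ld0; omega
  have h0 := ht 0
  have h1 := ht 1
  have h2 := ht 2
  have hld := H.ld_pos
  have hln := H.ln_pos
  push_cast [Nat.cast_sub hle]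
  simp only [edge_eq]
  rw [Z3]
  unfold Full.lam
  have e : ∀ x y z : ℝ, ((F.ld : ℝ) + F.ln) * (((-(F.ln / F.ld : ℝ)) * y +
      (1 - (-(F.ln / F.ld : ℝ))) * ((x + y + z) / 3)) + ((-(F.ln / F.ld : ℝ)) * z +
      (1 - (-(F.ln / F.ld : ℝ))) * ((x + y + z) / 3))) -
      (2 * (F.ld : ℝ) - F.ln) * ((-(F.ln / F.ld : ℝ)) * x +
      (1 - (-(F.ln / F.ld : ℝ))) * ((x + y + z) / 3)) = 3 * F.ln * x := by
    intro x y z
    field_simp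
    ring
  have k0 := e (t 0) (t 1) (t 2)
  have k1 := e (t 1) (t 0) (t 2)
  have k2 := e (t 2) (t 0) (t 1)
  have p0 : 0 ≤ 3 * (F.ln : ℝ) * t 0 := by positivity
  have p1 : 0 ≤ 3 * (F.ln : ℝ) * t 1 := by positivity
  have p2 : 0 ≤ 3 * (F.ln : ℝ) * t 2 := by positivity
  have s1 : t 1 + t 0 + t 2 = t 0 + t 1 + t 2 := by ring
  have s2 : t 2 + t 0 + t 1 = t 0 + t 1 + t 2 := by ring
  rw [s1] at k1
  rw [s2] at k2
  refine ⟨?_, ?_, ?_⟩ <;> linarith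

/-- nonnegative symmetric expressions at roots of edges -/
lemma fan_ev {e : PExp} (h01 : ∀ a b c : ℝ, PExp.ev (vec b a c) e = PExp.ev (vec a b c) e)
    (h12 : ∀ a b c : ℝ, PExp.ev (vec a c b) e = PExp.ev (vec a b c) e)
    (h : ∀ Q ∈ fanCells F.fan, ∀ a b c, InC Q a b c → 0 ≤ PExp.ev (vec a b c) e)
    {t : Fin 3 → ℝ} (ht : ∀ i, 0 ≤ t i) :
    0 ≤ PExp.ev (vec (rt F.D.r (edge F.lam t 0)) (rt F.D.r (edge F.lam t 1))
      (rt F.D.r (edge F.lam t 2))) e :=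
  fan_all H.cnd H.fan H.fan1 H.fan2 (P := fun a b c => 0 ≤ PExp.ev (vec a b c) e)
    (fun a b c h => by rw [← h01]; exact h) (fun a b c h => by rw [← h12]; exact h) h _ _ _
    (rt_nonneg _ (H.edge_nn ht 0)) (rt_nonneg _ (H.edge_nn ht 1)) (rt_nonneg _ (H.edge_nn ht 2))
    (H.dom ht)

omit H in
lemma U_ev {e : PExp} (h01 : ∀ a b c : ℝ, PExp.ev (vec b a c) e = PExp.ev (vec a b c) e)
    (h12 : ∀ a b c : ℝ, PExp.ev (vec a c b) e = PExp.ev (vec a b c) e)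
    (h : ∀ a b c, InC U0 a b c → 0 ≤ PExp.ev (vec a b c) e)
    {t : Fin 3 → ℝ} (ht : ∀ i, 0 ≤ t i) :
    0 ≤ PExp.ev (vec (rt F.D.r (t 0)) (rt F.D.r (t 1)) (rt F.D.r (t 2))) e :=
  sym_nonneg h01 h12 h _ _ _ (rt_nonneg _ (ht 0)) (rt_nonneg _ (ht 1)) (rt_nonneg _ (ht 2))

lemma GR_nonneg {s : ℝ} (h0 : 0 ≤ s) (h1 : s ≤ F.N * F.dl) {u t : Fin 3 → ℝ}
    (hu : ∀ i, 0 ≤ u i) (ht : ∀ i, 0 ≤ t i) :
    0 ≤ GR F.D (s / F.dl) (rt F.D.r (u 0)) (rt F.D.r (u 1)) (rt F.D.r (u 2))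
      (rt F.D.r (edge F.lam t 0)) (rt F.D.r (edge F.lam t 1)) (rt F.D.r (edge F.lam t 2)) := by
  have hdl := H.dl_pos
  have t0 : ((0 : ℕ) : ℝ) ≤ s / F.dl := by rw [Nat.cast_zero]; positivity
  have t1 : s / F.dl ≤ F.N := by rw [div_le_iff₀ hdl]; exact h1
  refine fan_all H.cnd H.fan H.fan1 H.fan2 (P := fun a b c =>
    0 ≤ GR F.D (s / F.dl) (rt F.D.r (u 0)) (rt F.D.r (u 1)) (rt F.D.r (u 2)) a b c) ?_ ?_ ?_ _ _ _
    (rt_nonneg _ (H.edge_nn ht 0)) (rt_nonneg _ (H.edge_nn ht 1)) (rt_nonneg _ (H.edge_nn ht 2))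
    (H.dom ht)
  · intro a b c h
    unfold GR at h ⊢
    simpa only [ms_swap01 _ a b c, lcR_01 _ _ _ a b c] using h
  · intro a b c h
    unfold GR at h ⊢
    simpa only [ms_swap12 _ a b c, lcR_12 _ _ _ a b c] using h
  · intro Q hQ a b c hin
    refine wlog3 (P := fun x y z => 0 ≤ x → 0 ≤ y → 0 ≤ z → 0 ≤ GR F.D (s / F.dl) x y z a b c)
      ?_ ?_ ?_ _ _ _ (rt_nonneg _ (hu 0)) (rt_nonneg _ (hu 1)) (rt_nonneg _ (hu 2))
    · intro x y z h hx hy hz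
      have := h hy hx hz
      unfold GR at this ⊢
      simpa only [ms_swap01 _ x y z] using this
    · intro x y z h hx hy hz
      have := h hx hz hy
      unfold GR at this ⊢
      simpa only [ms_swap12 _ x y z] using this
    · intro x y z hxy hyz hx hy hz
      exact H.main Q hQ _ _ _ _ _ _ _ t0 t1 (inC_U0 hz hxy hyz) hin

end Valid

end Sep2

end Vale.Agent.P154
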