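import Mathlib
import Vale.Agent.P154.PMInst

/-!
# P154: the Hamilton–Jacobi certificate built from checked data
-/

namespace Vale.Agent.P154

open Finset

namespace Sep2

/-! ### bounds -/

lemma abs_SL_le {D : Dat} (hD : D.ok = true) (hr : D.r ≠ 0) (j : ℕ) {u : Fin 3 → ℝ}
    (hu : ∀ i, 0 ≤ u i) :
    |SL D.r D.F j u| ≤ (D.F.map fun f => |(cf j f : ℝ)| * 3).sum * Z u := by
  have hF := Dat.ok_F hD
  unfold SL
  generalize D.F = L at hF
  induction L with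
  | nil => simp
  | cons f l ih =>
    simp only [List.map_cons, List.sum_cons]
    refine (abs_add_le _ _).trans ?_
    rw [add_mul]
    refine add_le_add ?_ (ih fun g hg => hF g (by simp [hg]))
    rw [abs_mul, abs_of_nonneg (MM_nonneg D.r f.g hu)]
    have := MM_le hr (hF f (by simp)) hu
    nlinarith [abs_nonneg (cf j f : ℝ)]

lemma cf_ge4 {j : ℕ} (hj : 4 ≤ j) (f : FD) : cf j f = 0 := by
  obtain ⟨k, rfl⟩ := Nat.exists_eq_add_of_le' hj
  rfl

lemma SL_ge4 (r : ℕ) (L : List FD) {j : ℕ} (hj : 4 ≤ j) (u : Fin 3 → ℝ) : SL r L j u = 0 := by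
  unfold SL
  apply List.sum_eq_zero
  intro x hx
  obtain ⟨f, _, rfl⟩ := List.mem_map.1 hx
  rw [cf_ge4 hj]; simp

lemma abs_lcU_le {D : Dat} (hD : D.ok = true) (hr : D.r ≠ 0) (c1 : FD → ℤ) (c2 : ℤ × ℤ → ℤ)
    {u : Fin 3 → ℝ} (hu : ∀ i, 0 ≤ u i) :
    |lcU D c1 c2 u| ≤ ((D.F.map fun f => |(c1 f : ℝ)| * 108).sum +
      (D.G.map fun e => |(c2 e.2 : ℝ)| * 324).sum) * Z u ^ 2 := by
  have hZ := Z_nn hu
  unfold lcU lcR
  refine (abs_add_le _ _).trans ?_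
  rw [add_mul]
  refine add_le_add ?_ ?_
  · have hF := Dat.ok_F hD
    generalize D.F = L at hF
    induction L with
    | nil => simp
    | cons f l ih =>
      simp only [List.map_cons, List.sum_cons]
      refine (abs_add_le _ _).trans ?_
      rw [add_mul]
      refine add_le_add ?_ (ih fun g hg => hF g (by simp [hg]))
      rw [ms_rt hr hu, abs_mul]
      have h1 := MM_nonneg D.r f.g hu
      have h2 := MM_le hr (hF f (by simp)) hu
      have h3 : ms f.g (rt D.r (u 0)) (rt D.r (u 1)) (rt D.r (u 2)) = 6 * MM D.r f.g u := by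
        unfold MM; ring
      rw [h3, abs_of_nonneg (show 0 ≤ 6 * MM D.r f.g u * (6 * Z u) by positivity)]
      have h4 : 6 * MM D.r f.g u * (6 * Z u) ≤ 108 * Z u ^ 2 := by nlinarith
      exact (mul_le_mul_of_nonneg_left h4 (abs_nonneg (c1 f : ℝ))).trans_eq (by ring)
  · have hG := Dat.ok_G hD
    generalize D.G = L at hG
    induction L with
    | nil => simp
    | cons f l ih =>
      simp only [List.map_cons, List.sum_cons]
      refine (abs_add_le _ _).trans ?_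
      rw [add_mul]
      refine add_le_add ?_ (ih fun g hg => hG g (by simp [hg]))
      rw [abs_mul]
      have h1 := ms_nonneg f.1 (rt_nonneg D.r (hu 0)) (rt_nonneg D.r (hu 1))
        (rt_nonneg D.r (hu 2))
      have h2 := ms_rt_le hr (hG f (by simp)) hu
      rw [abs_of_nonneg (show 0 ≤ 6 * ms f.1 (rt D.r (u 0)) (rt D.r (u 1)) (rt D.r (u 2)) by
        positivity)]
      have h4 : 6 * ms f.1 (rt D.r (u 0)) (rt D.r (u 1)) (rt D.r (u 2)) ≤ 324 * Z u ^ 2 := by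
        linarith
      exact (mul_le_mul_of_nonneg_left h4 (abs_nonneg (c2 f.2 : ℝ))).trans_eq (by ring)

lemma Z_zero {t : Fin 3 → ℝ} (ht : ∀ i, 0 ≤ t i) (hZ : Z t = 0) (i : Fin 3) : t i = 0 := by
  have h := S3 t
  rw [hZ, mul_zero] at h
  have h0 := ht 0
  have h1 := ht 1
  have h2 := ht 2
  fin_cases i <;> simp <;> linarith

namespace Valid

variable {F : Full} (H : Valid F)

include H

lemma m_nonneg {t : Fin 3 → ℝ} (ht : ∀ i, 0 ≤ t i) : 0 ≤ mF F.D F.dl (edge F.lam t) := by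
  have h := H.fan_ev (e := eM F) (fun a b c => by
      simp only [eM, ev_lcE, lcR_01 _ _ _ a b c]) (fun a b c => by
      simp only [eM, ev_lcE, lcR_12 _ _ _ a b c]) H.hm ht
  simp only [eM, ev_lcE] at h
  unfold mF lcU
  have hZ := Z_nn (H.edge_nn ht)
  have := H.dl_pos
  have := H.c0_pos
  positivity

lemma R_le {t : Fin 3 → ℝ} (ht : ∀ i, 0 ≤ t i) : RF F t ≤ VV F.D F.Da F.dl 0 t := by
  have hsym1 : ∀ a b c : ℝ, PExp.ev (vec b a c) (eR F) = PExp.ev (vec a b c) (eR F) := by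
    intro a b c
    simp only [eR, PExp.ev, ev_SE, ev_RE, ev_msE, ms_swap01 _ a b c, Rh_01]
  have hsym2 : ∀ a b c : ℝ, PExp.ev (vec a c b) (eR F) = PExp.ev (vec a b c) (eR F) := by
    intro a b c
    simp only [eR, PExp.ev, ev_SE, ev_RE, ev_msE, ms_swap12 _ a b c, Rh_12]
  have h := U_ev (F := F) hsym1 hsym2 H.hr ht
  simp only [eR, PExp.ev, ev_SE, ev_RE, ev_msE] at h
  rw [rt_pow H.r0 (ht 0), rt_pow H.r0 (ht 1), rt_pow H.r0 (ht 2), ms_rt H.r0 ht] at h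
  have hSL : (F.D.F.map fun f => (f.a0 : ℝ) * ms f.g (rt F.D.r (t 0)) (rt F.D.r (t 1))
      (rt F.D.r (t 2))).sum = 6 * SL F.D.r F.D.F 0 t := by
    unfold SL
    rw [← List.sum_map_mul_left]
    exact congrArg List.sum (List.map_congr_left fun f _ => by
      simp only [cf, MM]; ring)
  rw [hSL] at h
  have hDa := H.Da_pos
  have hden := H.den_pos
  unfold VV
  rw [pow_zero, mul_one]
  rcases (Z_nn ht).lt_or_eq with hZ | hZ
  · rw [Rh_eq _ _ _ _ _ hZ.ne'] at h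
    unfold RF
    rw [le_div_iff₀ hDa]
    push_cast at h
    have e : F.den * (6 * SL F.D.r F.D.F 0 t * (6 * Z t) ^ 5) -
        F.Da * ((6 * Z t) ^ 6 * (F.den * Av t + F.r20 * Av t ^ 2 + F.r30 * Av t ^ 3 +
          F.r11 * (Av t * Ev t) + F.r02 * Ev t ^ 2)) =
        (F.den * 6 * (6 * Z t) ^ 5) * (SL F.D.r F.D.F 0 t -
          Z t * (Av t + (F.r20 / F.den * Av t ^ 2 + F.r30 / F.den * Av t ^ 3 +
    F.r11 / F.den * (Av t * Ev t) + F.r02 / F.den * Ev t ^ 2)) * F.Da) := by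
      field_simp
      ring
    rw [e] at h
    have := (mul_nonneg_iff_of_pos_left (by positivity)).1 h
    linarith
  · have hz := Z_zero ht hZ.symm
    have e0 : RF F t = 0 := by unfold RF; rw [← hZ, zero_mul]
    have e1 : SL F.D.r F.D.F 0 t = 0 := by
      have := abs_SL_le H.ok H.r0 0 ht
      rw [← hZ, mul_zero] at this
      exact abs_eq_zero.1 (le_antisymm this (abs_nonneg _))
    rw [e0, e1, zero_div]

lemma W_le {t : Fin 3 → ℝ} (ht : ∀ i, 0 ≤ t i) :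
    (F.cn / F.cd : ℝ) * W t ≤ VV F.D F.Da F.dl 0 t := by
  have hsym1 : ∀ a b c : ℝ, PExp.ev (vec b a c) (eW F) = PExp.ev (vec a b c) (eW F) := by
    intro a b c
    simp only [eW, PExp.ev, ev_SE, ev_AE, ev_msE, ms_swap01 _ a b c, Ah_01]
  have hsym2 : ∀ a b c : ℝ, PExp.ev (vec a c b) (eW F) = PExp.ev (vec a b c) (eW F) := by
    intro a b c
    simp only [eW, PExp.ev, ev_SE, ev_AE, ev_msE, ms_swap12 _ a b c, Ah_12]
  have h := U_ev (F := F) hsym1 hsym2 H.hw ht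
  simp only [eW, PExp.ev, ev_SE, ev_AE, ev_msE] at h
  rw [rt_pow H.r0 (ht 0), rt_pow H.r0 (ht 1), rt_pow H.r0 (ht 2), ms_rt H.r0 ht] at h
  have hSL : (F.D.F.map fun f => (f.a0 : ℝ) * ms f.g (rt F.D.r (t 0)) (rt F.D.r (t 1))
      (rt F.D.r (t 2))).sum = 6 * SL F.D.r F.D.F 0 t := by
    unfold SL
    rw [← List.sum_map_mul_left]
    exact congrArg List.sum (List.map_congr_left fun f _ => by
      simp only [cf, MM]; ring)
  rw [hSL] at h
  have hDa := H.Da_pos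
  have hcd : (0 : ℝ) < F.cd := by exact_mod_cast H.cd0
  unfold VV
  rw [pow_zero, mul_one]
  rcases (Z_nn ht).lt_or_eq with hZ | hZ
  · have hW : Ah (t 0) (t 1) (t 2) = 36 * Z t * W t := by
      unfold Ah W
      rw [Fin.sum_univ_three, Fin.sum_univ_three, S3]
      field_simp
      push_cast
      ring
    rw [hW] at h
    rw [div_mul_eq_mul_div, div_le_div_iff₀ hcd hDa]
    push_cast at h
    have e : F.cd * (6 * SL F.D.r F.D.F 0 t * (6 * Z t)) - F.cn * F.Da * (36 * Z t * W t) =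
        36 * Z t * (SL F.D.r F.D.F 0 t * F.cd - F.cn * W t * F.Da) := by ring
    rw [e] at h
    have := (mul_nonneg_iff_of_pos_left (by positivity)).1 h
    linarith
  · have hz := Z_zero ht hZ.symm
    have e0 : W t = 0 := by
      unfold W
      rw [Fin.sum_univ_three, Fin.sum_univ_three, hz 0, hz 1, hz 2]
      simp
    have e1 : SL F.D.r F.D.F 0 t = 0 := by
      have := abs_SL_le H.ok H.r0 0 ht
      rw [← hZ, mul_zero] at this
      exact abs_eq_zero.1 (le_antisymm this (abs_nonneg _))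
    rw [e0, e1, mul_zero, zero_div]

lemma m_le {t : Fin 3 → ℝ} (ht : ∀ i, 0 ≤ t i) :
    mF F.D F.dl (edge F.lam t) ≤ F.lam ^ 2 * RF F t := by
  have hsym1 : ∀ a b c : ℝ, PExp.ev (vec b a c) (eML F) = PExp.ev (vec a b c) (eML F) := by
    intro a b c
    simp only [eML, eM, PExp.ev, ev_lcE, ev_RE, ev_msE, ms_swap01 _ a b c, Rh_01,
      lcR_01 _ _ _ a b c]
  have hsym2 : ∀ a b c : ℝ, PExp.ev (vec a c b) (eML F) = PExp.ev (vec a b c) (eML F) := by
    intro a b c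
    simp only [eML, eM, PExp.ev, ev_lcE, ev_RE, ev_msE, ms_swap12 _ a b c, Rh_12,
      lcR_12 _ _ _ a b c]
  have h := H.fan_ev hsym1 hsym2 H.hml ht
  simp only [eML, eM, PExp.ev, ev_lcE, ev_RE, ev_msE] at h
  rw [rt_pow H.r0 (H.edge_nn ht 0), rt_pow H.r0 (H.edge_nn ht 1),
    rt_pow H.r0 (H.edge_nn ht 2), ms_rt H.r0 (H.edge_nn ht)] at h
  have hZe : Z (edge F.lam t) = Z t := Z_edge (by norm_num) _ _
  have hc0 := H.c0_pos
  have hden := H.den_pos
  have hln := H.ln_pos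
  have hld := H.ld_pos
  have hdd : (0 : ℝ) < F.dd := by exact_mod_cast H.dd0
  rcases (Z_nn ht).lt_or_eq with hZ | hZ
  · rw [Rh_eq _ _ _ _ _ (by rw [hZe]; exact hZ.ne'), hZe, Av_edge _ hZ.ne',
      Ev_edge _ hZ.ne'] at h
    unfold mF
    rw [hZe]
    unfold lcU RF Full.lam Full.dl
    unfold Full.lam at h
    set lm := lcR F.D (fun f => f.mc) (fun e => e.1) (rt F.D.r (edge (-(F.ln / F.ld : ℝ)) t 0))
      (rt F.D.r (edge (-(F.ln / F.ld : ℝ)) t 1)) (rt F.D.r (edge (-(F.ln / F.ld : ℝ)) t 2))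
    push_cast at h
    rw [← sub_nonneg]
    have e : (-(F.ln / F.ld : ℝ)) ^ 2 * (Z t * (Av t + (F.r20 / F.den * Av t ^ 2 +
        F.r30 / F.den * Av t ^ 3 + F.r11 / F.den * (Av t * Ev t) + F.r02 / F.den * Ev t ^ 2))) -
        F.dn / F.dd * F.D.c1 / F.D.c0 * (lm / (36 * Z t)) =
        (F.D.c0 * F.dd * ((6 * Z t) ^ 6 * (F.den * F.ln ^ 4 * ((-(F.ln / F.ld : ℝ)) ^ 2 * Av t) +
          F.r20 * (F.ln ^ 2 * F.ld ^ 2) * ((-(F.ln / F.ld : ℝ)) ^ 2 * Av t) ^ 2 +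
          F.r30 * F.ld ^ 4 * ((-(F.ln / F.ld : ℝ)) ^ 2 * Av t) ^ 3 +
          -(F.r11 * (F.ln * F.ld ^ 3)) * ((-(F.ln / F.ld : ℝ)) ^ 2 * Av t *
            ((-(F.ln / F.ld : ℝ)) ^ 3 * Ev t)) +
          F.r02 * F.ld ^ 4 * ((-(F.ln / F.ld : ℝ)) ^ 3 * Ev t) ^ 2)) -
          F.dn * F.D.c1 * F.den * F.ln ^ 4 * (lm * (6 * Z t) ^ 4)) /
          (F.D.c0 * F.dd * F.den * F.ln ^ 4 * (6 * Z t) ^ 4 * (36 * Z t)) := by
      field_simp
      ring
    rw [e]
    exact div_nonneg h (by positivity)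
  · unfold mF RF
    rw [hZe, ← hZ]
    simp

lemma R_edge {r : ℝ} (h0 : 0 ≤ r) (h1 : r ≤ 1) {t : Fin 3 → ℝ} (ht : ∀ i, 0 ≤ t i) :
    RF F (edge r t) ≤ r ^ 2 * RF F t := by
  have hZe : Z (edge r t) = Z t := Z_edge (by norm_num) _ _
  have hden := H.den_pos
  rcases (Z_nn ht).lt_or_eq with hZ | hZ
  · have hsym1 : ∀ a b c : ℝ, PExp.ev (vec b a c) (eS F) = PExp.ev (vec a b c) (eS F) := by
      intro a b c
      simp only [eS, ev_RE, Rh_01]
    have hsym2 : ∀ a b c : ℝ, PExp.ev (vec a c b) (eS F) = PExp.ev (vec a b c) (eS F) := by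
      intro a b c
      simp only [eS, ev_RE, Rh_12]
    have key : ∀ τ : ℝ, 0 ≤ τ → τ ≤ 1 → 0 ≤ 2 * (F.r20 * Av t ^ 2) * τ ^ 4 +
        3 * (F.r11 * (Av t * Ev t)) * τ ^ 5 + 4 * (F.r30 * Av t ^ 3 + F.r02 * Ev t ^ 2) * τ ^ 6 := by
      intro τ k0 k1
      have ht' : ∀ i, 0 ≤ edge τ t i := edge_nonneg (potts_one_nonneg k0 k1) ht
      have h := sym_nonneg hsym1 hsym2 H.hs _ _ _ (ht' 0) (ht' 1) (ht' 2)
      simp only [eS, ev_RE, pow_one] at h
      have hZτ : Z (edge τ t) = Z t := Z_edge (by norm_num) _ _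
      rw [Rh_eq _ _ _ _ _ (by rw [hZτ]; exact hZ.ne'), hZτ, Av_edge _ hZ.ne',
        Ev_edge _ hZ.ne'] at h
      have h2 := (mul_nonneg_iff_of_pos_left (by positivity)).1 h
      push_cast at h2
      nlinarith [h2]
    set X2 := (F.r20 : ℝ) * Av t ^ 2
    set X3 := (F.r11 : ℝ) * (Av t * Ev t)
    set X4 := (F.r30 : ℝ) * Av t ^ 3 + F.r02 * Ev t ^ 2
    have pos : ∀ τ : ℝ, 0 ≤ τ → τ ≤ 1 → 0 ≤ 2 * X2 * τ + 3 * X3 * τ ^ 2 + 4 * X4 * τ ^ 3 := by
      intro τ k0 k1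
      rcases k0.lt_or_eq with hp | hp
      · have := key τ k0 k1
        have e : 2 * X2 * τ ^ 4 + 3 * X3 * τ ^ 5 + 4 * X4 * τ ^ 6 =
            τ ^ 3 * (2 * X2 * τ + 3 * X3 * τ ^ 2 + 4 * X4 * τ ^ 3) := by ring
        rw [e] at this
        exact (mul_nonneg_iff_of_pos_left (by positivity)).1 this
      · rw [← hp]; simp
    have simpson : 0 ≤ X2 * (1 - r ^ 2) + X3 * (1 - r ^ 3) + X4 * (1 - r ^ 4) := by
      have a1 := pos r h0 h1
      have a2 := pos ((1 + r) / 2) (by linarith) (by linarith)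
      have a3 := pos 1 (by norm_num) le_rfl
      have e : X2 * (1 - r ^ 2) + X3 * (1 - r ^ 3) + X4 * (1 - r ^ 4) = (1 - r) / 6 *
          ((2 * X2 * r + 3 * X3 * r ^ 2 + 4 * X4 * r ^ 3) +
          4 * (2 * X2 * ((1 + r) / 2) + 3 * X3 * ((1 + r) / 2) ^ 2 +
            4 * X4 * ((1 + r) / 2) ^ 3) +
          (2 * X2 * 1 + 3 * X3 * 1 ^ 2 + 4 * X4 * 1 ^ 3)) := by ring
      rw [e]
      have h1' : 0 ≤ 1 - r := by linarith
      positivity
    unfold RF
    rw [hZe, Av_edge _ hZ.ne', Ev_edge _ hZ.ne', ← sub_nonneg]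
    have e : r ^ 2 * (Z t * (Av t + (F.r20 / F.den * Av t ^ 2 + F.r30 / F.den * Av t ^ 3 +
        F.r11 / F.den * (Av t * Ev t) + F.r02 / F.den * Ev t ^ 2))) -
        Z t * (r ^ 2 * Av t + (F.r20 / F.den * (r ^ 2 * Av t) ^ 2 +
          F.r30 / F.den * (r ^ 2 * Av t) ^ 3 +
          F.r11 / F.den * (r ^ 2 * Av t * (r ^ 3 * Ev t)) +
          F.r02 / F.den * (r ^ 3 * Ev t) ^ 2)) =
        r ^ 2 * Z t / F.den * (((F.r20 : ℝ) * Av t ^ 2) * (1 - r ^ 2) +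
          ((F.r11 : ℝ) * (Av t * Ev t)) * (1 - r ^ 3) +
          ((F.r30 : ℝ) * Av t ^ 3 + F.r02 * Ev t ^ 2) * (1 - r ^ 4)) := by
      field_simp
      ring
    rw [e]
    exact mul_nonneg (by positivity) simpson
  · unfold RF
    rw [hZe, ← hZ]
    simp

omit H in
lemma SL_one (j : ℕ) : SL F.D.r F.D.F j (fun _ => 1) = (F.D.F.map fun f => (cf j f : ℝ)).sum := by
  unfold SL
  exact congrArg List.sum (List.map_congr_left fun f _ => by
    unfold MM ms; simp only [rt_one, one_pow]; norm_num)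

lemma unit_le {s : ℝ} (h0 : 0 ≤ s) (h1 : s ≤ F.N * F.dl) :
    Vs (VV F.D F.Da F.dl) 3 s (fun _ => 1) ≤ s - (F.gn / F.gd : ℝ) * s ^ 2 := by
  have hdl := H.dl_pos
  have hDa := H.Da_pos
  have hdn : (0 : ℝ) < F.dn := by exact_mod_cast H.dn0
  have hdd : (0 : ℝ) < F.dd := by exact_mod_cast H.dd0
  have hgd : (0 : ℝ) < F.gd := by exact_mod_cast H.gd0
  rw [Vs_VV _ hdl.ne' hDa.ne']
  rw [SL_one, SL_one, SL_one, SL_one]
  have c0 : (F.D.F.map fun f => (cf 0 f : ℝ)).sum = 0 := by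
    have : (F.D.F.map fun f => (cf 0 f : ℝ)).sum = ((F.D.F.map fun f => f.a0).sum : ℤ) := by
      rw [Int.cast_list_sum, List.map_map]; rfl
    rw [this, H.s0]; simp
  have c1 : (F.D.F.map fun f => (cf 1 f : ℝ)).sum = F.Da * F.dl := by
    have : (F.D.F.map fun f => (cf 1 f : ℝ)).sum = ((F.D.F.map fun f => f.a1).sum : ℤ) := by
      rw [Int.cast_list_sum, List.map_map]; rfl
    rw [this]
    unfold Full.dl
    have e : (((F.D.F.map fun f => f.a1).sum : ℤ) : ℝ) * F.dd = F.Da * F.dn := by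
      exact_mod_cast H.s1
    rw [mul_div_assoc', eq_div_iff hdd.ne']
    exact e
  have c2 : (F.D.F.map fun f => (cf 2 f : ℝ)).sum = ((F.D.F.map fun f => f.a2).sum : ℤ) := by
    rw [Int.cast_list_sum, List.map_map]; rfl
  have c3 : (F.D.F.map fun f => (cf 3 f : ℝ)).sum = ((F.D.F.map fun f => f.a3).sum : ℤ) := by
    rw [Int.cast_list_sum, List.map_map]; rfl
  rw [c0, c1, c2, c3]
  set A2 : ℝ := (((F.D.F.map fun f => f.a2).sum : ℤ) : ℝ) with hA2
  set A3 : ℝ := (((F.D.F.map fun f => f.a3).sum : ℤ) : ℝ) with hA3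
  have v2 : A2 * (F.dd ^ 2 * F.gd) ≤ -(F.gn * F.Da * F.dn ^ 2) := by
    have := H.v2
    rw [hA2]
    exact_mod_cast this
  have v3 : (A2 + F.N * A3) * (F.dd ^ 2 * F.gd) ≤ -(F.gn * F.Da * F.dn ^ 2) := by
    have := H.v3
    rw [hA2, hA3]
    exact_mod_cast this
  set τ := s / F.dl with hτ
  have hs : s = τ * F.dl := by rw [hτ]; field_simp
  have t0 : 0 ≤ τ := by positivity
  have t1 : τ ≤ F.N := by rw [hτ, div_le_iff₀ hdl]; exact h1
  have key : (A2 + τ * A3) * (F.dd ^ 2 * F.gd) ≤ -(F.gn * F.Da * F.dn ^ 2) := by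
    rcases le_total A3 0 with h3 | h3
    · have : (A2 + τ * A3) * (F.dd ^ 2 * F.gd) ≤ A2 * (F.dd ^ 2 * F.gd) := by
        have : τ * A3 ≤ 0 := mul_nonpos_of_nonneg_of_nonpos t0 h3
        have hp : (0 : ℝ) < F.dd ^ 2 * F.gd := by positivity
        nlinarith
      linarith
    · have : (A2 + τ * A3) * (F.dd ^ 2 * F.gd) ≤ (A2 + F.N * A3) * (F.dd ^ 2 * F.gd) := by
        have : τ * A3 ≤ F.N * A3 := mul_le_mul_of_nonneg_right t1 h3
        have hp : (0 : ℝ) < F.dd ^ 2 * F.gd := by positivity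
        nlinarith
      linarith
  have hdl2 : F.dl ^ 2 * F.dd ^ 2 = F.dn ^ 2 := by unfold Full.dl; field_simp
  have key2 : A2 + τ * A3 ≤ -(F.gn / F.gd : ℝ) * (F.Da * F.dl ^ 2) := by
    have hp : (0 : ℝ) < F.dd ^ 2 * F.gd := by positivity
    have e : -(F.gn / F.gd : ℝ) * (F.Da * F.dl ^ 2) * (F.dd ^ 2 * F.gd) =
        -(F.gn * F.Da * F.dn ^ 2) := by
      rw [← hdl2]; field_simp
    rw [← e] at key
    exact le_of_mul_le_mul_right key hp
  rw [hs, div_le_iff₀ hDa]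
  have hτ2 : 0 ≤ τ ^ 2 := sq_nonneg τ
  nlinarith [mul_le_mul_of_nonneg_left key2 hτ2]

end Valid

end Sep2

end Vale.Agent.P154
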