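import Mathlib
import Vale.Agent.P154.PMHJ
import Vale.Agent.P154.KS

/-!
# P154: nonreconstruction from checked data
-/

namespace Vale.Agent.P154

open Finset MeasureTheory ProbabilityTheory
open scoped NNReal

namespace Sep2

/-- bound for `V j` -/
noncomputable def BVj (F : Full) (j : ℕ) : ℝ :=
  (F.D.F.map fun f => |(cf j f : ℝ)| * 3).sum / (F.Da * F.dl ^ j)

noncomputable def BR (F : Full) : ℝ :=
  2 + (4 * |(F.r20 / F.den : ℝ)| + 8 * |(F.r30 / F.den : ℝ)| + 16 * |(F.r11 / F.den : ℝ)| +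
    64 * |(F.r02 / F.den : ℝ)|)

noncomputable def Bm (F : Full) : ℝ :=
  F.dl * F.D.c1 / F.D.c0 * (((F.D.F.map fun f => |(f.mc : ℝ)| * 108).sum +
    (F.D.G.map fun e => |(e.2.1 : ℝ)| * 324).sum) / 36)

noncomputable def BB (F : Full) : ℝ :=
  (BVj F 0 + BVj F 1 + BVj F 2 + BVj F 3) + BR F + Bm F

lemma listsum_nonneg' {ι : Type} (L : List ι) (f : ι → ℝ) (h : ∀ i, 0 ≤ f i) :
    0 ≤ (L.map f).sum := by
  apply List.sum_nonneg
  intro x hx
  obtain ⟨i, _, rfl⟩ := List.mem_map.1 hx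
  exact h i

namespace Valid

variable {F : Full} (H : Valid F)

include H

lemma BVj_nonneg (j : ℕ) : 0 ≤ BVj F j := by
  have := H.Da_pos
  have := H.dl_pos
  exact div_nonneg (listsum_nonneg' _ _ fun f => by positivity) (by positivity)

lemma Bm_nonneg : 0 ≤ Bm F := by
  have := H.dl_pos
  have := H.c0_pos
  have h1 := listsum_nonneg' F.D.F (fun f => |(f.mc : ℝ)| * 108) fun f => by positivity
  have h2 := listsum_nonneg' F.D.G (fun e => |(e.2.1 : ℝ)| * 324) fun f => by positivity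
  unfold Bm
  positivity

omit H in
lemma BR_nonneg : 0 ≤ BR F := by unfold BR; positivity

lemma V_bound (j : ℕ) {u : Fin 3 → ℝ} (hu : ∀ i, 0 ≤ u i) :
    |VV F.D F.Da F.dl j u| ≤ BB F * Z u := by
  have hDa := H.Da_pos
  have hdl := H.dl_pos
  have hZ := Z_nn hu
  have h1 : |VV F.D F.Da F.dl j u| ≤ BVj F j * Z u := by
    unfold VV BVj
    rw [abs_div, abs_of_pos (by positivity : 0 < (F.Da : ℝ) * F.dl ^ j), div_mul_eq_mul_div]
    exact div_le_div_of_nonneg_right (abs_SL_le H.ok H.r0 j hu) (by positivity)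
  have n0 := H.BVj_nonneg 0
  have n1 := H.BVj_nonneg 1
  have n2 := H.BVj_nonneg 2
  have n3 := H.BVj_nonneg 3
  have nR := BR_nonneg (F := F)
  have nm := H.Bm_nonneg
  have h2 : BVj F j ≤ BB F := by
    unfold BB
    rcases Nat.lt_or_ge j 4 with hj | hj
    · interval_cases j <;> linarith
    · have : BVj F j = 0 := by
        unfold BVj
        have : (F.D.F.map fun f => |(cf j f : ℝ)| * 3).sum = 0 := by
          apply List.sum_eq_zero
          intro x hx
          obtain ⟨f, _, rfl⟩ := List.mem_map.1 hx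
          rw [cf_ge4 hj]; simp
        rw [this, zero_div]
      rw [this]; linarith
  exact h1.trans (mul_le_mul_of_nonneg_right h2 hZ)

lemma R_bound {t : Fin 3 → ℝ} (ht : ∀ i, 0 ≤ t i) : |RF F t| ≤ BB F * Z t := by
  have hZ := Z_nn ht
  have n0 := H.BVj_nonneg 0
  have n1 := H.BVj_nonneg 1
  have n2 := H.BVj_nonneg 2
  have n3 := H.BVj_nonneg 3
  have nm := H.Bm_nonneg
  have h2 : BR F ≤ BB F := by unfold BB; linarith
  refine le_trans ?_ (mul_le_mul_of_nonneg_right h2 hZ)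
  rcases hZ.lt_or_eq with hp | hp
  · obtain ⟨a0, a1, e1⟩ := AvEv_bound ht hp
    have ha : |Av t| ≤ 2 := abs_le.2 ⟨by linarith, a1⟩
    unfold RF BR
    rw [abs_mul, abs_of_pos hp, mul_comm]
    refine mul_le_mul_of_nonneg_right ?_ hp.le
    refine (abs_add_le _ _).trans (add_le_add ha ?_)
    refine (abs_add_le _ _).trans (add_le_add ((abs_add_le _ _).trans (add_le_add
      ((abs_add_le _ _).trans (add_le_add ?_ ?_)) ?_)) ?_)
    · rw [abs_mul, abs_pow, mul_comm]
      refine mul_le_mul_of_nonneg_right ?_ (abs_nonneg _)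
      calc |Av t| ^ 2 ≤ 2 ^ 2 := by gcongr
        _ = 4 := by norm_num
    · rw [abs_mul, abs_pow, mul_comm]
      refine mul_le_mul_of_nonneg_right ?_ (abs_nonneg _)
      calc |Av t| ^ 3 ≤ 2 ^ 3 := by gcongr
        _ = 8 := by norm_num
    · rw [abs_mul, abs_mul, mul_comm]
      refine mul_le_mul_of_nonneg_right ?_ (abs_nonneg _)
      calc |Av t| * |Ev t| ≤ 2 * 8 := by gcongr
        _ = 16 := by norm_num
    · rw [abs_mul, abs_pow, mul_comm]
      refine mul_le_mul_of_nonneg_right ?_ (abs_nonneg _)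
      calc |Ev t| ^ 2 ≤ 8 ^ 2 := by gcongr
        _ = 64 := by norm_num
  · unfold RF
    rw [← hp]; simp

lemma m_bound {t : Fin 3 → ℝ} (ht : ∀ i, 0 ≤ t i) :
    mF F.D F.dl (edge F.lam t) ≤ BB F * Z t := by
  have hZ := Z_nn ht
  have n0 := H.BVj_nonneg 0
  have n1 := H.BVj_nonneg 1
  have n2 := H.BVj_nonneg 2
  have n3 := H.BVj_nonneg 3
  have nR := BR_nonneg (F := F)
  have h2 : Bm F ≤ BB F := by unfold BB; linarith
  refine le_trans ?_ (mul_le_mul_of_nonneg_right h2 hZ)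
  have hdl := H.dl_pos
  have hc0 := H.c0_pos
  have hZe : Z (edge F.lam t) = Z t := Z_edge (by norm_num) _ _
  rcases hZ.lt_or_eq with hp | hp
  · have h3 := abs_lcU_le H.ok H.r0 (fun f => f.mc) (fun e => e.1) (H.edge_nn ht)
    rw [hZe] at h3
    unfold mF Bm
    rw [hZe]
    have h4 := (le_abs_self _).trans h3
    rw [mul_assoc]
    refine mul_le_mul_of_nonneg_left ?_ (by positivity)
    rw [div_mul_eq_mul_div, div_le_div_iff₀ (by positivity) (by norm_num)]
    nlinarith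
  · unfold mF
    rw [hZe, ← hp]; simp

lemma q_nonneg_of (hq : ∀ Q ∈ fanCells F.fan, ∀ a b c, InC Q a b c →
    0 ≤ PExp.ev (vec a b c) (eQ F)) {t : Fin 3 → ℝ} (ht : ∀ i, 0 ≤ t i) :
    0 ≤ qF F.D F.dl (edge F.lam t) := by
  have h := H.fan_ev (e := eQ F) (fun a b c => by
      simp only [eQ, ev_lcE, lcR_01 _ _ _ a b c]) (fun a b c => by
      simp only [eQ, ev_lcE, lcR_12 _ _ _ a b c]) hq ht
  simp only [eQ, ev_lcE] at h
  unfold qF lcU
  have hZ := Z_nn (H.edge_nn ht)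
  have := H.dl_pos
  have := H.c0_pos
  positivity

lemma main_HJ {s : ℝ} (h0 : 0 ≤ s) (h1 : s ≤ F.N * F.dl) {u t : Fin 3 → ℝ}
    (hu : ∀ i, 0 ≤ u i) (ht : ∀ i, 0 ≤ t i) :
    ∑ π : Equiv.Perm (Fin 3), Vs (VV F.D F.Da F.dl) 3 s (fun i => u i * edge F.lam t (π i)) ≤
      ((univ : Finset (Equiv.Perm (Fin 3))).card : ℝ) *
      (Vs (VV F.D F.Da F.dl) 3 s u * Z (edge F.lam t) + mF F.D F.dl (edge F.lam t) *
        dVs (VV F.D F.Da F.dl) 3 s u +
        qF F.D F.dl (edge F.lam t) * KF F.D F.Da F.dl s u) := by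
  have hc : ((univ : Finset (Equiv.Perm (Fin 3))).card : ℝ) = 6 := by
    rw [Finset.card_univ, Fintype.card_perm, Fintype.card_fin]; norm_num [Nat.factorial]
  rw [hc]
  exact main_ineq F.D H.ok H.r0 H.Da_pos H.dl_pos H.c0 hu (H.edge_nn ht)
    (H.GR_nonneg h0 h1 hu ht)

/-- certificate for random trees -/
noncomputable def hj0 (hc2 : F.D.c2 = 0) : HJ 3 F.lam where
  J := 3
  V := VV F.D F.Da F.dl
  m := mF F.D F.dl
  qq := fun _ => 0
  K := fun _ _ => 0
  R := RF F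
  T := F.N * F.dl
  S := univ
  S_nonempty := ⟨1, mem_univ _⟩
  B := BB F
  V_bound := fun j u hu => H.V_bound j hu
  R_bound := fun t ht => H.R_bound ht
  m_bound := fun t ht => H.m_bound ht
  m_nonneg := fun t ht => H.m_nonneg ht
  K_nonpos := fun _ _ _ _ _ => le_rfl
  qq_nonneg := fun _ _ => le_rfl
  main := fun s h0 h1 u t hu ht => by
    have h := H.main_HJ h0 h1 hu ht
    have hq : qF F.D F.dl (edge F.lam t) = 0 := by
      unfold qF; rw [hc2]; simp
    rw [hq, zero_mul] at h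
    rw [zero_mul]
    exact h
  m_le := fun t ht => H.m_le ht
  R_le := fun t ht => H.R_le ht
  R_edge := fun r h0 h1 t ht => H.R_edge h0 h1 ht
  c := F.cn / F.cd
  c_pos := by
    have h1 : (0 : ℝ) < F.cn := by exact_mod_cast H.cn0
    have h2 : (0 : ℝ) < F.cd := by exact_mod_cast H.cd0
    positivity
  W_le := fun t ht => H.W_le ht
  gam := F.gn / F.gd
  gam_pos := by
    have h1 : (0 : ℝ) < F.gn := by exact_mod_cast H.gn0
    have h2 : (0 : ℝ) < F.gd := by exact_mod_cast H.gd0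
    positivity
  unit_le := fun s h0 h1 => H.unit_le h0 h1

end Valid

/-- additional conditions for the quadratic term -/
structure KValid (F : Full) : Prop where
  hkN : ∀ a b c, InC U0 a b c → 0 ≤ PExp.ev (vec a b c) (eKN F)
  hv3 : ∀ a b c, InC U0 a b c → 0 ≤ PExp.ev (vec a b c) (eV3 F)
  hq : ∀ Q ∈ fanCells F.fan, ∀ a b c, InC Q a b c → 0 ≤ PExp.ev (vec a b c) (eQ F)
  hqm : ∀ Q ∈ fanCells F.fan, ∀ a b c, InC Q a b c → 0 ≤ PExp.ev (vec a b c) (eQM F)

namespace Valid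

variable {F : Full} (H : Valid F) (H' : KValid F)

include H H'

omit H in
lemma V3_nonneg {u : Fin 3 → ℝ} (hu : ∀ i, 0 ≤ u i) : 0 ≤ SL F.D.r F.D.F 3 u := by
  have h := U_ev (F := F) (e := eV3 F) (fun a b c => by
      simp only [eV3, ev_SE, ms_swap01 _ a b c]) (fun a b c => by
      simp only [eV3, ev_SE, ms_swap12 _ a b c]) H'.hv3 hu
  simp only [eV3, ev_SE] at h
  have e : (F.D.F.map fun f => (f.a3 : ℝ) * ms f.g (rt F.D.r (u 0)) (rt F.D.r (u 1))
      (rt F.D.r (u 2))).sum = 6 * SL F.D.r F.D.F 3 u := by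
    unfold SL
    rw [← List.sum_map_mul_left]
    exact congrArg List.sum (List.map_congr_left fun f _ => by simp only [cf, MM]; ring)
  rw [e] at h
  linarith

omit H in
lemma KN_le {u : Fin 3 → ℝ} (hu : ∀ i, 0 ≤ u i) :
    SL F.D.r F.D.F 2 u + 3 * F.N * SL F.D.r F.D.F 3 u ≤ 0 := by
  have h := U_ev (F := F) (e := eKN F) (fun a b c => by
      simp only [eKN, ev_SE, ms_swap01 _ a b c]) (fun a b c => by
      simp only [eKN, ev_SE, ms_swap12 _ a b c]) H'.hkN hu
  simp only [eKN, ev_SE] at h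
  have e : ∀ L : List FD, (L.map fun f => ((-(f.a2 + 3 * (F.N : ℤ) * f.a3) : ℤ) : ℝ) *
      ms f.g (rt F.D.r (u 0)) (rt F.D.r (u 1)) (rt F.D.r (u 2))).sum =
      -6 * (SL F.D.r L 2 u + 3 * F.N * SL F.D.r L 3 u) := by
    intro L
    unfold SL
    induction L with
    | nil => simp
    | cons f l ih =>
      simp only [List.map_cons, List.sum_cons]
      rw [ih]
      simp only [cf, MM]
      push_cast
      ring
  rw [e] at h
  linarith

lemma K_nonpos {s : ℝ} (h0 : 0 ≤ s) (h1 : s ≤ F.N * F.dl) {u : Fin 3 → ℝ}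
    (hu : ∀ i, 0 ≤ u i) : KF F.D F.Da F.dl s u ≤ 0 := by
  have hdl := H.dl_pos
  have hDa := H.Da_pos
  have h3 := V3_nonneg H' hu
  have hN := KN_le H' hu
  unfold KF
  have t0 : 0 ≤ s / F.dl := by positivity
  have t1 : s / F.dl ≤ F.N := by rw [div_le_iff₀ hdl]; exact h1
  refine div_nonpos_of_nonpos_of_nonneg ?_ (by positivity)
  nlinarith [mul_le_mul_of_nonneg_right t1 h3]

/-- certificate with quadratic term -/
noncomputable def hj1 : HJ 3 F.lam where
  J := 3
  V := VV F.D F.Da F.dl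
  m := mF F.D F.dl
  qq := qF F.D F.dl
  K := KF F.D F.Da F.dl
  R := RF F
  T := F.N * F.dl
  S := univ
  S_nonempty := ⟨1, mem_univ _⟩
  B := BB F
  V_bound := fun j u hu => H.V_bound j hu
  R_bound := fun t ht => H.R_bound ht
  m_bound := fun t ht => H.m_bound ht
  m_nonneg := fun t ht => H.m_nonneg ht
  K_nonpos := fun s h0 h1 u hu => H.K_nonpos H' h0 h1 hu
  qq_nonneg := fun t ht => H.q_nonneg_of H'.hq ht
  main := fun s h0 h1 u t hu ht => H.main_HJ h0 h1 hu ht
  m_le := fun t ht => H.m_le ht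
  R_le := fun t ht => H.R_le ht
  R_edge := fun r h0 h1 t ht => H.R_edge h0 h1 ht
  c := F.cn / F.cd
  c_pos := by
    have h1 : (0 : ℝ) < F.cn := by exact_mod_cast H.cn0
    have h2 : (0 : ℝ) < F.cd := by exact_mod_cast H.cd0
    positivity
  W_le := fun t ht => H.W_le ht
  gam := F.gn / F.gd
  gam_pos := by
    have h1 : (0 : ℝ) < F.gn := by exact_mod_cast H.gn0
    have h2 : (0 : ℝ) < F.gd := by exact_mod_cast H.gd0
    positivity
  unit_le := fun s h0 h1 => H.unit_le h0 h1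

lemma reg : (H.hj1 H').Reg where
  conv := fun s r h0 hr hT u hu => by
    change Vs (VV F.D F.Da F.dl) 3 s u + r * dVs (VV F.D F.Da F.dl) 3 s u +
      r ^ 2 * KF F.D F.Da F.dl s u ≤ Vs (VV F.D F.Da F.dl) 3 (s + r) u
    have hdl := H.dl_pos
    have hDa := H.Da_pos
    have h3 := V3_nonneg H' hu
    rw [Vs_VV _ hdl.ne' hDa.ne', Vs_VV _ hdl.ne' hDa.ne', dVs_VV _ hdl.ne' hDa.ne']
    unfold KF
    rw [← sub_nonneg]
    have e : (SL F.D.r F.D.F 0 u + (s + r) / F.dl * SL F.D.r F.D.F 1 u +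
        ((s + r) / F.dl) ^ 2 * SL F.D.r F.D.F 2 u +
        ((s + r) / F.dl) ^ 3 * SL F.D.r F.D.F 3 u) / F.Da -
        ((SL F.D.r F.D.F 0 u + s / F.dl * SL F.D.r F.D.F 1 u +
        (s / F.dl) ^ 2 * SL F.D.r F.D.F 2 u + (s / F.dl) ^ 3 * SL F.D.r F.D.F 3 u) / F.Da +
        r * ((SL F.D.r F.D.F 1 u + 2 * (s / F.dl) * SL F.D.r F.D.F 2 u +
        3 * (s / F.dl) ^ 2 * SL F.D.r F.D.F 3 u) / (F.Da * F.dl)) +
        r ^ 2 * ((SL F.D.r F.D.F 2 u + 3 * (s / F.dl) * SL F.D.r F.D.F 3 u) /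
          (F.Da * F.dl ^ 2))) = (r / F.dl) ^ 3 * SL F.D.r F.D.F 3 u / F.Da := by
      field_simp
      ring
    rw [e]
    positivity
  qq_ge := fun t ht => by
    change mF F.D F.dl (edge F.lam t) ^ 2 ≤ qF F.D F.dl (edge F.lam t) * Z (edge F.lam t)
    have hdl := H.dl_pos
    have hc0 := H.c0_pos
    have h := H.fan_ev (e := eQM F) (fun a b c => by
      simp only [eQM, eQ, eM, PExp.ev, ev_lcE, ev_msE, ms_swap01 _ a b c, lcR_01 _ _ _ a b c])
      (fun a b c => by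
      simp only [eQM, eQ, eM, PExp.ev, ev_lcE, ev_msE, ms_swap12 _ a b c, lcR_12 _ _ _ a b c])
      H'.hqm ht
    simp only [eQM, eQ, eM, PExp.ev, ev_lcE, ev_msE] at h
    rw [ms_rt H.r0 (H.edge_nn ht)] at h
    have hZe : Z (edge F.lam t) = Z t := Z_edge (by norm_num) _ _
    rcases (Z_nn ht).lt_or_eq with hZ | hZ
    · rw [hZe] at h
      unfold mF qF lcU
      rw [hZe]
      set lm := lcR F.D (fun f => f.mc) (fun e => e.1) (rt F.D.r (edge F.lam t 0))
        (rt F.D.r (edge F.lam t 1)) (rt F.D.r (edge F.lam t 2))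
      set lq := lcR F.D (fun f => f.qc) (fun e => e.2) (rt F.D.r (edge F.lam t 0))
        (rt F.D.r (edge F.lam t 1)) (rt F.D.r (edge F.lam t 2))
      push_cast at h
      rw [← sub_nonneg]
      have e : F.dl ^ 2 * F.D.c2 / F.D.c0 * (lq / (36 * Z t)) * Z t -
          (F.dl * F.D.c1 / F.D.c0 * (lm / (36 * Z t))) ^ 2 =
          (F.D.c0 * F.D.c2 * ((6 * Z t) ^ 2 * lq) - F.D.c1 ^ 2 * lm ^ 2) *
            (F.dl ^ 2 / (F.D.c0 ^ 2 * 36 ^ 2 * Z t ^ 2)) := by
        field_simp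
        ring
      rw [e]
      exact mul_nonneg h (by positivity)
    · unfold mF qF
      rw [hZe, ← hZ]
      simp

end Valid

/-! ### final statements -/

lemma RF_corner (F : Full) (j : Fin 3) : RF F (fun i => if j = i then 1 else 0) =
    1 / 3 * (2 + (4 * (F.r20 / F.den) + 8 * (F.r30 / F.den) + 4 * (F.r11 / F.den) +
      4 * (F.r02 / F.den))) := by
  have hZ : Z (fun i : Fin 3 => if j = i then (1 : ℝ) else 0) = 1 / 3 := by
    rw [Z3]
    fin_cases j <;> simp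
  unfold RF Av Ev
  rw [hZ]
  fin_cases j <;> simp <;> ring

lemma corner_le {F : Full} (H : Valid F)
    (hT : (2 * (F.den : ℤ) + (4 * F.r20 + 8 * F.r30 + 4 * F.r11 + 4 * F.r02)) * F.dd ≤
      F.N * F.dn * F.den) (lam : ℝ) (N : List ℕ → ℕ) :
    tot (RF F) (lik 3 lam N 0) ≤ F.N * F.dl := by
  rw [tot_lik_zero]
  simp only [RF_corner]
  have hden := H.den_pos
  have hdd : (0 : ℝ) < F.dd := by exact_mod_cast H.dd0
  have h : (2 * (F.den : ℝ) + (4 * F.r20 + 8 * F.r30 + 4 * F.r11 + 4 * F.r02)) * F.dd ≤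
      F.N * F.dn * F.den := by exact_mod_cast hT
  rw [Finset.sum_const, Finset.card_univ, Fintype.card_fin]
  unfold Full.dl
  rw [nsmul_eq_mul, ← sub_nonneg]
  have e : (F.N : ℝ) * (F.dn / F.dd) - ((3 : ℕ) : ℝ) * (1 / 3 * (2 + (4 * (F.r20 / F.den) +
      8 * (F.r30 / F.den) + 4 * (F.r11 / F.den) + 4 * (F.r02 / F.den)))) =
      (F.N * F.dn * F.den - (2 * (F.den : ℝ) + (4 * F.r20 + 8 * F.r30 + 4 * F.r11 +
        4 * F.r02)) * F.dd) / (F.dd * F.den) := by
    field_simp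
    push_cast
    ring
  rw [e]
  exact div_nonneg (by linarith) (by positivity)

/-- nonreconstruction on Poisson trees from a Hamilton–Jacobi certificate -/
theorem poisson_of_HJ {lam0 : ℝ} (hl0 : lam0 < 0) (hl : -1 / 2 ≤ lam0) (C : HJ 3 lam0)
    (hstart : ∀ lam N, tot C.R (lik 3 lam N 0) ≤ C.T) {lam : ℝ} (h0 : lam0 ≤ lam)
    (h1 : lam ≤ 0) {d : ℝ≥0} (hd : d * lam ^ 2 ≤ 1) : Nonreconstruction (aPoisson 3 lam d) := by
  have e : lam0 * (lam / lam0) = lam := mul_div_cancel₀ _ hl0.ne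
  have r0 : 0 ≤ lam / lam0 := div_nonneg_of_nonpos h1 hl0.le
  have r1 : lam / lam0 ≤ 1 := by
    rw [div_le_one_of_neg hl0]; exact h0
  have key := C.nonreconstruction_poisson (by norm_num) hl0.ne r0 r1
    (by rw [e]; exact admissible_three (by linarith) (by linarith)) (d := d)
    (by rw [e]; exact hd) (n0 := 0) (by
      rw [e]
      calc ∫ N, tot C.R (lik 3 lam N 0) ∂(gwLaw (poissonMeasure d))
          = tot C.R (lik 3 lam (fun _ => 0) 0) := by
            have : ∀ N, tot C.R (lik 3 lam N 0) = tot C.R (lik 3 lam (fun _ => 0) 0) := by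
              intro N; rw [tot_lik_zero, tot_lik_zero]
            simp only [this]
            rw [integral_const]
            simp
        _ ≤ C.T := hstart _ _)
  rwa [e] at key

/-- nonreconstruction on regular trees from a Hamilton–Jacobi certificate -/
theorem regular_of_HJ {lam0 : ℝ} (hl0 : lam0 < 0) (hl : -1 / 2 ≤ lam0) (C : HJ 3 lam0)
    (hR : C.Reg) (hstart : ∀ lam N, tot C.R (lik 3 lam N 0) ≤ C.T) {lam : ℝ} (h0 : lam0 ≤ lam)
    (h1 : lam ≤ 0) {d : ℕ} (hd : d * lam ^ 2 ≤ 1) : Nonreconstruction (aRegular 3 lam d) := by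
  have e : lam0 * (lam / lam0) = lam := mul_div_cancel₀ _ hl0.ne
  have r0 : 0 ≤ lam / lam0 := div_nonneg_of_nonpos h1 hl0.le
  have r1 : lam / lam0 ≤ 1 := by
    rw [div_le_one_of_neg hl0]; exact h0
  have key := C.nonreconstruction_regular hR (by norm_num) hl0.ne r0 r1
    (by rw [e]; exact admissible_three (by linarith) (by linarith)) (d := d)
    (by rw [e]; exact hd) (n0 := 0) (by rw [e]; exact hstart _ _)
  rwa [e] at key

end Sep2

end Vale.Agent.P154
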