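import Mathlib
import Vale.Agent.P154.PMCert

/-! data of the certificate A6 -/

namespace Vale.Agent.P154.Sep2

noncomputable def datA6 : Dat where
  r := 6
  F := [⟨(5, 1, 0), (-108230112), 5979993, (-152657), 0,
      74556310975776, 307392684245748⟩,
    ⟨(4, 2, 0), 198232164, (-32100267), 1115363, 0,
      (-190413828478080), (-356597471522268)⟩,
    ⟨(4, 1, 1), 364971060, (-7285703), (-189422), 0,
      21594652469952, (-363307468769604)⟩,
    ⟨(3, 3, 0), (-41045300), 28569826, (-1167429), 0,
      135741547807104, 0⟩,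
    ⟨(3, 2, 1), (-1161586116), 33006038, 411702, 0,
      (-70255319367648), 618798438315720⟩,
    ⟨(2, 2, 2), 723264057, (-27244622), (-18326), 0,
      42180527291214, (-278804444297040)⟩,
    ⟨(6, 0, 0), 24394247, 154735, (-244), 0,
      (-13365763364909), (-51585218318664)⟩]
  G := [((12, 0, 0), (-38127333409), (-452443917197)),
    ((6, 6, 0), 0, (-35)),
    ((9, 3, 0), 0, 83448832420836),
    ((6, 3, 3), 0, 41107091842504)]
  c0 := 48600000000
  c1 := 27
  c2 := 128

noncomputable def fullA6 : Full where
  D := datA6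
  ln := 2
  ld := 5
  dn := 3
  dd := 16
  N := 16
  Da := 5760000
  den := 100000
  r20 := 6392
  r30 := 2299
  r11 := 8631
  r02 := 1386
  cn := 1
  cd := 10
  gn := 1
  gd := 1000
  fan := [(18, 18, 13), (56, 51, 51)]

end Vale.Agent.P154.Sep2
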