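import Vale.Agent.P154.A6Main
import Vale.Agent.P154.Near.RegNeg

/-!
# P154: three colours, `-2/5 ≤ λ ≤ 0`
-/

namespace Vale.Agent.P154

open Sep2

lemma lamA6 : fullA6.lam = -2 / 5 := by
  unfold Full.lam
  norm_num [fullA6, datA6]

/-- nonreconstruction on Poisson trees, `-2/5 ≤ λ ≤ 0` -/
theorem poisson_A6 {lam : ℝ} (h0 : -2 / 5 ≤ lam) (h1 : lam ≤ 0) {d : NNReal}
    (hd : d * lam ^ 2 ≤ 1) : Nonreconstruction (aPoisson 3 lam d) :=
  poisson_of_HJ (lam0 := fullA6.lam) (by rw [lamA6]; norm_num) (by rw [lamA6]; norm_num)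
    (validA6.hj1 kvalidA6) (fun lam N => corner_le validA6 cornerA6 lam N)
    (by rw [lamA6]; exact h0) h1 hd

/-- nonreconstruction on regular trees, `-2/5 ≤ λ ≤ 0` -/
theorem regular_A6 {lam : ℝ} (h0 : -2 / 5 ≤ lam) (h1 : lam ≤ 0) {d : ℕ}
    (hd : d * lam ^ 2 ≤ 1) : Nonreconstruction (aRegular 3 lam d) :=
  regular_of_HJ (lam0 := fullA6.lam) (by rw [lamA6]; norm_num) (by rw [lamA6]; norm_num)
    (validA6.hj1 kvalidA6) (validA6.reg kvalidA6)
    (fun lam N => corner_le validA6 cornerA6 lam N) (by rw [lamA6]; exact h0) h1 hd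

theorem iff_of {a : ℕ → ℝ} {p : Prop} (h1 : ¬ p → Nonreconstruction a)
    (h2 : p → Reconstruction a) : (Reconstruction a ↔ p) ∧ (Nonreconstruction a ↔ ¬ p) := by
  refine ⟨⟨fun hr => ?_, h2⟩, ⟨fun hn hp => not_both (h2 hp) hn, h1⟩⟩
  by_contra h3
  exact not_both hr (h1 h3)

theorem threshold_poisson_A6 {lam : ℝ} (h0 : -2 / 5 ≤ lam) (h1 : lam ≤ 0) {d : NNReal} :
    (Reconstruction (aPoisson 3 lam d) ↔ 1 < (d : ℝ) * lam ^ 2) ∧
    (Nonreconstruction (aPoisson 3 lam d) ↔ (d : ℝ) * lam ^ 2 ≤ 1) := by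
  have := iff_of (a := aPoisson 3 lam d) (p := 1 < (d : ℝ) * lam ^ 2)
    (fun h => poisson_A6 h0 h1 (not_lt.1 h))
    (fun h => ks_poisson (by norm_num) (admissible_three (by linarith) (by linarith)) h)
  rwa [not_lt] at this

theorem threshold_regular_A6 {lam : ℝ} (h0 : -1 / 2 ≤ lam) (h1 : lam ≤ 0) {d : ℕ}
    (hd : d ≤ 4 ∨ 7 ≤ d ∨ -2 / 5 ≤ lam) :
    (Reconstruction (aRegular 3 lam d) ↔ 1 < (d : ℝ) * lam ^ 2) ∧
    (Nonreconstruction (aRegular 3 lam d) ↔ (d : ℝ) * lam ^ 2 ≤ 1) := by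
  rcases hd with hd | hd
  · exact threshold_four h0 h1 hd
  · have := iff_of (a := aRegular 3 lam d) (p := 1 < (d : ℝ) * lam ^ 2)
      (fun h => by
        rw [not_lt] at h
        refine regular_A6 ?_ h1 h
        rcases hd with hd | hd
        · have h7 : (7 : ℝ) ≤ d := by exact_mod_cast hd
          by_contra hc
          push Not at hc
          nlinarith [mul_le_mul_of_nonneg_right h7 (sq_nonneg lam)]
        · exact hd)
      (fun h => ks_regular (by norm_num) (admissible_three (by linarith) (by linarith)) h)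
    rwa [not_lt] at this

end Vale.Agent.P154
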