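import Mathlib
import Vale.Agent.P154.PMCert

/-!
# P154: one-vector tests on all cells of a fan
-/

namespace Vale.Agent.P154

namespace Sep2

noncomputable def chkFan (e : PExp) (n : ℕ) : List Tree → List Cell → Bool
  | t :: ts, Q :: Qs => chk1 e n t Q && chkFan e n ts Qs
  | _, [] => true
  | [], _ :: _ => false

theorem chkFan_sound {e : PExp} {n : ℕ} (hh : hom n e = true) :
    ∀ (ts : List Tree) (Qs : List Cell), chkFan e n ts Qs = true →
      ∀ Q ∈ Qs, ∀ a b c : ℝ, InC Q a b c → 0 ≤ PExp.ev (vec a b c) e := by
  intro ts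
  induction ts with
  | nil =>
    intro Qs h Q hQ
    cases Qs with
    | nil => simp at hQ
    | cons R Rs => simp [chkFan] at h
  | cons t ts ih =>
    intro Qs h Q hQ
    cases Qs with
    | nil => simp at hQ
    | cons R Rs =>
      simp only [chkFan, Bool.and_eq_true] at h
      rcases List.mem_cons.1 hQ with rfl | hQ
      · exact chk1_sound hh t _ h.1
      · exact ih Rs h.2 Q hQ

end Sep2

end Vale.Agent.P154
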