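import Mathlib
import Vale.Agent.P154.PMFan
import Vale.Agent.P154.A6Data

namespace Vale.Agent.P154.Sep2

theorem partA6_3 : chkT datA6 [] (.spV 0 1 6 5 (6, 6, 5) (.spV 0 1 5 1 (11, 11, 10) (.spU 2 1 1 1 (3, 2, 2) (.leaf 26 185) (.spU 2 1 6 1 (17, 14, 11) (.spS 1 (.leaf 28 188) (.leaf 28 188)) (.leaf 32 191))) (.spV 2 1 6 1 (92, 87, 81) (.spU 2 1 1 1 (3, 2, 2) (.leaf 26 193) (.spU 2 1 6 1 (17, 14, 11) (.leaf 28 196) (.leaf 32 199))) (.spU 2 1 1 1 (3, 2, 2) (.leaf 26 199) (.spU 2 1 6 1 (17, 14, 11) (.leaf 28 203) (.leaf 32 206))))) (.spV 2 1 2 1 (104, 99, 89) (.spU 2 1 1 1 (3, 2, 2) (.leaf 26 196) (.spU 2 1 6 1 (17, 14, 11) (.leaf 28 200) (.leaf 32 202))) (.spV 2 6 1 1 (92, 87, 81) (.leaf 25 206) (.spV 0 6 1 1 (128, 123, 111) (.leaf 25 210) (.spV 0 6 1 1 (164, 159, 141) (.leaf 25 214) (.spU 2 1 1 1 (3, 2, 2) (.leaf 26 209) (.spU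 2 1 6 1 (17, 14, 11) (.leaf 28 212) (.leaf 32 215))))))))
    ((2, 1, 1), (11, 8, 5), (1, 1, 1))
    ((24, 24, 19), (1, 1, 1), (56, 51, 51)) 0 2 = true := by decide +kernel

theorem partA6_5 : chkT datA6 [] (.spU 2 1 1 1 (3, 2, 2) (.leaf 26 187) (.leaf 25 187))
    ((2, 1, 1), (11, 8, 5), (1, 1, 1))
    ((24, 24, 19), (1, 1, 1), (56, 51, 51)) 4 8 = true := by decide +kernel

end Vale.Agent.P154.Sep2
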