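import Mathlib
import Vale.Agent.P154.PMFan
import Vale.Agent.P154.A6Data

namespace Vale.Agent.P154.Sep2

theorem partA6_0 : chkT datA6 [] (.spU 1 2 1 1 (3, 1, 0) (.leaf 20 177) (.leaf 20 176))
    ((4, 1, 1), (1, 0, 0), (1, 1, 0))
    ((18, 18, 13), (1, 1, 1), (56, 51, 51)) 0 16 = true := by decide +kernel

theorem partA6_2 : chkT datA6 [] (.spV 0 1 6 5 (6, 6, 5) (.spU 1 1 4 3 (3, 3, 2) (.spS 4 (.spV 0 1 5 1 (11, 11, 10) (.spU 1 6 1 1 (17, 14, 11) (.leaf 32 191) (.spS 2 (.spV 1 1 1 1 (57, 52, 52) (.spU 2 1 3 1 (6, 6, 5) (.leaf 30 200) (.leaf 30 200)) (.spU 2 1 3 1 (6, 6, 5) (.spV 2 1 6 1 (17, 17, 16) (.leaf 30 191) (.leaf 30 193)) (.leaf 30 190))) (.leaf 28 188))) (.spU 1 6 1 1 (17, 14, 11) (.leaf 32 192) (.spS 2 (.spU 2 1 3 1 (6, 6, 5) (.leaf 30 191) (.leaf 30 191)) (.leaf 28 189)))) (.leaf 25 183)) (.leaf 27 185)) (.spU 1 1 4 3 (3, 3,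 2) (.spS 4 (.spU 1 6 1 1 (17, 14, 11) (.leaf 32 195) (.leaf 28 192)) (.leaf 25 188)) (.leaf 27 190)))
    ((11, 8, 5), (5, 5, 2), (1, 1, 1))
    ((24, 24, 19), (1, 1, 1), (56, 51, 51)) 0 8 = true := by decide +kernel

theorem partA6_8 : chkT datA6 [] (.leaf 20 180)
    ((5, 5, 2), (1, 1, 1), (2, 1, 1))
    ((18, 18, 13), (1, 1, 1), (56, 51, 51)) 8 16 = true := by decide +kernel

end Vale.Agent.P154.Sep2
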