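import Mathlib
import Vale.Agent.P154.PMFan
import Vale.Agent.P154.A6Data

namespace Vale.Agent.P154.Sep2

theorem partA6_6 : chkT datA6 [] (.spV 2 1 3 5 (22, 21, 18) (.spU 1 1 4 3 (3, 3, 2) (.spS 4 (.spU 1 6 1 1 (17, 14, 11) (.leaf 32 190) (.leaf 28 187)) (.spU 1 6 1 1 (17, 14, 11) (.leaf 32 190) (.leaf 28 187))) (.spV 0 1 1 1 (40, 39, 31) (.spU 1 3 1 1 (20, 17, 11) (.leaf 33 195) (.spV 1 1 1 2 (21, 21, 16) (.leaf 31 194) (.spU 2 2 3 1 (19, 19, 10) (.spV 2 1 2 1 (76, 75, 57) (.spU 2 1 1 3 (13, 12, 7) (.spU 1 1 6 1 (37, 37, 22) (.leaf 37 205) (.leaf 39 207)) (.leaf 33 201)) (.leaf 35 206)) (.leaf 35 197)))) (.leaf 27 190))) (.spU 1 1 4 3 (3, 3, 2) (.spS 4 (.spU 1 6 1 1 (17, 14, 11) (.leaf 32 198) (.leaf 28 195)) (.leaf 25 191)) (.leaf 27 193)))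
    ((11, 8, 5), (5, 5, 2), (1, 1, 1))
    ((18, 18, 13), (24, 24, 19), (56, 51, 51)) 0 8 = true := by decide +kernel

theorem partA6_9 : chkT datA6 [] (.spS 8 (.leaf 20 180) (.spU 2 1 2 1 (4, 3, 1) (.leaf 22 182) (.leaf 23 182)))
    ((1, 1, 0), (5, 5, 2), (2, 1, 1))
    ((18, 18, 13), (1, 1, 1), (56, 51, 51)) 0 16 = true := by decide +kernel

end Vale.Agent.P154.Sep2
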