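import Mathlib
import Vale.Agent.P154.PMFan
import Vale.Agent.P154.A6Data

namespace Vale.Agent.P154.Sep2

theorem partA6_1 : chkT datA6 [] (.spU 1 1 3 1 (7, 4, 1) (.spV 0 1 6 1 (24, 24, 19) (.leaf 21 182) (.spU 1 2 1 1 (4, 3, 1) (.spS 8 (.leaf 24 188) (.leaf 24 187)) (.leaf 23 187))) (.spS 8 (.leaf 24 182) (.leaf 24 182)))
    ((2, 1, 1), (4, 1, 1), (1, 1, 0))
    ((18, 18, 13), (1, 1, 1), (56, 51, 51)) 0 16 = true := by decide +kernel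

theorem partA6_4 : chkT datA6 [] (.spV 0 1 6 5 (6, 6, 5) (.spU 2 1 1 1 (3, 2, 2) (.leaf 26 183) (.spU 2 1 6 1 (17, 14, 11) (.leaf 28 186) (.leaf 32 189))) (.spU 2 1 1 1 (3, 2, 2) (.leaf 26 188) (.leaf 25 188)))
    ((2, 1, 1), (11, 8, 5), (1, 1, 1))
    ((24, 24, 19), (1, 1, 1), (56, 51, 51)) 2 4 = true := by decide +kernel

theorem partA6_7 : chkT datA6 [] (.spS 4 (.spV 2 1 3 5 (22, 21, 18) (.spS 2 (.leaf 25 182) (.leaf 25 182)) (.spS 2 (.spV 2 2 1 1 (104, 99, 89) (.leaf 25 200) (.leaf 25 197)) (.spU 2 1 1 1 (3, 2, 2) (.leaf 26 191) (.leaf 25 191)))) (.spS 6 (.spV 2 1 3 5 (22, 21, 18) (.leaf 25 182) (.leaf 25 190)) (.leaf 25 189)))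
    ((2, 1, 1), (11, 8, 5), (1, 1, 1))
    ((18, 18, 13), (24, 24, 19), (56, 51, 51)) 0 8 = true := by decide +kernel

end Vale.Agent.P154.Sep2
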