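import Mathlib
import Vale.Agent.P154.PMFan
import Vale.Agent.P154.A6Data

namespace Vale.Agent.P154.Sep2

theorem homA6_m : hom 12 (eM fullA6) = true := by decide +kernel
theorem oneA6_m : chkFan (eM fullA6) 12 [(.leaf 0 128)]
    (fanCells fullA6.fan) = true := by decide +kernel

theorem homA6_ml : hom 36 (eML fullA6) = true := by decide +kernel
theorem oneA6_ml : chkFan (eML fullA6) 36 [(.leaf 0 313)]
    (fanCells fullA6.fan) = true := by decide +kernel

theorem homA6_r : hom 36 (eR fullA6) = true := by decide +kernel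
theorem oneA6_r : chk1 (eR fullA6) 36 (.spU 2 1 3 1 (4, 1, 1) (.spU 1 2 1 1 (3, 1, 0) (.leaf 0 158) (.leaf 0 158)) (.spU 0 2 1 3 (2, 1, 1) (.leaf 0 152) (.spU 2 3 2 1 (5, 5, 2) (.spU 2 3 1 1 (11, 8, 5) (.spU 1 1 4 3 (3, 3, 2) (.leaf 0 196) (.leaf 0 209)) (.leaf 0 191)) (.leaf 0 164))))
    U0 = true := by decide +kernel

theorem homA6_w : hom 12 (eW fullA6) = true := by decide +kernel
theorem oneA6_w : chk1 (eW fullA6) 12 (.leaf 0 54)
    U0 = true := by decide +kernel

theorem homA6_s : hom 6 (eS fullA6) = true := by decide +kernel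
theorem oneA6_s : chk1 (eS fullA6) 6 (.leaf 0 42)
    U0 = true := by decide +kernel

theorem homA6_kN : hom 6 (eKN fullA6) = true := by decide +kernel
theorem oneA6_kN : chk1 (eKN fullA6) 6 (.spU 2 1 3 1 (4, 1, 1) (.spU 1 2 1 1 (3, 1, 0) (.leaf 0 37) (.spU 2 1 6 1 (10, 1, 1) (.spU 1 4 1 1 (7, 1, 0) (.spU 1 3 1 1 (19, 4, 1) (.leaf 0 48) (.spU 2 1 2 1 (13, 3, 0) (.leaf 0 48) (.leaf 0 49))) (.leaf 0 41)) (.leaf 0 42))) (.spU 0 2 1 3 (2, 1, 1) (.leaf 0 37) (.leaf 0 34)))
    U0 = true := by decide +kernel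

theorem homA6_v3 : hom 6 (eV3 fullA6) = true := by decide +kernel
theorem oneA6_v3 : chk1 (eV3 fullA6) 6 (.leaf 0 1)
    U0 = true := by decide +kernel

theorem homA6_q : hom 12 (eQ fullA6) = true := by decide +kernel
theorem oneA6_q : chkFan (eQ fullA6) 12 [(.leaf 0 130)]
    (fanCells fullA6.fan) = true := by decide +kernel

theorem homA6_qm : hom 24 (eQM fullA6) = true := by decide +kernel
theorem oneA6_qm : chkFan (eQM fullA6) 24 [(.leaf 0 266)]
    (fanCells fullA6.fan) = true := by decide +kernel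

end Vale.Agent.P154.Sep2
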