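import Mathlib
import Vale.Agent.P154.PMInst
import Vale.Agent.P154.PMHJ

/-!
# P154: quadratic scaling of the exchange rate from a pointwise inequality
-/

namespace Vale.Agent.P154

open Finset

namespace Sep2

lemma rt_pw {r : ℕ} (g : ℕ) {x : ℝ} (hx : 0 ≤ x) : rt r x ^ g = x ^ ((g : ℝ) / r) := by
  unfold rt
  rw [← Real.rpow_natCast, ← Real.rpow_mul hx]
  congr 1
  rw [div_eq_mul_inv, mul_comm]

lemma d_pw (r g : ℕ) {w : ℝ → ℝ} {w' ρ : ℝ} (hw : HasDerivAt w w' ρ) (hpos : 0 < w ρ) :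
    HasDerivAt (fun x => rt r (w x) ^ g) ((g : ℝ) / r * (w' / w ρ) * rt r (w ρ) ^ g) ρ := by
  have h1 : HasDerivAt (fun x => w x ^ ((g : ℝ) / r))
      (w' * ((g : ℝ) / r) * w ρ ^ ((g : ℝ) / r - 1)) ρ := hw.rpow_const (Or.inl hpos.ne')
  have h2 : (fun x => rt r (w x) ^ g) =ᶠ[nhds ρ] fun x => w x ^ ((g : ℝ) / r) := by
    have : ∀ᶠ x in nhds ρ, 0 < w x := hw.continuousAt.eventually_const_lt hpos
    filter_upwards [this] with x hx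
    exact rt_pw g hx.le
  refine (h1.congr_of_eventuallyEq h2).congr_deriv ?_
  rw [Real.rpow_sub_one hpos.ne', rt_pw g hpos.le]
  ring

/-- derivative coefficient of a monomial -/
noncomputable def lg (r : ℕ) (g0 g1 g2 : ℕ) (d0 d1 d2 : ℝ) : ℝ :=
  (g0 : ℝ) / r * d0 + (g1 : ℝ) / r * d1 + (g2 : ℝ) / r * d2

lemma d_mon (r g0 g1 g2 : ℕ) {w0 w1 w2 : ℝ → ℝ} {d0 d1 d2 ρ : ℝ} (h0 : HasDerivAt w0 d0 ρ)
    (h1 : HasDerivAt w1 d1 ρ) (h2 : HasDerivAt w2 d2 ρ) (p0 : 0 < w0 ρ) (p1 : 0 < w1 ρ)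
    (p2 : 0 < w2 ρ) :
    HasDerivAt (fun x => rt r (w0 x) ^ g0 * rt r (w1 x) ^ g1 * rt r (w2 x) ^ g2)
      (lg r g0 g1 g2 (d0 / w0 ρ) (d1 / w1 ρ) (d2 / w2 ρ) *
        (rt r (w0 ρ) ^ g0 * rt r (w1 ρ) ^ g1 * rt r (w2 ρ) ^ g2)) ρ := by
  refine (((d_pw r g0 h0 p0).mul (d_pw r g1 h1 p1)).mul (d_pw r g2 h2 p2)).congr_deriv ?_
  unfold lg
  simp only [Pi.mul_apply]
  ring

/-- `ms` with weights -/
noncomputable def msl (r : ℕ) (g : Mon) (e0 e1 e2 y0 y1 y2 : ℝ) : ℝ :=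
  lg r g.1 g.2.1 g.2.2 e0 e1 e2 * (y0 ^ g.1 * y1 ^ g.2.1 * y2 ^ g.2.2) +
  lg r g.1 g.2.2 g.2.1 e0 e1 e2 * (y0 ^ g.1 * y1 ^ g.2.2 * y2 ^ g.2.1) +
  lg r g.2.1 g.1 g.2.2 e0 e1 e2 * (y0 ^ g.2.1 * y1 ^ g.1 * y2 ^ g.2.2) +
  lg r g.2.1 g.2.2 g.1 e0 e1 e2 * (y0 ^ g.2.1 * y1 ^ g.2.2 * y2 ^ g.1) +
  lg r g.2.2 g.1 g.2.1 e0 e1 e2 * (y0 ^ g.2.2 * y1 ^ g.1 * y2 ^ g.2.1) +
  lg r g.2.2 g.2.1 g.1 e0 e1 e2 * (y0 ^ g.2.2 * y1 ^ g.2.1 * y2 ^ g.1)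

lemma d_ms (r : ℕ) (g : Mon) {w0 w1 w2 : ℝ → ℝ} {d0 d1 d2 ρ : ℝ} (h0 : HasDerivAt w0 d0 ρ)
    (h1 : HasDerivAt w1 d1 ρ) (h2 : HasDerivAt w2 d2 ρ) (p0 : 0 < w0 ρ) (p1 : 0 < w1 ρ)
    (p2 : 0 < w2 ρ) :
    HasDerivAt (fun x => ms g (rt r (w0 x)) (rt r (w1 x)) (rt r (w2 x)))
      (msl r g (d0 / w0 ρ) (d1 / w1 ρ) (d2 / w2 ρ) (rt r (w0 ρ)) (rt r (w1 ρ)) (rt r (w2 ρ))) ρ := by
  unfold ms msl
  exact (((((d_mon r _ _ _ h0 h1 h2 p0 p1 p2).add (d_mon r _ _ _ h0 h1 h2 p0 p1 p2)).add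
    (d_mon r _ _ _ h0 h1 h2 p0 p1 p2)).add (d_mon r _ _ _ h0 h1 h2 p0 p1 p2)).add
    (d_mon r _ _ _ h0 h1 h2 p0 p1 p2)).add (d_mon r _ _ _ h0 h1 h2 p0 p1 p2)

lemma d_list {ι : Type} (L : List ι) (F : ι → ℝ → ℝ) (F' : ι → ℝ) {ρ : ℝ}
    (h : ∀ i, HasDerivAt (F i) (F' i) ρ) :
    HasDerivAt (fun x => (L.map fun i => F i x).sum) (L.map F').sum ρ := by
  induction L with
  | nil => simpa using hasDerivAt_const ρ (0 : ℝ)
  | cons a l ih =>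
    simp only [List.map_cons, List.sum_cons]
    exact (h a).add ih

/-- weighted symmetrised monomial, degree `|g| + 2 r` -/
noncomputable def msT (r : ℕ) (g : Mon) (y0 y1 y2 : ℝ) : ℝ :=
  (g.1 * (y1 * y2) ^ r + g.2.1 * (y0 * y2) ^ r + g.2.2 * (y0 * y1) ^ r) *
    (y0 ^ g.1 * y1 ^ g.2.1 * y2 ^ g.2.2) +
  (g.1 * (y1 * y2) ^ r + g.2.2 * (y0 * y2) ^ r + g.2.1 * (y0 * y1) ^ r) *
    (y0 ^ g.1 * y1 ^ g.2.2 * y2 ^ g.2.1) +
  (g.2.1 * (y1 * y2) ^ r + g.1 * (y0 * y2) ^ r + g.2.2 * (y0 * y1) ^ r) *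
    (y0 ^ g.2.1 * y1 ^ g.1 * y2 ^ g.2.2) +
  (g.2.1 * (y1 * y2) ^ r + g.2.2 * (y0 * y2) ^ r + g.1 * (y0 * y1) ^ r) *
    (y0 ^ g.2.1 * y1 ^ g.2.2 * y2 ^ g.1) +
  (g.2.2 * (y1 * y2) ^ r + g.1 * (y0 * y2) ^ r + g.2.1 * (y0 * y1) ^ r) *
    (y0 ^ g.2.2 * y1 ^ g.1 * y2 ^ g.2.1) +
  (g.2.2 * (y1 * y2) ^ r + g.2.1 * (y0 * y2) ^ r + g.1 * (y0 * y1) ^ r) *
    (y0 ^ g.2.2 * y1 ^ g.2.1 * y2 ^ g.1)

lemma lg_eq {r g0 g1 g2 n : ℕ} (hr : r ≠ 0) (hg : g0 + g1 + g2 = n) {Z w0 w1 w2 ρ : ℝ}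
    {d0 d1 d2 : ℝ} (p0 : 0 < w0) (p1 : 0 < w1) (p2 : 0 < w2) (e0 : ρ * d0 = w0 - Z)
    (e1 : ρ * d1 = w1 - Z) (e2 : ρ * d2 = w2 - Z) :
    (r : ℝ) * (w0 * w1 * w2) * (ρ * lg r g0 g1 g2 (d0 / w0) (d1 / w1) (d2 / w2)) =
      n * (w0 * w1 * w2) - Z * (g0 * (w1 * w2) + g1 * (w0 * w2) + g2 * (w0 * w1)) := by
  have hr' : (r : ℝ) ≠ 0 := Nat.cast_ne_zero.2 hr
  have hn : (n : ℝ) = g0 + g1 + g2 := by rw [← hg]; push_cast; ring
  unfold lg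
  have k0 : ρ * (d0 / w0) = (w0 - Z) / w0 := by rw [← e0]; ring
  have k1 : ρ * (d1 / w1) = (w1 - Z) / w1 := by rw [← e1]; ring
  have k2 : ρ * (d2 / w2) = (w2 - Z) / w2 := by rw [← e2]; ring
  have : ρ * ((g0 : ℝ) / r * (d0 / w0) + (g1 : ℝ) / r * (d1 / w1) + (g2 : ℝ) / r * (d2 / w2)) =
      (g0 : ℝ) / r * (ρ * (d0 / w0)) + (g1 : ℝ) / r * (ρ * (d1 / w1)) +
        (g2 : ℝ) / r * (ρ * (d2 / w2)) := by ring
  rw [this, k0, k1, k2, hn]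
  field_simp
  ring

lemma msl_eq {r n : ℕ} (hr : r ≠ 0) {g : Mon} (hg : ssum g = n) {Z w0 w1 w2 ρ : ℝ}
    {d0 d1 d2 : ℝ} (p0 : 0 < w0) (p1 : 0 < w1) (p2 : 0 < w2) (e0 : ρ * d0 = w0 - Z)
    (e1 : ρ * d1 = w1 - Z) (e2 : ρ * d2 = w2 - Z) :
    (r : ℝ) * (w0 * w1 * w2) * (ρ * msl r g (d0 / w0) (d1 / w1) (d2 / w2) (rt r w0) (rt r w1)
      (rt r w2)) = n * (w0 * w1 * w2) * ms g (rt r w0) (rt r w1) (rt r w2) -
        Z * msT r g (rt r w0) (rt r w1) (rt r w2) := by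
  obtain ⟨g0, g1, g2⟩ := g
  have hg' : g0 + g1 + g2 = n := hg
  have a1 := lg_eq (g0 := g0) (g1 := g1) (g2 := g2) (n := n) hr (by omega) p0 p1 p2 e0 e1 e2
  have a2 := lg_eq (g0 := g0) (g1 := g2) (g2 := g1) (n := n) hr (by omega) p0 p1 p2 e0 e1 e2
  have a3 := lg_eq (g0 := g1) (g1 := g0) (g2 := g2) (n := n) hr (by omega) p0 p1 p2 e0 e1 e2
  have a4 := lg_eq (g0 := g1) (g1 := g2) (g2 := g0) (n := n) hr (by omega) p0 p1 p2 e0 e1 e2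
  have a5 := lg_eq (g0 := g2) (g1 := g0) (g2 := g1) (n := n) hr (by omega) p0 p1 p2 e0 e1 e2
  have a6 := lg_eq (g0 := g2) (g1 := g1) (g2 := g0) (n := n) hr (by omega) p0 p1 p2 e0 e1 e2
  unfold msl msT ms
  simp only [mul_pow, rt_pow hr p0.le, rt_pow hr p1.le, rt_pow hr p2.le]
  linear_combination (rt r w0 ^ g0 * rt r w1 ^ g1 * rt r w2 ^ g2) * a1 +
    (rt r w0 ^ g0 * rt r w1 ^ g2 * rt r w2 ^ g1) * a2 +
    (rt r w0 ^ g1 * rt r w1 ^ g0 * rt r w2 ^ g2) * a3 +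
    (rt r w0 ^ g1 * rt r w1 ^ g2 * rt r w2 ^ g0) * a4 +
    (rt r w0 ^ g2 * rt r w1 ^ g0 * rt r w2 ^ g1) * a5 +
    (rt r w0 ^ g2 * rt r w1 ^ g1 * rt r w2 ^ g0) * a6

/-- linear combination along an edge path -/
noncomputable def Lf (D : Dat) (c1 : FD → ℤ) (c2 : ℤ × ℤ → ℤ) (z w0 w1 w2 : ℝ) : ℝ :=
  (D.F.map fun f => (c1 f : ℝ) * (ms f.g (rt D.r w0) (rt D.r w1) (rt D.r w2) * (6 * z))).sum +
  (D.G.map fun e => (c2 e.2 : ℝ) * (6 * ms e.1 (rt D.r w0) (rt D.r w1) (rt D.r w2))).sum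

/-- its derivative -/
noncomputable def Lf' (D : Dat) (c1 : FD → ℤ) (c2 : ℤ × ℤ → ℤ) (z e0 e1 e2 w0 w1 w2 : ℝ) : ℝ :=
  (D.F.map fun f => (c1 f : ℝ) * (msl D.r f.g e0 e1 e2 (rt D.r w0) (rt D.r w1) (rt D.r w2) *
    (6 * z))).sum +
  (D.G.map fun e => (c2 e.2 : ℝ) * (6 * msl D.r e.1 e0 e1 e2 (rt D.r w0) (rt D.r w1)
    (rt D.r w2))).sum

/-- the pointwise expression -/
noncomputable def E2R (D : Dat) (c1 : FD → ℤ) (c2 : ℤ × ℤ → ℤ) (y0 y1 y2 : ℝ) : ℝ :=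
  (D.F.map fun f => -(c1 f : ℝ) * (6 * D.r * ((y0 * y1 * y2) ^ D.r * ms f.g y0 y1 y2) +
    ms (D.r, 0, 0) y0 y1 y2 * msT D.r f.g y0 y1 y2)).sum +
  (D.G.map fun e => -(c2 e.2 : ℝ) * (6 * msT D.r e.1 y0 y1 y2)).sum

lemma d_Lf (D : Dat) (c1 : FD → ℤ) (c2 : ℤ × ℤ → ℤ) (z : ℝ) {w0 w1 w2 : ℝ → ℝ}
    {d0 d1 d2 ρ : ℝ} (h0 : HasDerivAt w0 d0 ρ) (h1 : HasDerivAt w1 d1 ρ)
    (h2 : HasDerivAt w2 d2 ρ) (p0 : 0 < w0 ρ) (p1 : 0 < w1 ρ) (p2 : 0 < w2 ρ) :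
    HasDerivAt (fun x => Lf D c1 c2 z (w0 x) (w1 x) (w2 x))
      (Lf' D c1 c2 z (d0 / w0 ρ) (d1 / w1 ρ) (d2 / w2 ρ) (w0 ρ) (w1 ρ) (w2 ρ)) ρ := by
  unfold Lf Lf'
  refine (d_list D.F _ _ fun f => ?_).add (d_list D.G _ _ fun e => ?_)
  · exact ((d_ms D.r f.g h0 h1 h2 p0 p1 p2).mul_const (6 * z)).const_mul (c1 f : ℝ)
  · exact ((d_ms D.r e.1 h0 h1 h2 p0 p1 p2).const_mul (6 : ℝ)).const_mul (c2 e.2 : ℝ)

lemma list_comb {ι : Type} (L : List ι) (a b c : ℝ) (f g h : ι → ℝ)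
    (e : ∀ i ∈ L, a * f i - b * g i = c * h i) :
    a * (L.map f).sum - b * (L.map g).sum = c * (L.map h).sum := by
  induction L with
  | nil => simp
  | cons x l ih =>
    simp only [List.map_cons, List.sum_cons]
    have h1 := e x (by simp)
    have h2 := ih fun i hi => e i (by simp [hi])
    linear_combination h1 + h2

lemma Lf_key {D : Dat} (hD : D.ok = true) (hr : D.r ≠ 0) (c1 : FD → ℤ) (c2 : ℤ × ℤ → ℤ)
    {z w0 w1 w2 ρ d0 d1 d2 : ℝ} (p0 : 0 < w0) (p1 : 0 < w1) (p2 : 0 < w2)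
    (e0 : ρ * d0 = w0 - z) (e1 : ρ * d1 = w1 - z) (e2 : ρ * d2 = w2 - z)
    (hz : ms (D.r, 0, 0) (rt D.r w0) (rt D.r w1) (rt D.r w2) = 6 * z) :
    (D.r : ℝ) * (w0 * w1 * w2) * (ρ * Lf' D c1 c2 z (d0 / w0) (d1 / w1) (d2 / w2) w0 w1 w2 -
      2 * Lf D c1 c2 z w0 w1 w2) = z * E2R D c1 c2 (rt D.r w0) (rt D.r w1) (rt D.r w2) := by
  have hP : (rt D.r w0 * rt D.r w1 * rt D.r w2) ^ D.r = w0 * w1 * w2 := by
    rw [mul_pow, mul_pow, rt_pow hr p0.le, rt_pow hr p1.le, rt_pow hr p2.le]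
  unfold Lf' Lf E2R
  rw [hP, hz]
  have hF := list_comb D.F ((D.r : ℝ) * (w0 * w1 * w2) * ρ) ((D.r : ℝ) * (w0 * w1 * w2) * 2) z
    (fun f => (c1 f : ℝ) * (msl D.r f.g (d0 / w0) (d1 / w1) (d2 / w2) (rt D.r w0) (rt D.r w1)
      (rt D.r w2) * (6 * z)))
    (fun f => (c1 f : ℝ) * (ms f.g (rt D.r w0) (rt D.r w1) (rt D.r w2) * (6 * z)))
    (fun f => -(c1 f : ℝ) * (6 * D.r * (w0 * w1 * w2 * ms f.g (rt D.r w0) (rt D.r w1)
      (rt D.r w2)) + 6 * z * msT D.r f.g (rt D.r w0) (rt D.r w1) (rt D.r w2)))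
    (fun f hf => by
      have := msl_eq (n := D.r) hr (Dat.ok_F hD f hf) p0 p1 p2 e0 e1 e2
      linear_combination ((c1 f : ℝ) * 6 * z) * this)
  have hG := list_comb D.G ((D.r : ℝ) * (w0 * w1 * w2) * ρ) ((D.r : ℝ) * (w0 * w1 * w2) * 2) z
    (fun e => (c2 e.2 : ℝ) * (6 * msl D.r e.1 (d0 / w0) (d1 / w1) (d2 / w2) (rt D.r w0)
      (rt D.r w1) (rt D.r w2)))
    (fun e => (c2 e.2 : ℝ) * (6 * ms e.1 (rt D.r w0) (rt D.r w1) (rt D.r w2)))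
    (fun e => -(c2 e.2 : ℝ) * (6 * msT D.r e.1 (rt D.r w0) (rt D.r w1) (rt D.r w2)))
    (fun f hf => by
      have := msl_eq (n := 2 * D.r) hr (Dat.ok_G hD f hf) p0 p1 p2 e0 e1 e2
      push_cast at this
      linear_combination ((c2 f.2 : ℝ) * 6) * this)
  linear_combination hF + hG

lemma cont_rt (r : ℕ) {w : ℝ → ℝ} (hw : Continuous w) : Continuous fun x => rt r (w x) := by
  unfold rt
  exact hw.rpow_const fun x => Or.inr (by positivity)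

lemma cont_Lf (D : Dat) (c1 : FD → ℤ) (c2 : ℤ × ℤ → ℤ) (z : ℝ) {w0 w1 w2 : ℝ → ℝ}
    (h0 : Continuous w0) (h1 : Continuous w1) (h2 : Continuous w2) :
    Continuous fun x => Lf D c1 c2 z (w0 x) (w1 x) (w2 x) := by
  have hl : ∀ {ι : Type} (L : List ι) (F : ι → ℝ → ℝ), (∀ i, Continuous (F i)) →
      Continuous fun x => (L.map fun i => F i x).sum := by
    intro ι L F h
    induction L with
    | nil => simpa using continuous_const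
    | cons a l ih =>
      simp only [List.map_cons, List.sum_cons]
      exact (h a).add ih
  have k0 := cont_rt D.r h0
  have k1 := cont_rt D.r h1
  have k2 := cont_rt D.r h2
  unfold Lf
  refine (hl D.F _ fun f => ?_).add (hl D.G _ fun e => ?_)
  · unfold ms
    fun_prop
  · unfold ms
    fun_prop

/-- quadratic scaling -/
theorem lcU_scale {D : Dat} (hD : D.ok = true) (hr : D.r ≠ 0) (c1 : FD → ℤ) (c2 : ℤ × ℤ → ℤ)
    {v : Fin 3 → ℝ} (hv : ∀ i, 0 ≤ v i)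
    (hE : ∀ ρ : ℝ, 0 < ρ → ρ < 1 → 0 ≤ E2R D c1 c2 (rt D.r (edge ρ v 0)) (rt D.r (edge ρ v 1))
      (rt D.r (edge ρ v 2))) {ρ : ℝ} (h0 : 0 ≤ ρ) (h1 : ρ ≤ 1) :
    lcU D c1 c2 (edge ρ v) ≤ ρ ^ 2 * lcU D c1 c2 v := by
  have hZe : ∀ x, Z (edge x v) = Z v := fun x => Z_edge (by norm_num) _ _
  have hnn : ∀ x : ℝ, 0 ≤ x → x ≤ 1 → ∀ i, 0 ≤ edge x v i := fun x a b i =>
    edge_nonneg (potts_one_nonneg a b) hv i
  rcases (Z_nn hv).lt_or_eq with hZ | hZ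
  · -- main case
    set L : ℝ → ℝ := fun x => Lf D c1 c2 (Z v) (edge x v 0) (edge x v 1) (edge x v 2) with hL
    have hLe : ∀ x : ℝ, 0 ≤ x → x ≤ 1 → lcU D c1 c2 (edge x v) = L x := by
      intro x a b
      rw [hL]
      unfold lcU lcR Lf
      rw [ms_rt hr (hnn x a b), hZe]
    have he : ∀ i, (fun x => edge x v i) = fun x => x * (v i - Z v) + Z v := by
      intro i; funext x; rw [edge_eq]; ring
    have hcw : ∀ i, Continuous fun x => edge x v i := by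
      intro i; rw [he i]; fun_prop
    have hdw : ∀ i x, HasDerivAt (fun x => edge x v i) (v i - Z v) x := by
      intro i x
      rw [he i]
      simpa using ((hasDerivAt_id x).mul_const (v i - Z v)).add_const (Z v)
    have hcL : Continuous L := cont_Lf D c1 c2 (Z v) (hcw 0) (hcw 1) (hcw 2)
    have hpos : ∀ x : ℝ, 0 < x → x < 1 → ∀ i, 0 < edge x v i := by
      intro x a b i
      rw [edge_eq]
      have := hv i
      nlinarith [mul_nonneg a.le this, mul_pos (sub_pos.2 b) hZ]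
    -- inequality for positive ρ
    have key : ∀ x : ℝ, 0 < x → x ≤ 1 → L x ≤ x ^ 2 * L 1 := by
      intro x a b
      have hm : MonotoneOn (fun y => L y / y ^ 2) (Set.Icc x 1) := by
        apply monotoneOn_of_deriv_nonneg (convex_Icc x 1)
        · intro y hy
          have hy0 : y ≠ 0 := (lt_of_lt_of_le a hy.1).ne'
          exact (hcL.continuousAt.div (continuous_pow 2).continuousAt
            (pow_ne_zero 2 hy0)).continuousWithinAt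
        · intro y hy
          rw [interior_Icc] at hy
          have ya : 0 < y := a.trans hy.1
          have hd := d_Lf D c1 c2 (Z v) (hdw 0 y) (hdw 1 y) (hdw 2 y) (hpos y ya hy.2 0)
            (hpos y ya hy.2 1) (hpos y ya hy.2 2)
          exact (hd.div (hasDerivAt_pow 2 y) (pow_ne_zero 2 ya.ne')).differentiableAt
            |>.differentiableWithinAt
        · intro y hy
          rw [interior_Icc] at hy
          have ya : 0 < y := a.trans hy.1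
          have p0 := hpos y ya hy.2 0
          have p1 := hpos y ya hy.2 1
          have p2 := hpos y ya hy.2 2
          have hd := d_Lf D c1 c2 (Z v) (hdw 0 y) (hdw 1 y) (hdw 2 y) p0 p1 p2
          have hq := hd.div (hasDerivAt_pow 2 y) (pow_ne_zero 2 ya.ne')
          have e1 : deriv (fun y => L y / y ^ 2) y = _ := hq.deriv
          rw [e1]
          have hk := Lf_key hD hr c1 c2 (z := Z v) (ρ := y) (d0 := v 0 - Z v) (d1 := v 1 - Z v)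
            (d2 := v 2 - Z v) p0 p1 p2 (by rw [edge_eq]; ring) (by rw [edge_eq]; ring)
            (by rw [edge_eq]; ring)
            (by rw [ms_rt hr (hnn y ya.le hy.2.le), hZe])
          have hE' := hE y ya hy.2
          have hr' : (0 : ℝ) < D.r := by exact_mod_cast Nat.pos_of_ne_zero hr
          have hnn' : 0 ≤ y * Lf' D c1 c2 (Z v) ((v 0 - Z v) / edge y v 0)
              ((v 1 - Z v) / edge y v 1) ((v 2 - Z v) / edge y v 2) (edge y v 0) (edge y v 1)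
              (edge y v 2) - 2 * Lf D c1 c2 (Z v) (edge y v 0) (edge y v 1) (edge y v 2) := by
            have hp : 0 < (D.r : ℝ) * (edge y v 0 * edge y v 1 * edge y v 2) := by positivity
            refine (mul_nonneg_iff_of_pos_left hp).1 ?_
            rw [hk]
            exact mul_nonneg hZ.le hE'
          apply div_nonneg _ (by positivity)
          have : (2 : ℕ) - 1 = 1 := rfl
          simp only [this, pow_one]
          push_cast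
          nlinarith [mul_nonneg ya.le hnn']
      have h2 := hm (Set.left_mem_Icc.2 b) (Set.right_mem_Icc.2 b) b
      simp only at h2
      rw [one_pow, div_one, div_le_iff₀ (by positivity)] at h2
      linarith
    have h3 : L ρ ≤ ρ ^ 2 * L 1 := by
      rcases h0.lt_or_eq with hp | hp
      · exact key ρ hp h1
      · have hcl : IsClosed {x : ℝ | L x ≤ x ^ 2 * L 1} :=
          isClosed_le hcL ((continuous_pow 2).mul continuous_const)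
        have hsub : Set.Ioc (0 : ℝ) 1 ⊆ {x : ℝ | L x ≤ x ^ 2 * L 1} := fun x hx =>
          key x hx.1 hx.2
        have h0' : (0 : ℝ) ∈ closure (Set.Ioc (0 : ℝ) 1) := by
          rw [closure_Ioc (by norm_num)]; simp
        have := hcl.closure_subset_iff.2 hsub h0'
        rw [← hp]
        exact this
    rw [hLe ρ h0 h1]
    have e1 : lcU D c1 c2 v = L 1 := by
      rw [← hLe 1 zero_le_one le_rfl]
      congr 1
      funext i; rw [edge_eq]; ring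
    rw [e1]
    exact h3
  · have b1 := abs_lcU_le hD hr c1 c2 (hnn ρ h0 h1)
    have b2 := abs_lcU_le hD hr c1 c2 hv
    rw [hZe, ← hZ] at b1
    rw [← hZ] at b2
    have c1' := abs_nonpos_iff.1 (b1.trans_eq (by ring))
    have c2' := abs_nonpos_iff.1 (b2.trans_eq (by ring))
    rw [c1', c2', mul_zero]

/-! ### the expression -/

/-- symmetrised derivative -/
def dsE (r : ℕ) (g : Mon) : PExp :=
  .add (.add (.mul (.k (g.1 : ℕ)) (msE (g.1, g.2.1 + r, g.2.2 + r)))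
    (.mul (.k (g.2.1 : ℕ)) (msE (g.1 + r, g.2.1, g.2.2 + r))))
    (.mul (.k (g.2.2 : ℕ)) (msE (g.1 + r, g.2.1 + r, g.2.2)))

/-- the expression whose nonnegativity gives quadratic scaling (degree `4 r`) -/
def eN (F : Full) : PExp :=
  .add (lsE (4 * F.D.r) (F.D.F.map fun f => .mul (.k (-f.mc)) (.add
      (.mul (.k (6 * F.D.r : ℕ)) (msE (f.g.1 + F.D.r, f.g.2.1 + F.D.r, f.g.2.2 + F.D.r)))
      (.mul (msE (F.D.r, 0, 0)) (dsE F.D.r f.g)))))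
    (lsE (4 * F.D.r) (F.D.G.map fun e => .mul (.k (-(6 * e.2.1))) (dsE F.D.r e.1)))

lemma ev_dsE (r : ℕ) (g : Mon) (y0 y1 y2 : ℝ) :
    PExp.ev (vec y0 y1 y2) (dsE r g) = g.1 * ms (g.1, g.2.1 + r, g.2.2 + r) y0 y1 y2 +
      g.2.1 * ms (g.1 + r, g.2.1, g.2.2 + r) y0 y1 y2 +
      g.2.2 * ms (g.1 + r, g.2.1 + r, g.2.2) y0 y1 y2 := by
  simp only [dsE, PExp.ev, ev_msE]
  push_cast
  ring

lemma dsE_msT (r : ℕ) (g : Mon) (y0 y1 y2 : ℝ) :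
    (g.1 : ℝ) * ms (g.1, g.2.1 + r, g.2.2 + r) y0 y1 y2 +
      g.2.1 * ms (g.1 + r, g.2.1, g.2.2 + r) y0 y1 y2 +
      g.2.2 * ms (g.1 + r, g.2.1 + r, g.2.2) y0 y1 y2 = msT r g y0 y1 y2 := by
  unfold ms msT
  simp only [pow_add, mul_pow]
  ring

lemma ms_shift (r : ℕ) (g : Mon) (y0 y1 y2 : ℝ) :
    ms (g.1 + r, g.2.1 + r, g.2.2 + r) y0 y1 y2 = (y0 * y1 * y2) ^ r * ms g y0 y1 y2 := by
  unfold ms
  simp only [pow_add, mul_pow]
  ring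

lemma ev_eN (F : Full) (y0 y1 y2 : ℝ) : PExp.ev (vec y0 y1 y2) (eN F) =
    E2R F.D (fun f => f.mc) (fun e => e.1) y0 y1 y2 := by
  unfold eN E2R
  simp only [PExp.ev]
  rw [ev_lsE, ev_lsE, List.map_map, List.map_map]
  congr 2
  · refine List.map_congr_left fun f _ => ?_
    simp only [Function.comp_def, PExp.ev, ev_msE, ev_dsE, dsE_msT, ms_shift]
    push_cast
    ring
  · refine List.map_congr_left fun f _ => ?_
    simp only [Function.comp_def, PExp.ev, ev_dsE, dsE_msT]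
    push_cast
    ring

lemma E2R_form (D : Dat) (c1 : FD → ℤ) (c2 : ℤ × ℤ → ℤ) (y0 y1 y2 : ℝ) :
    E2R D c1 c2 y0 y1 y2 = (D.F.map fun f => -(c1 f : ℝ) * (6 * D.r *
      (ms (f.g.1 + D.r, f.g.2.1 + D.r, f.g.2.2 + D.r) y0 y1 y2) +
      ms (D.r, 0, 0) y0 y1 y2 * (f.g.1 * ms (f.g.1, f.g.2.1 + D.r, f.g.2.2 + D.r) y0 y1 y2 +
      f.g.2.1 * ms (f.g.1 + D.r, f.g.2.1, f.g.2.2 + D.r) y0 y1 y2 +
      f.g.2.2 * ms (f.g.1 + D.r, f.g.2.1 + D.r, f.g.2.2) y0 y1 y2))).sum +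
    (D.G.map fun e => -(c2 e.2 : ℝ) * (6 * (e.1.1 * ms (e.1.1, e.1.2.1 + D.r, e.1.2.2 + D.r)
      y0 y1 y2 + e.1.2.1 * ms (e.1.1 + D.r, e.1.2.1, e.1.2.2 + D.r) y0 y1 y2 +
      e.1.2.2 * ms (e.1.1 + D.r, e.1.2.1 + D.r, e.1.2.2) y0 y1 y2))).sum := by
  unfold E2R
  simp only [dsE_msT, ms_shift]

lemma eN_01 (F : Full) (a b c : ℝ) :
    PExp.ev (vec b a c) (eN F) = PExp.ev (vec a b c) (eN F) := by
  rw [ev_eN, ev_eN, E2R_form, E2R_form]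
  simp only [ms_swap01 _ a b c]

lemma eN_12 (F : Full) (a b c : ℝ) :
    PExp.ev (vec a c b) (eN F) = PExp.ev (vec a b c) (eN F) := by
  rw [ev_eN, ev_eN, E2R_form, E2R_form]
  simp only [ms_swap12 _ a b c]

/-- quadratic scaling of the exchange rate -/
theorem mF_scale {F : Full} (hok : F.D.ok = true) (hr : F.D.r ≠ 0) (hdl : 0 ≤ F.dl)
    (hadm : Admissible 3 F.lam)
    (hN : ∀ t : Fin 3 → ℝ, (∀ i, 0 ≤ t i) → 0 ≤ PExp.ev (vec (rt F.D.r (edge F.lam t 0))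
      (rt F.D.r (edge F.lam t 1)) (rt F.D.r (edge F.lam t 2))) (eN F))
    {rho : ℝ} (h0 : 0 ≤ rho) (h1 : rho ≤ 1) {t : Fin 3 → ℝ} (ht : ∀ i, 0 ≤ t i) :
    mF F.D F.dl (edge (F.lam * rho) t) ≤ rho ^ 2 * mF F.D F.dl (edge F.lam t) := by
  have e1 : edge (F.lam * rho) t = edge rho (edge F.lam t) := by
    rw [edge_edge (by norm_num), mul_comm]
  have hZ : Z (edge rho (edge F.lam t)) = Z (edge F.lam t) := Z_edge (by norm_num) _ _
  have hv : ∀ i, 0 ≤ edge F.lam t i := edge_nonneg hadm ht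
  have key := lcU_scale hok hr (fun f => f.mc) (fun e => e.1) hv (fun x a b => by
    have e2 : edge x (edge F.lam t) = edge F.lam (edge x t) := by
      rw [edge_edge (by norm_num), edge_edge (by norm_num), mul_comm]
    rw [e2, ← ev_eN]
    exact hN _ (edge_nonneg (potts_one_nonneg a.le b.le) ht)) h0 h1
  rw [e1]
  unfold mF
  rw [hZ]
  have hZ0 := Z_nn hv
  have hc1 : (0 : ℝ) ≤ F.D.c1 := Nat.cast_nonneg _
  have hc0 : (0 : ℝ) ≤ F.D.c0 := Nat.cast_nonneg _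
  have h2 : lcU F.D (fun f => f.mc) (fun e => e.1) (edge rho (edge F.lam t)) /
      (36 * Z (edge F.lam t)) ≤ rho ^ 2 * (lcU F.D (fun f => f.mc) (fun e => e.1)
      (edge F.lam t) / (36 * Z (edge F.lam t))) := by
    rw [← mul_div_assoc]
    exact div_le_div_of_nonneg_right key (by positivity)
  calc _ ≤ F.dl * F.D.c1 / F.D.c0 * (rho ^ 2 * (lcU F.D (fun f => f.mc) (fun e => e.1)
      (edge F.lam t) / (36 * Z (edge F.lam t)))) := mul_le_mul_of_nonneg_left h2 (by positivity)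
    _ = _ := by ring

/-- quadratic scaling from the cells of the fan -/
theorem mF_scale_fan {F : Full} (hok : F.D.ok = true) (hr : F.D.r ≠ 0) (hdl : 0 ≤ F.dl)
    (hadm : Admissible 3 F.lam) (hcnd : 2 * F.ld - F.ln < 2 * (F.ld + F.ln))
    (hf : fanOk F.D.r (2 * F.ld - F.ln) (F.ld + F.ln) F.fan = true)
    (hf1 : fanFirst F.fan = true) (hf2 : 2 ≤ F.fan.length)
    (hdom : ∀ t : Fin 3 → ℝ, (∀ i, 0 ≤ t i) → Dom F.D.r (2 * F.ld - F.ln) (F.ld + F.ln)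
      (rt F.D.r (edge F.lam t 0)) (rt F.D.r (edge F.lam t 1)) (rt F.D.r (edge F.lam t 2)))
    (hN : ∀ Q ∈ fanCells F.fan, ∀ a b c, InC Q a b c → 0 ≤ PExp.ev (vec a b c) (eN F))
    {rho : ℝ} (h0 : 0 ≤ rho) (h1 : rho ≤ 1) {t : Fin 3 → ℝ} (ht : ∀ i, 0 ≤ t i) :
    mF F.D F.dl (edge (F.lam * rho) t) ≤ rho ^ 2 * mF F.D F.dl (edge F.lam t) := by
  refine mF_scale hok hr hdl hadm (fun s hs => ?_) h0 h1 ht
  have hnn := fun i => edge_nonneg hadm hs i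
  exact fan_all hcnd hf hf1 hf2 (P := fun a b c => 0 ≤ PExp.ev (vec a b c) (eN F))
    (fun a b c h => by rw [← eN_01]; exact h) (fun a b c h => by rw [← eN_12]; exact h) hN _ _ _
    (rt_nonneg _ (hnn 0)) (rt_nonneg _ (hnn 1)) (rt_nonneg _ (hnn 2)) (hdom s hs)

end Sep2

end Vale.Agent.P154
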