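import Mathlib
import Vale.Agent.P154.HJPois

/-!
# P154: Hamilton–Jacobi certificates on restricted domains
-/

namespace Vale.Agent.P154

open MeasureTheory ProbabilityTheory Filter Topology Finset
open scoped BigOperators ENNReal NNReal

variable {q : ℕ}

/-- A Hamilton–Jacobi certificate for the cone of the vectors `edge lam0 t`; `DU` is the domain of
the products of fewer children, `DT` the domain of the full products. -/
structure HG (q : ℕ) (lam0 : ℝ) where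
  J : ℕ
  V : ℕ → (Fin q → ℝ) → ℝ
  m : (Fin q → ℝ) → ℝ
  qq : (Fin q → ℝ) → ℝ
  K : ℝ → (Fin q → ℝ) → ℝ
  T : ℝ
  S : Finset (Equiv.Perm (Fin q))
  S_nonempty : S.Nonempty
  B : ℝ
  DU : (Fin q → ℝ) → Prop
  DT : (Fin q → ℝ) → Prop
  V_bound : ∀ j, ∀ u : Fin q → ℝ, (∀ i, 0 ≤ u i) → |V j u| ≤ B * Z u
  m_bound : ∀ t : Fin q → ℝ, (∀ i, 0 ≤ t i) → m (edge lam0 t) ≤ B * Z t
  m_nonneg : ∀ t : Fin q → ℝ, (∀ i, 0 ≤ t i) → 0 ≤ m (edge lam0 t)
  K_nonpos : ∀ s, 0 ≤ s → s ≤ T → ∀ u : Fin q → ℝ, (∀ i, 0 ≤ u i) → DU u → K s u ≤ 0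
  qq_nonneg : ∀ t : Fin q → ℝ, (∀ i, 0 ≤ t i) → 0 ≤ qq (edge lam0 t)
  main : ∀ s, 0 ≤ s → s ≤ T → ∀ u t : Fin q → ℝ, (∀ i, 0 ≤ u i) → DU u → (∀ i, 0 ≤ t i) →
    ∑ π ∈ S, Vs V J s (fun i => u i * edge lam0 t (π i)) ≤
      (S.card : ℝ) * (Vs V J s u * Z (edge lam0 t) + m (edge lam0 t) * dVs V J s u +
        qq (edge lam0 t) * K s u)
  mV : ∀ r, 0 ≤ r → r ≤ 1 → ∀ t : Fin q → ℝ, (∀ i, 0 ≤ t i) → DT t →
    m (edge (lam0 * r) t) ≤ (lam0 * r) ^ 2 * V 0 t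
  c : ℝ
  c_pos : 0 < c
  W_le : ∀ t : Fin q → ℝ, (∀ i, 0 ≤ t i) → DT t → c * W t ≤ V 0 t
  gam : ℝ
  gam_pos : 0 < gam
  unit_le : ∀ s, 0 ≤ s → s ≤ T → Vs V J s (fun _ => 1) ≤ s - gam * s ^ 2

namespace HG

open HJ (InCone inCone_edge tot_prod2_comm)

variable {lam0 : ℝ} (C : HG q lam0)

lemma card_pos : (0 : ℝ) < C.S.card := by
  exact_mod_cast C.S_nonempty.card_pos

lemma pair (hq : 0 < q) {X Y : Type} [Fintype X] [Fintype Y] {f : X → Fin q → ℝ}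
    {g : Y → Fin q → ℝ} (hf : IsChan f) (hfU : ∀ x, C.DU (f x)) (hg : IsChan g)
    (hc : InCone lam0 g) {s : ℝ} (hs : 0 ≤ s) (hs' : s ≤ C.T) :
    tot (Vs C.V C.J s) (prod2 f g) ≤
      tot (Vs C.V C.J s) f + tot C.m g * tot (dVs C.V C.J s) f + tot C.qq g * tot (C.K s) f := by
  have h1 := tot_prod2_avg (Vs C.V C.J s) (f := f) hg C.S
  have h2 : ∑ x, ∑ y, ∑ π ∈ C.S, Vs C.V C.J s (fun i => f x i * g y (π i)) ≤
      ∑ x, ∑ y, (C.S.card : ℝ) * (Vs C.V C.J s (f x) * Z (g y) +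
        C.m (g y) * dVs C.V C.J s (f x) + C.qq (g y) * C.K s (f x)) := by
    refine Finset.sum_le_sum fun x _ => Finset.sum_le_sum fun y _ => ?_
    obtain ⟨t, ht, e⟩ := hc y
    have := C.main s hs hs' (f x) t (hf.nonneg x) (hfU x) ht
    rw [← e] at this
    exact this
  have h3 : ∑ x, ∑ y, (C.S.card : ℝ) * (Vs C.V C.J s (f x) * Z (g y) +
        C.m (g y) * dVs C.V C.J s (f x) + C.qq (g y) * C.K s (f x)) =
      (C.S.card : ℝ) * (tot (Vs C.V C.J s) f * tot Z g + tot C.m g * tot (dVs C.V C.J s) f +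
        tot C.qq g * tot (C.K s) f) := by
    unfold tot
    simp_rw [← Finset.mul_sum, Finset.sum_add_distrib]
    congr 1
    simp_rw [← Finset.mul_sum, ← Finset.sum_mul, ← Finset.mul_sum]
  have h4 : tot Z g = 1 := hg.sum_Z hq
  rw [h4, mul_one] at h3
  have h5 : (C.S.card : ℝ) * tot (Vs C.V C.J s) (prod2 f g) ≤ (C.S.card : ℝ) *
      (tot (Vs C.V C.J s) f + tot C.m g * tot (dVs C.V C.J s) f + tot C.qq g * tot (C.K s) f) := by
    rw [h1]
    exact h2.trans_eq h3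
  exact le_of_mul_le_mul_left h5 C.card_pos

lemma tot_m_nonneg {Y : Type} [Fintype Y] {g : Y → Fin q → ℝ} (hc : InCone lam0 g) :
    0 ≤ tot C.m g := by
  refine Finset.sum_nonneg fun y _ => ?_
  obtain ⟨t, ht, e⟩ := hc y
  rw [e]
  exact C.m_nonneg t ht

lemma tot_K_nonpos {X : Type} [Fintype X] {f : X → Fin q → ℝ} (hf : IsChan f)
    (hfU : ∀ x, C.DU (f x)) {s : ℝ} (hs : 0 ≤ s) (hs' : s ≤ C.T) : tot (C.K s) f ≤ 0 :=
  Finset.sum_nonpos fun x _ => C.K_nonpos s hs hs' _ (hf.nonneg x) (hfU x)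

lemma tot_qq_nonneg {Y : Type} [Fintype Y] {g : Y → Fin q → ℝ} (hc : InCone lam0 g) :
    0 ≤ tot C.qq g := by
  refine Finset.sum_nonneg fun y _ => ?_
  obtain ⟨t, ht, e⟩ := hc y
  rw [e]
  exact C.qq_nonneg t ht

/-- extra conditions for deterministic numbers of children -/
structure Reg : Prop where
  conv : ∀ s r, 0 ≤ s → 0 ≤ r → s + r ≤ C.T → ∀ u : Fin q → ℝ, (∀ i, 0 ≤ u i) → C.DU u →
    Vs C.V C.J s u + r * dVs C.V C.J s u + r ^ 2 * C.K s u ≤ Vs C.V C.J (s + r) u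
  qq_ge : ∀ t : Fin q → ℝ, (∀ i, 0 ≤ t i) →
    C.m (edge lam0 t) ^ 2 ≤ C.qq (edge lam0 t) * Z (edge lam0 t)

variable {C}

lemma Reg.sq_le (hR : C.Reg) (hq : 0 < q) {Y : Type} [Fintype Y] {g : Y → Fin q → ℝ}
    (hg : IsChan g) (hc : InCone lam0 g) : tot C.m g ^ 2 ≤ tot C.qq g := by
  have hZ : ∀ y, 0 ≤ Z (g y) := fun y =>
    div_nonneg (Finset.sum_nonneg fun i _ => hg.nonneg y i) (Nat.cast_nonneg _)
  have hqq : ∀ y, 0 ≤ C.qq (g y) := by
    intro y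
    obtain ⟨t, ht, e⟩ := hc y
    rw [e]; exact C.qq_nonneg t ht
  have hm : ∀ y, 0 ≤ C.m (g y) := by
    intro y
    obtain ⟨t, ht, e⟩ := hc y
    rw [e]; exact C.m_nonneg t ht
  have h1 : ∀ y, C.m (g y) ≤ Real.sqrt (C.qq (g y)) * Real.sqrt (Z (g y)) := by
    intro y
    obtain ⟨t, ht, e⟩ := hc y
    rw [← Real.sqrt_mul (hqq y)]
    apply Real.le_sqrt_of_sq_le
    rw [e]
    exact hR.qq_ge t ht
  have h2 : tot C.m g ≤ Real.sqrt (tot C.qq g) * Real.sqrt (tot Z g) := by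
    unfold tot
    refine (Finset.sum_le_sum fun y _ => h1 y).trans ?_
    exact Real.sum_sqrt_mul_sqrt_le _ hqq hZ
  have h3 : tot Z g = 1 := hg.sum_Z hq
  rw [h3, Real.sqrt_one, mul_one] at h2
  have h4 : 0 ≤ tot C.qq g := C.tot_qq_nonneg hc
  have h5 : 0 ≤ tot C.m g := C.tot_m_nonneg hc
  calc tot C.m g ^ 2 ≤ Real.sqrt (tot C.qq g) ^ 2 := by gcongr
    _ = tot C.qq g := Real.sq_sqrt h4

end HG

/-- ratio bound -/
def Rat (K : ℝ) (u : Fin q → ℝ) : Prop := ∀ i j, u i ≤ K * u j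

lemma Rat.mono {K K' : ℝ} (h : K ≤ K') {u : Fin q → ℝ} (hu : ∀ i, 0 ≤ u i) (hR : Rat K u) :
    Rat K' u := fun i j => (hR i j).trans (mul_le_mul_of_nonneg_right h (hu j))

lemma Rat.mul {K K' : ℝ} (hK : 0 ≤ K) {u v : Fin q → ℝ} (hu : ∀ i, 0 ≤ u i)
    (hv : ∀ i, 0 ≤ v i) (h : Rat K u) (h' : Rat K' v) : Rat (K * K') (fun i => u i * v i) := by
  intro i j
  calc u i * v i ≤ (K * u j) * (K' * v j) :=
        mul_le_mul (h i j) (h' i j) (hv i) (mul_nonneg hK (hu j))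
    _ = K * K' * (u j * v j) := by ring

lemma Rat.prodN {K : ℝ} : ∀ (k : ℕ) (X : Fin k → Type) [∀ c, Fintype (X c)]
    (f : ∀ c, X c → Fin q → ℝ), (∀ c, IsChan (f c)) → (∀ c x, Rat K (f c x)) →
    ∀ x, Rat (K ^ k) (Vale.Agent.P154.prodN f x) := by
  intro k X _ f hf hR x i j
  unfold Vale.Agent.P154.prodN
  calc ∏ c, f c (x c) i ≤ ∏ c, K * f c (x c) j := by
        refine Finset.prod_le_prod (fun c _ => (hf c).nonneg _ i) fun c _ => hR c (x c) i j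
    _ = K ^ k * ∏ c, f c (x c) j := by
        rw [Finset.prod_mul_distrib]; simp

namespace HG

open HJ (InCone inCone_edge tot_prod2_comm)

variable {lam0 : ℝ} {C : HG q lam0}

/-- chain of `k ≤ d` children -/
theorem Reg.chain (hR : C.Reg) (hq : 0 < q) {ρ : ℝ} (hρ : 1 ≤ ρ) (d : ℕ)
    (hU : ∀ u : Fin q → ℝ, (∀ i, 0 ≤ u i) → Rat (ρ ^ (d - 1)) u → C.DU u) :
    ∀ (k : ℕ) (X : Fin k → Type) [∀ c, Fintype (X c)] (f : ∀ c, X c → Fin q → ℝ), k ≤ d →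
      (∀ c, IsChan (f c)) → (∀ c, InCone lam0 (f c)) → (∀ c x, Rat ρ (f c x)) → ∀ s, 0 ≤ s →
      s + ∑ c, tot C.m (f c) ≤ C.T →
      tot (Vs C.V C.J s) (prodN f) ≤ Vs C.V C.J (s + ∑ c, tot C.m (f c)) (fun _ => 1) := by
  intro k
  induction k with
  | zero =>
    intro X _ f _ _ _ _ s _ _
    rw [tot_prodN_zero]
    simp
  | succ k ih =>
    intro X _ f hk hf hcn hrat s hs hT
    have hpos : ∀ c, 0 ≤ tot C.m (f c) := fun c => C.tot_m_nonneg (hcn c)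
    rw [Fin.sum_univ_castSucc] at hT ⊢
    set r := tot C.m (f (Fin.last k)) with hr
    have hsum : 0 ≤ ∑ c : Fin k, tot C.m (f c.castSucc) :=
      Finset.sum_nonneg fun c _ => hpos _
    have hr0 : 0 ≤ r := hpos _
    have hci : IsChan (prodN fun c : Fin k => f c.castSucc) := IsChan.prodN fun c => hf _
    have hDU : ∀ x, C.DU (prodN (fun c : Fin k => f c.castSucc) x) := by
      intro x
      refine hU _ (hci.nonneg x) (Rat.mono ?_ (hci.nonneg x)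
        (Rat.prodN k (fun c => X c.castSucc) (fun c => f c.castSucc) (fun c => hf _)
          (fun c x => hrat _ x) x))
      exact pow_le_pow_right₀ hρ (by omega)
    have h1 := ih (fun c => X c.castSucc) (fun c => f c.castSucc) (by omega) (fun c => hf _)
      (fun c => hcn _) (fun c x => hrat _ x) (s + r) (by linarith) (by linarith)
    have h2 := C.pair hq hci hDU (hf (Fin.last k)) (hcn (Fin.last k)) hs (by linarith)
    rw [tot_prodN_succ, tot_prod2_comm]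
    refine h2.trans (le_trans ?_ (h1.trans_eq ?_))
    · have h3 := hR.sq_le hq (hf (Fin.last k)) (hcn (Fin.last k))
      have h4 := C.tot_K_nonpos hci hDU hs (by linarith : s ≤ C.T)
      have h5 : tot C.qq (f (Fin.last k)) * tot (C.K s) (prodN fun c : Fin k => f c.castSucc) ≤
          r ^ 2 * tot (C.K s) (prodN fun c : Fin k => f c.castSucc) :=
        mul_le_mul_of_nonpos_right h3 h4
      have h6 : tot (Vs C.V C.J s) (prodN fun c : Fin k => f c.castSucc) +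
          r * tot (dVs C.V C.J s) (prodN fun c : Fin k => f c.castSucc) +
          r ^ 2 * tot (C.K s) (prodN fun c : Fin k => f c.castSucc) ≤
          tot (Vs C.V C.J (s + r)) (prodN fun c : Fin k => f c.castSucc) := by
        unfold tot
        rw [Finset.mul_sum, Finset.mul_sum, ← Finset.sum_add_distrib, ← Finset.sum_add_distrib]
        exact Finset.sum_le_sum fun x _ =>
          hR.conv s r hs hr0 (by linarith) _ (hci.nonneg x) (hDU x)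
      linarith
    · congr 1
      ring

variable (C)

/-- the scalar recursion -/
lemma tendsto_of_rec {y : ℕ → ℝ} (h0 : ∀ n, 0 ≤ y n) {n0 : ℕ} (hT : y n0 ≤ C.T)
    (h : ∀ n, n0 ≤ n → y n ≤ C.T → y (n + 1) ≤ Vs C.V C.J (y n) (fun _ => 1)) :
    (∀ n, n0 ≤ n → y n ≤ C.T) ∧ Tendsto y atTop (𝓝 0) := by
  have hb : ∀ n, n0 ≤ n → y n ≤ C.T := by
    intro n hn
    induction n, hn using Nat.le_induction with
    | base => exact hT
    | succ n hn ih =>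
      have h1 := (h n hn ih).trans (C.unit_le (y n) (h0 n) ih)
      have h2 : 0 ≤ C.gam * y n ^ 2 := mul_nonneg C.gam_pos.le (sq_nonneg _)
      linarith
  refine ⟨hb, ?_⟩
  rw [← tendsto_add_atTop_iff_nat n0]
  refine tendsto_zero_of_rec' C.gam_pos.le le_rfl (by linarith [C.gam_pos])
    (fun n => h0 _) fun n => ?_
  have h2 : n + 1 + n0 = n + n0 + 1 := by omega
  have h1 := (h (n + n0) (by omega) (hb _ (by omega))).trans
    (C.unit_le (y (n + n0)) (h0 _) (hb _ (by omega)))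
  rw [h2]
  linarith

lemma V0_nonneg {t : Fin q → ℝ} (ht : ∀ i, 0 ≤ t i) (hD : C.DT t) (hW : 0 ≤ W t) :
    0 ≤ C.V 0 t := (mul_nonneg C.c_pos.le hW).trans (C.W_le t ht hD)

/-- the edge inequality -/
lemma m_edge_le {r : ℝ} (h0 : 0 ≤ r) (h1 : r ≤ 1) {d : ℝ}
    (hd : 0 ≤ d) (hdl : d * (lam0 * r) ^ 2 ≤ 1) (t : Fin q → ℝ) (ht : ∀ i, 0 ≤ t i)
    (hD : C.DT t) (hW : 0 ≤ W t) : d * C.m (edge (lam0 * r) t) ≤ C.V 0 t := by
  have h2 := C.mV r h0 h1 t ht hD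
  have h4 := C.V0_nonneg ht hD hW
  calc d * C.m (edge (lam0 * r) t) ≤ d * ((lam0 * r) ^ 2 * C.V 0 t) := by gcongr
    _ = (d * (lam0 * r) ^ 2) * C.V 0 t := by ring
    _ ≤ C.V 0 t := mul_le_of_le_one_left h4 hdl

lemma tot_m_edge_le {r : ℝ} (h0 : 0 ≤ r) (h1 : r ≤ 1) {d : ℝ}
    (hd : 0 ≤ d) (hdl : d * (lam0 * r) ^ 2 ≤ 1) {X : Type} [Fintype X]
    {f : X → Fin q → ℝ} (hf : IsChan f) (hD : ∀ x, C.DT (f x)) (hW : ∀ x, 0 ≤ W (f x)) :
    d * tot C.m (fun x => edge (lam0 * r) (f x)) ≤ tot (C.V 0) f := by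
  unfold tot
  rw [Finset.mul_sum]
  exact Finset.sum_le_sum fun x _ => C.m_edge_le h0 h1 hd hdl _ (hf.nonneg x) (hD x) (hW x)

lemma tot_W_le {X : Type} [Fintype X] {f : X → Fin q → ℝ} (hf : IsChan f)
    (hD : ∀ x, C.DT (f x)) : C.c * tot W f ≤ tot (C.V 0) f := by
  unfold tot
  rw [Finset.mul_sum]
  exact Finset.sum_le_sum fun x _ => C.W_le _ (hf.nonneg x) (hD x)

end HG

end Vale.Agent.P154
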