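import Mathlib
import Vale.Agent.P154.HG

/-!
# P154: Hamilton–Jacobi certificates on restricted domains, conclusions
-/

namespace Vale.Agent.P154

open MeasureTheory ProbabilityTheory Filter Topology Finset
open scoped BigOperators ENNReal NNReal

variable {q : ℕ}

namespace HG

open HJ (InCone inCone_edge tot_prod2_comm nonrec_of_integral_chi)

variable {lam0 : ℝ} (C : HG q lam0)

theorem nonreconstruction_regular (hR : C.Reg) (hq : 0 < q) {r : ℝ}
    (h0 : 0 ≤ r) (h1 : r ≤ 1) (h : Admissible q (lam0 * r)) {d : ℕ}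
    (hdl : d * (lam0 * r) ^ 2 ≤ 1) {ρ : ℝ} (hρ : 1 ≤ ρ)
    (hrat : ∀ t : Fin q → ℝ, (∀ i, 0 ≤ t i) → Rat ρ (edge lam0 t))
    (hU : ∀ u : Fin q → ℝ, (∀ i, 0 ≤ u i) → Rat (ρ ^ (d - 1)) u → C.DU u)
    (hD : ∀ t : Fin q → ℝ, (∀ i, 0 ≤ t i) → Rat (ρ ^ d) t → C.DT t) {n0 : ℕ}
    (hstart : d * tot C.m (fun x => edge (lam0 * r) (lik q (lam0 * r) (fun _ => d) n0 x)) ≤ C.T) :
    Nonreconstruction (aRegular q (lam0 * r) d) := by
  set lam := lam0 * r with hlam
  set N : List ℕ → ℕ := fun _ => d with hN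
  set y : ℕ → ℝ := fun n => d * tot C.m (fun x => edge lam (lik q lam N n x)) with hy
  have hch : ∀ n, IsChan (lik q lam N n) := fun n => isChan_lik hq h n N
  have hy0 : ∀ n, 0 ≤ y n := fun n => mul_nonneg (Nat.cast_nonneg _)
    (C.tot_m_nonneg (inCone_edge hq h0 h1 (hch n)))
  have hre : ∀ n x, Rat ρ (edge lam (lik q lam N n x)) := by
    intro n x
    have h2 := hrat (edge r (lik q lam N n x)) (fun i =>
      edge_nonneg (admissible_of_mem q h0 h1) ((hch n).nonneg x) i)
    rwa [edge_edge hq] at h2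
  have hDT : ∀ n x, C.DT (lik q lam N (n + 1) x) := by
    intro n x
    refine hD _ ((hch (n + 1)).nonneg x) ?_
    obtain ⟨t, rfl⟩ := (glueG q N n).surjective x
    have e := congrFun (lik_succ' lam N n) t
    rw [e]
    exact Rat.prodN d (fun c : Fin d => (gen (sub N c) n → Fin q))
      (fun c : Fin d => fun τ : (gen (sub N c) n → Fin q) => edge lam (lik q lam (sub N c) n τ))
      (fun c => (isChan_lik hq h n _).edge hq h) (fun c x => hre n x) t
  have key : ∀ n, y n ≤ C.T → tot (C.V 0) (lik q lam N (n + 1)) ≤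
      Vs C.V C.J (y n) (fun _ => 1) := by
    intro n hn
    have e1 : ∑ c : Fin (N []), tot C.m (fun τ : (gen (sub N c) n → Fin q) =>
        edge lam (lik q lam (sub N c) n τ)) = y n := by
      have : ∀ c : Fin (N []), tot C.m (fun τ : (gen (sub N c) n → Fin q) =>
        edge lam (lik q lam (sub N c) n τ)) = tot C.m (fun x => edge lam (lik q lam N n x)) :=
        fun c => rfl
      simp_rw [this]
      rw [Finset.sum_const, Finset.card_univ, Fintype.card_fin, nsmul_eq_mul]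
    have h2 := hR.chain hq hρ d hU (N []) _ (fun c : Fin (N []) =>
      fun τ : (gen (sub N c) n → Fin q) => edge lam (lik q lam (sub N c) n τ)) le_rfl
      (fun c => (isChan_lik hq h n _).edge hq h)
      (fun c => inCone_edge hq h0 h1 (isChan_lik hq h n _)) (fun c x => hre n x) 0 le_rfl (by
        rw [e1, zero_add]; exact hn)
    rw [e1, zero_add, ← lik_succ'] at h2
    have h3 : tot (Vs C.V C.J 0) (fun t => lik q lam N (n + 1) (glueG q N n t)) =
        tot (C.V 0) (lik q lam N (n + 1)) := by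
      rw [tot_comp_equiv]
      unfold tot
      exact Finset.sum_congr rfl fun x _ => Vs_zero _ _ _
    rw [h3] at h2
    exact h2
  have hrec : ∀ n, n0 ≤ n → y n ≤ C.T → y (n + 1) ≤ Vs C.V C.J (y n) (fun _ => 1) := by
    intro n _ hn
    exact (C.tot_m_edge_le h0 h1 (Nat.cast_nonneg _) hdl (hch (n + 1)) (hDT n)
      (fun x => W_nonneg hq _ ((hch (n + 1)).nonneg x))).trans (key n hn)
  obtain ⟨hb, hlim⟩ := C.tendsto_of_rec hy0 hstart hrec
  have hx : Tendsto (fun n => chi q lam N n) atTop (𝓝 0) := by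
    rw [← tendsto_add_atTop_iff_nat (n0 + 1)]
    refine squeeze_zero (fun n => chi_nonneg hq h _ _) (g := fun n => C.c⁻¹ * y (n + n0))
      (fun n => ?_) ?_
    · have h2 := (C.tot_W_le (hch (n + n0 + 1)) (hDT _)).trans
        ((key (n + n0) (hb _ (by omega))).trans
        (C.unit_le (y (n + n0)) (hy0 _) (hb _ (by omega))))
      have h3 : 0 ≤ C.gam * y (n + n0) ^ 2 := mul_nonneg C.gam_pos.le (sq_nonneg _)
      have h4 : C.c * chi q lam N (n + n0 + 1) ≤ y (n + n0) := by unfold chi; linarith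
      have h5 : n + (n0 + 1) = n + n0 + 1 := by omega
      rw [← div_eq_inv_mul, le_div_iff₀ C.c_pos, h5]
      linarith
    · have := ((tendsto_add_atTop_iff_nat n0).2 hlim).const_mul C.c⁻¹
      simpa using this
  have hs : Tendsto (fun n => 1 / 2 * Real.sqrt (chi q lam N n)) atTop (𝓝 0) := by
    have := ((Real.continuous_sqrt.tendsto 0).comp hx).const_mul (1 / 2)
    simpa using this
  exact squeeze_zero (fun n => quenched_nonneg hq h _ n) (fun n => quenched_le hq h _ n) hs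

/-! ### Poisson trees -/

lemma abs_Vs_le (s : ℝ) (u : Fin q → ℝ) (hu : ∀ i, 0 ≤ u i) :
    |Vs C.V C.J s u| ≤ (C.B * ∑ j ∈ range (C.J + 1), |s| ^ j) * Z u := by
  unfold Vs
  calc |∑ j ∈ range (C.J + 1), s ^ j * C.V j u|
      ≤ ∑ j ∈ range (C.J + 1), |s ^ j * C.V j u| := Finset.abs_sum_le_sum_abs _ _
    _ ≤ ∑ j ∈ range (C.J + 1), |s| ^ j * (C.B * Z u) := by
        refine Finset.sum_le_sum fun j _ => ?_
        rw [abs_mul, abs_pow]
        exact mul_le_mul_of_nonneg_left (C.V_bound j u hu) (by positivity)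
    _ = _ := by rw [← Finset.sum_mul]; ring

lemma abs_dVs_le (s : ℝ) (u : Fin q → ℝ) (hu : ∀ i, 0 ≤ u i) :
    |dVs C.V C.J s u| ≤ (C.B * ∑ j ∈ range (C.J + 1), (j : ℝ) * |s| ^ (j - 1)) * Z u := by
  unfold dVs
  calc |∑ j ∈ range (C.J + 1), (j : ℝ) * s ^ (j - 1) * C.V j u|
      ≤ ∑ j ∈ range (C.J + 1), |(j : ℝ) * s ^ (j - 1) * C.V j u| :=
        Finset.abs_sum_le_sum_abs _ _
    _ ≤ ∑ j ∈ range (C.J + 1), (j : ℝ) * |s| ^ (j - 1) * (C.B * Z u) := by
        refine Finset.sum_le_sum fun j _ => ?_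
        rw [abs_mul, abs_mul, abs_pow, Nat.abs_cast]
        exact mul_le_mul_of_nonneg_left (C.V_bound j u hu) (by positivity)
    _ = _ := by rw [← Finset.sum_mul]; ring

lemma tk_step (hU : ∀ u, C.DU u) (hq : 0 < q) {r : ℝ} (h0 : 0 ≤ r) (h1 : r ≤ 1)
    (h : Admissible q (lam0 * r))
    (n k : ℕ) {s : ℝ} (hs : 0 ≤ s) (hs' : s ≤ C.T) (N : List ℕ → ℕ) :
    tk q (lam0 * r) n (Vs C.V C.J s) (k + 1) (fun c => sub N c) ≤
      tk q (lam0 * r) n (Vs C.V C.J s) k (fun c => sub N c) +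
      tot C.m (fun x => edge (lam0 * r) (lik q (lam0 * r) (sub N k) n x)) *
        tk q (lam0 * r) n (dVs C.V C.J s) k (fun c => sub N c) := by
  set lam := lam0 * r with hlam
  have hg : IsChan (fun τ : (gen (sub N k) n → Fin q) => edge lam (lik q lam (sub N k) n τ)) :=
    (isChan_lik hq h n _).edge hq h
  have hf : IsChan (prodN (fun c : Fin k => fun τ : (gen (sub N c) n → Fin q) =>
      edge lam (lik q lam (sub N c) n τ))) := isChan_tk hq h n k _
  have hc : InCone lam0 (fun τ : (gen (sub N k) n → Fin q) =>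
      edge lam (lik q lam (sub N k) n τ)) := inCone_edge hq h0 h1 (isChan_lik hq h n _)
  have h2 := C.pair hq hf (fun x => hU _) hg hc hs hs'
  have h3 : tk q lam n (Vs C.V C.J s) (k + 1) (fun c => sub N c) =
      tot (Vs C.V C.J s) (prod2 (prodN (fun c : Fin k => fun τ : (gen (sub N c) n → Fin q) =>
        edge lam (lik q lam (sub N c) n τ)))
        (fun τ : (gen (sub N k) n → Fin q) => edge lam (lik q lam (sub N k) n τ))) := by
    unfold tk
    rw [tot_prodN_succ, tot_prod2_comm]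
    rfl
  have h4 : tot C.qq (fun τ : (gen (sub N k) n → Fin q) => edge lam (lik q lam (sub N k) n τ)) *
      tot (C.K s) (prodN (fun c : Fin k => fun τ : (gen (sub N c) n → Fin q) =>
      edge lam (lik q lam (sub N c) n τ))) ≤ 0 :=
    mul_nonpos_of_nonneg_of_nonpos (C.tot_qq_nonneg hc) (C.tot_K_nonpos hf (fun x => hU _) hs hs')
  rw [h3]
  unfold tk
  linarith

lemma bm_m (hq : 0 < q) {r : ℝ} (h0 : 0 ≤ r) (h1 : r ≤ 1) (h : Admissible q (lam0 * r))
    (n : ℕ) : BM (fun N => tot C.m (fun x => edge (lam0 * r) (lik q (lam0 * r) N n x))) := by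
  set lam := lam0 * r with hlam
  refine ⟨measurable_tot_edge lam C.m n, C.B, fun N => ?_⟩
  have hc := inCone_edge (lam0 := lam0) hq h0 h1 (isChan_lik hq h n N)
  have h2 : 0 ≤ tot C.m (fun x => edge lam (lik q lam N n x)) := C.tot_m_nonneg hc
  rw [abs_of_nonneg h2]
  have hch := isChan_lik hq h n N
  calc tot C.m (fun x => edge lam (lik q lam N n x))
      ≤ ∑ x, C.B * Z (lik q lam N n x) := by
        refine Finset.sum_le_sum fun x _ => ?_
        have hx : ∀ i, 0 ≤ edge r (lik q lam N n x) i :=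
          fun i => edge_nonneg (admissible_of_mem q h0 h1) (hch.nonneg x) i
        have h3 := C.m_bound _ hx
        rw [edge_edge hq, Z_edge hq] at h3
        exact h3
    _ = C.B := by rw [← Finset.mul_sum, hch.sum_Z hq, mul_one]

theorem annealed (hU : ∀ u, C.DU u) (hq : 0 < q) {r : ℝ} (h0 : 0 ≤ r) (h1 : r ≤ 1)
    (h : Admissible q (lam0 * r)) (n : ℕ) (d : ℝ≥0)
    (hT : d * ∫ N, tot C.m (fun x => edge (lam0 * r) (lik q (lam0 * r) N n x))
      ∂(gwLaw (poissonMeasure d)) ≤ C.T) :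
    ∫ N, tot (C.V 0) (lik q (lam0 * r) N (n + 1)) ∂(gwLaw (poissonMeasure d)) ≤
      Vs C.V C.J (d * ∫ N, tot C.m (fun x => edge (lam0 * r) (lik q (lam0 * r) N n x))
        ∂(gwLaw (poissonMeasure d))) (fun _ => 1) := by
  set lam := lam0 * r with hlam
  set P := poissonMeasure d with hP
  set mu := ∫ N, tot C.m (fun x => edge lam (lik q lam N n x)) ∂(gwLaw P) with hmu
  have hmb : BM (fun N => tot C.m (fun x => edge lam (lik q lam N n x))) := C.bm_m hq h0 h1 h n
  have hmu0 : 0 ≤ mu := integral_nonneg fun N =>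
    C.tot_m_nonneg (inCone_edge hq h0 h1 (isChan_lik hq h n N))
  have hbm : ∀ j k, BM (fun N : List ℕ → ℕ => tk q lam n (C.V j) k (fun c => sub N c)) :=
    fun j k => bm_tk hq h n (C.V_bound j) k
  set a : ℕ → ℕ → ℝ := fun k j => ∫ N, tk q lam n (C.V j) k (fun c => sub N c) ∂(gwLaw P) with ha
  have hab : ∀ k j, |a k j| ≤ C.B := by
    intro k j
    have h2 : ∀ N : List ℕ → ℕ, ‖tk q lam n (C.V j) k (fun c => sub N c)‖ ≤ C.B := fun N =>
      abs_tot_le hq (C.V_bound j) (isChan_tk hq h n k _)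
    have h3 := norm_integral_le_of_norm_le_const (μ := gwLaw P) (ae_of_all _ h2)
    simpa [Real.norm_eq_abs] using h3
  have hVs : ∀ k s, ∑ j ∈ range (C.J + 1), s ^ j * a k j =
      ∫ N, tk q lam n (Vs C.V C.J s) k (fun c => sub N c) ∂(gwLaw P) := by
    intro k s
    simp_rw [HJ.tk_Vs]
    rw [integral_finsetSum _ fun j _ => ((BM.const (s ^ j)).mul (hbm j k)).integrable P]
    exact Finset.sum_congr rfl fun j _ => (integral_const_mul _ _).symm
  have hdVs : ∀ k s, ∑ j ∈ range (C.J + 1), (j : ℝ) * s ^ (j - 1) * a k j =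
      ∫ N, tk q lam n (dVs C.V C.J s) k (fun c => sub N c) ∂(gwLaw P) := by
    intro k s
    simp_rw [HJ.tk_dVs]
    rw [integral_finsetSum _ fun (j : ℕ) _ =>
      ((BM.const ((j : ℝ) * s ^ (j - 1))).mul (hbm j k)).integrable P]
    exact Finset.sum_congr rfl fun j _ => (integral_const_mul _ _).symm
  have hstep : ∀ k s, 0 ≤ s → s ≤ C.T →
      ∑ j ∈ range (C.J + 1), s ^ j * a (k + 1) j ≤ ∑ j ∈ range (C.J + 1), s ^ j * a k j +
        mu * ∑ j ∈ range (C.J + 1), (j : ℝ) * s ^ (j - 1) * a k j := by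
    intro k s hs hs'
    rw [hVs, hVs, hdVs]
    have b1 : BM (fun N : List ℕ → ℕ => tk q lam n (Vs C.V C.J s) k (fun c => sub N c)) :=
      bm_tk hq h n (C.abs_Vs_le s) k
    have b2 : BM (fun N : List ℕ → ℕ => tk q lam n (Vs C.V C.J s) (k + 1) (fun c => sub N c)) :=
      bm_tk hq h n (C.abs_Vs_le s) (k + 1)
    have b3 : BM (fun N : List ℕ → ℕ => tk q lam n (dVs C.V C.J s) k (fun c => sub N c)) :=
      bm_tk hq h n (C.abs_dVs_le s) k
    have b4 : BM (fun N : List ℕ → ℕ =>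
        tot C.m (fun x => edge lam (lik q lam (sub N k) n x))) := by
      obtain ⟨hm1, K, hK⟩ := hmb
      exact ⟨hm1.comp (measurable_sub k), K, fun N => hK (sub N k)⟩
    have e : ∫ N, tot C.m (fun x => edge lam (lik q lam (sub N k) n x)) *
        tk q lam n (dVs C.V C.J s) k (fun c => sub N c) ∂(gwLaw P) =
        mu * ∫ N, tk q lam n (dVs C.V C.J s) k (fun c => sub N c) ∂(gwLaw P) := by
      rw [hmu, ← integral_sub P hmb.1 k]
      refine integral_indep P (S := {u | ∃ w, u = k :: w}) (T := firstS k) ?_ ?_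
        (measurable_tk lam n _ k)
      · rw [Set.disjoint_left]
        rintro u ⟨w, rfl⟩ ⟨c, hc, w', h'⟩
        have : k = c := by simpa using congrArg List.head? h'
        omega
      · exact hmb.1.comp (measurable_sub_blk (c := k) (fun u => ⟨u, rfl⟩))
    rw [← e, ← MeasureTheory.integral_add (b1.integrable P) ((b4.mul b3).integrable P)]
    exact integral_mono (b2.integrable P) ((b1.add (b4.mul b3)).integrable P) fun N =>
      C.tk_step hU hq h0 h1 h n k hs hs' N
  have hmix := poisson_mix (J := C.J) (a := a) (B := C.B) (mu := mu) (d := d) (T := C.T) hab hmu0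
    d.2 hT hstep
  have e0 : ∫ N, tot (C.V 0) (lik q lam N (n + 1)) ∂(gwLaw P) =
      Real.exp (-d) * egf (fun k => a k 0) d :=
    integral_tot_succ hq h n (C.V_bound 0) d
  rw [e0]
  refine hmix.trans (le_of_eq ?_)
  unfold Vs
  refine Finset.sum_congr rfl fun j _ => ?_
  congr 1
  have : ∀ N : List ℕ → ℕ, tk q lam n (C.V j) 0 (fun c => sub N c) = C.V j (fun _ => 1) := by
    intro N
    unfold tk
    rw [tot_prodN_zero]
  simp only [ha]
  simp_rw [this]
  simp

include C in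
theorem nonreconstruction_poisson (hU : ∀ u, C.DU u) (hD : ∀ t, C.DT t) (hq : 0 < q) {r : ℝ}
    (h0 : 0 ≤ r) (h1 : r ≤ 1) (h : Admissible q (lam0 * r)) {d : ℝ≥0}
    (hdl : d * (lam0 * r) ^ 2 ≤ 1) {n0 : ℕ}
    (hstart : d * ∫ N, tot C.m (fun x => edge (lam0 * r) (lik q (lam0 * r) N n0 x))
      ∂(gwLaw (poissonMeasure d)) ≤ C.T) :
    Nonreconstruction (aPoisson q (lam0 * r) d) := by
  set lam := lam0 * r with hlam
  set P := poissonMeasure d with hP
  set y : ℕ → ℝ := fun n => d * ∫ N, tot C.m (fun x => edge lam (lik q lam N n x)) ∂(gwLaw P)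
    with hy
  have hch : ∀ n N, IsChan (lik q lam N n) := fun n N => isChan_lik hq h n N
  have hy0 : ∀ n, 0 ≤ y n := fun n => mul_nonneg d.2 (integral_nonneg fun N =>
    C.tot_m_nonneg (inCone_edge hq h0 h1 (hch n N)))
  have bV : ∀ n, BM (fun N => tot (C.V 0) (lik q lam N n)) := fun n =>
    ⟨measurable_tot_lik lam _ n, C.B, fun N => abs_tot_le hq (C.V_bound 0) (hch n N)⟩
  have hyle : ∀ n, y n ≤ ∫ N, tot (C.V 0) (lik q lam N n) ∂(gwLaw P) := by
    intro n
    rw [hy]
    simp only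
    rw [← integral_const_mul]
    refine integral_mono_of_nonneg (ae_of_all _ fun N => ?_) ((bV n).integrable P)
      (ae_of_all _ fun N => ?_)
    · exact mul_nonneg d.2 (C.tot_m_nonneg (inCone_edge hq h0 h1 (hch n N)))
    · exact C.tot_m_edge_le h0 h1 d.2 hdl (hch n N) (fun x => hD _)
        (fun x => W_nonneg hq _ ((hch n N).nonneg x))
  have key : ∀ n, y n ≤ C.T → ∫ N, tot (C.V 0) (lik q lam N (n + 1)) ∂(gwLaw P) ≤
      Vs C.V C.J (y n) (fun _ => 1) := fun n hn => C.annealed hU hq h0 h1 h n d hn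
  have hrec : ∀ n, n0 ≤ n → y n ≤ C.T → y (n + 1) ≤ Vs C.V C.J (y n) (fun _ => 1) :=
    fun n _ hn => (hyle (n + 1)).trans (key n hn)
  obtain ⟨hb, hlim⟩ := C.tendsto_of_rec hy0 hstart hrec
  have e : aPoisson q lam d = aGW q lam P := funext fun n => aPoisson_eq lam d n
  rw [e]
  refine nonrec_of_integral_chi hq h P ?_
  rw [← tendsto_add_atTop_iff_nat (n0 + 1)]
  refine squeeze_zero (fun n => integral_nonneg fun N => chi_nonneg hq h _ _)
    (g := fun n => C.c⁻¹ * y (n + n0)) (fun n => ?_) ?_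
  · have h2 : C.c * ∫ N, chi q lam N (n + n0 + 1) ∂(gwLaw P) ≤
        ∫ N, tot (C.V 0) (lik q lam N (n + n0 + 1)) ∂(gwLaw P) := by
      rw [← integral_const_mul]
      exact integral_mono
        (((BM.const C.c).mul (ACert.bm_chi hq h (n + n0 + 1))).integrable P)
        ((bV (n + n0 + 1)).integrable P) fun N => C.tot_W_le (hch (n + n0 + 1) N) (fun x => hD _)
    have h3 := h2.trans ((key (n + n0) (hb _ (by omega))).trans
      (C.unit_le (y (n + n0)) (hy0 _) (hb _ (by omega))))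
    have h4 : 0 ≤ C.gam * y (n + n0) ^ 2 := mul_nonneg C.gam_pos.le (sq_nonneg _)
    have h5 : n + (n0 + 1) = n + n0 + 1 := by omega
    rw [← div_eq_inv_mul, le_div_iff₀ C.c_pos, h5]
    linarith
  · have := ((tendsto_add_atTop_iff_nat n0).2 hlim).const_mul C.c⁻¹
    simpa using this

end HG

end Vale.Agent.P154
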