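import Mathlib
import Vale.Agent.P154.PMCert
import Vale.Agent.P154.HGFin

/-!
# P154: checked data without the comparison function
-/

namespace Vale.Agent.P154

open Finset MeasureTheory ProbabilityTheory
open scoped NNReal

namespace Sep2

/-- checked data (core part) -/
structure Core (F : Full) : Prop where
  ok : F.D.ok = true
  r0 : F.D.r ≠ 0
  c0 : 0 < F.D.c0
  ln0 : 0 < F.ln
  ld0 : 2 * F.ln ≤ F.ld
  dn0 : 0 < F.dn
  dd0 : 0 < F.dd
  Da0 : 0 < F.Da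
  den0 : 0 < F.den
  cn0 : 0 < F.cn
  cd0 : 0 < F.cd
  gn0 : 0 < F.gn
  gd0 : 0 < F.gd
  fan : fanOk F.D.r (2 * F.ld - F.ln) (F.ld + F.ln) F.fan = true
  fan1 : fanFirst F.fan = true
  fan2 : 2 ≤ F.fan.length
  main : ∀ Q ∈ fanCells F.fan, Pos F.D U0 Q 0 F.N
  hm : ∀ Q ∈ fanCells F.fan, ∀ a b c, InC Q a b c → 0 ≤ PExp.ev (vec a b c) (eM F)
  hw : ∀ a b c, InC U0 a b c → 0 ≤ PExp.ev (vec a b c) (eW F)
  s0 : (F.D.F.map fun f => f.a0).sum = 0
  s1 : (F.D.F.map fun f => f.a1).sum * F.dd = F.Da * F.dn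
  v2 : (F.D.F.map fun f => f.a2).sum * (F.dd ^ 2 * F.gd : ℕ) ≤ -(F.gn * F.Da * F.dn ^ 2 : ℕ)
  v3 : ((F.D.F.map fun f => f.a2).sum + F.N * (F.D.F.map fun f => f.a3).sum) *
    (F.dd ^ 2 * F.gd : ℕ) ≤ -(F.gn * F.Da * F.dn ^ 2 : ℕ)

namespace Core

variable {F : Full} (H : Core F)

include H

lemma ld_pos : (0 : ℝ) < F.ld := by
  have := H.ln0; have := H.ld0
  exact_mod_cast (by omega : 0 < F.ld)
lemma ln_pos : (0 : ℝ) < F.ln := by exact_mod_cast H.ln0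
lemma dl_pos : 0 < F.dl := by
  have h1 : (0 : ℝ) < F.dn := by exact_mod_cast H.dn0
  have h2 : (0 : ℝ) < F.dd := by exact_mod_cast H.dd0
  unfold Full.dl; positivity
lemma Da_pos : (0 : ℝ) < F.Da := by exact_mod_cast H.Da0
lemma den_pos : (0 : ℝ) < F.den := by exact_mod_cast H.den0
lemma c0_pos : (0 : ℝ) < F.D.c0 := by exact_mod_cast H.c0

lemma lam_neg : F.lam < 0 := by
  have := H.ld_pos; have := H.ln_pos
  unfold Full.lam
  rw [neg_lt_zero]; positivity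

lemma lam_ge : -1 / 2 ≤ F.lam := by
  have h1 := H.ld_pos
  have h2 : (2 : ℝ) * F.ln ≤ F.ld := by exact_mod_cast H.ld0
  unfold Full.lam
  rw [neg_div, neg_le_neg_iff, div_le_div_iff₀ h1 (by norm_num)]
  linarith

lemma adm : Admissible 3 F.lam := admissible_three H.lam_ge (by have := H.lam_neg; linarith)

lemma edge_nn {t : Fin 3 → ℝ} (ht : ∀ i, 0 ≤ t i) (i : Fin 3) : 0 ≤ edge F.lam t i :=
  edge_nonneg H.adm ht i

lemma cnd : 2 * F.ld - F.ln < 2 * (F.ld + F.ln) := by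
  have := H.ln0; have := H.ld0; omega

lemma dom {t : Fin 3 → ℝ} (ht : ∀ i, 0 ≤ t i) :
    Dom F.D.r (2 * F.ld - F.ln) (F.ld + F.ln) (rt F.D.r (edge F.lam t 0))
      (rt F.D.r (edge F.lam t 1)) (rt F.D.r (edge F.lam t 2)) := by
  unfold Dom
  rw [rt_pow H.r0 (H.edge_nn ht 0), rt_pow H.r0 (H.edge_nn ht 1), rt_pow H.r0 (H.edge_nn ht 2)]
  have hle : F.ln ≤ 2 * F.ld := by have := H.ld0; omega
  have h0 := ht 0
  have h1 := ht 1
  have h2 := ht 2
  have hld := H.ld_pos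
  have hln := H.ln_pos
  push_cast [Nat.cast_sub hle]
  simp only [edge_eq]
  rw [Z3]
  unfold Full.lam
  have e : ∀ x y z : ℝ, ((F.ld : ℝ) + F.ln) * (((-(F.ln / F.ld : ℝ)) * y +
      (1 - (-(F.ln / F.ld : ℝ))) * ((x + y + z) / 3)) + ((-(F.ln / F.ld : ℝ)) * z +
      (1 - (-(F.ln / F.ld : ℝ))) * ((x + y + z) / 3))) -
      (2 * (F.ld : ℝ) - F.ln) * ((-(F.ln / F.ld : ℝ)) * x +
      (1 - (-(F.ln / F.ld : ℝ))) * ((x + y + z) / 3)) = 3 * F.ln * x := by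
    intro x y z
    field_simp
    ring
  have k0 := e (t 0) (t 1) (t 2)
  have k1 := e (t 1) (t 0) (t 2)
  have k2 := e (t 2) (t 0) (t 1)
  have p0 : 0 ≤ 3 * (F.ln : ℝ) * t 0 := by positivity
  have p1 : 0 ≤ 3 * (F.ln : ℝ) * t 1 := by positivity
  have p2 : 0 ≤ 3 * (F.ln : ℝ) * t 2 := by positivity
  have s1 : t 1 + t 0 + t 2 = t 0 + t 1 + t 2 := by ring
  have s2 : t 2 + t 0 + t 1 = t 0 + t 1 + t 2 := by ring
  rw [s1] at k1
  rw [s2] at k2
  refine ⟨?_, ?_, ?_⟩ <;> linarith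

/-- nonnegative symmetric expressions at roots of edges -/
lemma fan_ev {e : PExp} (h01 : ∀ a b c : ℝ, PExp.ev (vec b a c) e = PExp.ev (vec a b c) e)
    (h12 : ∀ a b c : ℝ, PExp.ev (vec a c b) e = PExp.ev (vec a b c) e)
    (h : ∀ Q ∈ fanCells F.fan, ∀ a b c, InC Q a b c → 0 ≤ PExp.ev (vec a b c) e)
    {t : Fin 3 → ℝ} (ht : ∀ i, 0 ≤ t i) :
    0 ≤ PExp.ev (vec (rt F.D.r (edge F.lam t 0)) (rt F.D.r (edge F.lam t 1))
      (rt F.D.r (edge F.lam t 2))) e :=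
  fan_all H.cnd H.fan H.fan1 H.fan2 (P := fun a b c => 0 ≤ PExp.ev (vec a b c) e)
    (fun a b c h => by rw [← h01]; exact h) (fun a b c h => by rw [← h12]; exact h) h _ _ _
    (rt_nonneg _ (H.edge_nn ht 0)) (rt_nonneg _ (H.edge_nn ht 1)) (rt_nonneg _ (H.edge_nn ht 2))
    (H.dom ht)

omit H in
lemma U_ev {e : PExp} (h01 : ∀ a b c : ℝ, PExp.ev (vec b a c) e = PExp.ev (vec a b c) e)
    (h12 : ∀ a b c : ℝ, PExp.ev (vec a c b) e = PExp.ev (vec a b c) e)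
    (h : ∀ a b c, InC U0 a b c → 0 ≤ PExp.ev (vec a b c) e)
    {t : Fin 3 → ℝ} (ht : ∀ i, 0 ≤ t i) :
    0 ≤ PExp.ev (vec (rt F.D.r (t 0)) (rt F.D.r (t 1)) (rt F.D.r (t 2))) e :=
  sym_nonneg h01 h12 h _ _ _ (rt_nonneg _ (ht 0)) (rt_nonneg _ (ht 1)) (rt_nonneg _ (ht 2))

lemma GR_nonneg {s : ℝ} (h0 : 0 ≤ s) (h1 : s ≤ F.N * F.dl) {u t : Fin 3 → ℝ}
    (hu : ∀ i, 0 ≤ u i) (ht : ∀ i, 0 ≤ t i) :
    0 ≤ GR F.D (s / F.dl) (rt F.D.r (u 0)) (rt F.D.r (u 1)) (rt F.D.r (u 2))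
      (rt F.D.r (edge F.lam t 0)) (rt F.D.r (edge F.lam t 1)) (rt F.D.r (edge F.lam t 2)) := by
  have hdl := H.dl_pos
  have t0 : ((0 : ℕ) : ℝ) ≤ s / F.dl := by rw [Nat.cast_zero]; positivity
  have t1 : s / F.dl ≤ F.N := by rw [div_le_iff₀ hdl]; exact h1
  refine fan_all H.cnd H.fan H.fan1 H.fan2 (P := fun a b c =>
    0 ≤ GR F.D (s / F.dl) (rt F.D.r (u 0)) (rt F.D.r (u 1)) (rt F.D.r (u 2)) a b c) ?_ ?_ ?_ _ _ _
    (rt_nonneg _ (H.edge_nn ht 0)) (rt_nonneg _ (H.edge_nn ht 1)) (rt_nonneg _ (H.edge_nn ht 2))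
    (H.dom ht)
  · intro a b c h
    unfold GR at h ⊢
    simpa only [ms_swap01 _ a b c, lcR_01 _ _ _ a b c] using h
  · intro a b c h
    unfold GR at h ⊢
    simpa only [ms_swap12 _ a b c, lcR_12 _ _ _ a b c] using h
  · intro Q hQ a b c hin
    refine wlog3 (P := fun x y z => 0 ≤ x → 0 ≤ y → 0 ≤ z → 0 ≤ GR F.D (s / F.dl) x y z a b c)
      ?_ ?_ ?_ _ _ _ (rt_nonneg _ (hu 0)) (rt_nonneg _ (hu 1)) (rt_nonneg _ (hu 2))
    · intro x y z h hx hy hz
      have := h hy hx hz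
      unfold GR at this ⊢
      simpa only [ms_swap01 _ x y z] using this
    · intro x y z h hx hy hz
      have := h hx hz hy
      unfold GR at this ⊢
      simpa only [ms_swap12 _ x y z] using this
    · intro x y z hxy hyz hx hy hz
      exact H.main Q hQ _ _ _ _ _ _ _ t0 t1 (inC_U0 hz hxy hyz) hin

lemma m_nonneg {t : Fin 3 → ℝ} (ht : ∀ i, 0 ≤ t i) : 0 ≤ mF F.D F.dl (edge F.lam t) := by
  have h := H.fan_ev (e := eM F) (fun a b c => by
      simp only [eM, ev_lcE, lcR_01 _ _ _ a b c]) (fun a b c => by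
      simp only [eM, ev_lcE, lcR_12 _ _ _ a b c]) H.hm ht
  simp only [eM, ev_lcE] at h
  unfold mF lcU
  have hZ := Z_nn (H.edge_nn ht)
  have := H.dl_pos
  have := H.c0_pos
  positivity

lemma W_le {t : Fin 3 → ℝ} (ht : ∀ i, 0 ≤ t i) :
    (F.cn / F.cd : ℝ) * W t ≤ VV F.D F.Da F.dl 0 t := by
  have hsym1 : ∀ a b c : ℝ, PExp.ev (vec b a c) (eW F) = PExp.ev (vec a b c) (eW F) := by
    intro a b c
    simp only [eW, PExp.ev, ev_SE, ev_AE, ev_msE, ms_swap01 _ a b c, Ah_01]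
  have hsym2 : ∀ a b c : ℝ, PExp.ev (vec a c b) (eW F) = PExp.ev (vec a b c) (eW F) := by
    intro a b c
    simp only [eW, PExp.ev, ev_SE, ev_AE, ev_msE, ms_swap12 _ a b c, Ah_12]
  have h := U_ev (F := F) hsym1 hsym2 H.hw ht
  simp only [eW, PExp.ev, ev_SE, ev_AE, ev_msE] at h
  rw [rt_pow H.r0 (ht 0), rt_pow H.r0 (ht 1), rt_pow H.r0 (ht 2), ms_rt H.r0 ht] at h
  have hSL : (F.D.F.map fun f => (f.a0 : ℝ) * ms f.g (rt F.D.r (t 0)) (rt F.D.r (t 1))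
      (rt F.D.r (t 2))).sum = 6 * SL F.D.r F.D.F 0 t := by
    unfold SL
    rw [← List.sum_map_mul_left]
    exact congrArg List.sum (List.map_congr_left fun f _ => by
      simp only [cf, MM]; ring)
  rw [hSL] at h
  have hDa := H.Da_pos
  have hcd : (0 : ℝ) < F.cd := by exact_mod_cast H.cd0
  unfold VV
  rw [pow_zero, mul_one]
  rcases (Z_nn ht).lt_or_eq with hZ | hZ
  · have hW : Ah (t 0) (t 1) (t 2) = 36 * Z t * W t := by
      unfold Ah W
      rw [Fin.sum_univ_three, Fin.sum_univ_three, S3]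
      field_simp
      push_cast
      ring
    rw [hW] at h
    rw [div_mul_eq_mul_div, div_le_div_iff₀ hcd hDa]
    push_cast at h
    have e : F.cd * (6 * SL F.D.r F.D.F 0 t * (6 * Z t)) - F.cn * F.Da * (36 * Z t * W t) =
        36 * Z t * (SL F.D.r F.D.F 0 t * F.cd - F.cn * W t * F.Da) := by ring
    rw [e] at h
    have := (mul_nonneg_iff_of_pos_left (by positivity)).1 h
    linarith
  · have hz := Z_zero ht hZ.symm
    have e0 : W t = 0 := by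
      unfold W
      rw [Fin.sum_univ_three, Fin.sum_univ_three, hz 0, hz 1, hz 2]
      simp
    have e1 : SL F.D.r F.D.F 0 t = 0 := by
      have := abs_SL_le H.ok H.r0 0 ht
      rw [← hZ, mul_zero] at this
      exact abs_eq_zero.1 (le_antisymm this (abs_nonneg _))
    rw [e0, e1, mul_zero, zero_div]

omit H in
lemma SL_one (j : ℕ) : SL F.D.r F.D.F j (fun _ => 1) = (F.D.F.map fun f => (cf j f : ℝ)).sum := by
  unfold SL
  exact congrArg List.sum (List.map_congr_left fun f _ => by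
    unfold MM ms; simp only [rt_one, one_pow]; norm_num)

lemma unit_le {s : ℝ} (h0 : 0 ≤ s) (h1 : s ≤ F.N * F.dl) :
    Vs (VV F.D F.Da F.dl) 3 s (fun _ => 1) ≤ s - (F.gn / F.gd : ℝ) * s ^ 2 := by
  have hdl := H.dl_pos
  have hDa := H.Da_pos
  have hdn : (0 : ℝ) < F.dn := by exact_mod_cast H.dn0
  have hdd : (0 : ℝ) < F.dd := by exact_mod_cast H.dd0
  have hgd : (0 : ℝ) < F.gd := by exact_mod_cast H.gd0
  rw [Vs_VV _ hdl.ne' hDa.ne']
  rw [SL_one, SL_one, SL_one, SL_one]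
  have c0 : (F.D.F.map fun f => (cf 0 f : ℝ)).sum = 0 := by
    have : (F.D.F.map fun f => (cf 0 f : ℝ)).sum = ((F.D.F.map fun f => f.a0).sum : ℤ) := by
      rw [Int.cast_list_sum, List.map_map]; rfl
    rw [this, H.s0]; simp
  have c1 : (F.D.F.map fun f => (cf 1 f : ℝ)).sum = F.Da * F.dl := by
    have : (F.D.F.map fun f => (cf 1 f : ℝ)).sum = ((F.D.F.map fun f => f.a1).sum : ℤ) := by
      rw [Int.cast_list_sum, List.map_map]; rfl
    rw [this]
    unfold Full.dl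
    have e : (((F.D.F.map fun f => f.a1).sum : ℤ) : ℝ) * F.dd = F.Da * F.dn := by
      exact_mod_cast H.s1
    rw [mul_div_assoc', eq_div_iff hdd.ne']
    exact e
  have c2 : (F.D.F.map fun f => (cf 2 f : ℝ)).sum = ((F.D.F.map fun f => f.a2).sum : ℤ) := by
    rw [Int.cast_list_sum, List.map_map]; rfl
  have c3 : (F.D.F.map fun f => (cf 3 f : ℝ)).sum = ((F.D.F.map fun f => f.a3).sum : ℤ) := by
    rw [Int.cast_list_sum, List.map_map]; rfl
  rw [c0, c1, c2, c3]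
  set A2 : ℝ := (((F.D.F.map fun f => f.a2).sum : ℤ) : ℝ) with hA2
  set A3 : ℝ := (((F.D.F.map fun f => f.a3).sum : ℤ) : ℝ) with hA3
  have v2 : A2 * (F.dd ^ 2 * F.gd) ≤ -(F.gn * F.Da * F.dn ^ 2) := by
    have := H.v2
    rw [hA2]
    exact_mod_cast this
  have v3 : (A2 + F.N * A3) * (F.dd ^ 2 * F.gd) ≤ -(F.gn * F.Da * F.dn ^ 2) := by
    have := H.v3
    rw [hA2, hA3]
    exact_mod_cast this
  set τ := s / F.dl with hτ
  have hs : s = τ * F.dl := by rw [hτ]; field_simp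
  have t0 : 0 ≤ τ := by positivity
  have t1 : τ ≤ F.N := by rw [hτ, div_le_iff₀ hdl]; exact h1
  have key : (A2 + τ * A3) * (F.dd ^ 2 * F.gd) ≤ -(F.gn * F.Da * F.dn ^ 2) := by
    rcases le_total A3 0 with h3 | h3
    · have : (A2 + τ * A3) * (F.dd ^ 2 * F.gd) ≤ A2 * (F.dd ^ 2 * F.gd) := by
        have : τ * A3 ≤ 0 := mul_nonpos_of_nonneg_of_nonpos t0 h3
        have hp : (0 : ℝ) < F.dd ^ 2 * F.gd := by positivity
        nlinarith
      linarith
    · have : (A2 + τ * A3) * (F.dd ^ 2 * F.gd) ≤ (A2 + F.N * A3) * (F.dd ^ 2 * F.gd) := by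
        have : τ * A3 ≤ F.N * A3 := mul_le_mul_of_nonneg_right t1 h3
        have hp : (0 : ℝ) < F.dd ^ 2 * F.gd := by positivity
        nlinarith
      linarith
  have hdl2 : F.dl ^ 2 * F.dd ^ 2 = F.dn ^ 2 := by unfold Full.dl; field_simp
  have key2 : A2 + τ * A3 ≤ -(F.gn / F.gd : ℝ) * (F.Da * F.dl ^ 2) := by
    have hp : (0 : ℝ) < F.dd ^ 2 * F.gd := by positivity
    have e : -(F.gn / F.gd : ℝ) * (F.Da * F.dl ^ 2) * (F.dd ^ 2 * F.gd) =
        -(F.gn * F.Da * F.dn ^ 2) := by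
      rw [← hdl2]; field_simp
    rw [← e] at key
    exact le_of_mul_le_mul_right key hp
  rw [hs, div_le_iff₀ hDa]
  have hτ2 : 0 ≤ τ ^ 2 := sq_nonneg τ
  nlinarith [mul_le_mul_of_nonneg_left key2 hτ2]

lemma BVj_nonneg (j : ℕ) : 0 ≤ BVj F j := by
  have := H.Da_pos
  have := H.dl_pos
  exact div_nonneg (listsum_nonneg' _ _ fun f => by positivity) (by positivity)

lemma Bm_nonneg : 0 ≤ Bm F := by
  have := H.dl_pos
  have := H.c0_pos
  have h1 := listsum_nonneg' F.D.F (fun f => |(f.mc : ℝ)| * 108) fun f => by positivity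
  have h2 := listsum_nonneg' F.D.G (fun e => |(e.2.1 : ℝ)| * 324) fun f => by positivity
  unfold Bm
  positivity

omit H in
lemma BR_nonneg : 0 ≤ BR F := by unfold BR; positivity

lemma V_bound (j : ℕ) {u : Fin 3 → ℝ} (hu : ∀ i, 0 ≤ u i) :
    |VV F.D F.Da F.dl j u| ≤ BB F * Z u := by
  have hDa := H.Da_pos
  have hdl := H.dl_pos
  have hZ := Z_nn hu
  have h1 : |VV F.D F.Da F.dl j u| ≤ BVj F j * Z u := by
    unfold VV BVj
    rw [abs_div, abs_of_pos (by positivity : 0 < (F.Da : ℝ) * F.dl ^ j), div_mul_eq_mul_div]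
    exact div_le_div_of_nonneg_right (abs_SL_le H.ok H.r0 j hu) (by positivity)
  have n0 := H.BVj_nonneg 0
  have n1 := H.BVj_nonneg 1
  have n2 := H.BVj_nonneg 2
  have n3 := H.BVj_nonneg 3
  have nR := BR_nonneg (F := F)
  have nm := H.Bm_nonneg
  have h2 : BVj F j ≤ BB F := by
    unfold BB
    rcases Nat.lt_or_ge j 4 with hj | hj
    · interval_cases j <;> linarith
    · have : BVj F j = 0 := by
        unfold BVj
        have : (F.D.F.map fun f => |(cf j f : ℝ)| * 3).sum = 0 := by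
          apply List.sum_eq_zero
          intro x hx
          obtain ⟨f, _, rfl⟩ := List.mem_map.1 hx
          rw [cf_ge4 hj]; simp
        rw [this, zero_div]
      rw [this]; linarith
  exact h1.trans (mul_le_mul_of_nonneg_right h2 hZ)

lemma m_bound {t : Fin 3 → ℝ} (ht : ∀ i, 0 ≤ t i) :
    mF F.D F.dl (edge F.lam t) ≤ BB F * Z t := by
  have hZ := Z_nn ht
  have n0 := H.BVj_nonneg 0
  have n1 := H.BVj_nonneg 1
  have n2 := H.BVj_nonneg 2
  have n3 := H.BVj_nonneg 3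
  have nR := BR_nonneg (F := F)
  have h2 : Bm F ≤ BB F := by unfold BB; linarith
  refine le_trans ?_ (mul_le_mul_of_nonneg_right h2 hZ)
  have hdl := H.dl_pos
  have hc0 := H.c0_pos
  have hZe : Z (edge F.lam t) = Z t := Z_edge (by norm_num) _ _
  rcases hZ.lt_or_eq with hp | hp
  · have h3 := abs_lcU_le H.ok H.r0 (fun f => f.mc) (fun e => e.1) (H.edge_nn ht)
    rw [hZe] at h3
    unfold mF Bm
    rw [hZe]
    have h4 := (le_abs_self _).trans h3
    rw [mul_assoc]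
    refine mul_le_mul_of_nonneg_left ?_ (by positivity)
    rw [div_mul_eq_mul_div, div_le_div_iff₀ (by positivity) (by norm_num)]
    nlinarith
  · unfold mF
    rw [hZe, ← hp]; simp

lemma q_nonneg_of (hq : ∀ Q ∈ fanCells F.fan, ∀ a b c, InC Q a b c →
    0 ≤ PExp.ev (vec a b c) (eQ F)) {t : Fin 3 → ℝ} (ht : ∀ i, 0 ≤ t i) :
    0 ≤ qF F.D F.dl (edge F.lam t) := by
  have h := H.fan_ev (e := eQ F) (fun a b c => by
      simp only [eQ, ev_lcE, lcR_01 _ _ _ a b c]) (fun a b c => by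
      simp only [eQ, ev_lcE, lcR_12 _ _ _ a b c]) hq ht
  simp only [eQ, ev_lcE] at h
  unfold qF lcU
  have hZ := Z_nn (H.edge_nn ht)
  have := H.dl_pos
  have := H.c0_pos
  positivity

lemma main_HJ {s : ℝ} (h0 : 0 ≤ s) (h1 : s ≤ F.N * F.dl) {u t : Fin 3 → ℝ}
    (hu : ∀ i, 0 ≤ u i) (ht : ∀ i, 0 ≤ t i) :
    ∑ π : Equiv.Perm (Fin 3), Vs (VV F.D F.Da F.dl) 3 s (fun i => u i * edge F.lam t (π i)) ≤
      ((univ : Finset (Equiv.Perm (Fin 3))).card : ℝ) *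
      (Vs (VV F.D F.Da F.dl) 3 s u * Z (edge F.lam t) + mF F.D F.dl (edge F.lam t) *
        dVs (VV F.D F.Da F.dl) 3 s u +
        qF F.D F.dl (edge F.lam t) * KF F.D F.Da F.dl s u) := by
  have hc : ((univ : Finset (Equiv.Perm (Fin 3))).card : ℝ) = 6 := by
    rw [Finset.card_univ, Fintype.card_perm, Fintype.card_fin]; norm_num [Nat.factorial]
  rw [hc]
  exact main_ineq F.D H.ok H.r0 H.Da_pos H.dl_pos H.c0 hu (H.edge_nn ht)
    (H.GR_nonneg h0 h1 hu ht)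

end Core

end Sep2

end Vale.Agent.P154
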