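import Mathlib
import Vale.Agent.P154.PBCore
import Vale.Agent.P154.PMFan

/-!
# P154: comparison functions made of several pieces
-/

namespace Vale.Agent.P154

open Finset MeasureTheory ProbabilityTheory
open scoped NNReal

namespace Sep2

/-- a piece `Z (∑ c a^i e^j) / den`, with weight `w ≥ 2 i + 3 j` -/
structure Pc where
  w : ℕ
  den : ℕ
  L : List (ℕ × ℕ × ℤ)

/-- well-formedness -/
def Pc.ok (p : Pc) : Bool :=
  Nat.ble 2 p.w && (Nat.blt 0 p.den && p.L.all fun m => Nat.ble (2 * m.1 + 3 * m.2.1) p.w)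

/-- `(6 Z)^w ∑ c a^i e^j`, of degree `w r` -/
def PLE (r w : ℕ) (L : List (ℕ × ℕ × ℤ)) : PExp :=
  lsE (w * r) (L.map fun m => .mul (.k m.2.2) (.mul (.mul (.pow (AE r) m.1) (.pow (EE r) m.2.1))
    (.pow (msE (r, 0, 0)) (w - (2 * m.1 + 3 * m.2.1)))))

/-- coefficients after the edge operator -/
def Pc.tw (p : Pc) (ln ld : ℕ) : List (ℕ × ℕ × ℤ) :=
  p.L.map fun m => (m.1, m.2.1, (-1) ^ m.2.1 * m.2.2 *
    ((ln ^ (p.w - (2 * m.1 + 3 * m.2.1)) * ld ^ (2 * m.1 + 3 * m.2.1) : ℕ) : ℤ))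

variable (F : Full)

def eRp (p : Pc) : PExp :=
  .sub (.mul (.k (p.den : ℕ)) (.mul (SE F.D (fun f => f.a0)) (.pow (msE (F.D.r, 0, 0)) (p.w - 1))))
    (.mul (.k (F.Da : ℕ)) (PLE F.D.r p.w p.L))

def eMp (p : Pc) : PExp :=
  .sub (.mul (.k (F.D.c0 * F.dd : ℕ)) (PLE F.D.r p.w (p.tw F.ln F.ld)))
    (.mul (.k (F.dn * F.D.c1 * p.den * F.ln ^ (p.w - 2) * F.ld ^ 2 : ℕ))
      (.mul (eM F) (.pow (msE (F.D.r, 0, 0)) (p.w - 2))))

/-- value of the sum -/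
noncomputable def sV (L : List (ℕ × ℕ × ℤ)) (a e : ℝ) : ℝ :=
  (L.map fun m => (m.2.2 : ℝ) * (a ^ m.1 * e ^ m.2.1)).sum

/-- the piece as a function -/
noncomputable def Pc.R (p : Pc) (t : Fin 3 → ℝ) : ℝ := Z t * (sV p.L (Av t) (Ev t) / p.den)

noncomputable def PLh (w : ℕ) (L : List (ℕ × ℕ × ℤ)) (t0 t1 t2 : ℝ) : ℝ :=
  (L.map fun m => (m.2.2 : ℝ) * (Ah t0 t1 t2 ^ m.1 * Eh t0 t1 t2 ^ m.2.1 *
    (2 * (t0 + t1 + t2)) ^ (w - (2 * m.1 + 3 * m.2.1)))).sum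

lemma ev_PLE (r w : ℕ) (L : List (ℕ × ℕ × ℤ)) (y0 y1 y2 : ℝ) :
    PExp.ev (vec y0 y1 y2) (PLE r w L) = PLh w L (y0 ^ r) (y1 ^ r) (y2 ^ r) := by
  unfold PLE PLh
  rw [ev_lsE, List.map_map]
  exact congrArg List.sum (List.map_congr_left fun f _ => by
    simp only [Function.comp_def, PExp.ev, ev_msE, ms_r, ev_AE, ev_EE])

lemma PLh_01 (w : ℕ) (L : List (ℕ × ℕ × ℤ)) (a b c : ℝ) : PLh w L b a c = PLh w L a b c := by
  unfold PLh; simp only [Ah_01 a b c, Eh_01 a b c, add_comm b a]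
lemma PLh_12 (w : ℕ) (L : List (ℕ × ℕ × ℤ)) (a b c : ℝ) : PLh w L a c b = PLh w L a b c := by
  unfold PLh; simp only [Ah_12 a b c, Eh_12 a b c, add_right_comm a c b]

lemma PLh_eq {w : ℕ} {L : List (ℕ × ℕ × ℤ)} (hL : ∀ m ∈ L, 2 * m.1 + 3 * m.2.1 ≤ w)
    {t : Fin 3 → ℝ} (hZ : Z t ≠ 0) :
    PLh w L (t 0) (t 1) (t 2) = (6 * Z t) ^ w * sV L (Av t) (Ev t) := by
  unfold PLh sV
  rw [← List.sum_map_mul_left]
  refine congrArg List.sum (List.map_congr_left fun m hm => ?_)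
  have h := hL m hm
  rw [Ah_eq hZ, Eh_eq hZ, S3, mul_pow, mul_pow ((6 * Z t) ^ 3)]
  have e : (6 * Z t) ^ w = ((6 * Z t) ^ 2) ^ m.1 * ((6 * Z t) ^ 3) ^ m.2.1 *
      (6 * Z t) ^ (w - (2 * m.1 + 3 * m.2.1)) := by
    rw [← pow_mul, ← pow_mul, ← pow_add, ← pow_add]
    congr 1
    omega
  rw [e]
  have e2 : 2 * (3 * Z t) = 6 * Z t := by ring
  rw [e2]
  ring

lemma Pc.ok_iff {p : Pc} (h : p.ok = true) : 2 ≤ p.w ∧ 0 < p.den ∧
    ∀ m ∈ p.L, 2 * m.1 + 3 * m.2.1 ≤ p.w := by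
  unfold Pc.ok at h
  simp only [Bool.and_eq_true, List.all_eq_true, Nat.blt_eq] at h
  exact ⟨Nat.le_of_ble_eq_true h.1, h.2.1, fun m hm => Nat.le_of_ble_eq_true (h.2.2 m hm)⟩

lemma sV_tw {p : Pc} (hp : ∀ m ∈ p.L, 2 * m.1 + 3 * m.2.1 ≤ p.w) {ln ld : ℕ} (hln : 0 < ln)
    (hld : 0 < ld) (a e : ℝ) :
    sV (p.tw ln ld) ((-(ln / ld : ℝ)) ^ 2 * a) ((-(ln / ld : ℝ)) ^ 3 * e) =
      (ln : ℝ) ^ p.w * sV p.L a e := by
  have h1 : (ln : ℝ) ≠ 0 := by exact_mod_cast hln.ne'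
  have h2 : (ld : ℝ) ≠ 0 := by exact_mod_cast hld.ne'
  unfold sV Pc.tw
  rw [List.map_map, ← List.sum_map_mul_left]
  refine congrArg List.sum (List.map_congr_left fun m hm => ?_)
  have h := hp m hm
  simp only [Function.comp_def]
  push_cast
  have e1 : (ln : ℝ) ^ p.w = (ln : ℝ) ^ (p.w - (2 * m.1 + 3 * m.2.1)) *
      ((ln : ℝ) ^ (2 * m.1) * (ln : ℝ) ^ (3 * m.2.1)) := by
    rw [← pow_add, ← pow_add]
    congr 1
    omega
  have e2 : ((-(ln / ld : ℝ)) ^ 2) ^ m.1 = (ln : ℝ) ^ (2 * m.1) / (ld : ℝ) ^ (2 * m.1) := by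
    rw [← pow_mul, neg_pow, pow_mul (-1 : ℝ), div_pow]; simp
  have e3 : ((-(ln / ld : ℝ)) ^ 3) ^ m.2.1 =
      (-1) ^ m.2.1 * ((ln : ℝ) ^ (3 * m.2.1) / (ld : ℝ) ^ (3 * m.2.1)) := by
    rw [← pow_mul, neg_pow, pow_mul (-1 : ℝ), div_pow]
    norm_num
  have e4 : (ld : ℝ) ^ (2 * m.1 + 3 * m.2.1) = (ld : ℝ) ^ (2 * m.1) * (ld : ℝ) ^ (3 * m.2.1) :=
    pow_add _ _ _
  have e5 : ((-1 : ℝ) ^ m.2.1) * (-1) ^ m.2.1 = 1 := by
    rw [← mul_pow]; simp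
  rw [mul_pow, mul_pow, e1, e2, e3, e4]
  have : ((-1 : ℝ) ^ m.2.1 * m.2.2 * ((ln : ℝ) ^ (p.w - (2 * m.1 + 3 * m.2.1)) *
      ((ld : ℝ) ^ (2 * m.1) * (ld : ℝ) ^ (3 * m.2.1)))) *
      ((ln : ℝ) ^ (2 * m.1) / (ld : ℝ) ^ (2 * m.1) * a ^ m.1 *
      ((-1) ^ m.2.1 * ((ln : ℝ) ^ (3 * m.2.1) / (ld : ℝ) ^ (3 * m.2.1)) * e ^ m.2.1)) =
      ((-1 : ℝ) ^ m.2.1 * (-1) ^ m.2.1) * ((ln : ℝ) ^ (p.w - (2 * m.1 + 3 * m.2.1)) *
      ((ln : ℝ) ^ (2 * m.1) * (ln : ℝ) ^ (3 * m.2.1)) * (m.2.2 * (a ^ m.1 * e ^ m.2.1))) := by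
    field_simp
  rw [this, e5, one_mul]

lemma tw_mem {p : Pc} {ln ld : ℕ} (hp : ∀ m ∈ p.L, 2 * m.1 + 3 * m.2.1 ≤ p.w) :
    ∀ m ∈ p.tw ln ld, 2 * m.1 + 3 * m.2.1 ≤ p.w := by
  intro m hm
  unfold Pc.tw at hm
  obtain ⟨x, hx, rfl⟩ := List.mem_map.1 hm
  exact hp x hx

namespace Core

variable {F} (H : Core F)

include H

lemma Rp_le {p : Pc} (hp : p.ok = true)
    (h : ∀ a b c, InC U0 a b c → 0 ≤ PExp.ev (vec a b c) (eRp F p)) {t : Fin 3 → ℝ}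
    (ht : ∀ i, 0 ≤ t i) : p.R t ≤ VV F.D F.Da F.dl 0 t := by
  obtain ⟨hw, hden0, hL⟩ := Pc.ok_iff hp
  have hsym1 : ∀ a b c : ℝ, PExp.ev (vec b a c) (eRp F p) = PExp.ev (vec a b c) (eRp F p) := by
    intro a b c
    simp only [eRp, PExp.ev, ev_SE, ev_PLE, ev_msE, ms_swap01 _ a b c, PLh_01]
  have hsym2 : ∀ a b c : ℝ, PExp.ev (vec a c b) (eRp F p) = PExp.ev (vec a b c) (eRp F p) := by
    intro a b c
    simp only [eRp, PExp.ev, ev_SE, ev_PLE, ev_msE, ms_swap12 _ a b c, PLh_12]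
  have h := U_ev (F := F) hsym1 hsym2 h ht
  simp only [eRp, PExp.ev, ev_SE, ev_PLE, ev_msE] at h
  rw [rt_pow H.r0 (ht 0), rt_pow H.r0 (ht 1), rt_pow H.r0 (ht 2), ms_rt H.r0 ht] at h
  have hSL : (F.D.F.map fun f => (f.a0 : ℝ) * ms f.g (rt F.D.r (t 0)) (rt F.D.r (t 1))
      (rt F.D.r (t 2))).sum = 6 * SL F.D.r F.D.F 0 t := by
    unfold SL
    rw [← List.sum_map_mul_left]
    exact congrArg List.sum (List.map_congr_left fun f _ => by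
      simp only [cf, MM]; ring)
  rw [hSL] at h
  have hDa := H.Da_pos
  have hden : (0 : ℝ) < p.den := by exact_mod_cast hden0
  unfold VV
  rw [pow_zero, mul_one]
  rcases (Z_nn ht).lt_or_eq with hZ | hZ
  · rw [PLh_eq hL hZ.ne'] at h
    unfold Pc.R
    rw [le_div_iff₀ hDa]
    push_cast at h
    have e1 : (6 * Z t) ^ p.w = (6 * Z t) ^ (p.w - 1) * (6 * Z t) := by
      rw [← pow_succ]; congr 1; omega
    rw [e1] at h
    have e : (p.den : ℝ) * (6 * SL F.D.r F.D.F 0 t * (6 * Z t) ^ (p.w - 1)) -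
        F.Da * ((6 * Z t) ^ (p.w - 1) * (6 * Z t) * sV p.L (Av t) (Ev t)) =
        (p.den * 6 * (6 * Z t) ^ (p.w - 1)) * (SL F.D.r F.D.F 0 t -
          Z t * (sV p.L (Av t) (Ev t) / p.den) * F.Da) := by
      field_simp
    rw [e] at h
    have := (mul_nonneg_iff_of_pos_left (by positivity)).1 h
    linarith
  · have hz := Z_zero ht hZ.symm
    have e0 : p.R t = 0 := by unfold Pc.R; rw [← hZ, zero_mul]
    have e1 : SL F.D.r F.D.F 0 t = 0 := by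
      have := abs_SL_le H.ok H.r0 0 ht
      rw [← hZ, mul_zero] at this
      exact abs_eq_zero.1 (le_antisymm this (abs_nonneg _))
    rw [e0, e1, zero_div]

lemma m_le_p {p : Pc} (hp : p.ok = true) {t : Fin 3 → ℝ} (ht : ∀ i, 0 ≤ t i)
    (h : 0 ≤ PExp.ev (vec (rt F.D.r (edge F.lam t 0)) (rt F.D.r (edge F.lam t 1))
      (rt F.D.r (edge F.lam t 2))) (eMp F p)) :
    mF F.D F.dl (edge F.lam t) ≤ F.lam ^ 2 * p.R t := by
  obtain ⟨hw, hden0, hL⟩ := Pc.ok_iff hp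
  simp only [eMp, eM, PExp.ev, ev_lcE, ev_PLE, ev_msE] at h
  rw [rt_pow H.r0 (H.edge_nn ht 0), rt_pow H.r0 (H.edge_nn ht 1),
    rt_pow H.r0 (H.edge_nn ht 2), ms_rt H.r0 (H.edge_nn ht)] at h
  have hZe : Z (edge F.lam t) = Z t := Z_edge (by norm_num) _ _
  have hc0 := H.c0_pos
  have hln := H.ln_pos
  have hld := H.ld_pos
  have hden : (0 : ℝ) < p.den := by exact_mod_cast hden0
  have hdd : (0 : ℝ) < F.dd := by exact_mod_cast H.dd0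
  have hln' := H.ln0
  have hld' : 0 < F.ld := by exact_mod_cast hld
  rcases (Z_nn ht).lt_or_eq with hZ | hZ
  · rw [PLh_eq (tw_mem hL) (by rw [hZe]; exact hZ.ne'), hZe, Av_edge _ hZ.ne',
      Ev_edge _ hZ.ne'] at h
    unfold mF Pc.R
    rw [hZe]
    unfold Full.lam at h ⊢
    rw [sV_tw hL hln' hld'] at h
    unfold lcU Full.dl
    set lm := lcR F.D (fun f => f.mc) (fun e => e.1) (rt F.D.r (edge (-(F.ln / F.ld : ℝ)) t 0))
      (rt F.D.r (edge (-(F.ln / F.ld : ℝ)) t 1)) (rt F.D.r (edge (-(F.ln / F.ld : ℝ)) t 2))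
    set S := sV p.L (Av t) (Ev t)
    push_cast at h
    have e1 : (6 * Z t) ^ p.w = (6 * Z t) ^ (p.w - 2) * (6 * Z t) ^ 2 := by
      rw [← pow_add]; congr 1; omega
    have e2 : (F.ln : ℝ) ^ p.w = (F.ln : ℝ) ^ (p.w - 2) * (F.ln : ℝ) ^ 2 := by
      rw [← pow_add]; congr 1; omega
    rw [e1, e2] at h
    rw [← sub_nonneg]
    have e : (-(F.ln / F.ld : ℝ)) ^ 2 * (Z t * (S / p.den)) -
        F.dn / F.dd * F.D.c1 / F.D.c0 * (lm / (36 * Z t)) =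
        (F.D.c0 * F.dd * ((6 * Z t) ^ (p.w - 2) * (6 * Z t) ^ 2 *
          ((F.ln : ℝ) ^ (p.w - 2) * (F.ln : ℝ) ^ 2 * S)) -
          F.dn * F.D.c1 * p.den * F.ln ^ (p.w - 2) * F.ld ^ 2 *
            (lm * (6 * Z t) ^ (p.w - 2))) /
          (F.D.c0 * F.dd * p.den * F.ln ^ (p.w - 2) * F.ld ^ 2 * (6 * Z t) ^ (p.w - 2) *
            (36 * Z t)) := by
      field_simp
      ring
    rw [e]
    exact div_nonneg h (by positivity)
  · unfold mF Pc.R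
    rw [hZe, ← hZ]
    simp

/-- some piece dominates `m` at every point of the fan -/
lemma fan_p {P : List Pc} (hc : ∀ Q ∈ fanCells F.fan, ∀ a b c, InC Q a b c →
      ∃ p ∈ P, 0 ≤ PExp.ev (vec a b c) (eMp F p)) {t : Fin 3 → ℝ} (ht : ∀ i, 0 ≤ t i) :
    ∃ p ∈ P, 0 ≤ PExp.ev (vec (rt F.D.r (edge F.lam t 0)) (rt F.D.r (edge F.lam t 1))
      (rt F.D.r (edge F.lam t 2))) (eMp F p) := by
  have hsym1 : ∀ (p : Pc) (a b c : ℝ),
      PExp.ev (vec b a c) (eMp F p) = PExp.ev (vec a b c) (eMp F p) := by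
    intro p a b c
    simp only [eMp, eM, PExp.ev, ev_lcE, ev_PLE, ev_msE, ms_swap01 _ a b c, PLh_01,
      lcR_01 _ _ _ a b c]
  have hsym2 : ∀ (p : Pc) (a b c : ℝ),
      PExp.ev (vec a c b) (eMp F p) = PExp.ev (vec a b c) (eMp F p) := by
    intro p a b c
    simp only [eMp, eM, PExp.ev, ev_lcE, ev_PLE, ev_msE, ms_swap12 _ a b c, PLh_12,
      lcR_12 _ _ _ a b c]
  exact fan_all H.cnd H.fan H.fan1 H.fan2
    (P := fun a b c => ∃ p ∈ P, 0 ≤ PExp.ev (vec a b c) (eMp F p))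
    (fun a b c h => by simpa only [hsym1 _ a b c] using h)
    (fun a b c h => by simpa only [hsym2 _ a b c] using h) hc _ _ _
    (rt_nonneg _ (H.edge_nn ht 0)) (rt_nonneg _ (H.edge_nn ht 1)) (rt_nonneg _ (H.edge_nn ht 2))
    (H.dom ht)

/-- some piece dominates `m` -/
lemma exists_p {P : List Pc} (hP : ∀ p ∈ P, p.ok = true)
    (hc : ∀ Q ∈ fanCells F.fan, ∀ a b c, InC Q a b c →
      ∃ p ∈ P, 0 ≤ PExp.ev (vec a b c) (eMp F p)) {t : Fin 3 → ℝ} (ht : ∀ i, 0 ≤ t i) :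
    ∃ p ∈ P, mF F.D F.dl (edge F.lam t) ≤ F.lam ^ 2 * p.R t := by
  obtain ⟨p, hp, h⟩ := H.fan_p hc ht
  exact ⟨p, hp, H.m_le_p (hP p hp) ht h⟩

end Core

/-! ### checker for several expressions -/

/-- trees whose leaves name an expression -/
noncomputable def chkAny (L : List (PExp × ℕ)) : Tree → Cell → Bool
  | .ext, _ => false
  | .leaf k b, P => match L[k]? with
    | some x => oneF x.1 x.2 P b
    | none => false
  | .spU k a b d p l r, P =>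
      comb a b d p (rot k P).1 (rot k P).2.1 &&
        (chkAny L l (p, (rot k P).2.1, (rot k P).2.2) &&
          chkAny L r ((rot k P).1, p, (rot k P).2.2))
  | .spV _ _ _ _ _ _ _, _ => false
  | .spS _ _ _, _ => false

theorem chkAny_sound {L : List (PExp × ℕ)} (hh : ∀ x ∈ L, hom x.2 x.1 = true) :
    ∀ (t : Tree) (P : Cell), chkAny L t P = true → ∀ y0 y1 y2 : ℝ, InC P y0 y1 y2 →
      ∃ x ∈ L, 0 ≤ PExp.ev (vec y0 y1 y2) x.1 := by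
  intro t
  induction t with
  | ext => intro P h; simp [chkAny] at h
  | leaf k b =>
    intro P h y0 y1 y2 hy
    simp only [chkAny] at h
    rcases hx : L[k]? with _ | x
    · rw [hx] at h; simp at h
    · rw [hx] at h
      have hm : x ∈ L := List.mem_of_getElem? hx
      exact ⟨x, hm, one_hom (hh x hm) h hy⟩
  | spU k a b d p l r ihl ihr =>
    intro P h y0 y1 y2 hy
    simp only [chkAny, Bool.and_eq_true] at h
    obtain ⟨h1, h2, h3⟩ := h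
    rcases comb_split h1 (rot_inC hy k) with h4 | h4
    · exact ihl _ h2 y0 y1 y2 h4
    · exact ihr _ h3 y0 y1 y2 h4
  | spV k a b d p l r ihl ihr => intro P h; simp [chkAny] at h
  | spS m l r ihl ihr => intro P h; simp [chkAny] at h

end Sep2

end Vale.Agent.P154
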