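import Mathlib
import Vale.Agent.P154.PBPiece
import Vale.Agent.P154.FBScale

/-!
# P154: nonreconstruction on Poisson trees from checked data with pieces
-/

namespace Vale.Agent.P154

open Finset MeasureTheory ProbabilityTheory
open scoped NNReal

namespace Sep2

/-- checked data with pieces -/
structure ValidB (F : Full) (P S : List Pc) : Prop extends Core F where
  okP : ∀ p ∈ P, p.ok = true
  okS : ∀ p ∈ S, p.ok = true
  hcv : ∀ Q ∈ fanCells F.fan, ∀ a b c, InC Q a b c → ∃ p ∈ P, 0 ≤ PExp.ev (vec a b c) (eMp F p)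
  hcu : ∀ p ∈ P, ∀ a b c, InC U0 a b c → 0 ≤ PExp.ev (vec a b c) (eRp F p)
  hst : ∀ Q ∈ fanCells F.fan, ∀ a b c, InC Q a b c → ∃ p ∈ S, 0 ≤ PExp.ev (vec a b c) (eMp F p)
  hN : ∀ Q ∈ fanCells F.fan, ∀ a b c, InC Q a b c → 0 ≤ PExp.ev (vec a b c) (eN F)
  hz : F.D.c2 = 0

namespace ValidB

variable {F : Full} {P S : List Pc} (H : ValidB F P S)

include H

lemma scale {rho : ℝ} (h0 : 0 ≤ rho) (h1 : rho ≤ 1) {t : Fin 3 → ℝ} (ht : ∀ i, 0 ≤ t i) :
    mF F.D F.dl (edge (F.lam * rho) t) ≤ rho ^ 2 * mF F.D F.dl (edge F.lam t) :=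
  mF_scale_fan H.ok H.r0 H.dl_pos.le H.adm H.cnd H.fan H.fan1 H.fan2 (fun _ hs => H.dom hs) H.hN
    h0 h1 ht

/-- certificate for random trees -/
noncomputable def hg : HG 3 F.lam where
  J := 3
  V := VV F.D F.Da F.dl
  m := mF F.D F.dl
  qq := fun _ => 0
  K := fun _ _ => 0
  T := F.N * F.dl
  S := univ
  S_nonempty := ⟨1, mem_univ _⟩
  B := BB F
  DU := fun _ => True
  DT := fun _ => True
  V_bound := fun j u hu => H.V_bound j hu
  m_bound := fun t ht => H.m_bound ht
  m_nonneg := fun t ht => H.m_nonneg ht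
  K_nonpos := fun _ _ _ _ _ _ => le_rfl
  qq_nonneg := fun _ _ => le_rfl
  main := fun s h0 h1 u t hu _ ht => by
    have h := H.main_HJ h0 h1 hu ht
    have hq : qF F.D F.dl (edge F.lam t) = 0 := by
      unfold qF; rw [H.hz]; simp
    rw [hq, zero_mul] at h
    rw [zero_mul]
    exact h
  mV := fun r h0 h1 t ht _ => by
    obtain ⟨p, hp, h⟩ := H.exists_p H.okP H.hcv ht
    have h2 := H.Rp_le (H.okP p hp) (H.hcu p hp) ht
    calc mF F.D F.dl (edge (F.lam * r) t) ≤ r ^ 2 * mF F.D F.dl (edge F.lam t) :=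
          H.scale h0 h1 ht
      _ ≤ r ^ 2 * (F.lam ^ 2 * VV F.D F.Da F.dl 0 t) := by
          have : F.lam ^ 2 * p.R t ≤ F.lam ^ 2 * VV F.D F.Da F.dl 0 t :=
            mul_le_mul_of_nonneg_left h2 (sq_nonneg _)
          exact mul_le_mul_of_nonneg_left (h.trans this) (sq_nonneg _)
      _ = (F.lam * r) ^ 2 * VV F.D F.Da F.dl 0 t := by ring
  c := F.cn / F.cd
  c_pos := by
    have h1 : (0 : ℝ) < F.cn := by exact_mod_cast H.cn0
    have h2 : (0 : ℝ) < F.cd := by exact_mod_cast H.cd0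
    positivity
  W_le := fun t ht _ => H.W_le ht
  gam := F.gn / F.gd
  gam_pos := by
    have h1 : (0 : ℝ) < F.gn := by exact_mod_cast H.gn0
    have h2 : (0 : ℝ) < F.gd := by exact_mod_cast H.gd0
    positivity
  unit_le := fun s h0 h1 => H.unit_le h0 h1

/-- the start functional -/
lemma start_le {Φ : (Fin 3 → ℝ) → ℝ} (hΦ : ∀ p ∈ S, ∀ t : Fin 3 → ℝ, (∀ i, 0 ≤ t i) →
    p.R t ≤ Φ t) {r : ℝ} (h0 : 0 ≤ r) (h1 : r ≤ 1) {d : ℝ} (hd : 0 ≤ d)
    (hdl : d * (F.lam * r) ^ 2 ≤ 1) {t : Fin 3 → ℝ} (ht : ∀ i, 0 ≤ t i) :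
    d * mF F.D F.dl (edge (F.lam * r) t) ≤ Φ t := by
  obtain ⟨p, hp, h⟩ := H.exists_p H.okS H.hst ht
  have h3 := H.m_nonneg ht
  have h4 : 0 ≤ p.R t := by
    have h5 := h3.trans h
    have h6 : 0 < F.lam ^ 2 := by have := H.lam_neg.ne; positivity
    exact nonneg_of_mul_nonneg_right h5 h6
  calc d * mF F.D F.dl (edge (F.lam * r) t)
      ≤ d * (r ^ 2 * (F.lam ^ 2 * p.R t)) := by
        refine mul_le_mul_of_nonneg_left ((H.scale h0 h1 ht).trans ?_) hd
        exact mul_le_mul_of_nonneg_left h (sq_nonneg _)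
    _ = (d * (F.lam * r) ^ 2) * p.R t := by ring
    _ ≤ p.R t := mul_le_of_le_one_left h4 hdl
    _ ≤ Φ t := hΦ p hp t ht

/-- nonreconstruction on Poisson trees with a start functional -/
theorem poisson {Φ : (Fin 3 → ℝ) → ℝ} (hΦ : ∀ p ∈ S, ∀ t : Fin 3 → ℝ, (∀ i, 0 ≤ t i) →
    p.R t ≤ Φ t) {B : ℝ} (hB : ∀ t : Fin 3 → ℝ, (∀ i, 0 ≤ t i) → |Φ t| ≤ B * Z t)
    {lam : ℝ} (h0 : F.lam ≤ lam) (h1 : lam ≤ 0) {d : ℝ≥0} (hd : d * lam ^ 2 ≤ 1) {n0 : ℕ}
    (hstart : ∫ N, tot Φ (lik 3 lam N n0) ∂(gwLaw (poissonMeasure d)) ≤ F.N * F.dl) :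
    Nonreconstruction (aPoisson 3 lam d) := by
  have hl0 := H.lam_neg
  have hl := H.lam_ge
  have e : F.lam * (lam / F.lam) = lam := mul_div_cancel₀ _ hl0.ne
  have r0 : 0 ≤ lam / F.lam := div_nonneg_of_nonpos h1 hl0.le
  have r1 : lam / F.lam ≤ 1 := by
    rw [div_le_one_of_neg hl0]; exact h0
  have hadm : Admissible 3 lam := admissible_three (by linarith) (by linarith)
  have key := H.hg.nonreconstruction_poisson (fun _ => trivial) (fun _ => trivial) (by norm_num)
    r0 r1 (by rw [e]; exact hadm) (d := d) (by rw [e]; exact hd) (n0 := n0) (by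
      rw [e]
      refine le_trans ?_ hstart
      rw [← integral_const_mul]
      have hch : ∀ N, IsChan (lik 3 lam N n0) := fun N => isChan_lik (by norm_num) hadm n0 N
      have hbm : Vale.Agent.P154.BM (fun N => tot Φ (lik 3 lam N n0)) :=
        ⟨measurable_tot_lik lam _ n0, B, fun N => abs_tot_le (by norm_num) hB (hch N)⟩
      refine integral_mono_of_nonneg (ae_of_all _ fun N => ?_) (hbm.integrable _)
        (ae_of_all _ fun N => ?_)
      · refine mul_nonneg d.2 (Finset.sum_nonneg fun x _ => ?_)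
        have ht := (hch N).nonneg x
        have h2 := H.m_nonneg (t := edge (lam / F.lam) (lik 3 lam N n0 x))
          (fun i => edge_nonneg (admissible_of_mem 3 r0 r1) ht i)
        rwa [edge_edge (by norm_num), e] at h2
      · change (d : ℝ) * tot (mF F.D F.dl) (fun x => edge lam (lik 3 lam N n0 x)) ≤
          tot Φ (lik 3 lam N n0)
        unfold tot
        rw [Finset.mul_sum]
        refine Finset.sum_le_sum fun x _ => ?_
        have h2 := H.start_le hΦ r0 r1 d.2 (by rw [e]; exact hd) ((hch N).nonneg x)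
        rwa [e] at h2)
  rwa [e] at key

/-- nonreconstruction on Poisson trees, start at the leaves -/
theorem poisson_leaf (hT : ∀ p ∈ S,
      (p.L.map fun m => m.2.2 * 2 ^ (m.1 + m.2.1)).sum * (F.dd : ℤ) ≤
        ((F.N * F.dn * p.den : ℕ) : ℤ))
    {lam : ℝ} (h0 : F.lam ≤ lam) (h1 : lam ≤ 0) {d : ℝ≥0} (hd : d * lam ^ 2 ≤ 1) :
    Nonreconstruction (aPoisson 3 lam d) := by
  have hl0 := H.lam_neg
  have hl := H.lam_ge
  have e : F.lam * (lam / F.lam) = lam := mul_div_cancel₀ _ hl0.ne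
  have r0 : 0 ≤ lam / F.lam := div_nonneg_of_nonpos h1 hl0.le
  have r1 : lam / F.lam ≤ 1 := by
    rw [div_le_one_of_neg hl0]; exact h0
  have hadm : Admissible 3 lam := admissible_three (by linarith) (by linarith)
  have hdd : (0 : ℝ) < F.dd := by exact_mod_cast H.dd0
  -- value at the corners
  have corner : ∀ j : Fin 3, d * mF F.D F.dl (edge lam (fun i => if j = i then (1 : ℝ) else 0)) ≤
      F.N * F.dl / 3 := by
    intro j
    set t : Fin 3 → ℝ := fun i => if j = i then (1 : ℝ) else 0 with ht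
    have htn : ∀ i, 0 ≤ t i := fun i => by simp only [ht]; split_ifs <;> norm_num
    have hZ : Z t = 1 / 3 := by rw [Z3, ht]; fin_cases j <;> simp
    have hA : Av t = 2 := by unfold Av; rw [hZ, ht]; fin_cases j <;> simp <;> norm_num
    have hE : Ev t = 2 := by unfold Ev; rw [hZ, ht]; fin_cases j <;> simp <;> norm_num
    obtain ⟨p, hp, h⟩ := H.exists_p H.okS H.hst htn
    have hpo := Pc.ok_iff (H.okS p hp)
    have hden : (0 : ℝ) < p.den := by exact_mod_cast hpo.2.1
    have h3 := H.m_nonneg htn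
    have h4 : 0 ≤ p.R t := by
      have h5 := h3.trans h
      have h6 : 0 < F.lam ^ 2 := by have := hl0.ne; positivity
      exact nonneg_of_mul_nonneg_right h5 h6
    have h7 : d * mF F.D F.dl (edge lam t) ≤ p.R t := by
      have h8 := H.scale r0 r1 htn
      rw [e] at h8
      calc d * mF F.D F.dl (edge lam t)
          ≤ d * ((lam / F.lam) ^ 2 * (F.lam ^ 2 * p.R t)) := by
            refine mul_le_mul_of_nonneg_left (h8.trans ?_) d.2
            exact mul_le_mul_of_nonneg_left h (sq_nonneg _)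
        _ = (d * lam ^ 2) * p.R t := by
            have : lam ^ 2 = (lam / F.lam) ^ 2 * F.lam ^ 2 := by
              rw [← mul_pow, mul_comm, e]
            rw [this]; ring
        _ ≤ p.R t := mul_le_of_le_one_left h4 hd
    refine h7.trans ?_
    have h9 : (((p.L.map fun m => m.2.2 * 2 ^ (m.1 + m.2.1)).sum : ℤ) : ℝ) * F.dd ≤
        F.N * F.dn * p.den := by exact_mod_cast hT p hp
    have h10 : sV p.L 2 2 = (((p.L.map fun m => m.2.2 * 2 ^ (m.1 + m.2.1)).sum : ℤ) : ℝ) := by
      unfold sV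
      rw [Int.cast_list_sum, List.map_map]
      exact congrArg List.sum (List.map_congr_left fun m _ => by
        simp only [Function.comp_def]; push_cast; rw [pow_add])
    unfold Pc.R
    rw [hA, hE, hZ, h10]
    unfold Full.dl
    rw [← sub_nonneg]
    set X : ℝ := (((p.L.map fun m => m.2.2 * 2 ^ (m.1 + m.2.1)).sum : ℤ) : ℝ)
    have e2 : (F.N : ℝ) * (F.dn / F.dd) / 3 - 1 / 3 * (X / p.den) =
        (F.N * F.dn * p.den - X * F.dd) / (3 * F.dd * p.den) := by
      field_simp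
    rw [e2]
    exact div_nonneg (by linarith) (by positivity)
  have key := H.hg.nonreconstruction_poisson (fun _ => trivial) (fun _ => trivial) (by norm_num)
    r0 r1 (by rw [e]; exact hadm) (d := d) (by rw [e]; exact hd) (n0 := 0) (by
      rw [e]
      have e1 : ∀ N, tot (mF F.D F.dl) (fun x => edge lam (lik 3 lam N 0 x)) =
          ∑ j : Fin 3, mF F.D F.dl (edge lam (fun i => if j = i then (1 : ℝ) else 0)) := by
        intro N
        exact tot_lik_zero (fun u => mF F.D F.dl (edge lam u)) lam N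
      change (d : ℝ) * ∫ N, tot (mF F.D F.dl) (fun x => edge lam (lik 3 lam N 0 x))
        ∂(gwLaw (poissonMeasure d)) ≤ F.N * F.dl
      simp only [e1]
      rw [integral_const]
      simp only [probReal_univ, one_smul]
      rw [Finset.mul_sum, Fin.sum_univ_three]
      have c0 := corner 0
      have c1 := corner 1
      have c2 := corner 2
      linarith)
  rwa [e] at key

end ValidB

end Sep2

end Vale.Agent.P154
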