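import Mathlib
import Vale.Agent.P154.PBFin
import Vale.Agent.P154.Pe.Start

/-!
# P154: start functionals which are maxima of linear functions of the second invariant
-/

namespace Vale.Agent.P154

open Finset MeasureTheory ProbabilityTheory
open scoped NNReal

namespace Sep2

/-- the piece `Z (α + β a) / D` -/
def pcL (D : ℕ) (p : ℤ × ℕ) : Pc := ⟨2, D, [(0, 0, p.1), (1, 0, (p.2 : ℤ))]⟩

lemma Z_Av {t : Fin 3 → ℝ} (ht : ∀ i, 0 ≤ t i) : Z t * Av t = W t := by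
  rcases (Z_nn ht).lt_or_eq with hZ | hZ
  · unfold Av W
    rw [Fin.sum_univ_three, Fin.sum_univ_three]
    have h := S3 t
    rw [h]
    field_simp
    push_cast
    ring
  · have hz := Z_zero ht hZ.symm
    unfold W
    rw [Fin.sum_univ_three, Fin.sum_univ_three, hz 0, hz 1, hz 2, ← hZ]
    simp

lemma pcL_R (D : ℕ) (p : ℤ × ℕ) {t : Fin 3 → ℝ} (ht : ∀ i, 0 ≤ t i) :
    (pcL D p).R t = ((p.1 : ℝ) * Z t + (p.2 : ℝ) * W t) / D := by
  rw [← Z_Av ht]
  unfold Pc.R pcL sV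
  simp only [List.map_cons, List.map_nil, List.sum_cons, List.sum_nil]
  push_cast
  ring

lemma pcL_le (D : ℕ) (l : List (ℤ × ℕ)) {p : Pc} (hp : p ∈ l.map (pcL D)) {t : Fin 3 → ℝ}
    (ht : ∀ i, 0 ≤ t i) : p.R t ≤ Pe.PhM D l t := by
  obtain ⟨x, hx, rfl⟩ := List.mem_map.1 hp
  rw [pcL_R D x ht]
  clear hp
  induction l with
  | nil => simp at hx
  | cons y l ih =>
    show _ ≤ max _ _
    rcases List.mem_cons.1 hx with rfl | h
    · exact le_max_left _ _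
    · exact (ih h).trans (le_max_right _ _)

lemma PhM_bound (D : ℕ) : ∀ l : List (ℤ × ℕ), ∃ B : ℝ, ∀ t : Fin 3 → ℝ, (∀ i, 0 ≤ t i) →
    |Pe.PhM D l t| ≤ B * Z t
  | [] => ⟨0, fun t _ => by simp [Pe.PhM]⟩
  | p :: l => by
    obtain ⟨B, hB⟩ := PhM_bound D l
    refine ⟨(|(p.1 : ℝ)| + 2 * p.2) / D + B, fun t ht => ?_⟩
    show |max (((p.1 : ℝ) * Z t + (p.2 : ℝ) * W t) / D) (Pe.PhM D l t)| ≤ _
    have h1 := hB t ht
    have hZ := Z_nn ht
    have hW0 := W_nonneg (q := 3) (by norm_num) t ht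
    have hW1 : W t ≤ 2 * Z t := by
      have := W_le (q := 3) (by norm_num) t ht
      push_cast at this
      linarith
    have h2 : |((p.1 : ℝ) * Z t + (p.2 : ℝ) * W t) / D| ≤
        (|(p.1 : ℝ)| + 2 * p.2) / D * Z t := by
      rw [abs_div, Nat.abs_cast, div_mul_eq_mul_div]
      refine div_le_div_of_nonneg_right ?_ (Nat.cast_nonneg _)
      refine (abs_add_le _ _).trans ?_
      rw [abs_mul, abs_mul, abs_of_nonneg hZ, abs_of_nonneg hW0, Nat.abs_cast]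
      have hp : (0 : ℝ) ≤ p.2 := Nat.cast_nonneg _
      nlinarith [mul_le_mul_of_nonneg_left hW1 hp]
    have h3 : ∀ x y : ℝ, |max x y| ≤ |x| + |y| := by
      intro x y
      rcases max_cases x y with ⟨h, _⟩ | ⟨h, _⟩ <;> rw [h]
      · linarith [abs_nonneg y]
      · linarith [abs_nonneg x]
    calc _ ≤ _ := h3 _ _
      _ ≤ (|(p.1 : ℝ)| + 2 * p.2) / D * Z t + B * Z t := add_le_add h2 h1
      _ = _ := by ring

/-- nonreconstruction from a certificate and a bound for the evolved law -/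
theorem ValidB.near {F : Full} {P : List Pc} {D : ℕ} {l : List (ℤ × ℕ)}
    (H : ValidB F P (l.map (pcL D))) {n M N : ℕ} (hM : Evo.Mesh n M (Evo.mesh n)) (hn : 0 < n)
    (hN : 0 < N) (hD : 0 < D) {lam : ℝ} (h0 : F.lam ≤ lam) (h1 : lam ≤ 0) {d : ℝ≥0}
    (hd : d * lam ^ 2 ≤ 1) {k : ℕ} {m : List ℕ} (h : Pe.InvP n M N lam d k m) {X : ℤ}
    (hX : Pe.lsZ (Pe.phN n l) (Evo.mesh n) m ≤ X)
    (hT : X * F.dd ≤ F.N * F.dn * (36 * n ^ 2 * D * N : ℕ)) :
    Nonreconstruction (aPoisson 3 lam d) := by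
  obtain ⟨B, hB⟩ := PhM_bound D l
  refine H.poisson (Φ := Pe.PhM D l) (fun p hp t ht => pcL_le D l hp ht) hB h0 h1 hd (n0 := k) ?_
  refine (h.start hM hn hN hD l hX).trans ?_
  have hn' : (0 : ℝ) < n := by exact_mod_cast hn
  have hN' : (0 : ℝ) < N := by exact_mod_cast hN
  have hD' : (0 : ℝ) < D := by exact_mod_cast hD
  have hdd : (0 : ℝ) < F.dd := by exact_mod_cast H.dd0
  rw [div_le_iff₀ (by positivity)]
  unfold Full.dl
  have h2 : (X : ℝ) * F.dd ≤ F.N * F.dn * (36 * n ^ 2 * D * N : ℕ) := by exact_mod_cast hT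
  push_cast at h2
  rw [mul_div_assoc', div_mul_eq_mul_div, le_div_iff₀ hdd]
  exact h2

end Sep2

end Vale.Agent.P154
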