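import Mathlib
import Vale.Agent.P154.PMFan

/-!
# P154: certificates with a general polynomial `R`
-/

namespace Vale.Agent.P154

open Finset MeasureTheory ProbabilityTheory
open scoped NNReal

namespace Sep2

/-- one-vector subdivision trees with known cells -/
noncomputable def chk1K (K : List Cell) (e : PExp) (n : ℕ) : Tree → Cell → Bool
  | .ext, P => K.any fun c => cellEq c P
  | .leaf _ b, P => oneF e n P b
  | .spU k a b d p l r, P =>
      comb a b d p (rot k P).1 (rot k P).2.1 &&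
        (chk1K K e n l (p, (rot k P).2.1, (rot k P).2.2) &&
          chk1K K e n r ((rot k P).1, p, (rot k P).2.2))
  | .spV _ _ _ _ _ _ _, _ => false
  | .spS _ _ _, _ => false

theorem chk1K_sound {K : List Cell} {e : PExp} {n : ℕ} (hh : hom n e = true)
    (hK : ∀ c ∈ K, ∀ y0 y1 y2 : ℝ, InC c y0 y1 y2 → 0 ≤ PExp.ev (vec y0 y1 y2) e) :
    ∀ (t : Tree) (P : Cell), chk1K K e n t P = true → ∀ y0 y1 y2 : ℝ, InC P y0 y1 y2 →
      0 ≤ PExp.ev (vec y0 y1 y2) e := by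
  intro t
  induction t with
  | ext =>
    intro P h
    simp only [chk1K, List.any_eq_true] at h
    obtain ⟨c, hc, h1⟩ := h
    rw [← cellEq_eq h1]
    exact hK c hc
  | leaf bu b => intro P h y0 y1 y2 hy; exact one_hom hh h hy
  | spU k a b d p l r ihl ihr =>
    intro P h y0 y1 y2 hy
    simp only [chk1K, Bool.and_eq_true] at h
    obtain ⟨h1, h2, h3⟩ := h
    rcases comb_split h1 (rot_inC hy k) with h4 | h4
    · exact ihl _ h2 y0 y1 y2 h4
    · exact ihr _ h3 y0 y1 y2 h4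
  | spV k a b d p l r ihl ihr => intro P h; simp [chk1K] at h
  | spS m l r ihl ihr => intro P h; simp [chk1K] at h

/-- `R = Z (a + Σ c/den a^i e^j)`, `(i, j, c)` in the list, weights `2 i + 3 j ≤ K`. -/
structure RP where
  den : ℕ
  K : ℕ
  L : List (ℕ × ℕ × ℤ)

/-- weight of a monomial -/
def wt (m : ℕ × ℕ × ℤ) : ℕ := 2 * m.1 + 3 * m.2.1

/-- admissible data -/
def RP.ok (P : RP) : Bool :=
  Nat.blt 0 P.den && (Nat.ble 2 P.K && P.L.all fun m => Nat.ble 3 (wt m) && Nat.ble (wt m) P.K)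

lemma RP.ok_den {P : RP} (h : P.ok = true) : 0 < P.den := by
  unfold RP.ok at h
  simp only [Bool.and_eq_true, Nat.blt_eq] at h
  exact h.1

lemma RP.ok_K {P : RP} (h : P.ok = true) : 2 ≤ P.K := by
  unfold RP.ok at h
  simp only [Bool.and_eq_true] at h
  exact Nat.le_of_ble_eq_true h.2.1

lemma RP.ok_L {P : RP} (h : P.ok = true) : ∀ m ∈ P.L, 3 ≤ wt m ∧ wt m ≤ P.K := by
  unfold RP.ok at h
  simp only [Bool.and_eq_true, List.all_eq_true] at h
  intro m hm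
  exact ⟨Nat.le_of_ble_eq_true (h.2.2 m hm).1, Nat.le_of_ble_eq_true (h.2.2 m hm).2⟩

/-- `(6 Z)^K (a0 a + Σ c a^i e^j)` as an expression -/
def RE2 (r K : ℕ) (a0 : ℤ) (L : List (ℕ × ℕ × ℤ)) : PExp :=
  .add (.mul (.k a0) (.mul (AE r) (.pow (msE (r, 0, 0)) (K - 2))))
    (lsE (K * r) (L.map fun m => .mul (.k m.2.2) (.mul (.mul (.pow (AE r) m.1)
      (.pow (EE r) m.2.1)) (.pow (msE (r, 0, 0)) (K - wt m)))))

/-- its value -/
noncomputable def Rh2 (K : ℕ) (a0 : ℝ) (L : List (ℕ × ℕ × ℤ)) (t0 t1 t2 : ℝ) : ℝ :=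
  a0 * (Ah t0 t1 t2 * (2 * (t0 + t1 + t2)) ^ (K - 2)) +
    (L.map fun m => (m.2.2 : ℝ) * (Ah t0 t1 t2 ^ m.1 * Eh t0 t1 t2 ^ m.2.1 *
      (2 * (t0 + t1 + t2)) ^ (K - wt m))).sum

lemma ev_RE2 (r K : ℕ) (a0 : ℤ) (L : List (ℕ × ℕ × ℤ)) (y0 y1 y2 : ℝ) :
    PExp.ev (vec y0 y1 y2) (RE2 r K a0 L) =
      Rh2 K a0 L (y0 ^ r) (y1 ^ r) (y2 ^ r) := by
  unfold RE2 Rh2
  simp only [PExp.ev, ev_msE, ms_r, ev_AE]
  congr 1
  rw [ev_lsE, List.map_map]
  exact congrArg List.sum (List.map_congr_left fun m _ => by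
    simp only [Function.comp_def, PExp.ev, ev_msE, ms_r, ev_AE, ev_EE])

lemma Rh2_01 (K : ℕ) (a0 : ℝ) (L : List (ℕ × ℕ × ℤ)) (a b c : ℝ) :
    Rh2 K a0 L b a c = Rh2 K a0 L a b c := by
  unfold Rh2
  simp only [Ah_01 a b c, Eh_01 a b c, add_comm b a]

lemma Rh2_12 (K : ℕ) (a0 : ℝ) (L : List (ℕ × ℕ × ℤ)) (a b c : ℝ) :
    Rh2 K a0 L a c b = Rh2 K a0 L a b c := by
  unfold Rh2
  simp only [Ah_12 a b c, Eh_12 a b c, add_right_comm a c b]

/-- `Σ c a^i e^j` -/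
noncomputable def sumL (L : List (ℕ × ℕ × ℤ)) (A E : ℝ) : ℝ :=
  (L.map fun m => (m.2.2 : ℝ) * (A ^ m.1 * E ^ m.2.1)).sum

lemma Rh2_eq {K : ℕ} (hK : 2 ≤ K) (a0 : ℝ) {L : List (ℕ × ℕ × ℤ)} (hL : ∀ m ∈ L, wt m ≤ K)
    {t : Fin 3 → ℝ} (hZ : Z t ≠ 0) :
    Rh2 K a0 L (t 0) (t 1) (t 2) = (6 * Z t) ^ K * (a0 * Av t + sumL L (Av t) (Ev t)) := by
  unfold Rh2 sumL
  rw [Ah_eq hZ, Eh_eq hZ, S3, mul_add, ← List.sum_map_mul_left]
  have h6 : 2 * (3 * Z t) = 6 * Z t := by ring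
  rw [h6]
  congr 1
  · obtain ⟨k, rfl⟩ := Nat.exists_eq_add_of_le' hK
    rw [Nat.add_sub_cancel]
    ring
  · refine congrArg List.sum (List.map_congr_left fun m hm => ?_)
    have h := hL m hm
    have e : (6 * Z t) ^ K = (6 * Z t) ^ (2 * m.1) * (6 * Z t) ^ (3 * m.2.1) *
        (6 * Z t) ^ (K - wt m) := by
      rw [← pow_add, ← pow_add]
      congr 1
      unfold wt at h ⊢
      omega
    rw [e, mul_pow ((6 * Z t) ^ 2), mul_pow ((6 * Z t) ^ 3), ← pow_mul, ← pow_mul]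
    ring

/-- `R` -/
noncomputable def RFR (P : RP) (t : Fin 3 → ℝ) : ℝ :=
  Z t * (Av t + sumL P.L (Av t) (Ev t) / P.den)

/-- coefficients for the argument `edge lam t` -/
def twist (ln ld K : ℕ) (L : List (ℕ × ℕ × ℤ)) : List (ℕ × ℕ × ℤ) :=
  L.map fun m => (m.1, m.2.1, m.2.2 * ((-1) ^ m.2.1 * (ld ^ (wt m - 2) * ln ^ (K - wt m) : ℕ)))

lemma wt_twist {ln ld K : ℕ} {L : List (ℕ × ℕ × ℤ)} (hL : ∀ m ∈ L, wt m ≤ K) :
    ∀ m ∈ twist ln ld K L, wt m ≤ K := by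
  intro m hm
  obtain ⟨m', h1, rfl⟩ := List.mem_map.1 hm
  exact hL m' h1

lemma sumL_twist {ln ld K : ℕ} (hln : (ln : ℝ) ≠ 0) (hld : (ld : ℝ) ≠ 0)
    {L : List (ℕ × ℕ × ℤ)} (hL : ∀ m ∈ L, 3 ≤ wt m ∧ wt m ≤ K) (A E : ℝ) :
    sumL (twist ln ld K L) ((-(ln / ld : ℝ)) ^ 2 * A) ((-(ln / ld : ℝ)) ^ 3 * E) =
      (ln : ℝ) ^ K / ld ^ 2 * sumL L A E := by
  unfold sumL twist
  rw [List.map_map, ← List.sum_map_mul_left]
  refine congrArg List.sum (List.map_congr_left fun m hm => ?_)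
  obtain ⟨h1, h2⟩ := hL m hm
  simp only [Function.comp_def]
  push_cast
  have e1 : (ld : ℝ) ^ wt m = ld ^ (wt m - 2) * ld ^ 2 := by rw [← pow_add]; congr 1; omega
  have e2 : (ln : ℝ) ^ K = ln ^ (K - wt m) * ln ^ wt m := by rw [← pow_add]; congr 1; omega
  have e3 : ∀ x : ℝ, x ^ wt m = (x ^ 2) ^ m.1 * (x ^ 3) ^ m.2.1 := by
    intro x; unfold wt; rw [pow_add, pow_mul, pow_mul]
  have e4 : (-1 : ℝ) ^ m.2.1 * ((-(ln / ld : ℝ)) ^ 3) ^ m.2.1 = ((ln / ld : ℝ) ^ 3) ^ m.2.1 := by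
    rw [← mul_pow]; congr 1; ring
  rw [mul_pow, mul_pow]
  have e5 : (m.2.2 : ℝ) * ((-1) ^ m.2.1 * (ld ^ (wt m - 2) * ln ^ (K - wt m))) *
      (((-(ln / ld : ℝ)) ^ 2) ^ m.1 * A ^ m.1 * (((-(ln / ld : ℝ)) ^ 3) ^ m.2.1 * E ^ m.2.1)) =
      (m.2.2 : ℝ) * (ld ^ (wt m - 2) * ln ^ (K - wt m)) * (((ln / ld : ℝ) ^ 2) ^ m.1 *
        ((ln / ld : ℝ) ^ 3) ^ m.2.1) * (A ^ m.1 * E ^ m.2.1) := by
    rw [← e4, neg_pow_two]; ring
  rw [e5, ← e3, div_pow, e1, e2]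
  field_simp

/-! ### expressions -/

section

variable (F : Full) (P : RP)

def eMLR : PExp :=
  .sub (.mul (.k (F.D.c0 * F.dd : ℕ)) (RE2 F.D.r P.K (P.den * F.ln ^ (P.K - 2) : ℕ)
      (twist F.ln F.ld P.K P.L)))
    (.mul (.k (F.dn * F.D.c1 * P.den * F.ln ^ (P.K - 2) : ℕ))
      (.mul (eM F) (.pow (msE (F.D.r, 0, 0)) (P.K - 2))))
def eRR : PExp :=
  .sub (.mul (.k (P.den : ℕ)) (.mul (SE F.D (fun f => f.a0)) (.pow (msE (F.D.r, 0, 0)) (P.K - 1))))
    (.mul (.k (F.Da : ℕ)) (RE2 F.D.r P.K (P.den : ℕ) P.L))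
def eSR : PExp := RE2 1 P.K 0 (P.L.map fun m => (m.1, m.2.1, m.2.2 * (wt m - 2 : ℕ)))

end

/-- checked data -/
structure ValidR (F : Full) (P : RP) : Prop where
  pok : P.ok = true
  ok : F.D.ok = true
  r0 : F.D.r ≠ 0
  c0 : 0 < F.D.c0
  ln0 : 0 < F.ln
  ld0 : 2 * F.ln ≤ F.ld
  dn0 : 0 < F.dn
  dd0 : 0 < F.dd
  Da0 : 0 < F.Da
  cn0 : 0 < F.cn
  cd0 : 0 < F.cd
  gn0 : 0 < F.gn
  gd0 : 0 < F.gd
  fan : fanOk F.D.r (2 * F.ld - F.ln) (F.ld + F.ln) F.fan = true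
  fan1 : fanFirst F.fan = true
  fan2 : 2 ≤ F.fan.length
  main : ∀ Q ∈ fanCells F.fan, Pos F.D U0 Q 0 F.N
  hm : ∀ Q ∈ fanCells F.fan, ∀ a b c, InC Q a b c → 0 ≤ PExp.ev (vec a b c) (eM F)
  hml : ∀ Q ∈ fanCells F.fan, ∀ a b c, InC Q a b c → 0 ≤ PExp.ev (vec a b c) (eMLR F P)
  hr : ∀ a b c, InC U0 a b c → 0 ≤ PExp.ev (vec a b c) (eRR F P)
  hw : ∀ a b c, InC U0 a b c → 0 ≤ PExp.ev (vec a b c) (eW F)
  hs : ∀ a b c, InC U0 a b c → 0 ≤ PExp.ev (vec a b c) (eSR P)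
  s0 : (F.D.F.map fun f => f.a0).sum = 0
  s1 : (F.D.F.map fun f => f.a1).sum * F.dd = F.Da * F.dn
  v2 : (F.D.F.map fun f => f.a2).sum * (F.dd ^ 2 * F.gd : ℕ) ≤ -(F.gn * F.Da * F.dn ^ 2 : ℕ)
  v3 : ((F.D.F.map fun f => f.a2).sum + F.N * (F.D.F.map fun f => f.a3).sum) *
    (F.dd ^ 2 * F.gd : ℕ) ≤ -(F.gn * F.Da * F.dn ^ 2 : ℕ)



/-- bound for `R` -/
noncomputable def BRR (P : RP) : ℝ :=
  2 + (P.L.map fun m => |(m.2.2 : ℝ)| * (2 ^ m.1 * 8 ^ m.2.1)).sum / P.den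

noncomputable def BBR (F : Full) (P : RP) : ℝ :=
  (BVj F 0 + BVj F 1 + BVj F 2 + BVj F 3) + BRR P + Bm F

lemma BRR_nonneg {P : RP} : 0 ≤ BRR P := by
  unfold BRR
  have := listsum_nonneg' P.L (fun m => |(m.2.2 : ℝ)| * (2 ^ m.1 * 8 ^ m.2.1)) fun m => by
    positivity
  positivity

lemma abs_sumL_le (L : List (ℕ × ℕ × ℤ)) {A E : ℝ} (hA : |A| ≤ 2) (hE : |E| ≤ 8) :
    |sumL L A E| ≤ (L.map fun m => |(m.2.2 : ℝ)| * (2 ^ m.1 * 8 ^ m.2.1)).sum := by
  unfold sumL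
  induction L with
  | nil => simp
  | cons m l ih =>
    simp only [List.map_cons, List.sum_cons]
    refine (abs_add_le _ _).trans (add_le_add ?_ ih)
    rw [abs_mul, abs_mul, abs_pow, abs_pow]
    gcongr

/-! ### monotonicity of `R` along the channels -/

lemma hasDeriv_sum (L : List (ℕ × ℕ × ℤ)) (A E : ℝ) (τ : ℝ) :
    HasDerivAt (fun x : ℝ => (L.map fun m => (m.2.2 : ℝ) * (A ^ m.1 * E ^ m.2.1) *
        x ^ (wt m - 2)).sum)
      ((L.map fun m => (m.2.2 : ℝ) * (A ^ m.1 * E ^ m.2.1) *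
        ((wt m - 2 : ℕ) * τ ^ (wt m - 2 - 1))).sum) τ := by
  induction L with
  | nil => simpa using hasDerivAt_const τ (0 : ℝ)
  | cons m l ih =>
    simp only [List.map_cons, List.sum_cons]
    exact ((hasDerivAt_pow (wt m - 2) τ).const_mul _).add ih

namespace ValidR

variable {F : Full} {P : RP} (H : ValidR F P)

include H

lemma ld_pos : (0 : ℝ) < F.ld := by
  have := H.ln0; have := H.ld0
  exact_mod_cast (by omega : 0 < F.ld)
lemma ln_pos : (0 : ℝ) < F.ln := by exact_mod_cast H.ln0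
lemma dl_pos : 0 < F.dl := by
  have h1 : (0 : ℝ) < F.dn := by exact_mod_cast H.dn0
  have h2 : (0 : ℝ) < F.dd := by exact_mod_cast H.dd0
  unfold Full.dl; positivity
lemma Da_pos : (0 : ℝ) < F.Da := by exact_mod_cast H.Da0
lemma c0_pos : (0 : ℝ) < F.D.c0 := by exact_mod_cast H.c0

lemma lam_neg : F.lam < 0 := by
  have := H.ld_pos; have := H.ln_pos
  unfold Full.lam
  rw [neg_lt_zero]; positivity

lemma lam_ge : -1 / 2 ≤ F.lam := by
  have h1 := H.ld_pos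
  have h2 : (2 : ℝ) * F.ln ≤ F.ld := by exact_mod_cast H.ld0
  unfold Full.lam
  rw [neg_div, neg_le_neg_iff, div_le_div_iff₀ h1 (by norm_num)]
  linarith

lemma adm : Admissible 3 F.lam := admissible_three H.lam_ge (by have := H.lam_neg; linarith)

lemma edge_nn {t : Fin 3 → ℝ} (ht : ∀ i, 0 ≤ t i) (i : Fin 3) : 0 ≤ edge F.lam t i :=
  edge_nonneg H.adm ht i

lemma cnd : 2 * F.ld - F.ln < 2 * (F.ld + F.ln) := by
  have := H.ln0; have := H.ld0; omega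

lemma dom {t : Fin 3 → ℝ} (ht : ∀ i, 0 ≤ t i) :
    Dom F.D.r (2 * F.ld - F.ln) (F.ld + F.ln) (rt F.D.r (edge F.lam t 0))
      (rt F.D.r (edge F.lam t 1)) (rt F.D.r (edge F.lam t 2)) := by
  unfold Dom
  rw [rt_pow H.r0 (H.edge_nn ht 0), rt_pow H.r0 (H.edge_nn ht 1), rt_pow H.r0 (H.edge_nn ht 2)]
  have hle : F.ln ≤ 2 * F.ld := by have := H.ld0; omega
  have h0 := ht 0
  have h1 := ht 1
  have h2 := ht 2
  have hld := H.ld_pos
  have hln := H.ln_pos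
  push_cast [Nat.cast_sub hle]
  simp only [edge_eq]
  rw [Z3]
  unfold Full.lam
  have e : ∀ x y z : ℝ, ((F.ld : ℝ) + F.ln) * (((-(F.ln / F.ld : ℝ)) * y +
      (1 - (-(F.ln / F.ld : ℝ))) * ((x + y + z) / 3)) + ((-(F.ln / F.ld : ℝ)) * z +
      (1 - (-(F.ln / F.ld : ℝ))) * ((x + y + z) / 3))) -
      (2 * (F.ld : ℝ) - F.ln) * ((-(F.ln / F.ld : ℝ)) * x +
      (1 - (-(F.ln / F.ld : ℝ))) * ((x + y + z) / 3)) = 3 * F.ln * x := by
    intro x y z
    field_simp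
    ring
  have k0 := e (t 0) (t 1) (t 2)
  have k1 := e (t 1) (t 0) (t 2)
  have k2 := e (t 2) (t 0) (t 1)
  have p0 : 0 ≤ 3 * (F.ln : ℝ) * t 0 := by positivity
  have p1 : 0 ≤ 3 * (F.ln : ℝ) * t 1 := by positivity
  have p2 : 0 ≤ 3 * (F.ln : ℝ) * t 2 := by positivity
  have s1 : t 1 + t 0 + t 2 = t 0 + t 1 + t 2 := by ring
  have s2 : t 2 + t 0 + t 1 = t 0 + t 1 + t 2 := by ring
  rw [s1] at k1
  rw [s2] at k2
  refine ⟨?_, ?_, ?_⟩ <;> linarith

/-- nonnegative symmetric expressions at roots of edges -/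
lemma fan_ev {e : PExp} (h01 : ∀ a b c : ℝ, PExp.ev (vec b a c) e = PExp.ev (vec a b c) e)
    (h12 : ∀ a b c : ℝ, PExp.ev (vec a c b) e = PExp.ev (vec a b c) e)
    (h : ∀ Q ∈ fanCells F.fan, ∀ a b c, InC Q a b c → 0 ≤ PExp.ev (vec a b c) e)
    {t : Fin 3 → ℝ} (ht : ∀ i, 0 ≤ t i) :
    0 ≤ PExp.ev (vec (rt F.D.r (edge F.lam t 0)) (rt F.D.r (edge F.lam t 1))
      (rt F.D.r (edge F.lam t 2))) e :=
  fan_all H.cnd H.fan H.fan1 H.fan2 (P := fun a b c => 0 ≤ PExp.ev (vec a b c) e)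
    (fun a b c h => by rw [← h01]; exact h) (fun a b c h => by rw [← h12]; exact h) h _ _ _
    (rt_nonneg _ (H.edge_nn ht 0)) (rt_nonneg _ (H.edge_nn ht 1)) (rt_nonneg _ (H.edge_nn ht 2))
    (H.dom ht)

omit H in
lemma U_ev {e : PExp} (h01 : ∀ a b c : ℝ, PExp.ev (vec b a c) e = PExp.ev (vec a b c) e)
    (h12 : ∀ a b c : ℝ, PExp.ev (vec a c b) e = PExp.ev (vec a b c) e)
    (h : ∀ a b c, InC U0 a b c → 0 ≤ PExp.ev (vec a b c) e)
    {t : Fin 3 → ℝ} (ht : ∀ i, 0 ≤ t i) :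
    0 ≤ PExp.ev (vec (rt F.D.r (t 0)) (rt F.D.r (t 1)) (rt F.D.r (t 2))) e :=
  sym_nonneg h01 h12 h _ _ _ (rt_nonneg _ (ht 0)) (rt_nonneg _ (ht 1)) (rt_nonneg _ (ht 2))

lemma GR_nonneg {s : ℝ} (h0 : 0 ≤ s) (h1 : s ≤ F.N * F.dl) {u t : Fin 3 → ℝ}
    (hu : ∀ i, 0 ≤ u i) (ht : ∀ i, 0 ≤ t i) :
    0 ≤ GR F.D (s / F.dl) (rt F.D.r (u 0)) (rt F.D.r (u 1)) (rt F.D.r (u 2))
      (rt F.D.r (edge F.lam t 0)) (rt F.D.r (edge F.lam t 1)) (rt F.D.r (edge F.lam t 2)) := by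
  have hdl := H.dl_pos
  have t0 : ((0 : ℕ) : ℝ) ≤ s / F.dl := by rw [Nat.cast_zero]; positivity
  have t1 : s / F.dl ≤ F.N := by rw [div_le_iff₀ hdl]; exact h1
  refine fan_all H.cnd H.fan H.fan1 H.fan2 (P := fun a b c =>
    0 ≤ GR F.D (s / F.dl) (rt F.D.r (u 0)) (rt F.D.r (u 1)) (rt F.D.r (u 2)) a b c) ?_ ?_ ?_ _ _ _
    (rt_nonneg _ (H.edge_nn ht 0)) (rt_nonneg _ (H.edge_nn ht 1)) (rt_nonneg _ (H.edge_nn ht 2))
    (H.dom ht)
  · intro a b c h
    unfold GR at h ⊢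
    simpa only [ms_swap01 _ a b c, lcR_01 _ _ _ a b c] using h
  · intro a b c h
    unfold GR at h ⊢
    simpa only [ms_swap12 _ a b c, lcR_12 _ _ _ a b c] using h
  · intro Q hQ a b c hin
    refine wlog3 (P := fun x y z => 0 ≤ x → 0 ≤ y → 0 ≤ z → 0 ≤ GR F.D (s / F.dl) x y z a b c)
      ?_ ?_ ?_ _ _ _ (rt_nonneg _ (hu 0)) (rt_nonneg _ (hu 1)) (rt_nonneg _ (hu 2))
    · intro x y z h hx hy hz
      have := h hy hx hz
      unfold GR at this ⊢
      simpa only [ms_swap01 _ x y z] using this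
    · intro x y z h hx hy hz
      have := h hx hz hy
      unfold GR at this ⊢
      simpa only [ms_swap12 _ x y z] using this
    · intro x y z hxy hyz hx hy hz
      exact H.main Q hQ _ _ _ _ _ _ _ t0 t1 (inC_U0 hz hxy hyz) hin

lemma m_nonneg {t : Fin 3 → ℝ} (ht : ∀ i, 0 ≤ t i) : 0 ≤ mF F.D F.dl (edge F.lam t) := by
  have h := H.fan_ev (e := eM F) (fun a b c => by
      simp only [eM, ev_lcE, lcR_01 _ _ _ a b c]) (fun a b c => by
      simp only [eM, ev_lcE, lcR_12 _ _ _ a b c]) H.hm ht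
  simp only [eM, ev_lcE] at h
  unfold mF lcU
  have hZ := Z_nn (H.edge_nn ht)
  have := H.dl_pos
  have := H.c0_pos
  positivity

lemma W_le {t : Fin 3 → ℝ} (ht : ∀ i, 0 ≤ t i) :
    (F.cn / F.cd : ℝ) * W t ≤ VV F.D F.Da F.dl 0 t := by
  have hsym1 : ∀ a b c : ℝ, PExp.ev (vec b a c) (eW F) = PExp.ev (vec a b c) (eW F) := by
    intro a b c
    simp only [eW, PExp.ev, ev_SE, ev_AE, ev_msE, ms_swap01 _ a b c, Ah_01]
  have hsym2 : ∀ a b c : ℝ, PExp.ev (vec a c b) (eW F) = PExp.ev (vec a b c) (eW F) := by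
    intro a b c
    simp only [eW, PExp.ev, ev_SE, ev_AE, ev_msE, ms_swap12 _ a b c, Ah_12]
  have h := Valid.U_ev (F := F) hsym1 hsym2 H.hw ht
  simp only [eW, PExp.ev, ev_SE, ev_AE, ev_msE] at h
  rw [rt_pow H.r0 (ht 0), rt_pow H.r0 (ht 1), rt_pow H.r0 (ht 2), ms_rt H.r0 ht] at h
  have hSL : (F.D.F.map fun f => (f.a0 : ℝ) * ms f.g (rt F.D.r (t 0)) (rt F.D.r (t 1))
      (rt F.D.r (t 2))).sum = 6 * SL F.D.r F.D.F 0 t := by
    unfold SL
    rw [← List.sum_map_mul_left]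
    exact congrArg List.sum (List.map_congr_left fun f _ => by
      simp only [cf, MM]; ring)
  rw [hSL] at h
  have hDa := H.Da_pos
  have hcd : (0 : ℝ) < F.cd := by exact_mod_cast H.cd0
  unfold VV
  rw [pow_zero, mul_one]
  rcases (Z_nn ht).lt_or_eq with hZ | hZ
  · have hW : Ah (t 0) (t 1) (t 2) = 36 * Z t * W t := by
      unfold Ah W
      rw [Fin.sum_univ_three, Fin.sum_univ_three, S3]
      field_simp
      push_cast
      ring
    rw [hW] at h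
    rw [div_mul_eq_mul_div, div_le_div_iff₀ hcd hDa]
    push_cast at h
    have e : F.cd * (6 * SL F.D.r F.D.F 0 t * (6 * Z t)) - F.cn * F.Da * (36 * Z t * W t) =
        36 * Z t * (SL F.D.r F.D.F 0 t * F.cd - F.cn * W t * F.Da) := by ring
    rw [e] at h
    have := (mul_nonneg_iff_of_pos_left (by positivity)).1 h
    linarith
  · have hz := Z_zero ht hZ.symm
    have e0 : W t = 0 := by
      unfold W
      rw [Fin.sum_univ_three, Fin.sum_univ_three, hz 0, hz 1, hz 2]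
      simp
    have e1 : SL F.D.r F.D.F 0 t = 0 := by
      have := abs_SL_le H.ok H.r0 0 ht
      rw [← hZ, mul_zero] at this
      exact abs_eq_zero.1 (le_antisymm this (abs_nonneg _))
    rw [e0, e1, mul_zero, zero_div]


lemma R_le {t : Fin 3 → ℝ} (ht : ∀ i, 0 ≤ t i) : RFR P t ≤ VV F.D F.Da F.dl 0 t := by
  have hsym1 : ∀ a b c : ℝ, PExp.ev (vec b a c) (eRR F P) = PExp.ev (vec a b c) (eRR F P) := by
    intro a b c
    simp only [eRR, PExp.ev, ev_SE, ev_RE2, ev_msE, ms_swap01 _ a b c, Rh2_01]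
  have hsym2 : ∀ a b c : ℝ, PExp.ev (vec a c b) (eRR F P) = PExp.ev (vec a b c) (eRR F P) := by
    intro a b c
    simp only [eRR, PExp.ev, ev_SE, ev_RE2, ev_msE, ms_swap12 _ a b c, Rh2_12]
  have h := Valid.U_ev (F := F) hsym1 hsym2 H.hr ht
  simp only [eRR, PExp.ev, ev_SE, ev_RE2, ev_msE] at h
  rw [rt_pow H.r0 (ht 0), rt_pow H.r0 (ht 1), rt_pow H.r0 (ht 2), ms_rt H.r0 ht] at h
  have hSL : (F.D.F.map fun f => (f.a0 : ℝ) * ms f.g (rt F.D.r (t 0)) (rt F.D.r (t 1))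
      (rt F.D.r (t 2))).sum = 6 * SL F.D.r F.D.F 0 t := by
    unfold SL
    rw [← List.sum_map_mul_left]
    exact congrArg List.sum (List.map_congr_left fun f _ => by
      simp only [cf, MM]; ring)
  rw [hSL] at h
  have hDa := H.Da_pos
  have hden : (0 : ℝ) < P.den := by exact_mod_cast RP.ok_den H.pok
  have hK := RP.ok_K H.pok
  unfold VV
  rw [pow_zero, mul_one]
  rcases (Z_nn ht).lt_or_eq with hZ | hZ
  · rw [Rh2_eq hK _ (fun m hm => (RP.ok_L H.pok m hm).2) hZ.ne'] at h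
    unfold RFR
    rw [le_div_iff₀ hDa]
    push_cast at h
    have eK : (6 * Z t) ^ P.K = (6 * Z t) ^ (P.K - 1) * (6 * Z t) := by
      rw [← pow_succ]; congr 1; omega
    have e : P.den * (6 * SL F.D.r F.D.F 0 t * (6 * Z t) ^ (P.K - 1)) -
        F.Da * ((6 * Z t) ^ P.K * (P.den * Av t + sumL P.L (Av t) (Ev t))) =
        (P.den * 6 * (6 * Z t) ^ (P.K - 1)) * (SL F.D.r F.D.F 0 t -
          Z t * (Av t + sumL P.L (Av t) (Ev t) / P.den) * F.Da) := by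
      rw [eK]
      field_simp
    rw [e] at h
    have := (mul_nonneg_iff_of_pos_left (by positivity)).1 h
    linarith
  · have hz := Z_zero ht hZ.symm
    have e0 : RFR P t = 0 := by unfold RFR; rw [← hZ, zero_mul]
    have e1 : SL F.D.r F.D.F 0 t = 0 := by
      have := abs_SL_le H.ok H.r0 0 ht
      rw [← hZ, mul_zero] at this
      exact abs_eq_zero.1 (le_antisymm this (abs_nonneg _))
    rw [e0, e1, zero_div]

lemma m_le {t : Fin 3 → ℝ} (ht : ∀ i, 0 ≤ t i) :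
    mF F.D F.dl (edge F.lam t) ≤ F.lam ^ 2 * RFR P t := by
  have hsym1 : ∀ a b c : ℝ, PExp.ev (vec b a c) (eMLR F P) = PExp.ev (vec a b c) (eMLR F P) := by
    intro a b c
    simp only [eMLR, eM, PExp.ev, ev_lcE, ev_RE2, ev_msE, ms_swap01 _ a b c, Rh2_01,
      lcR_01 _ _ _ a b c]
  have hsym2 : ∀ a b c : ℝ, PExp.ev (vec a c b) (eMLR F P) = PExp.ev (vec a b c) (eMLR F P) := by
    intro a b c
    simp only [eMLR, eM, PExp.ev, ev_lcE, ev_RE2, ev_msE, ms_swap12 _ a b c, Rh2_12,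
      lcR_12 _ _ _ a b c]
  have h := H.fan_ev hsym1 hsym2 H.hml ht
  simp only [eMLR, eM, PExp.ev, ev_lcE, ev_RE2, ev_msE] at h
  rw [rt_pow H.r0 (H.edge_nn ht 0), rt_pow H.r0 (H.edge_nn ht 1),
    rt_pow H.r0 (H.edge_nn ht 2), ms_rt H.r0 (H.edge_nn ht)] at h
  have hZe : Z (edge F.lam t) = Z t := Z_edge (by norm_num) _ _
  have hc0 := H.c0_pos
  have hden : (0 : ℝ) < P.den := by exact_mod_cast RP.ok_den H.pok
  have hK := RP.ok_K H.pok
  have hln := H.ln_pos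
  have hld := H.ld_pos
  have hdd : (0 : ℝ) < F.dd := by exact_mod_cast H.dd0
  rcases (Z_nn ht).lt_or_eq with hZ | hZ
  · rw [Rh2_eq hK _ (wt_twist fun m hm => (RP.ok_L H.pok m hm).2)
      (by rw [hZe]; exact hZ.ne'), hZe, Av_edge _ hZ.ne', Ev_edge _ hZ.ne'] at h
    unfold mF
    rw [hZe]
    unfold lcU RFR Full.lam Full.dl
    unfold Full.lam at h
    rw [sumL_twist hln.ne' hld.ne' (RP.ok_L H.pok)] at h
    set lm := lcR F.D (fun f => f.mc) (fun e => e.1) (rt F.D.r (edge (-(F.ln / F.ld : ℝ)) t 0))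
      (rt F.D.r (edge (-(F.ln / F.ld : ℝ)) t 1)) (rt F.D.r (edge (-(F.ln / F.ld : ℝ)) t 2))
    push_cast at h
    set S := sumL P.L (Av t) (Ev t)
    rw [← sub_nonneg]
    have e1 : (6 * Z t) ^ P.K = (6 * Z t) ^ (P.K - 2) * (6 * Z t) ^ 2 := by
      rw [← pow_add]; congr 1; omega
    have e2 : (F.ln : ℝ) ^ P.K = F.ln ^ (P.K - 2) * F.ln ^ 2 := by
      rw [← pow_add]; congr 1; omega
    have e : (-(F.ln / F.ld : ℝ)) ^ 2 * (Z t * (Av t + S / P.den)) -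
        F.dn / F.dd * F.D.c1 / F.D.c0 * (lm / (36 * Z t)) =
        (F.D.c0 * F.dd * ((6 * Z t) ^ P.K * (P.den * F.ln ^ (P.K - 2) *
          ((-(F.ln / F.ld : ℝ)) ^ 2 * Av t) + F.ln ^ P.K / F.ld ^ 2 * S)) -
          F.dn * F.D.c1 * P.den * F.ln ^ (P.K - 2) * (lm * (6 * Z t) ^ (P.K - 2))) /
          (F.D.c0 * F.dd * P.den * F.ln ^ (P.K - 2) * (6 * Z t) ^ (P.K - 2) * (36 * Z t)) := by
      rw [e1, e2]
      field_simp
      ring
    rw [e]
    exact div_nonneg h (by positivity)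
  · unfold mF RFR
    rw [hZe, ← hZ]
    simp

lemma R_edge {r : ℝ} (h0 : 0 ≤ r) (h1 : r ≤ 1) {t : Fin 3 → ℝ} (ht : ∀ i, 0 ≤ t i) :
    RFR P (edge r t) ≤ r ^ 2 * RFR P t := by
  have hZe : Z (edge r t) = Z t := Z_edge (by norm_num) _ _
  have hden : (0 : ℝ) < P.den := by exact_mod_cast RP.ok_den H.pok
  have hK := RP.ok_K H.pok
  have hL := RP.ok_L H.pok
  rcases (Z_nn ht).lt_or_eq with hZ | hZ
  · have hsym1 : ∀ a b c : ℝ, PExp.ev (vec b a c) (eSR P) = PExp.ev (vec a b c) (eSR P) := by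
      intro a b c
      simp only [eSR, ev_RE2, Rh2_01]
    have hsym2 : ∀ a b c : ℝ, PExp.ev (vec a c b) (eSR P) = PExp.ev (vec a b c) (eSR P) := by
      intro a b c
      simp only [eSR, ev_RE2, Rh2_12]
    set g : ℝ → ℝ := fun x => (P.L.map fun m => (m.2.2 : ℝ) * (Av t ^ m.1 * Ev t ^ m.2.1) *
        x ^ (wt m - 2)).sum with hg
    have key : ∀ τ : ℝ, 0 < τ → τ ≤ 1 → 0 ≤ (P.L.map fun m => (m.2.2 : ℝ) *
        (Av t ^ m.1 * Ev t ^ m.2.1) * ((wt m - 2 : ℕ) * τ ^ (wt m - 2 - 1))).sum := by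
      intro τ k0 k1
      have ht' : ∀ i, 0 ≤ edge τ t i := edge_nonneg (potts_one_nonneg k0.le k1) ht
      have h := sym_nonneg hsym1 hsym2 H.hs _ _ _ (ht' 0) (ht' 1) (ht' 2)
      simp only [eSR, ev_RE2, pow_one] at h
      have hZτ : Z (edge τ t) = Z t := Z_edge (by norm_num) _ _
      have hw : ∀ m ∈ P.L.map (fun m : ℕ × ℕ × ℤ => (m.1, m.2.1, m.2.2 * ((wt m - 2 : ℕ) : ℤ))),
          wt m ≤ P.K := by
        intro m hm
        obtain ⟨m', h1, rfl⟩ := List.mem_map.1 hm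
        exact (hL m' h1).2
      rw [Rh2_eq hK _ hw (by rw [hZτ]; exact hZ.ne'), hZτ, Av_edge _ hZ.ne',
        Ev_edge _ hZ.ne'] at h
      have h2 := (mul_nonneg_iff_of_pos_left (by positivity)).1 h
      have e : ((0 : ℤ) : ℝ) * (τ ^ 2 * Av t) + sumL (P.L.map (fun m : ℕ × ℕ × ℤ =>
          (m.1, m.2.1, m.2.2 * ((wt m - 2 : ℕ) : ℤ)))) (τ ^ 2 * Av t) (τ ^ 3 * Ev t) =
          τ ^ 3 * (P.L.map fun m => (m.2.2 : ℝ) *
          (Av t ^ m.1 * Ev t ^ m.2.1) * ((wt m - 2 : ℕ) * τ ^ (wt m - 2 - 1))).sum := by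
        unfold sumL
        rw [Int.cast_zero, zero_mul, zero_add, List.map_map, ← List.sum_map_mul_left]
        refine congrArg List.sum (List.map_congr_left fun m hm => ?_)
        have h3 := (hL m hm).1
        simp only [Function.comp_def]
        push_cast
        have e3 : τ ^ 3 * τ ^ (wt m - 2 - 1) = (τ ^ 2) ^ m.1 * (τ ^ 3) ^ m.2.1 := by
          rw [← pow_add, ← pow_mul, ← pow_mul, ← pow_add]
          congr 1
          unfold wt at h3 ⊢
          omega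
        rw [mul_pow, mul_pow]
        calc _ = (m.2.2 : ℝ) * (Av t ^ m.1 * Ev t ^ m.2.1) * (wt m - 2 : ℕ) *
              ((τ ^ 2) ^ m.1 * (τ ^ 3) ^ m.2.1) := by ring
          _ = _ := by rw [← e3]; ring
      rw [e] at h2
      exact (mul_nonneg_iff_of_pos_left (by positivity)).1 h2
    have mono : MonotoneOn g (Set.Icc 0 1) := by
      refine monotoneOn_of_deriv_nonneg (convex_Icc 0 1)
        (fun x _ => (hasDeriv_sum P.L _ _ x).continuousAt.continuousWithinAt)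
        (fun x _ => (hasDeriv_sum P.L _ _ x).differentiableAt.differentiableWithinAt)
        (fun x hx => ?_)
      rw [interior_Icc] at hx
      rw [(hasDeriv_sum P.L _ _ x).deriv]
      exact key x hx.1 hx.2.le
    have hm : g r ≤ g 1 := mono ⟨h0, h1⟩ ⟨zero_le_one, le_rfl⟩ h1
    unfold RFR
    rw [hZe, Av_edge _ hZ.ne', Ev_edge _ hZ.ne']
    have e1 : sumL P.L (r ^ 2 * Av t) (r ^ 3 * Ev t) = r ^ 2 * g r := by
      rw [hg]
      unfold sumL
      simp only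
      rw [← List.sum_map_mul_left]
      refine congrArg List.sum (List.map_congr_left fun m hm => ?_)
      have h3 := (hL m hm).1
      have e3 : r ^ 2 * r ^ (wt m - 2) = (r ^ 2) ^ m.1 * (r ^ 3) ^ m.2.1 := by
        rw [← pow_add, ← pow_mul, ← pow_mul, ← pow_add]
        congr 1
        unfold wt at h3 ⊢
        omega
      rw [mul_pow, mul_pow]
      calc _ = (m.2.2 : ℝ) * (Av t ^ m.1 * Ev t ^ m.2.1) * ((r ^ 2) ^ m.1 * (r ^ 3) ^ m.2.1) := by
            ring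
        _ = _ := by rw [← e3]; ring
    have e2 : sumL P.L (Av t) (Ev t) = g 1 := by
      rw [hg]
      unfold sumL
      simp only [one_pow, mul_one]
    rw [e1, e2]
    have h5 : r ^ 2 * g r / P.den ≤ r ^ 2 * g 1 / P.den := by
      apply div_le_div_of_nonneg_right _ hden.le
      exact mul_le_mul_of_nonneg_left hm (sq_nonneg r)
    have h6 : r ^ 2 * (Z t * (Av t + g 1 / P.den)) - Z t * (r ^ 2 * Av t + r ^ 2 * g r / P.den) =
        Z t * (r ^ 2 * g 1 / P.den - r ^ 2 * g r / P.den) := by ring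
    have h7 := mul_nonneg hZ.le (sub_nonneg.2 h5)
    linarith
  · unfold RFR
    rw [hZe, ← hZ]
    simp

lemma unit_le {s : ℝ} (h0 : 0 ≤ s) (h1 : s ≤ F.N * F.dl) :
    Vs (VV F.D F.Da F.dl) 3 s (fun _ => 1) ≤ s - (F.gn / F.gd : ℝ) * s ^ 2 := by
  have hdl := H.dl_pos
  have hDa := H.Da_pos
  have hdn : (0 : ℝ) < F.dn := by exact_mod_cast H.dn0
  have hdd : (0 : ℝ) < F.dd := by exact_mod_cast H.dd0
  have hgd : (0 : ℝ) < F.gd := by exact_mod_cast H.gd0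
  rw [Vs_VV _ hdl.ne' hDa.ne']
  rw [Valid.SL_one, Valid.SL_one, Valid.SL_one, Valid.SL_one]
  have c0 : (F.D.F.map fun f => (cf 0 f : ℝ)).sum = 0 := by
    have : (F.D.F.map fun f => (cf 0 f : ℝ)).sum = ((F.D.F.map fun f => f.a0).sum : ℤ) := by
      rw [Int.cast_list_sum, List.map_map]; rfl
    rw [this, H.s0]; simp
  have c1 : (F.D.F.map fun f => (cf 1 f : ℝ)).sum = F.Da * F.dl := by
    have : (F.D.F.map fun f => (cf 1 f : ℝ)).sum = ((F.D.F.map fun f => f.a1).sum : ℤ) := by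
      rw [Int.cast_list_sum, List.map_map]; rfl
    rw [this]
    unfold Full.dl
    have e : (((F.D.F.map fun f => f.a1).sum : ℤ) : ℝ) * F.dd = F.Da * F.dn := by
      exact_mod_cast H.s1
    rw [mul_div_assoc', eq_div_iff hdd.ne']
    exact e
  have c2 : (F.D.F.map fun f => (cf 2 f : ℝ)).sum = ((F.D.F.map fun f => f.a2).sum : ℤ) := by
    rw [Int.cast_list_sum, List.map_map]; rfl
  have c3 : (F.D.F.map fun f => (cf 3 f : ℝ)).sum = ((F.D.F.map fun f => f.a3).sum : ℤ) := by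
    rw [Int.cast_list_sum, List.map_map]; rfl
  rw [c0, c1, c2, c3]
  set A2 : ℝ := (((F.D.F.map fun f => f.a2).sum : ℤ) : ℝ) with hA2
  set A3 : ℝ := (((F.D.F.map fun f => f.a3).sum : ℤ) : ℝ) with hA3
  have v2 : A2 * (F.dd ^ 2 * F.gd) ≤ -(F.gn * F.Da * F.dn ^ 2) := by
    have := H.v2
    rw [hA2]
    exact_mod_cast this
  have v3 : (A2 + F.N * A3) * (F.dd ^ 2 * F.gd) ≤ -(F.gn * F.Da * F.dn ^ 2) := by
    have := H.v3
    rw [hA2, hA3]
    exact_mod_cast this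
  set τ := s / F.dl with hτ
  have hs : s = τ * F.dl := by rw [hτ]; field_simp
  have t0 : 0 ≤ τ := by positivity
  have t1 : τ ≤ F.N := by rw [hτ, div_le_iff₀ hdl]; exact h1
  have key : (A2 + τ * A3) * (F.dd ^ 2 * F.gd) ≤ -(F.gn * F.Da * F.dn ^ 2) := by
    rcases le_total A3 0 with h3 | h3
    · have : (A2 + τ * A3) * (F.dd ^ 2 * F.gd) ≤ A2 * (F.dd ^ 2 * F.gd) := by
        have : τ * A3 ≤ 0 := mul_nonpos_of_nonneg_of_nonpos t0 h3
        have hp : (0 : ℝ) < F.dd ^ 2 * F.gd := by positivity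
        nlinarith
      linarith
    · have : (A2 + τ * A3) * (F.dd ^ 2 * F.gd) ≤ (A2 + F.N * A3) * (F.dd ^ 2 * F.gd) := by
        have : τ * A3 ≤ F.N * A3 := mul_le_mul_of_nonneg_right t1 h3
        have hp : (0 : ℝ) < F.dd ^ 2 * F.gd := by positivity
        nlinarith
      linarith
  have hdl2 : F.dl ^ 2 * F.dd ^ 2 = F.dn ^ 2 := by unfold Full.dl; field_simp
  have key2 : A2 + τ * A3 ≤ -(F.gn / F.gd : ℝ) * (F.Da * F.dl ^ 2) := by
    have hp : (0 : ℝ) < F.dd ^ 2 * F.gd := by positivity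
    have e : -(F.gn / F.gd : ℝ) * (F.Da * F.dl ^ 2) * (F.dd ^ 2 * F.gd) =
        -(F.gn * F.Da * F.dn ^ 2) := by
      rw [← hdl2]; field_simp
    rw [← e] at key
    exact le_of_mul_le_mul_right key hp
  rw [hs, div_le_iff₀ hDa]
  have hτ2 : 0 ≤ τ ^ 2 := sq_nonneg τ
  nlinarith [mul_le_mul_of_nonneg_left key2 hτ2]

lemma BVj_nonneg (j : ℕ) : 0 ≤ BVj F j := by
  have := H.Da_pos
  have := H.dl_pos
  exact div_nonneg (listsum_nonneg' _ _ fun f => by positivity) (by positivity)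

lemma Bm_nonneg : 0 ≤ Bm F := by
  have := H.dl_pos
  have := H.c0_pos
  have h1 := listsum_nonneg' F.D.F (fun f => |(f.mc : ℝ)| * 108) fun f => by positivity
  have h2 := listsum_nonneg' F.D.G (fun e => |(e.2.1 : ℝ)| * 324) fun f => by positivity
  unfold Bm
  positivity

lemma R_bound {t : Fin 3 → ℝ} (ht : ∀ i, 0 ≤ t i) : |RFR P t| ≤ BBR F P * Z t := by
  have hZ := Z_nn ht
  have n0 := H.BVj_nonneg 0
  have n1 := H.BVj_nonneg 1
  have n2 := H.BVj_nonneg 2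
  have n3 := H.BVj_nonneg 3
  have nm := H.Bm_nonneg
  have hden : (0 : ℝ) < P.den := by exact_mod_cast RP.ok_den H.pok
  have h2 : BRR P ≤ BBR F P := by unfold BBR; linarith
  refine le_trans ?_ (mul_le_mul_of_nonneg_right h2 hZ)
  rcases hZ.lt_or_eq with hp | hp
  · obtain ⟨a0, a1, e1⟩ := AvEv_bound ht hp
    have ha : |Av t| ≤ 2 := abs_le.2 ⟨by linarith, a1⟩
    unfold RFR BRR
    rw [abs_mul, abs_of_pos hp, mul_comm]
    refine mul_le_mul_of_nonneg_right ?_ hp.le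
    refine (abs_add_le _ _).trans (add_le_add ha ?_)
    rw [abs_div, abs_of_pos hden]
    exact div_le_div_of_nonneg_right (abs_sumL_le P.L ha e1) hden.le
  · unfold RFR
    rw [← hp]; simp

lemma V_bound (j : ℕ) {u : Fin 3 → ℝ} (hu : ∀ i, 0 ≤ u i) :
    |VV F.D F.Da F.dl j u| ≤ BBR F P * Z u := by
  have hDa := H.Da_pos
  have hdl := H.dl_pos
  have hZ := Z_nn hu
  have h1 : |VV F.D F.Da F.dl j u| ≤ BVj F j * Z u := by
    unfold VV BVj
    rw [abs_div, abs_of_pos (by positivity : 0 < (F.Da : ℝ) * F.dl ^ j), div_mul_eq_mul_div]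
    exact div_le_div_of_nonneg_right (abs_SL_le H.ok H.r0 j hu) (by positivity)
  have n0 := H.BVj_nonneg 0
  have n1 := H.BVj_nonneg 1
  have n2 := H.BVj_nonneg 2
  have n3 := H.BVj_nonneg 3
  have nR := BRR_nonneg (P := P)
  have nm := H.Bm_nonneg
  have h2 : BVj F j ≤ BBR F P := by
    unfold BBR
    rcases Nat.lt_or_ge j 4 with hj | hj
    · interval_cases j <;> linarith
    · have : BVj F j = 0 := by
        unfold BVj
        have : (F.D.F.map fun f => |(cf j f : ℝ)| * 3).sum = 0 := by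
          apply List.sum_eq_zero
          intro x hx
          obtain ⟨f, _, rfl⟩ := List.mem_map.1 hx
          rw [cf_ge4 hj]; simp
        rw [this, zero_div]
      rw [this]; linarith
  exact h1.trans (mul_le_mul_of_nonneg_right h2 hZ)

lemma m_bound {t : Fin 3 → ℝ} (ht : ∀ i, 0 ≤ t i) :
    mF F.D F.dl (edge F.lam t) ≤ BBR F P * Z t := by
  have hZ := Z_nn ht
  have n0 := H.BVj_nonneg 0
  have n1 := H.BVj_nonneg 1
  have n2 := H.BVj_nonneg 2
  have n3 := H.BVj_nonneg 3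
  have nR := BRR_nonneg (P := P)
  have h2 : Bm F ≤ BBR F P := by unfold BBR; linarith
  refine le_trans ?_ (mul_le_mul_of_nonneg_right h2 hZ)
  have hdl := H.dl_pos
  have hc0 := H.c0_pos
  have hZe : Z (edge F.lam t) = Z t := Z_edge (by norm_num) _ _
  rcases hZ.lt_or_eq with hp | hp
  · have h3 := abs_lcU_le H.ok H.r0 (fun f => f.mc) (fun e => e.1) (H.edge_nn ht)
    rw [hZe] at h3
    unfold mF Bm
    rw [hZe]
    have h4 := (le_abs_self _).trans h3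
    rw [mul_assoc]
    refine mul_le_mul_of_nonneg_left ?_ (by positivity)
    rw [div_mul_eq_mul_div, div_le_div_iff₀ (by positivity) (by norm_num)]
    nlinarith
  · unfold mF
    rw [hZe, ← hp]; simp

lemma q_nonneg_of (hq : ∀ Q ∈ fanCells F.fan, ∀ a b c, InC Q a b c →
    0 ≤ PExp.ev (vec a b c) (eQ F)) {t : Fin 3 → ℝ} (ht : ∀ i, 0 ≤ t i) :
    0 ≤ qF F.D F.dl (edge F.lam t) := by
  have h := H.fan_ev (e := eQ F) (fun a b c => by
      simp only [eQ, ev_lcE, lcR_01 _ _ _ a b c]) (fun a b c => by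
      simp only [eQ, ev_lcE, lcR_12 _ _ _ a b c]) hq ht
  simp only [eQ, ev_lcE] at h
  unfold qF lcU
  have hZ := Z_nn (H.edge_nn ht)
  have := H.dl_pos
  have := H.c0_pos
  positivity

lemma main_HJ {s : ℝ} (h0 : 0 ≤ s) (h1 : s ≤ F.N * F.dl) {u t : Fin 3 → ℝ}
    (hu : ∀ i, 0 ≤ u i) (ht : ∀ i, 0 ≤ t i) :
    ∑ π : Equiv.Perm (Fin 3), Vs (VV F.D F.Da F.dl) 3 s (fun i => u i * edge F.lam t (π i)) ≤
      ((univ : Finset (Equiv.Perm (Fin 3))).card : ℝ) *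
      (Vs (VV F.D F.Da F.dl) 3 s u * Z (edge F.lam t) + mF F.D F.dl (edge F.lam t) *
        dVs (VV F.D F.Da F.dl) 3 s u +
        qF F.D F.dl (edge F.lam t) * KF F.D F.Da F.dl s u) := by
  have hc : ((univ : Finset (Equiv.Perm (Fin 3))).card : ℝ) = 6 := by
    rw [Finset.card_univ, Fintype.card_perm, Fintype.card_fin]; norm_num [Nat.factorial]
  rw [hc]
  exact main_ineq F.D H.ok H.r0 H.Da_pos H.dl_pos H.c0 hu (H.edge_nn ht)
    (H.GR_nonneg h0 h1 hu ht)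

/-- certificate for random trees -/
noncomputable def hj0 (hc2 : F.D.c2 = 0) : HJ 3 F.lam where
  J := 3
  V := VV F.D F.Da F.dl
  m := mF F.D F.dl
  qq := fun _ => 0
  K := fun _ _ => 0
  R := RFR P
  T := F.N * F.dl
  S := univ
  S_nonempty := ⟨1, mem_univ _⟩
  B := BBR F P
  V_bound := fun j u hu => H.V_bound j hu
  R_bound := fun t ht => H.R_bound ht
  m_bound := fun t ht => H.m_bound ht
  m_nonneg := fun t ht => H.m_nonneg ht
  K_nonpos := fun _ _ _ _ _ => le_rfl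
  qq_nonneg := fun _ _ => le_rfl
  main := fun s h0 h1 u t hu ht => by
    have h := H.main_HJ h0 h1 hu ht
    have hq : qF F.D F.dl (edge F.lam t) = 0 := by
      unfold qF; rw [hc2]; simp
    rw [hq, zero_mul] at h
    rw [zero_mul]
    exact h
  m_le := fun t ht => H.m_le ht
  R_le := fun t ht => H.R_le ht
  R_edge := fun r h0 h1 t ht => H.R_edge h0 h1 ht
  c := F.cn / F.cd
  c_pos := by
    have h1 : (0 : ℝ) < F.cn := by exact_mod_cast H.cn0
    have h2 : (0 : ℝ) < F.cd := by exact_mod_cast H.cd0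
    positivity
  W_le := fun t ht => H.W_le ht
  gam := F.gn / F.gd
  gam_pos := by
    have h1 : (0 : ℝ) < F.gn := by exact_mod_cast H.gn0
    have h2 : (0 : ℝ) < F.gd := by exact_mod_cast H.gd0
    positivity
  unit_le := fun s h0 h1 => H.unit_le h0 h1

end ValidR

namespace ValidR

variable {F : Full} {P : RP} (H : ValidR F P) (H' : KValid F)

include H H'

lemma K_nonpos {s : ℝ} (h0 : 0 ≤ s) (h1 : s ≤ F.N * F.dl) {u : Fin 3 → ℝ}
    (hu : ∀ i, 0 ≤ u i) : KF F.D F.Da F.dl s u ≤ 0 := by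
  have hdl := H.dl_pos
  have hDa := H.Da_pos
  have h3 := Valid.V3_nonneg H' hu
  have hN := Valid.KN_le H' hu
  unfold KF
  have t0 : 0 ≤ s / F.dl := by positivity
  have t1 : s / F.dl ≤ F.N := by rw [div_le_iff₀ hdl]; exact h1
  refine div_nonpos_of_nonpos_of_nonneg ?_ (by positivity)
  nlinarith [mul_le_mul_of_nonneg_right t1 h3]

/-- certificate with quadratic term -/
noncomputable def hj1 : HJ 3 F.lam where
  J := 3
  V := VV F.D F.Da F.dl
  m := mF F.D F.dl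
  qq := qF F.D F.dl
  K := KF F.D F.Da F.dl
  R := RFR P
  T := F.N * F.dl
  S := univ
  S_nonempty := ⟨1, mem_univ _⟩
  B := BBR F P
  V_bound := fun j u hu => H.V_bound j hu
  R_bound := fun t ht => H.R_bound ht
  m_bound := fun t ht => H.m_bound ht
  m_nonneg := fun t ht => H.m_nonneg ht
  K_nonpos := fun s h0 h1 u hu => H.K_nonpos H' h0 h1 hu
  qq_nonneg := fun t ht => H.q_nonneg_of H'.hq ht
  main := fun s h0 h1 u t hu ht => H.main_HJ h0 h1 hu ht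
  m_le := fun t ht => H.m_le ht
  R_le := fun t ht => H.R_le ht
  R_edge := fun r h0 h1 t ht => H.R_edge h0 h1 ht
  c := F.cn / F.cd
  c_pos := by
    have h1 : (0 : ℝ) < F.cn := by exact_mod_cast H.cn0
    have h2 : (0 : ℝ) < F.cd := by exact_mod_cast H.cd0
    positivity
  W_le := fun t ht => H.W_le ht
  gam := F.gn / F.gd
  gam_pos := by
    have h1 : (0 : ℝ) < F.gn := by exact_mod_cast H.gn0
    have h2 : (0 : ℝ) < F.gd := by exact_mod_cast H.gd0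
    positivity
  unit_le := fun s h0 h1 => H.unit_le h0 h1

lemma reg : (H.hj1 H').Reg where
  conv := fun s r h0 hr hT u hu => by
    change Vs (VV F.D F.Da F.dl) 3 s u + r * dVs (VV F.D F.Da F.dl) 3 s u +
      r ^ 2 * KF F.D F.Da F.dl s u ≤ Vs (VV F.D F.Da F.dl) 3 (s + r) u
    have hdl := H.dl_pos
    have hDa := H.Da_pos
    have h3 := Valid.V3_nonneg H' hu
    rw [Vs_VV _ hdl.ne' hDa.ne', Vs_VV _ hdl.ne' hDa.ne', dVs_VV _ hdl.ne' hDa.ne']
    unfold KF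
    rw [← sub_nonneg]
    have e : (SL F.D.r F.D.F 0 u + (s + r) / F.dl * SL F.D.r F.D.F 1 u +
        ((s + r) / F.dl) ^ 2 * SL F.D.r F.D.F 2 u +
        ((s + r) / F.dl) ^ 3 * SL F.D.r F.D.F 3 u) / F.Da -
        ((SL F.D.r F.D.F 0 u + s / F.dl * SL F.D.r F.D.F 1 u +
        (s / F.dl) ^ 2 * SL F.D.r F.D.F 2 u + (s / F.dl) ^ 3 * SL F.D.r F.D.F 3 u) / F.Da +
        r * ((SL F.D.r F.D.F 1 u + 2 * (s / F.dl) * SL F.D.r F.D.F 2 u +
        3 * (s / F.dl) ^ 2 * SL F.D.r F.D.F 3 u) / (F.Da * F.dl)) +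
        r ^ 2 * ((SL F.D.r F.D.F 2 u + 3 * (s / F.dl) * SL F.D.r F.D.F 3 u) /
          (F.Da * F.dl ^ 2))) = (r / F.dl) ^ 3 * SL F.D.r F.D.F 3 u / F.Da := by
      field_simp
      ring
    rw [e]
    positivity
  qq_ge := fun t ht => by
    change mF F.D F.dl (edge F.lam t) ^ 2 ≤ qF F.D F.dl (edge F.lam t) * Z (edge F.lam t)
    have hdl := H.dl_pos
    have hc0 := H.c0_pos
    have h := H.fan_ev (e := eQM F) (fun a b c => by
      simp only [eQM, eQ, eM, PExp.ev, ev_lcE, ev_msE, ms_swap01 _ a b c, lcR_01 _ _ _ a b c])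
      (fun a b c => by
      simp only [eQM, eQ, eM, PExp.ev, ev_lcE, ev_msE, ms_swap12 _ a b c, lcR_12 _ _ _ a b c])
      H'.hqm ht
    simp only [eQM, eQ, eM, PExp.ev, ev_lcE, ev_msE] at h
    rw [ms_rt H.r0 (H.edge_nn ht)] at h
    have hZe : Z (edge F.lam t) = Z t := Z_edge (by norm_num) _ _
    rcases (Z_nn ht).lt_or_eq with hZ | hZ
    · rw [hZe] at h
      unfold mF qF lcU
      rw [hZe]
      set lm := lcR F.D (fun f => f.mc) (fun e => e.1) (rt F.D.r (edge F.lam t 0))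
        (rt F.D.r (edge F.lam t 1)) (rt F.D.r (edge F.lam t 2))
      set lq := lcR F.D (fun f => f.qc) (fun e => e.2) (rt F.D.r (edge F.lam t 0))
        (rt F.D.r (edge F.lam t 1)) (rt F.D.r (edge F.lam t 2))
      push_cast at h
      rw [← sub_nonneg]
      have e : F.dl ^ 2 * F.D.c2 / F.D.c0 * (lq / (36 * Z t)) * Z t -
          (F.dl * F.D.c1 / F.D.c0 * (lm / (36 * Z t))) ^ 2 =
          (F.D.c0 * F.D.c2 * ((6 * Z t) ^ 2 * lq) - F.D.c1 ^ 2 * lm ^ 2) *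
            (F.dl ^ 2 / (F.D.c0 ^ 2 * 36 ^ 2 * Z t ^ 2)) := by
        field_simp
        ring
      rw [e]
      exact mul_nonneg h (by positivity)
    · unfold mF qF
      rw [hZe, ← hZ]
      simp

end ValidR


/-! ### final statements -/

lemma RFR_corner (P : RP) (j : Fin 3) : RFR P (fun i => if j = i then 1 else 0) =
    1 / 3 * (2 + (P.L.map fun m => (m.2.2 : ℝ) * 2 ^ (m.1 + m.2.1)).sum / P.den) := by
  have hZ : Z (fun i : Fin 3 => if j = i then (1 : ℝ) else 0) = 1 / 3 := by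
    rw [Z3]
    fin_cases j <;> simp
  have hA : Av (fun i : Fin 3 => if j = i then (1 : ℝ) else 0) = 2 := by
    unfold Av
    rw [hZ]
    fin_cases j <;> simp <;> ring
  have hE : Ev (fun i : Fin 3 => if j = i then (1 : ℝ) else 0) = 2 := by
    unfold Ev
    rw [hZ]
    fin_cases j <;> simp <;> ring
  unfold RFR
  rw [hZ, hA, hE]
  unfold sumL
  simp only [pow_add]

lemma corner_leR {F : Full} {P : RP} (H : ValidR F P)
    (hT : (2 * (P.den : ℤ) + (P.L.map fun m => m.2.2 * 2 ^ (m.1 + m.2.1)).sum) * F.dd ≤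
      F.N * F.dn * P.den) (lam : ℝ) (N : List ℕ → ℕ) :
    tot (RFR P) (lik 3 lam N 0) ≤ F.N * F.dl := by
  rw [tot_lik_zero]
  simp only [RFR_corner]
  have hden : (0 : ℝ) < P.den := by exact_mod_cast RP.ok_den H.pok
  have hdd : (0 : ℝ) < F.dd := by exact_mod_cast H.dd0
  have e0 : (P.L.map fun m => (m.2.2 : ℝ) * 2 ^ (m.1 + m.2.1)).sum =
      (((P.L.map fun m => m.2.2 * 2 ^ (m.1 + m.2.1)).sum : ℤ) : ℝ) := by
    rw [Int.cast_list_sum, List.map_map]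
    exact congrArg List.sum (List.map_congr_left fun m _ => by
      simp only [Function.comp_def]; push_cast; ring)
  rw [e0]
  set S : ℤ := (P.L.map fun m => m.2.2 * 2 ^ (m.1 + m.2.1)).sum
  have h : (2 * (P.den : ℝ) + S) * F.dd ≤ F.N * F.dn * P.den := by exact_mod_cast hT
  rw [Finset.sum_const, Finset.card_univ, Fintype.card_fin]
  unfold Full.dl
  rw [nsmul_eq_mul, ← sub_nonneg]
  have e : (F.N : ℝ) * (F.dn / F.dd) - ((3 : ℕ) : ℝ) * (1 / 3 * (2 + (S : ℝ) / P.den)) =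
      (F.N * F.dn * P.den - (2 * (P.den : ℝ) + S) * F.dd) / (F.dd * P.den) := by
    field_simp
    push_cast
    ring
  rw [e]
  exact div_nonneg (by linarith) (by positivity)

end Sep2

end Vale.Agent.P154
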