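import Mathlib
import Vale.Agent.P154.PMR

/-! data of the certificate B10 -/

namespace Vale.Agent.P154.Sep2

noncomputable def datB10 : Dat where
  r := 10
  F := [⟨(9, 1, 0), (-386045633475), 4420601023, (-34972590), 181896,
      1652209159156812192, 11763887791532709600⟩,
    ⟨(8, 2, 0), 1624466299500, (-36215080406), 464294163, (-2417310),
      (-4425928901019016188), 13022218465905762600⟩,
    ⟨(8, 1, 1), 1898259700950, (-23757140957), 54477046, (-280630),
      (-2971968191688358152), (-76480117042078006200)⟩,
    ⟨(7, 3, 0), (-3452559545925), 134575714949, (-2254724104), 11743960,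
      7592094461126119920, (-146167911781817027400)⟩,
    ⟨(7, 2, 1), (-12999362223375), 196797544140, (-712057465), 3683587,
      11836680667812569784, 336075501511107349200⟩,
    ⟨(6, 4, 0), 5740162550325, (-280132080029), 5190910665, (-27044348),
      (-9673299472378705260), 376977429828637169400⟩,
    ⟨(6, 3, 1), 16225046619525, (-358547945556), 2726078814, (-14152054),
      (-12674665287030499344), (-423718969559765943000)⟩,
    ⟨(6, 2, 2), 22257193909725, (-317200655828), 576156836, (-2963023),
      (-10821288335095475016), (-310280068397684983200)⟩,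
    ⟨(5, 5, 0), (-3222631557849), 174951001131, (-3365524645), 17535821,
      5067033985081936476, (-255488116940444644200)⟩,
    ⟨(5, 4, 1), (-10555499893500), 259114902243, (-2350278538), 12211111,
      6372713644885059024, 245952749583299594400⟩,
    ⟨(5, 3, 2), (-55481225857650), 978752464936, (-4465541424), 23141877,
      21987187438920925320, 711029594766827197200⟩,
    ⟨(4, 4, 2), 40722398753625, (-823723170377), 5511811544, (-28618912),
      (-13700997257149953876), (-518927562905876622600)⟩,
    ⟨(4, 3, 3), (-2396346832825), 91110141404, (-1340623997), 6977993,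
      (-75563510746344812), 37116678335815301800⟩,
    ⟨(10, 0, 0), 26143710949, 5578327, (-50121), 201,
      (-164205773379961801), (-875249607089442037)⟩]
  G := [((20, 0, 0), (-2628495108267), (-64048368415563))]
  c0 := 30796875000
  c1 := 75
  c2 := 32

noncomputable def fullB10 : Full where
  D := datB10
  ln := 4473
  ld := 10000
  dn := 3
  dd := 64
  N := 64
  Da := 3240000000
  den := 1
  r20 := 0
  r30 := 0
  r11 := 0
  r02 := 0
  cn := 1
  cd := 10
  gn := 1
  gd := 1000
  fan := [(13, 13, 10), (36, 35, 31), (24, 23, 22), (33, 31, 31)]

noncomputable def rpB10 : RP where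
  den := 100000
  K := 8
  L := [(2, 0, 9515), (3, 0, (-6914)), (1, 1, 9164), (0, 2, 4250), (4, 0, 3223), (2, 1, 353)]

end Vale.Agent.P154.Sep2
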