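import Mathlib
import Vale.Agent.P154.PMR
import Vale.Agent.P154.B10Data

namespace Vale.Agent.P154.Sep2

def partB10_3 : chkT datB10 [] (.leaf 35 265)
    ((3, 2, 2), (2, 1, 1), (5, 5, 2))
    ((13, 13, 10), (1, 1, 1), (36, 35, 31)) 0 16 = true := by decide +kernel

def partB10_5 : chkT datB10 [] (.spV 0 1 6 1 (25, 25, 22) (.spS 2 (.spV 0 1 6 1 (31, 31, 28) (.spV 1 6 1 1 (42, 41, 37) (.leaf 38 293) (.leaf 38 282)) (.leaf 38 289)) (.leaf 38 277)) (.leaf 38 284))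
    ((1, 1, 1), (5, 4, 4), (6, 6, 5))
    ((19, 19, 16), (1, 1, 1), (36, 35, 31)) 0 4 = true := by decide +kernel

def partB10_6 : chkT datB10 [] (.spV 0 1 6 1 (25, 25, 22) (.leaf 38 277) (.leaf 38 284))
    ((1, 1, 1), (5, 4, 4), (6, 6, 5))
    ((19, 19, 16), (1, 1, 1), (36, 35, 31)) 4 8 = true := by decide +kernel

def partB10_11 : chkT datB10 [] (.spU 2 1 1 1 (6, 5, 4) (.spU 1 2 1 3 (4, 4, 3) (.leaf 42 274) (.leaf 39 271)) (.leaf 41 273))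
    ((3, 3, 2), (6, 6, 5), (3, 2, 2))
    ((13, 13, 10), (1, 1, 1), (36, 35, 31)) 8 16 = true := by decide +kernel

def partB10_12 : chkT datB10 [] (.leaf 37 268)
    ((5, 5, 2), (3, 3, 2), (3, 2, 2))
    ((13, 13, 10), (1, 1, 1), (36, 35, 31)) 0 16 = true := by decide +kernel

def partB10_24 : chkT datB10 [] (.leaf 32 268)
    ((3, 2, 2), (2, 1, 1), (3, 3, 2))
    ((36, 35, 31), (1, 1, 1), (24, 23, 22)) 0 16 = true := by decide +kernel

def partB10_29 : chkT datB10 [] (.spU 1 1 2 1 (13, 7, 4) (.spU 1 1 3 1 (7, 4, 1) (.leaf 45 278) (.leaf 47 280)) (.leaf 44 278))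
    ((1, 1, 0), (5, 5, 2), (4, 1, 1))
    ((36, 35, 31), (1, 1, 1), (24, 23, 22)) 0 64 = true := by decide +kernel

def partB10_31 : chkT datB10 [] (.spU 2 3 2 1 (5, 5, 2) (.spU 1 2 1 3 (2, 1, 1) (.spU 1 2 1 1 (13, 7, 4) (.leaf 45 278) (.leaf 44 275)) (.leaf 32 267)) (.spU 1 1 2 1 (13, 7, 4) (.leaf 43 274) (.leaf 44 277)))
    ((1, 1, 1), (4, 1, 1), (1, 1, 0))
    ((24, 23, 22), (1, 1, 1), (33, 31, 31)) 0 64 = true := by decide +kernel

end Vale.Agent.P154.Sep2
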