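import Mathlib
import Vale.Agent.P154.PMR
import Vale.Agent.P154.B10Data

namespace Vale.Agent.P154.Sep2

def partB10_0 : chkT datB10 [] (.spU 1 2 1 1 (3, 1, 0) (.spU 1 3 1 1 (7, 4, 1) (.leaf 40 265) (.leaf 36 262)) (.leaf 32 255))
    ((4, 1, 1), (1, 0, 0), (1, 1, 0))
    ((13, 13, 10), (1, 1, 1), (36, 35, 31)) 0 64 = true := by decide +kernel

def partB10_2 : chkT datB10 [] (.spS 48 (.spU 1 2 1 1 (13, 7, 4) (.leaf 45 273) (.leaf 44 270)) (.spS 56 (.leaf 36 264) (.leaf 36 264)))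
    ((2, 1, 1), (4, 1, 1), (5, 5, 2))
    ((13, 13, 10), (1, 1, 1), (36, 35, 31)) 32 64 = true := by decide +kernel

def partB10_7 : chkT datB10 [] (.leaf 38 279)
    ((1, 1, 1), (5, 4, 4), (6, 6, 5))
    ((13, 13, 10), (19, 19, 16), (36, 35, 31)) 0 8 = true := by decide +kernel

def partB10_13 : chkT datB10 [] (.spU 2 1 4 3 (3, 3, 2) (.spU 1 1 1 1 (3, 2, 2) (.leaf 32 262) (.spS 24 (.spU 2 1 3 1 (6, 6, 5) (.leaf 35 267) (.leaf 38 270)) (.leaf 30 261))) (.leaf 35 266))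
    ((1, 1, 1), (2, 1, 1), (5, 5, 2))
    ((13, 13, 10), (1, 1, 1), (36, 35, 31)) 16 32 = true := by decide +kernel

def partB10_14 : chkT datB10 [] (.leaf 28 258)
    ((3, 3, 2), (1, 1, 1), (2, 1, 1))
    ((13, 13, 10), (1, 1, 1), (36, 35, 31)) 32 64 = true := by decide +kernel

def partB10_16 : chkT datB10 [] (.spU 2 3 1 1 (11, 8, 5) (.spU 1 2 3 1 (19, 19, 10) (.leaf 52 282) (.leaf 53 283)) (.leaf 42 271))
    ((5, 5, 2), (3, 3, 2), (2, 1, 1))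
    ((13, 13, 10), (1, 1, 1), (36, 35, 31)) 48 56 = true := by decide +kernel

def partB10_26 : chkT datB10 [] (.leaf 35 272)
    ((5, 5, 2), (3, 3, 2), (2, 1, 1))
    ((36, 35, 31), (1, 1, 1), (24, 23, 22)) 0 16 = true := by decide +kernel

def partB10_30 : chkT datB10 [] (.spU 1 2 1 1 (3, 1, 0) (.spU 0 1 2 1 (5, 3, 0) (.leaf 35 265) (.leaf 37 266)) (.leaf 32 259))
    ((4, 1, 1), (1, 0, 0), (1, 1, 0))
    ((24, 23, 22), (1, 1, 1), (33, 31, 31)) 0 64 = true := by decide +kernel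

end Vale.Agent.P154.Sep2
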