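import Mathlib
import Vale.Agent.P154.PMR
import Vale.Agent.P154.B10Data
import Vale.Agent.P154.B10M0

namespace Vale.Agent.P154.Sep2

def partB10_1 : chkT datB10 [] (.spU 1 2 1 1 (13, 7, 4) (.leaf 45 273) (.leaf 44 271))
    ((2, 1, 1), (4, 1, 1), (5, 5, 2))
    ((13, 13, 10), (1, 1, 1), (36, 35, 31)) 0 32 = true := by decide +kernel

def partB10_8 : chkT datB10 [] (.spU 1 2 1 1 (5, 4, 4) (.leaf 40 272) (.spV 0 1 6 1 (19, 19, 16) (.leaf 38 274) (.leaf 38 279)))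
    ((6, 6, 5), (1, 1, 1), (3, 2, 2))
    ((13, 13, 10), (1, 1, 1), (36, 35, 31)) 8 16 = true := by decide +kernel

def partB10_9 : chkT datB10 [] (.spU 2 1 1 1 (6, 5, 4) (.spU 1 2 1 3 (4, 4, 3) (.spV 0 1 6 1 (25, 25, 22) (.leaf 42 281) (.leaf 42 288)) (.leaf 39 274)) (.leaf 41 276))
    ((3, 3, 2), (6, 6, 5), (3, 2, 2))
    ((19, 19, 16), (1, 1, 1), (36, 35, 31)) 0 8 = true := by decide +kernel

def partB10_15 : chkT datB10 [] (.leaf 35 265)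
    ((5, 5, 2), (3, 3, 2), (2, 1, 1))
    ((13, 13, 10), (1, 1, 1), (36, 35, 31)) 32 48 = true := by decide +kernel

def partB10_18 : chkT datB10 [] (.spS 32 (.spU 2 1 1 3 (4, 3, 1) (.leaf 37 265) (.leaf 35 265)) (.leaf 39 266))
    ((7, 4, 1), (1, 1, 0), (5, 5, 2))
    ((13, 13, 10), (1, 1, 1), (36, 35, 31)) 0 64 = true := by decide +kernel

def partB10_20 : chkT datB10 [] (.spU 2 1 1 3 (4, 3, 1) (.leaf 46 275) (.spS 16 (.spU 2 1 2 3 (9, 5, 2) (.leaf 45 272) (.leaf 49 276)) (.spU 2 1 2 3 (9, 5, 2) (.leaf 45 272) (.leaf 49 276))))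
    ((5, 5, 2), (13, 7, 4), (7, 4, 1))
    ((13, 13, 10), (1, 1, 1), (36, 35, 31)) 0 32 = true := by decide +kernel

def partB10_21 : chkT datB10 [] (.spU 2 1 2 1 (13, 7, 4) (.leaf 47 273) (.leaf 48 275))
    ((4, 1, 1), (7, 4, 1), (5, 5, 2))
    ((13, 13, 10), (1, 1, 1), (36, 35, 31)) 32 64 = true := by decide +kernel

def partB10_27 : chkT datB10 [] (.leaf 32 268)
    ((1, 1, 1), (2, 1, 1), (5, 5, 2))
    ((36, 35, 31), (1, 1, 1), (24, 23, 22)) 16 32 = true := by decide +kernel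

end Vale.Agent.P154.Sep2
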