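import Mathlib
import Vale.Agent.P154.PMR
import Vale.Agent.P154.B10Data
import Vale.Agent.P154.B10M1

namespace Vale.Agent.P154.Sep2

def partB10_4 : chkT datB10 [] (.spV 0 1 6 1 (19, 19, 16) (.leaf 40 276) (.leaf 40 281))
    ((5, 4, 4), (3, 2, 2), (6, 6, 5))
    ((13, 13, 10), (1, 1, 1), (36, 35, 31)) 0 8 = true := by decide +kernel

def partB10_10 : chkT datB10 [] (.spU 2 1 1 1 (6, 5, 4) (.spU 1 2 1 3 (4, 4, 3) (.leaf 42 283) (.leaf 39 280)) (.leaf 41 282))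
    ((3, 3, 2), (6, 6, 5), (3, 2, 2))
    ((13, 13, 10), (19, 19, 16), (36, 35, 31)) 0 8 = true := by decide +kernel

def partB10_17 : chkT datB10 [] (.spV 0 1 6 1 (19, 19, 16) (.leaf 35 268) (.spU 2 3 1 1 (11, 8, 5) (.spU 1 2 3 1 (19, 19, 10) (.leaf 52 291) (.leaf 53 292)) (.leaf 42 280)))
    ((5, 5, 2), (3, 3, 2), (2, 1, 1))
    ((13, 13, 10), (1, 1, 1), (36, 35, 31)) 56 64 = true := by decide +kernel

def partB10_19 : chkT datB10 [] (.leaf 47 274)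
    ((13, 7, 4), (4, 1, 1), (7, 4, 1))
    ((13, 13, 10), (1, 1, 1), (36, 35, 31)) 0 32 = true := by decide +kernel

def partB10_22 : chkT datB10 [] (.spU 1 2 1 1 (3, 1, 0) (.spU 1 3 1 1 (7, 4, 1) (.leaf 40 271) (.leaf 36 268)) (.leaf 32 261))
    ((4, 1, 1), (1, 0, 0), (1, 1, 0))
    ((36, 35, 31), (1, 1, 1), (24, 23, 22)) 0 64 = true := by decide +kernel

def partB10_23 : chkT datB10 [] (.spU 1 2 1 1 (13, 7, 4) (.leaf 45 279) (.leaf 44 277))
    ((2, 1, 1), (4, 1, 1), (5, 5, 2))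
    ((36, 35, 31), (1, 1, 1), (24, 23, 22)) 0 64 = true := by decide +kernel

def partB10_25 : chkT datB10 [] (.spS 8 (.spU 2 1 3 1 (6, 6, 5) (.spS 4 (.spV 0 1 6 1 (42, 41, 37) (.leaf 35 276) (.leaf 35 288)) (.leaf 35 273)) (.leaf 38 276)) (.leaf 30 268))
    ((1, 1, 1), (3, 2, 2), (3, 3, 2))
    ((36, 35, 31), (1, 1, 1), (24, 23, 22)) 0 16 = true := by decide +kernel

def partB10_28 : chkT datB10 [] (.leaf 32 268)
    ((1, 1, 1), (2, 1, 1), (5, 5, 2))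
    ((36, 35, 31), (1, 1, 1), (24, 23, 22)) 32 64 = true := by decide +kernel

end Vale.Agent.P154.Sep2
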