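import Mathlib
import Vale.Agent.P154.C3Data

namespace Vale.Agent.P154.Sep2

theorem partC3_1 : chkT datC3 [] (.spV 1 3 2 1 (5, 5, 2) (.spV 0 1 4 3 (3, 3, 2) (.leaf 41 317) (.spU 2 1 1 1 (11, 9, 5) (.spV 0 2 3 1 (19, 19, 10) (.leaf 45 326) (.leaf 45 326)) (.spV 0 2 3 1 (19, 19, 10) (.spV 0 1 6 1 (37, 37, 22) (.leaf 45 329) (.leaf 45 332)) (.leaf 45 326)))) (.leaf 41 317))
    ((6, 4, 3), (4, 2, 1), (5, 5, 2))
    ((107, 106, 74), (1, 1, 0), (1, 1, 1)) 0 16 = true := by decide +kernel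

theorem partC3_2 : chkT datC3 [] (.leaf 48 326)
    ((12, 10, 7), (3, 3, 2), (10, 8, 7))
    ((3, 3, 2), (1, 1, 1), (107, 106, 74)) 0 16 = true := by decide +kernel

theorem partC3_8 : chkT datC3 [] (.spV 1 1 1 1 (108, 107, 75) (.leaf 57 355) (.spV 0 1 1 1 (109, 108, 76) (.leaf 57 356) (.spV 0 1 1 1 (110, 109, 77) (.leaf 57 356) (.spU 1 1 2 1 (28, 26, 23) (.spU 1 3 1 2 (20, 19, 17) (.leaf 64 344) (.leaf 60 340)) (.leaf 63 343)))))
    ((22, 20, 19), (16, 14, 13), (6, 6, 5))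
    ((6, 6, 5), (1, 1, 1), (107, 106, 74)) 8 16 = true := by decide +kernel

theorem partC3_14 : chkT datC3 [] (.leaf 45 342)
    ((4, 4, 3), (6, 6, 5), (10, 8, 7))
    ((108, 107, 75), (107, 106, 74), (6, 6, 5)) 0 4 = true := by decide +kernel

theorem partC3_32 : chkT datC3 [] (.spV 0 1 6 1 (37, 37, 22) (.spU 2 1 1 1 (11, 9, 5) (.spU 1 4 1 1 (42, 40, 19) (.leaf 64 354) (.leaf 61 351)) (.leaf 55 345)) (.spU 2 1 1 1 (11, 9, 5) (.leaf 54 347) (.leaf 55 347)))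
    ((5, 5, 2), (22, 20, 11), (6, 4, 3))
    ((19, 19, 10), (3, 3, 2), (137, 136, 86)) 4 8 = true := by decide +kernel

theorem partC3_71 : chkT datC3 [] (.leaf 58 336)
    ((16, 14, 13), (22, 20, 19), (9, 8, 8))
    ((6, 6, 5), (1, 1, 1), (107, 106, 74)) 0 8 = true := by decide +kernel

theorem partC3_73 : chkT datC3 [] (.spV 1 1 1 1 (108, 107, 75) (.leaf 58 356) (.spU 2 2 1 1 (34, 30, 29) (.spU 1 3 2 1 (92, 82, 77) (.leaf 74 354) (.leaf 74 353)) (.leaf 62 342)))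
    ((16, 14, 13), (22, 20, 19), (9, 8, 8))
    ((6, 6, 5), (1, 1, 1), (107, 106, 74)) 8 16 = true := by decide +kernel

theorem partC3_117 : chkT datC3 [] (.leaf 35 330)
    ((3, 2, 2), (2, 1, 1), (5, 5, 2))
    ((105, 104, 74), (106, 105, 74), (1, 1, 1)) 0 16 = true := by decide +kernel

theorem partC3_152 : chkT datC3 [] (.spU 1 2 1 1 (3, 1, 0) (.spU 0 1 2 1 (5, 3, 0) (.leaf 35 326) (.leaf 37 327)) (.leaf 32 320))
    ((4, 1, 1), (1, 0, 0), (1, 1, 0))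
    ((102, 101, 74), (103, 102, 74), (1, 1, 1)) 0 16 = true := by decide +kernel

theorem partC3_162 : chkT datC3 [] (.leaf 36 329)
    ((2, 1, 1), (4, 1, 1), (5, 5, 2))
    ((101, 100, 74), (102, 101, 74), (1, 1, 1)) 0 16 = true := by decide +kernel

theorem partC3_197 : chkT datC3 [] (.leaf 35 328)
    ((3, 2, 2), (2, 1, 1), (5, 5, 2))
    ((97, 96, 74), (98, 97, 74), (1, 1, 1)) 0 16 = true := by decide +kernel

theorem partC3_227 : chkT datC3 [] (.leaf 35 327)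
    ((3, 2, 2), (2, 1, 1), (5, 5, 2))
    ((93, 92, 74), (94, 93, 74), (1, 1, 1)) 0 16 = true := by decide +kernel

end Vale.Agent.P154.Sep2
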