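import Mathlib
import Vale.Agent.P154.C3Data

namespace Vale.Agent.P154.Sep2

theorem partC3_3 : chkT datC3 [] (.spS 8 (.spU 2 1 2 1 (22, 16, 13) (.spU 1 2 1 1 (24, 18, 13) (.spV 0 1 3 1 (6, 6, 5) (.leaf 60 337) (.leaf 60 338)) (.spV 0 1 3 1 (6, 6, 5) (.leaf 59 336) (.leaf 59 336))) (.spV 0 1 3 1 (6, 6, 5) (.leaf 56 334) (.leaf 56 334))) (.leaf 50 327))
    ((6, 4, 3), (12, 10, 7), (10, 8, 7))
    ((3, 3, 2), (1, 1, 1), (107, 106, 74)) 0 16 = true := by decide +kernel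

theorem partC3_5 : chkT datC3 [] (.leaf 57 336)
    ((22, 20, 19), (16, 14, 13), (6, 6, 5))
    ((6, 6, 5), (1, 1, 1), (107, 106, 74)) 0 8 = true := by decide +kernel

theorem partC3_15 : chkT datC3 [] (.leaf 45 343)
    ((4, 4, 3), (6, 6, 5), (10, 8, 7))
    ((109, 108, 76), (108, 107, 75), (6, 6, 5)) 0 4 = true := by decide +kernel

theorem partC3_18 : chkT datC3 [] (.spV 1 1 1 1 (108, 107, 75) (.leaf 45 343) (.spV 0 1 1 1 (109, 108, 76) (.leaf 45 343) (.spV 0 1 1 1 (110, 109, 77) (.leaf 45 343) (.spV 0 1 1 1 (111, 110, 78) (.leaf 45 344) (.spV 0 1 1 1 (112, 111, 79) (.leaf 45 344) (.leaf 45 325))))))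
    ((4, 4, 3), (6, 6, 5), (10, 8, 7))
    ((6, 6, 5), (1, 1, 1), (107, 106, 74)) 4 8 = true := by decide +kernel

theorem partC3_46 : chkT datC3 [] (.spV 0 1 6 1 (55, 55, 34) (.spV 0 1 6 1 (73, 73, 46) (.spU 1 2 1 1 (46, 40, 25) (.spU 0 1 2 1 (90, 80, 47) (.leaf 75 371) (.leaf 77 373)) (.leaf 68 365)) (.leaf 65 367)) (.leaf 65 363))
    ((43, 39, 24), (12, 10, 7), (22, 20, 11))
    ((37, 37, 22), (3, 3, 2), (137, 136, 86)) 8 16 = true := by decide +kernel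

theorem partC3_76 : chkT datC3 [] (.leaf 44 322)
    ((6, 4, 3), (10, 8, 7), (3, 2, 2))
    ((6, 6, 5), (1, 1, 1), (107, 106, 74)) 0 16 = true := by decide +kernel

theorem partC3_112 : chkT datC3 [] (.spU 0 2 1 3 (4, 4, 3) (.spU 1 1 1 1 (11, 10, 9) (.leaf 45 343) (.spV 1 1 1 1 (108, 107, 75) (.leaf 46 344) (.leaf 46 355))) (.leaf 38 335))
    ((3, 3, 2), (6, 6, 5), (5, 4, 4))
    ((106, 105, 74), (107, 106, 74), (1, 1, 1)) 8 16 = true := by decide +kernel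

theorem partC3_118 : chkT datC3 [] (.leaf 36 333)
    ((5, 4, 4), (3, 2, 2), (3, 3, 2))
    ((105, 104, 74), (106, 105, 74), (1, 1, 1)) 0 16 = true := by decide +kernel

theorem partC3_161 : chkT datC3 [] (.spU 1 2 1 1 (3, 1, 0) (.spU 0 1 2 1 (5, 3, 0) (.leaf 35 326) (.leaf 37 327)) (.leaf 32 320))
    ((4, 1, 1), (1, 0, 0), (1, 1, 0))
    ((101, 100, 74), (102, 101, 74), (1, 1, 1)) 0 16 = true := by decide +kernel

theorem partC3_163 : chkT datC3 [] (.leaf 35 329)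
    ((3, 2, 2), (2, 1, 1), (5, 5, 2))
    ((101, 100, 74), (102, 101, 74), (1, 1, 1)) 0 16 = true := by decide +kernel

theorem partC3_198 : chkT datC3 [] (.leaf 36 331)
    ((5, 4, 4), (3, 2, 2), (3, 3, 2))
    ((97, 96, 74), (98, 97, 74), (1, 1, 1)) 0 16 = true := by decide +kernel

theorem partC3_229 : chkT datC3 [] (.leaf 37 330)
    ((5, 5, 2), (3, 3, 2), (3, 2, 2))
    ((93, 92, 74), (94, 93, 74), (1, 1, 1)) 0 16 = true := by decide +kernel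

end Vale.Agent.P154.Sep2
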