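import Mathlib
import Vale.Agent.P154.C3Data
import Vale.Agent.P154.C3M1

namespace Vale.Agent.P154.Sep2

theorem partC3_10 : chkT datC3 [] (.leaf 51 350)
    ((1, 1, 1), (22, 20, 19), (6, 6, 5))
    ((109, 108, 76), (108, 107, 75), (6, 6, 5)) 8 16 = true := by decide +kernel

theorem partC3_17 : chkT datC3 [] (.spV 0 1 1 1 (111, 110, 78) (.leaf 45 343) (.spV 0 1 1 1 (112, 111, 79) (.leaf 45 343) (.spS 2 (.spV 0 1 1 1 (113, 112, 80) (.leaf 45 343) (.leaf 45 325)) (.spV 0 1 1 1 (113, 112, 80) (.leaf 45 344) (.spV 0 1 1 1 (114, 113, 81) (.leaf 45 344) (.leaf 45 325))))))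
    ((4, 4, 3), (6, 6, 5), (10, 8, 7))
    ((1, 1, 1), (110, 109, 77), (6, 6, 5)) 0 4 = true := by decide +kernel

theorem partC3_25 : chkT datC3 [] (.leaf 40 319)
    ((1, 1, 1), (10, 8, 7), (3, 3, 2))
    ((5, 5, 2), (3, 3, 2), (107, 106, 74)) 0 16 = true := by decide +kernel

theorem partC3_28 : chkT datC3 [] (.spU 2 1 2 1 (24, 18, 13) (.leaf 64 350) (.spV 0 1 6 1 (37, 37, 22) (.spV 0 1 6 1 (55, 55, 34) (.spV 0 1 6 1 (73, 73, 46) (.spV 0 1 6 1 (91, 91, 58) (.leaf 65 363) (.leaf 65 370)) (.leaf 65 367)) (.leaf 65 362)) (.leaf 65 357)))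
    ((6, 4, 3), (46, 36, 23), (12, 10, 7))
    ((19, 19, 10), (3, 3, 2), (137, 136, 86)) 0 8 = true := by decide +kernel

theorem partC3_78 : chkT datC3 [] (.spV 0 2 1 3 (4, 4, 3) (.leaf 51 329) (.spV 0 1 1 1 (7, 7, 5) (.leaf 51 329) (.spU 2 2 1 1 (12, 8, 7) (.leaf 55 332) (.spU 0 4 1 1 (24, 16, 15) (.leaf 60 338) (.leaf 58 336)))))
    ((6, 4, 3), (22, 16, 13), (3, 2, 2))
    ((3, 3, 2), (6, 6, 5), (107, 106, 74)) 0 8 = true := by decide +kernel

theorem partC3_86 : chkT datC3 [] (.leaf 46 323)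
    ((6, 4, 3), (10, 8, 7), (5, 4, 4))
    ((1, 1, 0), (5, 5, 2), (107, 106, 74)) 0 16 = true := by decide +kernel

theorem partC3_123 : chkT datC3 [] (.leaf 42 352)
    ((1, 1, 1), (9, 8, 8), (6, 6, 5))
    ((108, 107, 77), (107, 106, 76), (106, 105, 74)) 8 16 = true := by decide +kernel

theorem partC3_147 : chkT datC3 [] (.spS 4 (.spU 0 6 1 1 (15, 14, 14) (.leaf 51 347) (.spV 2 1 1 1 (104, 103, 75) (.leaf 47 355) (.leaf 47 343))) (.leaf 42 339))
    ((1, 1, 1), (9, 8, 8), (6, 6, 5))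
    ((103, 102, 74), (104, 103, 74), (1, 1, 1)) 0 8 = true := by decide +kernel

theorem partC3_169 : chkT datC3 [] (.leaf 35 328)
    ((1, 1, 0), (5, 5, 2), (4, 1, 1))
    ((101, 100, 74), (102, 101, 74), (1, 1, 1)) 0 16 = true := by decide +kernel

theorem partC3_203 : chkT datC3 [] (.leaf 27 315)
    ((4, 1, 1), (1, 0, 0), (1, 1, 0))
    ((96, 95, 74), (97, 96, 74), (1, 1, 1)) 0 16 = true := by decide +kernel

theorem partC3_215 : chkT datC3 [] (.spS 8 (.spS 4 (.leaf 38 331) (.leaf 38 332)) (.leaf 38 332))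
    ((3, 3, 2), (6, 6, 5), (3, 2, 2))
    ((95, 94, 74), (96, 95, 74), (1, 1, 1)) 0 16 = true := by decide +kernel

theorem partC3_232 : chkT datC3 [] (.leaf 36 318)
    ((2, 1, 1), (4, 1, 1), (5, 5, 2))
    ((93, 92, 74), (1, 1, 1), (42, 41, 36)) 0 16 = true := by decide +kernel

end Vale.Agent.P154.Sep2
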