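import Mathlib
import Vale.Agent.P154.C3Data
import Vale.Agent.P154.C3M4

namespace Vale.Agent.P154.Sep2

theorem partC3_34 : chkT datC3 [] (.spS 4 (.leaf 47 346) (.leaf 47 347))
    ((12, 10, 7), (6, 4, 3), (5, 5, 2))
    ((107, 106, 74), (137, 136, 86), (3, 3, 2)) 0 8 = true := by decide +kernel

theorem partC3_38 : chkT datC3 [] (.leaf 53 342)
    ((19, 19, 10), (3, 3, 2), (12, 10, 7))
    ((19, 19, 10), (37, 37, 22), (107, 106, 74)) 0 16 = true := by decide +kernel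

theorem partC3_52 : chkT datC3 [] (.spV 0 1 3 1 (6, 6, 5) (.spV 1 1 1 1 (108, 107, 75) (.leaf 41 337) (.spV 0 1 1 1 (109, 108, 76) (.leaf 41 337) (.spV 0 1 1 1 (110, 109, 77) (.leaf 41 338) (.spV 0 1 1 1 (111, 110, 78) (.leaf 41 338) (.spV 0 1 1 1 (112, 111, 79) (.leaf 41 338) (.leaf 41 319)))))) (.leaf 41 318))
    ((9, 7, 0), (1, 1, 0), (5, 5, 2))
    ((3, 3, 2), (1, 1, 1), (107, 106, 74)) 0 16 = true := by decide +kernel

theorem partC3_80 : chkT datC3 [] (.spU 1 1 1 1 (3, 2, 2) (.leaf 36 313) (.spU 2 1 4 1 (10, 8, 7) (.spU 1 2 1 1 (5, 4, 4) (.leaf 43 322) (.leaf 42 321)) (.spS 8 (.spU 0 2 1 1 (22, 16, 13) (.leaf 53 330) (.leaf 51 328)) (.leaf 44 322))))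
    ((6, 4, 3), (1, 1, 1), (2, 1, 1))
    ((5, 5, 2), (3, 3, 2), (107, 106, 74)) 0 16 = true := by decide +kernel

theorem partC3_85 : chkT datC3 [] (.spU 1 1 1 1 (19, 16, 15) (.leaf 51 329) (.leaf 51 329))
    ((1, 1, 1), (9, 8, 8), (10, 8, 7))
    ((1, 1, 0), (5, 5, 2), (107, 106, 74)) 0 16 = true := by decide +kernel

theorem partC3_90 : chkT datC3 [] (.leaf 35 338)
    ((5, 3, 0), (1, 1, 0), (4, 1, 1))
    ((107, 106, 74), (108, 107, 75), (106, 105, 74)) 0 16 = true := by decide +kernel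

theorem partC3_107 : chkT datC3 [] (.spU 2 2 3 1 (36, 34, 31) (.spU 1 2 1 1 (23, 23, 20) (.leaf 64 362) (.spU 2 1 6 1 (72, 70, 61) (.spV 2 1 1 1 (110, 109, 77) (.leaf 69 368) (.leaf 69 379)) (.leaf 73 371))) (.leaf 60 359))
    ((6, 6, 5), (11, 11, 10), (9, 8, 8))
    ((1, 1, 1), (108, 107, 76), (109, 108, 76)) 14 16 = true := by decide +kernel

theorem partC3_133 : chkT datC3 [] (.leaf 35 330)
    ((3, 2, 2), (2, 1, 1), (5, 5, 2))
    ((104, 103, 74), (105, 104, 74), (1, 1, 1)) 0 16 = true := by decide +kernel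

theorem partC3_173 : chkT datC3 [] (.leaf 36 332)
    ((5, 4, 4), (3, 2, 2), (3, 3, 2))
    ((100, 99, 74), (101, 100, 74), (1, 1, 1)) 0 16 = true := by decide +kernel

theorem partC3_184 : chkT datC3 [] (.spS 8 (.spU 0 2 1 3 (4, 4, 3) (.spS 4 (.leaf 41 336) (.leaf 41 336)) (.leaf 38 333)) (.leaf 40 336))
    ((3, 3, 2), (6, 6, 5), (5, 4, 4))
    ((99, 98, 74), (100, 99, 74), (1, 1, 1)) 0 16 = true := by decide +kernel

theorem partC3_209 : chkT datC3 [] (.leaf 37 330)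
    ((5, 5, 2), (3, 3, 2), (3, 2, 2))
    ((96, 95, 74), (97, 96, 74), (1, 1, 1)) 0 16 = true := by decide +kernel

theorem partC3_236 : chkT datC3 [] (.leaf 27 292)
    ((4, 1, 1), (1, 0, 0), (1, 1, 0))
    ((42, 41, 36), (1, 1, 1), (43, 41, 39)) 0 16 = true := by decide +kernel

end Vale.Agent.P154.Sep2
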