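import Mathlib
import Vale.Agent.P154.C3Data
import Vale.Agent.P154.C3M7

namespace Vale.Agent.P154.Sep2

theorem partC3_0 : chkT datC3 [] (.spV 1 3 2 1 (5, 5, 2) (.spV 0 1 4 3 (3, 3, 2) (.leaf 37 313) (.leaf 37 313)) (.leaf 37 313))
    ((4, 2, 1), (3, 1, 0), (5, 5, 2))
    ((107, 106, 74), (1, 1, 0), (1, 1, 1)) 0 16 = true := by decide +kernel

theorem partC3_44 : chkT datC3 [] (.leaf 59 344)
    ((12, 10, 7), (22, 20, 11), (19, 19, 10))
    ((137, 136, 86), (5, 5, 2), (3, 3, 2)) 0 8 = true := by decide +kernel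

theorem partC3_55 : chkT datC3 [] (.spV 1 3 2 1 (5, 5, 2) (.spV 0 1 4 3 (3, 3, 2) (.leaf 44 320) (.leaf 44 321)) (.leaf 44 320))
    ((5, 3, 0), (9, 7, 0), (5, 5, 2))
    ((107, 106, 74), (1, 1, 0), (1, 1, 1)) 0 16 = true := by decide +kernel

theorem partC3_89 : chkT datC3 [] (.spV 0 1 1 1 (109, 108, 76) (.spV 0 1 1 1 (110, 109, 77) (.spV 1 1 1 1 (107, 106, 75) (.leaf 35 339) (.spV 2 1 1 1 (111, 110, 78) (.spV 1 1 1 1 (108, 107, 76) (.leaf 35 339) (.spV 0 1 1 1 (109, 108, 77) (.leaf 35 339) (.leaf 35 328))) (.leaf 35 339))) (.leaf 35 339)) (.leaf 35 339))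
    ((5, 3, 0), (1, 1, 0), (4, 1, 1))
    ((108, 107, 75), (1, 1, 1), (106, 105, 74)) 0 16 = true := by decide +kernel

theorem partC3_94 : chkT datC3 [] (.leaf 35 331)
    ((3, 2, 2), (2, 1, 1), (5, 5, 2))
    ((106, 105, 74), (107, 106, 74), (1, 1, 1)) 0 16 = true := by decide +kernel

theorem partC3_97 : chkT datC3 [] (.spV 1 1 1 1 (108, 107, 75) (.spV 0 1 1 1 (109, 108, 76) (.spV 1 1 1 1 (107, 106, 75) (.leaf 49 359) (.spV 2 1 1 1 (110, 109, 77) (.spU 1 3 2 1 (36, 34, 31) (.leaf 60 359) (.leaf 60 358)) (.leaf 49 359))) (.leaf 49 359)) (.leaf 49 359))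
    ((11, 10, 9), (6, 6, 5), (9, 8, 8))
    ((106, 105, 74), (107, 106, 74), (1, 1, 1)) 8 16 = true := by decide +kernel

theorem partC3_132 : chkT datC3 [] (.spU 1 2 1 1 (13, 7, 4) (.leaf 45 339) (.leaf 44 336))
    ((2, 1, 1), (4, 1, 1), (5, 5, 2))
    ((104, 103, 74), (105, 104, 74), (1, 1, 1)) 0 16 = true := by decide +kernel

theorem partC3_136 : chkT datC3 [] (.spS 4 (.spU 0 6 1 1 (15, 14, 14) (.spV 1 1 1 1 (106, 105, 75) (.leaf 51 348) (.leaf 51 359)) (.spS 2 (.leaf 47 343) (.leaf 47 343))) (.leaf 42 339))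
    ((1, 1, 1), (9, 8, 8), (6, 6, 5))
    ((104, 103, 74), (105, 104, 74), (1, 1, 1)) 0 8 = true := by decide +kernel

theorem partC3_141 : chkT datC3 [] (.leaf 35 329)
    ((1, 1, 0), (5, 5, 2), (4, 1, 1))
    ((104, 103, 74), (105, 104, 74), (1, 1, 1)) 0 16 = true := by decide +kernel

theorem partC3_180 : chkT datC3 [] (.leaf 36 329)
    ((2, 1, 1), (4, 1, 1), (5, 5, 2))
    ((99, 98, 74), (100, 99, 74), (1, 1, 1)) 0 16 = true := by decide +kernel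

theorem partC3_212 : chkT datC3 [] (.leaf 36 328)
    ((2, 1, 1), (4, 1, 1), (5, 5, 2))
    ((95, 94, 74), (96, 95, 74), (1, 1, 1)) 0 16 = true := by decide +kernel

end Vale.Agent.P154.Sep2
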