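import Mathlib
import Vale.Agent.P154.C3Data

namespace Vale.Agent.P154.Sep2

theorem partC3_4 : chkT datC3 [] (.spV 0 1 3 1 (6, 6, 5) (.spS 8 (.leaf 52 330) (.spV 1 1 1 1 (108, 107, 75) (.leaf 52 350) (.spV 0 1 1 1 (109, 108, 76) (.leaf 52 350) (.leaf 52 332)))) (.spU 1 2 3 1 (38, 34, 29) (.spV 0 2 1 3 (4, 4, 3) (.leaf 61 341) (.leaf 61 340)) (.leaf 62 341)))
    ((16, 14, 13), (10, 8, 7), (6, 6, 5))
    ((3, 3, 2), (1, 1, 1), (107, 106, 74)) 0 16 = true := by decide +kernel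

theorem partC3_7 : chkT datC3 [] (.leaf 51 330)
    ((1, 1, 1), (22, 20, 19), (6, 6, 5))
    ((6, 6, 5), (1, 1, 1), (107, 106, 74)) 4 8 = true := by decide +kernel

theorem partC3_16 : chkT datC3 [] (.leaf 45 343)
    ((4, 4, 3), (6, 6, 5), (10, 8, 7))
    ((110, 109, 77), (109, 108, 76), (6, 6, 5)) 0 4 = true := by decide +kernel

theorem partC3_23 : chkT datC3 [] (.spS 4 (.spU 0 2 1 1 (24, 18, 13) (.leaf 57 334) (.spU 2 1 2 1 (22, 16, 13) (.leaf 59 335) (.leaf 60 337))) (.spU 0 2 1 1 (24, 18, 13) (.spV 0 2 3 1 (19, 19, 10) (.leaf 57 338) (.leaf 57 338)) (.leaf 55 332)))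
    ((6, 4, 3), (12, 10, 7), (10, 8, 7))
    ((5, 5, 2), (3, 3, 2), (107, 106, 74)) 0 8 = true := by decide +kernel

theorem partC3_65 : chkT datC3 [] (.spV 0 1 3 1 (6, 6, 5) (.leaf 43 322) (.spV 0 2 1 3 (4, 4, 3) (.leaf 43 323) (.spS 8 (.spV 0 1 1 1 (7, 7, 5) (.leaf 43 322) (.leaf 43 322)) (.leaf 43 322))))
    ((5, 4, 4), (3, 2, 2), (10, 8, 7))
    ((3, 3, 2), (1, 1, 1), (107, 106, 74)) 0 16 = true := by decide +kernel

theorem partC3_79 : chkT datC3 [] (.leaf 44 323)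
    ((6, 4, 3), (10, 8, 7), (3, 2, 2))
    ((3, 3, 2), (6, 6, 5), (107, 106, 74)) 8 16 = true := by decide +kernel

theorem partC3_121 : chkT datC3 [] (.leaf 42 351)
    ((1, 1, 1), (9, 8, 8), (6, 6, 5))
    ((106, 105, 75), (105, 104, 74), (106, 105, 74)) 8 16 = true := by decide +kernel

theorem partC3_130 : chkT datC3 [] (.spV 2 1 1 1 (106, 105, 75) (.leaf 35 341) (.spV 2 1 1 1 (107, 106, 75) (.spV 0 1 1 1 (108, 107, 76) (.leaf 35 329) (.leaf 35 341)) (.leaf 35 341)))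
    ((1, 1, 0), (5, 5, 2), (4, 1, 1))
    ((105, 104, 74), (106, 105, 74), (1, 1, 1)) 0 16 = true := by decide +kernel

theorem partC3_164 : chkT datC3 [] (.leaf 36 332)
    ((5, 4, 4), (3, 2, 2), (3, 3, 2))
    ((101, 100, 74), (102, 101, 74), (1, 1, 1)) 0 16 = true := by decide +kernel

theorem partC3_200 : chkT datC3 [] (.spS 8 (.spU 0 2 1 3 (4, 4, 3) (.leaf 41 336) (.leaf 38 332)) (.leaf 40 335))
    ((3, 3, 2), (6, 6, 5), (5, 4, 4))
    ((97, 96, 74), (98, 97, 74), (1, 1, 1)) 0 16 = true := by decide +kernel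

theorem partC3_201 : chkT datC3 [] (.leaf 37 331)
    ((5, 5, 2), (3, 3, 2), (3, 2, 2))
    ((97, 96, 74), (98, 97, 74), (1, 1, 1)) 0 16 = true := by decide +kernel

theorem partC3_230 : chkT datC3 [] (.leaf 35 326)
    ((1, 1, 0), (5, 5, 2), (4, 1, 1))
    ((93, 92, 74), (94, 93, 74), (1, 1, 1)) 0 16 = true := by decide +kernel

end Vale.Agent.P154.Sep2
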