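import Mathlib
import Vale.Agent.P154.C3Data
import Vale.Agent.P154.C3M2

namespace Vale.Agent.P154.Sep2

theorem partC3_20 : chkT datC3 [] (.spU 0 2 1 3 (4, 4, 3) (.leaf 45 324) (.leaf 43 322))
    ((3, 3, 2), (6, 6, 5), (10, 8, 7))
    ((6, 6, 5), (1, 1, 1), (107, 106, 74)) 8 16 = true := by decide +kernel

theorem partC3_33 : chkT datC3 [] (.leaf 47 334)
    ((12, 10, 7), (6, 4, 3), (5, 5, 2))
    ((5, 5, 2), (19, 19, 10), (137, 136, 86)) 0 8 = true := by decide +kernel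

theorem partC3_35 : chkT datC3 [] (.spV 0 2 3 1 (19, 19, 10) (.spV 0 1 6 1 (37, 37, 22) (.spU 1 1 1 1 (11, 9, 5) (.spV 0 1 6 1 (55, 55, 34) (.spV 0 1 6 1 (73, 73, 46) (.leaf 50 341) (.leaf 50 349)) (.spU 0 1 2 1 (21, 19, 9) (.leaf 54 348) (.leaf 56 350))) (.leaf 50 335)) (.leaf 47 335)) (.leaf 47 329))
    ((12, 10, 7), (6, 4, 3), (5, 5, 2))
    ((5, 5, 2), (3, 3, 2), (107, 106, 74)) 8 16 = true := by decide +kernel

theorem partC3_69 : chkT datC3 [] (.spS 2 (.spU 2 1 6 1 (28, 26, 25) (.spV 1 1 1 1 (108, 107, 75) (.leaf 57 354) (.spV 0 1 1 1 (109, 108, 76) (.leaf 57 355) (.leaf 57 336))) (.leaf 63 341)) (.spU 2 1 6 1 (28, 26, 25) (.leaf 57 336) (.leaf 63 341)))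
    ((1, 1, 1), (15, 14, 14), (22, 20, 19))
    ((6, 6, 5), (1, 1, 1), (107, 106, 74)) 0 4 = true := by decide +kernel

theorem partC3_75 : chkT datC3 [] (.spV 0 1 3 1 (6, 6, 5) (.leaf 51 330) (.leaf 51 331))
    ((10, 8, 7), (16, 14, 13), (5, 4, 4))
    ((3, 3, 2), (1, 1, 1), (107, 106, 74)) 0 16 = true := by decide +kernel

theorem partC3_87 : chkT datC3 [] (.leaf 37 313)
    ((4, 2, 1), (6, 4, 3), (2, 1, 1))
    ((1, 1, 0), (5, 5, 2), (107, 106, 74)) 0 16 = true := by decide +kernel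

theorem partC3_98 : chkT datC3 [] (.spU 2 1 2 1 (19, 16, 16) (.leaf 53 351) (.spV 1 1 1 1 (108, 107, 75) (.spV 0 1 1 1 (109, 108, 76) (.spV 0 1 1 1 (110, 109, 77) (.leaf 55 353) (.leaf 55 365)) (.leaf 55 364)) (.leaf 55 364)))
    ((5, 4, 4), (11, 10, 9), (9, 8, 8))
    ((106, 105, 74), (107, 106, 74), (1, 1, 1)) 8 16 = true := by decide +kernel

theorem partC3_124 : chkT datC3 [] (.leaf 42 352)
    ((1, 1, 1), (9, 8, 8), (6, 6, 5))
    ((109, 108, 78), (108, 107, 77), (106, 105, 74)) 8 16 = true := by decide +kernel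

theorem partC3_148 : chkT datC3 [] (.spU 2 1 5 1 (11, 11, 10) (.spV 1 1 1 1 (105, 104, 75) (.spV 0 1 1 1 (106, 105, 76) (.leaf 46 344) (.leaf 46 355)) (.leaf 46 355)) (.leaf 49 346))
    ((1, 1, 1), (9, 8, 8), (6, 6, 5))
    ((103, 102, 74), (104, 103, 74), (1, 1, 1)) 8 16 = true := by decide +kernel

theorem partC3_171 : chkT datC3 [] (.leaf 36 329)
    ((2, 1, 1), (4, 1, 1), (5, 5, 2))
    ((100, 99, 74), (101, 100, 74), (1, 1, 1)) 0 16 = true := by decide +kernel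

theorem partC3_204 : chkT datC3 [] (.leaf 36 328)
    ((2, 1, 1), (4, 1, 1), (5, 5, 2))
    ((96, 95, 74), (97, 96, 74), (1, 1, 1)) 0 16 = true := by decide +kernel

theorem partC3_233 : chkT datC3 [] (.leaf 35 318)
    ((3, 2, 2), (2, 1, 1), (5, 5, 2))
    ((93, 92, 74), (1, 1, 1), (42, 41, 36)) 0 16 = true := by decide +kernel

end Vale.Agent.P154.Sep2
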