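import Mathlib
import Vale.Agent.P154.C3Data
import Vale.Agent.P154.C3M5

namespace Vale.Agent.P154.Sep2

theorem partC3_39 : chkT datC3 [] (.leaf 53 335)
    ((19, 19, 10), (3, 3, 2), (12, 10, 7))
    ((5, 5, 2), (19, 19, 10), (107, 106, 74)) 0 16 = true := by decide +kernel

theorem partC3_45 : chkT datC3 [] (.spV 0 1 6 1 (37, 37, 22) (.leaf 57 348) (.leaf 57 351))
    ((22, 20, 11), (5, 5, 2), (19, 19, 10))
    ((19, 19, 10), (3, 3, 2), (137, 136, 86)) 8 16 = true := by decide +kernel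

theorem partC3_60 : chkT datC3 [] (.spV 0 2 1 3 (4, 4, 3) (.leaf 45 320) (.spV 0 1 1 1 (7, 7, 5) (.spU 0 6 1 1 (26, 11, 11) (.leaf 56 332) (.leaf 52 327)) (.spU 0 6 1 1 (26, 11, 11) (.leaf 56 331) (.spU 1 1 6 1 (50, 23, 17) (.leaf 60 335) (.spU 0 2 1 3 (34, 15, 13) (.leaf 66 341) (.leaf 61 337))))))
    ((2, 1, 1), (14, 5, 5), (4, 2, 1))
    ((3, 3, 2), (6, 6, 5), (107, 106, 74)) 0 16 = true := by decide +kernel

theorem partC3_83 : chkT datC3 [] (.spU 1 2 1 1 (12, 8, 7) (.spU 2 2 1 1 (22, 16, 15) (.leaf 55 332) (.leaf 52 330)) (.spV 2 1 1 1 (108, 107, 74) (.spV 0 1 1 1 (109, 108, 74) (.spV 1 6 1 1 (11, 11, 2) (.leaf 45 325) (.leaf 45 324)) (.leaf 45 342)) (.leaf 45 341)))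
    ((5, 4, 4), (3, 2, 2), (6, 4, 3))
    ((1, 1, 0), (5, 5, 2), (107, 106, 74)) 0 16 = true := by decide +kernel

theorem partC3_91 : chkT datC3 [] (.leaf 37 328)
    ((3, 1, 0), (5, 3, 0), (4, 1, 1))
    ((106, 105, 74), (107, 106, 74), (1, 1, 1)) 0 16 = true := by decide +kernel

theorem partC3_93 : chkT datC3 [] (.spU 1 2 1 1 (13, 7, 4) (.leaf 45 339) (.leaf 44 337))
    ((2, 1, 1), (4, 1, 1), (5, 5, 2))
    ((106, 105, 74), (107, 106, 74), (1, 1, 1)) 0 16 = true := by decide +kernel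

theorem partC3_125 : chkT datC3 [] (.spV 2 1 1 1 (107, 106, 75) (.spV 0 1 1 1 (108, 107, 76) (.spV 1 1 1 1 (110, 109, 79) (.leaf 46 357) (.spV 2 1 1 1 (109, 108, 77) (.leaf 46 345) (.leaf 46 356))) (.leaf 46 356)) (.leaf 46 356))
    ((11, 11, 10), (1, 1, 1), (9, 8, 8))
    ((1, 1, 1), (109, 108, 78), (106, 105, 74)) 8 16 = true := by decide +kernel

theorem partC3_134 : chkT datC3 [] (.leaf 36 333)
    ((5, 4, 4), (3, 2, 2), (3, 3, 2))
    ((104, 103, 74), (105, 104, 74), (1, 1, 1)) 0 16 = true := by decide +kernel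

theorem partC3_177 : chkT datC3 [] (.leaf 37 331)
    ((5, 5, 2), (3, 3, 2), (3, 2, 2))
    ((100, 99, 74), (101, 100, 74), (1, 1, 1)) 0 16 = true := by decide +kernel

theorem partC3_192 : chkT datC3 [] (.spS 8 (.spU 0 2 1 3 (4, 4, 3) (.spU 2 1 1 1 (9, 8, 7) (.leaf 45 340) (.leaf 45 340)) (.leaf 38 333)) (.leaf 40 336))
    ((3, 3, 2), (6, 6, 5), (5, 4, 4))
    ((98, 97, 74), (99, 98, 74), (1, 1, 1)) 0 16 = true := by decide +kernel

theorem partC3_210 : chkT datC3 [] (.leaf 35 327)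
    ((1, 1, 0), (5, 5, 2), (4, 1, 1))
    ((96, 95, 74), (97, 96, 74), (1, 1, 1)) 0 16 = true := by decide +kernel

theorem partC3_238 : chkT datC3 [] (.leaf 35 304)
    ((1, 1, 0), (5, 5, 2), (4, 1, 1))
    ((42, 41, 36), (1, 1, 1), (43, 41, 39)) 0 16 = true := by decide +kernel

end Vale.Agent.P154.Sep2
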