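import Mathlib
import Vale.Agent.P154.C3Data
import Vale.Agent.P154.C3M8

namespace Vale.Agent.P154.Sep2

theorem partC3_13 : chkT datC3 [] (.spU 0 6 1 1 (22, 20, 19) (.spV 0 2 1 3 (4, 4, 3) (.leaf 57 337) (.leaf 57 336)) (.leaf 51 331))
    ((1, 1, 1), (16, 14, 13), (6, 6, 5))
    ((3, 3, 2), (6, 6, 5), (107, 106, 74)) 0 16 = true := by decide +kernel

theorem partC3_48 : chkT datC3 [] (.leaf 59 353)
    ((12, 10, 7), (22, 20, 11), (19, 19, 10))
    ((19, 19, 10), (37, 37, 22), (137, 136, 86)) 8 16 = true := by decide +kernel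

theorem partC3_56 : chkT datC3 [] (.spV 1 3 2 1 (5, 5, 2) (.spV 0 1 4 3 (3, 3, 2) (.leaf 39 314) (.leaf 39 315)) (.leaf 39 314))
    ((3, 1, 0), (5, 3, 0), (5, 5, 2))
    ((107, 106, 74), (1, 1, 0), (1, 1, 1)) 0 16 = true := by decide +kernel

theorem partC3_95 : chkT datC3 [] (.leaf 36 333)
    ((5, 4, 4), (3, 2, 2), (3, 3, 2))
    ((106, 105, 74), (107, 106, 74), (1, 1, 1)) 0 16 = true := by decide +kernel

theorem partC3_100 : chkT datC3 [] (.spS 2 (.spS 1 (.spV 1 1 1 1 (108, 107, 75) (.spV 0 1 1 1 (109, 108, 76) (.leaf 47 344) (.leaf 47 355)) (.leaf 47 355)) (.leaf 47 344)) (.spV 1 1 1 1 (108, 107, 75) (.leaf 47 344) (.leaf 47 356)))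
    ((1, 1, 1), (15, 14, 14), (6, 6, 5))
    ((106, 105, 74), (107, 106, 74), (1, 1, 1)) 0 4 = true := by decide +kernel

theorem partC3_110 : chkT datC3 [] (.spV 1 1 1 1 (108, 107, 75) (.spV 1 1 1 1 (107, 106, 75) (.leaf 41 350) (.spU 2 1 1 1 (9, 8, 7) (.spS 4 (.spU 1 3 2 1 (24, 24, 19) (.leaf 55 352) (.leaf 54 351)) (.spU 1 3 2 1 (24, 24, 19) (.leaf 55 353) (.leaf 54 352))) (.leaf 45 342))) (.leaf 41 350))
    ((4, 4, 3), (6, 6, 5), (5, 4, 4))
    ((106, 105, 74), (107, 106, 74), (1, 1, 1)) 0 8 = true := by decide +kernel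

theorem partC3_139 : chkT datC3 [] (.spU 2 1 2 1 (11, 10, 8) (.leaf 45 342) (.leaf 47 344))
    ((3, 3, 2), (6, 6, 5), (5, 4, 4))
    ((104, 103, 74), (105, 104, 74), (1, 1, 1)) 8 16 = true := by decide +kernel

theorem partC3_143 : chkT datC3 [] (.leaf 36 330)
    ((2, 1, 1), (4, 1, 1), (5, 5, 2))
    ((103, 102, 74), (104, 103, 74), (1, 1, 1)) 0 16 = true := by decide +kernel

theorem partC3_158 : chkT datC3 [] (.spS 8 (.spU 0 2 1 3 (4, 4, 3) (.spS 4 (.spU 2 1 1 1 (9, 8, 7) (.leaf 45 340) (.leaf 45 341)) (.leaf 41 337)) (.leaf 38 334)) (.leaf 40 337))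
    ((3, 3, 2), (6, 6, 5), (5, 4, 4))
    ((102, 101, 74), (103, 102, 74), (1, 1, 1)) 0 16 = true := by decide +kernel

theorem partC3_181 : chkT datC3 [] (.leaf 35 329)
    ((3, 2, 2), (2, 1, 1), (5, 5, 2))
    ((99, 98, 74), (100, 99, 74), (1, 1, 1)) 0 16 = true := by decide +kernel

theorem partC3_213 : chkT datC3 [] (.leaf 35 328)
    ((3, 2, 2), (2, 1, 1), (5, 5, 2))
    ((95, 94, 74), (96, 95, 74), (1, 1, 1)) 0 16 = true := by decide +kernel

end Vale.Agent.P154.Sep2
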