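import Mathlib
import Vale.Agent.P154.C3Data
import Vale.Agent.P154.C3M0

namespace Vale.Agent.P154.Sep2

theorem partC3_6 : chkT datC3 [] (.spU 0 6 1 1 (28, 26, 25) (.leaf 60 339) (.spS 2 (.spS 1 (.spV 1 1 1 1 (108, 107, 75) (.leaf 54 351) (.spV 0 1 1 1 (109, 108, 76) (.leaf 54 351) (.leaf 54 332))) (.leaf 54 332)) (.spU 2 1 5 1 (11, 11, 10) (.leaf 56 334) (.leaf 57 336))))
    ((1, 1, 1), (22, 20, 19), (6, 6, 5))
    ((6, 6, 5), (1, 1, 1), (107, 106, 74)) 0 4 = true := by decide +kernel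

theorem partC3_9 : chkT datC3 [] (.leaf 51 349)
    ((1, 1, 1), (22, 20, 19), (6, 6, 5))
    ((108, 107, 75), (107, 106, 74), (6, 6, 5)) 8 16 = true := by decide +kernel

theorem partC3_19 : chkT datC3 [] (.leaf 43 321)
    ((3, 3, 2), (4, 4, 3), (10, 8, 7))
    ((6, 6, 5), (1, 1, 1), (107, 106, 74)) 0 8 = true := by decide +kernel

theorem partC3_27 : chkT datC3 [] (.spV 0 1 6 1 (37, 37, 22) (.spU 0 1 2 1 (90, 76, 45) (.leaf 71 361) (.spV 0 1 6 1 (55, 55, 34) (.spV 0 1 6 1 (73, 73, 46) (.spV 0 1 6 1 (91, 91, 58) (.leaf 74 371) (.leaf 74 379)) (.leaf 74 375)) (.leaf 74 371))) (.leaf 65 357))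
    ((46, 36, 23), (22, 20, 11), (12, 10, 7))
    ((19, 19, 10), (3, 3, 2), (137, 136, 86)) 0 8 = true := by decide +kernel

theorem partC3_66 : chkT datC3 [] (.spS 8 (.leaf 51 330) (.spU 0 1 2 1 (19, 16, 16) (.leaf 55 334) (.spU 2 1 2 1 (34, 30, 29) (.spU 1 2 1 1 (37, 32, 32) (.leaf 67 346) (.leaf 65 345)) (.leaf 63 342))))
    ((9, 8, 8), (5, 4, 4), (16, 14, 13))
    ((6, 6, 5), (1, 1, 1), (107, 106, 74)) 0 16 = true := by decide +kernel

theorem partC3_82 : chkT datC3 [] (.leaf 36 313)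
    ((3, 2, 2), (2, 1, 1), (6, 4, 3))
    ((1, 1, 0), (5, 5, 2), (107, 106, 74)) 0 16 = true := by decide +kernel

theorem partC3_122 : chkT datC3 [] (.leaf 42 352)
    ((1, 1, 1), (9, 8, 8), (6, 6, 5))
    ((107, 106, 76), (106, 105, 75), (106, 105, 74)) 8 16 = true := by decide +kernel

theorem partC3_135 : chkT datC3 [] (.spS 8 (.leaf 45 342) (.spV 1 1 1 1 (106, 105, 75) (.spU 1 1 1 1 (11, 10, 9) (.leaf 49 346) (.leaf 48 346)) (.leaf 45 354)))
    ((9, 8, 8), (5, 4, 4), (6, 6, 5))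
    ((104, 103, 74), (105, 104, 74), (1, 1, 1)) 0 16 = true := by decide +kernel

theorem partC3_168 : chkT datC3 [] (.leaf 37 332)
    ((5, 5, 2), (3, 3, 2), (3, 2, 2))
    ((101, 100, 74), (102, 101, 74), (1, 1, 1)) 0 16 = true := by decide +kernel

theorem partC3_202 : chkT datC3 [] (.leaf 35 327)
    ((1, 1, 0), (5, 5, 2), (4, 1, 1))
    ((97, 96, 74), (98, 97, 74), (1, 1, 1)) 0 16 = true := by decide +kernel

theorem partC3_208 : chkT datC3 [] (.spS 8 (.spS 4 (.leaf 38 332) (.leaf 38 332)) (.leaf 38 333))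
    ((3, 3, 2), (6, 6, 5), (3, 2, 2))
    ((96, 95, 74), (97, 96, 74), (1, 1, 1)) 0 16 = true := by decide +kernel

theorem partC3_231 : chkT datC3 [] (.leaf 27 305)
    ((4, 1, 1), (1, 0, 0), (1, 1, 0))
    ((93, 92, 74), (1, 1, 1), (42, 41, 36)) 0 16 = true := by decide +kernel

end Vale.Agent.P154.Sep2
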