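import Mathlib
import Vale.Agent.P154.C3Data
import Vale.Agent.P154.C3M3

namespace Vale.Agent.P154.Sep2

theorem partC3_21 : chkT datC3 [] (.spS 8 (.leaf 44 323) (.leaf 44 324))
    ((3, 3, 2), (6, 6, 5), (10, 8, 7))
    ((3, 3, 2), (6, 6, 5), (107, 106, 74)) 0 16 = true := by decide +kernel

theorem partC3_36 : chkT datC3 [] (.spU 2 2 1 1 (43, 39, 24) (.spU 1 1 6 1 (37, 37, 22) (.leaf 66 355) (.spV 0 1 6 1 (73, 73, 46) (.spU 0 2 1 3 (25, 25, 14) (.leaf 69 361) (.spU 2 1 2 1 (81, 77, 44) (.leaf 72 364) (.leaf 74 366))) (.leaf 69 368))) (.spU 2 4 1 1 (24, 22, 15) (.leaf 65 354) (.leaf 63 352)))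
    ((19, 19, 10), (3, 3, 2), (12, 10, 7))
    ((55, 55, 34), (3, 3, 2), (107, 106, 74)) 0 16 = true := by decide +kernel

theorem partC3_37 : chkT datC3 [] (.leaf 53 347)
    ((19, 19, 10), (3, 3, 2), (12, 10, 7))
    ((37, 37, 22), (55, 55, 34), (107, 106, 74)) 0 16 = true := by decide +kernel

theorem partC3_72 : chkT datC3 [] (.spV 1 1 1 1 (108, 107, 75) (.leaf 52 351) (.spV 0 1 1 1 (109, 108, 76) (.leaf 52 351) (.spV 0 1 1 1 (110, 109, 77) (.leaf 52 351) (.spV 0 1 1 1 (111, 110, 78) (.leaf 52 352) (.spV 0 1 1 1 (112, 111, 79) (.leaf 52 352) (.leaf 52 333))))))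
    ((22, 20, 19), (1, 1, 1), (9, 8, 8))
    ((6, 6, 5), (1, 1, 1), (107, 106, 74)) 8 16 = true := by decide +kernel

theorem partC3_81 : chkT datC3 [] (.spV 0 1 4 3 (3, 3, 2) (.leaf 37 312) (.leaf 37 313))
    ((4, 2, 1), (6, 4, 3), (2, 1, 1))
    ((5, 5, 2), (1, 1, 1), (107, 106, 74)) 0 16 = true := by decide +kernel

theorem partC3_88 : chkT datC3 [] (.leaf 36 308)
    ((3, 1, 0), (4, 2, 1), (4, 1, 1))
    ((107, 106, 74), (1, 1, 0), (1, 1, 1)) 0 16 = true := by decide +kernel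

theorem partC3_106 : chkT datC3 [] (.spV 0 1 1 1 (109, 108, 77) (.leaf 46 356) (.spV 0 1 1 1 (110, 109, 78) (.leaf 46 357) (.spV 2 1 1 1 (110, 109, 77) (.spV 0 1 1 1 (111, 110, 78) (.leaf 46 345) (.leaf 46 357)) (.leaf 46 357))))
    ((11, 11, 10), (1, 1, 1), (9, 8, 8))
    ((1, 1, 1), (108, 107, 76), (109, 108, 76)) 14 16 = true := by decide +kernel

theorem partC3_129 : chkT datC3 [] (.leaf 37 333)
    ((5, 5, 2), (3, 3, 2), (3, 2, 2))
    ((105, 104, 74), (106, 105, 74), (1, 1, 1)) 0 16 = true := by decide +kernel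

theorem partC3_172 : chkT datC3 [] (.leaf 35 329)
    ((3, 2, 2), (2, 1, 1), (5, 5, 2))
    ((100, 99, 74), (101, 100, 74), (1, 1, 1)) 0 16 = true := by decide +kernel

theorem partC3_176 : chkT datC3 [] (.spS 8 (.spU 0 2 1 3 (4, 4, 3) (.spS 4 (.leaf 41 336) (.leaf 41 337)) (.leaf 38 333)) (.leaf 40 336))
    ((3, 3, 2), (6, 6, 5), (5, 4, 4))
    ((100, 99, 74), (101, 100, 74), (1, 1, 1)) 0 16 = true := by decide +kernel

theorem partC3_205 : chkT datC3 [] (.leaf 35 328)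
    ((3, 2, 2), (2, 1, 1), (5, 5, 2))
    ((96, 95, 74), (97, 96, 74), (1, 1, 1)) 0 16 = true := by decide +kernel

theorem partC3_235 : chkT datC3 [] (.leaf 35 317)
    ((1, 1, 0), (5, 5, 2), (4, 1, 1))
    ((93, 92, 74), (1, 1, 1), (42, 41, 36)) 0 16 = true := by decide +kernel

end Vale.Agent.P154.Sep2
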