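import Mathlib
import Vale.Agent.P154.C3Data
import Vale.Agent.P154.C3M6

namespace Vale.Agent.P154.Sep2

theorem partC3_43 : chkT datC3 [] (.leaf 57 345)
    ((22, 20, 11), (5, 5, 2), (19, 19, 10))
    ((5, 5, 2), (19, 19, 10), (137, 136, 86)) 0 8 = true := by decide +kernel

theorem partC3_64 : chkT datC3 [] (.spS 8 (.spV 0 2 1 3 (4, 4, 3) (.leaf 36 313) (.spU 0 1 2 1 (7, 4, 4) (.leaf 41 317) (.spV 0 1 1 1 (7, 7, 5) (.leaf 42 319) (.spU 0 2 1 1 (13, 8, 8) (.leaf 49 326) (.spV 0 2 1 1 (13, 13, 9) (.leaf 46 326) (.leaf 46 325)))))) (.leaf 36 314))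
    ((3, 2, 2), (2, 1, 1), (6, 4, 3))
    ((3, 3, 2), (6, 6, 5), (107, 106, 74)) 0 16 = true := by decide +kernel

theorem partC3_70 : chkT datC3 [] (.spU 1 6 1 1 (15, 14, 14) (.leaf 58 337) (.leaf 55 334))
    ((22, 20, 19), (1, 1, 1), (9, 8, 8))
    ((6, 6, 5), (1, 1, 1), (107, 106, 74)) 4 8 = true := by decide +kernel

theorem partC3_84 : chkT datC3 [] (.spU 1 2 1 1 (20, 16, 15) (.spU 2 2 1 1 (38, 32, 31) (.leaf 63 341) (.leaf 60 339)) (.spU 2 1 2 1 (19, 16, 16) (.leaf 56 335) (.spV 2 1 1 1 (108, 107, 74) (.spV 0 1 1 1 (109, 108, 74) (.leaf 58 337) (.leaf 58 356)) (.leaf 58 356))))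
    ((9, 8, 8), (5, 4, 4), (10, 8, 7))
    ((1, 1, 0), (5, 5, 2), (107, 106, 74)) 0 16 = true := by decide +kernel

theorem partC3_92 : chkT datC3 [] (.leaf 32 321)
    ((1, 0, 0), (3, 1, 0), (4, 1, 1))
    ((106, 105, 74), (107, 106, 74), (1, 1, 1)) 0 16 = true := by decide +kernel

theorem partC3_116 : chkT datC3 [] (.spU 1 2 1 1 (13, 7, 4) (.leaf 45 339) (.leaf 44 336))
    ((2, 1, 1), (4, 1, 1), (5, 5, 2))
    ((105, 104, 74), (106, 105, 74), (1, 1, 1)) 0 16 = true := by decide +kernel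

theorem partC3_126 : chkT datC3 [] (.spV 2 1 1 1 (107, 106, 75) (.spU 2 2 3 1 (36, 34, 31) (.spV 0 1 1 1 (108, 107, 76) (.spV 0 1 1 1 (109, 108, 77) (.leaf 60 358) (.leaf 60 370)) (.leaf 60 369)) (.leaf 60 359)) (.leaf 49 359))
    ((6, 6, 5), (11, 11, 10), (9, 8, 8))
    ((1, 1, 1), (109, 108, 78), (106, 105, 74)) 8 16 = true := by decide +kernel

theorem partC3_140 : chkT datC3 [] (.leaf 37 332)
    ((5, 5, 2), (3, 3, 2), (3, 2, 2))
    ((104, 103, 74), (105, 104, 74), (1, 1, 1)) 0 16 = true := by decide +kernel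

theorem partC3_178 : chkT datC3 [] (.leaf 35 328)
    ((1, 1, 0), (5, 5, 2), (4, 1, 1))
    ((100, 99, 74), (101, 100, 74), (1, 1, 1)) 0 16 = true := by decide +kernel

theorem partC3_211 : chkT datC3 [] (.leaf 27 315)
    ((4, 1, 1), (1, 0, 0), (1, 1, 0))
    ((95, 94, 74), (96, 95, 74), (1, 1, 1)) 0 16 = true := by decide +kernel

theorem partC3_239 : chkT datC3 [] (.spU 2 1 3 1 (4, 1, 1) (.leaf 27 297) (.spU 2 3 2 1 (5, 5, 2) (.spU 1 2 1 3 (2, 1, 1) (.leaf 36 310) (.leaf 32 308)) (.leaf 35 309)))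
    ((1, 0, 0), (1, 1, 0), (1, 1, 1))
    ((43, 41, 39), (1, 1, 1), (59, 55, 55)) 0 16 = true := by decide +kernel

end Vale.Agent.P154.Sep2
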