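import Mathlib
import Vale.Agent.P154.C3Data
import Vale.Agent.P154.C3M9

namespace Vale.Agent.P154.Sep2

theorem partC3_24 : chkT datC3 [] (.spU 0 2 1 1 (24, 18, 13) (.spV 0 2 3 1 (19, 19, 10) (.leaf 57 338) (.leaf 57 339)) (.leaf 55 333))
    ((6, 4, 3), (12, 10, 7), (10, 8, 7))
    ((5, 5, 2), (3, 3, 2), (107, 106, 74)) 8 16 = true := by decide +kernel

theorem partC3_49 : chkT datC3 [] (.leaf 54 342)
    ((5, 5, 2), (19, 19, 10), (12, 10, 7))
    ((5, 5, 2), (19, 19, 10), (137, 136, 86)) 8 16 = true := by decide +kernel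

theorem partC3_68 : chkT datC3 [] (.spS 2 (.spU 0 1 2 3 (11, 10, 10) (.leaf 56 334) (.leaf 58 336)) (.leaf 58 336))
    ((15, 14, 14), (9, 8, 8), (22, 20, 19))
    ((6, 6, 5), (1, 1, 1), (107, 106, 74)) 0 4 = true := by decide +kernel

theorem partC3_96 : chkT datC3 [] (.leaf 45 342)
    ((9, 8, 8), (5, 4, 4), (6, 6, 5))
    ((106, 105, 74), (107, 106, 74), (1, 1, 1)) 0 8 = true := by decide +kernel

theorem partC3_114 : chkT datC3 [] (.spV 1 1 1 1 (108, 107, 75) (.spV 0 1 1 1 (109, 108, 76) (.spV 0 1 1 1 (110, 109, 77) (.spV 1 1 1 1 (107, 106, 75) (.leaf 35 341) (.spV 2 1 1 1 (111, 110, 78) (.spV 1 1 1 1 (108, 107, 76) (.leaf 35 341) (.leaf 35 330)) (.leaf 35 342))) (.leaf 35 341)) (.leaf 35 341)) (.leaf 35 341))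
    ((1, 1, 0), (5, 5, 2), (4, 1, 1))
    ((106, 105, 74), (107, 106, 74), (1, 1, 1)) 0 16 = true := by decide +kernel

theorem partC3_115 : chkT datC3 [] (.spU 1 2 1 1 (3, 1, 0) (.spU 0 1 2 1 (5, 3, 0) (.spV 2 1 1 1 (106, 105, 75) (.leaf 35 338) (.spV 2 1 1 1 (107, 106, 75) (.spV 0 1 1 1 (108, 107, 76) (.leaf 35 327) (.leaf 35 338)) (.leaf 35 338))) (.leaf 37 328)) (.leaf 32 321))
    ((4, 1, 1), (1, 0, 0), (1, 1, 0))
    ((105, 104, 74), (106, 105, 74), (1, 1, 1)) 0 16 = true := by decide +kernel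

theorem partC3_144 : chkT datC3 [] (.leaf 35 330)
    ((3, 2, 2), (2, 1, 1), (5, 5, 2))
    ((103, 102, 74), (104, 103, 74), (1, 1, 1)) 0 16 = true := by decide +kernel

theorem partC3_156 : chkT datC3 [] (.spS 8 (.leaf 45 341) (.leaf 45 342))
    ((9, 8, 8), (5, 4, 4), (6, 6, 5))
    ((102, 101, 74), (103, 102, 74), (1, 1, 1)) 0 16 = true := by decide +kernel

theorem partC3_167 : chkT datC3 [] (.spS 8 (.spU 0 2 1 3 (4, 4, 3) (.spS 4 (.spU 2 1 1 1 (9, 8, 7) (.leaf 45 340) (.leaf 45 340)) (.leaf 41 337)) (.leaf 38 333)) (.leaf 40 336))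
    ((3, 3, 2), (6, 6, 5), (5, 4, 4))
    ((101, 100, 74), (102, 101, 74), (1, 1, 1)) 0 16 = true := by decide +kernel

theorem partC3_182 : chkT datC3 [] (.leaf 36 331)
    ((5, 4, 4), (3, 2, 2), (3, 3, 2))
    ((99, 98, 74), (100, 99, 74), (1, 1, 1)) 0 16 = true := by decide +kernel

theorem partC3_216 : chkT datC3 [] (.leaf 37 330)
    ((5, 5, 2), (3, 3, 2), (3, 2, 2))
    ((95, 94, 74), (96, 95, 74), (1, 1, 1)) 0 16 = true := by decide +kernel

end Vale.Agent.P154.Sep2
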