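import Mathlib
import Vale.Agent.P154.C3Data
import Vale.Agent.P154.C3M10

namespace Vale.Agent.P154.Sep2

theorem partC3_31 : chkT datC3 [] (.spU 2 1 1 1 (11, 9, 5) (.spU 1 4 1 1 (42, 40, 19) (.leaf 64 357) (.leaf 61 353)) (.leaf 55 347))
    ((5, 5, 2), (22, 20, 11), (6, 4, 3))
    ((19, 19, 10), (37, 37, 22), (137, 136, 86)) 0 4 = true := by decide +kernel

theorem partC3_50 : chkT datC3 [] (.leaf 54 354)
    ((5, 5, 2), (19, 19, 10), (12, 10, 7))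
    ((107, 106, 74), (137, 136, 86), (3, 3, 2)) 0 16 = true := by decide +kernel

theorem partC3_74 : chkT datC3 [] (.spU 2 1 6 1 (22, 20, 19) (.leaf 52 332) (.spV 0 2 1 3 (4, 4, 3) (.leaf 58 338) (.leaf 58 337)))
    ((1, 1, 1), (9, 8, 8), (16, 14, 13))
    ((3, 3, 2), (6, 6, 5), (107, 106, 74)) 0 16 = true := by decide +kernel

theorem partC3_102 : chkT datC3 [] (.leaf 42 340)
    ((1, 1, 1), (9, 8, 8), (6, 6, 5))
    ((109, 108, 76), (1, 1, 1), (106, 105, 74)) 8 12 = true := by decide +kernel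

theorem partC3_119 : chkT datC3 [] (.spS 8 (.leaf 45 342) (.spU 1 1 1 1 (11, 10, 9) (.spV 2 1 1 1 (106, 105, 75) (.leaf 49 358) (.spV 2 1 1 1 (107, 106, 75) (.spU 1 3 2 1 (36, 34, 31) (.leaf 60 358) (.leaf 60 357)) (.leaf 49 358))) (.spU 2 1 2 1 (19, 16, 16) (.leaf 53 350) (.leaf 55 352))))
    ((9, 8, 8), (5, 4, 4), (6, 6, 5))
    ((105, 104, 74), (106, 105, 74), (1, 1, 1)) 0 16 = true := by decide +kernel

theorem partC3_127 : chkT datC3 [] (.spU 0 2 1 3 (4, 4, 3) (.spU 2 1 1 1 (9, 8, 7) (.spS 4 (.spU 1 3 2 1 (24, 24, 19) (.leaf 55 351) (.leaf 54 351)) (.spU 1 3 2 1 (24, 24, 19) (.leaf 55 352) (.leaf 54 351))) (.leaf 45 342)) (.leaf 38 334))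
    ((3, 3, 2), (6, 6, 5), (5, 4, 4))
    ((105, 104, 74), (106, 105, 74), (1, 1, 1)) 0 8 = true := by decide +kernel

theorem partC3_145 : chkT datC3 [] (.leaf 36 332)
    ((5, 4, 4), (3, 2, 2), (3, 3, 2))
    ((103, 102, 74), (104, 103, 74), (1, 1, 1)) 0 16 = true := by decide +kernel

theorem partC3_165 : chkT datC3 [] (.spS 8 (.leaf 45 341) (.leaf 45 342))
    ((9, 8, 8), (5, 4, 4), (6, 6, 5))
    ((101, 100, 74), (102, 101, 74), (1, 1, 1)) 0 16 = true := by decide +kernel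

theorem partC3_183 : chkT datC3 [] (.spU 1 4 1 1 (9, 8, 8) (.spS 8 (.leaf 45 341) (.leaf 45 341)) (.spS 8 (.spS 4 (.leaf 42 337) (.leaf 42 338)) (.leaf 42 338)))
    ((6, 6, 5), (1, 1, 1), (5, 4, 4))
    ((99, 98, 74), (100, 99, 74), (1, 1, 1)) 0 16 = true := by decide +kernel

theorem partC3_185 : chkT datC3 [] (.leaf 37 331)
    ((5, 5, 2), (3, 3, 2), (3, 2, 2))
    ((99, 98, 74), (100, 99, 74), (1, 1, 1)) 0 16 = true := by decide +kernel

theorem partC3_217 : chkT datC3 [] (.leaf 35 326)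
    ((1, 1, 0), (5, 5, 2), (4, 1, 1))
    ((95, 94, 74), (96, 95, 74), (1, 1, 1)) 0 16 = true := by decide +kernel

end Vale.Agent.P154.Sep2
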