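import Mathlib
import Vale.Agent.P154.C3Data
import Vale.Agent.P154.C3M11

namespace Vale.Agent.P154.Sep2

theorem partC3_51 : chkT datC3 [] (.spU 0 4 1 1 (10, 8, 7) (.leaf 46 323) (.spU 2 1 4 3 (3, 3, 2) (.leaf 40 318) (.leaf 44 322)))
    ((1, 1, 1), (6, 4, 3), (5, 5, 2))
    ((1, 1, 0), (5, 5, 2), (107, 106, 74)) 0 16 = true := by decide +kernel

theorem partC3_53 : chkT datC3 [] (.leaf 41 318)
    ((9, 7, 0), (1, 1, 0), (5, 5, 2))
    ((5, 5, 2), (3, 3, 2), (107, 106, 74)) 0 16 = true := by decide +kernel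

theorem partC3_77 : chkT datC3 [] (.spV 0 2 1 3 (4, 4, 3) (.leaf 53 331) (.spV 0 1 1 1 (7, 7, 5) (.leaf 53 331) (.leaf 53 331)))
    ((22, 16, 13), (10, 8, 7), (3, 2, 2))
    ((3, 3, 2), (6, 6, 5), (107, 106, 74)) 0 8 = true := by decide +kernel

theorem partC3_103 : chkT datC3 [] (.leaf 42 340)
    ((1, 1, 1), (9, 8, 8), (6, 6, 5))
    ((109, 108, 76), (1, 1, 1), (106, 105, 74)) 12 14 = true := by decide +kernel

theorem partC3_120 : chkT datC3 [] (.spS 4 (.spU 0 6 1 1 (15, 14, 14) (.spS 2 (.leaf 51 348) (.leaf 51 348)) (.spS 2 (.spV 2 1 1 1 (106, 105, 75) (.leaf 47 355) (.spV 0 1 1 1 (107, 106, 76) (.leaf 47 355) (.leaf 47 344))) (.leaf 47 344))) (.leaf 42 339))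
    ((1, 1, 1), (9, 8, 8), (6, 6, 5))
    ((105, 104, 74), (106, 105, 74), (1, 1, 1)) 0 8 = true := by decide +kernel

theorem partC3_137 : chkT datC3 [] (.spU 2 1 5 1 (11, 11, 10) (.spV 2 1 1 1 (105, 104, 75) (.leaf 46 355) (.spV 0 1 1 1 (106, 105, 76) (.leaf 46 356) (.spV 2 1 1 1 (106, 105, 75) (.leaf 46 344) (.leaf 46 356)))) (.spU 2 2 3 1 (36, 34, 31) (.leaf 60 357) (.leaf 60 358)))
    ((1, 1, 1), (9, 8, 8), (6, 6, 5))
    ((104, 103, 74), (105, 104, 74), (1, 1, 1)) 8 16 = true := by decide +kernel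

theorem partC3_150 : chkT datC3 [] (.leaf 37 332)
    ((5, 5, 2), (3, 3, 2), (3, 2, 2))
    ((103, 102, 74), (104, 103, 74), (1, 1, 1)) 0 16 = true := by decide +kernel

theorem partC3_170 : chkT datC3 [] (.spU 1 2 1 1 (3, 1, 0) (.leaf 32 321) (.leaf 32 319))
    ((4, 1, 1), (1, 0, 0), (1, 1, 0))
    ((100, 99, 74), (101, 100, 74), (1, 1, 1)) 0 16 = true := by decide +kernel

theorem partC3_186 : chkT datC3 [] (.leaf 35 327)
    ((1, 1, 0), (5, 5, 2), (4, 1, 1))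
    ((99, 98, 74), (100, 99, 74), (1, 1, 1)) 0 16 = true := by decide +kernel

theorem partC3_191 : chkT datC3 [] (.spU 1 4 1 1 (9, 8, 8) (.spS 8 (.leaf 45 340) (.leaf 45 341)) (.spS 8 (.spU 0 6 1 1 (15, 14, 14) (.leaf 51 347) (.leaf 47 342)) (.leaf 42 338)))
    ((6, 6, 5), (1, 1, 1), (5, 4, 4))
    ((98, 97, 74), (99, 98, 74), (1, 1, 1)) 0 16 = true := by decide +kernel

theorem partC3_218 : chkT datC3 [] (.leaf 27 315)
    ((4, 1, 1), (1, 0, 0), (1, 1, 0))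
    ((94, 93, 74), (95, 94, 74), (1, 1, 1)) 0 16 = true := by decide +kernel

end Vale.Agent.P154.Sep2
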