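import Mathlib
import Vale.Agent.P154.C3Data
import Vale.Agent.P154.C3M12

namespace Vale.Agent.P154.Sep2

theorem partC3_54 : chkT datC3 [] (.spV 0 6 1 1 (11, 11, 2) (.leaf 41 320) (.spV 2 1 1 1 (108, 107, 74) (.leaf 41 319) (.leaf 41 338)))
    ((9, 7, 0), (1, 1, 0), (5, 5, 2))
    ((1, 1, 0), (5, 5, 2), (107, 106, 74)) 0 16 = true := by decide +kernel

theorem partC3_57 : chkT datC3 [] (.leaf 32 301)
    ((4, 1, 1), (1, 0, 0), (3, 1, 0))
    ((107, 106, 74), (1, 1, 0), (1, 1, 1)) 0 16 = true := by decide +kernel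

theorem partC3_99 : chkT datC3 [] (.spS 2 (.spV 1 1 1 1 (108, 107, 75) (.leaf 51 348) (.leaf 51 360)) (.leaf 51 348))
    ((15, 14, 14), (9, 8, 8), (6, 6, 5))
    ((106, 105, 74), (107, 106, 74), (1, 1, 1)) 0 4 = true := by decide +kernel

theorem partC3_104 : chkT datC3 [] (.leaf 42 352)
    ((1, 1, 1), (9, 8, 8), (6, 6, 5))
    ((107, 106, 75), (106, 105, 74), (109, 108, 76)) 14 16 = true := by decide +kernel

theorem partC3_138 : chkT datC3 [] (.spU 0 2 1 3 (4, 4, 3) (.spS 4 (.spU 2 1 1 1 (9, 8, 7) (.spU 1 3 2 1 (24, 24, 19) (.leaf 55 351) (.leaf 54 350)) (.leaf 45 341)) (.spU 2 1 1 1 (9, 8, 7) (.spV 1 1 1 1 (106, 105, 75) (.leaf 45 341) (.leaf 45 353)) (.leaf 45 342))) (.leaf 38 334))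
    ((3, 3, 2), (6, 6, 5), (5, 4, 4))
    ((104, 103, 74), (105, 104, 74), (1, 1, 1)) 0 8 = true := by decide +kernel

theorem partC3_151 : chkT datC3 [] (.leaf 35 329)
    ((1, 1, 0), (5, 5, 2), (4, 1, 1))
    ((103, 102, 74), (104, 103, 74), (1, 1, 1)) 0 16 = true := by decide +kernel

theorem partC3_157 : chkT datC3 [] (.spS 8 (.spS 4 (.spU 0 6 1 1 (15, 14, 14) (.leaf 51 347) (.leaf 47 343)) (.leaf 42 339)) (.spU 2 1 5 1 (11, 11, 10) (.spV 2 1 1 1 (103, 102, 75) (.leaf 46 355) (.leaf 46 343)) (.leaf 49 346)))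
    ((1, 1, 1), (9, 8, 8), (6, 6, 5))
    ((102, 101, 74), (103, 102, 74), (1, 1, 1)) 0 16 = true := by decide +kernel

theorem partC3_174 : chkT datC3 [] (.spS 8 (.leaf 45 341) (.leaf 45 341))
    ((9, 8, 8), (5, 4, 4), (6, 6, 5))
    ((100, 99, 74), (101, 100, 74), (1, 1, 1)) 0 16 = true := by decide +kernel

theorem partC3_188 : chkT datC3 [] (.leaf 36 328)
    ((2, 1, 1), (4, 1, 1), (5, 5, 2))
    ((98, 97, 74), (99, 98, 74), (1, 1, 1)) 0 16 = true := by decide +kernel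

theorem partC3_199 : chkT datC3 [] (.spU 1 4 1 1 (9, 8, 8) (.spS 8 (.leaf 45 340) (.leaf 45 341)) (.spS 8 (.spU 0 6 1 1 (15, 14, 14) (.leaf 51 346) (.leaf 47 342)) (.leaf 42 338)))
    ((6, 6, 5), (1, 1, 1), (5, 4, 4))
    ((97, 96, 74), (98, 97, 74), (1, 1, 1)) 0 16 = true := by decide +kernel

theorem partC3_219 : chkT datC3 [] (.leaf 36 327)
    ((2, 1, 1), (4, 1, 1), (5, 5, 2))
    ((94, 93, 74), (95, 94, 74), (1, 1, 1)) 0 16 = true := by decide +kernel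

end Vale.Agent.P154.Sep2
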