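import Mathlib
import Vale.Agent.P154.C3Data
import Vale.Agent.P154.C3M13

namespace Vale.Agent.P154.Sep2

theorem partC3_11 : chkT datC3 [] (.spV 0 1 1 1 (110, 109, 77) (.leaf 53 352) (.spV 0 1 1 1 (111, 110, 78) (.leaf 53 353) (.spV 0 1 1 1 (112, 111, 79) (.leaf 53 353) (.leaf 53 334))))
    ((11, 11, 10), (1, 1, 1), (22, 20, 19))
    ((1, 1, 1), (109, 108, 76), (6, 6, 5)) 8 16 = true := by decide +kernel

theorem partC3_40 : chkT datC3 [] (.spS 4 (.spV 0 1 6 1 (37, 37, 22) (.leaf 60 350) (.leaf 60 352)) (.spV 0 1 6 1 (37, 37, 22) (.leaf 60 350) (.leaf 60 353)))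
    ((13, 13, 6), (19, 19, 10), (22, 20, 11))
    ((19, 19, 10), (3, 3, 2), (137, 136, 86)) 0 8 = true := by decide +kernel

theorem partC3_58 : chkT datC3 [] (.leaf 46 319)
    ((14, 5, 5), (4, 1, 1), (4, 2, 1))
    ((3, 3, 2), (1, 1, 1), (107, 106, 74)) 0 16 = true := by decide +kernel

theorem partC3_101 : chkT datC3 [] (.spV 1 1 1 1 (108, 107, 75) (.spV 0 1 1 1 (109, 108, 76) (.leaf 42 340) (.leaf 42 351)) (.leaf 42 351))
    ((1, 1, 1), (9, 8, 8), (6, 6, 5))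
    ((106, 105, 74), (107, 106, 74), (1, 1, 1)) 4 8 = true := by decide +kernel

theorem partC3_105 : chkT datC3 [] (.leaf 42 352)
    ((1, 1, 1), (9, 8, 8), (6, 6, 5))
    ((108, 107, 76), (107, 106, 75), (109, 108, 76)) 14 16 = true := by decide +kernel

theorem partC3_149 : chkT datC3 [] (.spS 8 (.spU 0 2 1 3 (4, 4, 3) (.spS 4 (.spU 2 1 1 1 (9, 8, 7) (.spV 1 1 1 1 (105, 104, 75) (.leaf 45 341) (.leaf 45 352)) (.leaf 45 341)) (.spU 2 1 1 1 (9, 8, 7) (.leaf 45 341) (.leaf 45 341))) (.leaf 38 334)) (.leaf 40 337))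
    ((3, 3, 2), (6, 6, 5), (5, 4, 4))
    ((103, 102, 74), (104, 103, 74), (1, 1, 1)) 0 16 = true := by decide +kernel

theorem partC3_153 : chkT datC3 [] (.leaf 36 329)
    ((2, 1, 1), (4, 1, 1), (5, 5, 2))
    ((102, 101, 74), (103, 102, 74), (1, 1, 1)) 0 16 = true := by decide +kernel

theorem partC3_166 : chkT datC3 [] (.spS 8 (.spS 4 (.spU 0 6 1 1 (15, 14, 14) (.leaf 51 347) (.leaf 47 343)) (.leaf 42 338)) (.spV 1 1 1 1 (103, 102, 75) (.spV 0 1 1 1 (104, 103, 76) (.leaf 42 339) (.leaf 42 351)) (.leaf 42 350)))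
    ((1, 1, 1), (9, 8, 8), (6, 6, 5))
    ((101, 100, 74), (102, 101, 74), (1, 1, 1)) 0 16 = true := by decide +kernel

theorem partC3_179 : chkT datC3 [] (.spU 1 2 1 1 (3, 1, 0) (.leaf 32 320) (.leaf 32 319))
    ((4, 1, 1), (1, 0, 0), (1, 1, 0))
    ((99, 98, 74), (100, 99, 74), (1, 1, 1)) 0 16 = true := by decide +kernel

theorem partC3_189 : chkT datC3 [] (.leaf 35 329)
    ((3, 2, 2), (2, 1, 1), (5, 5, 2))
    ((98, 97, 74), (99, 98, 74), (1, 1, 1)) 0 16 = true := by decide +kernel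

theorem partC3_220 : chkT datC3 [] (.leaf 35 328)
    ((3, 2, 2), (2, 1, 1), (5, 5, 2))
    ((94, 93, 74), (95, 94, 74), (1, 1, 1)) 0 16 = true := by decide +kernel

end Vale.Agent.P154.Sep2
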