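import Mathlib
import Vale.Agent.P154.C3Data
import Vale.Agent.P154.C3M14

namespace Vale.Agent.P154.Sep2

theorem partC3_12 : chkT datC3 [] (.spV 0 1 1 1 (110, 109, 77) (.leaf 55 354) (.spU 0 2 1 1 (23, 23, 20) (.leaf 61 341) (.spU 2 1 3 2 (20, 19, 17) (.leaf 59 339) (.leaf 63 343))))
    ((6, 6, 5), (11, 11, 10), (22, 20, 19))
    ((1, 1, 1), (109, 108, 76), (6, 6, 5)) 8 16 = true := by decide +kernel

theorem partC3_41 : chkT datC3 [] (.spU 2 1 4 1 (42, 40, 19) (.spV 0 1 6 1 (37, 37, 22) (.leaf 61 351) (.leaf 61 354)) (.spV 0 1 6 1 (37, 37, 22) (.leaf 65 355) (.leaf 65 357)))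
    ((5, 5, 2), (13, 13, 6), (22, 20, 11))
    ((19, 19, 10), (3, 3, 2), (137, 136, 86)) 0 4 = true := by decide +kernel

theorem partC3_59 : chkT datC3 [] (.leaf 45 319)
    ((2, 1, 1), (14, 5, 5), (4, 2, 1))
    ((6, 6, 5), (1, 1, 1), (107, 106, 74)) 0 16 = true := by decide +kernel

theorem partC3_108 : chkT datC3 [] (.leaf 42 352)
    ((1, 1, 1), (9, 8, 8), (6, 6, 5))
    ((108, 107, 75), (109, 108, 76), (106, 105, 74)) 8 16 = true := by decide +kernel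

theorem partC3_128 : chkT datC3 [] (.spU 1 1 1 1 (11, 10, 9) (.leaf 44 342) (.spU 2 2 1 3 (4, 4, 3) (.leaf 46 344) (.leaf 44 341)))
    ((3, 3, 2), (6, 6, 5), (5, 4, 4))
    ((105, 104, 74), (106, 105, 74), (1, 1, 1)) 8 16 = true := by decide +kernel

theorem partC3_154 : chkT datC3 [] (.leaf 35 330)
    ((3, 2, 2), (2, 1, 1), (5, 5, 2))
    ((102, 101, 74), (103, 102, 74), (1, 1, 1)) 0 16 = true := by decide +kernel

theorem partC3_175 : chkT datC3 [] (.spS 8 (.spS 4 (.spV 1 1 1 1 (102, 101, 75) (.spV 0 1 1 1 (103, 102, 76) (.spV 0 1 1 1 (104, 103, 77) (.leaf 42 338) (.leaf 42 350)) (.leaf 42 349)) (.leaf 42 349)) (.leaf 42 338)) (.leaf 42 339))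
    ((1, 1, 1), (9, 8, 8), (6, 6, 5))
    ((100, 99, 74), (101, 100, 74), (1, 1, 1)) 0 16 = true := by decide +kernel

theorem partC3_187 : chkT datC3 [] (.spU 1 2 1 1 (3, 1, 0) (.leaf 32 320) (.leaf 32 319))
    ((4, 1, 1), (1, 0, 0), (1, 1, 0))
    ((98, 97, 74), (99, 98, 74), (1, 1, 1)) 0 16 = true := by decide +kernel

theorem partC3_190 : chkT datC3 [] (.leaf 36 331)
    ((5, 4, 4), (3, 2, 2), (3, 3, 2))
    ((98, 97, 74), (99, 98, 74), (1, 1, 1)) 0 16 = true := by decide +kernel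

theorem partC3_221 : chkT datC3 [] (.spU 1 2 1 1 (5, 4, 4) (.spU 1 2 1 1 (12, 10, 9) (.spU 0 1 2 1 (24, 22, 19) (.spS 8 (.leaf 53 347) (.leaf 53 348)) (.leaf 56 350)) (.leaf 45 339)) (.spU 0 4 1 1 (9, 8, 8) (.leaf 45 340) (.spS 8 (.leaf 42 336) (.leaf 42 337))))
    ((6, 6, 5), (1, 1, 1), (3, 2, 2))
    ((94, 93, 74), (95, 94, 74), (1, 1, 1)) 0 16 = true := by decide +kernel

theorem partC3_223 : chkT datC3 [] (.leaf 37 330)
    ((5, 5, 2), (3, 3, 2), (3, 2, 2))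
    ((94, 93, 74), (95, 94, 74), (1, 1, 1)) 0 16 = true := by decide +kernel

end Vale.Agent.P154.Sep2
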