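import Mathlib
import Vale.Agent.P154.C3Data
import Vale.Agent.P154.C3M15

namespace Vale.Agent.P154.Sep2

theorem partC3_22 : chkT datC3 [] (.spU 0 1 4 1 (24, 22, 15) (.leaf 54 333) (.spV 0 2 3 1 (19, 19, 10) (.spV 0 1 6 1 (37, 37, 22) (.leaf 57 343) (.leaf 57 346)) (.leaf 57 339)))
    ((12, 10, 7), (3, 3, 2), (10, 8, 7))
    ((5, 5, 2), (3, 3, 2), (107, 106, 74)) 0 16 = true := by decide +kernel

theorem partC3_42 : chkT datC3 [] (.spV 0 1 6 1 (37, 37, 22) (.spU 2 1 4 1 (42, 40, 19) (.leaf 61 352) (.leaf 65 355)) (.spU 2 1 4 1 (42, 40, 19) (.leaf 61 354) (.leaf 65 358)))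
    ((5, 5, 2), (13, 13, 6), (22, 20, 11))
    ((19, 19, 10), (3, 3, 2), (137, 136, 86)) 4 8 = true := by decide +kernel

theorem partC3_61 : chkT datC3 [] (.leaf 35 309)
    ((2, 1, 1), (4, 1, 1), (4, 2, 1))
    ((5, 5, 2), (3, 3, 2), (107, 106, 74)) 0 16 = true := by decide +kernel

theorem partC3_109 : chkT datC3 [] (.leaf 42 352)
    ((1, 1, 1), (9, 8, 8), (6, 6, 5))
    ((107, 106, 74), (108, 107, 75), (106, 105, 74)) 8 16 = true := by decide +kernel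

theorem partC3_131 : chkT datC3 [] (.spU 1 2 1 1 (3, 1, 0) (.spU 0 1 2 1 (5, 3, 0) (.leaf 35 326) (.leaf 37 328)) (.leaf 32 320))
    ((4, 1, 1), (1, 0, 0), (1, 1, 0))
    ((104, 103, 74), (105, 104, 74), (1, 1, 1)) 0 16 = true := by decide +kernel

theorem partC3_155 : chkT datC3 [] (.leaf 36 332)
    ((5, 4, 4), (3, 2, 2), (3, 3, 2))
    ((102, 101, 74), (103, 102, 74), (1, 1, 1)) 0 16 = true := by decide +kernel

theorem partC3_193 : chkT datC3 [] (.leaf 37 331)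
    ((5, 5, 2), (3, 3, 2), (3, 2, 2))
    ((98, 97, 74), (99, 98, 74), (1, 1, 1)) 0 16 = true := by decide +kernel

theorem partC3_195 : chkT datC3 [] (.spU 1 2 1 1 (3, 1, 0) (.leaf 32 320) (.leaf 32 319))
    ((4, 1, 1), (1, 0, 0), (1, 1, 0))
    ((97, 96, 74), (98, 97, 74), (1, 1, 1)) 0 16 = true := by decide +kernel

theorem partC3_207 : chkT datC3 [] (.spU 0 4 1 1 (9, 8, 8) (.spS 8 (.leaf 45 340) (.leaf 45 340)) (.spS 8 (.spV 1 1 1 1 (98, 97, 75) (.spV 0 1 1 1 (99, 98, 76) (.leaf 42 337) (.leaf 42 349)) (.leaf 42 349)) (.leaf 42 338)))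
    ((1, 1, 1), (5, 4, 4), (6, 6, 5))
    ((96, 95, 74), (97, 96, 74), (1, 1, 1)) 0 16 = true := by decide +kernel

theorem partC3_224 : chkT datC3 [] (.leaf 35 326)
    ((1, 1, 0), (5, 5, 2), (4, 1, 1))
    ((94, 93, 74), (95, 94, 74), (1, 1, 1)) 0 16 = true := by decide +kernel

theorem partC3_228 : chkT datC3 [] (.spU 0 1 3 1 (6, 6, 5) (.spU 1 2 1 1 (5, 4, 4) (.spU 1 2 1 1 (12, 10, 9) (.leaf 47 341) (.leaf 45 338)) (.spU 0 4 1 1 (9, 8, 8) (.leaf 45 339) (.spS 8 (.leaf 42 336) (.leaf 42 337)))) (.spS 8 (.leaf 38 331) (.leaf 38 332)))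
    ((3, 3, 2), (1, 1, 1), (3, 2, 2))
    ((93, 92, 74), (94, 93, 74), (1, 1, 1)) 0 16 = true := by decide +kernel

end Vale.Agent.P154.Sep2
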