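import Mathlib
import Vale.Agent.P154.C3Data
import Vale.Agent.P154.C3M16

namespace Vale.Agent.P154.Sep2

theorem partC3_30 : chkT datC3 [] (.spU 2 1 4 1 (46, 36, 23) (.leaf 61 351) (.spV 0 1 6 1 (55, 55, 34) (.spV 0 1 6 1 (73, 73, 46) (.leaf 65 360) (.leaf 65 366)) (.leaf 65 362)))
    ((6, 4, 3), (11, 9, 5), (22, 20, 11))
    ((37, 37, 22), (3, 3, 2), (137, 136, 86)) 0 4 = true := by decide +kernel

theorem partC3_47 : chkT datC3 [] (.spU 1 1 2 1 (87, 79, 46) (.leaf 72 363) (.spV 0 1 6 1 (55, 55, 34) (.spV 0 1 6 1 (73, 73, 46) (.leaf 74 370) (.leaf 74 377)) (.leaf 74 372)))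
    ((19, 19, 10), (43, 39, 24), (22, 20, 11))
    ((37, 37, 22), (3, 3, 2), (137, 136, 86)) 8 16 = true := by decide +kernel

theorem partC3_62 : chkT datC3 [] (.leaf 35 308)
    ((2, 1, 1), (4, 1, 1), (4, 2, 1))
    ((1, 1, 0), (5, 5, 2), (107, 106, 74)) 0 16 = true := by decide +kernel

theorem partC3_111 : chkT datC3 [] (.leaf 38 335)
    ((3, 3, 2), (4, 4, 3), (5, 4, 4))
    ((106, 105, 74), (107, 106, 74), (1, 1, 1)) 0 8 = true := by decide +kernel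

theorem partC3_142 : chkT datC3 [] (.spU 1 2 1 1 (3, 1, 0) (.spU 0 1 2 1 (5, 3, 0) (.leaf 35 326) (.leaf 37 328)) (.leaf 32 320))
    ((4, 1, 1), (1, 0, 0), (1, 1, 0))
    ((103, 102, 74), (104, 103, 74), (1, 1, 1)) 0 16 = true := by decide +kernel

theorem partC3_159 : chkT datC3 [] (.leaf 37 332)
    ((5, 5, 2), (3, 3, 2), (3, 2, 2))
    ((102, 101, 74), (103, 102, 74), (1, 1, 1)) 0 16 = true := by decide +kernel

theorem partC3_194 : chkT datC3 [] (.leaf 35 327)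
    ((1, 1, 0), (5, 5, 2), (4, 1, 1))
    ((98, 97, 74), (99, 98, 74), (1, 1, 1)) 0 16 = true := by decide +kernel

theorem partC3_206 : chkT datC3 [] (.spS 8 (.leaf 40 334) (.leaf 40 335))
    ((5, 4, 4), (3, 2, 2), (6, 6, 5))
    ((96, 95, 74), (97, 96, 74), (1, 1, 1)) 0 16 = true := by decide +kernel

theorem partC3_214 : chkT datC3 [] (.spU 1 2 1 1 (5, 4, 4) (.spS 8 (.leaf 40 334) (.leaf 40 334)) (.spU 0 4 1 1 (9, 8, 8) (.spS 8 (.leaf 45 339) (.leaf 45 340)) (.spS 8 (.leaf 42 337) (.leaf 42 337))))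
    ((6, 6, 5), (1, 1, 1), (3, 2, 2))
    ((95, 94, 74), (96, 95, 74), (1, 1, 1)) 0 16 = true := by decide +kernel

theorem partC3_225 : chkT datC3 [] (.leaf 27 315)
    ((4, 1, 1), (1, 0, 0), (1, 1, 0))
    ((93, 92, 74), (94, 93, 74), (1, 1, 1)) 0 16 = true := by decide +kernel

theorem partC3_234 : chkT datC3 [] (.spU 2 1 4 3 (3, 3, 2) (.spU 1 2 1 1 (5, 4, 4) (.leaf 36 321) (.spU 2 1 3 1 (6, 6, 5) (.spU 1 4 1 1 (9, 8, 8) (.leaf 45 330) (.spS 8 (.leaf 42 327) (.leaf 42 327))) (.spS 8 (.leaf 40 324) (.leaf 40 325)))) (.leaf 37 320))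
    ((1, 1, 1), (3, 2, 2), (5, 5, 2))
    ((93, 92, 74), (1, 1, 1), (42, 41, 36)) 0 16 = true := by decide +kernel

end Vale.Agent.P154.Sep2
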