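import Mathlib
import Vale.Agent.P154.C3Data
import Vale.Agent.P154.C3M17

namespace Vale.Agent.P154.Sep2

theorem partC3_26 : chkT datC3 [] (.spU 1 2 1 1 (12, 10, 7) (.spS 8 (.spS 4 (.leaf 47 323) (.leaf 47 324)) (.leaf 47 324)) (.spU 2 2 3 1 (19, 19, 10) (.leaf 53 331) (.leaf 54 331)))
    ((5, 5, 2), (3, 3, 2), (6, 4, 3))
    ((3, 3, 2), (1, 1, 1), (107, 106, 74)) 0 16 = true := by decide +kernel

theorem partC3_29 : chkT datC3 [] (.spU 1 4 1 1 (42, 40, 19) (.spV 0 1 6 1 (55, 55, 34) (.spV 0 1 6 1 (73, 73, 46) (.leaf 64 359) (.spU 2 4 1 1 (86, 76, 39) (.leaf 74 376) (.leaf 71 372))) (.leaf 64 362)) (.leaf 61 350))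
    ((11, 9, 5), (5, 5, 2), (22, 20, 11))
    ((37, 37, 22), (3, 3, 2), (137, 136, 86)) 0 4 = true := by decide +kernel

theorem partC3_63 : chkT datC3 [] (.leaf 36 313)
    ((3, 2, 2), (2, 1, 1), (6, 4, 3))
    ((6, 6, 5), (1, 1, 1), (107, 106, 74)) 0 16 = true := by decide +kernel

theorem partC3_67 : chkT datC3 [] (.spV 0 2 1 3 (4, 4, 3) (.spU 0 1 2 1 (19, 16, 16) (.leaf 55 335) (.leaf 57 337)) (.spU 0 1 2 1 (19, 16, 16) (.leaf 55 334) (.leaf 57 336)))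
    ((9, 8, 8), (5, 4, 4), (16, 14, 13))
    ((3, 3, 2), (6, 6, 5), (107, 106, 74)) 0 16 = true := by decide +kernel

theorem partC3_113 : chkT datC3 [] (.leaf 37 333)
    ((5, 5, 2), (3, 3, 2), (3, 2, 2))
    ((106, 105, 74), (107, 106, 74), (1, 1, 1)) 0 16 = true := by decide +kernel

theorem partC3_146 : chkT datC3 [] (.spS 8 (.leaf 45 342) (.spU 1 1 1 1 (11, 10, 9) (.leaf 49 346) (.leaf 48 345)))
    ((9, 8, 8), (5, 4, 4), (6, 6, 5))
    ((103, 102, 74), (104, 103, 74), (1, 1, 1)) 0 16 = true := by decide +kernel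

theorem partC3_160 : chkT datC3 [] (.leaf 35 328)
    ((1, 1, 0), (5, 5, 2), (4, 1, 1))
    ((102, 101, 74), (103, 102, 74), (1, 1, 1)) 0 16 = true := by decide +kernel

theorem partC3_196 : chkT datC3 [] (.leaf 36 328)
    ((2, 1, 1), (4, 1, 1), (5, 5, 2))
    ((97, 96, 74), (98, 97, 74), (1, 1, 1)) 0 16 = true := by decide +kernel

theorem partC3_222 : chkT datC3 [] (.spS 8 (.leaf 38 331) (.leaf 38 332))
    ((3, 3, 2), (6, 6, 5), (3, 2, 2))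
    ((94, 93, 74), (95, 94, 74), (1, 1, 1)) 0 16 = true := by decide +kernel

theorem partC3_226 : chkT datC3 [] (.leaf 36 327)
    ((2, 1, 1), (4, 1, 1), (5, 5, 2))
    ((93, 92, 74), (94, 93, 74), (1, 1, 1)) 0 16 = true := by decide +kernel

theorem partC3_237 : chkT datC3 [] (.spU 1 2 1 3 (2, 1, 1) (.leaf 36 305) (.spU 0 1 1 1 (3, 2, 2) (.leaf 35 305) (.spU 2 1 4 3 (3, 3, 2) (.spU 1 2 1 1 (5, 4, 4) (.leaf 36 307) (.spU 2 1 3 1 (6, 6, 5) (.spU 1 4 1 1 (9, 8, 8) (.leaf 45 317) (.leaf 42 314)) (.leaf 40 312))) (.leaf 37 307))))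
    ((5, 5, 2), (1, 1, 1), (4, 1, 1))
    ((42, 41, 36), (1, 1, 1), (43, 41, 39)) 0 16 = true := by decide +kernel

end Vale.Agent.P154.Sep2
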