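import Mathlib
import Vale.Agent.P154.C3Data

namespace Vale.Agent.P154.Sep2

theorem homC3_m : hom 20 (eM fullC3) = true := by decide +kernel
theorem oneC3_m : chkFan (eM fullC3) 20 [(.leaf 0 209),
    (.leaf 0 219),
    (.leaf 0 206),
    (.leaf 0 212)]
    (fanCells fullC3.fan) = true := by decide +kernel
theorem homC3_n : hom 40 (eN fullC3) = true := by decide +kernel
theorem oneC3_n : chkFan (eN fullC3) 40 [(.spU 0 3 2 1 (5, 5, 2) (.leaf 0 345) (.spU 2 1 130 1 (223, 222, 74) (.spU 1 6 1 1 (11, 11, 2) (.leaf 0 391) (.spU 2 1 260 1 (483, 482, 74) (.spU 1 12 1 1 (23, 23, 2) (.leaf 0 434) (.spU 2 1 520 1 (1003, 1002, 74) (.spU 1 24 1 1 (47, 47, 2) (.spU 0 1 2 3 (31, 31, 2) (.leaf 0 474) (.leaf 0 475)) (.leaf 0 474)) (.leaf 0 495))) (.leaf 0 454))) (.leaf 0 409))),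
    (.leaf 0 363),
    (.leaf 0 338),
    (.leaf 0 348)]
    (fanCells fullC3.fan) = true := by decide +kernel
theorem homC3_w : hom 20 (eW fullC3) = true := by decide +kernel
theorem oneC3_w : chk1 (eW fullC3) 20 (.spU 2 1 3 1 (4, 1, 1) (.leaf 0 120) (.spU 0 2 1 3 (2, 1, 1) (.leaf 0 126) (.spU 2 3 2 1 (5, 5, 2) (.leaf 0 134) (.leaf 0 134))))
    U0 = true := by decide +kernel

end Vale.Agent.P154.Sep2
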