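import Mathlib
import Vale.Agent.P154.C3Data

namespace Vale.Agent.P154.Sep2

/-- piece 0: 15 leaves -/
def pcC3_0 : Pc := ⟨6, 100000000, [(1, 0, 100000000), (2, 0, 7848379), (1, 1, 8233713), (3, 0, (-1955419)), (0, 2, 1151880)]⟩
theorem homuC3_0 : hom (pcC3_0.w * fullC3.D.r) (eRp fullC3 pcC3_0) = true := by decide +kernel
theorem uC3_0 : chk1 (eRp fullC3 pcC3_0) (pcC3_0.w * fullC3.D.r)
    (.spU 2 1 3 1 (4, 1, 1) (.leaf 0 251) (.spU 0 2 1 3 (2, 1, 1) (.leaf 0 266) (.spU 2 3 2 1 (5, 5, 2) (.spU 2 3 1 1 (11, 8, 5) (.spU 1 1 4 3 (3, 3, 2) (.spU 1 7 1 3 (6, 5, 4) (.leaf 0 361) (.spU 2 1 3 1 (6, 6, 5) (.leaf 0 328) (.leaf 0 340))) (.leaf 0 357)) (.spU 2 4 3 1 (10, 7, 7) (.leaf 0 372) (.leaf 0 368))) (.spU 2 1 2 1 (4, 3, 1) (.leaf 0 302) (.spU 2 1 3 1 (11, 8, 5) (.leaf 0 345) (.spU 2 3 2 1 (22, 19, 7) (.spU 1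 2 1 3 (7, 6, 3) (.leaf 0 420) (.spU 1 3 1 1 (43, 37, 16) (.spU 1 1 4 3 (14, 13, 5) (.leaf 0 460) (.leaf 0 480)) (.leaf 0 449))) (.leaf 0 413)))))))
    U0 = true := by decide +kernel

end Vale.Agent.P154.Sep2
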