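import Mathlib
import Vale.Agent.P154.C3Data

namespace Vale.Agent.P154.Sep2

/-- piece 1: 13 leaves -/
def pcC3_1 : Pc := ⟨6, 100000000, [(0, 0, (-5737755)), (1, 0, 124262646), (0, 1, 1012083), (2, 0, (-27970360)), (1, 1, 8097051), (3, 0, 15258787), (0, 2, 2131769)]⟩
theorem homuC3_1 : hom (pcC3_1.w * fullC3.D.r) (eRp fullC3 pcC3_1) = true := by decide +kernel
theorem uC3_1 : chk1 (eRp fullC3 pcC3_1) (pcC3_1.w * fullC3.D.r)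
    (.spU 2 1 3 1 (4, 1, 1) (.leaf 0 251) (.spU 0 2 1 3 (2, 1, 1) (.leaf 0 266) (.spU 2 3 2 1 (5, 5, 2) (.spU 2 3 1 1 (11, 8, 5) (.leaf 0 347) (.spU 2 4 3 1 (10, 7, 7) (.leaf 0 372) (.spU 2 1 7 3 (6, 5, 4) (.spU 1 8 1 3 (6, 5, 5) (.leaf 0 370) (.leaf 0 326)) (.leaf 0 386)))) (.spU 2 1 2 1 (4, 3, 1) (.leaf 0 302) (.spU 2 1 3 1 (11, 8, 5) (.leaf 0 345) (.spU 2 3 2 1 (22, 19, 7) (.spU 1 2 1 3 (7, 6, 3) (.leaf 0 420) (.spU 1 3 1 1 (43, 37, 16) (.leaf 0 470) (.leaf 0 449))) (.leaf 0 413)))))))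
    U0 = true := by decide +kernel

end Vale.Agent.P154.Sep2
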