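import Mathlib
import Vale.Agent.P154.C3Data

namespace Vale.Agent.P154.Sep2

/-- piece 2: 14 leaves -/
def pcC3_2 : Pc := ⟨6, 100000000, [(0, 0, (-492989905)), (1, 0, 963416893), (0, 1, 487461642), (2, 0, (-677420899)), (1, 1, (-560203369)), (3, 0, 297165355), (0, 2, 128722433)]⟩
theorem homuC3_2 : hom (pcC3_2.w * fullC3.D.r) (eRp fullC3 pcC3_2) = true := by decide +kernel
theorem uC3_2 : chk1 (eRp fullC3 pcC3_2) (pcC3_2.w * fullC3.D.r)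
    (.spU 2 1 3 1 (4, 1, 1) (.leaf 0 251) (.spU 0 2 1 3 (2, 1, 1) (.leaf 0 266) (.spU 2 3 2 1 (5, 5, 2) (.spU 2 3 1 1 (11, 8, 5) (.spU 1 1 4 3 (3, 3, 2) (.spU 1 7 1 3 (6, 5, 4) (.leaf 0 361) (.leaf 0 304)) (.leaf 0 357)) (.spU 2 4 3 1 (10, 7, 7) (.leaf 0 372) (.spU 2 1 7 3 (6, 5, 4) (.spU 1 8 1 3 (6, 5, 5) (.spU 2 1 1 1 (12, 10, 9) (.spU 1 3 2 1 (38, 29, 29) (.leaf 0 457) (.leaf 0 451)) (.leaf 0 391)) (.leaf 0 326)) (.leaf 0 386)))) (.spU 2 1 2 1 (4, 3, 1) (.leaf 0 302) (.spU 2 1 3 1 (11, 8, 5) (.leaf 0 345) (.leaf 0 360))))))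
    U0 = true := by decide +kernel

end Vale.Agent.P154.Sep2
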