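import Mathlib
import Vale.Agent.P154.C3Data

namespace Vale.Agent.P154.Sep2

/-- piece 3: 17 leaves -/
def pcC3_3 : Pc := ⟨6, 100000000, [(0, 0, (-1000002)), (1, 0, (-144158250742)), (0, 1, 210190952772), (2, 0, 150408022470), (1, 1, (-329664889223)), (3, 0, 17213532175), (0, 2, 111939551694)]⟩
theorem homuC3_3 : hom (pcC3_3.w * fullC3.D.r) (eRp fullC3 pcC3_3) = true := by decide +kernel
theorem uC3_3 : chk1 (eRp fullC3 pcC3_3) (pcC3_3.w * fullC3.D.r)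
    (.spU 2 1 3 1 (4, 1, 1) (.spU 1 2 1 1 (3, 1, 0) (.leaf 0 282) (.leaf 0 282)) (.spU 0 2 1 3 (2, 1, 1) (.leaf 0 271) (.spU 2 3 2 1 (5, 5, 2) (.spU 2 3 1 1 (11, 8, 5) (.leaf 0 349) (.spU 2 4 3 1 (10, 7, 7) (.spU 2 1 1 3 (7, 5, 4) (.spU 1 1 5 4 (5, 3, 3) (.leaf 0 331) (.leaf 0 370)) (.leaf 0 362)) (.spU 2 1 7 3 (6, 5, 4) (.leaf 0 349) (.spU 2 1 1 3 (7, 5, 4) (.spU 1 3 5 7 (9, 7, 5) (.spU 1 1 1 1 (13, 10, 8) (.leaf 0 395) (.leaf 0 392)) (.leaf 0 388)) (.spU 2 3 2 1 (38, 29, 26) (.leaf 0 450) (.spU 2 1 1 1 (13, 10, 8) (.leaf 0 453) (.leaf 0 455))))))) (.spU 2 1 2 1 (4, 3, 1) (.leaf 0 304) (.spU 2 1 3 1 (11, 8, 5) (.leaf 0 348) (.leaf 0 363))))))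
    U0 = true := by decide +kernel

end Vale.Agent.P154.Sep2
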