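import Mathlib
import Vale.Agent.P154.C3Data

namespace Vale.Agent.P154.Sep2

/-- piece 4: 17 leaves -/
def pcC3_4 : Pc := ⟨6, 100000000, [(0, 0, (-283800215492)), (1, 0, (-7358325147874)), (0, 1, 11633880462015), (2, 0, 6289192960396), (1, 1, (-14899462744534)), (3, 0, 1018840155543), (0, 2, 4505957328506)]⟩
theorem homuC3_4 : hom (pcC3_4.w * fullC3.D.r) (eRp fullC3 pcC3_4) = true := by decide +kernel
theorem uC3_4 : chk1 (eRp fullC3 pcC3_4) (pcC3_4.w * fullC3.D.r)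
    (.spU 2 1 3 1 (4, 1, 1) (.spU 1 2 1 1 (3, 1, 0) (.spU 1 3 1 1 (7, 4, 1) (.leaf 0 336) (.leaf 0 315)) (.leaf 0 288)) (.spU 0 2 1 3 (2, 1, 1) (.spU 1 1 3 1 (7, 4, 1) (.spU 1 2 1 1 (4, 3, 1) (.leaf 0 330) (.leaf 0 323)) (.leaf 0 330)) (.spU 2 3 2 1 (5, 5, 2) (.spU 2 3 1 1 (11, 8, 5) (.leaf 0 354) (.spU 2 4 3 1 (10, 7, 7) (.spU 2 1 1 3 (7, 5, 4) (.spU 1 1 5 4 (5, 3, 3) (.spU 1 4 1 1 (15, 9, 8) (.leaf 0 393) (.leaf 0 375)) (.leaf 0 375)) (.spU 2 6 1 1 (23, 14, 11) (.leaf 0 429) (.spU 2 1 4 1 (15, 9, 8) (.leaf 0 427) (.leaf 0 437)))) (.leaf 0 376))) (.spU 2 1 2 1 (4, 3, 1) (.leaf 0 310) (.spU 2 1 3 1 (11, 8, 5) (.leaf 0 353) (.leaf 0 368))))))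
    U0 = true := by decide +kernel

end Vale.Agent.P154.Sep2
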