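import Mathlib
import Vale.Agent.P154.C3Data

namespace Vale.Agent.P154.Sep2

/-- cell 1: 9 leaves -/
theorem vC3_1 : chkFanP fullC3 pcC3 [(.spU 0 1 86 1 (179, 178, 160) (.spU 1 40 1 1 (82, 81, 76) (.spU 0 3 7 10 (54, 53, 48) (.leaf 1 606) (.leaf 0 618)) (.leaf 0 602)) (.spU 0 2 1 1 (365, 362, 308) (.leaf 1 671) (.spU 2 2 1 1 (177, 174, 146) (.spU 1 4 1 1 (737, 730, 604) (.leaf 1 738) (.spU 2 1 2 1 (363, 358, 294) (.spU 1 8 1 1 (1481, 1466, 1196) (.leaf 1 798) (.leaf 2 774)) (.leaf 1 738))) (.leaf 1 670))))]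
    [((93, 92, 74), (1, 1, 1), (42, 41, 36))] = true := by decide +kernel

end Vale.Agent.P154.Sep2
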