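import Mathlib
import Vale.Agent.P154.C3Data

namespace Vale.Agent.P154.Sep2

/-- cell 2: 4 leaves -/
theorem vC3_2 : chkFanP fullC3 pcC3 [(.spU 0 1 40 1 (82, 81, 76) (.leaf 0 538) (.spU 0 7 3 10 (54, 53, 48) (.leaf 0 568) (.spU 2 1 1 1 (85, 82, 75) (.leaf 1 569) (.leaf 0 569))))]
    [((42, 41, 36), (1, 1, 1), (43, 41, 39))] = true := by decide +kernel

end Vale.Agent.P154.Sep2
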