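import Mathlib
import Vale.Agent.P154.C3Data

namespace Vale.Agent.P154.Sep2

/-- cell 3: 1 leaves -/
theorem vC3_3 : chkFanP fullC3 pcC3 [(.leaf 0 520)]
    [((43, 41, 39), (1, 1, 1), (59, 55, 55))] = true := by decide +kernel

end Vale.Agent.P154.Sep2
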