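import Vale.Agent.P154.Kron

namespace Vale.Agent.P154

namespace PExp

/-- sum of cubes of products -/
def cS (a b c x y z : PExp) : PExp :=
  add (add (mul (pow a 3) (pow x 3)) (mul (pow b 3) (pow y 3))) (mul (pow c 3) (pow z 3))

def cN (a b c x y z : PExp) : PExp :=
  add (add (mul (pow a 6) (pow x 6)) (mul (pow b 6) (pow y 6))) (mul (pow c 6) (pow z 6))

def cT (a b c : PExp) : PExp := add (add (pow a 3) (pow b 3)) (pow c 3)

def cn (a b c : PExp) : PExp := add (add (pow a 6) (pow b 6)) (pow c 6)

def cg (a b c : PExp) : PExp := mul (mul a b) c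

def cH (a b c : PExp) : PExp :=
  sub (add (add (mul (k 15) (cn a b c)) (mul (k 6) (mul (cg a b c) (cT a b c))))
    (mul (k 36) (pow (cg a b c) 2))) (mul (k 11) (pow (cT a b c) 2))

def cw (a b c : PExp) : PExp := sub (mul (k 3) (cn a b c)) (pow (cT a b c) 2)

def cSS (a b c x y z : PExp) : PExp :=
  mul (mul (cS a b c x y z) (cS a b c y z x)) (cS a b c z x y)

def cM (a b c x y z : PExp) : PExp :=
  add (add (mul (cN a b c x y z) (mul (cS a b c y z x) (cS a b c z x y)))
    (mul (cN a b c y z x) (mul (cS a b c x y z) (cS a b c z x y))))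
    (mul (cN a b c z x y) (mul (cS a b c x y z) (cS a b c y z x)))

def cL (a b c x y z : PExp) : PExp :=
  add (add (mul (cS a b c y z x) (cS a b c z x y))
    (mul (cS a b c x y z) (cS a b c z x y)))
    (mul (cS a b c x y z) (cS a b c y z x))

def cQ (a b c x y z : PExp) : PExp :=
  sub (add
    (mul (mul (cT a b c) (cT x y z)) (add (mul (k 15) (cM a b c x y z))
      (mul (mul (k 36) (pow (mul (cg a b c) (cg x y z)) 2)) (cL a b c x y z))))
    (mul (mul (cSS a b c x y z) (mul (cT a b c) (cT x y z)))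
      (sub (mul (k 18) (mul (cg a b c) (cg x y z))) (mul (k 11) (mul (cT a b c) (cT x y z))))))
    (mul (mul (k 9) (cSS a b c x y z)) (add (mul (pow (cg x y z) 2) (cH a b c))
      (mul (pow (cg a b c) 2) (cH x y z))))

def cU (a b c x y z : PExp) : PExp :=
  sub (add (mul (cSS a b c x y z)
    (sub (sub (mul (k 100) (add (mul (cw a b c) (pow (cT x y z) 2))
        (mul (cw x y z) (pow (cT a b c) 2))))
      (mul (k 15) (add (mul (cH a b c) (sub (pow (cT x y z) 2) (mul (k 9) (pow (cg x y z) 2))))
        (mul (cH x y z) (sub (pow (cT a b c) 2) (mul (k 9) (pow (cg a b c) 2)))))))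
      (mul (k 2) (mul (cw a b c) (cw x y z)))))
    (mul (k 100) (mul (pow (mul (cT a b c) (cT x y z)) 2) (cSS a b c x y z))))
    (mul (mul (k 300) (mul (cT a b c) (cT x y z))) (cM a b c x y z))

def tA : PExp := add (add (k 1) (v 0)) (v 1)
def tB : PExp := add (k 1) (v 0)
def tC : PExp := k 1
def uA : PExp := add (add (k 1) (v 2)) (v 3)
def uB : PExp := add (k 1) (v 2)

end PExp

open PExp

theorem certQ0 : chk 96 16 4 (cQ tA tB tC uA uB tC) = true := by decide +kernel

theorem certQ1 : chk 96 16 4 (cQ tA tB tC uB uA tC) = true := by decide +kernel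

theorem certU0 : chk 96 16 4 (cU tA tB tC uA uB tC) = true := by decide +kernel

theorem certU1 : chk 96 16 4 (cU tA tB tC uB uA tC) = true := by decide +kernel

end Vale.Agent.P154
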