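import Vale.Agent.P154.Chan

namespace Vale.Agent.P154

/-- geometric mean -/
noncomputable def G3 (x : Fin 3 → ℝ) : ℝ := (x 0 * x 1 * x 2) ^ (1 / 3 : ℝ)

noncomputable def A3 (x : Fin 3 → ℝ) : ℝ := G3 x ^ 2 / Z x

noncomputable def H3 (x : Fin 3 → ℝ) : ℝ :=
  W x + 2 / 5 * G3 x + 4 / 5 * (G3 x ^ 2 / Z x) - 6 / 5 * Z x

end Vale.Agent.P154
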