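import Vale.Agent.P154.Ineq3
import Vale.Agent.P154.Functionals

/-!
# P154: the functional inequalities for three colours, in the `Fin 3` form
-/

namespace Vale.Agent.P154

open PExp

theorem Z_three (u : Fin 3 → ℝ) : Z u = (u 0 + u 1 + u 2) / 3 := by
  unfold Z; rw [Fin.sum_univ_three]; norm_num

theorem W_three (u : Fin 3 → ℝ) : W u = w3 (u 0) (u 1) (u 2) := by
  unfold W w3 fW; rw [Fin.sum_univ_three, Fin.sum_univ_three]; norm_num

theorem G3_eq (u : Fin 3 → ℝ) : G3 u = g3 (u 0) (u 1) (u 2) := rfl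

theorem A3_eq (u : Fin 3 → ℝ) : A3 u = al3 (u 0) (u 1) (u 2) := by
  unfold A3 al3; rw [Z_three, G3_eq]

theorem H3_eq (u : Fin 3 → ℝ) : H3 u = h3 (u 0) (u 1) (u 2) := by
  unfold H3; rw [h3_eq, W_three, G3_eq, Z_three]; unfold al3; ring

theorem sum_rot (F : (Fin 3 → ℝ) → ℝ) (u v : Fin 3 → ℝ) :
    ∑ k : Fin 3, F (fun i => u i * v (i + k)) =
      F (fun i => u i * v i) + F (fun i => u i * v (i + 1)) + F (fun i => u i * v (i + 2)) := by
  rw [Fin.sum_univ_three]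
  simp only [add_zero]

theorem fin3_a : (0 : Fin 3) + 1 = 1 := by decide
theorem fin3_b : (1 : Fin 3) + 1 = 2 := by decide
theorem fin3_c : (2 : Fin 3) + 1 = 0 := by decide
theorem fin3_d : (0 : Fin 3) + 2 = 2 := by decide
theorem fin3_e : (1 : Fin 3) + 2 = 0 := by decide
theorem fin3_f : (2 : Fin 3) + 2 = 1 := by decide

theorem pair_H (u v : Fin 3 → ℝ) (hu : ∀ i, 0 ≤ u i) (hv : ∀ i, 0 ≤ v i) :
    3 * (A3 v * H3 u + A3 u * H3 v) ≤ ∑ k : Fin 3, H3 (fun i => u i * v (i + k)) := by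
  have h := QS_nonneg (hu 0) (hu 1) (hu 2) (hv 0) (hv 1) (hv 2)
  unfold QS at h
  rw [sum_rot H3 u v]
  simp only [H3_eq, A3_eq, fin3_a, fin3_b, fin3_c, fin3_d, fin3_e, fin3_f]
  exact h

theorem pair_W (u v : Fin 3 → ℝ) (hu : ∀ i, 0 ≤ u i) (hv : ∀ i, 0 ≤ v i) :
    ∑ k : Fin 3, W (fun i => u i * v (i + k)) ≤
      3 * (W u * Z v + W v * Z u - H3 u * (3 / 4 * (Z v - A3 v))
        - H3 v * (3 / 4 * (Z u - A3 u)) - 1 / 50 * (W u * W v)) := by
  have h := US_nonneg (hu 0) (hu 1) (hu 2) (hv 0) (hv 1) (hv 2)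
  unfold US at h
  rw [sum_rot W u v]
  simp only [H3_eq, A3_eq, W_three, Z_three, fin3_a, fin3_b, fin3_c, fin3_d, fin3_e, fin3_f]
  exact h

theorem A3_nonneg (u : Fin 3 → ℝ) (hu : ∀ i, 0 ≤ u i) : 0 ≤ A3 u := by
  rw [A3_eq]
  unfold al3
  have h0 := hu 0
  have h1 := hu 1
  have h2 := hu 2
  positivity

theorem amgm3 {a b c : ℝ} (ha : 0 ≤ a) (hb : 0 ≤ b) (hc : 0 ≤ c) :
    g3 a b c ≤ (a + b + c) / 3 := by
  have h : a * b * c ≤ ((a + b + c) / 3) ^ 3 := by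
    nlinarith [mul_nonneg (add_nonneg (add_nonneg ha hb) hc) (sq_nonneg (a - b)),
      mul_nonneg (add_nonneg (add_nonneg ha hb) hc) (sq_nonneg (b - c)),
      mul_nonneg (add_nonneg (add_nonneg ha hb) hc) (sq_nonneg (c - a)),
      mul_nonneg ha (sq_nonneg (b - c)), mul_nonneg hb (sq_nonneg (c - a)),
      mul_nonneg hc (sq_nonneg (a - b))]
  unfold g3
  calc (a * b * c) ^ (1 / 3 : ℝ) ≤ (((a + b + c) / 3) ^ 3) ^ (1 / 3 : ℝ) :=
        Real.rpow_le_rpow (by positivity) h (by norm_num)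
    _ = (a + b + c) / 3 := cube_root_cube (by positivity)

theorem A3_le (u : Fin 3 → ℝ) (hu : ∀ i, 0 ≤ u i) : A3 u ≤ Z u := by
  rw [A3_eq, Z_three]
  have h0 := hu 0
  have h1 := hu 1
  have h2 := hu 2
  have hg := amgm3 h0 h1 h2
  have hg0 := g3_nonneg h0 h1 h2
  unfold al3
  rcases eq_or_lt_of_le (show 0 ≤ (u 0 + u 1 + u 2) / 3 by positivity) with h | h
  · rw [← h]; simp
  · rw [div_le_iff₀ h]
    nlinarith

end Vale.Agent.P154
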