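import Vale.Agent.P154.Cert

namespace Vale.Agent.P154

open PExp

noncomputable def rS (a b c x y z : ℝ) : ℝ := a ^ 3 * x ^ 3 + b ^ 3 * y ^ 3 + c ^ 3 * z ^ 3
noncomputable def rN (a b c x y z : ℝ) : ℝ := a ^ 6 * x ^ 6 + b ^ 6 * y ^ 6 + c ^ 6 * z ^ 6
noncomputable def rT (a b c : ℝ) : ℝ := a ^ 3 + b ^ 3 + c ^ 3
noncomputable def rn (a b c : ℝ) : ℝ := a ^ 6 + b ^ 6 + c ^ 6
noncomputable def rg (a b c : ℝ) : ℝ := a * b * c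

noncomputable def qQ (T T1 S0 S1 S2 N0 N1 N2 g g1 n n1 : ℝ) : ℝ :=
  T * T1 * (15 * (N0 * (S1 * S2) + N1 * (S0 * S2) + N2 * (S0 * S1))
      + 36 * (g * g1) ^ 2 * (S1 * S2 + S0 * S2 + S0 * S1))
    + S0 * S1 * S2 * (T * T1) * (18 * (g * g1) - 11 * (T * T1))
    - 9 * (S0 * S1 * S2) * (g1 ^ 2 * (15 * n + 6 * (g * T) + 36 * g ^ 2 - 11 * T ^ 2)
      + g ^ 2 * (15 * n1 + 6 * (g1 * T1) + 36 * g1 ^ 2 - 11 * T1 ^ 2))

noncomputable def qU (T T1 S0 S1 S2 N0 N1 N2 g g1 n n1 : ℝ) : ℝ :=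
  S0 * S1 * S2 * (100 * ((3 * n - T ^ 2) * T1 ^ 2 + (3 * n1 - T1 ^ 2) * T ^ 2)
      - 15 * ((15 * n + 6 * (g * T) + 36 * g ^ 2 - 11 * T ^ 2) * (T1 ^ 2 - 9 * g1 ^ 2)
        + (15 * n1 + 6 * (g1 * T1) + 36 * g1 ^ 2 - 11 * T1 ^ 2) * (T ^ 2 - 9 * g ^ 2))
      - 2 * ((3 * n - T ^ 2) * (3 * n1 - T1 ^ 2)))
    + 100 * ((T * T1) ^ 2 * (S0 * S1 * S2))
    - 300 * (T * T1) * (N0 * (S1 * S2) + N1 * (S0 * S2) + N2 * (S0 * S1))

noncomputable def rQ (a b c x y z : ℝ) : ℝ :=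
  qQ (rT a b c) (rT x y z) (rS a b c x y z) (rS a b c y z x) (rS a b c z x y)
    (rN a b c x y z) (rN a b c y z x) (rN a b c z x y) (rg a b c) (rg x y z) (rn a b c) (rn x y z)

noncomputable def rU (a b c x y z : ℝ) : ℝ :=
  qU (rT a b c) (rT x y z) (rS a b c x y z) (rS a b c y z x) (rS a b c z x y)
    (rN a b c x y z) (rN a b c y z x) (rN a b c z x y) (rg a b c) (rg x y z) (rn a b c) (rn x y z)

theorem ev_cQ (e : ℕ → ℝ) (a b c x y z : PExp) :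
    ev e (cQ a b c x y z) = rQ (ev e a) (ev e b) (ev e c) (ev e x) (ev e y) (ev e z) := by
  simp only [cQ, cH, cn, cg, cT, cM, cN, cS, cSS, cL, ev, rQ, qQ, rS, rN, rT, rn, rg,
    Int.cast_ofNat]

theorem ev_cU (e : ℕ → ℝ) (a b c x y z : PExp) :
    ev e (cU a b c x y z) = rU (ev e a) (ev e b) (ev e c) (ev e x) (ev e y) (ev e z) := by
  simp only [cU, cw, cH, cn, cg, cT, cM, cN, cS, cSS, ev, rU, qU, rS, rN, rT, rn, rg,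
    Int.cast_ofNat]

/-- environment with four values -/
noncomputable def env4 (p q r s : ℝ) (i : ℕ) : ℝ :=
  if i = 0 then p else if i = 1 then q else if i = 2 then r else if i = 3 then s else 0

theorem env4_nonneg {p q r s : ℝ} (hp : 0 ≤ p) (hq : 0 ≤ q) (hr : 0 ≤ r) (hs : 0 ≤ s) (i : ℕ) :
    0 ≤ env4 p q r s i := by
  unfold env4
  split_ifs <;> first | assumption | exact le_refl 0

theorem rQ_c0 {p q r s : ℝ} (hp : 0 ≤ p) (hq : 0 ≤ q) (hr : 0 ≤ r) (hs : 0 ≤ s) :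
    0 ≤ rQ (1 + p + q) (1 + p) 1 (1 + r + s) (1 + r) 1 := by
  have h := ev_nonneg 96 16 4 _ certQ0 (by norm_num) (env4 p q r s) (env4_nonneg hp hq hr hs)
  rw [ev_cQ] at h
  simpa [ev, tA, tB, tC, uA, uB, env4] using h

theorem rQ_c1 {p q r s : ℝ} (hp : 0 ≤ p) (hq : 0 ≤ q) (hr : 0 ≤ r) (hs : 0 ≤ s) :
    0 ≤ rQ (1 + p + q) (1 + p) 1 (1 + r) (1 + r + s) 1 := by
  have h := ev_nonneg 96 16 4 _ certQ1 (by norm_num) (env4 p q r s) (env4_nonneg hp hq hr hs)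
  rw [ev_cQ] at h
  simpa [ev, tA, tB, tC, uA, uB, env4] using h

theorem rU_c0 {p q r s : ℝ} (hp : 0 ≤ p) (hq : 0 ≤ q) (hr : 0 ≤ r) (hs : 0 ≤ s) :
    0 ≤ rU (1 + p + q) (1 + p) 1 (1 + r + s) (1 + r) 1 := by
  have h := ev_nonneg 96 16 4 _ certU0 (by norm_num) (env4 p q r s) (env4_nonneg hp hq hr hs)
  rw [ev_cU] at h
  simpa [ev, tA, tB, tC, uA, uB, env4] using h

theorem rU_c1 {p q r s : ℝ} (hp : 0 ≤ p) (hq : 0 ≤ q) (hr : 0 ≤ r) (hs : 0 ≤ s) :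
    0 ≤ rU (1 + p + q) (1 + p) 1 (1 + r) (1 + r + s) 1 := by
  have h := ev_nonneg 96 16 4 _ certU1 (by norm_num) (env4 p q r s) (env4_nonneg hp hq hr hs)
  rw [ev_cU] at h
  simpa [ev, tA, tB, tC, uA, uB, env4] using h

/-- the value of `W` in terms of power sums -/
noncomputable def fW (n T : ℝ) : ℝ := n / T - T / 3

noncomputable def fH (n T g : ℝ) : ℝ := n / T - T / 3 + 2 / 5 * g + 4 / 5 * (g ^ 2 / (T / 3)) - 6 / 5 * (T / 3)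

theorem alg_Q (T T1 S0 S1 S2 N0 N1 N2 g g1 n n1 : ℝ) (hT : 0 < T) (hT1 : 0 < T1) (h0 : 0 < S0)
    (h1 : 0 < S1) (h2 : 0 < S2) (hS : S0 + S1 + S2 = T * T1)
    (h : 0 ≤ qQ T T1 S0 S1 S2 N0 N1 N2 g g1 n n1) :
    3 * (g1 ^ 2 / (T1 / 3) * fH n T g + g ^ 2 / (T / 3) * fH n1 T1 g1) ≤
      fH N0 S0 (g * g1) + fH N1 S1 (g * g1) + fH N2 S2 (g * g1) := by
  have key : fH N0 S0 (g * g1) + fH N1 S1 (g * g1) + fH N2 S2 (g * g1)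
      - 3 * (g1 ^ 2 / (T1 / 3) * fH n T g + g ^ 2 / (T / 3) * fH n1 T1 g1)
      = qQ T T1 S0 S1 S2 N0 N1 N2 g g1 n n1 / (15 * T * T1 * (S0 * S1 * S2)) := by
    have e1 : fH N0 S0 (g * g1) + fH N1 S1 (g * g1) + fH N2 S2 (g * g1)
        = (N0 + 12 / 5 * (g * g1) ^ 2) / S0 + (N1 + 12 / 5 * (g * g1) ^ 2) / S1
          + (N2 + 12 / 5 * (g * g1) ^ 2) / S2 - 11 / 15 * (T * T1) + 6 / 5 * (g * g1) := by
      rw [← hS]
      unfold fH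
      field_simp
      ring
    rw [e1]
    unfold fH qQ
    field_simp
    ring
  have hpos : 0 ≤ qQ T T1 S0 S1 S2 N0 N1 N2 g g1 n n1 / (15 * T * T1 * (S0 * S1 * S2)) := by
    apply div_nonneg h
    positivity
  linarith

theorem alg_U (T T1 S0 S1 S2 N0 N1 N2 g g1 n n1 : ℝ) (hT : 0 < T) (hT1 : 0 < T1) (h0 : 0 < S0)
    (h1 : 0 < S1) (h2 : 0 < S2) (hS : S0 + S1 + S2 = T * T1)
    (h : 0 ≤ qU T T1 S0 S1 S2 N0 N1 N2 g g1 n n1) :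
    fW N0 S0 + fW N1 S1 + fW N2 S2 ≤
      3 * (fW n T * (T1 / 3) + fW n1 T1 * (T / 3)
        - fH n T g * (3 / 4 * (T1 / 3 - g1 ^ 2 / (T1 / 3)))
        - fH n1 T1 g1 * (3 / 4 * (T / 3 - g ^ 2 / (T / 3)))
        - 1 / 50 * (fW n T * fW n1 T1)) := by
  have key : 3 * (fW n T * (T1 / 3) + fW n1 T1 * (T / 3)
        - fH n T g * (3 / 4 * (T1 / 3 - g1 ^ 2 / (T1 / 3)))
        - fH n1 T1 g1 * (3 / 4 * (T / 3 - g ^ 2 / (T / 3)))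
        - 1 / 50 * (fW n T * fW n1 T1)) - (fW N0 S0 + fW N1 S1 + fW N2 S2)
      = qU T T1 S0 S1 S2 N0 N1 N2 g g1 n n1 / (300 * T * T1 * (S0 * S1 * S2)) := by
    have e1 : fW N0 S0 + fW N1 S1 + fW N2 S2 = N0 / S0 + N1 / S1 + N2 / S2 - (T * T1) / 3 := by
      rw [← hS]
      unfold fW
      ring
    rw [e1]
    unfold fH fW qU
    field_simp
    ring
  have hpos : 0 ≤ qU T T1 S0 S1 S2 N0 N1 N2 g g1 n n1 / (300 * T * T1 * (S0 * S1 * S2)) := by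
    apply div_nonneg h
    positivity
  linarith

end Vale.Agent.P154
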