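import Vale.Agent.P154.Ineq1

namespace Vale.Agent.P154

noncomputable def g3 (a b c : ℝ) : ℝ := (a * b * c) ^ (1 / 3 : ℝ)
noncomputable def w3 (a b c : ℝ) : ℝ := fW (a ^ 2 + b ^ 2 + c ^ 2) (a + b + c)
noncomputable def h3 (a b c : ℝ) : ℝ := fH (a ^ 2 + b ^ 2 + c ^ 2) (a + b + c) (g3 a b c)
noncomputable def al3 (a b c : ℝ) : ℝ := g3 a b c ^ 2 / ((a + b + c) / 3)

def QS (a b c x y z : ℝ) : Prop :=
  3 * (al3 x y z * h3 a b c + al3 a b c * h3 x y z) ≤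
    h3 (a * x) (b * y) (c * z) + h3 (a * y) (b * z) (c * x) + h3 (a * z) (b * x) (c * y)

def US (a b c x y z : ℝ) : Prop :=
  w3 (a * x) (b * y) (c * z) + w3 (a * y) (b * z) (c * x) + w3 (a * z) (b * x) (c * y) ≤
    3 * (w3 a b c * ((x + y + z) / 3) + w3 x y z * ((a + b + c) / 3)
      - h3 a b c * (3 / 4 * ((x + y + z) / 3 - al3 x y z))
      - h3 x y z * (3 / 4 * ((a + b + c) / 3 - al3 a b c))
      - 1 / 50 * (w3 a b c * w3 x y z))

theorem cube_root_cube {x : ℝ} (hx : 0 ≤ x) : (x ^ 3) ^ (1 / 3 : ℝ) = x := by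
  rw [← Real.rpow_natCast, ← Real.rpow_mul hx]
  norm_num

theorem cube_of_root {x : ℝ} (hx : 0 ≤ x) : (x ^ (1 / 3 : ℝ)) ^ 3 = x := by
  rw [← Real.rpow_natCast, ← Real.rpow_mul hx]
  norm_num

theorem g3_cube {a b c : ℝ} (ha : 0 ≤ a) (hb : 0 ≤ b) (hc : 0 ≤ c) :
    g3 (a ^ 3) (b ^ 3) (c ^ 3) = a * b * c := by
  unfold g3
  rw [← mul_pow, ← mul_pow, cube_root_cube (by positivity)]

theorem g3_cube2 {a b c x y z : ℝ} (ha : 0 ≤ a) (hb : 0 ≤ b) (hc : 0 ≤ c)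
    (hx : 0 ≤ x) (hy : 0 ≤ y) (hz : 0 ≤ z) :
    g3 (a ^ 3 * x ^ 3) (b ^ 3 * y ^ 3) (c ^ 3 * z ^ 3) = (a * b * c) * (x * y * z) := by
  rw [← mul_pow, ← mul_pow, ← mul_pow, g3_cube (by positivity) (by positivity) (by positivity)]
  ring

theorem h3_cube {a b c : ℝ} (ha : 0 ≤ a) (hb : 0 ≤ b) (hc : 0 ≤ c) :
    h3 (a ^ 3) (b ^ 3) (c ^ 3) = fH (rn a b c) (rT a b c) (rg a b c) := by
  unfold h3 rn rT rg
  rw [g3_cube ha hb hc]
  congr 1
  ring

theorem w3_cube (a b c : ℝ) : w3 (a ^ 3) (b ^ 3) (c ^ 3) = fW (rn a b c) (rT a b c) := by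
  unfold w3 rn rT
  congr 1
  ring

theorem al3_cube {a b c : ℝ} (ha : 0 ≤ a) (hb : 0 ≤ b) (hc : 0 ≤ c) :
    al3 (a ^ 3) (b ^ 3) (c ^ 3) = rg a b c ^ 2 / (rT a b c / 3) := by
  unfold al3 rT rg
  rw [g3_cube ha hb hc]

theorem h3_cube2 {a b c x y z : ℝ} (ha : 0 ≤ a) (hb : 0 ≤ b) (hc : 0 ≤ c)
    (hx : 0 ≤ x) (hy : 0 ≤ y) (hz : 0 ≤ z) :
    h3 (a ^ 3 * x ^ 3) (b ^ 3 * y ^ 3) (c ^ 3 * z ^ 3)
      = fH (rN a b c x y z) (rS a b c x y z) (rg a b c * (x * y * z)) := by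
  unfold h3 rN rS rg
  rw [g3_cube2 ha hb hc hx hy hz]
  congr 1
  ring

theorem w3_cube2 (a b c x y z : ℝ) :
    w3 (a ^ 3 * x ^ 3) (b ^ 3 * y ^ 3) (c ^ 3 * z ^ 3) = fW (rN a b c x y z) (rS a b c x y z) := by
  unfold w3 rN rS
  congr 1
  ring

theorem sum_rS (a b c x y z : ℝ) :
    rS a b c x y z + rS a b c y z x + rS a b c z x y = rT a b c * rT x y z := by
  unfold rS rT; ring

theorem QS_cube {a b c x y z : ℝ} (ha : 0 < a) (hb : 0 < b) (hc : 0 < c)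
    (hx : 0 < x) (hy : 0 < y) (hz : 0 < z) (h : 0 ≤ rQ a b c x y z) :
    QS (a ^ 3) (b ^ 3) (c ^ 3) (x ^ 3) (y ^ 3) (z ^ 3) := by
  unfold QS
  rw [h3_cube ha.le hb.le hc.le, h3_cube hx.le hy.le hz.le, al3_cube ha.le hb.le hc.le,
    al3_cube hx.le hy.le hz.le, h3_cube2 ha.le hb.le hc.le hx.le hy.le hz.le,
    h3_cube2 ha.le hb.le hc.le hy.le hz.le hx.le, h3_cube2 ha.le hb.le hc.le hz.le hx.le hy.le]
  have e1 : y * z * x = rg x y z := by unfold rg; ring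
  have e2 : z * x * y = rg x y z := by unfold rg; ring
  have e3 : x * y * z = rg x y z := rfl
  rw [e1, e2, e3]
  apply alg_Q
  · unfold rT; positivity
  · unfold rT; positivity
  · unfold rS; positivity
  · unfold rS; positivity
  · unfold rS; positivity
  · exact sum_rS a b c x y z
  · exact h

theorem US_cube {a b c x y z : ℝ} (ha : 0 < a) (hb : 0 < b) (hc : 0 < c)
    (hx : 0 < x) (hy : 0 < y) (hz : 0 < z) (h : 0 ≤ rU a b c x y z) :
    US (a ^ 3) (b ^ 3) (c ^ 3) (x ^ 3) (y ^ 3) (z ^ 3) := by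
  unfold US
  rw [h3_cube ha.le hb.le hc.le, h3_cube hx.le hy.le hz.le, al3_cube ha.le hb.le hc.le,
    al3_cube hx.le hy.le hz.le, w3_cube, w3_cube, w3_cube2, w3_cube2, w3_cube2]
  apply alg_U (rT a b c) (rT x y z) (rS a b c x y z) (rS a b c y z x) (rS a b c z x y)
  · unfold rT; positivity
  · unfold rT; positivity
  · unfold rS; positivity
  · unfold rS; positivity
  · unfold rS; positivity
  · exact sum_rS a b c x y z
  · exact h

theorem g3_scale {s : ℝ} (hs : 0 ≤ s) {a b c : ℝ} (ha : 0 ≤ a) (hb : 0 ≤ b) (hc : 0 ≤ c) :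
    g3 (s * a) (s * b) (s * c) = s * g3 a b c := by
  unfold g3
  have : s * a * (s * b) * (s * c) = s ^ 3 * (a * b * c) := by ring
  rw [this, Real.mul_rpow (by positivity) (by positivity), cube_root_cube hs]

theorem w3_scale {s : ℝ} (hs : 0 < s) (a b c : ℝ) :
    w3 (s * a) (s * b) (s * c) = s * w3 a b c := by
  unfold w3 fW
  have e1 : s * a + s * b + s * c = s * (a + b + c) := by ring
  have e2 : (s * a) ^ 2 + (s * b) ^ 2 + (s * c) ^ 2 = s * (s * (a ^ 2 + b ^ 2 + c ^ 2)) := by ring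
  rw [e1, e2, mul_div_mul_left _ _ hs.ne']
  ring

theorem al3_scale {s : ℝ} (hs : 0 < s) {a b c : ℝ} (ha : 0 ≤ a) (hb : 0 ≤ b) (hc : 0 ≤ c) :
    al3 (s * a) (s * b) (s * c) = s * al3 a b c := by
  unfold al3
  rw [g3_scale hs.le ha hb hc]
  have e1 : (s * a + s * b + s * c) / 3 = s * ((a + b + c) / 3) := by ring
  have e2 : (s * g3 a b c) ^ 2 = s * (s * g3 a b c ^ 2) := by ring
  rw [e1, e2, mul_div_mul_left _ _ hs.ne']
  ring

theorem h3_eq (a b c : ℝ) :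
    h3 a b c = w3 a b c + 2 / 5 * g3 a b c + 4 / 5 * al3 a b c - 6 / 5 * ((a + b + c) / 3) := by
  unfold h3 w3 al3 fH fW
  ring

theorem h3_scale {s : ℝ} (hs : 0 < s) {a b c : ℝ} (ha : 0 ≤ a) (hb : 0 ≤ b) (hc : 0 ≤ c) :
    h3 (s * a) (s * b) (s * c) = s * h3 a b c := by
  rw [h3_eq, h3_eq, w3_scale hs, g3_scale hs.le ha hb hc, al3_scale hs ha hb hc]
  ring

theorem QS_scale {s r : ℝ} (hs : 0 < s) (hr : 0 < r) {a b c x y z : ℝ} (ha : 0 ≤ a) (hb : 0 ≤ b)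
    (hc : 0 ≤ c) (hx : 0 ≤ x) (hy : 0 ≤ y) (hz : 0 ≤ z) (h : QS a b c x y z) :
    QS (s * a) (s * b) (s * c) (r * x) (r * y) (r * z) := by
  unfold QS at h ⊢
  have hsr : 0 < s * r := mul_pos hs hr
  have e : ∀ p q p' q' p'' q'' : ℝ, 0 ≤ p → 0 ≤ q → 0 ≤ p' → 0 ≤ q' → 0 ≤ p'' → 0 ≤ q'' →
      h3 (s * p * (r * q)) (s * p' * (r * q')) (s * p'' * (r * q''))
        = s * r * h3 (p * q) (p' * q') (p'' * q'') := by
    intro p q p' q' p'' q'' hp hq hp' hq' hp'' hq''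
    rw [← h3_scale hsr (mul_nonneg hp hq) (mul_nonneg hp' hq') (mul_nonneg hp'' hq'')]
    congr 1 <;> ring
  rw [al3_scale hr hx hy hz, al3_scale hs ha hb hc, h3_scale hs ha hb hc, h3_scale hr hx hy hz,
    e _ _ _ _ _ _ ha hx hb hy hc hz, e _ _ _ _ _ _ ha hy hb hz hc hx,
    e _ _ _ _ _ _ ha hz hb hx hc hy]
  nlinarith [mul_le_mul_of_nonneg_left h hsr.le]

theorem US_scale {s r : ℝ} (hs : 0 < s) (hr : 0 < r) {a b c x y z : ℝ} (ha : 0 ≤ a) (hb : 0 ≤ b)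
    (hc : 0 ≤ c) (hx : 0 ≤ x) (hy : 0 ≤ y) (hz : 0 ≤ z) (h : US a b c x y z) :
    US (s * a) (s * b) (s * c) (r * x) (r * y) (r * z) := by
  unfold US at h ⊢
  have hsr : 0 < s * r := mul_pos hs hr
  have e : ∀ p q p' q' p'' q'' : ℝ,
      w3 (s * p * (r * q)) (s * p' * (r * q')) (s * p'' * (r * q''))
        = s * r * w3 (p * q) (p' * q') (p'' * q'') := by
    intro p q p' q' p'' q''
    rw [← w3_scale hsr]
    congr 1 <;> ring
  rw [al3_scale hr hx hy hz, al3_scale hs ha hb hc, h3_scale hs ha hb hc, h3_scale hr hx hy hz,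
    w3_scale hs, w3_scale hr, e, e, e]
  nlinarith [mul_le_mul_of_nonneg_left h hsr.le]

theorem exists_param {a b c : ℝ} (hc : 0 < c) (hbc : c ≤ b) (hab : b ≤ a) :
    ∃ p q : ℝ, 0 ≤ p ∧ 0 ≤ q ∧ a = c * (1 + p + q) ^ 3 ∧ b = c * (1 + p) ^ 3 := by
  have hb : 1 ≤ b / c := by rw [le_div_iff₀ hc]; linarith
  have ha : b / c ≤ a / c := by gcongr
  have h1 : (1 : ℝ) ≤ (b / c) ^ (1 / 3 : ℝ) := Real.one_le_rpow hb (by norm_num)
  have h2 : (b / c) ^ (1 / 3 : ℝ) ≤ (a / c) ^ (1 / 3 : ℝ) :=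
    Real.rpow_le_rpow (by linarith) ha (by norm_num)
  refine ⟨(b / c) ^ (1 / 3 : ℝ) - 1, (a / c) ^ (1 / 3 : ℝ) - (b / c) ^ (1 / 3 : ℝ), by linarith,
    by linarith, ?_, ?_⟩
  · have : 1 + ((b / c) ^ (1 / 3 : ℝ) - 1) + ((a / c) ^ (1 / 3 : ℝ) - (b / c) ^ (1 / 3 : ℝ))
        = (a / c) ^ (1 / 3 : ℝ) := by ring
    rw [this, cube_of_root (by linarith)]
    field_simp
  · have : 1 + ((b / c) ^ (1 / 3 : ℝ) - 1) = (b / c) ^ (1 / 3 : ℝ) := by ring
    rw [this, cube_of_root (by linarith)]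
    field_simp

theorem QS_ch0 {a b c x y z : ℝ} (hc : 0 < c) (hbc : c ≤ b) (hab : b ≤ a) (hz : 0 < z)
    (hyz : z ≤ y) (hxy : y ≤ x) : QS a b c x y z := by
  obtain ⟨p, q, hp, hq, rfl, rfl⟩ := exists_param hc hbc hab
  obtain ⟨r, s, hr, hs, rfl, rfl⟩ := exists_param hz hyz hxy
  have h := QS_scale hc hz (by positivity) (by positivity) (by positivity) (by positivity)
    (by positivity) (by positivity)
    (QS_cube (by positivity) (by positivity) one_pos (by positivity) (by positivity) one_pos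
      (rQ_c0 hp hq hr hs))
  simpa using h

theorem QS_ch1 {a b c x y z : ℝ} (hc : 0 < c) (hbc : c ≤ b) (hab : b ≤ a) (hz : 0 < z)
    (hyz : z ≤ x) (hxy : x ≤ y) : QS a b c x y z := by
  obtain ⟨p, q, hp, hq, rfl, rfl⟩ := exists_param hc hbc hab
  obtain ⟨r, s, hr, hs, rfl, rfl⟩ := exists_param hz hyz hxy
  have h := QS_scale hc hz (by positivity) (by positivity) (by positivity) (by positivity)
    (by positivity) (by positivity)
    (QS_cube (by positivity) (by positivity) one_pos (by positivity) (by positivity) one_pos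
      (rQ_c1 hp hq hr hs))
  simpa using h

theorem US_ch0 {a b c x y z : ℝ} (hc : 0 < c) (hbc : c ≤ b) (hab : b ≤ a) (hz : 0 < z)
    (hyz : z ≤ y) (hxy : y ≤ x) : US a b c x y z := by
  obtain ⟨p, q, hp, hq, rfl, rfl⟩ := exists_param hc hbc hab
  obtain ⟨r, s, hr, hs, rfl, rfl⟩ := exists_param hz hyz hxy
  have h := US_scale hc hz (by positivity) (by positivity) (by positivity) (by positivity)
    (by positivity) (by positivity)
    (US_cube (by positivity) (by positivity) one_pos (by positivity) (by positivity) one_pos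
      (rU_c0 hp hq hr hs))
  simpa using h

theorem US_ch1 {a b c x y z : ℝ} (hc : 0 < c) (hbc : c ≤ b) (hab : b ≤ a) (hz : 0 < z)
    (hyz : z ≤ x) (hxy : x ≤ y) : US a b c x y z := by
  obtain ⟨p, q, hp, hq, rfl, rfl⟩ := exists_param hc hbc hab
  obtain ⟨r, s, hr, hs, rfl, rfl⟩ := exists_param hz hyz hxy
  have h := US_scale hc hz (by positivity) (by positivity) (by positivity) (by positivity)
    (by positivity) (by positivity)
    (US_cube (by positivity) (by positivity) one_pos (by positivity) (by positivity) one_pos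
      (rU_c1 hp hq hr hs))
  simpa using h

end Vale.Agent.P154
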