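import Vale.Agent.P154.Ineq2

namespace Vale.Agent.P154

open Filter Topology

theorem g3_rot (a b c : ℝ) : g3 b c a = g3 a b c := by
  unfold g3; congr 1; ring

theorem g3_swap (a b c : ℝ) : g3 b a c = g3 a b c := by
  unfold g3; congr 1; ring

theorem w3_rot (a b c : ℝ) : w3 b c a = w3 a b c := by
  unfold w3; congr 1 <;> ring

theorem w3_swap (a b c : ℝ) : w3 b a c = w3 a b c := by
  unfold w3; congr 1 <;> ring

theorem al3_rot (a b c : ℝ) : al3 b c a = al3 a b c := by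
  unfold al3; rw [g3_rot]; congr 1; ring

theorem al3_swap (a b c : ℝ) : al3 b a c = al3 a b c := by
  unfold al3; rw [g3_swap]; congr 1; ring

theorem h3_rot (a b c : ℝ) : h3 b c a = h3 a b c := by
  rw [h3_eq, h3_eq, w3_rot, g3_rot, al3_rot]; ring

theorem h3_swap (a b c : ℝ) : h3 b a c = h3 a b c := by
  rw [h3_eq, h3_eq, w3_swap, g3_swap, al3_swap]; ring

theorem QS_rot1 {a b c x y z : ℝ} (h : QS a b c x y z) : QS b c a x y z := by
  unfold QS at *
  rw [h3_rot a b c, al3_rot a b c, h3_rot (a * z) (b * x) (c * y), h3_rot (a * x) (b * y) (c * z),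
    h3_rot (a * y) (b * z) (c * x)]
  linarith

theorem QS_rot2 {a b c x y z : ℝ} (h : QS a b c x y z) : QS a b c y z x := by
  unfold QS at *
  rw [h3_rot x y z, al3_rot x y z]
  linarith

theorem QS_swap {a b c x y z : ℝ} (h : QS a b c x y z) : QS b a c y x z := by
  unfold QS at *
  rw [h3_swap a b c, al3_swap a b c, h3_swap x y z, al3_swap x y z,
    h3_swap (a * x) (b * y) (c * z), h3_swap (a * z) (b * x) (c * y),
    h3_swap (a * y) (b * z) (c * x)]
  linarith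

theorem US_rot1 {a b c x y z : ℝ} (h : US a b c x y z) : US b c a x y z := by
  unfold US at *
  rw [h3_rot a b c, al3_rot a b c, w3_rot a b c, w3_rot (a * z) (b * x) (c * y),
    w3_rot (a * x) (b * y) (c * z), w3_rot (a * y) (b * z) (c * x)]
  have : b + c + a = a + b + c := by ring
  rw [this]
  linarith

theorem US_rot2 {a b c x y z : ℝ} (h : US a b c x y z) : US a b c y z x := by
  unfold US at *
  rw [h3_rot x y z, al3_rot x y z, w3_rot x y z]
  have : y + z + x = x + y + z := by ring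
  rw [this]
  linarith

theorem US_swap {a b c x y z : ℝ} (h : US a b c x y z) : US b a c y x z := by
  unfold US at *
  rw [h3_swap a b c, al3_swap a b c, h3_swap x y z, al3_swap x y z, w3_swap a b c, w3_swap x y z,
    w3_swap (a * x) (b * y) (c * z), w3_swap (a * z) (b * x) (c * y),
    w3_swap (a * y) (b * z) (c * x)]
  have h1 : b + a + c = a + b + c := by ring
  have h2 : y + x + z = x + y + z := by ring
  rw [h1, h2]
  linarith

theorem sym_closure (R : ℝ → ℝ → ℝ → ℝ → ℝ → ℝ → Prop)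
    (rot1 : ∀ {a b c x y z}, R a b c x y z → R b c a x y z)
    (rot2 : ∀ {a b c x y z}, R a b c x y z → R a b c y z x)
    (swap : ∀ {a b c x y z}, R a b c x y z → R b a c y x z)
    (ch0 : ∀ {a b c x y z : ℝ}, 0 < c → c ≤ b → b ≤ a → 0 < z → z ≤ y → y ≤ x → R a b c x y z)
    (ch1 : ∀ {a b c x y z : ℝ}, 0 < c → c ≤ b → b ≤ a → 0 < z → z ≤ x → x ≤ y → R a b c x y z)
    {a b c x y z : ℝ} (ha : 0 < a) (hb : 0 < b) (hc : 0 < c) (hx : 0 < x) (hy : 0 < y)
    (hz : 0 < z) : R a b c x y z := by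
  have aux1 : ∀ {a b c x y z : ℝ}, 0 < c → 0 < z → c ≤ a → c ≤ b → z ≤ x → z ≤ y →
      R a b c x y z := by
    intro a b c x y z hc hz h1 h2 h3 h4
    rcases le_total b a with hab | hab
    · rcases le_total y x with hxy | hxy
      · exact ch0 hc h2 hab hz h4 hxy
      · exact ch1 hc h2 hab hz h3 hxy
    · rcases le_total x y with hxy | hxy
      · exact swap (ch0 hc h1 hab hz h3 hxy)
      · exact swap (ch1 hc h1 hab hz h4 hxy)
  have aux2 : ∀ {a b c x y z : ℝ}, 0 < c → 0 < x → 0 < y → 0 < z → c ≤ a → c ≤ b →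
      R a b c x y z := by
    intro a b c x y z hc hx hy hz h1 h2
    rcases le_total x y with hxy | hxy
    · rcases le_total x z with hxz | hxz
      · exact rot2 (rot2 (aux1 hc hx h1 h2 hxy hxz))
      · exact aux1 hc hz h1 h2 hxz (hxz.trans hxy)
    · rcases le_total y z with hyz | hyz
      · exact rot2 (aux1 hc hy h1 h2 hyz hxy)
      · exact aux1 hc hz h1 h2 (hyz.trans hxy) hyz
  rcases le_total a b with hab | hab
  · rcases le_total a c with hac | hac
    · exact rot1 (rot1 (aux2 ha hx hy hz hab hac))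
    · exact aux2 hc hx hy hz hac (hac.trans hab)
  · rcases le_total b c with hbc | hbc
    · exact rot1 (aux2 hb hx hy hz hbc hab)
    · exact aux2 hc hx hy hz (hbc.trans hab) hbc

theorem QS_pos {a b c x y z : ℝ} (ha : 0 < a) (hb : 0 < b) (hc : 0 < c) (hx : 0 < x) (hy : 0 < y)
    (hz : 0 < z) : QS a b c x y z :=
  sym_closure QS QS_rot1 QS_rot2 QS_swap QS_ch0 QS_ch1 ha hb hc hx hy hz

theorem US_pos {a b c x y z : ℝ} (ha : 0 < a) (hb : 0 < b) (hc : 0 < c) (hx : 0 < x) (hy : 0 < y)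
    (hz : 0 < z) : US a b c x y z :=
  sym_closure US US_rot1 US_rot2 US_swap US_ch0 US_ch1 ha hb hc hx hy hz

/-- limits -/
theorem tendsto_g3 {l : Filter ℝ} {f g h : ℝ → ℝ} {a b c : ℝ} (hf : Tendsto f l (𝓝 a))
    (hg : Tendsto g l (𝓝 b)) (hh : Tendsto h l (𝓝 c)) :
    Tendsto (fun e => g3 (f e) (g e) (h e)) l (𝓝 (g3 a b c)) := by
  unfold g3
  exact ((hf.mul hg).mul hh).rpow_const (Or.inr (by norm_num))

theorem tendsto_w3 {l : Filter ℝ} {f g h : ℝ → ℝ} {a b c : ℝ} (ha : 0 ≤ a) (hb : 0 ≤ b)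
    (hc : 0 ≤ c) (hf : Tendsto f l (𝓝 a)) (hg : Tendsto g l (𝓝 b)) (hh : Tendsto h l (𝓝 c))
    (hf0 : ∀ᶠ e in l, 0 < f e) (hg0 : ∀ᶠ e in l, 0 < g e) (hh0 : ∀ᶠ e in l, 0 < h e) :
    Tendsto (fun e => w3 (f e) (g e) (h e)) l (𝓝 (w3 a b c)) := by
  have hs : Tendsto (fun e => f e + g e + h e) l (𝓝 (a + b + c)) := (hf.add hg).add hh
  by_cases h0 : a + b + c = 0
  · have ha0 : a = 0 := by linarith
    have hb0 : b = 0 := by linarith
    have hc0 : c = 0 := by linarith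
    subst ha0 hb0 hc0
    have hw : w3 0 0 0 = 0 := by unfold w3 fW; norm_num
    rw [hw]
    have hs' : Tendsto (fun e => f e + g e + h e) l (𝓝 0) := by simpa using hs
    refine squeeze_zero_norm' ?_ hs'
    filter_upwards [hf0, hg0, hh0] with e h1 h2 h3
    rw [Real.norm_eq_abs, abs_le]
    unfold w3 fW
    have hpos : 0 < f e + g e + h e := by linarith
    have hA : (f e ^ 2 + g e ^ 2 + h e ^ 2) / (f e + g e + h e) ≤ f e + g e + h e := by
      rw [div_le_iff₀ hpos]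
      nlinarith [mul_pos h1 h2, mul_pos h2 h3, mul_pos h1 h3]
    have hB : 0 ≤ (f e ^ 2 + g e ^ 2 + h e ^ 2) / (f e + g e + h e) := by positivity
    constructor
    · linarith
    · linarith
  · unfold w3 fW
    exact ((((hf.pow 2).add (hg.pow 2)).add (hh.pow 2)).div hs h0).sub (hs.div_const 3)

theorem g3_le_sum {a b c : ℝ} (ha : 0 ≤ a) (hb : 0 ≤ b) (hc : 0 ≤ c) : g3 a b c ≤ a + b + c := by
  unfold g3
  have h : a * b * c ≤ (a + b + c) ^ 3 := by
    have h1 : a * b * c ≤ (a + b + c) * (a + b + c) * (a + b + c) := by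
      gcongr <;> linarith
    calc a * b * c ≤ (a + b + c) * (a + b + c) * (a + b + c) := h1
      _ = (a + b + c) ^ 3 := by ring
  calc (a * b * c) ^ (1 / 3 : ℝ) ≤ ((a + b + c) ^ 3) ^ (1 / 3 : ℝ) :=
        Real.rpow_le_rpow (by positivity) h (by norm_num)
    _ = a + b + c := cube_root_cube (by positivity)

theorem g3_nonneg {a b c : ℝ} (ha : 0 ≤ a) (hb : 0 ≤ b) (hc : 0 ≤ c) : 0 ≤ g3 a b c := by
  unfold g3
  exact Real.rpow_nonneg (by positivity) _

theorem tendsto_al3 {l : Filter ℝ} {f g h : ℝ → ℝ} {a b c : ℝ} (ha : 0 ≤ a) (hb : 0 ≤ b)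
    (hc : 0 ≤ c) (hf : Tendsto f l (𝓝 a)) (hg : Tendsto g l (𝓝 b)) (hh : Tendsto h l (𝓝 c))
    (hf0 : ∀ᶠ e in l, 0 < f e) (hg0 : ∀ᶠ e in l, 0 < g e) (hh0 : ∀ᶠ e in l, 0 < h e) :
    Tendsto (fun e => al3 (f e) (g e) (h e)) l (𝓝 (al3 a b c)) := by
  have hs : Tendsto (fun e => f e + g e + h e) l (𝓝 (a + b + c)) := (hf.add hg).add hh
  by_cases h0 : a + b + c = 0
  · have ha0 : a = 0 := by linarith
    have hb0 : b = 0 := by linarith
    have hc0 : c = 0 := by linarith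
    subst ha0 hb0 hc0
    have hw : al3 0 0 0 = 0 := by unfold al3; norm_num
    rw [hw]
    have hs' : Tendsto (fun e => 3 * (f e + g e + h e)) l (𝓝 0) := by
      have := hs.const_mul 3
      simpa using this
    refine squeeze_zero_norm' ?_ hs'
    filter_upwards [hf0, hg0, hh0] with e h1 h2 h3
    have hpos : 0 < f e + g e + h e := by linarith
    have hg1 := g3_nonneg h1.le h2.le h3.le
    have hg2 := g3_le_sum h1.le h2.le h3.le
    unfold al3
    rw [Real.norm_eq_abs, abs_of_nonneg (by positivity), div_le_iff₀ (by positivity)]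
    nlinarith
  · unfold al3
    refine ((tendsto_g3 hf hg hh).pow 2).div (hs.div_const 3) ?_
    intro h
    apply h0
    linarith

theorem tendsto_h3 {l : Filter ℝ} {f g h : ℝ → ℝ} {a b c : ℝ} (ha : 0 ≤ a) (hb : 0 ≤ b)
    (hc : 0 ≤ c) (hf : Tendsto f l (𝓝 a)) (hg : Tendsto g l (𝓝 b)) (hh : Tendsto h l (𝓝 c))
    (hf0 : ∀ᶠ e in l, 0 < f e) (hg0 : ∀ᶠ e in l, 0 < g e) (hh0 : ∀ᶠ e in l, 0 < h e) :
    Tendsto (fun e => h3 (f e) (g e) (h e)) l (𝓝 (h3 a b c)) := by
  simp only [h3_eq]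
  have hs : Tendsto (fun e => f e + g e + h e) l (𝓝 (a + b + c)) := (hf.add hg).add hh
  exact (((tendsto_w3 ha hb hc hf hg hh hf0 hg0 hh0).add
    ((tendsto_g3 hf hg hh).const_mul (2 / 5))).add
    ((tendsto_al3 ha hb hc hf hg hh hf0 hg0 hh0).const_mul (4 / 5))).sub
    ((hs.div_const 3).const_mul (6 / 5))

theorem tendsto_shift (a : ℝ) : Tendsto (fun e : ℝ => a + e) (𝓝[>] 0) (𝓝 a) := by
  have : Tendsto (fun e : ℝ => a + e) (𝓝 0) (𝓝 (a + 0)) := by
    exact (continuous_const.add continuous_id).tendsto 0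
  rw [add_zero] at this
  exact this.mono_left nhdsWithin_le_nhds

theorem ev_pos {a : ℝ} (ha : 0 ≤ a) : ∀ᶠ e : ℝ in 𝓝[>] 0, 0 < a + e := by
  filter_upwards [self_mem_nhdsWithin] with e he
  have : 0 < e := he
  linarith

theorem ev_pos_mul {f g : ℝ → ℝ} (hf : ∀ᶠ e : ℝ in 𝓝[>] 0, 0 < f e)
    (hg : ∀ᶠ e : ℝ in 𝓝[>] 0, 0 < g e) : ∀ᶠ e : ℝ in 𝓝[>] 0, 0 < f e * g e := by
  filter_upwards [hf, hg] with e h1 h2
  exact mul_pos h1 h2

theorem QS_nonneg {a b c x y z : ℝ} (ha : 0 ≤ a) (hb : 0 ≤ b) (hc : 0 ≤ c) (hx : 0 ≤ x)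
    (hy : 0 ≤ y) (hz : 0 ≤ z) : QS a b c x y z := by
  unfold QS
  have H1 := tendsto_h3 ha hb hc (tendsto_shift a) (tendsto_shift b) (tendsto_shift c)
    (ev_pos ha) (ev_pos hb) (ev_pos hc)
  have H2 := tendsto_h3 hx hy hz (tendsto_shift x) (tendsto_shift y) (tendsto_shift z)
    (ev_pos hx) (ev_pos hy) (ev_pos hz)
  have A1 := tendsto_al3 ha hb hc (tendsto_shift a) (tendsto_shift b) (tendsto_shift c)
    (ev_pos ha) (ev_pos hb) (ev_pos hc)
  have A2 := tendsto_al3 hx hy hz (tendsto_shift x) (tendsto_shift y) (tendsto_shift z)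
    (ev_pos hx) (ev_pos hy) (ev_pos hz)
  have P : ∀ {p q r s t u : ℝ}, 0 ≤ p → 0 ≤ q → 0 ≤ r → 0 ≤ s → 0 ≤ t → 0 ≤ u →
      Tendsto (fun e : ℝ => h3 ((p + e) * (q + e)) ((r + e) * (s + e)) ((t + e) * (u + e)))
        (𝓝[>] 0) (𝓝 (h3 (p * q) (r * s) (t * u))) := by
    intro p q r s t u hp hq hr hs ht hu
    exact tendsto_h3 (mul_nonneg hp hq) (mul_nonneg hr hs) (mul_nonneg ht hu)
      ((tendsto_shift p).mul (tendsto_shift q)) ((tendsto_shift r).mul (tendsto_shift s))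
      ((tendsto_shift t).mul (tendsto_shift u)) (ev_pos_mul (ev_pos hp) (ev_pos hq))
      (ev_pos_mul (ev_pos hr) (ev_pos hs)) (ev_pos_mul (ev_pos ht) (ev_pos hu))
  refine le_of_tendsto_of_tendsto (((A2.mul H1).add (A1.mul H2)).const_mul 3)
    (((P ha hx hb hy hc hz).add (P ha hy hb hz hc hx)).add (P ha hz hb hx hc hy)) ?_
  filter_upwards [self_mem_nhdsWithin] with e he
  have he' : 0 < e := he
  exact QS_pos (by linarith) (by linarith) (by linarith) (by linarith) (by linarith) (by linarith)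

theorem US_nonneg {a b c x y z : ℝ} (ha : 0 ≤ a) (hb : 0 ≤ b) (hc : 0 ≤ c) (hx : 0 ≤ x)
    (hy : 0 ≤ y) (hz : 0 ≤ z) : US a b c x y z := by
  unfold US
  have H1 := tendsto_h3 ha hb hc (tendsto_shift a) (tendsto_shift b) (tendsto_shift c)
    (ev_pos ha) (ev_pos hb) (ev_pos hc)
  have H2 := tendsto_h3 hx hy hz (tendsto_shift x) (tendsto_shift y) (tendsto_shift z)
    (ev_pos hx) (ev_pos hy) (ev_pos hz)
  have A1 := tendsto_al3 ha hb hc (tendsto_shift a) (tendsto_shift b) (tendsto_shift c)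
    (ev_pos ha) (ev_pos hb) (ev_pos hc)
  have A2 := tendsto_al3 hx hy hz (tendsto_shift x) (tendsto_shift y) (tendsto_shift z)
    (ev_pos hx) (ev_pos hy) (ev_pos hz)
  have W1 := tendsto_w3 ha hb hc (tendsto_shift a) (tendsto_shift b) (tendsto_shift c)
    (ev_pos ha) (ev_pos hb) (ev_pos hc)
  have W2 := tendsto_w3 hx hy hz (tendsto_shift x) (tendsto_shift y) (tendsto_shift z)
    (ev_pos hx) (ev_pos hy) (ev_pos hz)
  have S1 : Tendsto (fun e : ℝ => ((a + e) + (b + e) + (c + e)) / 3) (𝓝[>] 0)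
      (𝓝 ((a + b + c) / 3)) :=
    (((tendsto_shift a).add (tendsto_shift b)).add (tendsto_shift c)).div_const 3
  have S2 : Tendsto (fun e : ℝ => ((x + e) + (y + e) + (z + e)) / 3) (𝓝[>] 0)
      (𝓝 ((x + y + z) / 3)) :=
    (((tendsto_shift x).add (tendsto_shift y)).add (tendsto_shift z)).div_const 3
  have P : ∀ {p q r s t u : ℝ}, 0 ≤ p → 0 ≤ q → 0 ≤ r → 0 ≤ s → 0 ≤ t → 0 ≤ u →
      Tendsto (fun e : ℝ => w3 ((p + e) * (q + e)) ((r + e) * (s + e)) ((t + e) * (u + e)))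
        (𝓝[>] 0) (𝓝 (w3 (p * q) (r * s) (t * u))) := by
    intro p q r s t u hp hq hr hs ht hu
    exact tendsto_w3 (mul_nonneg hp hq) (mul_nonneg hr hs) (mul_nonneg ht hu)
      ((tendsto_shift p).mul (tendsto_shift q)) ((tendsto_shift r).mul (tendsto_shift s))
      ((tendsto_shift t).mul (tendsto_shift u)) (ev_pos_mul (ev_pos hp) (ev_pos hq))
      (ev_pos_mul (ev_pos hr) (ev_pos hs)) (ev_pos_mul (ev_pos ht) (ev_pos hu))
  refine le_of_tendsto_of_tendsto
    (((P ha hx hb hy hc hz).add (P ha hy hb hz hc hx)).add (P ha hz hb hx hc hy))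
    ((((((W1.mul S2).add (W2.mul S1)).sub (H1.mul ((S2.sub A2).const_mul (3 / 4)))).sub
      (H2.mul ((S1.sub A1).const_mul (3 / 4)))).sub ((W1.mul W2).const_mul (1 / 50))).const_mul 3) ?_
  filter_upwards [self_mem_nhdsWithin] with e he
  have he' : 0 < e := he
  exact US_pos (by linarith) (by linarith) (by linarith) (by linarith) (by linarith) (by linarith)

end Vale.Agent.P154
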