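import Vale.Agent.P154.Scal

/-!
# P154: the Lyapunov certificate for three colours and `lam ∈ [0,1]`
-/

namespace Vale.Agent.P154

/-- the three rotations of `Fin 3` -/
def rots : Finset (Equiv.Perm (Fin 3)) :=
  Finset.univ.map ⟨fun k : Fin 3 => Equiv.addRight k, fun a b h => by
    have := congrArg (fun e : Equiv.Perm (Fin 3) => e 0) h
    simpa using this⟩

theorem card_rots : rots.card = 3 := by
  unfold rots; rw [Finset.card_map]; simp

theorem sum_rots (F : Equiv.Perm (Fin 3) → ℝ) :
    ∑ π ∈ rots, F π = ∑ k : Fin 3, F (Equiv.addRight k) := by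
  unfold rots; rw [Finset.sum_map]; rfl

theorem h3_leaf : h3 1 0 0 = 4 / 15 := by
  unfold h3 g3 fH
  norm_num

theorem H3_leaf (j : Fin 3) : H3 (fun i => if j = i then 1 else 0) = 4 / 15 := by
  rw [H3_eq]
  have h1 : h3 0 1 0 = 4 / 15 := by rw [h3_swap, h3_leaf]
  have h2 : h3 0 0 1 = 4 / 15 := by rw [h3_rot 1 0 0, h3_leaf]
  obtain rfl | rfl | rfl : j = 0 ∨ j = 1 ∨ j = 2 := by
    revert j; decide
  · rw [if_pos rfl, if_neg (by decide), if_neg (by decide)]; exact h3_leaf
  · rw [if_neg (by decide), if_pos rfl, if_neg (by decide)]; exact h1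
  · rw [if_neg (by decide), if_neg (by decide), if_pos rfl]; exact h2

theorem H3_one : H3 (fun _ => 1) = 0 := by
  rw [H3_eq]
  unfold h3 g3 fH
  norm_num

/-- The certificate. -/
noncomputable def cert3 (lam : ℝ) (h0 : 0 ≤ lam) (h1 : lam ≤ 1) : Cert 3 lam where
  H := H3
  A := A3
  r := fun u => 3 / 4 * (Z u - A3 u)
  mu := 1 / 50
  S := rots
  c := lam ^ 3
  c_nonneg := by positivity
  mu_nonneg := by norm_num
  S_nonempty := by rw [← Finset.card_pos, card_rots]; norm_num
  A_nonneg := A3_nonneg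
  r_nonneg := fun u hu => by have := A3_le u hu; linarith
  H_leaf := by
    simp only [H3_leaf]
    norm_num
  H_one := by rw [H3_one]
  H_edge := fun u hu => by
    have h : edge lam u = fun i => lam * u i + (1 - lam) * Z u := by
      funext i; exact edge_eq lam u i
    rw [h]
    exact H3_scal lam h0 h1 u hu
  pairH := fun u v hu hv => by
    rw [card_rots, sum_rots]
    exact_mod_cast pair_H u v hu hv
  pairW := fun u v hu hv => by
    rw [card_rots, sum_rots]
    exact_mod_cast pair_W u v hu hv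

theorem cert3_mu_pos (lam : ℝ) (h0 : 0 ≤ lam) (h1 : lam ≤ 1) : 0 < (cert3 lam h0 h1).mu := by
  unfold cert3; norm_num

end Vale.Agent.P154
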