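import Mathlib
import Vale.Agent.P154.PMR

/-! data of the certificate P12 -/

namespace Vale.Agent.P154.Sep2

noncomputable def datP12 : Dat where
  r := 12
  F := [⟨(11, 1, 0), (-157798950234480), (-5594071238600), 208995217777, (-1829796157),
      4862761090415327854080, 0⟩,
    ⟨(10, 2, 0), 539276685091488, 31116934699049, (-1277477356869), 11369196678,
      (-2788153827711575121408), 0⟩,
    ⟨(10, 1, 1), 444146521332672, 7912267500034, (-448847728634), 4195350202,
      (-20111085700366649191680), 0⟩,
    ⟨(9, 3, 0), (-1061859682392840), (-119704303936193), 4915763243116, (-44324901179),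
      (-22207385482294688415744), 0⟩,
    ⟨(9, 2, 1), (-2370038953934124), (-44318844906207), 2884957205917, (-27699142633),
      86790528031311394805760, 0⟩,
    ⟨(8, 4, 0), 1201626904242240, 318397210835134, (-12777100890870), 117139457444,
      71378741959939275998976, 0⟩,
    ⟨(8, 3, 1), 3939385118868576, 52384801018709, (-4696737286173), 42532920872,
      (-98303472844131321369600), 0⟩,
    ⟨(8, 2, 2), 2297002628049480, 80335410360795, (-4354398849494), 44752434924,
      (-94488984617130969891840), 0⟩,
    ⟨(7, 5, 0), (-705148864237152), (-575830062752080), 22668827754568, (-210836869273),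
      (-124604405944553101171200), 0⟩,
    ⟨(7, 4, 1), (-4099175250418440), (-12770180486990), 4009822886183, (-30122059778),
      81691289571498364124160, 0⟩,
    ⟨(7, 3, 2), (-5686211998416024), (-252205701551004), 13425388911980, (-137005105463),
      203055471287430581245440, 0⟩,
    ⟨(6, 6, 0), 162201225440998, 351287537879691, (-13731635979459), 128424490520,
      74265684234282617690880, 0⟩,
    ⟨(6, 5, 1), 1794430629984384, (-12845379631961), (-1261561897015), 6467559694,
      (-34312886316549718566144), 0⟩,
    ⟨(6, 4, 2), 5777017341776748, 145446228764063, (-11344208785840), 94634376977,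
      (-233392374390236009518080), 0⟩,
    ⟨(6, 3, 3), 1906257876928416, 241401815183825, (-9640004887885), 110737458856,
      (-32595511130737052010240), 0⟩,
    ⟨(5, 5, 2), (-2774496026846556), 13206777741653, 3026600554096, (-12561600609),
      131433604357332807252480, 0⟩,
    ⟨(5, 4, 3), (-1592538489306216), (-384404307851073), 14399836488377, (-163649173201),
      0, 0⟩,
    ⟨(4, 4, 4), 374988631156227, 165809730003025, (-5998214324264), 67686758308,
      9794132677770900969030, 0⟩,
    ⟨(12, 0, 0), 10934652914603, 376838368130, (-10004427386), 88643818,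
      (-467952334827810530705), 0⟩]
  G := [((24, 0, 0), (-621442374154165), 0)]
  c0 := 360000000000
  c1 := 1
  c2 := 0

noncomputable def fullP12 : Full where
  D := datP12
  ln := 49
  ld := 100
  dn := 3
  dd := 64
  N := 64
  Da := 57600000000
  den := 1
  r20 := 0
  r30 := 0
  r11 := 0
  r02 := 0
  cn := 1
  cd := 10
  gn := 1
  gd := 1000
  fan := [(33, 33, 23), (64, 63, 55), (33, 32, 30), (18, 17, 17)]

noncomputable def rpP12 : RP where
  den := 100000
  K := 8
  L := [(2, 0, 9679), (3, 0, (-8914)), (1, 1, 9476), (0, 2, 6421), (4, 0, 3869), (2, 1, (-447))]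

end Vale.Agent.P154.Sep2
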