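import Mathlib
import Vale.Agent.P154.PBFin

/-!
# P154: checks for data with pieces
-/

namespace Vale.Agent.P154

namespace Sep2

/-- the pieces dominate `m` on the cells of the fan; the leaves name the piece -/
noncomputable def chkFanP (F : Full) (P : List Pc) : List Tree → List Cell → Bool
  | t :: ts, Q :: Qs =>
    chkAny (P.map fun p => (eMp F p, p.w * F.D.r)) t Q && chkFanP F P ts Qs
  | _, [] => true
  | [], _ :: _ => false

theorem chkFanP_sound {F : Full} {P : List Pc}
    (hh : (P.all fun p => hom (p.w * F.D.r) (eMp F p)) = true) :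
    ∀ (ts : List Tree) (Qs : List Cell), chkFanP F P ts Qs = true →
      ∀ Q ∈ Qs, ∀ a b c : ℝ, InC Q a b c → ∃ p ∈ P, 0 ≤ PExp.ev (vec a b c) (eMp F p) := by
  rw [List.all_eq_true] at hh
  intro ts
  induction ts with
  | nil =>
    intro Qs h Q hQ
    cases Qs with
    | nil => simp at hQ
    | cons R Rs => simp [chkFanP] at h
  | cons t ts ih =>
    intro Qs h Q hQ
    cases Qs with
    | nil => simp at hQ
    | cons R Rs =>
      simp only [chkFanP, Bool.and_eq_true] at h
      rcases List.mem_cons.1 hQ with rfl | hQ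
      · intro a b c hin
        obtain ⟨x, hx, h0⟩ := chkAny_sound (fun x hx => by
          obtain ⟨p, hp, rfl⟩ := List.mem_map.1 hx
          exact hh p hp) t _ h.1 a b c hin
        obtain ⟨p, hp, rfl⟩ := List.mem_map.1 hx
        exact ⟨p, hp, h0⟩
      · exact ih Rs h.2 Q hQ

/-- the pieces are dominated by `V 0` -/
noncomputable def chkU (F : Full) : List Pc → List Tree → Bool
  | p :: ps, t :: ts => (hom (p.w * F.D.r) (eRp F p) && chk1 (eRp F p) (p.w * F.D.r) t U0) &&
      chkU F ps ts
  | [], _ => true
  | _ :: _, [] => false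

theorem chkU_sound {F : Full} : ∀ (P : List Pc) (ts : List Tree), chkU F P ts = true →
    ∀ p ∈ P, ∀ a b c : ℝ, InC U0 a b c → 0 ≤ PExp.ev (vec a b c) (eRp F p) := by
  intro P
  induction P with
  | nil => intro ts _ p hp; simp at hp
  | cons q P ih =>
    intro ts h p hp
    cases ts with
    | nil => simp [chkU] at h
    | cons t ts =>
      simp only [chkU, Bool.and_eq_true] at h
      rcases List.mem_cons.1 hp with rfl | hp
      · exact chk1_sound h.1.1 t _ h.1.2
      · exact ih ts h.2 p hp

end Sep2

end Vale.Agent.P154
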