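import Vale.Agent.P154.B10Main
import Vale.Agent.P154.P12Main

/-!
# P154: three colours, regular trees for `-4473/10000 ≤ λ ≤ 0`, Poisson trees for `-49/100 ≤ λ ≤ 0`
-/

namespace Vale.Agent.P154

open Sep2

lemma lamB10 : fullB10.lam = -4473 / 10000 := by
  unfold Full.lam
  norm_num [fullB10, datB10]

lemma lamP12 : fullP12.lam = -49 / 100 := by
  unfold Full.lam
  norm_num [fullP12, datP12]

/-- nonreconstruction on Poisson trees, `-49/100 ≤ λ ≤ 0` -/
theorem poisson_P12 {lam : ℝ} (h0 : -49 / 100 ≤ lam) (h1 : lam ≤ 0) {d : NNReal}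
    (hd : d * lam ^ 2 ≤ 1) : Nonreconstruction (aPoisson 3 lam d) :=
  poisson_of_HJ (lam0 := fullP12.lam) (by rw [lamP12]; norm_num) (by rw [lamP12]; norm_num)
    (validP12.hj0 (by rfl)) (fun lam N => corner_leR validP12 cornerP12 lam N)
    (by rw [lamP12]; exact h0) h1 hd

/-- nonreconstruction on regular trees, `-4473/10000 ≤ λ ≤ 0` -/
theorem regular_B10 {lam : ℝ} (h0 : -4473 / 10000 ≤ lam) (h1 : lam ≤ 0) {d : ℕ}
    (hd : d * lam ^ 2 ≤ 1) : Nonreconstruction (aRegular 3 lam d) :=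
  regular_of_HJ (lam0 := fullB10.lam) (by rw [lamB10]; norm_num) (by rw [lamB10]; norm_num)
    (validB10.hj1 kvalidB10) (validB10.reg kvalidB10)
    (fun lam N => corner_leR validB10 cornerB10 lam N) (by rw [lamB10]; exact h0) h1 hd

end Vale.Agent.P154
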