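import Vale.Agent.P154.Q4Chk

/-!
# P154: the block test
-/

namespace Vale.Agent.P154.Q4

open PExp MvPolynomial Filter

/-- affine form in the first group of variables -/
def lfA (f : LG) : PExp :=
  add (add (k f.a0) (mul (k f.a1) (v 0))) (add (mul (k f.a2) (v 1)) (mul (k f.a3) (v 2)))
/-- affine form in the second group of variables -/
def lfB (f : LG) : PExp :=
  add (add (k f.a0) (mul (k f.a1) (v 3))) (add (mul (k f.a2) (v 4)) (mul (k f.a3) (v 5)))

/-- column of a cell -/
def col (c : Cell) (j : Fin 4) : LG := ⟨c 0 j, c 1 j, c 2 j, c 3 j⟩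

def colI (c : Cell) (i : ℕ) : LG :=
  cond (Nat.ble 2 i) (cond (Nat.ble 3 i) (col c 3) (col c 2)) (cond (Nat.ble 1 i) (col c 1) (col c 0))

def colP (d : Cell) (p : Fin 4 → Fin 4) (i : ℕ) : LG :=
  cond (Nat.ble 2 i) (cond (Nat.ble 3 i) (col d (p 3)) (col d (p 2)))
    (cond (Nat.ble 1 i) (col d (p 1)) (col d (p 0)))

/-- the substitution -/
def sgm (c d : Cell) (p : Fin 4 → Fin 4) (i : ℕ) : PExp :=
  cond (Nat.ble 8 i) (k 0) (cond (Nat.ble 4 i) (lfB (colP d p (i - 4))) (lfA (colI c i)))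

/-- packed linear form -/
def lmN (s0 s1 s2 : ℕ) (f : LG) : ℕ :=
  Nat.add f.a0 (Nat.add (Nat.shiftLeft f.a1 s0) (Nat.add (Nat.shiftLeft f.a2 s1)
    (Nat.shiftLeft f.a3 s2)))

theorem lmN_eq (s0 s1 s2 : ℕ) (f : LG) :
    lmN s0 s1 s2 f = f.a0 + f.a1 * 2 ^ s0 + f.a2 * 2 ^ s1 + f.a3 * 2 ^ s2 := by
  have e : ∀ x y : ℕ, Nat.shiftLeft x y = x * 2 ^ y := fun x y => Nat.shiftLeft_eq x y
  unfold lmN
  rw [e, e, e]
  simp only [Nat.add_eq]
  ring

/-- packed values of the coefficient variables -/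
noncomputable def rho (b : ℕ) (w : Wt) (d : Cell) (p : Fin 4 → Fin 4) (i : ℕ) : SN :=
  cond (Nat.ble 4 i) ⟨false, 0⟩
    ⟨false, lmN (Nat.mul b w.w0) (Nat.mul b w.w1) (Nat.mul b w.w2) (colP d p i)⟩

def sumL (f : LG) : ℕ := Nat.add (Nat.add f.a0 f.a1) (Nat.add f.a2 f.a3)

/-- sums of coefficients of the variables -/
noncomputable def svl (c d : Cell) (p : Fin 4 → Fin 4) (i : ℕ) : ℕ :=
  cond (Nat.ble 8 i) 0 (cond (Nat.ble 4 i) (sumL (colP d p (i - 4))) (sumL (colI c i)))

noncomputable def svB (d : Cell) (p : Fin 4 → Fin 4) (i : ℕ) : ℕ :=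
  cond (Nat.ble 4 i) 0 (sumL (colP d p i))

/-- sum of the absolute values of the coefficients -/
noncomputable def nbO (x y : ℕ → ℕ) (E : OExp) : ℕ :=
  @OExp.rec (fun _ => ℕ) (fun e => nb y e) (fun i _ r => Nat.mul (x i) r)
    (fun e _ r => Nat.mul (nb y e) r) (fun _ _ r t => Nat.add r t) (fun _ _ r t => Nat.add r t) E

theorem nb_sb (x : ℕ → ℕ) (σ : ℕ → PExp) (e : PExp) : nb x (sbst σ e) = nb (fun i => nb x (σ i)) e := by
  induction e with
  | k z => rfl
  | v i => rfl
  | add a c iha ihb =>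
    show Nat.add (nb x (sbst σ a)) (nb x (sbst σ c)) = _
    rw [iha, ihb]; rfl
  | sub a c iha ihb =>
    show Nat.add (nb x (sbst σ a)) (nb x (sbst σ c)) = _
    rw [iha, ihb]; rfl
  | mul a c iha ihb =>
    show Nat.mul (nb x (sbst σ a)) (nb x (sbst σ c)) = _
    rw [iha, ihb]; rfl
  | pow a n ih =>
    show Nat.pow (nb x (sbst σ a)) n = _
    rw [ih]; rfl

theorem nbO_eq (x : ℕ → ℕ) (x' y : ℕ → ℕ) (h : ∀ i, x' i = x (OExp.i3 i))
    (hy : y = fun i => x (i + 4)) (E : OExp) : nbO x' y E = nb x E.px := by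
  subst hy
  have hsh : ∀ e, nb x (sh e) = nb (fun i => x (i + 4)) e := fun e => nb_sb x _ e
  induction E with
  | c e => exact (hsh e).symm
  | m i r ih =>
    show Nat.mul (x' i) (nbO x' (fun i => x (i + 4)) r) = Nat.mul (x (OExp.i3 i)) (nb x r.px)
    rw [ih, h]
  | s e r ih =>
    show Nat.mul (nb (fun i => x (i + 4)) e) (nbO x' (fun i => x (i + 4)) r) =
      Nat.mul (nb x (sh e)) (nb x r.px)
    rw [ih, hsh]
  | a r t ih1 ih2 =>
    show Nat.add (nbO x' (fun i => x (i + 4)) r) (nbO x' (fun i => x (i + 4)) t) =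
      Nat.add (nb x r.px) (nb x t.px)
    rw [ih1, ih2]
  | n r t ih1 ih2 =>
    show Nat.add (nbO x' (fun i => x (i + 4)) r) (nbO x' (fun i => x (i + 4)) t) =
      Nat.add (nb x r.px) (nb x t.px)
    rw [ih1, ih2]

/-- the test -/
noncomputable def chkB (b K m : ℕ) (w : Wt) (G : OExp) (c d : Cell) (p : Fin 4 → Fin 4) : Bool :=
  cond (Nat.blt (nbO (fun i => sumL (colI c i)) (svB d p) G) (Nat.pow 2 (Nat.sub b 1)))
    (allL (allL (rowOK (gOff b (Nat.mul K (Nat.add m 1)))))
      (evO (rho b w d p) (colI c) (Nat.mul b K) G)) false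

/-- degree functions -/
def fA (i : ℕ) : ℕ := cond (Nat.ble 4 i) 0 1
def fB (i : ℕ) : ℕ := cond (Nat.ble 4 i) 1 0

/-- conditions on the polynomial and the weights -/
structure GOK (b K m n : ℕ) (w : Wt) (G : PExp) : Prop where
  hA : tdf fA G ≤ m
  hB : tdf fB G ≤ n
  hom : bok G = true
  wn : WInj w n
  h0 : w.w0 ≤ w.w2
  h1 : w.w1 ≤ w.w2
  hK : w.w2 * n < K
  hb : 0 < b

theorem ev_lfA {R : Type*} [CommRing R] (x : ℕ → R) (f : LG) :
    ev x (lfA f) = f.a0 + f.a1 * x 0 + f.a2 * x 1 + f.a3 * x 2 := by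
  simp only [lfA, ev, Int.cast_natCast]; ring
theorem ev_lfB {R : Type*} [CommRing R] (x : ℕ → R) (f : LG) :
    ev x (lfB f) = f.a0 + f.a1 * x 3 + f.a2 * x 4 + f.a3 * x 5 := by
  simp only [lfB, ev, Int.cast_natCast]; ring

theorem sgm_ge (c d : Cell) (p : Fin 4 → Fin 4) (i : ℕ) (h : 8 ≤ i) : sgm c d p i = k 0 := by
  unfold sgm
  rw [show Nat.ble 8 i = true from Nat.ble_eq_true_of_le h, cond_true]

theorem D3_sgmA (c d : Cell) (p : Fin 4 → Fin 4) (i : ℕ) :
    D3 0 1 2 (pr (R := MP) X (sgm c d p i)) (fA i) := by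
  have key : ∀ e : PExp, D3 0 1 2 (pr (R := MP) X e) (tdf (fun j => cond (Nat.ble 3 j) 0 1) e) := by
    intro e
    have := D3_sbst 0 1 2 v (fun j => cond (Nat.ble 3 j) 0 1) (fun j => D3_var 0 1 2 j _ (by
      match j with
      | 0 => decide
      | 1 => decide
      | 2 => decide
      | j + 3 => simp)) e
    rwa [sbst_v] at this
  by_cases h8 : 8 ≤ i
  · rw [sgm_ge _ _ _ _ h8]
    exact D3_mono (key (k 0)) (Nat.zero_le _)
  · by_cases h4 : 4 ≤ i
    · have e : sgm c d p i = lfB (colP d p (i - 4)) := by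
        unfold sgm
        rw [show Nat.ble 8 i = false from by rw [← Bool.not_eq_true, Nat.ble_eq]; exact h8,
          show Nat.ble 4 i = true from Nat.ble_eq_true_of_le h4]
        rfl
      rw [e]
      refine D3_mono (key _) ?_
      have : tdf (fun j => cond (Nat.ble 3 j) 0 1) (lfB (colP d p (i - 4))) = 0 := rfl
      rw [this]; exact Nat.zero_le _
    · have e : sgm c d p i = lfA (colI c i) := by
        unfold sgm
        rw [show Nat.ble 8 i = false from by rw [← Bool.not_eq_true, Nat.ble_eq]; exact h8,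
          show Nat.ble 4 i = false from by rw [← Bool.not_eq_true, Nat.ble_eq]; exact h4]
        rfl
      rw [e]
      refine D3_mono (key _) ?_
      have : tdf (fun j => cond (Nat.ble 3 j) 0 1) (lfA (colI c i)) = 1 := rfl
      rw [this]
      unfold fA
      rw [show Nat.ble 4 i = false from by rw [← Bool.not_eq_true, Nat.ble_eq]; exact h4]
      exact le_rfl

theorem D3_sgmB (c d : Cell) (p : Fin 4 → Fin 4) (i : ℕ) :
    D3 3 4 5 (pr (R := MP) X (sgm c d p i)) (fB i) := by
  have key : ∀ e : PExp, D3 3 4 5 (pr (R := MP) X e) (tdf (fun j => cond (Nat.ble 3 j) 1 0) e) := by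
    intro e
    have := D3_sbst 3 4 5 v (fun j => cond (Nat.ble 3 j) 1 0) (fun j => D3_var 3 4 5 j _ (by
      match j with
      | 0 => decide
      | 1 => decide
      | 2 => decide
      | 3 => decide
      | 4 => decide
      | 5 => decide
      | j + 6 => simp)) e
    rwa [sbst_v] at this
  by_cases h8 : 8 ≤ i
  · rw [sgm_ge _ _ _ _ h8]
    exact D3_mono (key (k 0)) (Nat.zero_le _)
  · by_cases h4 : 4 ≤ i
    · have e : sgm c d p i = lfB (colP d p (i - 4)) := by
        unfold sgm
        rw [show Nat.ble 8 i = false from by rw [← Bool.not_eq_true, Nat.ble_eq]; exact h8,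
          show Nat.ble 4 i = true from Nat.ble_eq_true_of_le h4]
        rfl
      rw [e]
      refine D3_mono (key _) ?_
      have : tdf (fun j => cond (Nat.ble 3 j) 1 0) (lfB (colP d p (i - 4))) = 1 := rfl
      rw [this]
      unfold fB
      rw [show Nat.ble 4 i = true from Nat.ble_eq_true_of_le h4]
      exact le_rfl
    · have e : sgm c d p i = lfA (colI c i) := by
        unfold sgm
        rw [show Nat.ble 8 i = false from by rw [← Bool.not_eq_true, Nat.ble_eq]; exact h8,
          show Nat.ble 4 i = false from by rw [← Bool.not_eq_true, Nat.ble_eq]; exact h4]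
        rfl
      rw [e]
      refine D3_mono (key _) ?_
      have : tdf (fun j => cond (Nat.ble 3 j) 1 0) (lfA (colI c i)) = 0 := rfl
      rw [this]; exact Nat.zero_le _

theorem vb_sgm (c d : Cell) (p : Fin 4 → Fin 4) (i : ℕ) : vb 6 (sgm c d p i) = true := by
  unfold sgm
  cases Nat.ble 8 i with
  | true => rfl
  | false =>
    cases Nat.ble 4 i with
    | true => rfl
    | false => rfl

theorem svl_eq (c d : Cell) (p : Fin 4 → Fin 4) (i : ℕ) :
    (pr (R := ℕ) (fun _ => 1) (sgm c d p i)).1 + (pr (R := ℕ) (fun _ => 1) (sgm c d p i)).2 =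
      svl c d p i := by
  have hA : ∀ f : LG, (pr (R := ℕ) (fun _ => 1) (lfA f)).1 + (pr (R := ℕ) (fun _ => 1) (lfA f)).2 =
      sumL f := by
    intro f
    simp [lfA, pr, pmul, sumL]
  have hB : ∀ f : LG, (pr (R := ℕ) (fun _ => 1) (lfB f)).1 + (pr (R := ℕ) (fun _ => 1) (lfB f)).2 =
      sumL f := by
    intro f
    simp [lfB, pr, pmul, sumL]
  unfold sgm svl
  cases Nat.ble 8 i with
  | true => rfl
  | false =>
    cases Nat.ble 4 i with
    | true => exact hB _
    | false => exact hA _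

theorem x4_ge (b K : ℕ) (w : Wt) (i : ℕ) (h : 2 ≤ i) :
    x4 b K w i = Polynomial.C (Polynomial.C (((2 : ℕ) ^ (b * W4 K w i) : ℕ) : ℤ)) := by
  unfold x4
  rw [if_neg (by omega), if_neg (by omega)]

theorem rho_eq (b K : ℕ) (w : Wt) (c d : Cell) (p : Fin 4 → Fin 4) (i : ℕ) :
    ev (x4 b K w) (sgm c d p (i + 4)) = Polynomial.C (Polynomial.C (rho b w d p i).toInt) := by
  unfold rho sgm
  have e1 : Nat.ble 4 (i + 4) = true := Nat.ble_eq_true_of_le (by omega)
  have e2 : Nat.ble 8 (i + 4) = Nat.ble 4 i := rfl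
  rw [e1, e2]
  cases Nat.ble 4 i with
  | true =>
    simp only [cond_true, ev, SN.toInt, cond_false]
    simp
  | false =>
    simp only [cond_false, cond_true, Nat.add_sub_cancel]
    rw [ev_lfB, x4_ge b K w 3 (by norm_num), x4_ge b K w 4 (by norm_num), x4_ge b K w 5 (by norm_num)]
    have w3 : W4 K w 3 = w.w0 := rfl
    have w4 : W4 K w 4 = w.w1 := rfl
    have w5 : W4 K w 5 = w.w2 := rfl
    rw [w3, w4, w5]
    simp only [SN.toInt, cond_false, lmN_eq]
    push_cast
    simp

theorem lg_eq (b K : ℕ) (w : Wt) (c d : Cell) (p : Fin 4 → Fin 4) (i : ℕ) :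
    ev (x4 b K w) (sgm c d p (OExp.i3 i)) =
      Polynomial.C (Polynomial.C (((colI c i).a0 : ℤ) + (colI c i).a3 * 2 ^ (b * K)) +
      Polynomial.C ((colI c i).a2 : ℤ) * Polynomial.X) +
      Polynomial.C (Polynomial.C ((colI c i).a1 : ℤ)) * Polynomial.X := by
  have key : ∀ f : LG, ev (x4 b K w) (lfA f) =
      Polynomial.C (Polynomial.C ((f.a0 : ℤ) + f.a3 * 2 ^ (b * K)) +
      Polynomial.C (f.a2 : ℤ) * Polynomial.X) + Polynomial.C (Polynomial.C (f.a1 : ℤ)) * Polynomial.X := by
    intro f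
    rw [ev_lfA, x4_ge b K w 2 (by norm_num)]
    have x0 : x4 b K w 0 = Polynomial.X := rfl
    have x1 : x4 b K w 1 = Polynomial.C Polynomial.X := rfl
    have w2 : W4 K w 2 = K := rfl
    rw [x0, x1, w2]
    push_cast
    simp only [map_add, map_mul, map_natCast, map_pow, map_ofNat]
    ring
  match i with
  | 0 => exact key _
  | 1 => exact key _
  | 2 => exact key _
  | i + 3 =>
    have e1 : OExp.i3 (i + 3) = 3 := by
      unfold OExp.i3
      rw [show Nat.ble 3 (i + 3) = true from Nat.ble_eq_true_of_le (by omega)]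
      rfl
    have e2 : colI c (i + 3) = col c 3 := by
      unfold colI
      rw [show Nat.ble 2 (i + 3) = true from Nat.ble_eq_true_of_le (by omega),
        show Nat.ble 3 (i + 3) = true from Nat.ble_eq_true_of_le (by omega)]
      rfl
    rw [e1, e2]
    exact key _

/-- real environment -/
def env8 (t s : Fin 4 → ℝ) (i : ℕ) : ℝ :=
  if i = 0 then t 0 else if i = 1 then t 1 else if i = 2 then t 2 else if i = 3 then t 3
  else if i = 4 then s 0 else if i = 5 then s 1 else if i = 6 then s 2 else if i = 7 then s 3 else 0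

/-- dehomogenised coordinates -/
noncomputable def xr (y z : Fin 4 → ℝ) (i : ℕ) : ℝ :=
  if i = 0 then y 1 / y 0 else if i = 1 then y 2 / y 0 else if i = 2 then y 3 / y 0
  else if i = 3 then z 1 / z 0 else if i = 4 then z 2 / z 0 else if i = 5 then z 3 / z 0 else 0

theorem ev_sgm (c d : Cell) (p : Fin 4 → Fin 4) (y z : Fin 4 → ℝ) (hy : 0 < y 0) (hz : 0 < z 0) :
    (fun i => ev (xr y z) (sgm c d p i)) = fun i => cond (Nat.ble 4 i)
      ((z 0)⁻¹ * env8 (lin c y) (fun i => lin d z (p i)) i)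
      ((y 0)⁻¹ * env8 (lin c y) (fun i => lin d z (p i)) i) := by
  have hA : ∀ j, ev (xr y z) (lfA (col c j)) = (y 0)⁻¹ * lin c y j := by
    intro j
    rw [ev_lfA]
    simp only [xr, lin, col]
    norm_num
    field_simp
  have hB : ∀ j, ev (xr y z) (lfB (col d j)) = (z 0)⁻¹ * lin d z j := by
    intro j
    rw [ev_lfB]
    simp only [xr, lin, col]
    norm_num
    field_simp
  funext i
  match i with
  | 0 => exact hA 0
  | 1 => exact hA 1
  | 2 => exact hA 2
  | 3 => exact hA 3
  | 4 => exact hB (p 0)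
  | 5 => exact hB (p 1)
  | 6 => exact hB (p 2)
  | 7 => exact hB (p 3)
  | i + 8 =>
    rw [sgm_ge _ _ _ _ (by omega)]
    have : Nat.ble 4 (i + 8) = true := Nat.ble_eq_true_of_le (by omega)
    rw [this, cond_true]
    have e : env8 (lin c y) (fun i => lin d z (p i)) (i + 8) = 0 := by
      unfold env8
      simp
    rw [e]
    simp [ev]

theorem nb_svl (c d : Cell) (p : Fin 4 → Fin 4) (G : OExp) :
    nbO (fun i => sumL (colI c i)) (svB d p) G = nb (svl c d p) G.px := by
  refine nbO_eq _ _ _ (fun i => ?_) ?_ G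
  · match i with
    | 0 => rfl
    | 1 => rfl
    | 2 => rfl
    | i + 3 =>
      have e1 : OExp.i3 (i + 3) = 3 := by
        unfold OExp.i3
        rw [show Nat.ble 3 (i + 3) = true from Nat.ble_eq_true_of_le (by omega)]
        rfl
      have e2 : colI c (i + 3) = col c 3 := by
        unfold colI
        rw [show Nat.ble 2 (i + 3) = true from Nat.ble_eq_true_of_le (by omega),
          show Nat.ble 3 (i + 3) = true from Nat.ble_eq_true_of_le (by omega)]
        rfl
      rw [e1, e2]
      rfl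
  · funext i
    unfold svl svB
    have e1 : Nat.ble 4 (i + 4) = true := Nat.ble_eq_true_of_le (by omega)
    have e2 : Nat.ble 8 (i + 4) = Nat.ble 4 i := rfl
    rw [e1, e2, Nat.add_sub_cancel, cond_true]

theorem blk0 {b K m n : ℕ} {w : Wt} {G : OExp} (H : GOK b K m n w G.px) {c d : Cell}
    {p : Fin 4 → Fin 4} (h : chkB b K m w G c d p = true) (y z : Fin 4 → ℝ) (hy0 : 0 < y 0)
    (hz0 : 0 < z 0) (hy : ∀ i, 0 ≤ y i) (hz : ∀ i, 0 ≤ z i) :
    0 ≤ ev (env8 (lin c y) (fun i => lin d z (p i))) G.px := by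
  simp only [chkB, Bool.cond_false_right, Bool.and_eq_true, Nat.blt_eq] at h
  obtain ⟨h1, h2⟩ := h
  have h0 := nonneg_of_coeff_le (sbst (sgm c d p) G.px)
    (coeff_le_of_rows4 b K m n w (sbst (sgm c d p) G.px) H.wn H.h0 H.h1 H.hK H.hb
      (vb_sbst 6 _ (vb_sgm c d p) G.px)
      (D3_mono (D3_sbst 0 1 2 (sgm c d p) fA (D3_sgmA c d p) G.px) H.hA)
      (D3_mono (D3_sbst 3 4 5 (sgm c d p) fB (D3_sgmB c d p) G.px) H.hB)
      (by
        rw [nb_sbst]
        have : (fun i => (pr (R := ℕ) (fun _ => 1) (sgm c d p i)).1 +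
          (pr (R := ℕ) (fun _ => 1) (sgm c d p i)).2) = svl c d p := funext (svl_eq c d p)
        rw [this, ← nb_svl]
        exact h1)
      (evO (rho b w d p) (colI c) (Nat.mul b K) G)
      (by
        rw [show Nat.mul b K = b * K from rfl,
          evO_spec (rho b w d p) (colI c) (b * K) (fun i => ev (x4 b K w) (sgm c d p i))
          (lg_eq b K w c d p) (rho_eq b K w c d p), ev_sbst])
      h2)
    (xr y z) (by
      intro i
      unfold xr
      split_ifs <;> first | exact div_nonneg (hy _) hy0.le | exact div_nonneg (hz _) hz0.le | exact le_rfl)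
  rw [ev_sbst, ev_sgm c d p y z hy0 hz0, ev_scale _ _ _ _ H.hom] at h0
  have hpos : 0 < (y 0)⁻¹ ^ bdA G.px * (z 0)⁻¹ ^ bdB G.px := by positivity
  exact nonneg_of_mul_nonneg_right h0 hpos

theorem env8_cont {T : Type*} [TopologicalSpace T] {f g : T → Fin 4 → ℝ} (hf : Continuous f)
    (hg : Continuous g) : Continuous (fun a => env8 (f a) (g a)) := by
  refine continuous_pi fun i => ?_
  unfold env8
  have h1 : ∀ j, Continuous fun a => f a j := fun j => (continuous_apply j).comp hf
  have h2 : ∀ j, Continuous fun a => g a j := fun j => (continuous_apply j).comp hg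
  split_ifs <;> first | exact h1 _ | exact h2 _ | exact continuous_const

/-- the block test proves nonnegativity on a pair of cells -/
theorem blk {b K m n : ℕ} {w : Wt} {G : OExp} (H : GOK b K m n w G.px) {c d : Cell}
    {p : Fin 4 → Fin 4} (h : chkB b K m w G c d p = true) (y z : Fin 4 → ℝ)
    (hy : ∀ i, 0 ≤ y i) (hz : ∀ i, 0 ≤ z i) :
    0 ≤ ev (env8 (lin c y) (fun i => lin d z (p i))) G.px := by
  have hlin : ∀ (c : Cell) (y : Fin 4 → ℝ), Continuous fun ε : ℝ => lin c (fun i => y i + ε) := by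
    intro c y
    refine continuous_pi fun j => ?_
    unfold lin
    fun_prop
  have hφ : Continuous fun ε : ℝ => ev (env8 (lin c (fun i => y i + ε))
      (fun i => lin d (fun i => z i + ε) (p i))) G.px :=
    (ev_cont G.px).comp (env8_cont (hlin c y)
      (continuous_pi fun i => (continuous_apply (p i)).comp (hlin d z)))
  have ht : Tendsto (fun ε : ℝ => ev (env8 (lin c (fun i => y i + ε))
      (fun i => lin d (fun i => z i + ε) (p i))) G.px) (nhdsWithin 0 (Set.Ioi 0))
      (nhds (ev (env8 (lin c (fun i => y i + 0)) (fun i => lin d (fun i => z i + 0) (p i))) G.px)) :=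
    (hφ.tendsto 0).mono_left nhdsWithin_le_nhds
  simp only [add_zero] at ht
  refine ge_of_tendsto ht ?_
  filter_upwards [self_mem_nhdsWithin] with ε hε
  have hε : 0 < ε := hε
  exact blk0 H h _ _ (by have := hy 0; linarith) (by have := hz 0; linarith)
    (fun i => by have := hy i; linarith) (fun i => by have := hz i; linarith)

/-! ### injective weights -/

/-- test of injectivity -/
def winj (w : Wt) (n : ℕ) : Bool :=
  (List.range (n + 1)).all fun a => (List.range (n + 1)).all fun b => (List.range (n + 1)).all fun c =>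
    (List.range (n + 1)).all fun b' => (List.range (n + 1)).all fun c' =>
      -- `a + ... = a' + ...` determines `a'`
      cond (Nat.ble (w.w1 * b' + w.w2 * c') (a + w.w1 * b + w.w2 * c))
        (cond (Nat.ble (a + b + c) n)
          (cond (Nat.ble ((a + w.w1 * b + w.w2 * c) - (w.w1 * b' + w.w2 * c') + b' + c') n)
            (cond (Nat.beq b b') (Nat.beq c c') false) true) true) true

theorem winj_spec (w : Wt) (n : ℕ) (h0 : w.w0 = 1) (h : winj w n = true) : WInj w n := by
  intro a b c a' b' c' h1 h2 h3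
  rw [h0, one_mul, one_mul] at h3
  simp only [winj, List.all_eq_true, List.mem_range] at h
  have h4 := h a (by omega) b (by omega) c (by omega) b' (by omega) c' (by omega)
  rw [show Nat.ble (w.w1 * b' + w.w2 * c') (a + w.w1 * b + w.w2 * c) = true from
    Nat.ble_eq_true_of_le (by omega), cond_true, show Nat.ble (a + b + c) n = true from Nat.ble_eq_true_of_le h1,
    cond_true, show Nat.ble ((a + w.w1 * b + w.w2 * c) - (w.w1 * b' + w.w2 * c') + b' + c') n = true
      from Nat.ble_eq_true_of_le (by omega), cond_true] at h4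
  simp only [Bool.cond_false_right, Bool.and_eq_true] at h4
  have e1 := Nat.eq_of_beq_eq_true h4.1
  have e2 := Nat.eq_of_beq_eq_true h4.2
  subst e1 e2
  exact ⟨by omega, rfl, rfl⟩

end Vale.Agent.P154.Q4
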