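import Vale.Agent.P154.Q4Edge

/-!
# P154: the four-colour certificate for `lam ∈ [0,1]`
-/

namespace Vale.Agent.P154.Q4

open Equiv Finset

theorem H_leaf (j : Fin 4) : 0 ≤ H (fun i : Fin 4 => if j = i then (1 : ℝ) else 0) := by
  have e : (fun i : Fin 4 => if j = i then (1 : ℝ) else 0) =
      fun i => ![(1 : ℝ), 0, 0, 0] (swap 0 j i) := by
    funext i
    fin_cases j <;> fin_cases i <;> simp [swap_apply_def]
  rw [e, sym_H]
  unfold H HN sq S0 s4 s11 s211 E4
  simp
  norm_num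

theorem H_one : H (fun _ : Fin 4 => (1 : ℝ)) = 0 := by
  unfold H HN sq S0 s4 s11 s211 E4
  norm_num

theorem tot_sq_le {X : Type} [Fintype X] {f : X → Fin 4 → ℝ} (hf : IsChan f) :
    tot W f ^ 2 ≤ tot W2 f := by
  have hZ : ∀ x, 0 ≤ Z (f x) := fun x => by
    unfold Z; exact div_nonneg (Finset.sum_nonneg fun i _ => hf.nonneg x i) (by norm_num)
  have hW : ∀ x, 0 ≤ W (f x) := fun x => W_nonneg (by norm_num) _ (hf.nonneg x)
  have h := Finset.sum_sq_le_sum_mul_sum_of_sq_le_mul (Finset.univ : Finset X)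
    (r := fun x => W (f x)) (f := fun x => W2 (f x)) (g := fun x => Z (f x))
    (fun x _ => by unfold W2; exact div_nonneg (sq_nonneg _) (hZ x)) (fun x _ => hZ x)
    (fun x _ => by
      show W (f x) ^ 2 ≤ W2 (f x) * Z (f x)
      refine le_of_eq ?_
      unfold W2
      by_cases h0 : Z (f x) = 0
      · have hc : f x = 0 := by
          have h1 : c0 (f x) = 0 := by rw [Z_four] at h0; linarith
          by_contra hne
          exact absurd h1 (sum_pos_of_ne (hf.nonneg x) hne).ne'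
        rw [hc, W_zero4, Z_zero4]; simp
      · field_simp)
  have hs : ∑ x, Z (f x) = 1 := hf.sum_Z (by norm_num)
  rw [hs, mul_one] at h
  exact h

theorem pair_tot (Fc : Facts) {X Y : Type} [Fintype X] [Fintype Y] {f : X → Fin 4 → ℝ}
    {g : Y → Fin 4 → ℝ} (hf : IsChan f) (hg : IsChan g) (hKf : 0 ≤ tot H f) (hKg : 0 ≤ tot H g) :
    0 ≤ tot H (prod2 f g) := by
  have h1 := tot_prod2_avg H (f := f) hg Finset.univ
  rw [card_perm4] at h1
  have h2 : ∑ x, ∑ y, 24 * (A (g y) * H (f x) + A (f x) * H (g y)) ≤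
      ∑ x, ∑ y, ∑ π ∈ (Finset.univ : Finset (Perm (Fin 4))), H (fun i => f x i * g y (π i)) :=
    Finset.sum_le_sum fun x _ => Finset.sum_le_sum fun y _ =>
      pairH Fc (hf.nonneg x) (hg.nonneg y)
  have h3 : ∑ x, ∑ y, 24 * (A (g y) * H (f x) + A (f x) * H (g y)) =
      24 * (tot A g * tot H f + tot A f * tot H g) := by
    unfold tot
    simp_rw [← Finset.mul_sum, Finset.sum_add_distrib]
    congr 2
    · rw [Finset.mul_sum]
      refine Finset.sum_congr rfl fun x _ => ?_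
      rw [Finset.sum_mul]
    · rw [Finset.sum_mul]
      refine Finset.sum_congr rfl fun x _ => ?_
      rw [Finset.mul_sum]
  have h4 : 0 ≤ 24 * (tot A g * tot H f + tot A f * tot H g) :=
    mul_nonneg (by norm_num) (add_nonneg (mul_nonneg (Finset.sum_nonneg fun y _ => A_nonneg Fc _) hKf)
      (mul_nonneg (Finset.sum_nonneg fun y _ => A_nonneg Fc _) hKg))
  linarith

theorem gain_tot (Fc : Facts) {X Y : Type} [Fintype X] [Fintype Y] {f : X → Fin 4 → ℝ}
    {g : Y → Fin 4 → ℝ} (hf : IsChan f) (hg : IsChan g) (hKf : 0 ≤ tot H f) (hKg : 0 ≤ tot H g) :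
    tot W (prod2 f g) ≤ tot W f + tot W g -
      (0 * (tot W f * tot W g) + 1 / 10000 * (tot W f ^ 2 * tot W g + tot W f * tot W g ^ 2)) := by
  have h1 := tot_prod2_avg W (f := f) hg Finset.univ
  rw [card_perm4] at h1
  have h2 : ∑ x, ∑ y, ∑ π ∈ (Finset.univ : Finset (Perm (Fin 4))), W (fun i => f x i * g y (π i)) ≤
      ∑ x, ∑ y, 24 * (W (f x) * Z (g y) + W (g y) * Z (f x) - H (f x) * r (g y) -
        H (g y) * r (f x) - 1 / 10000 * (W2 (f x) * W (g y) + W (f x) * W2 (g y))) :=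
    Finset.sum_le_sum fun x _ => Finset.sum_le_sum fun y _ =>
      pairW Fc (hf.nonneg x) (hg.nonneg y)
  have h3 : ∑ x, ∑ y, 24 * (W (f x) * Z (g y) + W (g y) * Z (f x) - H (f x) * r (g y) -
        H (g y) * r (f x) - 1 / 10000 * (W2 (f x) * W (g y) + W (f x) * W2 (g y))) =
      24 * (tot W f * tot Z g + tot W g * tot Z f - tot H f * tot r g - tot H g * tot r f -
        1 / 10000 * (tot W2 f * tot W g + tot W f * tot W2 g)) := by
    unfold tot
    simp_rw [← Finset.mul_sum, Finset.sum_sub_distrib, Finset.sum_add_distrib, ← Finset.mul_sum,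
      ← Finset.sum_mul, Finset.sum_add_distrib, ← Finset.mul_sum, ← Finset.sum_mul]
  have h4 : tot Z g = 1 := hg.sum_Z (by norm_num)
  have h5 : tot Z f = 1 := hf.sum_Z (by norm_num)
  have h6 : 0 ≤ tot H f * tot r g :=
    mul_nonneg hKf (Finset.sum_nonneg fun y _ => r_nonneg Fc (hg.nonneg y))
  have h7 : 0 ≤ tot H g * tot r f :=
    mul_nonneg hKg (Finset.sum_nonneg fun x _ => r_nonneg Fc (hf.nonneg x))
  have hWf : 0 ≤ tot W f := hf.tot_W_nonneg (by norm_num)
  have hWg : 0 ≤ tot W g := hg.tot_W_nonneg (by norm_num)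
  have h8 := mul_le_mul_of_nonneg_right (tot_sq_le hf) hWg
  have h9 := mul_le_mul_of_nonneg_left (tot_sq_le hg) hWf
  rw [h3, h4, h5, ← h1] at h2
  linarith

/-- The certificate. -/
noncomputable def cert (Fc : Facts) (lam : ℝ) (h0 : 0 ≤ lam) (h1 : lam ≤ 1) : ACert 4 lam where
  V := fun f => 0 ≤ tot H f
  E := fun f => 0 ≤ tot H f
  V_equiv := fun e f h => by rw [tot_comp_equiv]; exact h
  E_equiv := fun e f h => by rw [tot_comp_equiv]; exact h
  V_unit := by
    show 0 ≤ ∑ _x : Unit, H (fun _ => 1)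
    rw [H_one]; simp
  E_leaf := by
    refine Finset.sum_nonneg fun j _ => ?_
    have h := H_edge Fc h0 h1 (u := fun i : Fin 4 => if j = i then (1 : ℝ) else 0)
      (fun i => by split_ifs <;> norm_num)
    exact (mul_nonneg (pow_nonneg h0 3) (H_leaf j)).trans h
  E_edge := fun f hf h => by
    have h2 : lam ^ 3 * tot H f ≤ tot H (fun x => edge lam (f x)) := by
      unfold tot
      rw [Finset.mul_sum]
      exact Finset.sum_le_sum fun x _ => H_edge Fc h0 h1 (hf.nonneg x)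
    exact (mul_nonneg (pow_nonneg h0 3) h).trans h2
  V_prod := fun f g hf hg h h' => pair_tot Fc hf hg h h'
  mu := 0
  nu := 1 / 10000
  mu_nonneg := le_rfl
  nu_nonneg := by norm_num
  gain := fun f g hf hg h h' => gain_tot Fc hf hg h h'

theorem threshold (Fc : Facts) (lam : ℝ) (h0 : 0 ≤ lam) (h1 : lam ≤ 1) :
    (∀ d : ℕ, 2 ≤ d →
      (Reconstruction (aRegular 4 lam d) ↔ 1 < (d : ℝ) * lam ^ 2) ∧
      (Nonreconstruction (aRegular 4 lam d) ↔ (d : ℝ) * lam ^ 2 ≤ 1)) ∧
    (∀ d : NNReal, 0 < d →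
      (∀ n, MeasureTheory.Integrable (fun N => quenched 4 lam N n) (poissonTree d)) ∧
      (Reconstruction (aPoisson 4 lam d) ↔ 1 < (d : ℝ) * lam ^ 2) ∧
      (Nonreconstruction (aPoisson 4 lam d) ↔ (d : ℝ) * lam ^ 2 ≤ 1)) := by
  have hadm : Admissible 4 lam := admissible_of_mem 4 h0 h1
  have hmu : 0 < (cert Fc lam h0 h1).mu + (cert Fc lam h0 h1).nu := by
    show (0 : ℝ) < 0 + 1 / 10000
    norm_num
  refine ⟨fun d hd => (cert Fc lam h0 h1).threshold_regular (by norm_num) hadm hmu hd,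
    fun d hd => ⟨fun n => integrable_quenched (by norm_num) hadm _ n, ?_⟩⟩
  exact (cert Fc lam h0 h1).threshold_poisson (by norm_num) hadm hmu hd

end Vale.Agent.P154.Q4
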