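import Vale.Agent.P154.Q4Out

/-!
# P154: soundness of the packed test for bihomogeneous polynomials on pairs of cells
-/

namespace Vale.Agent.P154

open MvPolynomial Finset

namespace PExp

/-! ### degree bounds -/

/-- weighted degree bound -/
noncomputable def tdf (f : ℕ → ℕ) (e : PExp) : ℕ :=
  @PExp.rec (fun _ => ℕ) (fun _ => 0) f (fun _ _ x y => cond (Nat.ble x y) y x)
    (fun _ _ x y => cond (Nat.ble x y) y x)
    (fun _ _ x y => Nat.add x y) (fun _ n x => Nat.mul n x) e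

theorem cmax (x y : ℕ) : cond (Nat.ble x y) y x = max x y := by
  cases h : Nat.ble x y with
  | true => rw [cond_true, max_eq_right (Nat.le_of_ble_eq_true h)]
  | false =>
    have : ¬ x ≤ y := fun h' => by rw [Nat.ble_eq_true_of_le h'] at h; exact Bool.noConfusion h
    rw [cond_false, max_eq_left (by omega)]

/-- degree of a monomial in three variables -/
def d3 (a b c : ℕ) (d : ℕ →₀ ℕ) : ℕ := d a + d b + d c

theorem d3_mul (a b c : ℕ) (P Q : MP) (s t : ℕ) (hP : ∀ d ∈ P.support, d3 a b c d ≤ s)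
    (hQ : ∀ d ∈ Q.support, d3 a b c d ≤ t) :
    ∀ d ∈ (P * Q).support, d3 a b c d ≤ s + t := by
  intro d hd
  have := MvPolynomial.support_mul P Q hd
  rw [Finset.mem_add] at this
  obtain ⟨x, hx, y, hy, rfl⟩ := this
  have h1 := hP x hx
  have h2 := hQ y hy
  simp only [d3, Finsupp.coe_add, Pi.add_apply] at h1 h2 ⊢
  omega

theorem d3_add (a b c : ℕ) (P Q : MP) (s : ℕ) (hP : ∀ d ∈ P.support, d3 a b c d ≤ s)
    (hQ : ∀ d ∈ Q.support, d3 a b c d ≤ s) :
    ∀ d ∈ (P + Q).support, d3 a b c d ≤ s := by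
  intro d hd
  have := MvPolynomial.support_add hd
  rcases Finset.mem_union.1 this with h | h
  · exact hP d h
  · exact hQ d h

/-- both parts have degree at most `s` -/
def D3 (a b c : ℕ) (q : MP × MP) (s : ℕ) : Prop :=
  (∀ d ∈ q.1.support, d3 a b c d ≤ s) ∧ (∀ d ∈ q.2.support, d3 a b c d ≤ s)

theorem D3_pmul (a b c : ℕ) (x y : MP × MP) (s t : ℕ) (hx : D3 a b c x s) (hy : D3 a b c y t) :
    D3 a b c (pmul x y) (s + t) :=
  ⟨d3_add _ _ _ _ _ _ (d3_mul _ _ _ _ _ _ _ hx.1 hy.1) (d3_mul _ _ _ _ _ _ _ hx.2 hy.2),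
    d3_add _ _ _ _ _ _ (d3_mul _ _ _ _ _ _ _ hx.1 hy.2) (d3_mul _ _ _ _ _ _ _ hx.2 hy.1)⟩

theorem D3_mono {a b c : ℕ} {x : MP × MP} {s t : ℕ} (h : D3 a b c x s) (hst : s ≤ t) :
    D3 a b c x t := ⟨fun d hd => (h.1 d hd).trans hst, fun d hd => (h.2 d hd).trans hst⟩

theorem D3_sbst (a b c : ℕ) (σ : ℕ → PExp) (f : ℕ → ℕ)
    (h : ∀ i, D3 a b c (pr (R := MP) X (σ i)) (f i)) (e : PExp) :
    D3 a b c (pr (R := MP) X (sbst σ e)) (tdf f e) := by
  induction e with
  | k z =>
    show D3 a b c (((z.toNat : ℕ) : MP), (((-z).toNat : ℕ) : MP)) 0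
    constructor
    · intro d hd
      simp only at hd
      rw [← MvPolynomial.C_eq_coe_nat] at hd
      have h0 := MvPolynomial.mem_support_iff.1 hd
      rw [coeff_C] at h0
      by_cases h1 : 0 = d
      · subst h1; simp [d3]
      · rw [if_neg h1] at h0; exact absurd rfl h0
    · intro d hd
      simp only at hd
      rw [← MvPolynomial.C_eq_coe_nat] at hd
      have h0 := MvPolynomial.mem_support_iff.1 hd
      rw [coeff_C] at h0
      by_cases h1 : 0 = d
      · subst h1; simp [d3]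
      · rw [if_neg h1] at h0; exact absurd rfl h0
  | v j => exact h j
  | add x y ihx ihy =>
    have e1 : tdf f (x.add y) = max (tdf f x) (tdf f y) := cmax _ _
    rw [e1]
    have hx := D3_mono ihx (le_max_left (tdf f x) (tdf f y))
    have hy := D3_mono ihy (le_max_right (tdf f x) (tdf f y))
    exact ⟨d3_add _ _ _ _ _ _ hx.1 hy.1, d3_add _ _ _ _ _ _ hx.2 hy.2⟩
  | sub x y ihx ihy =>
    have e1 : tdf f (x.sub y) = max (tdf f x) (tdf f y) := cmax _ _
    rw [e1]
    have hx := D3_mono ihx (le_max_left (tdf f x) (tdf f y))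
    have hy := D3_mono ihy (le_max_right (tdf f x) (tdf f y))
    exact ⟨d3_add _ _ _ _ _ _ hx.1 hy.2, d3_add _ _ _ _ _ _ hx.2 hy.1⟩
  | mul x y ihx ihy => exact D3_pmul _ _ _ _ _ _ _ ihx ihy
  | pow x n ih =>
    have e1 : tdf f (x.pow n) = n * tdf f x := rfl
    rw [e1]
    simp only [sbst, pr]
    induction n with
    | zero =>
      constructor
      · intro d hd
        simp only [ppow] at hd
        have h0 := MvPolynomial.mem_support_iff.1 hd
        rw [coeff_one] at h0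
        by_cases h1 : 0 = d
        · subst h1; simp [d3]
        · rw [if_neg h1] at h0; exact absurd rfl h0
      · intro d hd
        simp [ppow] at hd
    | succ n ihn =>
      rw [ppow, Nat.succ_mul]
      exact D3_pmul _ _ _ _ _ _ _ (ihn rfl) ih

theorem D3_var (a b c : ℕ) (i : ℕ) (s : ℕ)
    (h : (if a = i then 1 else 0) + (if b = i then 1 else 0) + (if c = i then 1 else 0) ≤ s) :
    D3 a b c (pr (R := MP) X (v i)) s := by
  constructor
  · intro d hd
    simp only [pr] at hd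
    rw [support_X, mem_singleton] at hd
    subst hd
    simp only [d3, Finsupp.single_apply]
    simp only [eq_comm] at h ⊢
    exact h
  · intro d hd
    simp [pr] at hd

theorem sbst_v (e : PExp) : sbst v e = e := by
  induction e with
  | k z => rfl
  | v j => rfl
  | add x y ihx ihy => simp only [sbst, ihx, ihy]
  | sub x y ihx ihy => simp only [sbst, ihx, ihy]
  | mul x y ihx ihy => simp only [sbst, ihx, ihy]
  | pow x n ih => simp only [sbst, ih]

theorem vb_sbst (m : ℕ) (σ : ℕ → PExp) (h : ∀ i, vb m (σ i) = true) (e : PExp) :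
    vb m (sbst σ e) = true := by
  induction e with
  | k z => rfl
  | v j => exact h j
  | add x y ihx ihy => simp only [sbst, vb, ihx, ihy, Bool.and_self]
  | sub x y ihx ihy => simp only [sbst, vb, ihx, ihy, Bool.and_self]
  | mul x y ihx ihy => simp only [sbst, vb, ihx, ihy, Bool.and_self]
  | pow x n ih => simp only [sbst, vb, ih]

/-! ### packing four of six variables -/

/-- weight of a variable -/
def W4 (K : ℕ) (w : Wt) (i : ℕ) : ℕ :=
  if i = 2 then K else if i = 3 then w.w0 else if i = 4 then w.w1 else if i = 5 then w.w2 else 0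

/-- weight of a monomial -/
def wt4 (K : ℕ) (w : Wt) (d : ℕ →₀ ℕ) : ℕ := K * d 2 + (w.w0 * d 3 + w.w1 * d 4 + w.w2 * d 5)

/-- the packed point -/
noncomputable def x4 (b K : ℕ) (w : Wt) (i : ℕ) : R2 :=
  if i = 0 then Polynomial.X else if i = 1 then Polynomial.C Polynomial.X
  else Polynomial.C (Polynomial.C (((2 : ℕ) ^ (b * W4 K w i) : ℕ) : ℤ))

/-- the monomial in `R2` -/
theorem mono2_eq (i j : ℕ) (c : ℤ) :
    (Polynomial.C (Polynomial.C c) : R2) * (Polynomial.X ^ i * (Polynomial.C Polynomial.X) ^ j) =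
    Polynomial.monomial i (Polynomial.monomial j c) := by
  rw [← Polynomial.C_mul_X_pow_eq_monomial, ← Polynomial.C_mul_X_pow_eq_monomial]
  simp only [Polynomial.C_mul, Polynomial.C_pow]
  ring

theorem cst2_nat (m : ℕ) : (Polynomial.C (Polynomial.C (m : ℤ)) : R2) = (m : R2) := by
  rw [map_natCast, map_natCast]

theorem phi4_monomial (b K : ℕ) (w : Wt) (d : ℕ →₀ ℕ) (c : ℕ) (hd : ∀ i, 6 ≤ i → d i = 0) :
    eval₂Hom (Nat.castRingHom R2) (x4 b K w) (monomial d c) =
      Polynomial.monomial (d 0) (Polynomial.monomial (d 1) ((c * 2 ^ (b * wt4 K w d) : ℕ) : ℤ)) := by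
  rw [coe_eval₂Hom, eval₂_monomial]
  have h1 : (d.prod fun i k => x4 b K w i ^ k) = ∏ i ∈ range 6, x4 b K w i ^ (d i) := by
    unfold Finsupp.prod
    apply prod_subset
    · intro i hi
      rw [mem_range]
      by_contra hcon
      exact (Finsupp.mem_support_iff.mp hi) (hd i (by omega))
    · intro i _ hi
      have : d i = 0 := Finsupp.notMem_support_iff.mp hi
      simp only [this, pow_zero]
  rw [h1, ← mono2_eq]
  simp only [prod_range_succ, prod_range_zero, one_mul]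
  have v0 : x4 b K w 0 = Polynomial.X := rfl
  have v1 : x4 b K w 1 = Polynomial.C Polynomial.X := rfl
  have v2 : x4 b K w 2 = (((2 : ℕ) ^ (b * K) : ℕ) : R2) := cst2_nat _
  have v3 : x4 b K w 3 = (((2 : ℕ) ^ (b * w.w0) : ℕ) : R2) := cst2_nat _
  have v4 : x4 b K w 4 = (((2 : ℕ) ^ (b * w.w1) : ℕ) : R2) := cst2_nat _
  have v5 : x4 b K w 5 = (((2 : ℕ) ^ (b * w.w2) : ℕ) : R2) := cst2_nat _
  rw [v0, v1, v2, v3, v4, v5]
  have h2 : (Polynomial.C (Polynomial.C ((c * 2 ^ (b * wt4 K w d) : ℕ) : ℤ)) : R2) =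
      (c : R2) * ((((2 : ℕ) ^ (b * K) : ℕ) : R2) ^ d 2 * (((2 : ℕ) ^ (b * w.w0) : ℕ) : R2) ^ d 3 *
      (((2 : ℕ) ^ (b * w.w1) : ℕ) : R2) ^ d 4 * (((2 : ℕ) ^ (b * w.w2) : ℕ) : R2) ^ d 5) := by
    have h3 : c * 2 ^ (b * wt4 K w d) = c * ((2 ^ (b * K)) ^ d 2 * (2 ^ (b * w.w0)) ^ d 3 *
        (2 ^ (b * w.w1)) ^ d 4 * (2 ^ (b * w.w2)) ^ d 5) := by
      rw [← pow_mul, ← pow_mul, ← pow_mul, ← pow_mul, ← pow_add, ← pow_add, ← pow_add]
      congr 2
      unfold wt4
      ring
    rw [cst2_nat, h3]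
    push_cast
    ring
  rw [h2]
  simp only [eq_natCast]
  ring

/-- coefficient -/
noncomputable def cf2 (i j : ℕ) : R2 →+ ℤ :=
  { toFun := fun p => (p.coeff i).coeff j
    map_zero' := by simp
    map_add' := fun p q => by simp }

theorem cf2_entry (test : SN → Bool) (l : L2) (h : allL (allL test) l = true) (i j : ℕ) :
    cf2 i j (p2 l) = 0 ∨ ∃ a : SN, test a = true ∧ cf2 i j (p2 l) = a.toInt := by
  have e : cf2 i j (p2 l) = ((toP p1 l).coeff i).coeff j := rfl
  rw [e]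
  rcases toP_coeff p1 l i with h2 | ⟨l1, hl1, h2⟩
  · left
    rw [h2]; simp
  · rw [h2]
    have t1 := allL_spec _ _ h l1 hl1
    rcases toP_coeff SN.toInt l1 j with h3 | ⟨a, ha, h3⟩
    · left; exact h3
    · right; exact ⟨a, allL_spec _ _ t1 a ha, h3⟩

/-- grouped coefficients -/
noncomputable def g4 (K : ℕ) (w : Wt) (i j : ℕ) (P : MP) (κ : ℕ) : ℕ :=
  ∑ d ∈ P.support with ((d 0 = i ∧ d 1 = j) ∧ wt4 K w d = κ), P.coeff d

theorem g4_le (K : ℕ) (w : Wt) (i j : ℕ) (P : MP) (κ : ℕ) :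
    g4 K w i j P κ ≤ MvPolynomial.eval (fun _ => 1) P := by
  rw [MvPolynomial.eval_eq]
  simp only [one_pow, prod_const_one, mul_one]
  exact sum_le_sum_of_subset (filter_subset _ _)

theorem cf2_phi (b K N : ℕ) (w : Wt) (i j : ℕ) (P : MP)
    (hP : ∀ d ∈ P.support, ∀ i, 6 ≤ i → d i = 0) (hK : ∀ d ∈ P.support, wt4 K w d < N) :
    cf2 i j (eval₂Hom (Nat.castRingHom R2) (x4 b K w) P) =
      ((∑ κ ∈ range N, g4 K w i j P κ * (2 ^ b) ^ κ : ℕ) : ℤ) := by
  conv_lhs => rw [P.as_sum]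
  rw [map_sum, map_sum]
  have h1 : ∀ d ∈ P.support, cf2 i j (eval₂Hom (Nat.castRingHom R2)
      (x4 b K w) (monomial d (P.coeff d))) =
      ((if (d 0 = i ∧ d 1 = j) then P.coeff d * (2 ^ b) ^ (wt4 K w d) else 0 : ℕ) : ℤ) := by
    intro d hd
    rw [phi4_monomial b K w d _ (hP d hd)]
    have e : ∀ z : ℤ, cf2 i j (Polynomial.monomial (d 0) (Polynomial.monomial (d 1) z)) =
        if (d 0 = i ∧ d 1 = j) then z else 0 := by
      intro z
      show ((Polynomial.monomial (d 0) (Polynomial.monomial (d 1) z) : R2).coeff i).coeff j = _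
      rw [Polynomial.coeff_monomial]
      by_cases a0 : d 0 = i
      · rw [if_pos a0, Polynomial.coeff_monomial]
        by_cases a1 : d 1 = j
        · rw [if_pos a1, if_pos ⟨a0, a1⟩]
        · rw [if_neg a1, if_neg (fun h => a1 h.2)]
      · rw [if_neg a0, if_neg (fun h => a0 h.1)]
        simp
    rw [e]
    rw [← pow_mul]
    push_cast
    rfl
  rw [sum_congr rfl h1]
  rw [← Nat.cast_sum]
  congr 1
  unfold g4
  simp only [sum_mul]
  have h2 : ∀ κ ∈ range N, ∑ d ∈ P.support with ((d 0 = i ∧ d 1 = j) ∧ wt4 K w d = κ),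
      P.coeff d * (2 ^ b) ^ κ = ∑ d ∈ P.support with wt4 K w d = κ,
      (if (d 0 = i ∧ d 1 = j) then P.coeff d * (2 ^ b) ^ (wt4 K w d) else 0) := by
    intro κ _
    rw [sum_filter, sum_filter]
    apply sum_congr rfl
    intro d _
    by_cases a : (d 0 = i ∧ d 1 = j)
    · by_cases a' : wt4 K w d = κ
      · rw [if_pos ⟨a, a'⟩, if_pos a', if_pos a, a']
      · rw [if_neg (fun h => a' h.2), if_neg a']
    · rw [if_neg (fun h => a h.1), if_neg a, ite_self]
  rw [sum_congr rfl h2]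
  rw [← sum_fiberwise_of_maps_to (s := P.support) (t := range N) (g := wt4 K w)]
  intro d hd
  rw [mem_range]
  exact hK d hd

theorem coeff_le_of_rows4 (b K m n : ℕ) (w : Wt) (e : PExp) (hwn : WInj w n)
    (hw0 : w.w0 ≤ w.w2) (hw1 : w.w1 ≤ w.w2) (hK : w.w2 * n < K) (hb : 0 < b)
    (hv : vb 6 e = true) (hA : D3 0 1 2 (pr (R := MP) X e) m) (hB : D3 3 4 5 (pr (R := MP) X e) n)
    (hq : (pr (R := ℕ) (fun _ => 1) e).1 + (pr (R := ℕ) (fun _ => 1) e).2 < 2 ^ (b - 1))
    (l : L2) (hl : p2 l = ev (x4 b K w) e)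
    (hrow : allL (allL (rowOK (gOff b (K * (m + 1))))) l = true) :
    ∀ d, (pr (R := MP) X e).2.coeff d ≤ (pr (R := MP) X e).1.coeff d := by
  set P := (pr (R := MP) X e).1 with hPdef
  set Q := (pr (R := MP) X e).2 with hQdef
  have hPz : ∀ d ∈ P.support, ∀ i, 6 ≤ i → d i = 0 := fun d hd i hi => by
    have := (monomial_le_degreeOf i hd).trans (dg_spec i e).1
    rw [dg_eq_zero 6 i hi e hv] at this
    omega
  have hQz : ∀ d ∈ Q.support, ∀ i, 6 ≤ i → d i = 0 := fun d hd i hi => by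
    have := (monomial_le_degreeOf i hd).trans (dg_spec i e).2
    rw [dg_eq_zero 6 i hi e hv] at this
    omega
  have hsm : ∀ (x y z r : ℕ), x + y + z ≤ r → w.w0 * x + w.w1 * y + w.w2 * z ≤ w.w2 * r := by
    intro x y z r h
    have h1 : w.w0 * x ≤ w.w2 * x := Nat.mul_le_mul_right _ hw0
    have h2 : w.w1 * y ≤ w.w2 * y := Nat.mul_le_mul_right _ hw1
    have h3 : w.w2 * (x + y + z) ≤ w.w2 * r := Nat.mul_le_mul_left _ h
    have h4 : w.w2 * (x + y + z) = w.w2 * x + w.w2 * y + w.w2 * z := by ring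
    omega
  set N := K * (m + 1) with hN
  have hwt : ∀ d : ℕ →₀ ℕ, d3 0 1 2 d ≤ m → d3 3 4 5 d ≤ n → wt4 K w d < N := by
    intro d h1 h2
    have h4 := hsm _ _ _ _ h2
    unfold d3 at h1
    unfold wt4
    have h5 : K * d 2 ≤ K * m := Nat.mul_le_mul_left K (by omega)
    have h6 : N = K * m + K := by rw [hN]; ring
    omega
  have hinj : ∀ d d' : ℕ →₀ ℕ, d3 0 1 2 d ≤ m → d3 3 4 5 d ≤ n → d3 0 1 2 d' ≤ m → d3 3 4 5 d' ≤ n →
      d 0 = d' 0 → d 1 = d' 1 →
      wt4 K w d = wt4 K w d' → (∀ i, 6 ≤ i → d i = 0) → (∀ i, 6 ≤ i → d' i = 0) → d = d' := by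
    intro d d' h1 h2 h3 h4 c0 c1 h5 h6 h7
    have a1 := hsm _ _ _ _ h2
    have a2 := hsm _ _ _ _ h4
    unfold wt4 at h5
    have hK0 : 0 < K := by omega
    have b1 : d 2 = d' 2 := by
      have e1 : (K * d 2 + (w.w0 * d 3 + w.w1 * d 4 + w.w2 * d 5)) / K = d 2 := by
        rw [Nat.mul_add_div hK0, Nat.div_eq_of_lt (by omega), add_zero]
      have e2 : (K * d' 2 + (w.w0 * d' 3 + w.w1 * d' 4 + w.w2 * d' 5)) / K = d' 2 := by
        rw [Nat.mul_add_div hK0, Nat.div_eq_of_lt (by omega), add_zero]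
      rw [← e1, ← e2, h5]
    have b2 : w.w0 * d 3 + w.w1 * d 4 + w.w2 * d 5 = w.w0 * d' 3 + w.w1 * d' 4 + w.w2 * d' 5 := by
      rw [b1] at h5; omega
    obtain ⟨c3, c4, c5⟩ := hwn _ _ _ _ _ _ h2 h4 b2
    ext i
    match i with
    | 0 => exact c0
    | 1 => exact c1
    | 2 => exact b1
    | 3 => exact c3
    | 4 => exact c4
    | 5 => exact c5
    | i + 6 => rw [h6 _ (by omega), h7 _ (by omega)]
  have e2 := pr_map (MvPolynomial.eval (fun _ : ℕ => (1 : ℕ))) (X (R := ℕ)) e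
  simp only [eval_X] at e2
  rw [e2] at hq
  simp only [← hPdef, ← hQdef] at hq
  have e1 := pr_map (eval₂Hom (Nat.castRingHom R2) (x4 b K w)) (X (R := ℕ)) e
  simp only [eval₂Hom_X'] at e1
  have hev := ev_eq (x4 b K w) e
  have e4 : pr (x4 b K w) e = _ := e1
  rw [e4] at hev
  simp only [← hPdef, ← hQdef] at hev
  have hPN : ∀ d ∈ P.support, wt4 K w d < N := fun d hd => hwt d (hA.1 d hd) (hB.1 d hd)
  have hQN : ∀ d ∈ Q.support, wt4 K w d < N := fun d hd => hwt d (hA.2 d hd) (hB.2 d hd)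
  have hG : gOff b N = ∑ k ∈ range N, 2 ^ (b - 1) * (2 ^ b) ^ k := by
    have : gOff b N = 2 ^ (b - 1) * ((2 ^ (b * N) - 1) / (2 ^ b - 1)) := rfl
    rw [this, ← mul_sum, pow_mul, Nat.geomSum_eq]
    calc 2 = 2 ^ 1 := by norm_num
      _ ≤ 2 ^ b := Nat.pow_le_pow_right (by norm_num) hb
  have key : ∀ i j κ, κ < N → g4 K w i j Q κ ≤ g4 K w i j P κ := by
    intro i j κ hκ
    have hc := congrArg (cf2 i j) hev
    rw [map_sub, cf2_phi b K N w i j P hPz hPN, cf2_phi b K N w i j Q hQz hQN, ← hl] at hc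
    have hrow' : ∃ V : ℕ, cf2 i j (p2 l) = (V : ℤ) ∧
        Nat.land (V + gOff b N) (gOff b N) = gOff b N := by
      rcases cf2_entry _ _ hrow i j with h0 | ⟨a, ha, h0⟩
      · refine ⟨0, by rw [h0]; rfl, ?_⟩
        rw [Nat.zero_add]
        exact Nat.and_self _
      · obtain ⟨h1, h2⟩ := rowOK_spec _ _ ha
        refine ⟨a.toInt.toNat, ?_, h2⟩
        rw [h0, Int.toNat_of_nonneg h1]
    obtain ⟨V, hV, hland⟩ := hrow'
    rw [hV] at hc
    refine land_spec b N (g4 K w i j P) (g4 K w i j Q)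
      (fun k' => lt_of_le_of_lt (g4_le K w i j P k') (by omega))
      (fun k' => lt_of_le_of_lt (g4_le K w i j Q k') (by omega)) hb (gOff b N) hG ?_ κ hκ
    have hsum : ∑ k' ∈ range N, g4 K w i j P k' * (2 ^ b) ^ k' + gOff b N -
        ∑ k' ∈ range N, g4 K w i j Q k' * (2 ^ b) ^ k' = V + gOff b N := by
      omega
    rw [hsum]
    exact hland
  intro d
  by_cases hd : d ∈ Q.support
  · have h1 : Q.coeff d ≤ g4 K w (d 0) (d 1) Q (wt4 K w d) := by
      unfold g4
      exact single_le_sum (f := fun d => Q.coeff d) (fun _ _ => Nat.zero_le _)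
        (mem_filter.mpr ⟨hd, ⟨rfl, rfl⟩, rfl⟩)
    have h2 := key (d 0) (d 1) (wt4 K w d) (hQN d hd)
    have h3 : g4 K w (d 0) (d 1) P (wt4 K w d) ≤ P.coeff d := by
      unfold g4
      calc ∑ c ∈ P.support with ((c 0 = d 0 ∧ c 1 = d 1) ∧ wt4 K w c = wt4 K w d), P.coeff c
          ≤ ∑ c ∈ ({d} : Finset (ℕ →₀ ℕ)), P.coeff c := by
            apply sum_le_sum_of_subset
            intro c hc
            rw [mem_filter] at hc
            obtain ⟨hc1, ⟨c0, c1⟩, hcw⟩ := hc
            rw [mem_singleton]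
            exact hinj c d (hA.1 c hc1) (hB.1 c hc1) (hA.2 d hd) (hB.2 d hd) c0 c1 hcw
              (hPz c hc1) (hQz d hd)
        _ = P.coeff d := by simp
    exact h1.trans (h2.trans h3)
  · rw [MvPolynomial.notMem_support_iff.mp hd]
    exact Nat.zero_le _

/-! ### bidegree -/

/-- bidegree; the variables `0, …, 3` have bidegree `(1, 0)`, the others `(0, 1)` -/
noncomputable def bdA (e : PExp) : ℕ :=
  @PExp.rec (fun _ => ℕ) (fun _ => 0) (fun i => cond (Nat.ble 4 i) 0 1) (fun _ _ x _ => x)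
    (fun _ _ x _ => x) (fun _ _ x y => Nat.add x y) (fun _ n x => Nat.mul n x) e
noncomputable def bdB (e : PExp) : ℕ :=
  @PExp.rec (fun _ => ℕ) (fun _ => 0) (fun i => cond (Nat.ble 4 i) 1 0) (fun _ _ x _ => x)
    (fun _ _ x _ => x) (fun _ _ x y => Nat.add x y) (fun _ n x => Nat.mul n x) e

/-- bihomogeneity -/
noncomputable def bok (e : PExp) : Bool :=
  @PExp.rec (fun _ => Bool) (fun _ => true) (fun _ => true)
    (fun a b x y => cond (Nat.beq (bdA a) (bdA b)) (cond (Nat.beq (bdB a) (bdB b)) (cond x y false)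
      false) false)
    (fun a b x y => cond (Nat.beq (bdA a) (bdA b)) (cond (Nat.beq (bdB a) (bdB b)) (cond x y false)
      false) false)
    (fun _ _ x y => cond x y false) (fun _ _ x => x) e

theorem ev_scale (α β : ℝ) (x : ℕ → ℝ) (e : PExp) (h : bok e = true) :
    ev (fun i => cond (Nat.ble 4 i) (β * x i) (α * x i)) e = α ^ bdA e * β ^ bdB e * ev x e := by
  induction e with
  | k z =>
    have h1 : bdA (k z) = 0 := rfl
    have h2 : bdB (k z) = 0 := rfl
    rw [h1, h2]; simp [ev]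
  | v i =>
    have h1 : bdA (v i) = cond (Nat.ble 4 i) 0 1 := rfl
    have h2 : bdB (v i) = cond (Nat.ble 4 i) 1 0 := rfl
    rw [h1, h2]
    simp only [ev]
    cases Nat.ble 4 i <;> simp
  | add a b iha ihb =>
    have e0 : bok (a.add b) = cond (Nat.beq (bdA a) (bdA b)) (cond (Nat.beq (bdB a) (bdB b))
      (cond (bok a) (bok b) false) false) false := rfl
    rw [e0] at h
    simp only [Bool.cond_false_right, Bool.and_eq_true] at h
    obtain ⟨h1, h2, h3, h4⟩ := h
    have h1 := Nat.eq_of_beq_eq_true h1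
    have h2 := Nat.eq_of_beq_eq_true h2
    have d1 : bdA (a.add b) = bdA a := rfl
    have d2 : bdB (a.add b) = bdB a := rfl
    simp only [ev]
    rw [d1, d2, iha h3, ihb h4, h1, h2]
    ring
  | sub a b iha ihb =>
    have e0 : bok (a.sub b) = cond (Nat.beq (bdA a) (bdA b)) (cond (Nat.beq (bdB a) (bdB b))
      (cond (bok a) (bok b) false) false) false := rfl
    rw [e0] at h
    simp only [Bool.cond_false_right, Bool.and_eq_true] at h
    obtain ⟨h1, h2, h3, h4⟩ := h
    have h1 := Nat.eq_of_beq_eq_true h1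
    have h2 := Nat.eq_of_beq_eq_true h2
    have d1 : bdA (a.sub b) = bdA a := rfl
    have d2 : bdB (a.sub b) = bdB a := rfl
    simp only [ev]
    rw [d1, d2, iha h3, ihb h4, h1, h2]
    ring
  | mul a b iha ihb =>
    have e0 : bok (a.mul b) = cond (bok a) (bok b) false := rfl
    rw [e0] at h
    simp only [Bool.cond_false_right, Bool.and_eq_true] at h
    have d1 : bdA (a.mul b) = bdA a + bdA b := rfl
    have d2 : bdB (a.mul b) = bdB a + bdB b := rfl
    simp only [ev]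
    rw [d1, d2, iha h.1, ihb h.2, pow_add, pow_add]
    ring
  | pow a n ih =>
    have d1 : bdA (a.pow n) = n * bdA a := rfl
    have d2 : bdB (a.pow n) = n * bdB a := rfl
    simp only [ev]
    rw [d1, d2, ih h, mul_pow, mul_pow, ← pow_mul, ← pow_mul, mul_comm n, mul_comm n]

theorem ev_cont (e : PExp) : Continuous (fun x : ℕ → ℝ => ev x e) := by
  induction e with
  | k z => simp only [ev]; exact continuous_const
  | v i => simp only [ev]; exact continuous_apply i
  | add a b iha ihb => simp only [ev]; exact iha.add ihb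
  | sub a b iha ihb => simp only [ev]; exact iha.sub ihb
  | mul a b iha ihb => simp only [ev]; exact iha.mul ihb
  | pow a n ih => simp only [ev]; exact ih.pow n

end PExp
end Vale.Agent.P154
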