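import Vale.Agent.P154.Q4PairH

/-!
# P154: continuity of the four-colour functionals; `pairH` for nonnegative arguments
-/

namespace Vale.Agent.P154.Q4

open Equiv Finset Filter Topology

theorem continuousAt_quot {X : Type} [TopologicalSpace X] {N D φ : X → ℝ} {x : X}
    (hN : ContinuousAt N x) (hD : ContinuousAt D x) (hφ : ContinuousAt φ x)
    (h0 : D x = 0 → φ x = 0) (hb : ∀ᶠ y in 𝓝 x, |N y| ≤ φ y * |D y|) (hφ0 : ∀ᶠ y in 𝓝 x, 0 ≤ φ y) :
    ContinuousAt (fun y => N y / D y) x := by
  by_cases h : D x = 0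
  · have hφx := h0 h
    have e : N x / D x = 0 := by rw [h, div_zero]
    rw [ContinuousAt, e]
    have h1 : Tendsto φ (𝓝 x) (𝓝 0) := by rw [← hφx]; exact hφ
    refine squeeze_zero_norm' ?_ h1
    filter_upwards [hb, hφ0] with y hy hy0
    rw [Real.norm_eq_abs, abs_div]
    by_cases hDy : D y = 0
    · rw [hDy, abs_zero, div_zero]; exact hy0
    · rw [div_le_iff₀ (abs_pos.mpr hDy)]; exact hy
  · exact hN.div hD h

theorem continuous_sq : Continuous sq := by
  unfold sq; fun_prop

theorem continuous_S0 : Continuous S0 := by unfold S0; fun_prop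
theorem continuous_s4 : Continuous s4 := by unfold s4; fun_prop
theorem continuous_s11 : Continuous s11 := by unfold s11; fun_prop
theorem continuous_s211 : Continuous s211 := by unfold s211; fun_prop
theorem continuous_E4 : Continuous E4 := by unfold E4; fun_prop
theorem continuous_HN : Continuous HN := by
  have h1 := continuous_S0
  have h2 := continuous_s4
  have h3 := continuous_s11
  have h4 := continuous_s211
  have h5 := continuous_E4
  unfold HN; fun_prop
theorem continuous_AN : Continuous AN := by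
  have h1 := continuous_S0
  have h2 : Continuous m5100 := by unfold m5100; fun_prop
  have h3 : Continuous m4200 := by unfold m4200; fun_prop
  have h4 : Continuous m4110 := by unfold m4110; fun_prop
  have h5 : Continuous m3300 := by unfold m3300; fun_prop
  have h6 : Continuous m3210 := by unfold m3210; fun_prop
  have h7 : Continuous m3111 := by unfold m3111; fun_prop
  have h8 : Continuous m2220 := by unfold m2220; fun_prop
  have h9 : Continuous m2211 := by unfold m2211; fun_prop
  unfold AN; fun_prop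
theorem continuous_c0 : Continuous c0 := by unfold c0; fun_prop
theorem continuous_c1 : Continuous c1 := by unfold c1; fun_prop
theorem continuous_c2 : Continuous c2 := by unfold c2; fun_prop
theorem continuous_c3 : Continuous c3 := by unfold c3; fun_prop
theorem continuous_e2 : Continuous e2 := by
  have := continuous_c1; have := continuous_c2; have := continuous_c3
  unfold e2; fun_prop
theorem continuous_e3 : Continuous e3 := by
  have := continuous_c1; have := continuous_c2; have := continuous_c3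
  unfold e3; fun_prop
theorem continuous_p4 : Continuous p4 := by
  have := continuous_c1; have := continuous_c2; have := continuous_c3
  unfold p4; fun_prop
theorem continuous_e4 : Continuous e4 := by
  have := continuous_e2; have := continuous_p4
  unfold e4; fun_prop
theorem continuous_RN : Continuous RN := by
  have := continuous_c0; have := continuous_e2; have := continuous_e3; have := continuous_e4
  unfold RN; fun_prop
theorem continuous_TN : Continuous TN := by
  have := continuous_c0; have := continuous_e2; have := continuous_e3; have := continuous_e4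
  unfold TN; fun_prop

theorem sq_nonneg' (u : Fin 4 → ℝ) (i : Fin 4) : 0 ≤ sq u i := Real.sqrt_nonneg _

theorem S0_nonneg (t : Fin 4 → ℝ) : 0 ≤ S0 t := by unfold S0; positivity

theorem abs_HN_le {t : Fin 4 → ℝ} (ht : ∀ i, 0 ≤ t i) : |HN t| ≤ 60000 * S0 t ^ 2 := by
  have h0 := ht 0; have h1 := ht 1; have h2 := ht 2; have h3 := ht 3
  have hS := S0_nonneg t
  have a1 : s4 t ≤ S0 t ^ 2 := by
    have : S0 t ^ 2 - s4 t = 2 * (t 0 ^ 2 * t 1 ^ 2 + t 0 ^ 2 * t 2 ^ 2 + t 0 ^ 2 * t 3 ^ 2 +
      t 1 ^ 2 * t 2 ^ 2 + t 1 ^ 2 * t 3 ^ 2 + t 2 ^ 2 * t 3 ^ 2) := by unfold S0 s4; ring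
    have h : 0 ≤ 2 * (t 0 ^ 2 * t 1 ^ 2 + t 0 ^ 2 * t 2 ^ 2 + t 0 ^ 2 * t 3 ^ 2 +
      t 1 ^ 2 * t 2 ^ 2 + t 1 ^ 2 * t 3 ^ 2 + t 2 ^ 2 * t 3 ^ 2) := by positivity
    linarith
  have a2 : s11 t ≤ 2 * S0 t := by
    unfold s11 S0
    nlinarith [sq_nonneg (t 0 - t 1), sq_nonneg (t 0 - t 2), sq_nonneg (t 0 - t 3),
      sq_nonneg (t 1 - t 2), sq_nonneg (t 1 - t 3), sq_nonneg (t 2 - t 3)]
  have b2 : 0 ≤ s11 t := by unfold s11; positivity
  have a3 : s211 t ≤ S0 t * s11 t := by
    have : S0 t * s11 t - s211 t = t 0 ^ 2 * (t 0 * t 1 + t 0 * t 2 + t 0 * t 3) +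
      t 1 ^ 2 * (t 1 * t 0 + t 1 * t 2 + t 1 * t 3) + t 2 ^ 2 * (t 2 * t 0 + t 2 * t 1 + t 2 * t 3) +
      t 3 ^ 2 * (t 3 * t 0 + t 3 * t 1 + t 3 * t 2) := by unfold S0 s11 s211; ring
    have h : 0 ≤ t 0 ^ 2 * (t 0 * t 1 + t 0 * t 2 + t 0 * t 3) +
      t 1 ^ 2 * (t 1 * t 0 + t 1 * t 2 + t 1 * t 3) + t 2 ^ 2 * (t 2 * t 0 + t 2 * t 1 + t 2 * t 3) +
      t 3 ^ 2 * (t 3 * t 0 + t 3 * t 1 + t 3 * t 2) := by positivity
    linarith
  have b3 : 0 ≤ s211 t := by unfold s211; positivity
  have b4 : 0 ≤ E4 t := by unfold E4; positivity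
  have b1 : 0 ≤ s4 t := by unfold s4; positivity
  have a4 : E4 t ≤ S0 t ^ 2 := by
    have e1 : t 0 * t 1 ≤ S0 t := by
      unfold S0; nlinarith [sq_nonneg (t 0 - t 1), sq_nonneg (t 2), sq_nonneg (t 3),
        sq_nonneg (t 0 + t 1)]
    have e2 : t 2 * t 3 ≤ S0 t := by
      unfold S0; nlinarith [sq_nonneg (t 2 - t 3), sq_nonneg (t 0), sq_nonneg (t 1),
        sq_nonneg (t 2 + t 3)]
    have := mul_le_mul e1 e2 (mul_nonneg h2 h3) hS
    unfold E4
    calc t 0 * t 1 * t 2 * t 3 = t 0 * t 1 * (t 2 * t 3) := by ring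
      _ ≤ S0 t * S0 t := this
      _ = S0 t ^ 2 := by ring
  have a5 : S0 t * s11 t ≤ 2 * S0 t ^ 2 := by nlinarith [mul_le_mul_of_nonneg_left a2 hS]
  have b5 : 0 ≤ S0 t * s11 t := mul_nonneg hS b2
  have hS2 : 0 ≤ S0 t ^ 2 := sq_nonneg _
  rw [abs_le]
  unfold HN
  constructor <;> nlinarith

theorem continuous_H : Continuous H := by
  rw [continuous_iff_continuousAt]
  intro u
  unfold H
  refine continuousAt_quot (φ := fun u => 10 * S0 (sq u))
    (continuous_HN.comp continuous_sq).continuousAt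
    (continuous_const.mul (continuous_S0.comp continuous_sq)).continuousAt
    (continuous_const.mul (continuous_S0.comp continuous_sq)).continuousAt ?_
    (Eventually.of_forall fun y => ?_) (Eventually.of_forall fun y => ?_)
  · intro h
    have : S0 (sq u) = 0 := by linarith
    simp only [this, mul_zero]
  · have h1 := abs_HN_le (sq_nonneg' y)
    have h2 := S0_nonneg (sq y)
    rw [abs_of_nonneg (by positivity : (0 : ℝ) ≤ 6000 * S0 (sq y))]
    calc |HN (sq y)| ≤ 60000 * S0 (sq y) ^ 2 := h1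
      _ = 10 * S0 (sq y) * (6000 * S0 (sq y)) := by ring
  · have h2 := S0_nonneg (sq y)
    positivity

theorem sum_pos_of_ne {u : Fin 4 → ℝ} (hu : ∀ i, 0 ≤ u i) (h : u ≠ 0) : 0 < c0 u := by
  have h0 := hu 0; have h1 := hu 1; have h2 := hu 2; have h3 := hu 3
  by_contra hc
  apply h
  unfold c0 at hc
  funext i
  fin_cases i <;> simp <;> linarith

theorem S0_sq {u : Fin 4 → ℝ} (hu : ∀ i, 0 ≤ u i) : S0 (sq u) = c0 u := by
  unfold S0 sq c0
  rw [Real.sq_sqrt (hu 0), Real.sq_sqrt (hu 1), Real.sq_sqrt (hu 2), Real.sq_sqrt (hu 3)]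

theorem continuousAt_A {u : Fin 4 → ℝ} (hu : ∀ i, 0 ≤ u i) (h : u ≠ 0) : ContinuousAt A u := by
  unfold A
  refine (continuous_AN.comp continuous_sq).continuousAt.div
    (continuous_const.mul ((continuous_S0.comp continuous_sq).pow 2)).continuousAt ?_
  have := sum_pos_of_ne hu h
  simp only [S0_sq hu]
  positivity

theorem continuousAt_r {u : Fin 4 → ℝ} (hu : ∀ i, 0 ≤ u i) (h : u ≠ 0) : ContinuousAt r u := by
  unfold r
  refine continuous_RN.continuousAt.div (continuous_const.mul (continuous_c0.pow 5)).continuousAt ?_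
  have := sum_pos_of_ne hu h
  positivity

theorem continuousAt_Ht {u : Fin 4 → ℝ} (hu : ∀ i, 0 ≤ u i) (h : u ≠ 0) : ContinuousAt Ht u := by
  unfold Ht
  refine continuous_TN.continuousAt.div (continuous_const.mul (continuous_c0.pow 5)).continuousAt ?_
  have := sum_pos_of_ne hu h
  positivity

theorem le_of_path {f g : ℝ → ℝ} (hf : ContinuousAt f 0) (hg : ContinuousAt g 0)
    (h : ∀ e, e ≠ 0 → f e ≤ g e) : f 0 ≤ g 0 := by
  refine le_of_tendsto_of_tendsto (b := 𝓝[≠] (0 : ℝ)) (hf.tendsto.mono_left nhdsWithin_le_nhds)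
    (hg.tendsto.mono_left nhdsWithin_le_nhds) ?_
  filter_upwards [self_mem_nhdsWithin] with e he
  exact h e he

/-- the shifted vector -/
def shf (u : Fin 4 → ℝ) (e : ℝ) : Fin 4 → ℝ := fun i => u i + |e|

theorem continuous_shf (u : Fin 4 → ℝ) : Continuous (shf u) := by
  unfold shf; fun_prop

theorem shf_zero (u : Fin 4 → ℝ) : shf u 0 = u := by
  funext i; simp [shf]

theorem shf_pos {u : Fin 4 → ℝ} (hu : ∀ i, 0 ≤ u i) {e : ℝ} (he : e ≠ 0) (i : Fin 4) :
    0 < shf u e i := by
  unfold shf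
  have := abs_pos.mpr he
  linarith [hu i]

theorem H_zero : H 0 = 0 := by
  unfold H; simp [S0, sq]

theorem A_zero : A 0 = 0 := by
  unfold A; simp [S0, sq]

theorem pairH (Fc : Facts) {u v : Fin 4 → ℝ} (hu : ∀ i, 0 ≤ u i) (hv : ∀ i, 0 ≤ v i) :
    24 * (A v * H u + A u * H v) ≤ ∑ π : Perm (Fin 4), H (fun i => u i * v (π i)) := by
  by_cases h1 : u = 0
  · subst h1
    have e : ∀ π : Perm (Fin 4), H (fun i => (0 : Fin 4 → ℝ) i * v (π i)) = 0 := fun π => by
      have : (fun i => (0 : Fin 4 → ℝ) i * v (π i)) = 0 := by funext i; simp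
      rw [this, H_zero]
    rw [Finset.sum_congr rfl fun π _ => e π, H_zero, A_zero]
    simp
  by_cases h2 : v = 0
  · subst h2
    have e : ∀ π : Perm (Fin 4), H (fun i => u i * (0 : Fin 4 → ℝ) (π i)) = 0 := fun π => by
      have : (fun i => u i * (0 : Fin 4 → ℝ) (π i)) = 0 := by funext i; simp
      rw [this, H_zero]
    rw [Finset.sum_congr rfl fun π _ => e π, H_zero, A_zero]
    simp
  have key := le_of_path (f := fun e => 24 * (A (shf v e) * H (shf u e) + A (shf u e) * H (shf v e)))
    (g := fun e => ∑ π : Perm (Fin 4), H (fun i => shf u e i * shf v e (π i))) ?_ ?_ ?_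
  · simpa only [shf_zero] using key
  · have cA : ∀ {w : Fin 4 → ℝ}, (∀ i, 0 ≤ w i) → w ≠ 0 → ContinuousAt (fun e => A (shf w e)) 0 := by
      intro w hw hw0
      exact ContinuousAt.comp (g := A) (by rw [shf_zero]; exact continuousAt_A hw hw0)
        (continuous_shf w).continuousAt
    have cH : ∀ w : Fin 4 → ℝ, ContinuousAt (fun e => H (shf w e)) 0 := fun w =>
      (continuous_H.comp (continuous_shf w)).continuousAt
    exact continuousAt_const.mul (((cA hv h2).mul (cH u)).add ((cA hu h1).mul (cH v)))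
  · refine Continuous.continuousAt ?_
    refine continuous_finsetSum _ fun π _ => ?_
    refine continuous_H.comp ?_
    have c1 := continuous_shf u
    have c2 := continuous_shf v
    refine continuous_pi fun i => ?_
    exact ((continuous_apply i).comp c1).mul ((continuous_apply (π i)).comp c2)
  · intro e he
    exact pairH_pos Fc (fun i => shf_pos hu he i) (fun i => shf_pos hv he i)

end Vale.Agent.P154.Q4
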