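import Mathlib

/-!
# P154: simplicial subdivisions of the orthant
-/

namespace Vale.Agent.P154.Q4

open Finset

/-- a simplicial cone, given by four generators -/
abbrev Cell := Fin 4 → Fin 4 → ℕ

/-- the point with coordinates `y` in the cone -/
def lin (c : Cell) (y : Fin 4 → ℝ) : Fin 4 → ℝ :=
  fun k => y 0 * c 0 k + y 1 * c 1 k + y 2 * c 2 k + y 3 * c 3 k

theorem lin_eq (c : Cell) (y : Fin 4 → ℝ) (k : Fin 4) : lin c y k = ∑ j, y j * c j k := by
  rw [Fin.sum_univ_four]; rfl

/-- splitting vector -/
def spl (c : Cell) (i j : Fin 4) (a b g : ℕ) : Fin 4 → ℕ := fun k => (a * c i k + b * c j k) / g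

def splOK (c : Cell) (i j : Fin 4) (a b g : ℕ) : Bool :=
  decide (i ≠ j) && decide (0 < a) && decide (0 < b) && decide (0 < g) &&
    decide (∀ k, g * spl c i j a b g k = a * c i k + b * c j k)

theorem lin_split {c : Cell} {i j : Fin 4} {a b g : ℕ} (h : splOK c i j a b g = true)
    {y : Fin 4 → ℝ} (hy : ∀ i, 0 ≤ y i) :
    (∃ y' : Fin 4 → ℝ, (∀ i, 0 ≤ y' i) ∧ lin (Function.update c j (spl c i j a b g)) y' = lin c y) ∨
    (∃ y' : Fin 4 → ℝ, (∀ i, 0 ≤ y' i) ∧ lin (Function.update c i (spl c i j a b g)) y' = lin c y) := by
  simp only [splOK, Bool.and_eq_true, decide_eq_true_eq] at h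
  obtain ⟨⟨⟨⟨hij, ha⟩, hb⟩, hg⟩, hm⟩ := h
  have ha' : (0 : ℝ) < a := by exact_mod_cast ha
  have hb' : (0 : ℝ) < b := by exact_mod_cast hb
  have hg' : (0 : ℝ) < g := by exact_mod_cast hg
  have hm' : ∀ k, (g : ℝ) * (spl c i j a b g k : ℝ) = a * c i k + b * c j k := fun k => by
    exact_mod_cast hm k
  -- a general identity
  have key : ∀ (i j : Fin 4) (hij : i ≠ j) (p q : ℝ) (m : Fin 4 → ℕ) (z : Fin 4 → ℝ),
      z i = p → z j = q → (∀ l, l ≠ i → l ≠ j → z l = y l) →
      (∀ k, p * (c i k : ℝ) + q * (m k : ℝ) = y i * c i k + y j * c j k) →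
      lin (Function.update c j m) z = lin c y := by
    intro i j hij p q m z hzi hzj hz hk
    funext k
    rw [lin_eq, lin_eq]
    have e1 : ∀ l, l ≠ i → l ≠ j → z l * ((Function.update c j m l k : ℕ) : ℝ) = y l * c l k := by
      intro l h1 h2
      rw [hz l h1 h2, Function.update_of_ne h2]
    have hsum : ∀ f : Fin 4 → ℝ, ∑ l, f l = f i + f j + ∑ l ∈ (univ.erase i).erase j, f l := by
      intro f
      rw [← Finset.add_sum_erase _ _ (Finset.mem_univ i),
        ← Finset.add_sum_erase (univ.erase i) _ (Finset.mem_erase.mpr ⟨hij.symm, Finset.mem_univ j⟩)]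
      ring
    rw [hsum, hsum (fun l => y l * (c l k : ℝ))]
    have e2 : ∑ l ∈ (univ.erase i).erase j, z l * ((Function.update c j m l k : ℕ) : ℝ) =
        ∑ l ∈ (univ.erase i).erase j, y l * (c l k : ℝ) := by
      refine Finset.sum_congr rfl fun l hl => ?_
      rw [Finset.mem_erase, Finset.mem_erase] at hl
      exact e1 l hl.2.1 hl.1
    rw [e2, Function.update_self, Function.update_of_ne hij, hzi, hzj]
    have := hk k
    linarith
  rcases le_total ((a : ℝ) * y j) (b * y i) with hle | hle
  · left
    refine ⟨Function.update (Function.update y i (y i - a * (y j / b))) j (y j / b * g), ?_, ?_⟩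
    · intro l
      by_cases h1 : l = j
      · subst h1
        rw [Function.update_self]
        have := hy l
        positivity
      · rw [Function.update_of_ne h1]
        by_cases h2 : l = i
        · subst h2
          rw [Function.update_self]
          have : a * (y j / b) ≤ y l := by
            rw [← mul_div_assoc, div_le_iff₀ hb']; linarith
          linarith
        · rw [Function.update_of_ne h2]; exact hy l
    · refine key i j hij (y i - a * (y j / b)) (y j / b * g) _ _ ?_ ?_ ?_ ?_
      · rw [Function.update_of_ne hij, Function.update_self]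
      · rw [Function.update_self]
      · intro l h1 h2
        rw [Function.update_of_ne h2, Function.update_of_ne h1]
      · intro k
        have := hm' k
        have e : y j / b * g * (spl c i j a b g k : ℝ) = y j / b * (a * c i k + b * c j k) := by
          rw [← this]; ring
        rw [e]
        field_simp
        ring
  · right
    refine ⟨Function.update (Function.update y j (y j - b * (y i / a))) i (y i / a * g), ?_, ?_⟩
    · intro l
      by_cases h1 : l = i
      · subst h1
        rw [Function.update_self]
        have := hy l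
        positivity
      · rw [Function.update_of_ne h1]
        by_cases h2 : l = j
        · subst h2
          rw [Function.update_self]
          have : b * (y i / a) ≤ y l := by
            rw [← mul_div_assoc, div_le_iff₀ ha']; linarith
          linarith
        · rw [Function.update_of_ne h2]; exact hy l
    · refine key j i hij.symm (y j - b * (y i / a)) (y i / a * g) _ _ ?_ ?_ ?_ ?_
      · rw [Function.update_of_ne hij.symm, Function.update_self]
      · rw [Function.update_self]
      · intro l h1 h2
        rw [Function.update_of_ne h2, Function.update_of_ne h1]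
      · intro k
        have := hm' k
        have e : y i / a * g * (spl c i j a b g k : ℝ) = y i / a * (a * c i k + b * c j k) := by
          rw [← this]; ring
        rw [e]
        field_simp
        ring

/-- one-sided split trees -/
inductive Tr
  | leaf : Tr
  | node : Fin 4 → Fin 4 → ℕ → ℕ → ℕ → Tr → Tr → Tr

def Tr.leaves : Tr → Cell → List Cell
  | .leaf, c => [c]
  | .node i j a b g l r, c => l.leaves (Function.update c j (spl c i j a b g)) ++
      r.leaves (Function.update c i (spl c i j a b g))

def Tr.ok : Tr → Cell → Bool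
  | .leaf, _ => true
  | .node i j a b g l r, c => splOK c i j a b g &&
      (l.ok (Function.update c j (spl c i j a b g)) && r.ok (Function.update c i (spl c i j a b g)))

theorem Tr.cover (P : (Fin 4 → ℝ) → Prop) : ∀ (t : Tr) (c : Cell), t.ok c = true →
    (∀ c' ∈ t.leaves c, ∀ y : Fin 4 → ℝ, (∀ i, 0 ≤ y i) → P (lin c' y)) →
    ∀ y : Fin 4 → ℝ, (∀ i, 0 ≤ y i) → P (lin c y) := by
  intro t
  induction t with
  | leaf =>
    intro c _ h y hy
    exact h c (by simp [Tr.leaves]) y hy
  | node i j a b g l r ihl ihr =>
    intro c hok h y hy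
    simp only [Tr.ok, Bool.and_eq_true] at hok
    obtain ⟨h1, h2, h3⟩ := hok
    rcases lin_split h1 hy with ⟨y', hy', e⟩ | ⟨y', hy', e⟩
    · rw [← e]
      exact ihl _ h2 (fun c' hc' => h c' (by simp only [Tr.leaves, List.mem_append]; exact Or.inl hc'))
        y' hy'
    · rw [← e]
      exact ihr _ h3 (fun c' hc' => h c' (by simp only [Tr.leaves, List.mem_append]; exact Or.inr hc'))
        y' hy'

/-- two-sided split trees; `true` = second argument -/
inductive Tr2
  | leaf : Tr2
  | node : Bool → Fin 4 → Fin 4 → ℕ → ℕ → ℕ → Tr2 → Tr2 → Tr2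

def Tr2.leaves : Tr2 → Cell → Cell → List (Cell × Cell)
  | .leaf, c, d => [(c, d)]
  | .node s i j a b g l r, c, d => match s with
    | false => l.leaves (Function.update c j (spl c i j a b g)) d ++
        r.leaves (Function.update c i (spl c i j a b g)) d
    | true => l.leaves c (Function.update d j (spl d i j a b g)) ++
        r.leaves c (Function.update d i (spl d i j a b g))

def Tr2.ok : Tr2 → Cell → Cell → Bool
  | .leaf, _, _ => true
  | .node s i j a b g l r, c, d => match s with
    | false => splOK c i j a b g && (l.ok (Function.update c j (spl c i j a b g)) d &&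
        r.ok (Function.update c i (spl c i j a b g)) d)
    | true => splOK d i j a b g && (l.ok c (Function.update d j (spl d i j a b g)) &&
        r.ok c (Function.update d i (spl d i j a b g)))

theorem Tr2.cover (P : (Fin 4 → ℝ) → (Fin 4 → ℝ) → Prop) : ∀ (t : Tr2) (c d : Cell),
    t.ok c d = true →
    (∀ p ∈ t.leaves c d, ∀ y z : Fin 4 → ℝ, (∀ i, 0 ≤ y i) → (∀ i, 0 ≤ z i) →
      P (lin p.1 y) (lin p.2 z)) →
    ∀ y z : Fin 4 → ℝ, (∀ i, 0 ≤ y i) → (∀ i, 0 ≤ z i) → P (lin c y) (lin d z) := by
  intro t
  induction t with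
  | leaf =>
    intro c d _ h y z hy hz
    exact h (c, d) (by simp [Tr2.leaves]) y z hy hz
  | node s i j a b g l r ihl ihr =>
    intro c d hok h y z hy hz
    cases s with
    | false =>
      simp only [Tr2.ok, Bool.and_eq_true] at hok
      obtain ⟨h1, h2, h3⟩ := hok
      rcases lin_split h1 hy with ⟨y', hy', e⟩ | ⟨y', hy', e⟩
      · rw [← e]
        exact ihl _ _ h2 (fun p hp => h p (by
          simp only [Tr2.leaves, List.mem_append]; exact Or.inl hp)) y' z hy' hz
      · rw [← e]
        exact ihr _ _ h3 (fun p hp => h p (by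
          simp only [Tr2.leaves, List.mem_append]; exact Or.inr hp)) y' z hy' hz
    | true =>
      simp only [Tr2.ok, Bool.and_eq_true] at hok
      obtain ⟨h1, h2, h3⟩ := hok
      rcases lin_split h1 hz with ⟨z', hz', e⟩ | ⟨z', hz', e⟩
      · rw [← e]
        exact ihl _ _ h2 (fun p hp => h p (by
          simp only [Tr2.leaves, List.mem_append]; exact Or.inl hp)) y z' hy hz'
      · rw [← e]
        exact ihr _ _ h3 (fun p hp => h p (by
          simp only [Tr2.leaves, List.mem_append]; exact Or.inr hp)) y z' hy hz'

/-- the chamber of sorted vectors -/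
def c00 : Cell := ![![1, 1, 1, 1], ![0, 1, 1, 1], ![0, 0, 1, 1], ![0, 0, 0, 1]]

theorem lin_c00 (t : Fin 4 → ℝ) : lin c00 ![t 0, t 1 - t 0, t 2 - t 1, t 3 - t 2] = t := by
  funext k
  fin_cases k <;> simp [lin, c00]

end Vale.Agent.P154.Q4
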