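import Vale.Agent.P154.Q4PairW2

/-!
# P154: the edge inequality for `H` (four colours)
-/

namespace Vale.Agent.P154.Q4

open Equiv Finset Filter Topology

/-- `HN` with `S0` frozen -/
def HC (C a b c d : ℝ) : ℝ :=
  12972 * (a ^ 4 + b ^ 4 + c ^ 4 + d ^ 4) +
  4204 * (C * (a * b + a * c + a * d + b * c + b * d + c * d)) +
  3740 * (a ^ 2 * (b * c + b * d + c * d) + b ^ 2 * (a * c + a * d + c * d) +
    c ^ 2 * (a * b + a * d + b * d) + d ^ 2 * (a * b + a * c + b * c)) -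
  11664 * (a * b * c * d) - 11625 * C ^ 2

/-- its derivative in the first variable -/
def GC (C a b c d : ℝ) : ℝ :=
  51888 * a ^ 3 + 4204 * (C * (b + c + d)) +
  3740 * (2 * a * (b * c + b * d + c * d) + b ^ 2 * (c + d) + c ^ 2 * (b + d) + d ^ 2 * (b + c)) -
  11664 * (b * c * d)

theorem HN_HC (t : Fin 4 → ℝ) : HN t = HC (S0 t) (t 0) (t 1) (t 2) (t 3) := by
  unfold HN HC s4 s11 s211 E4; ring

theorem SP_GC (t : Fin 4 → ℝ) : SP t = 24 * (t 0 * t 1 * t 2 * t 3 * HC (S0 t) (t 0) (t 1) (t 2) (t 3))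
    - t 1 * t 2 * t 3 * (4 * t 0 ^ 2 - S0 t) * GC (S0 t) (t 0) (t 1) (t 2) (t 3)
    - t 0 * t 2 * t 3 * (4 * t 1 ^ 2 - S0 t) * GC (S0 t) (t 1) (t 0) (t 2) (t 3)
    - t 0 * t 1 * t 3 * (4 * t 2 ^ 2 - S0 t) * GC (S0 t) (t 2) (t 0) (t 1) (t 3)
    - t 0 * t 1 * t 2 * (4 * t 3 ^ 2 - S0 t) * GC (S0 t) (t 3) (t 0) (t 1) (t 2) := by
  rw [← HN_HC]
  unfold SP GC E4
  ring

theorem HC_hasDerivAt {C x : ℝ} {a b c d : ℝ → ℝ} {a' b' c' d' : ℝ} (ha : HasDerivAt a a' x)
    (hb : HasDerivAt b b' x) (hc : HasDerivAt c c' x) (hd : HasDerivAt d d' x) :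
    HasDerivAt (fun x => HC C (a x) (b x) (c x) (d x))
      (GC C (a x) (b x) (c x) (d x) * a' + GC C (b x) (a x) (c x) (d x) * b' +
        GC C (c x) (a x) (b x) (d x) * c' + GC C (d x) (a x) (b x) (c x) * d') x := by
  have h1 := (((ha.pow 4).add (hb.pow 4)).add (hc.pow 4)).add (hd.pow 4)
  have h2 := ((((ha.mul hb).add (ha.mul hc)).add (ha.mul hd)).add (hb.mul hc)).add (hb.mul hd) |>.add
    (hc.mul hd)
  have h3 := ((ha.pow 2).mul (((hb.mul hc).add (hb.mul hd)).add (hc.mul hd))).add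
    ((hb.pow 2).mul (((ha.mul hc).add (ha.mul hd)).add (hc.mul hd))) |>.add
    ((hc.pow 2).mul (((ha.mul hb).add (ha.mul hd)).add (hb.mul hd))) |>.add
    ((hd.pow 2).mul (((ha.mul hb).add (ha.mul hc)).add (hb.mul hc)))
  have h4 := ((ha.mul hb).mul hc).mul hd
  have h := ((((h1.const_mul 12972).add ((h2.const_mul C).const_mul 4204)).add
    (h3.const_mul 3740)).sub (h4.const_mul 11664)).sub_const (11625 * C ^ 2)
  refine (h.congr_deriv ?_)
  simp only [GC, Pi.add_apply, Pi.mul_apply, Pi.pow_apply]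
  norm_num
  ring

/-- the mixed vector -/
noncomputable def mix (u : Fin 4 → ℝ) (x : ℝ) : Fin 4 → ℝ := fun i => x * u i + (1 - x) * (c0 u / 4)

theorem edge_mix (lam : ℝ) (u : Fin 4 → ℝ) : edge lam u = mix u lam := by
  funext i
  rw [edge_eq, Z_four]
  rfl

theorem mix_nonneg {u : Fin 4 → ℝ} (hu : ∀ i, 0 ≤ u i) {x : ℝ} (h0 : 0 ≤ x) (h1 : x ≤ 1)
    (i : Fin 4) : 0 ≤ mix u x i := by
  have a0 := hu 0; have a1 := hu 1; have a2 := hu 2; have a3 := hu 3
  have hc : 0 ≤ c0 u := by unfold c0; positivity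
  have := hu i
  have h2 : 0 ≤ 1 - x := by linarith
  unfold mix
  positivity

theorem mix_pos {u : Fin 4 → ℝ} (hu : ∀ i, 0 ≤ u i) (hc : 0 < c0 u) {x : ℝ} (h0 : 0 ≤ x)
    (h1 : x < 1) (i : Fin 4) : 0 < mix u x i := by
  have := hu i
  have h2 : 0 < 1 - x := by linarith
  unfold mix
  positivity

theorem c0_mix (u : Fin 4 → ℝ) (x : ℝ) : c0 (mix u x) = c0 u := by
  unfold mix c0; ring

theorem continuous_mix (u : Fin 4 → ℝ) : Continuous (mix u) := by
  unfold mix; fun_prop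

theorem mix_hasDerivAt {u : Fin 4 → ℝ} (hu : ∀ i, 0 ≤ u i) (hc : 0 < c0 u) {x : ℝ} (h0 : 0 ≤ x)
    (h1 : x < 1) (i : Fin 4) : HasDerivAt (fun x => sq (mix u x) i)
      ((u i - c0 u / 4) / (2 * sq (mix u x) i)) x := by
  have h : HasDerivAt (fun x => mix u x i) (u i - c0 u / 4) x := by
    have e1 : HasDerivAt (fun x : ℝ => x * u i) (u i) x := by
      simpa using (hasDerivAt_id x).mul_const (u i)
    have e2 : HasDerivAt (fun x : ℝ => (1 - x) * (c0 u / 4)) (-(c0 u / 4)) x := by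
      simpa using ((hasDerivAt_id x).const_sub 1).mul_const (c0 u / 4)
    have := e1.add e2
    rw [← sub_eq_add_neg] at this
    exact this
  exact h.sqrt (mix_pos hu hc h0 h1 i).ne'

theorem psi_deriv_le (Fc : Facts) {u : Fin 4 → ℝ} (hu : ∀ i, 0 ≤ u i) (hc : 0 < c0 u) {x : ℝ}
    (h0 : 0 < x) (h1 : x < 1) :
    ∃ D : ℝ, HasDerivAt (fun x => HC (c0 u) (sq (mix u x) 0) (sq (mix u x) 1) (sq (mix u x) 2)
      (sq (mix u x) 3)) D x ∧ x * D ≤ 3 * HC (c0 u) (sq (mix u x) 0) (sq (mix u x) 1)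
      (sq (mix u x) 2) (sq (mix u x) 3) := by
  have hd := fun i => mix_hasDerivAt hu hc h0.le h1 i
  refine ⟨_, HC_hasDerivAt (C := c0 u) (hd 0) (hd 1) (hd 2) (hd 3), ?_⟩
  have hp := fun i => mix_pos hu hc h0.le h1 i
  have htp : ∀ i, 0 < sq (mix u x) i := fun i => Real.sqrt_pos.mpr (hp i)
  have hsq : ∀ i, sq (mix u x) i ^ 2 = mix u x i := fun i => Real.sq_sqrt (hp i).le
  have hS : S0 (sq (mix u x)) = c0 u := by rw [S0_sq fun i => (hp i).le, c0_mix]
  have hSP : 0 ≤ SP (sq (mix u x)) := by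
    have h := Fc.polyS _ (srt0_of_nonneg (sq_nonneg' (mix u x)))
    rw [sym_SP] at h
    exact h
  rw [SP_GC, hS] at hSP
  have hk : ∀ i, 8 * sq (mix u x) i * (x * ((u i - c0 u / 4) / (2 * sq (mix u x) i))) =
      4 * sq (mix u x) i ^ 2 - c0 u := by
    intro i
    have hne := (htp i).ne'
    have e := hsq i
    have : mix u x i = x * u i + (1 - x) * (c0 u / 4) := rfl
    rw [this] at e
    rw [e]
    field_simp
    ring
  have k0 := hk 0
  have k1 := hk 1
  have k2 := hk 2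
  have k3 := hk 3
  have t0 := htp 0; have t1 := htp 1; have t2 := htp 2; have t3 := htp 3
  set a := sq (mix u x) 0
  set b := sq (mix u x) 1
  set c := sq (mix u x) 2
  set d := sq (mix u x) 3
  set a' := (u 0 - c0 u / 4) / (2 * a)
  set b' := (u 1 - c0 u / 4) / (2 * b)
  set c' := (u 2 - c0 u / 4) / (2 * c)
  set d' := (u 3 - c0 u / 4) / (2 * d)
  set C := c0 u
  have hE : 0 < 8 * (a * b * c * d) := by positivity
  have key : 8 * (a * b * c * d) * (3 * HC C a b c d - x * (GC C a b c d * a' + GC C b a c d * b' +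
      GC C c a b d * c' + GC C d a b c * d')) =
      24 * (a * b * c * d * HC C a b c d) - b * c * d * (4 * a ^ 2 - C) * GC C a b c d
      - a * c * d * (4 * b ^ 2 - C) * GC C b a c d - a * b * d * (4 * c ^ 2 - C) * GC C c a b d
      - a * b * c * (4 * d ^ 2 - C) * GC C d a b c := by
    rw [← k0, ← k1, ← k2, ← k3]
    ring
  have h2 : 0 ≤ 8 * (a * b * c * d) * (3 * HC C a b c d - x * (GC C a b c d * a' +
      GC C b a c d * b' + GC C c a b d * c' + GC C d a b c * d')) := by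
    rw [key]; exact hSP
  have h3 := nonneg_of_mul_nonneg_right h2 hE
  linarith

theorem H_edge (Fc : Facts) {lam : ℝ} (h0 : 0 ≤ lam) (h1 : lam ≤ 1) {u : Fin 4 → ℝ}
    (hu : ∀ i, 0 ≤ u i) : lam ^ 3 * H u ≤ H (edge lam u) := by
  rw [edge_mix]
  by_cases hu0 : u = 0
  · subst hu0
    have : mix 0 lam = 0 := by funext i; simp [mix, c0]
    rw [this, H_zero]; simp
  have hc := sum_pos_of_ne hu hu0
  set ψ : ℝ → ℝ := fun x => HC (c0 u) (sq (mix u x) 0) (sq (mix u x) 1) (sq (mix u x) 2)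
      (sq (mix u x) 3) with hψ
  have hH : ∀ x, 0 ≤ x → x ≤ 1 → H (mix u x) = ψ x / (6000 * c0 u) := by
    intro x hx0 hx1
    unfold H
    rw [HN_HC, S0_sq (mix_nonneg hu hx0 hx1), c0_mix]
  have hmix1 : mix u 1 = u := by funext i; simp [mix]
  have hH1 : H u = ψ 1 / (6000 * c0 u) := by
    rw [← hH 1 zero_le_one le_rfl, hmix1]
  rw [hH lam h0 h1, hH1, ← mul_div_assoc]
  have hden : 0 < 6000 * c0 u := by positivity
  rw [div_le_div_iff_of_pos_right hden]
  rcases h0.eq_or_lt with hl | hl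
  · subst hl
    have e : mix u 0 = fun _ => c0 u / 4 := by funext i; simp [mix]
    have : ψ 0 = 0 := by
      simp only [hψ, e, sq, HC]
      have hs : √(c0 u / 4) ^ 2 = c0 u / 4 := Real.sq_sqrt (by positivity)
      have hs' : c0 u = 4 * √(c0 u / 4) ^ 2 := by rw [hs]; ring
      set k := √(c0 u / 4)
      rw [hs']
      ring
    rw [this]; simp
  have hcont : Continuous ψ := by
    have h1 : Continuous fun x => sq (mix u x) := continuous_sq.comp (continuous_mix u)
    have a0 : Continuous fun x => sq (mix u x) 0 := (continuous_apply 0).comp h1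
    have a1 : Continuous fun x => sq (mix u x) 1 := (continuous_apply 1).comp h1
    have a2 : Continuous fun x => sq (mix u x) 2 := (continuous_apply 2).comp h1
    have a3 : Continuous fun x => sq (mix u x) 3 := (continuous_apply 3).comp h1
    rw [hψ]; unfold HC; fun_prop
  have hanti : AntitoneOn (fun x => ψ x / x ^ 3) (Set.Icc lam 1) := by
    refine antitoneOn_of_deriv_nonpos (convex_Icc lam 1) ?_ ?_ ?_
    · refine hcont.continuousOn.div (continuous_pow 3).continuousOn fun x hx => ?_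
      have : 0 < x := hl.trans_le hx.1
      positivity
    · rw [interior_Icc]
      intro x hx
      obtain ⟨D, hD, _⟩ := psi_deriv_le Fc hu hc (hl.trans hx.1) hx.2
      have hx0 : x ≠ 0 := (hl.trans hx.1).ne'
      exact (hD.div (hasDerivAt_pow 3 x) (pow_ne_zero 3 hx0)).differentiableAt.differentiableWithinAt
    · rw [interior_Icc]
      intro x hx
      obtain ⟨D, hD, hle⟩ := psi_deriv_le Fc hu hc (hl.trans hx.1) hx.2
      have hx0 : 0 < x := hl.trans hx.1
      have hd := hD.div (hasDerivAt_pow 3 x) (pow_ne_zero 3 hx0.ne')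
      have hd' : deriv (fun x => ψ x / x ^ 3) x =
          (D * x ^ 3 - ψ x * ((3 : ℕ) * x ^ (3 - 1))) / (x ^ 3) ^ 2 := hd.deriv
      rw [hd']
      refine div_nonpos_of_nonpos_of_nonneg ?_ (by positivity)
      have : D * x ^ 3 - ψ x * ((3 : ℕ) * x ^ (3 - 1)) = x ^ 2 * (x * D - 3 * ψ x) := by
        norm_num; ring
      rw [this]
      exact mul_nonpos_of_nonneg_of_nonpos (by positivity) (by linarith)
  have h := hanti (Set.left_mem_Icc.mpr h1) (Set.right_mem_Icc.mpr h1) h1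
  simp only at h
  rw [le_div_iff₀ (by positivity)] at h
  linarith [h]

end Vale.Agent.P154.Q4
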