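import Vale.Agent.P154.Q4KK
import Vale.Agent.P154.Q4Blk
import Vale.Agent.P154.Q4Defs

/-!
# P154: the expression for `polyI`
-/

namespace Vale.Agent.P154.Q4

open PExp

/-- the kernel polynomial -/
noncomputable def KK (t s : Fin 4 → ℝ) : ℝ := ev (env8 t s) KKo.px

/-- `(t0² y0 + t1² y1 + t2² y2 + t3² y3)` -/
def S0m (y0 y1 y2 y3 : OExp) : OExp :=
  .a (.a (.m 0 (.m 0 y0)) (.m 1 (.m 1 y1))) (.a (.m 2 (.m 2 y2)) (.m 3 (.m 3 y3)))
def S0t (x : OExp) : OExp := S0m x x x x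
def S0s : PExp := add (add (pow s0 2) (pow s1 2)) (add (pow s2 2) (pow s3 2))
def TTe : OExp :=
  .n (.a (.s (k (.ofNat (nat_lit 3243)))
      (.a (.a (.m 0 (.m 0 (.m 0 (.m 0 (.c (pow s0 4)))))) (.m 1 (.m 1 (.m 1 (.m 1 (.c (pow s1 4)))))))
        (.a (.m 2 (.m 2 (.m 2 (.m 2 (.c (pow s2 4)))))) (.m 3 (.m 3 (.m 3 (.m 3 (.c (pow s3 4)))))))))
    (.s (k (.ofNat (nat_lit 935)))
      (S0m
        (.s (pow s0 2) (.a (.m 1 (.a (.m 2 (.c (mul s1 s2))) (.m 3 (.c (mul s1 s3))))) (.m 2 (.m 3 (.c (mul s2 s3))))))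
        (.s (pow s1 2) (.a (.m 0 (.a (.m 2 (.c (mul s0 s2))) (.m 3 (.c (mul s0 s3))))) (.m 2 (.m 3 (.c (mul s2 s3))))))
        (.s (pow s2 2) (.a (.m 0 (.a (.m 1 (.c (mul s0 s1))) (.m 3 (.c (mul s0 s3))))) (.m 1 (.m 3 (.c (mul s1 s3))))))
        (.s (pow s3 2) (.a (.m 0 (.a (.m 1 (.c (mul s0 s1))) (.m 2 (.c (mul s0 s2))))) (.m 1 (.m 2 (.c (mul s1 s2)))))))))
    (.s (k (.ofNat (nat_lit 2916))) (.m 0 (.m 1 (.m 2 (.m 3 (.c (mul (mul s0 s1) (mul s2 s3))))))))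
def FI : OExp := .n (.s (mul (k (.ofNat (nat_lit 5))) (pow S0s 2)) (S0t (S0t TTe)))
  (S0m (.s (pow s0 2) KKo) (.s (pow s1 2) KKo) (.s (pow s2 2) KKo) (.s (pow s3 2) KKo))

section
variable (t s : Fin 4 → ℝ)

/-- environment of the coefficients -/
def env4 (s : Fin 4 → ℝ) (i : ℕ) : ℝ :=
  if i = 0 then s 0 else if i = 1 then s 1 else if i = 2 then s 2 else if i = 3 then s 3 else 0

/-- value of an expression -/
noncomputable def vo (t s : Fin 4 → ℝ) (E : OExp) : ℝ := ev (env8 t s) E.px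
noncomputable def vs (s : Fin 4 → ℝ) (e : PExp) : ℝ := ev (env4 s) e

theorem sh_vs (e : PExp) : ev (env8 t s) (sh e) = vs s e := by
  unfold sh vs
  rw [ev_sbst]
  congr 1
  funext i
  match i with
  | 0 => rfl
  | 1 => rfl
  | 2 => rfl
  | 3 => rfl
  | i + 4 =>
    simp [ev, env8, env4]

theorem vo_c (e : PExp) : vo t s (.c e) = vs s e := sh_vs t s e
theorem vo_s (e : PExp) (x : OExp) : vo t s (.s e x) = vs s e * vo t s x := by
  show ev (env8 t s) (sh e) * _ = _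
  rw [sh_vs]; rfl
theorem vo_a (x y : OExp) : vo t s (.a x y) = vo t s x + vo t s y := rfl
theorem vo_n (x y : OExp) : vo t s (.n x y) = vo t s x - vo t s y := rfl
theorem vo_0 (x : OExp) : vo t s (.m 0 x) = t 0 * vo t s x := rfl
theorem vo_1 (x : OExp) : vo t s (.m 1 x) = t 1 * vo t s x := rfl
theorem vo_2 (x : OExp) : vo t s (.m 2 x) = t 2 * vo t s x := rfl
theorem vo_3 (x : OExp) : vo t s (.m 3 x) = t 3 * vo t s x := rfl

theorem vs0 : vs s s0 = s 0 := rfl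
theorem vs1 : vs s s1 = s 1 := rfl
theorem vs2 : vs s s2 = s 2 := rfl
theorem vs3 : vs s s3 = s 3 := rfl
theorem vs_mul {a b : PExp} : vs s (mul a b) = vs s a * vs s b := rfl
theorem vs_add {a b : PExp} : vs s (add a b) = vs s a + vs s b := rfl
theorem vs_sub {a b : PExp} : vs s (PExp.sub a b) = vs s a - vs s b := rfl
theorem vs_pow {a : PExp} {n : ℕ} : vs s (pow a n) = vs s a ^ n := rfl
theorem vs_kof {n : ℕ} : vs s (k (.ofNat n)) = (n : ℝ) := by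
  show (((Int.ofNat n : ℤ)) : ℝ) = _
  simp

theorem vo_TTe : vo t s TTe = TT (fun i => t i * s i) := by
  simp only [TTe, S0m, vo_c, vo_s, vo_a, vo_n, vo_0, vo_1, vo_2, vo_3, vs0, vs1, vs2, vs3, vs_mul,
    vs_pow, vs_kof, TT, s4, s211, E4]
  push_cast
  ring

theorem ev_FI : ev (env8 t s) FI.px = 5 * (S0 t * S0 s) ^ 2 * TT (fun i => t i * s i) -
    (t 0 ^ 2 * s 0 ^ 2 + t 1 ^ 2 * s 1 ^ 2 + t 2 ^ 2 * s 2 ^ 2 + t 3 ^ 2 * s 3 ^ 2) * KK t s := by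
  have hK : vo t s KKo = KK t s := rfl
  show vo t s FI = _
  simp only [FI, S0t, S0m, S0s, vo_s, vo_a, vo_n, vo_0, vo_1, vo_2, vo_3, vs0, vs1, vs2, vs3,
    vs_mul, vs_add, vs_pow, vs_kof, vo_TTe, hK, S0]
  push_cast
  ring

end

/-- the weights -/
abbrev w8 : Wt := ⟨1, 37, 45⟩

theorem hI : GOK 80 361 8 8 w8 FI.px where
  hA := by decide +kernel
  hB := by decide +kernel
  hom := by decide +kernel
  wn := winj_spec _ _ rfl (by decide +kernel)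
  h0 := by decide
  h1 := by decide
  hK := by decide
  hb := by decide

/-- all pairs of cells pass -/
def AllI (p : Fin 4 → Fin 4) (l : List (Cell × Cell)) : Prop :=
  ∀ q ∈ l, chkB 80 361 8 w8 FI q.1 q.2 p = true

theorem aiN (p : Fin 4 → Fin 4) : AllI p [] := fun _ h => absurd h List.not_mem_nil
theorem aiC {p : Fin 4 → Fin 4} {c d : Cell} {l : List (Cell × Cell)}
    (h : chkB 80 361 8 w8 FI c d p = true) (hl : AllI p l) : AllI p ((c, d) :: l) :=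
  List.forall_mem_cons.2 ⟨h, hl⟩

theorem coverI (p : Fin 4 → Fin 4) (T : Tr2) (l : List (Cell × Cell)) (hok : T.ok c00 c00 = true)
    (hl : T.leaves c00 c00 = l) (h : AllI p l) (y z : Fin 4 → ℝ) (hy : ∀ i, 0 ≤ y i)
    (hz : ∀ i, 0 ≤ z i) : 0 ≤ ev (env8 (lin c00 y) (fun i => lin c00 z (p i))) FI.px := by
  refine Tr2.cover (fun t s => 0 ≤ ev (env8 t (fun i => s (p i))) FI.px) T c00 c00 hok
    (fun q hq y z hy hz => ?_) y z hy hz
  rw [hl] at hq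
  exact blk hI (h q hq) y z hy hz

end Vale.Agent.P154.Q4
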