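import Vale.Agent.P154.Q4P
import Vale.Agent.P154.Q4Cert

/-!
# P154: the polynomial facts of the four-colour certificate
-/

namespace Vale.Agent.P154.Q4

noncomputable def facts : Facts where
  KK := KK
  polyI := polyI
  polyII := polyII
  polyP := polyP
  polyT := polyT
  polyR := polyR
  polyB := polyB
  polyS := polyS

end Vale.Agent.P154.Q4
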