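import Vale.Agent.P154.Q4Defs

/-!
# P154: functionals of the four-colour certificate, symmetry
-/

namespace Vale.Agent.P154.Q4

open Equiv Finset

/-- componentwise square root -/
noncomputable def sq (u : Fin 4 → ℝ) : Fin 4 → ℝ := fun i => √(u i)

noncomputable def H (u : Fin 4 → ℝ) : ℝ := HN (sq u) / (6000 * S0 (sq u))
noncomputable def A (u : Fin 4 → ℝ) : ℝ := AN (sq u) / (60000 * S0 (sq u) ^ 2)
noncomputable def r (u : Fin 4 → ℝ) : ℝ := RN u / (120000 * c0 u ^ 5)
noncomputable def Ht (u : Fin 4 → ℝ) : ℝ := TN u / (40000 * c0 u ^ 5)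
noncomputable def W2 (u : Fin 4 → ℝ) : ℝ := W u ^ 2 / Z u

/-! ### symmetric functions -/

/-- invariance under permutations of the arguments -/
def Sym {α : Type} (F : (Fin 4 → ℝ) → α) : Prop :=
  ∀ (σ : Perm (Fin 4)) (t : Fin 4 → ℝ), F (fun i => t (σ i)) = F t

theorem sym_of_gen {α : Type} {F : (Fin 4 → ℝ) → α}
    (h0 : ∀ t : Fin 4 → ℝ, F ![t 1, t 0, t 2, t 3] = F t)
    (h1 : ∀ t : Fin 4 → ℝ, F ![t 0, t 2, t 1, t 3] = F t)
    (h2 : ∀ t : Fin 4 → ℝ, F ![t 0, t 1, t 3, t 2] = F t) : Sym F := by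
  intro σ
  have hσ : σ ∈ Submonoid.closure (Set.range fun i : Fin 3 => swap i.castSucc i.succ) := by
    rw [Equiv.Perm.mclosure_swap_castSucc_succ]; trivial
  induction hσ using Submonoid.closure_induction with
  | mem x hx =>
    obtain ⟨i, rfl⟩ := hx
    intro t
    fin_cases i
    · rw [← h0 t]; congr 1; funext j; fin_cases j <;> rfl
    · rw [← h1 t]; congr 1; funext j; fin_cases j <;> rfl
    · rw [← h2 t]; congr 1; funext j; fin_cases j <;> rfl
  | one => intro t; rfl
  | mul x y _ _ hx hy =>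
    intro t
    have := hy (fun i => t (x i))
    rw [hx t] at this
    exact this

theorem Sym.comp {α β : Type} {F : (Fin 4 → ℝ) → α} (h : Sym F) (g : α → β) :
    Sym (fun t => g (F t)) := fun σ t => by simp only [h σ t]

theorem Sym.comp2 {α β γ : Type} {F : (Fin 4 → ℝ) → α} {G : (Fin 4 → ℝ) → β}
    (h : Sym F) (h' : Sym G) (g : α → β → γ) :
    Sym (fun t => g (F t) (G t)) := fun σ t => by simp only [h σ t, h' σ t]

theorem sym_S0 : Sym S0 := by
  apply sym_of_gen <;> intro t <;> simp [S0] <;> ring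
theorem sym_s4 : Sym s4 := by
  apply sym_of_gen <;> intro t <;> simp [s4] <;> ring
theorem sym_s11 : Sym s11 := by
  apply sym_of_gen <;> intro t <;> simp [s11] <;> ring
theorem sym_s211 : Sym s211 := by
  apply sym_of_gen <;> intro t <;> simp [s211] <;> ring
theorem sym_E4 : Sym E4 := by
  apply sym_of_gen <;> intro t <;> simp only [E4, Matrix.cons_val] <;> ring
theorem sym_m5100 : Sym m5100 := by
  apply sym_of_gen <;> intro t <;> simp [m5100] <;> ring
theorem sym_m4200 : Sym m4200 := by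
  apply sym_of_gen <;> intro t <;> simp [m4200] <;> ring
theorem sym_m4110 : Sym m4110 := by
  apply sym_of_gen <;> intro t <;> simp [m4110] <;> ring
theorem sym_m3300 : Sym m3300 := by
  apply sym_of_gen <;> intro t <;> simp [m3300] <;> ring
theorem sym_m3210 : Sym m3210 := by
  apply sym_of_gen <;> intro t <;> simp [m3210] <;> ring
theorem sym_m3111 : Sym m3111 := by
  apply sym_of_gen <;> intro t <;> simp [m3111] <;> ring
theorem sym_m2220 : Sym m2220 := by
  apply sym_of_gen <;> intro t <;> simp [m2220] <;> ring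
theorem sym_m2211 : Sym m2211 := by
  apply sym_of_gen <;> intro t <;> simp [m2211] <;> ring
theorem sym_c0 : Sym c0 := by
  apply sym_of_gen <;> intro t <;> simp [c0] <;> ring
theorem sym_e2 : Sym e2 := by
  apply sym_of_gen <;> intro t <;> simp [e2, c1, c2, c3] <;> ring
theorem sym_e3 : Sym e3 := by
  apply sym_of_gen <;> intro t <;> simp [e3, c1, c2, c3] <;> ring
theorem sym_p4 : Sym p4 := by
  apply sym_of_gen <;> intro t <;> simp [p4, c1, c2, c3] <;> ring

theorem sym_HN : Sym HN := fun σ t => by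
  simp only [HN, sym_s4 σ t, sym_S0 σ t, sym_s11 σ t, sym_s211 σ t, sym_E4 σ t]

theorem sym_AN : Sym AN := fun σ t => by
  simp only [AN, sym_S0 σ t, sym_m5100 σ t, sym_m4200 σ t, sym_m4110 σ t, sym_m3300 σ t,
    sym_m3210 σ t, sym_m3111 σ t, sym_m2220 σ t, sym_m2211 σ t]

theorem sym_e4 : Sym e4 := fun σ t => by simp only [e4, sym_e2 σ t, sym_p4 σ t]

theorem sym_RN : Sym RN := fun σ t => by
  simp only [RN, sym_c0 σ t, sym_e2 σ t, sym_e3 σ t, sym_e4 σ t]

theorem sym_TN : Sym TN := fun σ t => by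
  simp only [TN, sym_c0 σ t, sym_e2 σ t, sym_e3 σ t, sym_e4 σ t]

theorem sym_SP : Sym SP := by
  apply sym_of_gen
  · intro t
    have h1 : HN ![t 1, t 0, t 2, t 3] = HN t := by
      rw [← sym_HN (swap 0 1) t]; congr 1; funext j; fin_cases j <;> rfl
    have h2 : S0 ![t 1, t 0, t 2, t 3] = S0 t := by simp [S0]; ring
    simp only [SP, h1, h2, E4, Matrix.cons_val]
    ring
  · intro t
    have h1 : HN ![t 0, t 2, t 1, t 3] = HN t := by
      rw [← sym_HN (swap 1 2) t]; congr 1; funext j; fin_cases j <;> rfl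
    have h2 : S0 ![t 0, t 2, t 1, t 3] = S0 t := by simp [S0]; ring
    simp only [SP, h1, h2, E4, Matrix.cons_val]
    ring
  · intro t
    have h1 : HN ![t 0, t 1, t 3, t 2] = HN t := by
      rw [← sym_HN (swap 2 3) t]; congr 1; funext j; fin_cases j <;> rfl
    have h2 : S0 ![t 0, t 1, t 3, t 2] = S0 t := by simp [S0]; ring
    simp only [SP, h1, h2, E4, Matrix.cons_val]
    ring

theorem sym_H : Sym H := fun σ u => by
  have e : sq (fun i => u (σ i)) = fun i => sq u (σ i) := rfl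
  simp only [H, e, sym_HN σ, sym_S0 σ]

theorem sym_A : Sym A := fun σ u => by
  have e : sq (fun i => u (σ i)) = fun i => sq u (σ i) := rfl
  simp only [A, e, sym_AN σ, sym_S0 σ]

theorem sym_r : Sym r := fun σ u => by
  simp only [r, sym_RN σ, sym_c0 σ]

theorem sym_Ht : Sym Ht := fun σ u => by
  simp only [Ht, sym_TN σ, sym_c0 σ]

theorem sym_Z : Sym (Z : (Fin 4 → ℝ) → ℝ) := fun σ u => by
  simp only [Z, Equiv.sum_comp σ u]

theorem sym_W : Sym (W : (Fin 4 → ℝ) → ℝ) := fun σ u => by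
  simp only [W, Equiv.sum_comp σ u, Equiv.sum_comp σ (fun i => u i ^ 2)]

theorem sym_W2 : Sym W2 := fun σ u => by
  simp only [W2, sym_W σ u, sym_Z σ u]

/-! ### reduction to sorted vectors -/

/-- A symmetric kernel sum only depends on the sorted vectors. -/
theorem sum_perm_sort {F : (Fin 4 → ℝ) → ℝ} (hF : Sym F) (u v : Fin 4 → ℝ)
    (σ τ : Perm (Fin 4)) :
    ∑ π : Perm (Fin 4), F (fun i => u i * v (π i)) =
      ∑ π : Perm (Fin 4), F (fun i => u (σ i) * v (τ (π i))) := by
  have h1 : ∀ π : Perm (Fin 4), F (fun i => u i * v (π i)) =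
      F (fun i => u (σ i) * v (π (σ i))) := fun π =>
    (hF σ (fun i => u i * v (π i))).symm
  simp_rw [h1]
  let e : Perm (Fin 4) ≃ Perm (Fin 4) := (Equiv.mulLeft τ).trans (Equiv.mulRight σ⁻¹)
  rw [← Equiv.sum_comp e]
  refine Finset.sum_congr rfl fun π _ => ?_
  congr 1
  funext i
  simp [e]

theorem srt_of_pos {t : Fin 4 → ℝ} (h : ∀ i, 0 < t i) :
    Srt (fun i => t (Tuple.sort t i)) := by
  have hm := Tuple.monotone_sort t
  exact ⟨h _, hm (by decide), hm (by decide), hm (by decide)⟩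

theorem srt0_of_nonneg {t : Fin 4 → ℝ} (h : ∀ i, 0 ≤ t i) :
    Srt0 (fun i => t (Tuple.sort t i)) := by
  have hm := Tuple.monotone_sort t
  exact ⟨h _, hm (by decide), hm (by decide), hm (by decide)⟩

theorem Srt.pos {t : Fin 4 → ℝ} (h : Srt t) (i : Fin 4) : 0 < t i := by
  obtain ⟨h0, h1, h2, h3⟩ := h
  fin_cases i
  · exact h0
  · exact h0.trans_le h1
  · exact (h0.trans_le h1).trans_le h2
  · exact ((h0.trans_le h1).trans_le h2).trans_le h3

/-! ### sums over all permutations -/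

theorem sum_perm_comp (G : Perm (Fin 4) → ℝ) (σ : Perm (Fin 4)) :
    ∑ π, G (π * σ) = ∑ π, G π :=
  Equiv.sum_comp (Equiv.mulRight σ) G

theorem card_perm4 : ((Finset.univ : Finset (Perm (Fin 4))).card : ℝ) = 24 := by
  rw [Finset.card_univ, Fintype.card_perm, Fintype.card_fin]; norm_num [Nat.factorial]

theorem sum_perm_const (c : ℝ) : ∑ _π : Perm (Fin 4), c = 24 * c := by
  rw [Finset.sum_const, nsmul_eq_mul, card_perm4]

theorem sum_perm_one (g : Fin 4 → ℝ) (i : Fin 4) :
    ∑ π : Perm (Fin 4), g (π i) = 6 * (g 0 + g 1 + g 2 + g 3) := by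
  have h : ∀ i j : Fin 4, ∑ π : Perm (Fin 4), g (π i) = ∑ π : Perm (Fin 4), g (π j) := by
    intro i j
    rw [← sum_perm_comp (fun π => g (π i)) (swap i j)]
    refine Finset.sum_congr rfl fun π _ => ?_
    simp
  have hs : ∑ j : Fin 4, ∑ π : Perm (Fin 4), g (π j) = 24 * (g 0 + g 1 + g 2 + g 3) := by
    rw [Finset.sum_comm]
    have : ∀ π : Perm (Fin 4), ∑ j, g (π j) = g 0 + g 1 + g 2 + g 3 := by
      intro π
      rw [Equiv.sum_comp π g, Fin.sum_univ_four]
    simp_rw [this]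
    exact sum_perm_const _
  have h4 : ∑ j : Fin 4, ∑ π : Perm (Fin 4), g (π j) = 4 * ∑ π : Perm (Fin 4), g (π i) := by
    have : ∀ j ∈ (Finset.univ : Finset (Fin 4)), ∑ π : Perm (Fin 4), g (π j) =
        ∑ π : Perm (Fin 4), g (π i) := fun j _ => h j i
    rw [Finset.sum_congr rfl this]
    simp
  linarith

theorem exists_perm_pair (i j i' j' : Fin 4) (h : i ≠ j) (h' : i' ≠ j') :
    ∃ σ : Perm (Fin 4), σ i = i' ∧ σ j = j' := by
  revert i j i' j'; decide

theorem sum_perm_two (g : Fin 4 → ℝ) (i j : Fin 4) (hij : i ≠ j) :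
    ∑ π : Perm (Fin 4), g (π i) * g (π j) = 4 * s11 g := by
  have h : ∀ i j i' j' : Fin 4, i ≠ j → i' ≠ j' → ∑ π : Perm (Fin 4), g (π i) * g (π j) =
      ∑ π : Perm (Fin 4), g (π i') * g (π j') := by
    intro i j i' j' h1 h2
    obtain ⟨σ, hi, hj⟩ := exists_perm_pair i j i' j' h1 h2
    rw [← sum_perm_comp (fun π => g (π i) * g (π j)) σ]
    refine Finset.sum_congr rfl fun π _ => ?_
    simp [hi, hj]
  have hs : ∑ π : Perm (Fin 4), s11 (fun i => g (π i)) = 24 * s11 g := by
    simp_rw [sym_s11 _ g]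
    exact sum_perm_const _
  have he : ∑ π : Perm (Fin 4), s11 (fun i => g (π i)) =
      6 * ∑ π : Perm (Fin 4), g (π i) * g (π j) := by
    simp only [s11, Finset.sum_add_distrib]
    rw [h 0 1 i j (by decide) hij, h 0 2 i j (by decide) hij, h 0 3 i j (by decide) hij,
      h 1 2 i j (by decide) hij, h 1 3 i j (by decide) hij, h 2 3 i j (by decide) hij]
    ring
  linarith

end Vale.Agent.P154.Q4
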