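import Vale.Agent.P154.Q4Fun
import Vale.Agent.P154.Kron
import Vale.Agent.P154.Q4Cover

/-!
# P154: kernel certificates for the one-vector polynomial facts (four colours)
-/

namespace Vale.Agent.P154.Q4

open PExp

namespace E

def S0 (a b c d : PExp) : PExp := add (add (add (pow a 2) (pow b 2)) (pow c 2)) (pow d 2)
def s4 (a b c d : PExp) : PExp := add (add (add (pow a 4) (pow b 4)) (pow c 4)) (pow d 4)
def s11 (a b c d : PExp) : PExp := add (mul a (add (add b c) d)) (add (mul b (add c d)) (mul c d))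
def s211 (a b c d : PExp) : PExp :=
  add (add (mul (pow a 2) (add (mul b (add c d)) (mul c d)))
    (mul (pow b 2) (add (mul a (add c d)) (mul c d))))
    (add (mul (pow c 2) (add (mul a (add b d)) (mul b d)))
      (mul (pow d 2) (add (mul a (add b c)) (mul b c))))
def E4 (a b c d : PExp) : PExp := mul (mul a b) (mul c d)
def HN (a b c d : PExp) : PExp :=
  PExp.sub (add (add (mul (k 12972) (s4 a b c d)) (mul (k 4204) (mul (S0 a b c d) (s11 a b c d))))
    (mul (k 3740) (s211 a b c d)))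
    (add (mul (k 11664) (E4 a b c d)) (mul (k 11625) (pow (S0 a b c d) 2)))
def c0 (a b c d : PExp) : PExp := add (add a b) (add c d)
def c1 (a b c d : PExp) : PExp := PExp.sub (add a b) (add c d)
def c2 (a b c d : PExp) : PExp := PExp.sub (add a c) (add b d)
def c3 (a b c d : PExp) : PExp := PExp.sub (add a d) (add b c)

/-- `RN` from `c0, e2, e3, e4` -/
def RN' (s x y z : PExp) : PExp :=
  PExp.sub (add (add (add (mul (k 20000) (mul x (pow s 4))) (mul (k 7284) (mul (pow x 2) (pow s 2))))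
    (mul (k 5652) (mul (mul x y) s))) (mul (k 1395) (mul x z)))
    (add (add (add (mul (k 2500) (mul y (pow s 3))) (mul (k 8541) (mul z (pow s 2))))
      (mul (k 3459) (pow x 3))) (mul (k 660) (pow y 2)))
/-- `TN` from `c0, e2, e3, e4` -/
def TN' (s x y z : PExp) : PExp :=
  PExp.sub (add (add (mul (k 10000) (mul y (pow s 3))) (mul (k 2853) (mul (mul x y) s)))
    (mul (k 1781) (pow y 2)))
    (add (add (add (mul (k 2613) (mul (pow x 2) (pow s 2))) (mul (k 2390) (mul z (pow s 2))))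
      (mul (k 3117) (pow x 3))) (mul (k 42) (mul x z)))
def e2' (x y z : PExp) : PExp := add (add (pow x 2) (pow y 2)) (pow z 2)
def e3' (x y z : PExp) : PExp := mul (k 6) (mul (mul x y) z)
def p4' (x y z : PExp) : PExp := add (add (pow x 4) (pow y 4)) (pow z 4)
def e4' (x y z : PExp) : PExp := PExp.sub (mul (k 3) (pow (e2' x y z) 2)) (mul (k 2) (p4' x y z))
def RNc (s x y z : PExp) : PExp := RN' s (e2' x y z) (e3' x y z) (e4' x y z)
def TNc (s x y z : PExp) : PExp := TN' s (e2' x y z) (e3' x y z) (e4' x y z)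
def RN (a b c d : PExp) : PExp := RNc (c0 a b c d) (c1 a b c d) (c2 a b c d) (c3 a b c d)
def TN (a b c d : PExp) : PExp := TNc (c0 a b c d) (c1 a b c d) (c2 a b c d) (c3 a b c d)

def m5100 (a b c d : PExp) : PExp :=
  add (add (add (add (mul (pow a 5) b) (mul (pow a 5) c)) (add (mul (pow a 5) d) (mul a (pow b 5)))) (add (add (mul a (pow c 5)) (mul a (pow d 5))) (add (mul (pow b 5) c) (mul (pow b 5) d)))) (add (add (mul b (pow c 5)) (mul b (pow d 5))) (add (mul (pow c 5) d) (mul c (pow d 5))))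
def m4200 (a b c d : PExp) : PExp :=
  add (add (add (add (mul (pow a 4) (pow b 2)) (mul (pow a 4) (pow c 2))) (add (mul (pow a 4) (pow d 2)) (mul (pow a 2) (pow b 4)))) (add (add (mul (pow a 2) (pow c 4)) (mul (pow a 2) (pow d 4))) (add (mul (pow b 4) (pow c 2)) (mul (pow b 4) (pow d 2))))) (add (add (mul (pow b 2) (pow c 4)) (mul (pow b 2) (pow d 4))) (add (mul (pow c 4) (pow d 2)) (mul (pow c 2) (pow d 4))))
def m4110 (a b c d : PExp) : PExp :=
  add (add (add (add (mul (mul (pow a 4) b) c) (mul (mul (pow a 4) b) d)) (add (mul (mul (pow a 4) c) d) (mul (mul a (pow b 4)) c))) (add (add (mul (mul a (pow b 4)) d) (mul (mul a b) (pow c 4))) (add (mul (mul a b) (pow d 4)) (mul (mul a (pow c 4)) d)))) (add (add (mul (mul a c) (pow d 4)) (mul (mul (pow b 4) c) d)) (add (mul (mul b (pow c 4)) d) (mul (mul b c) (pow d 4))))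
def m3300 (a b c d : PExp) : PExp :=
  add (add (add (mul (pow a 3) (pow b 3)) (mul (pow a 3) (pow c 3))) (add (mul (pow a 3) (pow d 3)) (mul (pow b 3) (pow c 3)))) (add (mul (pow b 3) (pow d 3)) (mul (pow c 3) (pow d 3)))
def m3210 (a b c d : PExp) : PExp :=
  add (add (add (add (add (mul (mul (pow a 3) (pow b 2)) c) (mul (mul (pow a 3) (pow b 2)) d)) (add (mul (mul (pow a 3) b) (pow c 2)) (mul (mul (pow a 3) b) (pow d 2)))) (add (add (mul (mul (pow a 3) (pow c 2)) d) (mul (mul (pow a 3) c) (pow d 2))) (add (mul (mul (pow a 2) (pow b 3)) c) (mul (mul (pow a 2) (pow b 3)) d)))) (add (add (add (mul (mul (pow a 2) b) (pow c 3)) (mul (mul (pow a 2) b) (pow d 3))) (add (mul (mul (pow a 2) (pow c 3)) d) (mul (mul (pow a 2) c) (pow d 3)))) (add (add (mul (mul a (pow b 3)) (pow c 2)) (mul (mul a (pow b 3)) (pow d 2))) (add (mul (mul a (pow b 2)) (pow c 3)) (mul (mul a (pow b 2)) (pow d 3)))))) (add (add (add (mul (mul a (pow c 3)) (pow d 2)) (mul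 (mul a (pow c 2)) (pow d 3))) (add (mul (mul (pow b 3) (pow c 2)) d) (mul (mul (pow b 3) c) (pow d 2)))) (add (add (mul (mul (pow b 2) (pow c 3)) d) (mul (mul (pow b 2) c) (pow d 3))) (add (mul (mul b (pow c 3)) (pow d 2)) (mul (mul b (pow c 2)) (pow d 3)))))
def m3111 (a b c d : PExp) : PExp :=
  add (add (mul (mul (mul (pow a 3) b) c) d) (mul (mul (mul a (pow b 3)) c) d)) (add (mul (mul (mul a b) (pow c 3)) d) (mul (mul (mul a b) c) (pow d 3)))
def m2220 (a b c d : PExp) : PExp :=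
  add (add (mul (mul (pow a 2) (pow b 2)) (pow c 2)) (mul (mul (pow a 2) (pow b 2)) (pow d 2))) (add (mul (mul (pow a 2) (pow c 2)) (pow d 2)) (mul (mul (pow b 2) (pow c 2)) (pow d 2)))
def m2211 (a b c d : PExp) : PExp :=
  add (add (add (mul (mul (mul (pow a 2) (pow b 2)) c) d) (mul (mul (mul (pow a 2) b) (pow c 2)) d)) (add (mul (mul (mul (pow a 2) b) c) (pow d 2)) (mul (mul (mul a (pow b 2)) (pow c 2)) d))) (add (mul (mul (mul a (pow b 2)) c) (pow d 2)) (mul (mul (mul a b) (pow c 2)) (pow d 2)))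
def AN (a b c d : PExp) : PExp :=
  PExp.sub (add (add (mul (k 3231) (pow (S0 a b c d) 3)) (add (mul (k 47040) (m4110 a b c d))
    (mul (k 32400) (m3300 a b c d)))) (add (mul (k 54072) (m3111 a b c d))
    (mul (k 293448) (m2220 a b c d))))
    (add (add (mul (k 12808) (m5100 a b c d)) (mul (k 6584) (m4200 a b c d)))
      (add (mul (k 34680) (m3210 a b c d)) (mul (k 55120) (m2211 a b c d))))
def GC (C a b c d : PExp) : PExp :=
  PExp.sub (add (add (mul (k 51888) (pow a 3)) (mul (k 4204) (mul C (add (add b c) d))))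
    (mul (k 3740) (add (mul (mul (k 2) a) (add (mul b (add c d)) (mul c d)))
      (add (add (mul (pow b 2) (add c d)) (mul (pow c 2) (add b d))) (mul (pow d 2) (add b c))))))
    (mul (k 11664) (mul b (mul c d)))
def SPi (C a b c d : PExp) : PExp :=
  mul (mul b (mul c d)) (mul (PExp.sub (mul (k 4) (pow a 2)) C) (GC C a b c d))
def SP (a b c d : PExp) : PExp :=
  PExp.sub (mul (k 24) (mul (E4 a b c d) (HN a b c d)))
    (add (add (SPi (S0 a b c d) a b c d) (SPi (S0 a b c d) b a c d))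
      (add (SPi (S0 a b c d) c a b d) (SPi (S0 a b c d) d a b c)))

end E

section ev
variable {x : ℕ → ℝ} {a b c d : PExp}

theorem ev_S0 : ev x (E.S0 a b c d) = S0 ![ev x a, ev x b, ev x c, ev x d] := by
  simp only [E.S0, ev, S0, Matrix.cons_val]
theorem ev_s11 : ev x (E.s11 a b c d) = s11 ![ev x a, ev x b, ev x c, ev x d] := by
  simp only [E.s11, ev, s11, Matrix.cons_val]; ring
theorem ev_s211 : ev x (E.s211 a b c d) = s211 ![ev x a, ev x b, ev x c, ev x d] := by
  simp only [E.s211, ev, s211, Matrix.cons_val]; ring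
theorem ev_s4 : ev x (E.s4 a b c d) = s4 ![ev x a, ev x b, ev x c, ev x d] := by
  simp only [E.s4, ev, s4, Matrix.cons_val]
theorem ev_E4 : ev x (E.E4 a b c d) = E4 ![ev x a, ev x b, ev x c, ev x d] := by
  simp only [E.E4, ev, E4, Matrix.cons_val]; ring
theorem ev_HN : ev x (E.HN a b c d) = HN ![ev x a, ev x b, ev x c, ev x d] := by
  simp only [E.HN, ev, HN, ev_S0, ev_s11, ev_s211, ev_s4, ev_E4, Int.cast_ofNat]; ring
theorem ev_c0 : ev x (E.c0 a b c d) = c0 ![ev x a, ev x b, ev x c, ev x d] := by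
  simp only [E.c0, ev, c0, Matrix.cons_val]; ring
theorem ev_c1 : ev x (E.c1 a b c d) = c1 ![ev x a, ev x b, ev x c, ev x d] := by
  simp only [E.c1, ev, c1, Matrix.cons_val]; ring
theorem ev_c2 : ev x (E.c2 a b c d) = c2 ![ev x a, ev x b, ev x c, ev x d] := by
  simp only [E.c2, ev, c2, Matrix.cons_val]; ring
theorem ev_c3 : ev x (E.c3 a b c d) = c3 ![ev x a, ev x b, ev x c, ev x d] := by
  simp only [E.c3, ev, c3, Matrix.cons_val]; ring
theorem ev_RN : ev x (E.RN a b c d) = RN ![ev x a, ev x b, ev x c, ev x d] := by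
  simp only [E.RN, E.RNc, E.RN', E.e2', E.e3', E.e4', E.p4', ev, ev_c0, ev_c1, ev_c2, ev_c3,
    RN, e2, e3, e4, p4, Int.cast_ofNat]; ring
theorem ev_TN : ev x (E.TN a b c d) = TN ![ev x a, ev x b, ev x c, ev x d] := by
  simp only [E.TN, E.TNc, E.TN', E.e2', E.e3', E.e4', E.p4', ev, ev_c0, ev_c1, ev_c2, ev_c3,
    TN, e2, e3, e4, p4, Int.cast_ofNat]; ring

theorem ev_m5100 : ev x (E.m5100 a b c d) = m5100 ![ev x a, ev x b, ev x c, ev x d] := by
  simp only [E.m5100, ev, m5100, Matrix.cons_val]; ring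
theorem ev_m4200 : ev x (E.m4200 a b c d) = m4200 ![ev x a, ev x b, ev x c, ev x d] := by
  simp only [E.m4200, ev, m4200, Matrix.cons_val]; ring
theorem ev_m4110 : ev x (E.m4110 a b c d) = m4110 ![ev x a, ev x b, ev x c, ev x d] := by
  simp only [E.m4110, ev, m4110, Matrix.cons_val]; ring
theorem ev_m3300 : ev x (E.m3300 a b c d) = m3300 ![ev x a, ev x b, ev x c, ev x d] := by
  simp only [E.m3300, ev, m3300, Matrix.cons_val]; ring
theorem ev_m3210 : ev x (E.m3210 a b c d) = m3210 ![ev x a, ev x b, ev x c, ev x d] := by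
  simp only [E.m3210, ev, m3210, Matrix.cons_val]; ring
theorem ev_m3111 : ev x (E.m3111 a b c d) = m3111 ![ev x a, ev x b, ev x c, ev x d] := by
  simp only [E.m3111, ev, m3111, Matrix.cons_val]; ring
theorem ev_m2220 : ev x (E.m2220 a b c d) = m2220 ![ev x a, ev x b, ev x c, ev x d] := by
  simp only [E.m2220, ev, m2220, Matrix.cons_val]; ring
theorem ev_m2211 : ev x (E.m2211 a b c d) = m2211 ![ev x a, ev x b, ev x c, ev x d] := by
  simp only [E.m2211, ev, m2211, Matrix.cons_val]; ring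
theorem ev_AN : ev x (E.AN a b c d) = AN ![ev x a, ev x b, ev x c, ev x d] := by
  simp only [E.AN, ev, AN, ev_S0, ev_m5100, ev_m4200, ev_m4110, ev_m3300, ev_m3210, ev_m3111,
    ev_m2220, ev_m2211, Int.cast_ofNat]; ring
theorem ev_SP : ev x (E.SP a b c d) = SP ![ev x a, ev x b, ev x c, ev x d] := by
  simp only [E.SP, E.SPi, E.GC, ev, SP, ev_S0, ev_HN, ev_E4, E4, Matrix.cons_val,
    Int.cast_ofNat]; ring

end ev

/-! ### points of a cell -/

/-- the linear form of coordinate `j` (variables `o, …, o+3`) -/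
def lf (c : Cell) (o : ℕ) (j : Fin 4) : PExp :=
  add (add (mul (k (c 0 j)) (v o)) (mul (k (c 1 j)) (v (o + 1))))
    (add (mul (k (c 2 j)) (v (o + 2))) (mul (k (c 3 j)) (v (o + 3))))

/-- environment -/
def env1 (y : Fin 4 → ℝ) (i : ℕ) : ℝ :=
  if i = 0 then y 0 else if i = 1 then y 1 else if i = 2 then y 2 else if i = 3 then y 3 else 0

theorem env1_nonneg {y : Fin 4 → ℝ} (hy : ∀ i, 0 ≤ y i) (i : ℕ) : 0 ≤ env1 y i := by
  unfold env1; split_ifs <;> first | exact hy _ | exact le_rfl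

theorem ev_lf (c : Cell) (y : Fin 4 → ℝ) (j : Fin 4) : ev (env1 y) (lf c 0 j) = lin c y j := by
  simp only [lf, ev, lin, env1]
  norm_num
  ring

theorem ev_lfs (c : Cell) (y : Fin 4 → ℝ) :
    ![ev (env1 y) (lf c 0 0), ev (env1 y) (lf c 0 1), ev (env1 y) (lf c 0 2),
      ev (env1 y) (lf c 0 3)] = lin c y := by
  funext j; fin_cases j <;> simp [ev_lf]

def FT (c : Cell) : PExp :=
  PExp.sub (mul (k 3) (E.TN (pow (lf c 0 0) 2) (pow (lf c 0 1) 2) (pow (lf c 0 2) 2) (pow (lf c 0 3) 2)))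
    (mul (k 20) (mul (E.HN (lf c 0 0) (lf c 0 1) (lf c 0 2) (lf c 0 3))
      (pow (E.S0 (lf c 0 0) (lf c 0 1) (lf c 0 2) (lf c 0 3)) 4)))
def FB (c : Cell) : PExp := E.AN (lf c 0 0) (lf c 0 1) (lf c 0 2) (lf c 0 3)
def FR (c : Cell) : PExp := E.RN (lf c 0 0) (lf c 0 1) (lf c 0 2) (lf c 0 3)
def FS (c : Cell) : PExp := E.SP (lf c 0 0) (lf c 0 1) (lf c 0 2) (lf c 0 3)

def trT : Tr := (.node 0 2 1 1 1 (.node 2 3 1 1 1 (.node 0 2 1 1 1 .leaf .leaf) (.node 0 3 1 1 1 .leaf (.node 1 3 1 1 1 .leaf (.node 0 3 1 1 1 .leaf (.node 0 3 1 1 1 .leaf (.node 0 3 1 1 1 .leaf (.node 0 2 1 1 1 (.node 0 3 1 1 1 .leaf .leaf) .leaf))))))) (.node 0 3 1 1 1 .leaf .leaf))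

def trB : Tr := (.node 0 3 1 1 1 .leaf (.node 1 3 1 1 1 .leaf (.node 2 3 1 1 1 .leaf (.node 1 3 1 1 1 .leaf (.node 0 3 1 1 1 .leaf .leaf)))))

theorem certT : (trT.ok c00 && (trT.leaves c00).all (fun c => chk 128 13 4 (FT c))) = true := by
  decide +kernel
theorem certB : (trB.ok c00 && (trB.leaves c00).all (fun c => chk 64 7 4 (FB c))) = true := by
  decide +kernel
theorem certR : chk 80 7 4 (FR c00) = true := by decide +kernel
theorem certS : chk 80 9 4 (FS c00) = true := by decide +kernel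

theorem srt0_cover {P : (Fin 4 → ℝ) → Prop} (h : ∀ y : Fin 4 → ℝ, (∀ i, 0 ≤ y i) → P (lin c00 y))
    (t : Fin 4 → ℝ) (ht : Srt0 t) : P t := by
  obtain ⟨h0, h1, h2, h3⟩ := ht
  rw [← lin_c00 t]
  refine h _ fun i => ?_
  fin_cases i <;> simp <;> linarith

theorem polyR (t : Fin 4 → ℝ) (ht : Srt0 t) : 0 ≤ RN t := by
  refine srt0_cover (P := fun t => 0 ≤ RN t) (fun y hy => ?_) t ht
  have h := ev_nonneg 80 7 4 _ certR (by norm_num) (env1 y) (env1_nonneg hy)
  rw [FR, ev_RN, ev_lfs] at h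
  exact h

theorem polyS (t : Fin 4 → ℝ) (ht : Srt0 t) : 0 ≤ SP t := by
  refine srt0_cover (P := fun t => 0 ≤ SP t) (fun y hy => ?_) t ht
  have h := ev_nonneg 80 9 4 _ certS (by norm_num) (env1 y) (env1_nonneg hy)
  rw [FS, ev_SP, ev_lfs] at h
  exact h

theorem polyB (t : Fin 4 → ℝ) (ht : Srt0 t) : 0 ≤ AN t := by
  refine srt0_cover (P := fun t => 0 ≤ AN t) (fun y hy => ?_) t ht
  have hc := certB
  simp only [Bool.and_eq_true, List.all_eq_true] at hc
  refine Tr.cover (fun t => 0 ≤ AN t) trB c00 hc.1 (fun c hcm y hy => ?_) y hy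
  have h := ev_nonneg 64 7 4 _ (hc.2 c hcm) (by norm_num) (env1 y) (env1_nonneg hy)
  rw [FB, ev_AN, ev_lfs] at h
  exact h

theorem polyT (t : Fin 4 → ℝ) (ht : Srt0 t) : 20 * HN t * S0 t ^ 4 ≤ 3 * TN (fun i => t i ^ 2) := by
  refine srt0_cover (P := fun t => 20 * HN t * S0 t ^ 4 ≤ 3 * TN (fun i => t i ^ 2))
    (fun y hy => ?_) t ht
  have hc := certT
  simp only [Bool.and_eq_true, List.all_eq_true] at hc
  refine Tr.cover (fun t => 20 * HN t * S0 t ^ 4 ≤ 3 * TN (fun i => t i ^ 2)) trT c00 hc.1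
    (fun c hcm y hy => ?_) y hy
  have h := ev_nonneg 128 13 4 _ (hc.2 c hcm) (by norm_num) (env1 y) (env1_nonneg hy)
  simp only [FT, ev, ev_TN, ev_HN, ev_S0, ev_lfs] at h
  have e : ![ev (env1 y) (lf c 0 0) ^ 2, ev (env1 y) (lf c 0 1) ^ 2, ev (env1 y) (lf c 0 2) ^ 2,
      ev (env1 y) (lf c 0 3) ^ 2] = fun i => lin c y i ^ 2 := by
    funext j; fin_cases j <;> simp [ev_lf]
  rw [e] at h
  push_cast at h
  linarith

end Vale.Agent.P154.Q4
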