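import Vale.Agent.P154.Q4FI
import Vale.Agent.P154.Q4One

/-!
# P154: the polynomial fact `polyII`
-/

namespace Vale.Agent.P154.Q4

open PExp Equiv

/-! ### permuting the coefficient variables -/

/-- renaming the coefficient variables -/
def pm (σ : ℕ → ℕ) : OExp → OExp
  | .c e => .c (sbst (fun i => v (σ i)) e)
  | .m i x => .m i (pm σ x)
  | .s e x => .s (sbst (fun i => v (σ i)) e) (pm σ x)
  | .a x y => .a (pm σ x) (pm σ y)
  | .n x y => .n (pm σ x) (pm σ y)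

theorem evC_pm (ρ : ℕ → SN) (σ : ℕ → ℕ) (e : PExp) :
    evC ρ (sbst (fun i => v (σ i)) e) = evC (fun i => ρ (σ i)) e := by
  induction e with
  | k z => rfl
  | v i => rfl
  | add a c iha ihb =>
    show SN.add (evC ρ (sbst _ a)) (evC ρ (sbst _ c)) = _
    rw [iha, ihb]; rfl
  | sub a c iha ihb =>
    show SN.add (evC ρ (sbst _ a)) (SN.neg (evC ρ (sbst _ c))) = _
    rw [iha, ihb]; rfl
  | mul a c iha ihb =>
    show SN.mul (evC ρ (sbst _ a)) (evC ρ (sbst _ c)) = _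
    rw [iha, ihb]; rfl
  | pow a n ih =>
    show spow (evC ρ (sbst _ a)) n = _
    rw [ih]; rfl

theorem evO_pm (ρ : ℕ → SN) (L : ℕ → LG) (s : ℕ) (σ : ℕ → ℕ) (E : OExp) :
    evO ρ L s (pm σ E) = evO (fun i => ρ (σ i)) L s E := by
  induction E with
  | c e =>
    show [[evC ρ (sbst _ e)]] = _
    rw [evC_pm]; rfl
  | m i x ih =>
    show lm2 (L i) s (evO ρ L s (pm σ x)) [] = _
    rw [ih]; rfl
  | s e x ih =>
    show mapL (mapL (SN.mul (evC ρ (sbst _ e)))) (evO ρ L s (pm σ x)) = _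
    rw [ih, evC_pm]; rfl
  | a x y ihx ihy =>
    show add2 (evO ρ L s (pm σ x)) (evO ρ L s (pm σ y)) = _
    rw [ihx, ihy]; rfl
  | n x y ihx ihy =>
    show add2 (evO ρ L s (pm σ x)) (mapL (mapL SN.neg) (evO ρ L s (pm σ y))) = _
    rw [ihx, ihy]; rfl

theorem nbO_pm (x y : ℕ → ℕ) (σ : ℕ → ℕ) (E : OExp) :
    nbO x y (pm σ E) = nbO x (fun i => y (σ i)) E := by
  have h : ∀ e, nb y (sbst (fun i => v (σ i)) e) = nb (fun i => y (σ i)) e := fun e => nb_sb y _ e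
  induction E with
  | c e => exact h e
  | m i r ih =>
    show Nat.mul (x i) (nbO x y (pm σ r)) = _
    rw [ih]; rfl
  | s e r ih =>
    show Nat.mul (nb y (sbst _ e)) (nbO x y (pm σ r)) = _
    rw [ih, h]; rfl
  | a r t ih1 ih2 =>
    show Nat.add (nbO x y (pm σ r)) (nbO x y (pm σ t)) = _
    rw [ih1, ih2]; rfl
  | n r t ih1 ih2 =>
    show Nat.add (nbO x y (pm σ r)) (nbO x y (pm σ t)) = _
    rw [ih1, ih2]; rfl

/-- a permutation of the coefficient variables -/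
def pn (p : Fin 4 → Fin 4) (i : ℕ) : ℕ :=
  cond (Nat.ble 4 i) i (cond (Nat.ble 2 i) (cond (Nat.ble 3 i) (p 3).val (p 2).val)
    (cond (Nat.ble 1 i) (p 1).val (p 0).val))

theorem env4_pn (s : Fin 4 → ℝ) (p : Fin 4 → Fin 4) :
    (fun i => env4 s (pn p i)) = env4 (fun i => s (p i)) := by
  have key : ∀ j : Fin 4, env4 s j.val = s j := by
    intro j; fin_cases j <;> rfl
  funext i
  match i with
  | 0 => exact key (p 0)
  | 1 => exact key (p 1)
  | 2 => exact key (p 2)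
  | 3 => exact key (p 3)
  | i + 4 =>
    have e : pn p (i + 4) = i + 4 := by
      unfold pn
      rw [show Nat.ble 4 (i + 4) = true from Nat.ble_eq_true_of_le (by omega)]
      rfl
    rw [e]
    simp [env4]

theorem vs_pm (s : Fin 4 → ℝ) (p : Fin 4 → Fin 4) (e : PExp) :
    vs s (sbst (fun i => v (pn p i)) e) = vs (fun i => s (p i)) e := by
  unfold vs
  rw [ev_sbst]
  exact congrArg (fun x => ev x e) (env4_pn s p)

theorem vo_m (t s : Fin 4 → ℝ) (i : ℕ) (x : OExp) :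
    vo t s (.m i x) = env8 t s (OExp.i3 i) * vo t s x := rfl

theorem env8_i3 (t s s' : Fin 4 → ℝ) (i : ℕ) : env8 t s (OExp.i3 i) = env8 t s' (OExp.i3 i) := by
  match i with
  | 0 => rfl
  | 1 => rfl
  | 2 => rfl
  | i + 3 =>
    have e1 : OExp.i3 (i + 3) = 3 := by
      unfold OExp.i3
      rw [show Nat.ble 3 (i + 3) = true from Nat.ble_eq_true_of_le (by omega)]
      rfl
    rw [e1]; rfl

theorem vo_pm (t s : Fin 4 → ℝ) (p : Fin 4 → Fin 4) (E : OExp) :
    vo t s (pm (pn p) E) = vo t (fun i => s (p i)) E := by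
  induction E with
  | c e =>
    show vo t s (.c (sbst _ e)) = _
    rw [vo_c, vo_c, vs_pm]
  | m i x ih =>
    show vo t s (.m i (pm (pn p) x)) = _
    rw [vo_m, vo_m, ih, env8_i3]
  | s e x ih =>
    show vo t s (.s (sbst _ e) (pm (pn p) x)) = _
    rw [vo_s, vo_s, ih, vs_pm]
  | a x y ihx ihy =>
    show vo t s (.a (pm (pn p) x) (pm (pn p) y)) = _
    rw [vo_a, vo_a, ihx, ihy]
  | n x y ihx ihy =>
    show vo t s (.n (pm (pn p) x) (pm (pn p) y)) = _
    rw [vo_n, vo_n, ihx, ihy]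

/-! ### the sum over all permutations -/

/-- sum of permuted copies -/
def sumO (E f : OExp) (l : List (Fin 4 → Fin 4)) : OExp :=
  l.foldr (fun p r => .a (pm (pn p) E) r) f

theorem vo_sumO (t s : Fin 4 → ℝ) (E f : OExp) (l : List (Fin 4 → Fin 4)) :
    vo t s (sumO E f l) = (l.map fun p => vo t (fun i => s (p i)) E).sum + vo t s f := by
  induction l with
  | nil => simp [sumO]
  | cons p l ih =>
    have e : sumO E f (p :: l) = .a (pm (pn p) E) (sumO E f l) := rfl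
    rw [e, vo_a, vo_pm, ih, List.map_cons, List.sum_cons, add_assoc]

theorem evO_sumO (ρ : ℕ → SN) (L : ℕ → LG) (s : ℕ) (E f : OExp) (l : List (Fin 4 → Fin 4)) :
    evO ρ L s (sumO E f l) =
      l.foldr (fun p r => add2 (evO (fun i => ρ (pn p i)) L s E) r) (evO ρ L s f) := by
  induction l with
  | nil => rfl
  | cons p l ih =>
    have e : sumO E f (p :: l) = .a (pm (pn p) E) (sumO E f l) := rfl
    rw [e]
    show add2 (evO ρ L s (pm (pn p) E)) (evO ρ L s (sumO E f l)) = _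
    rw [evO_pm, ih]; rfl

theorem nbO_sumO (x y : ℕ → ℕ) (E f : OExp) (l : List (Fin 4 → Fin 4)) :
    nbO x y (sumO E f l) =
      l.foldr (fun p r => Nat.add (nbO x (fun i => y (pn p i)) E) r) (nbO x y f) := by
  induction l with
  | nil => rfl
  | cons p l ih =>
    have e : sumO E f (p :: l) = .a (pm (pn p) E) (sumO E f l) := rfl
    rw [e]
    show Nat.add (nbO x y (pm (pn p) E)) (nbO x y (sumO E f l)) = _
    rw [nbO_pm, ih]; rfl

/-- all permutations but the identity -/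
def L23 : List (Fin 4 → Fin 4) := [
  ![0, 1, 3, 2], ![0, 2, 1, 3], ![0, 2, 3, 1], ![0, 3, 1, 2], ![0, 3, 2, 1],
  ![1, 0, 2, 3], ![1, 0, 3, 2], ![1, 2, 0, 3], ![1, 2, 3, 0], ![1, 3, 0, 2], ![1, 3, 2, 0],
  ![2, 0, 1, 3], ![2, 0, 3, 1], ![2, 1, 0, 3], ![2, 1, 3, 0], ![2, 3, 0, 1], ![2, 3, 1, 0],
  ![3, 0, 1, 2], ![3, 0, 2, 1], ![3, 1, 0, 2], ![3, 1, 2, 0], ![3, 2, 0, 1], ![3, 2, 1, 0]]

theorem sum_perm_list (g : (Fin 4 → Fin 4) → ℝ) :
    ∑ π : Perm (Fin 4), g (fun i => π i) = (L23.map g).sum + g ![0, 1, 2, 3] := by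
  have h1 : ∑ π : Perm (Fin 4), g (fun i => π i) =
      ∑ p ∈ (Finset.univ : Finset (Perm (Fin 4))).image (fun π => fun i => π i), g p := by
    rw [Finset.sum_image]
    intro a _ b _ h
    exact Equiv.ext fun i => congrFun h i
  have h2 : (Finset.univ : Finset (Perm (Fin 4))).image (fun π => fun i => π i) =
      (![0, 1, 2, 3] :: L23).toFinset := by decide +kernel
  rw [h1, h2, List.sum_toFinset]
  · rw [List.map_cons, List.sum_cons, add_comm]
  · decide +kernel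

theorem perm_cases (π : Perm (Fin 4)) : (fun i => π i) ∈ (![0, 1, 2, 3] :: L23) := by
  have h2 : (Finset.univ : Finset (Perm (Fin 4))).image (fun π => fun i => π i) =
      (![0, 1, 2, 3] :: L23).toFinset := by decide +kernel
  have : (fun i => π i) ∈ (Finset.univ : Finset (Perm (Fin 4))).image (fun π => fun i => π i) :=
    Finset.mem_image_of_mem _ (Finset.mem_univ _)
  rw [h2, List.mem_toFinset] at this
  exact this

/-! ### multipliers -/

abbrev kn (n : ℕ) : PExp := k (.ofNat n)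

def m4 (i : ℕ) (X : OExp) : OExp := .m i (.m i (.m i (.m i X)))
def s4t (X : OExp) : OExp := .a (.a (m4 0 X) (m4 1 X)) (.a (m4 2 X) (m4 3 X))
def s11t (X : OExp) : OExp :=
  .a (.m 0 (.a (.m 1 X) (.a (.m 2 X) (.m 3 X)))) (.a (.m 1 (.a (.m 2 X) (.m 3 X))) (.m 2 (.m 3 X)))
def pr3 (i j l : ℕ) (X : OExp) : OExp := .a (.m i (.a (.m j X) (.m l X))) (.m j (.m l X))
def s211t (X : OExp) : OExp := S0m (pr3 1 2 3 X) (pr3 0 2 3 X) (pr3 0 1 3 X) (pr3 0 1 2 X)
def E4t (X : OExp) : OExp := .m 0 (.m 1 (.m 2 (.m 3 X)))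
def HNt (X : OExp) : OExp :=
  .n (.a (.a (.s (kn 12972) (s4t X)) (.s (kn 4204) (S0t (s11t X)))) (.s (kn 3740) (s211t X)))
    (.a (.s (kn 11664) (E4t X)) (.s (kn 11625) (S0t (S0t X))))
def ad3 (i j l : ℕ) (X : OExp) : OExp := .a (.a (.m i X) (.m j X)) (.m l X)
def sq3 (i j l : ℕ) (X : OExp) : OExp := .a (.a (.m i (.m i X)) (.m j (.m j X))) (.m l (.m l X))
def m5100t (X : OExp) : OExp :=
  .a (.a (m4 0 (.m 0 (ad3 1 2 3 X))) (m4 1 (.m 1 (ad3 0 2 3 X))))
    (.a (m4 2 (.m 2 (ad3 0 1 3 X))) (m4 3 (.m 3 (ad3 0 1 2 X))))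
def m4200t (X : OExp) : OExp :=
  .a (.a (m4 0 (sq3 1 2 3 X)) (m4 1 (sq3 0 2 3 X))) (.a (m4 2 (sq3 0 1 3 X)) (m4 3 (sq3 0 1 2 X)))
def m4110t (X : OExp) : OExp :=
  .a (.a (m4 0 (pr3 1 2 3 X)) (m4 1 (pr3 0 2 3 X))) (.a (m4 2 (pr3 0 1 3 X)) (m4 3 (pr3 0 1 2 X)))
def mc (i : ℕ) (X : OExp) : OExp := .m i (.m i (.m i X))
def m3300t (X : OExp) : OExp :=
  .a (mc 0 (.a (mc 1 X) (.a (mc 2 X) (mc 3 X)))) (.a (mc 1 (.a (mc 2 X) (mc 3 X))) (mc 2 (mc 3 X)))
def q21 (i j l : ℕ) (X : OExp) : OExp :=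
  .a (.a (.m i (.m i (.a (.m j X) (.m l X)))) (.m j (.m j (.a (.m i X) (.m l X)))))
    (.m l (.m l (.a (.m i X) (.m j X))))
def m3210t (X : OExp) : OExp :=
  .a (.a (mc 0 (q21 1 2 3 X)) (mc 1 (q21 0 2 3 X))) (.a (mc 2 (q21 0 1 3 X)) (mc 3 (q21 0 1 2 X)))
def m2 (i : ℕ) (X : OExp) : OExp := .m i (.m i X)
def m2220t (X : OExp) : OExp :=
  .a (m2 0 (.a (m2 1 (.a (m2 2 X) (m2 3 X))) (m2 2 (m2 3 X)))) (m2 1 (m2 2 (m2 3 X)))
def ANt (X : OExp) : OExp :=
  .n (.a (.a (.s (kn 3231) (S0t (S0t (S0t X)))) (.a (.s (kn 47040) (m4110t X)) (.s (kn 32400) (m3300t X))))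
      (.a (.s (kn 54072) (E4t (S0t X))) (.s (kn 293448) (m2220t X))))
    (.a (.a (.s (kn 12808) (m5100t X)) (.s (kn 6584) (m4200t X)))
      (.a (.s (kn 34680) (m3210t X)) (.s (kn 55120) (E4t (s11t X)))))

section
variable (t s : Fin 4 → ℝ) (X : OExp)

theorem vo_S0t : vo t s (S0t X) = S0 t * vo t s X := by
  simp only [S0t, S0m, vo_a, vo_0, vo_1, vo_2, vo_3, S0]; ring
theorem vo_s4t : vo t s (s4t X) = s4 t * vo t s X := by
  simp only [s4t, m4, vo_a, vo_0, vo_1, vo_2, vo_3, s4]; ring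
theorem vo_s11t : vo t s (s11t X) = s11 t * vo t s X := by
  simp only [s11t, vo_a, vo_0, vo_1, vo_2, vo_3, s11]; ring
theorem vo_s211t : vo t s (s211t X) = s211 t * vo t s X := by
  simp only [s211t, S0m, pr3, vo_a, vo_0, vo_1, vo_2, vo_3, s211]; ring
theorem vo_E4t : vo t s (E4t X) = E4 t * vo t s X := by
  simp only [E4t, vo_0, vo_1, vo_2, vo_3, E4]; ring
theorem vo_HNt : vo t s (HNt X) = HN t * vo t s X := by
  simp only [HNt, vo_a, vo_n, vo_s, vs_kof, vo_s4t, vo_s11t, vo_S0t, vo_s211t, vo_E4t, HN]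
  push_cast; ring
theorem vo_m5100t : vo t s (m5100t X) = m5100 t * vo t s X := by
  simp only [m5100t, m4, ad3, vo_a, vo_0, vo_1, vo_2, vo_3, m5100]; ring
theorem vo_m4200t : vo t s (m4200t X) = m4200 t * vo t s X := by
  simp only [m4200t, m4, sq3, vo_a, vo_0, vo_1, vo_2, vo_3, m4200]; ring
theorem vo_m4110t : vo t s (m4110t X) = m4110 t * vo t s X := by
  simp only [m4110t, m4, pr3, vo_a, vo_0, vo_1, vo_2, vo_3, m4110]; ring
theorem vo_m3300t : vo t s (m3300t X) = m3300 t * vo t s X := by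
  simp only [m3300t, mc, vo_a, vo_0, vo_1, vo_2, vo_3, m3300]; ring
theorem vo_m3210t : vo t s (m3210t X) = m3210 t * vo t s X := by
  simp only [m3210t, mc, q21, vo_a, vo_0, vo_1, vo_2, vo_3, m3210]; ring
theorem vo_m2220t : vo t s (m2220t X) = m2220 t * vo t s X := by
  simp only [m2220t, m2, vo_a, vo_0, vo_1, vo_2, vo_3, m2220]; ring
theorem m3111_eq : m3111 t = E4 t * S0 t := by simp only [m3111, E4, S0]; ring
theorem m2211_eq : m2211 t = E4 t * s11 t := by simp only [m2211, E4, s11]; ring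
theorem vo_ANt : vo t s (ANt X) = AN t * vo t s X := by
  simp only [ANt, vo_a, vo_n, vo_s, vs_kof, vo_m5100t, vo_m4200t, vo_m4110t, vo_m3300t, vo_m3210t,
    vo_m2220t, vo_E4t, vo_S0t, vo_s11t, AN, m3111_eq, m2211_eq]
  push_cast; ring

end

/-- the other terms -/
def RII : OExp :=
  .n (.n (.n (.s (kn 42040000) (s11t (S0t (S0t (.c (mul (E.s11 s0 s1 s2 s3) (pow S0s 2)))))))
    (.s (kn 174375000) (S0t (S0t (S0t (.c (pow S0s 3)))))))
    (HNt (S0t (.c (E.AN s0 s1 s2 s3)))))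
    (ANt (.c (mul (E.HN s0 s1 s2 s3) S0s)))

def FII : OExp := .a (.s (kn 2000) (sumO KKo KKo L23)) RII

theorem vs_eta (s : Fin 4 → ℝ) (F : (Fin 4 → ℝ) → ℝ) : F ![vs s s0, vs s s1, vs s s2, vs s s3] = F s := by
  congr 1
  funext i
  fin_cases i <;> rfl

theorem vs_AN (s : Fin 4 → ℝ) : vs s (E.AN s0 s1 s2 s3) = AN s := by
  unfold vs; rw [ev_AN]; exact vs_eta s AN
theorem vs_HN (s : Fin 4 → ℝ) : vs s (E.HN s0 s1 s2 s3) = HN s := by
  unfold vs; rw [ev_HN]; exact vs_eta s HN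
theorem vs_s11 (s : Fin 4 → ℝ) : vs s (E.s11 s0 s1 s2 s3) = s11 s := by
  unfold vs; rw [ev_s11]; exact vs_eta s s11
theorem vs_S0s (s : Fin 4 → ℝ) : vs s S0s = S0 s := by
  simp only [S0s, vs_add, vs_pow, vs0, vs1, vs2, vs3, S0]; ring

theorem vo_RII (t s : Fin 4 → ℝ) : vo t s RII =
    42040000 * (s11 t * (S0 t * (S0 t * (s11 s * S0 s ^ 2)))) -
      174375000 * (S0 t * (S0 t * (S0 t * S0 s ^ 3))) - HN t * (S0 t * AN s) -
      AN t * (HN s * S0 s) := by
  simp only [RII, vo_n, vo_s, vs_kof, vo_s11t, vo_S0t, vo_HNt, vo_ANt, vo_c, vs_mul, vs_pow, vs_AN,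
    vs_HN, vs_s11, vs_S0s]
  push_cast
  ring

abbrev w6 : Wt := ⟨1, 22, 28⟩

theorem tdf_sbst (f : ℕ → ℕ) (σ : ℕ → PExp) (e : PExp) :
    tdf f (sbst σ e) = tdf (fun i => tdf f (σ i)) e := by
  induction e with
  | k z => rfl
  | v i => rfl
  | add a c iha ihb =>
    show cond (Nat.ble (tdf f (sbst σ a)) (tdf f (sbst σ c))) (tdf f (sbst σ c))
      (tdf f (sbst σ a)) = _
    rw [iha, ihb]; rfl
  | sub a c iha ihb =>
    show cond (Nat.ble (tdf f (sbst σ a)) (tdf f (sbst σ c))) (tdf f (sbst σ c))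
      (tdf f (sbst σ a)) = _
    rw [iha, ihb]; rfl
  | mul a c iha ihb =>
    show Nat.add (tdf f (sbst σ a)) (tdf f (sbst σ c)) = _
    rw [iha, ihb]; rfl
  | pow a n ih =>
    show Nat.mul n (tdf f (sbst σ a)) = _
    rw [ih]; rfl

theorem bdA_sbst (σ σ' : ℕ → PExp) (h : ∀ i, bdA (σ i) = bdA (σ' i)) (e : PExp) :
    bdA (sbst σ e) = bdA (sbst σ' e) := by
  induction e with
  | k z => rfl
  | v i => exact h i
  | add a c iha ihb => exact iha
  | sub a c iha ihb => exact iha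
  | mul a c iha ihb =>
    show Nat.add (bdA (sbst σ a)) (bdA (sbst σ c)) = _
    rw [iha, ihb]; rfl
  | pow a n ih =>
    show Nat.mul n (bdA (sbst σ a)) = _
    rw [ih]; rfl

theorem bdB_sbst (σ σ' : ℕ → PExp) (h : ∀ i, bdB (σ i) = bdB (σ' i)) (e : PExp) :
    bdB (sbst σ e) = bdB (sbst σ' e) := by
  induction e with
  | k z => rfl
  | v i => exact h i
  | add a c iha ihb => exact iha
  | sub a c iha ihb => exact iha
  | mul a c iha ihb =>
    show Nat.add (bdB (sbst σ a)) (bdB (sbst σ c)) = _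
    rw [iha, ihb]; rfl
  | pow a n ih =>
    show Nat.mul n (bdB (sbst σ a)) = _
    rw [ih]; rfl

theorem bok_sbst (σ σ' : ℕ → PExp) (hA : ∀ i, bdA (σ i) = bdA (σ' i))
    (hB : ∀ i, bdB (σ i) = bdB (σ' i)) (h : ∀ i, bok (σ i) = bok (σ' i)) (e : PExp) :
    bok (sbst σ e) = bok (sbst σ' e) := by
  induction e with
  | k z => rfl
  | v i => exact h i
  | add a c iha ihb =>
    show cond (Nat.beq (bdA (sbst σ a)) (bdA (sbst σ c))) (cond (Nat.beq (bdB (sbst σ a))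
      (bdB (sbst σ c))) (cond (bok (sbst σ a)) (bok (sbst σ c)) false) false) false = _
    rw [iha, ihb, bdA_sbst σ σ' hA, bdA_sbst σ σ' hA, bdB_sbst σ σ' hB, bdB_sbst σ σ' hB]; rfl
  | sub a c iha ihb =>
    show cond (Nat.beq (bdA (sbst σ a)) (bdA (sbst σ c))) (cond (Nat.beq (bdB (sbst σ a))
      (bdB (sbst σ c))) (cond (bok (sbst σ a)) (bok (sbst σ c)) false) false) false = _
    rw [iha, ihb, bdA_sbst σ σ' hA, bdA_sbst σ σ' hA, bdB_sbst σ σ' hB, bdB_sbst σ σ' hB]; rfl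
  | mul a c iha ihb =>
    show cond (bok (sbst σ a)) (bok (sbst σ c)) false = _
    rw [iha, ihb]; rfl
  | pow a n ih => exact ih

theorem sbst_sbst (σ τ : ℕ → PExp) (e : PExp) : sbst σ (sbst τ e) = sbst (fun i => sbst σ (τ i)) e := by
  induction e with
  | k z => rfl
  | v i => rfl
  | add a c iha ihb => simp only [sbst, iha, ihb]
  | sub a c iha ihb => simp only [sbst, iha, ihb]
  | mul a c iha ihb => simp only [sbst, iha, ihb]
  | pow a n ih => simp only [sbst, ih]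

theorem ble4 (i : ℕ) : Nat.ble 4 (i + 4) = true := Nat.ble_eq_true_of_le (by omega)

theorem tdf_pm (f : ℕ → ℕ) (hf : ∀ i j, f (i + 4) = f (j + 4)) (σ : ℕ → ℕ) (E : OExp) :
    tdf f (pm σ E).px = tdf f E.px := by
  have h : ∀ e, tdf f (sh (sbst (fun i => v (σ i)) e)) = tdf f (sh e) := by
    intro e
    unfold sh
    rw [sbst_sbst, tdf_sbst, tdf_sbst]
    congr 1
    funext i
    exact hf _ _
  induction E with
  | c e => exact h e
  | m i x ih =>
    show Nat.add (f (OExp.i3 i)) (tdf f (pm σ x).px) = Nat.add (f (OExp.i3 i)) (tdf f x.px)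
    rw [ih]
  | s e x ih =>
    show Nat.add (tdf f (sh (sbst (fun i => v (σ i)) e))) (tdf f (pm σ x).px) =
      Nat.add (tdf f (sh e)) (tdf f x.px)
    rw [ih, h]
  | a x y ihx ihy =>
    show cond (Nat.ble (tdf f (pm σ x).px) (tdf f (pm σ y).px)) (tdf f (pm σ y).px)
      (tdf f (pm σ x).px) = cond (Nat.ble (tdf f x.px) (tdf f y.px)) (tdf f y.px) (tdf f x.px)
    rw [ihx, ihy]
  | n x y ihx ihy =>
    show cond (Nat.ble (tdf f (pm σ x).px) (tdf f (pm σ y).px)) (tdf f (pm σ y).px)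
      (tdf f (pm σ x).px) = cond (Nat.ble (tdf f x.px) (tdf f y.px)) (tdf f y.px) (tdf f x.px)
    rw [ihx, ihy]

theorem bd_pm (σ : ℕ → ℕ) (E : OExp) : bdA (pm σ E).px = bdA E.px ∧ bdB (pm σ E).px = bdB E.px ∧
    bok (pm σ E).px = bok E.px := by
  have hA : ∀ i, bdA (sbst (fun i => v (i + 4)) (v (σ i))) = bdA (v (i + 4)) := fun i => by
    show cond (Nat.ble 4 (σ i + 4)) 0 1 = cond (Nat.ble 4 (i + 4)) 0 1
    rw [ble4, ble4]
  have hB : ∀ i, bdB (sbst (fun i => v (i + 4)) (v (σ i))) = bdB (v (i + 4)) := fun i => by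
    show cond (Nat.ble 4 (σ i + 4)) 1 0 = cond (Nat.ble 4 (i + 4)) 1 0
    rw [ble4, ble4]
  have h1 : ∀ e, bdA (sh (sbst (fun i => v (σ i)) e)) = bdA (sh e) := fun e => by
    unfold sh; rw [sbst_sbst]; exact bdA_sbst _ _ hA e
  have h2 : ∀ e, bdB (sh (sbst (fun i => v (σ i)) e)) = bdB (sh e) := fun e => by
    unfold sh; rw [sbst_sbst]; exact bdB_sbst _ _ hB e
  have h3 : ∀ e, bok (sh (sbst (fun i => v (σ i)) e)) = bok (sh e) := fun e => by
    unfold sh; rw [sbst_sbst]; exact bok_sbst _ _ hA hB (fun i => rfl) e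
  induction E with
  | c e => exact ⟨h1 e, h2 e, h3 e⟩
  | m i x ih =>
    obtain ⟨i1, i2, i3⟩ := ih
    refine ⟨?_, ?_, ?_⟩
    · show Nat.add (bdA (v (OExp.i3 i))) (bdA (pm σ x).px) = Nat.add (bdA (v (OExp.i3 i))) (bdA x.px)
      rw [i1]
    · show Nat.add (bdB (v (OExp.i3 i))) (bdB (pm σ x).px) = Nat.add (bdB (v (OExp.i3 i))) (bdB x.px)
      rw [i2]
    · show cond (bok (v (OExp.i3 i))) (bok (pm σ x).px) false = cond (bok (v (OExp.i3 i))) (bok x.px) false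
      rw [i3]
  | s e x ih =>
    obtain ⟨i1, i2, i3⟩ := ih
    refine ⟨?_, ?_, ?_⟩
    · show Nat.add (bdA (sh (sbst (fun i => v (σ i)) e))) (bdA (pm σ x).px) =
        Nat.add (bdA (sh e)) (bdA x.px)
      rw [i1, h1]
    · show Nat.add (bdB (sh (sbst (fun i => v (σ i)) e))) (bdB (pm σ x).px) =
        Nat.add (bdB (sh e)) (bdB x.px)
      rw [i2, h2]
    · show cond (bok (sh (sbst (fun i => v (σ i)) e))) (bok (pm σ x).px) false =
        cond (bok (sh e)) (bok x.px) false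
      rw [i3, h3]
  | a x y ihx ihy =>
    obtain ⟨i1, i2, i3⟩ := ihx
    obtain ⟨j1, j2, j3⟩ := ihy
    refine ⟨i1, i2, ?_⟩
    show cond (Nat.beq (bdA (pm σ x).px) (bdA (pm σ y).px)) (cond (Nat.beq (bdB (pm σ x).px)
      (bdB (pm σ y).px)) (cond (bok (pm σ x).px) (bok (pm σ y).px) false) false) false =
      cond (Nat.beq (bdA x.px) (bdA y.px)) (cond (Nat.beq (bdB x.px)
      (bdB y.px)) (cond (bok x.px) (bok y.px) false) false) false
    rw [i1, i2, i3, j1, j2, j3]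
  | n x y ihx ihy =>
    obtain ⟨i1, i2, i3⟩ := ihx
    obtain ⟨j1, j2, j3⟩ := ihy
    refine ⟨i1, i2, ?_⟩
    show cond (Nat.beq (bdA (pm σ x).px) (bdA (pm σ y).px)) (cond (Nat.beq (bdB (pm σ x).px)
      (bdB (pm σ y).px)) (cond (bok (pm σ x).px) (bok (pm σ y).px) false) false) false =
      cond (Nat.beq (bdA x.px) (bdA y.px)) (cond (Nat.beq (bdB x.px)
      (bdB y.px)) (cond (bok x.px) (bok y.px) false) false) false
    rw [i1, i2, i3, j1, j2, j3]

theorem tdf_sumO (f : ℕ → ℕ) (hf : ∀ i j, f (i + 4) = f (j + 4)) (E : OExp)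
    (l : List (Fin 4 → Fin 4)) : tdf f (sumO E E l).px = tdf f E.px := by
  induction l with
  | nil => rfl
  | cons p l ih =>
    have e : sumO E E (p :: l) = .a (pm (pn p) E) (sumO E E l) := rfl
    rw [e]
    show cond (Nat.ble (tdf f (pm (pn p) E).px) (tdf f (sumO E E l).px)) (tdf f (sumO E E l).px)
      (tdf f (pm (pn p) E).px) = _
    rw [tdf_pm f hf, ih]
    cases Nat.ble (tdf f E.px) (tdf f E.px) <;> rfl

theorem bd_sumO (E : OExp) (hE : bok E.px = true) (l : List (Fin 4 → Fin 4)) :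
    bdA (sumO E E l).px = bdA E.px ∧ bdB (sumO E E l).px = bdB E.px ∧
    bok (sumO E E l).px = true := by
  induction l with
  | nil => exact ⟨rfl, rfl, hE⟩
  | cons p l ih =>
    have e : sumO E E (p :: l) = .a (pm (pn p) E) (sumO E E l) := rfl
    rw [e]
    obtain ⟨h1, h2, h3⟩ := bd_pm (pn p) E
    obtain ⟨i1, i2, i3⟩ := ih
    refine ⟨h1, h2, ?_⟩
    show cond (Nat.beq (bdA (pm (pn p) E).px) (bdA (sumO E E l).px)) (cond (Nat.beq
      (bdB (pm (pn p) E).px) (bdB (sumO E E l).px)) (cond (bok (pm (pn p) E).px)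
      (bok (sumO E E l).px) false) false) false = true
    rw [h1, h2, h3, i1, i2, i3, hE]
    have hr : ∀ n, Nat.beq n n = true := fun n => Nat.beq_refl n
    rw [hr, hr]
    rfl

theorem tKA : tdf fA KKo.px = 6 := by decide +kernel
theorem tKB : tdf fB KKo.px = 6 := by decide +kernel
theorem aK : bdA KKo.px = 6 := by decide +kernel
theorem bK : bdB KKo.px = 6 := by decide +kernel
theorem oK : bok KKo.px = true := by decide +kernel
theorem tRA : tdf fA RII.px = 6 := by decide +kernel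
theorem tRB : tdf fB RII.px = 6 := by decide +kernel
theorem aR : bdA RII.px = 6 := by decide +kernel
theorem bR : bdB RII.px = 6 := by decide +kernel
theorem oR : bok RII.px = true := by decide +kernel

theorem tdf_a (f : ℕ → ℕ) (x y : OExp) : tdf f (OExp.a x y).px =
    cond (Nat.ble (tdf f x.px) (tdf f y.px)) (tdf f y.px) (tdf f x.px) := rfl
theorem tdf_s (f : ℕ → ℕ) (e : PExp) (x : OExp) :
    tdf f (OExp.s e x).px = Nat.add (tdf f (sh e)) (tdf f x.px) := rfl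
theorem bdA_a (x y : OExp) : bdA (OExp.a x y).px = bdA x.px := rfl
theorem bdB_a (x y : OExp) : bdB (OExp.a x y).px = bdB x.px := rfl
theorem bok_a (x y : OExp) : bok (OExp.a x y).px =
    cond (Nat.beq (bdA x.px) (bdA y.px)) (cond (Nat.beq (bdB x.px) (bdB y.px))
      (cond (bok x.px) (bok y.px) false) false) false := rfl
theorem bdA_s (e : PExp) (x : OExp) : bdA (OExp.s e x).px = Nat.add (bdA (sh e)) (bdA x.px) := rfl
theorem bdB_s (e : PExp) (x : OExp) : bdB (OExp.s e x).px = Nat.add (bdB (sh e)) (bdB x.px) := rfl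
theorem bok_s (e : PExp) (x : OExp) : bok (OExp.s e x).px = cond (bok (sh e)) (bok x.px) false := rfl
theorem tdf_kn (f : ℕ → ℕ) (n : ℕ) : tdf f (sh (kn n)) = 0 := rfl
theorem bdA_kn (n : ℕ) : bdA (sh (kn n)) = 0 := rfl
theorem bdB_kn (n : ℕ) : bdB (sh (kn n)) = 0 := rfl
theorem bok_kn (n : ℕ) : bok (sh (kn n)) = true := rfl

theorem hII : GOK 80 169 6 6 w6 FII.px where
  hA := by
    unfold FII
    rw [tdf_a, tdf_s, tdf_kn, tdf_sumO fA (fun i j => by unfold fA; rw [ble4, ble4]), tKA, tRA]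
    decide
  hB := by
    unfold FII
    rw [tdf_a, tdf_s, tdf_kn, tdf_sumO fB (fun i j => by unfold fB; rw [ble4, ble4]), tKB, tRB]
    decide
  hom := by
    obtain ⟨h1, h2, h3⟩ := bd_sumO KKo oK L23
    unfold FII
    rw [bok_a, bdA_s, bdB_s, bok_s, bdA_kn, bdB_kn, bok_kn, h1, h2, h3, aK, bK, aR, bR, oR]
    decide
  wn := winj_spec _ _ rfl (by decide +kernel)
  h0 := by decide
  h1 := by decide
  hK := by decide
  hb := by decide

theorem nbO_a (x y : ℕ → ℕ) (r t : OExp) : nbO x y (.a r t) = Nat.add (nbO x y r) (nbO x y t) := rfl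
theorem nbO_s (x y : ℕ → ℕ) (e : PExp) (r : OExp) :
    nbO x y (.s e r) = Nat.mul (nb y e) (nbO x y r) := rfl
theorem evO_a (ρ : ℕ → SN) (L : ℕ → LG) (s : ℕ) (x y : OExp) :
    evO ρ L s (.a x y) = add2 (evO ρ L s x) (evO ρ L s y) := rfl
theorem evO_s (ρ : ℕ → SN) (L : ℕ → LG) (s : ℕ) (e : PExp) (x : OExp) :
    evO ρ L s (.s e x) = mapL (mapL (SN.mul (evC ρ e))) (evO ρ L s x) := rfl

theorem chkII : chkB 80 169 6 w6 FII c00 c00 ![0, 1, 2, 3] = true := by
  unfold chkB FII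
  rw [nbO_a, nbO_s, nbO_sumO, evO_a, evO_s, evO_sumO]
  decide +kernel

end Vale.Agent.P154.Q4
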