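import Vale.Agent.P154.Q4Sub

/-!
# P154: row tests, two variables unpacked
-/

namespace Vale.Agent.P154

open MvPolynomial Finset

namespace PExp

/-- polynomials in the first four variables with coefficients in the others -/
inductive OExp
  | c : PExp → OExp
  | m : ℕ → OExp → OExp
  | s : PExp → OExp → OExp
  | a : OExp → OExp → OExp
  | n : OExp → OExp → OExp

/-- renaming of the coefficient variables -/
def sh (e : PExp) : PExp := sbst (fun i => v (i + 4)) e

namespace OExp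

/-- truncated index -/
def i3 (i : ℕ) : ℕ := cond (Nat.ble 3 i) 3 i

/-- translation -/
def px : OExp → PExp
  | .c e => sh e
  | .m i x => mul (v (i3 i)) (px x)
  | .s e x => mul (sh e) (px x)
  | .a x y => add (px x) (px y)
  | .n x y => sub (px x) (px y)

end OExp

/-- linear form with packed last variable -/
structure LG where
  a0 : ℕ
  a1 : ℕ
  a2 : ℕ
  a3 : ℕ

/-- scaling -/
def sc (a : ℕ) (x : SN) : SN := ⟨x.s, Nat.mul a x.m⟩

/-- scaling by `a0 + a3 2 ^ s` -/
def sc2 (a0 a3 s : ℕ) (x : SN) : SN :=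
  ⟨x.s, Nat.add (Nat.mul a0 x.m) (Nat.shiftLeft (Nat.mul a3 x.m) s)⟩

/-- multiplication by `(a0 + a3 2 ^ s) + a2 X` -/
def lrow (a0 a2 a3 s : ℕ) (l : L1) : SN → L1 :=
  @List.rec SN (fun _ => SN → L1) (fun p => [sc a2 p])
    (fun x _ ih p => SN.add (sc a2 p) (sc2 a0 a3 s x) :: ih x) l

/-- multiplication by `(a0 + a3 2 ^ s) + a1 Y + a2 X` -/
def lm2 (f : LG) (s : ℕ) (l : L2) : L1 → L2 :=
  @List.rec L1 (fun _ => L1 → L2) (fun p => [mapL (sc f.a1) p])
    (fun x _ ih p => add1 (mapL (sc f.a1) p) (lrow f.a0 f.a2 f.a3 s x SN.zero) :: ih x) l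

/-- evaluation of the coefficients -/
noncomputable def evC (ρ : ℕ → SN) (e : PExp) : SN :=
  @PExp.rec (fun _ => SN) (fun z => snI z) ρ
    (fun _ _ x y => SN.add x y) (fun _ _ x y => SN.add x (SN.neg y))
    (fun _ _ x y => SN.mul x y) (fun _ n x => spow x n) e

/-- evaluation -/
noncomputable def evO (ρ : ℕ → SN) (L : ℕ → LG) (s : ℕ) (E : OExp) : L2 :=
  @OExp.rec (fun _ => L2) (fun e => [[evC ρ e]]) (fun i _ x => lm2 (L i) s x [])
    (fun e _ x => mapL (mapL (SN.mul (evC ρ e))) x) (fun _ _ x y => add2 x y)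
    (fun _ _ x y => add2 x (mapL (mapL SN.neg) y)) E

theorem toInt_sc (a : ℕ) (x : SN) : (sc a x).toInt = a * x.toInt := by
  obtain ⟨s, m⟩ := x
  cases s <;> simp [sc, SN.toInt]

theorem toInt_sc2 (a0 a3 s : ℕ) (x : SN) : (sc2 a0 a3 s x).toInt = (a0 + a3 * 2 ^ s) * x.toInt := by
  obtain ⟨sg, m⟩ := x
  have e : Nat.shiftLeft (Nat.mul a3 m) s = a3 * m * 2 ^ s := Nat.shiftLeft_eq _ _
  cases sg with
  | true =>
    simp only [sc2, SN.toInt, cond_true, e]
    simp only [Nat.add_eq, Nat.mul_eq]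
    push_cast; ring
  | false =>
    simp only [sc2, SN.toInt, cond_false, e]
    simp only [Nat.add_eq, Nat.mul_eq]
    push_cast; ring

theorem evC_spec (ρ : ℕ → SN) (e : PExp) : (evC ρ e).toInt = ev (fun i => (ρ i).toInt) e := by
  induction e with
  | k z =>
    show (snI z).toInt = _
    rw [toInt_snI]; simp [ev]
  | v i => rfl
  | add a c iha ihb =>
    show (SN.add (evC ρ a) (evC ρ c)).toInt = _
    rw [SN.toInt_add, iha, ihb]; rfl
  | sub a c iha ihb =>
    show (SN.add (evC ρ a) (SN.neg (evC ρ c))).toInt = _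
    rw [SN.toInt_add, SN.toInt_neg, iha, ihb]
    simp only [ev]; ring
  | mul a c iha ihb =>
    show (SN.mul (evC ρ a) (evC ρ c)).toInt = _
    rw [SN.toInt_mul, iha, ihb]; rfl
  | pow a n ih =>
    show (spow (evC ρ a) n).toInt = _
    rw [toInt_spow, ih]; rfl

theorem p1_lrow (a0 a2 a3 s : ℕ) (l : L1) (p : SN) :
    p1 (lrow a0 a2 a3 s l p) = Polynomial.C ((a2 : ℤ) * p.toInt) +
      (Polynomial.C ((a0 : ℤ) + a3 * 2 ^ s) + Polynomial.C (a2 : ℤ) * Polynomial.X) * p1 l := by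
  induction l generalizing p with
  | nil =>
    have : lrow a0 a2 a3 s [] p = [sc a2 p] := rfl
    rw [this]
    simp only [p1, toP_cons, toP_nil, toInt_sc]
    simp
  | cons x xs ih =>
    have : lrow a0 a2 a3 s (x :: xs) p = SN.add (sc a2 p) (sc2 a0 a3 s x) :: lrow a0 a2 a3 s xs x := rfl
    rw [this]
    have e1 : p1 (SN.add (sc a2 p) (sc2 a0 a3 s x) :: lrow a0 a2 a3 s xs x) =
      Polynomial.C (SN.add (sc a2 p) (sc2 a0 a3 s x)).toInt + Polynomial.X * p1 (lrow a0 a2 a3 s xs x) := rfl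
    have e2 : p1 (x :: xs) = Polynomial.C x.toInt + Polynomial.X * p1 xs := rfl
    rw [e1, e2, ih, SN.toInt_add, toInt_sc, toInt_sc2]
    simp only [map_add, map_mul]
    ring

theorem p1_sc (a : ℕ) (l : L1) : p1 (mapL (sc a) l) = Polynomial.C (a : ℤ) * p1 l :=
  toP_mapL SN.toInt (sc a) (a : ℤ) (toInt_sc a) l

theorem p2_lm2 (f : LG) (s : ℕ) (l : L2) (p : L1) :
    p2 (lm2 f s l p) = Polynomial.C (Polynomial.C (f.a1 : ℤ) * p1 p) +
      (Polynomial.C (Polynomial.C ((f.a0 : ℤ) + f.a3 * 2 ^ s) + Polynomial.C (f.a2 : ℤ) * Polynomial.X) +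
        Polynomial.C (Polynomial.C (f.a1 : ℤ)) * Polynomial.X) * p2 l := by
  induction l generalizing p with
  | nil =>
    have : lm2 f s [] p = [mapL (sc f.a1) p] := rfl
    rw [this]
    have e1 : p2 [mapL (sc f.a1) p] = Polynomial.C (p1 (mapL (sc f.a1) p)) + Polynomial.X * 0 := rfl
    have e2 : p2 ([] : L2) = 0 := rfl
    rw [e1, e2, p1_sc]
    ring
  | cons x xs ih =>
    have : lm2 f s (x :: xs) p = add1 (mapL (sc f.a1) p) (lrow f.a0 f.a2 f.a3 s x SN.zero) ::
      lm2 f s xs x := rfl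
    rw [this]
    have e1 : p2 (add1 (mapL (sc f.a1) p) (lrow f.a0 f.a2 f.a3 s x SN.zero) :: lm2 f s xs x) =
      Polynomial.C (p1 (add1 (mapL (sc f.a1) p) (lrow f.a0 f.a2 f.a3 s x SN.zero))) +
        Polynomial.X * p2 (lm2 f s xs x) := rfl
    have e2 : p2 (x :: xs) = Polynomial.C (p1 x) + Polynomial.X * p2 xs := rfl
    rw [e1, e2, ih, p1_add, p1_sc, p1_lrow, SN.toInt_zero, mul_zero, map_zero, zero_add]
    simp only [map_add, map_mul]
    ring

theorem p2_neg (a : L2) : p2 (mapL (mapL SN.neg) a) = -p2 a := by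
  have h1 : ∀ a : L1, p1 (mapL SN.neg a) = -1 * p1 a := fun a => by
    have := toP_mapL SN.toInt SN.neg (-1) SN.toInt_neg a
    rwa [Polynomial.C_neg, Polynomial.C_1] at this
  have := toP_mapL p1 (mapL SN.neg) (-1) h1 a
  rw [Polynomial.C_neg, Polynomial.C_1, neg_one_mul] at this
  exact this

theorem p2_mulc (x : SN) (a : L2) :
    p2 (mapL (mapL (SN.mul x)) a) = Polynomial.C (Polynomial.C x.toInt) * p2 a := by
  have h1 : ∀ a : L1, p1 (mapL (SN.mul x) a) = Polynomial.C x.toInt * p1 a := fun a =>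
    toP_mapL SN.toInt (SN.mul x) x.toInt (fun b => SN.toInt_mul x b) a
  exact toP_mapL p1 (mapL (SN.mul x)) (Polynomial.C x.toInt) h1 a

theorem ev_hom {R S : Type*} [CommRing R] [CommRing S] (g : R →+* S) (x : ℕ → R) (e : PExp) :
    ev (fun i => g (x i)) e = g (ev x e) := by
  induction e with
  | k z => simp [ev]
  | v i => rfl
  | add a b iha ihb => simp only [ev, iha, ihb, map_add]
  | sub a b iha ihb => simp only [ev, iha, ihb, map_sub]
  | mul a b iha ihb => simp only [ev, iha, ihb, map_mul]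
  | pow a n ih => simp only [ev, ih, map_pow]

theorem evO_spec (ρ : ℕ → SN) (L : ℕ → LG) (s : ℕ) (τ : ℕ → R2)
    (h1 : ∀ i, τ (OExp.i3 i) = Polynomial.C (Polynomial.C (((L i).a0 : ℤ) + (L i).a3 * 2 ^ s) +
      Polynomial.C ((L i).a2 : ℤ) * Polynomial.X) +
      Polynomial.C (Polynomial.C ((L i).a1 : ℤ)) * Polynomial.X)
    (h2 : ∀ i, τ (i + 4) = Polynomial.C (Polynomial.C (ρ i).toInt)) (E : OExp) :
    p2 (evO ρ L s E) = ev τ E.px := by
  have hsh : ∀ e : PExp, Polynomial.C (Polynomial.C (evC ρ e).toInt) = ev τ (sh e) := by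
    intro e
    rw [sh, ev_sbst, evC_spec]
    have : (fun i => ev τ (v (i + 4))) = fun i => (Polynomial.C.comp Polynomial.C : ℤ →+* R2)
        ((ρ i).toInt) := by
      funext i
      exact h2 i
    rw [this, ev_hom]
    rfl
  induction E with
  | c e =>
    have : evO ρ L s (.c e) = [[evC ρ e]] := rfl
    rw [this]
    have e1 : p2 [[evC ρ e]] = Polynomial.C (Polynomial.C (evC ρ e).toInt + Polynomial.X * 0) +
      Polynomial.X * 0 := rfl
    rw [e1, mul_zero, mul_zero, add_zero, add_zero]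
    exact hsh e
  | m i x ih =>
    have : evO ρ L s (.m i x) = lm2 (L i) s (evO ρ L s x) [] := rfl
    rw [this, p2_lm2, ih]
    have e2 : p1 ([] : L1) = 0 := rfl
    rw [e2, mul_zero, map_zero, zero_add]
    have e3 : ev τ (OExp.px (.m i x)) = τ (OExp.i3 i) * ev τ x.px := rfl
    rw [e3, h1]
  | s e x ih =>
    have : evO ρ L s (.s e x) = mapL (mapL (SN.mul (evC ρ e))) (evO ρ L s x) := rfl
    rw [this, p2_mulc, ih, hsh]
    rfl
  | a x y ihx ihy =>
    have : evO ρ L s (.a x y) = add2 (evO ρ L s x) (evO ρ L s y) := rfl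
    rw [this, p2_add, ihx, ihy]
    rfl
  | n x y ihx ihy =>
    have : evO ρ L s (.n x y) = add2 (evO ρ L s x) (mapL (mapL SN.neg) (evO ρ L s y)) := rfl
    rw [this, p2_add, p2_neg, ihx, ihy]
    have e3 : ev τ (OExp.px (.n x y)) = ev τ x.px - ev τ y.px := rfl
    rw [e3]
    ring

end PExp
end Vale.Agent.P154
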