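import Vale.Agent.P154.Q4PolyI
import Vale.Agent.P154.Q4Fun

/-!
# P154: expressions for `polyP`
-/

namespace Vale.Agent.P154.Q4

open PExp

namespace E

/-- the four characters of a vector -/
structure Inv where
  s : PExp
  x1 : PExp
  x2 : PExp
  x3 : PExp

def inv (a b c d : PExp) : Inv := ⟨c0 a b c d, c1 a b c d, c2 a b c d, c3 a b c d⟩

def Inv.e2 (r : Inv) : PExp := e2' r.x1 r.x2 r.x3
def Inv.e3 (r : Inv) : PExp := e3' r.x1 r.x2 r.x3
def Inv.e4 (r : Inv) : PExp := e4' r.x1 r.x2 r.x3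
def Inv.p4 (r : Inv) : PExp := p4' r.x1 r.x2 r.x3
def Inv.RN (r : Inv) : PExp := RNc r.s r.x1 r.x2 r.x3
def Inv.TN (r : Inv) : PExp := TNc r.s r.x1 r.x2 r.x3

def D1 (x e : PExp) : PExp := PExp.sub (mul (k 3) (pow x 2)) e
def D2 (x p : PExp) : PExp := PExp.sub (mul (k 3) (pow x 4)) p

def D11 (u v : Inv) : PExp := add (mul (D1 u.x1 u.e2) (D1 v.x1 v.e2))
  (add (mul (D1 u.x2 u.e2) (D1 v.x2 v.e2)) (mul (D1 u.x3 u.e2) (D1 v.x3 v.e2)))
def D12 (u v : Inv) : PExp := add (mul (D1 u.x1 u.e2) (D2 v.x1 v.p4))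
  (add (mul (D1 u.x2 u.e2) (D2 v.x2 v.p4)) (mul (D1 u.x3 u.e2) (D2 v.x3 v.p4)))
def D22 (u v : Inv) : PExp := add (mul (D2 u.x1 u.p4) (D2 v.x1 v.p4))
  (add (mul (D2 u.x2 u.p4) (D2 v.x2 v.p4)) (mul (D2 u.x3 u.p4) (D2 v.x3 v.p4)))

def al (u v : Inv) : PExp :=
  add (add (add (mul (pow u.s 4)
      (add (add (add (mul (k (-300000000)) (pow v.s 4)) (mul (k (100000000)) (mul v.e2 (pow v.s 2)))) (add (mul (k (7110000)) (mul v.e3 v.s)) (mul (k (-32910000)) (pow v.e2 2)))) (mul (k (2775000)) v.e4))) (mul (mul u.e2 (pow u.s 2))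
      (add (add (add (mul (k (100000000)) (pow v.s 4)) (mul (k (-84060000)) (mul v.e2 (pow v.s 2)))) (add (mul (k (-424740000)) (mul v.e3 v.s)) (mul (k (428325000)) (pow v.e2 2)))) (mul (k (8490000)) v.e4)))) (add (mul (mul u.e3 u.s)
      (add (add (add (mul (k (7110000)) (pow v.s 4)) (mul (k (-424740000)) (mul v.e2 (pow v.s 2)))) (add (mul (k (83310000)) (mul v.e3 v.s)) (mul (k (436845000)) (pow v.e2 2)))) (mul (k (-72360000)) v.e4))) (mul (pow u.e2 2)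
      (add (add (add (mul (k (-32910000)) (pow v.s 4)) (mul (k (428325000)) (mul v.e2 (pow v.s 2)))) (add (mul (k (436845000)) (mul v.e3 v.s)) (mul (k (-684090000)) (pow v.e2 2)))) (mul (k (6750000)) v.e4))))) (mul u.e4
      (add (add (add (mul (k (2775000)) (pow v.s 4)) (mul (k (8490000)) (mul v.e2 (pow v.s 2)))) (add (mul (k (-72360000)) (mul v.e3 v.s)) (mul (k (6750000)) (pow v.e2 2)))) (mul (k (5880000)) v.e4)))
def be (u v : Inv) : PExp :=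
  add (add (add (mul (pow u.s 4)
      (mul (k (32880000)) v.e2)) (mul (mul u.e2 (pow u.s 2))
      (add (mul (k (203685000)) (pow v.s 2)) (mul (k (-341670000)) v.e2)))) (add (mul (mul u.e3 u.s)
      (add (mul (k (371130000)) (pow v.s 2)) (mul (k (-354645000)) v.e2))) (mul (pow u.e2 2)
      (add (mul (k (86985000)) (pow v.s 2)) (mul (k (242910000)) v.e2))))) (mul u.e4
      (add (mul (k (-137130000)) (pow v.s 2)) (mul (k (73995000)) v.e2)))
def ga (u v : Inv) : PExp :=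
  add (mul (pow u.s 2)
      (add (mul (k (-525180000)) (pow v.s 2)) (mul (k (81405000)) v.e2))) (mul u.e2
      (add (mul (k (81405000)) (pow v.s 2)) (mul (k (-41970000)) v.e2)))

def corr (u v : Inv) : PExp := add (add (mul (al u v) (D11 u v)) (mul (be u v) (D12 u v)))
  (add (mul (be v u) (D12 v u)) (mul (ga u v) (D22 u v)))

def GS (u v : Inv) : PExp :=
  PExp.sub
    (mul (k 900000000) (add (mul (add (pow u.s 6) (mul u.e2 (pow u.s 4))) (pow v.s 6))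
      (mul (pow u.s 6) (mul v.e2 (pow v.s 4)))))
    (add (mul (k 3) (add (mul u.TN v.RN) (mul u.RN v.TN)))
      (mul (k 90000) (add (mul (mul (pow u.e2 2) (pow u.s 2)) (mul v.e2 (pow v.s 4)))
        (mul (mul u.e2 (pow u.s 4)) (mul (pow v.e2 2) (pow v.s 2))))))

def dot (a b c d a' b' c' d' : PExp) : PExp :=
  add (add (mul a a') (mul b b')) (add (mul c c') (mul d d'))
def dot2 (a b c d a' b' c' d' : PExp) : PExp :=
  add (add (mul (pow a 2) (pow a' 2)) (mul (pow b 2) (pow b' 2)))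
    (add (mul (pow c 2) (pow c' 2)) (mul (pow d 2) (pow d' 2)))

def NN (z0 z1 z2 z3 q0 q1 q2 q3 : PExp) : PExp :=
  add (mul (mul z2 z3) (add (mul q0 z1) (mul q1 z0))) (mul (mul z0 z1) (add (mul q2 z3) (mul q3 z2)))

def FP' (u v : Inv) (z0 z1 z2 z3 q0 q1 q2 q3 : PExp) : PExp :=
  PExp.sub (mul (mul (mul (mul (add (GS u v) (corr u v)) z0) z1) z2) z3)
    (mul (mul (k 3600000000) (pow v.s 5)) (mul (pow u.s 5) (NN z0 z1 z2 z3 q0 q1 q2 q3)))

def FP (a b c d a' b' c' d' : PExp) : PExp :=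
  FP' (inv a b c d) (inv a' b' c' d')
    (dot a b c d a' b' c' d') (dot a b c d b' a' d' c') (dot a b c d c' d' a' b')
    (dot a b c d d' c' b' a')
    (dot2 a b c d a' b' c' d') (dot2 a b c d b' a' d' c') (dot2 a b c d c' d' a' b')
    (dot2 a b c d d' c' b' a')

end E

/-- `polyP` in eight variables -/
def FPg : PExp := E.FP (v 0) (v 1) (v 2) (v 3) (v 4) (v 5) (v 6) (v 7)

/-- values of the characters -/
structure EvInv (x : ℕ → ℝ) (u : E.Inv) (t : Fin 4 → ℝ) : Prop where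
  s : ev x u.s = c0 t
  x1 : ev x u.x1 = c1 t
  x2 : ev x u.x2 = c2 t
  x3 : ev x u.x3 = c3 t

section
variable {x : ℕ → ℝ} {u w : E.Inv} {t s : Fin 4 → ℝ}

theorem EvInv.e2 (h : EvInv x u t) : ev x u.e2 = e2 t := by
  simp only [E.Inv.e2, E.e2', ev, h.x1, h.x2, h.x3, Q4.e2]
theorem EvInv.e3 (h : EvInv x u t) : ev x u.e3 = e3 t := by
  simp only [E.Inv.e3, E.e3', ev, h.x1, h.x2, h.x3, Q4.e3, Int.cast_ofNat]
theorem EvInv.p4 (h : EvInv x u t) : ev x u.p4 = p4 t := by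
  simp only [E.Inv.p4, E.p4', ev, h.x1, h.x2, h.x3, Q4.p4]
theorem EvInv.e4 (h : EvInv x u t) : ev x u.e4 = e4 t := by
  simp only [E.Inv.e4, E.e4', E.p4', E.e2', ev, h.x1, h.x2, h.x3, Q4.e4, Q4.e2, Q4.p4,
    Int.cast_ofNat]
theorem EvInv.RN (h : EvInv x u t) : ev x u.RN = RN t := by
  simp only [E.Inv.RN, E.RNc, E.RN', E.e2', E.e3', E.e4', E.p4', ev, h.s, h.x1, h.x2, h.x3, Q4.RN,
    Q4.e2, Q4.e3, Q4.e4, Q4.p4, Int.cast_ofNat]
  ring
theorem EvInv.TN (h : EvInv x u t) : ev x u.TN = TN t := by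
  simp only [E.Inv.TN, E.TNc, E.TN', E.e2', E.e3', E.e4', E.p4', ev, h.s, h.x1, h.x2, h.x3, Q4.TN,
    Q4.e2, Q4.e3, Q4.e4, Q4.p4, Int.cast_ofNat]
  ring

theorem ev_D1 {a b : PExp} : ev x (E.D1 a b) = D1 (ev x a) (ev x b) := by
  simp only [E.D1, ev, D1, Int.cast_ofNat]
theorem ev_D2 {a b : PExp} : ev x (E.D2 a b) = D2 (ev x a) (ev x b) := by
  simp only [E.D2, ev, D2, Int.cast_ofNat]
theorem ev_D11 (h : EvInv x u t) (h' : EvInv x w s) : ev x (E.D11 u w) = D11 t s := by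
  simp only [E.D11, ev, ev_D1, h.x1, h.x2, h.x3, h'.x1, h'.x2, h'.x3, h.e2, h'.e2, D11]; ring
theorem ev_D12 (h : EvInv x u t) (h' : EvInv x w s) : ev x (E.D12 u w) = D12 t s := by
  simp only [E.D12, ev, ev_D1, ev_D2, h.x1, h.x2, h.x3, h'.x1, h'.x2, h'.x3, h.e2, h'.p4, D12]; ring
theorem ev_D22 (h : EvInv x u t) (h' : EvInv x w s) : ev x (E.D22 u w) = D22 t s := by
  simp only [E.D22, ev, ev_D2, h.x1, h.x2, h.x3, h'.x1, h'.x2, h'.x3, h.p4, h'.p4, D22]; ring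
theorem ev_al (h : EvInv x u t) (h' : EvInv x w s) : ev x (E.al u w) = al t s := by
  simp only [E.al, ev, h.s, h.e2, h.e3, h.e4, h'.s, h'.e2, h'.e3, h'.e4, al]; push_cast; ring
theorem ev_be (h : EvInv x u t) (h' : EvInv x w s) : ev x (E.be u w) = be t s := by
  simp only [E.be, ev, h.s, h.e2, h.e3, h.e4, h'.s, h'.e2, be]; push_cast; ring
theorem ev_ga (h : EvInv x u t) (h' : EvInv x w s) : ev x (E.ga u w) = ga t s := by
  simp only [E.ga, ev, h.s, h.e2, h'.s, h'.e2, ga]; push_cast; ring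
theorem ev_corr (h : EvInv x u t) (h' : EvInv x w s) : ev x (E.corr u w) = corr t s := by
  simp only [E.corr, ev, ev_al h h', ev_be h h', ev_be h' h, ev_ga h h', ev_D11 h h', ev_D12 h h',
    ev_D12 h' h, ev_D22 h h', corr]
  ring
theorem ev_GS (h : EvInv x u t) (h' : EvInv x w s) : ev x (E.GS u w) = GS t s := by
  simp only [E.GS, ev, h.s, h.e2, h.RN, h.TN, h'.s, h'.e2, h'.RN, h'.TN, GS]; push_cast; ring

end

theorem ev_FPg (t s : Fin 4 → ℝ) : ev (env8 t s) FPg =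
    z0 t s * z1 t s * z2 t s * z3 t s * (GS t s + corr t s) -
      3600000000 * (c0 t * c0 s) ^ 5 * NN t s := by
  have a0 : env8 t s 0 = t 0 := rfl
  have a1 : env8 t s 1 = t 1 := rfl
  have a2 : env8 t s 2 = t 2 := rfl
  have a3 : env8 t s 3 = t 3 := rfl
  have a4 : env8 t s 4 = s 0 := rfl
  have a5 : env8 t s 5 = s 1 := rfl
  have a6 : env8 t s 6 = s 2 := rfl
  have a7 : env8 t s 7 = s 3 := rfl
  have h : EvInv (env8 t s) (E.inv (v 0) (v 1) (v 2) (v 3)) t := by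
    refine ⟨?_, ?_, ?_, ?_⟩
    · simp only [E.inv, E.c0, ev, a0, a1, a2, a3, c0]; ring
    · simp only [E.inv, E.c1, ev, a0, a1, a2, a3, c1]; ring
    · simp only [E.inv, E.c2, ev, a0, a1, a2, a3, c2]; ring
    · simp only [E.inv, E.c3, ev, a0, a1, a2, a3, c3]; ring
  have h' : EvInv (env8 t s) (E.inv (v 4) (v 5) (v 6) (v 7)) s := by
    refine ⟨?_, ?_, ?_, ?_⟩
    · simp only [E.inv, E.c0, ev, a4, a5, a6, a7, c0]; ring
    · simp only [E.inv, E.c1, ev, a4, a5, a6, a7, c1]; ring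
    · simp only [E.inv, E.c2, ev, a4, a5, a6, a7, c2]; ring
    · simp only [E.inv, E.c3, ev, a4, a5, a6, a7, c3]; ring
  simp only [FPg, E.FP, E.FP', E.NN, E.dot, E.dot2, ev, ev_GS h h', ev_corr h h', h.s, h'.s, a0, a1,
    a2, a3, a4, a5, a6, a7]
  unfold NN z0 z1 z2 z3 q0 q1 q2 q3
  push_cast
  ring

theorem hwP : WInj ⟨1, 56, 66⟩ 10 := winj_spec _ _ rfl (by decide +kernel)
theorem homP : bok FPg = true := by decide +kernel

/-- the row test of one permutation -/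
theorem P_of_rows (p : Fin 4 → Fin 4) (h1 : pre 112 661 10 ⟨1, 56, 66⟩ (sbst (sgm c00 c00 p) FPg) = true)
    (h2 : rows 112 661 ⟨1, 56, 66⟩ (sbst (sgm c00 c00 p) FPg) = true) (y z : Fin 4 → ℝ)
    (hy0 : 0 < y 0) (hz0 : 0 < z 0) (hy : ∀ i, 0 ≤ y i) (hz : ∀ i, 0 ≤ z i) :
    0 ≤ ev (env8 (lin c00 y) (fun i => lin c00 z (p i))) FPg := by
  have h0 := ev_nonneg3 112 661 10 ⟨1, 56, 66⟩ _ hwP h1 h2 (xr y z) (by
      intro i
      unfold xr
      split_ifs <;> first | exact div_nonneg (hy _) hy0.le | exact div_nonneg (hz _) hz0.le | exact le_rfl)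
  rw [ev_sbst, ev_sgm c00 c00 p y z hy0 hz0, ev_scale _ _ _ _ homP] at h0
  have hpos : 0 < (y 0)⁻¹ ^ bdA FPg * (z 0)⁻¹ ^ bdB FPg := by positivity
  exact nonneg_of_mul_nonneg_right h0 hpos

/-- the six relative orders -/
def L6 : List (Fin 4 → Fin 4) :=
  [![0, 1, 2, 3], ![0, 1, 3, 2], ![0, 2, 1, 3], ![0, 2, 3, 1], ![0, 3, 1, 2], ![0, 3, 2, 1]]

theorem P_all (p : Fin 4 → Fin 4) (hp : p ∈ L6) (y z : Fin 4 → ℝ)
    (hy0 : 0 < y 0) (hz0 : 0 < z 0) (hy : ∀ i, 0 ≤ y i) (hz : ∀ i, 0 ≤ z i) :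
    0 ≤ ev (env8 (lin c00 y) (fun i => lin c00 z (p i))) FPg := by
  have a0 : pre 112 661 10 ⟨1, 56, 66⟩ (sbst (sgm c00 c00 ![0, 1, 2, 3]) FPg) = true := by
    decide +kernel
  have b0 : rows 112 661 ⟨1, 56, 66⟩ (sbst (sgm c00 c00 ![0, 1, 2, 3]) FPg) = true := by
    decide +kernel
  have a1 : pre 112 661 10 ⟨1, 56, 66⟩ (sbst (sgm c00 c00 ![0, 1, 3, 2]) FPg) = true := by
    decide +kernel
  have b1 : rows 112 661 ⟨1, 56, 66⟩ (sbst (sgm c00 c00 ![0, 1, 3, 2]) FPg) = true := by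
    decide +kernel
  have a2 : pre 112 661 10 ⟨1, 56, 66⟩ (sbst (sgm c00 c00 ![0, 2, 1, 3]) FPg) = true := by
    decide +kernel
  have b2 : rows 112 661 ⟨1, 56, 66⟩ (sbst (sgm c00 c00 ![0, 2, 1, 3]) FPg) = true := by
    decide +kernel
  have a3 : pre 112 661 10 ⟨1, 56, 66⟩ (sbst (sgm c00 c00 ![0, 2, 3, 1]) FPg) = true := by
    decide +kernel
  have b3 : rows 112 661 ⟨1, 56, 66⟩ (sbst (sgm c00 c00 ![0, 2, 3, 1]) FPg) = true := by
    decide +kernel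
  have a4 : pre 112 661 10 ⟨1, 56, 66⟩ (sbst (sgm c00 c00 ![0, 3, 1, 2]) FPg) = true := by
    decide +kernel
  have b4 : rows 112 661 ⟨1, 56, 66⟩ (sbst (sgm c00 c00 ![0, 3, 1, 2]) FPg) = true := by
    decide +kernel
  have a5 : pre 112 661 10 ⟨1, 56, 66⟩ (sbst (sgm c00 c00 ![0, 3, 2, 1]) FPg) = true := by
    decide +kernel
  have b5 : rows 112 661 ⟨1, 56, 66⟩ (sbst (sgm c00 c00 ![0, 3, 2, 1]) FPg) = true := by
    decide +kernel
  simp only [L6, List.mem_cons, List.not_mem_nil, or_false] at hp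
  rcases hp with rfl | rfl | rfl | rfl | rfl | rfl
  · exact P_of_rows _ a0 b0 y z hy0 hz0 hy hz
  · exact P_of_rows _ a1 b1 y z hy0 hz0 hy hz
  · exact P_of_rows _ a2 b2 y z hy0 hz0 hy hz
  · exact P_of_rows _ a3 b3 y z hy0 hz0 hy hz
  · exact P_of_rows _ a4 b4 y z hy0 hz0 hy hz
  · exact P_of_rows _ a5 b5 y z hy0 hz0 hy hz

theorem perm_cases6 : ∀ π : Equiv.Perm (Fin 4), π 0 = 0 → (fun i => π i) ∈ L6 := by decide +kernel

theorem RN_sym (w : Fin 4 → ℝ) (σ : Equiv.Perm (Fin 4)) : RN (fun i => w (σ i)) = RN w := by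
  unfold RN; rw [sym_c0 σ w, sym_e2 σ w, sym_e3 σ w, sym_e4 σ w]
theorem TN_sym (w : Fin 4 → ℝ) (σ : Equiv.Perm (Fin 4)) : TN (fun i => w (σ i)) = TN w := by
  unfold TN; rw [sym_c0 σ w, sym_e2 σ w, sym_e3 σ w, sym_e4 σ w]
theorem GS_sym (u w : Fin 4 → ℝ) (σ : Equiv.Perm (Fin 4)) : GS u (fun i => w (σ i)) = GS u w := by
  unfold GS; rw [sym_c0 σ w, sym_e2 σ w, RN_sym, TN_sym]

theorem polyP (u v : Fin 4 → ℝ) (hu : Srt u) (hv : Srt v) (π : Equiv.Perm (Fin 4)) (hπ : π 0 = 0) :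
    3600000000 * (c0 u * c0 v) ^ 5 * NN u (fun i => v (π i)) ≤
      z0 u (fun i => v (π i)) * z1 u (fun i => v (π i)) * z2 u (fun i => v (π i)) *
        z3 u (fun i => v (π i)) * (GS u v + corr u (fun i => v (π i))) := by
  have h := P_all (fun i => π i) (perm_cases6 π hπ) (dt u) (dt v) hu.1 hv.1 (dt_nonneg hu)
    (dt_nonneg hv)
  have e1 : lin c00 (dt u) = u := lin_c00 u
  have e2 : lin c00 (dt v) = v := lin_c00 v
  rw [e1, e2, ev_FPg, GS_sym, sym_c0 π v] at h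
  linarith

end Vale.Agent.P154.Q4
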