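import Vale.Agent.P154.Q4Fun

/-!
# P154: the pair inequality for `H` (four colours), strictly positive arguments
-/

namespace Vale.Agent.P154.Q4

open Equiv Finset

theorem HN_eq (x : Fin 4 → ℝ) :
    HN x = 4 * TT x + 4204 * (S0 x * s11 x) - 11625 * S0 x ^ 2 := by
  unfold HN TT; ring

theorem S0_pos {t : Fin 4 → ℝ} (h : ∀ i, 0 < t i) : 0 < S0 t := by
  have h0 := h 0; have h1 := h 1; have h2 := h 2; have h3 := h 3
  unfold S0; positivity

theorem sum_perm_s11 (t s : Fin 4 → ℝ) :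
    ∑ π : Perm (Fin 4), s11 (fun i => t i * s (π i)) = 4 * (s11 t * s11 s) := by
  have e : ∀ π : Perm (Fin 4), s11 (fun i => t i * s (π i)) =
      t 0 * t 1 * (s (π 0) * s (π 1)) + t 0 * t 2 * (s (π 0) * s (π 2)) +
      t 0 * t 3 * (s (π 0) * s (π 3)) + t 1 * t 2 * (s (π 1) * s (π 2)) +
      t 1 * t 3 * (s (π 1) * s (π 3)) + t 2 * t 3 * (s (π 2) * s (π 3)) := fun π => by
    simp only [s11]; ring
  simp_rw [e]
  simp only [Finset.sum_add_distrib, ← Finset.mul_sum]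
  rw [sum_perm_two s 0 1 (by decide), sum_perm_two s 0 2 (by decide),
    sum_perm_two s 0 3 (by decide), sum_perm_two s 1 2 (by decide),
    sum_perm_two s 1 3 (by decide), sum_perm_two s 2 3 (by decide)]
  unfold s11; ring

theorem sum_perm_S0 (t s : Fin 4 → ℝ) :
    ∑ π : Perm (Fin 4), S0 (fun i => t i * s (π i)) = 6 * (S0 t * S0 s) := by
  have e : ∀ π : Perm (Fin 4), S0 (fun i => t i * s (π i)) =
      t 0 ^ 2 * (fun i => s i ^ 2) (π 0) + t 1 ^ 2 * (fun i => s i ^ 2) (π 1) +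
      t 2 ^ 2 * (fun i => s i ^ 2) (π 2) + t 3 ^ 2 * (fun i => s i ^ 2) (π 3) := fun π => by
    simp only [S0]; ring
  simp_rw [e]
  simp only [Finset.sum_add_distrib, ← Finset.mul_sum]
  rw [sum_perm_one (fun i => s i ^ 2) 0, sum_perm_one (fun i => s i ^ 2) 1,
    sum_perm_one (fun i => s i ^ 2) 2, sum_perm_one (fun i => s i ^ 2) 3]
  unfold S0; ring

theorem sq_mul_perm {u v : Fin 4 → ℝ} (hu : ∀ i, 0 ≤ u i) (π : Perm (Fin 4)) :
    sq (fun i => u i * v (π i)) = fun i => sq u i * sq v (π i) := by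
  funext i
  simp only [sq]
  rw [Real.sqrt_mul (hu i)]

theorem nonneg_of_srt_sq {u : Fin 4 → ℝ} (h : Srt (sq u)) (i : Fin 4) : 0 ≤ u i := by
  have := h.pos i
  exact (Real.sqrt_pos.mp this).le

theorem H_lower (Fc : Facts) {t s : Fin 4 → ℝ} (ht : Srt t) (hs : Srt s) (π : Perm (Fin 4)) :
    (4 / 5 * (Fc.KK t (fun i => s (π i)) / (S0 t * S0 s) ^ 2) +
      4204 * s11 (fun i => t i * s (π i)) - 11625 * S0 (fun i => t i * s (π i))) / 6000 ≤
      HN (fun i => t i * s (π i)) / (6000 * S0 (fun i => t i * s (π i))) := by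
  have hI := Fc.polyI t s ht hs π
  have hx : ∀ i, 0 < (fun i => t i * s (π i)) i := fun i => mul_pos (ht.pos i) (hs.pos _)
  have hY : 0 < S0 (fun i => t i * s (π i)) := S0_pos hx
  have hD : 0 < (S0 t * S0 s) ^ 2 := pow_pos (mul_pos (S0_pos ht.pos) (S0_pos hs.pos)) 2
  have hYe : t 0 ^ 2 * s (π 0) ^ 2 + t 1 ^ 2 * s (π 1) ^ 2 + t 2 ^ 2 * s (π 2) ^ 2 +
      t 3 ^ 2 * s (π 3) ^ 2 = S0 (fun i => t i * s (π i)) := by simp only [S0]; ring
  rw [hYe] at hI
  rw [HN_eq]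
  set x : Fin 4 → ℝ := fun i => t i * s (π i) with hxd
  set K := Fc.KK t (fun i => s (π i)) with hK
  set D := (S0 t * S0 s) ^ 2 with hDd
  have h1 : K / D * S0 x ≤ 5 * TT x := by
    rw [div_mul_eq_mul_div, div_le_iff₀ hD]
    linarith
  rw [div_le_div_iff₀ (by norm_num) (by positivity)]
  nlinarith [h1]

theorem pairH_core (Fc : Facts) {u v : Fin 4 → ℝ} (hu : Srt (sq u)) (hv : Srt (sq v)) :
    24 * (A v * H u + A u * H v) ≤ ∑ π : Perm (Fin 4), H (fun i => u i * v (π i)) := by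
  have hII := Fc.polyII (sq u) (sq v) hu hv
  have h1 : ∀ π : Perm (Fin 4), (4 / 5 * (Fc.KK (sq u) (fun i => sq v (π i)) /
      (S0 (sq u) * S0 (sq v)) ^ 2) + 4204 * s11 (fun i => sq u i * sq v (π i)) -
      11625 * S0 (fun i => sq u i * sq v (π i))) / 6000 ≤ H (fun i => u i * v (π i)) := by
    intro π
    have := H_lower Fc hu hv π
    unfold H
    rw [sq_mul_perm (nonneg_of_srt_sq hu) π]
    exact this
  refine le_trans ?_ (Finset.sum_le_sum fun π _ => h1 π)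
  have hS : 0 < S0 (sq u) := S0_pos hu.pos
  have hS' : 0 < S0 (sq v) := S0_pos hv.pos
  rw [← Finset.sum_div, Finset.sum_sub_distrib, Finset.sum_add_distrib, ← Finset.mul_sum,
    ← Finset.mul_sum, ← Finset.mul_sum, ← Finset.sum_div, sum_perm_s11, sum_perm_S0]
  unfold A H
  set KS := ∑ π : Perm (Fin 4), Fc.KK (sq u) (fun i => sq v (π i)) with hKS
  set a := S0 (sq u) with ha
  set b := S0 (sq v) with hb
  have e : 24 * (AN (sq v) / (60000 * b ^ 2) * (HN (sq u) / (6000 * a)) +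
      AN (sq u) / (60000 * a ^ 2) * (HN (sq v) / (6000 * b))) =
      24 / 360000000 * ((HN (sq u) * a * AN (sq v) + HN (sq v) * b * AN (sq u)) / (a * b) ^ 2) := by
    field_simp
    ring
  rw [e]
  have h2 : (HN (sq u) * a * AN (sq v) + HN (sq v) * b * AN (sq u)) / (a * b) ^ 2 ≤
      2000 * (KS / (a * b) ^ 2) + 2500 * (16816 * (s11 (sq u) * s11 (sq v)) - 69750 * (a * b)) := by
    rw [div_le_iff₀ (by positivity)]
    have : (2000 * (KS / (a * b) ^ 2) + 2500 * (16816 * (s11 (sq u) * s11 (sq v)) -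
        69750 * (a * b))) * (a * b) ^ 2 = 2000 * KS + 2500 * (16816 * (s11 (sq u) * s11 (sq v)) -
        69750 * (a * b)) * (a * b) ^ 2 := by
      field_simp
    rw [this]
    exact hII
  linarith

theorem pairH_pos (Fc : Facts) {u v : Fin 4 → ℝ} (hu : ∀ i, 0 < u i) (hv : ∀ i, 0 < v i) :
    24 * (A v * H u + A u * H v) ≤ ∑ π : Perm (Fin 4), H (fun i => u i * v (π i)) := by
  set σ := Tuple.sort (sq u) with hσ
  set τ := Tuple.sort (sq v) with hτ
  have h1 : Srt (sq (fun i => u (σ i))) := srt_of_pos fun i => Real.sqrt_pos.mpr (hu i)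
  have h2 : Srt (sq (fun i => v (τ i))) := srt_of_pos fun i => Real.sqrt_pos.mpr (hv i)
  have h := pairH_core Fc h1 h2
  rw [sum_perm_sort sym_H u v σ τ]
  rw [sym_A τ v, sym_H σ u, sym_A σ u, sym_H τ v] at h
  exact h

end Vale.Agent.P154.Q4
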