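import Vale.Agent.P154.Q4Cont

/-!
# P154: the pair inequality for `W` (four colours)
-/

namespace Vale.Agent.P154.Q4

open Equiv Finset Filter Topology

/-! ### the Klein four group -/

def g1 : Perm (Fin 4) := swap 0 1 * swap 2 3
def g2 : Perm (Fin 4) := swap 0 2 * swap 1 3
def g3 : Perm (Fin 4) := swap 0 3 * swap 1 2

theorem comp_g1 (w : Fin 4 → ℝ) : (fun i => w (g1 i)) = ![w 1, w 0, w 3, w 2] := by
  funext i; fin_cases i <;> rfl
theorem comp_g2 (w : Fin 4 → ℝ) : (fun i => w (g2 i)) = ![w 2, w 3, w 0, w 1] := by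
  funext i; fin_cases i <;> rfl
theorem comp_g3 (w : Fin 4 → ℝ) : (fun i => w (g3 i)) = ![w 3, w 2, w 1, w 0] := by
  funext i; fin_cases i <;> rfl

theorem exists_g (π : Perm (Fin 4)) : π 0 = 0 ∨ (π * g1) 0 = 0 ∨ (π * g2) 0 = 0 ∨ (π * g3) 0 = 0 := by
  revert π; decide

/-- the polynomial inequality for one coset -/
def PW (u v w : Fin 4 → ℝ) : Prop :=
  3600000000 * (c0 u * c0 v) ^ 5 * NN u w ≤
      z0 u w * z1 u w * z2 u w * z3 u w * (GS u v + corr u w)

theorem c1_g1 (w : Fin 4 → ℝ) : c1 (fun i => w (g1 i)) = c1 w := by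
  rw [comp_g1]; simp only [c1, Matrix.cons_val]; ring
theorem c2_g1 (w : Fin 4 → ℝ) : c2 (fun i => w (g1 i)) = -c2 w := by
  rw [comp_g1]; simp only [c2, Matrix.cons_val]; ring
theorem c3_g1 (w : Fin 4 → ℝ) : c3 (fun i => w (g1 i)) = -c3 w := by
  rw [comp_g1]; simp only [c3, Matrix.cons_val]; ring
theorem c1_g2 (w : Fin 4 → ℝ) : c1 (fun i => w (g2 i)) = -c1 w := by
  rw [comp_g2]; simp only [c1, Matrix.cons_val]; ring
theorem c2_g2 (w : Fin 4 → ℝ) : c2 (fun i => w (g2 i)) = c2 w := by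
  rw [comp_g2]; simp only [c2, Matrix.cons_val]; ring
theorem c3_g2 (w : Fin 4 → ℝ) : c3 (fun i => w (g2 i)) = -c3 w := by
  rw [comp_g2]; simp only [c3, Matrix.cons_val]; ring
theorem c1_g3 (w : Fin 4 → ℝ) : c1 (fun i => w (g3 i)) = -c1 w := by
  rw [comp_g3]; simp only [c1, Matrix.cons_val]; ring
theorem c2_g3 (w : Fin 4 → ℝ) : c2 (fun i => w (g3 i)) = -c2 w := by
  rw [comp_g3]; simp only [c2, Matrix.cons_val]; ring
theorem c3_g3 (w : Fin 4 → ℝ) : c3 (fun i => w (g3 i)) = c3 w := by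
  rw [comp_g3]; simp only [c3, Matrix.cons_val]; ring

theorem al_sym (u w : Fin 4 → ℝ) (σ : Perm (Fin 4)) : al u (fun i => w (σ i)) = al u w := by
  unfold al; rw [sym_c0 σ w, sym_e2 σ w, sym_e3 σ w, sym_e4 σ w]
theorem be_sym (u w : Fin 4 → ℝ) (σ : Perm (Fin 4)) : be u (fun i => w (σ i)) = be u w := by
  unfold be; rw [sym_c0 σ w, sym_e2 σ w]
theorem be_sym' (u w : Fin 4 → ℝ) (σ : Perm (Fin 4)) : be (fun i => w (σ i)) u = be w u := by
  unfold be; rw [sym_c0 σ w, sym_e2 σ w, sym_e3 σ w, sym_e4 σ w]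
theorem ga_sym (u w : Fin 4 → ℝ) (σ : Perm (Fin 4)) : ga u (fun i => w (σ i)) = ga u w := by
  unfold ga; rw [sym_c0 σ w, sym_e2 σ w]

theorem D1_neg (x e : ℝ) : D1 (-x) e = D1 x e := by unfold D1; ring
theorem D2_neg (x e : ℝ) : D2 (-x) e = D2 x e := by unfold D2; ring

theorem corr_g1 (u w : Fin 4 → ℝ) : corr u (fun i => w (g1 i)) = corr u w := by
  unfold corr
  rw [al_sym, be_sym, be_sym', ga_sym]
  unfold D11 D12 D22
  rw [c1_g1, c2_g1, c3_g1, sym_e2 g1 w, sym_p4 g1 w]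
  simp only [D1_neg, D2_neg]
theorem corr_g2 (u w : Fin 4 → ℝ) : corr u (fun i => w (g2 i)) = corr u w := by
  unfold corr
  rw [al_sym, be_sym, be_sym', ga_sym]
  unfold D11 D12 D22
  rw [c1_g2, c2_g2, c3_g2, sym_e2 g2 w, sym_p4 g2 w]
  simp only [D1_neg, D2_neg]
theorem corr_g3 (u w : Fin 4 → ℝ) : corr u (fun i => w (g3 i)) = corr u w := by
  unfold corr
  rw [al_sym, be_sym, be_sym', ga_sym]
  unfold D11 D12 D22
  rw [c1_g3, c2_g3, c3_g3, sym_e2 g3 w, sym_p4 g3 w]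
  simp only [D1_neg, D2_neg]

section zq
variable (u w : Fin 4 → ℝ)

theorem z0_g1 : z0 u (fun i => w (g1 i)) = z1 u w := by
  rw [comp_g1]; simp only [z0, z1, Matrix.cons_val]
theorem z1_g1 : z1 u (fun i => w (g1 i)) = z0 u w := by
  rw [comp_g1]; simp only [z0, z1, Matrix.cons_val]
theorem z2_g1 : z2 u (fun i => w (g1 i)) = z3 u w := by
  rw [comp_g1]; simp only [z2, z3, Matrix.cons_val]
theorem z3_g1 : z3 u (fun i => w (g1 i)) = z2 u w := by
  rw [comp_g1]; simp only [z2, z3, Matrix.cons_val]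
theorem q0_g1 : q0 u (fun i => w (g1 i)) = q1 u w := by
  rw [comp_g1]; simp only [q0, q1, Matrix.cons_val]
theorem q1_g1 : q1 u (fun i => w (g1 i)) = q0 u w := by
  rw [comp_g1]; simp only [q0, q1, Matrix.cons_val]
theorem q2_g1 : q2 u (fun i => w (g1 i)) = q3 u w := by
  rw [comp_g1]; simp only [q2, q3, Matrix.cons_val]
theorem q3_g1 : q3 u (fun i => w (g1 i)) = q2 u w := by
  rw [comp_g1]; simp only [q2, q3, Matrix.cons_val]

theorem z0_g2 : z0 u (fun i => w (g2 i)) = z2 u w := by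
  rw [comp_g2]; simp only [z0, z2, Matrix.cons_val]
theorem z1_g2 : z1 u (fun i => w (g2 i)) = z3 u w := by
  rw [comp_g2]; simp only [z1, z3, Matrix.cons_val]
theorem z2_g2 : z2 u (fun i => w (g2 i)) = z0 u w := by
  rw [comp_g2]; simp only [z0, z2, Matrix.cons_val]
theorem z3_g2 : z3 u (fun i => w (g2 i)) = z1 u w := by
  rw [comp_g2]; simp only [z1, z3, Matrix.cons_val]
theorem q0_g2 : q0 u (fun i => w (g2 i)) = q2 u w := by
  rw [comp_g2]; simp only [q0, q2, Matrix.cons_val]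
theorem q1_g2 : q1 u (fun i => w (g2 i)) = q3 u w := by
  rw [comp_g2]; simp only [q1, q3, Matrix.cons_val]
theorem q2_g2 : q2 u (fun i => w (g2 i)) = q0 u w := by
  rw [comp_g2]; simp only [q0, q2, Matrix.cons_val]
theorem q3_g2 : q3 u (fun i => w (g2 i)) = q1 u w := by
  rw [comp_g2]; simp only [q1, q3, Matrix.cons_val]

theorem z0_g3 : z0 u (fun i => w (g3 i)) = z3 u w := by
  rw [comp_g3]; simp only [z0, z3, Matrix.cons_val]
theorem z1_g3 : z1 u (fun i => w (g3 i)) = z2 u w := by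
  rw [comp_g3]; simp only [z1, z2, Matrix.cons_val]
theorem z2_g3 : z2 u (fun i => w (g3 i)) = z1 u w := by
  rw [comp_g3]; simp only [z1, z2, Matrix.cons_val]
theorem z3_g3 : z3 u (fun i => w (g3 i)) = z0 u w := by
  rw [comp_g3]; simp only [z0, z3, Matrix.cons_val]
theorem q0_g3 : q0 u (fun i => w (g3 i)) = q3 u w := by
  rw [comp_g3]; simp only [q0, q3, Matrix.cons_val]
theorem q1_g3 : q1 u (fun i => w (g3 i)) = q2 u w := by
  rw [comp_g3]; simp only [q1, q2, Matrix.cons_val]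
theorem q2_g3 : q2 u (fun i => w (g3 i)) = q1 u w := by
  rw [comp_g3]; simp only [q1, q2, Matrix.cons_val]
theorem q3_g3 : q3 u (fun i => w (g3 i)) = q0 u w := by
  rw [comp_g3]; simp only [q0, q3, Matrix.cons_val]

theorem PW_g1 (v : Fin 4 → ℝ) (h : PW u v (fun i => w (g1 i))) : PW u v w := by
  unfold PW NN at h ⊢
  rw [z0_g1, z1_g1, z2_g1, z3_g1, q0_g1, q1_g1, q2_g1, q3_g1, corr_g1] at h
  linarith
theorem PW_g2 (v : Fin 4 → ℝ) (h : PW u v (fun i => w (g2 i))) : PW u v w := by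
  unfold PW NN at h ⊢
  rw [z0_g2, z1_g2, z2_g2, z3_g2, q0_g2, q1_g2, q2_g2, q3_g2, corr_g2] at h
  linarith
theorem PW_g3 (v : Fin 4 → ℝ) (h : PW u v (fun i => w (g3 i))) : PW u v w := by
  unfold PW NN at h ⊢
  rw [z0_g3, z1_g3, z2_g3, z3_g3, q0_g3, q1_g3, q2_g3, q3_g3, corr_g3] at h
  linarith

end zq

theorem PW_all (Fc : Facts) {u v : Fin 4 → ℝ} (hu : Srt u) (hv : Srt v) (π : Perm (Fin 4)) :
    PW u v (fun i => v (π i)) := by
  rcases exists_g π with h | h | h | h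
  · exact Fc.polyP u v hu hv π h
  · exact PW_g1 u _ v (Fc.polyP u v hu hv (π * g1) h)
  · exact PW_g2 u _ v (Fc.polyP u v hu hv (π * g2) h)
  · exact PW_g3 u _ v (Fc.polyP u v hu hv (π * g3) h)

/-! ### `W` of a product -/

theorem W_four (x : Fin 4 → ℝ) : W x = (x 0 ^ 2 + x 1 ^ 2 + x 2 ^ 2 + x 3 ^ 2) /
    (x 0 + x 1 + x 2 + x 3) - (x 0 + x 1 + x 2 + x 3) / 4 := by
  unfold W; rw [Fin.sum_univ_four, Fin.sum_univ_four]; norm_num

theorem Z_four (x : Fin 4 → ℝ) : Z x = c0 x / 4 := by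
  unfold Z c0; rw [Fin.sum_univ_four]; norm_num

theorem W_eq_e2 {u : Fin 4 → ℝ} (h : c0 u ≠ 0) : W u = e2 u / (4 * c0 u) := by
  rw [W_four]
  have h' : u 0 + u 1 + u 2 + u 3 ≠ 0 := h
  unfold e2 c0 c1 c2 c3
  field_simp
  ring

theorem W_z0 (u w : Fin 4 → ℝ) : W (fun i => u i * w i) = q0 u w / z0 u w - z0 u w / 4 := by
  rw [W_four]; simp only [mul_pow]; rfl

/-- the sum over the four group -/
theorem sum_V4 (u w : Fin 4 → ℝ) (hu : ∀ i, 0 < u i) (hw : ∀ i, 0 < w i) :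
    W (fun i => u i * w i) + W (fun i => u i * w (g1 i)) + W (fun i => u i * w (g2 i)) +
      W (fun i => u i * w (g3 i)) =
      NN u w / (z0 u w * z1 u w * z2 u w * z3 u w) - c0 u * c0 w / 4 := by
  have p0 := hu 0; have p1 := hu 1; have p2 := hu 2; have p3 := hu 3
  have r0 := hw 0; have r1 := hw 1; have r2 := hw 2; have r3 := hw 3
  have hz0 : z0 u w ≠ 0 := by unfold z0; positivity
  have hz1 : z1 u w ≠ 0 := by unfold z1; positivity
  have hz2 : z2 u w ≠ 0 := by unfold z2; positivity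
  have hz3 : z3 u w ≠ 0 := by unfold z3; positivity
  have e1 := W_z0 u (fun i => w (g1 i))
  have e2 := W_z0 u (fun i => w (g2 i))
  have e3 := W_z0 u (fun i => w (g3 i))
  rw [z0_g1, q0_g1] at e1
  rw [z0_g2, q0_g2] at e2
  rw [z0_g3, q0_g3] at e3
  rw [W_z0 u w, e1, e2, e3]
  have hc : c0 u * c0 w = z0 u w + z1 u w + z2 u w + z3 u w := by
    unfold c0 z0 z1 z2 z3; ring
  rw [hc]
  unfold NN
  field_simp
  ring

/-! ### the correctors sum to zero -/

theorem comp_s12 (w : Fin 4 → ℝ) : (fun i => w (swap 1 2 i)) = ![w 0, w 2, w 1, w 3] := by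
  funext i; fin_cases i <;> rfl
theorem comp_s23 (w : Fin 4 → ℝ) : (fun i => w (swap 2 3 i)) = ![w 0, w 1, w 3, w 2] := by
  funext i; fin_cases i <;> rfl

theorem c1_s12 (w : Fin 4 → ℝ) : c1 (fun i => w (swap 1 2 i)) = c2 w := by
  rw [comp_s12]; simp only [c1, c2, Matrix.cons_val]; ring
theorem c2_s23 (w : Fin 4 → ℝ) : c2 (fun i => w (swap 2 3 i)) = c3 w := by
  rw [comp_s23]; simp only [c2, c3, Matrix.cons_val]; ring

theorem sum_char (f : ℝ → ℝ) (v : Fin 4 → ℝ)
    (h : ∀ π : Perm (Fin 4), f (c1 (fun i => v (π i))) + f (c2 (fun i => v (π i))) +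
      f (c3 (fun i => v (π i))) = 0) :
    ∑ π : Perm (Fin 4), f (c1 (fun i => v (π i))) = 0 ∧
    ∑ π : Perm (Fin 4), f (c2 (fun i => v (π i))) = 0 ∧
    ∑ π : Perm (Fin 4), f (c3 (fun i => v (π i))) = 0 := by
  have h12 : ∑ π : Perm (Fin 4), f (c1 (fun i => v (π i))) =
      ∑ π : Perm (Fin 4), f (c2 (fun i => v (π i))) := by
    rw [← sum_perm_comp (fun π => f (c1 (fun i => v (π i)))) (swap 1 2)]
    refine Finset.sum_congr rfl fun π _ => ?_
    congr 1
    exact c1_s12 (fun i => v (π i))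
  have h23 : ∑ π : Perm (Fin 4), f (c2 (fun i => v (π i))) =
      ∑ π : Perm (Fin 4), f (c3 (fun i => v (π i))) := by
    rw [← sum_perm_comp (fun π => f (c2 (fun i => v (π i)))) (swap 2 3)]
    refine Finset.sum_congr rfl fun π _ => ?_
    congr 1
    exact c2_s23 (fun i => v (π i))
  have hs : ∑ π : Perm (Fin 4), f (c1 (fun i => v (π i))) +
      ∑ π : Perm (Fin 4), f (c2 (fun i => v (π i))) +
      ∑ π : Perm (Fin 4), f (c3 (fun i => v (π i))) = 0 := by
    rw [← Finset.sum_add_distrib, ← Finset.sum_add_distrib]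
    exact Finset.sum_eq_zero fun π _ => h π
  refine ⟨by linarith, by linarith, by linarith⟩

theorem sum_corr (u v : Fin 4 → ℝ) : ∑ π : Perm (Fin 4), corr u (fun i => v (π i)) = 0 := by
  have h1 := sum_char (fun x => D1 x (e2 v)) v (fun π => by
    have : e2 v = e2 (fun i => v (π i)) := (sym_e2 π v).symm
    rw [this]; unfold D1 e2; ring)
  have h2 := sum_char (fun x => D2 x (p4 v)) v (fun π => by
    have : p4 v = p4 (fun i => v (π i)) := (sym_p4 π v).symm
    rw [this]; unfold D2 p4; ring)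
  obtain ⟨a1, a2, a3⟩ := h1
  obtain ⟨b1, b2, b3⟩ := h2
  have e : ∀ π : Perm (Fin 4), corr u (fun i => v (π i)) =
      (al u v * D1 (c1 u) (e2 u) + be v u * D2 (c1 u) (p4 u)) * D1 (c1 (fun i => v (π i))) (e2 v) +
      (al u v * D1 (c2 u) (e2 u) + be v u * D2 (c2 u) (p4 u)) * D1 (c2 (fun i => v (π i))) (e2 v) +
      (al u v * D1 (c3 u) (e2 u) + be v u * D2 (c3 u) (p4 u)) * D1 (c3 (fun i => v (π i))) (e2 v) +
      (be u v * D1 (c1 u) (e2 u) + ga u v * D2 (c1 u) (p4 u)) * D2 (c1 (fun i => v (π i))) (p4 v) +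
      (be u v * D1 (c2 u) (e2 u) + ga u v * D2 (c2 u) (p4 u)) * D2 (c2 (fun i => v (π i))) (p4 v) +
      (be u v * D1 (c3 u) (e2 u) + ga u v * D2 (c3 u) (p4 u)) * D2 (c3 (fun i => v (π i))) (p4 v) := by
    intro π
    unfold corr
    rw [al_sym, be_sym, be_sym', ga_sym]
    unfold D11 D12 D22
    rw [sym_e2 π v, sym_p4 π v]
    ring
  simp_rw [e]
  simp only [Finset.sum_add_distrib, ← Finset.mul_sum]
  rw [a1, a2, a3, b1, b2, b3]
  ring

theorem sum_W_avg (u v : Fin 4 → ℝ) : 4 * ∑ π : Perm (Fin 4), W (fun i => u i * v (π i)) =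
    ∑ π : Perm (Fin 4), (W (fun i => u i * v (π i)) + W (fun i => u i * v (π (g1 i))) +
      W (fun i => u i * v (π (g2 i))) + W (fun i => u i * v (π (g3 i)))) := by
  have h := fun g => sum_perm_comp (fun π => W (fun i => u i * v (π i))) g
  have h1 := h g1
  have h2 := h g2
  have h3 := h g3
  simp only [Perm.mul_apply] at h1 h2 h3
  rw [Finset.sum_add_distrib, Finset.sum_add_distrib, Finset.sum_add_distrib, h1, h2, h3]
  ring

theorem pairW_core (Fc : Facts) {u v : Fin 4 → ℝ} (hu : Srt u) (hv : Srt v) :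
    ∑ π : Perm (Fin 4), W (fun i => u i * v (π i)) ≤
      24 * (W u * Z v + W v * Z u - (r v * Ht u + r u * Ht v) -
        1 / 10000 * (W2 u * W v + W u * W2 v)) := by
  have hup := hu.pos
  have hvp := hv.pos
  have cu : 0 < c0 u := by
    have := hup 0; have := hup 1; have := hup 2; have := hup 3; unfold c0; positivity
  have cv : 0 < c0 v := by
    have := hvp 0; have := hvp 1; have := hvp 2; have := hvp 3; unfold c0; positivity
  have hD : 0 < 3600000000 * (c0 u * c0 v) ^ 5 := by positivity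
  have h1 : ∀ π : Perm (Fin 4), W (fun i => u i * v (π i)) + W (fun i => u i * v (π (g1 i))) +
      W (fun i => u i * v (π (g2 i))) + W (fun i => u i * v (π (g3 i))) ≤
      (GS u v + corr u (fun i => v (π i))) / (3600000000 * (c0 u * c0 v) ^ 5) -
        c0 u * c0 v / 4 := by
    intro π
    have hw : ∀ i, 0 < (fun i => v (π i)) i := fun i => hvp _
    have e := sum_V4 u (fun i => v (π i)) hup hw
    rw [e, sym_c0 π v]
    have hP := PW_all Fc hu hv π
    unfold PW at hP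
    set w : Fin 4 → ℝ := fun i => v (π i) with hwd
    have p0 := hup 0; have p1 := hup 1; have p2 := hup 2; have p3 := hup 3
    have r0 := hw 0; have r1 := hw 1; have r2 := hw 2; have r3 := hw 3
    have hz : 0 < z0 u w * z1 u w * z2 u w * z3 u w := by
      have hz0 : 0 < z0 u w := by unfold z0; positivity
      have hz1 : 0 < z1 u w := by unfold z1; positivity
      have hz2 : 0 < z2 u w := by unfold z2; positivity
      have hz3 : 0 < z3 u w := by unfold z3; positivity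
      positivity
    have : NN u w / (z0 u w * z1 u w * z2 u w * z3 u w) ≤
        (GS u v + corr u w) / (3600000000 * (c0 u * c0 v) ^ 5) := by
      rw [div_le_div_iff₀ hz hD]
      linarith
    linarith
  have h2 : 4 * ∑ π : Perm (Fin 4), W (fun i => u i * v (π i)) ≤
      24 * (GS u v / (3600000000 * (c0 u * c0 v) ^ 5) - c0 u * c0 v / 4) := by
    rw [sum_W_avg]
    refine (Finset.sum_le_sum fun π _ => h1 π).trans_eq ?_
    rw [Finset.sum_sub_distrib, ← Finset.sum_div, Finset.sum_add_distrib, sum_corr,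
      sum_perm_const, sum_perm_const]
    ring
  have h3 : 24 * (W u * Z v + W v * Z u - (r v * Ht u + r u * Ht v) -
        1 / 10000 * (W2 u * W v + W u * W2 v)) =
      6 * (GS u v / (3600000000 * (c0 u * c0 v) ^ 5) - c0 u * c0 v / 4) := by
    unfold W2
    rw [W_eq_e2 cu.ne', W_eq_e2 cv.ne', Z_four, Z_four]
    unfold r Ht GS
    field_simp
    ring
  rw [h3]
  linarith

theorem pairW_pos (Fc : Facts) {u v : Fin 4 → ℝ} (hu : ∀ i, 0 < u i) (hv : ∀ i, 0 < v i) :
    ∑ π : Perm (Fin 4), W (fun i => u i * v (π i)) ≤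
      24 * (W u * Z v + W v * Z u - (r v * Ht u + r u * Ht v) -
        1 / 10000 * (W2 u * W v + W u * W2 v)) := by
  set σ := Tuple.sort u with hσ
  set τ := Tuple.sort v with hτ
  have h := pairW_core Fc (srt_of_pos hu) (srt_of_pos hv)
  rw [sum_perm_sort sym_W u v σ τ]
  rw [← hσ, ← hτ] at h
  rw [sym_W σ u, sym_W τ v, sym_Z σ u, sym_Z τ v, sym_r σ u, sym_r τ v, sym_Ht σ u,
    sym_Ht τ v, sym_W2 σ u, sym_W2 τ v] at h
  exact h

end Vale.Agent.P154.Q4
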