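import Vale.Agent.P154.Q4PairW

/-!
# P154: the pair inequality for `W` (four colours), nonnegative arguments
-/

namespace Vale.Agent.P154.Q4

open Equiv Finset Filter Topology

theorem continuousAt_W_path {y : ℝ → Fin 4 → ℝ} (hy : Continuous y) (h0 : ∀ e i, 0 ≤ y e i)
    (e0 : ℝ) : ContinuousAt (fun e => W (y e)) e0 := by
  have hyi : ∀ i, Continuous fun e => y e i := fun i => (continuous_apply i).comp hy
  have hN : Continuous fun e => y e 0 ^ 2 + y e 1 ^ 2 + y e 2 ^ 2 + y e 3 ^ 2 := by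
    have := hyi 0; have := hyi 1; have := hyi 2; have := hyi 3; fun_prop
  have hD : Continuous fun e => y e 0 + y e 1 + y e 2 + y e 3 := by
    have := hyi 0; have := hyi 1; have := hyi 2; have := hyi 3; fun_prop
  have e : (fun e => W (y e)) = fun e => (y e 0 ^ 2 + y e 1 ^ 2 + y e 2 ^ 2 + y e 3 ^ 2) /
    (y e 0 + y e 1 + y e 2 + y e 3) - (y e 0 + y e 1 + y e 2 + y e 3) / 4 := by
    funext e; exact W_four _
  rw [e]
  refine ContinuousAt.sub ?_ (hD.div_const 4).continuousAt
  refine continuousAt_quot (φ := fun e => y e 0 + y e 1 + y e 2 + y e 3)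
    hN.continuousAt hD.continuousAt hD.continuousAt (fun h => h)
    (Eventually.of_forall fun e => ?_) (Eventually.of_forall fun e => ?_)
  · have a0 := h0 e 0; have a1 := h0 e 1; have a2 := h0 e 2; have a3 := h0 e 3
    rw [abs_of_nonneg (by positivity), abs_of_nonneg (by positivity)]
    have : 0 ≤ 2 * (y e 0 * y e 1 + y e 0 * y e 2 + y e 0 * y e 3 + y e 1 * y e 2 + y e 1 * y e 3 +
      y e 2 * y e 3) := by positivity
    nlinarith
  · have a0 := h0 e 0; have a1 := h0 e 1; have a2 := h0 e 2; have a3 := h0 e 3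
    positivity

theorem shf_nonneg {u : Fin 4 → ℝ} (hu : ∀ i, 0 ≤ u i) (e : ℝ) (i : Fin 4) : 0 ≤ shf u e i := by
  unfold shf; have := abs_nonneg e; linarith [hu i]

theorem W_zero4 : W (0 : Fin 4 → ℝ) = 0 := by
  rw [W_four]; simp

theorem Z_zero4 : Z (0 : Fin 4 → ℝ) = 0 := by
  rw [Z_four]; simp [c0]

theorem W2_zero : W2 0 = 0 := by
  unfold W2; rw [W_zero4]; simp

theorem r_zero : r 0 = 0 := by
  unfold r; simp [c0]

theorem Ht_zero : Ht 0 = 0 := by
  unfold Ht; simp [c0]

theorem pairW0 (Fc : Facts) {u v : Fin 4 → ℝ} (hu : ∀ i, 0 ≤ u i) (hv : ∀ i, 0 ≤ v i) :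
    ∑ π : Perm (Fin 4), W (fun i => u i * v (π i)) ≤
      24 * (W u * Z v + W v * Z u - (r v * Ht u + r u * Ht v) -
        1 / 10000 * (W2 u * W v + W u * W2 v)) := by
  by_cases h1 : u = 0
  · subst h1
    have e : ∀ π : Perm (Fin 4), W (fun i => (0 : Fin 4 → ℝ) i * v (π i)) = 0 := fun π => by
      have : (fun i => (0 : Fin 4 → ℝ) i * v (π i)) = 0 := by funext i; simp
      rw [this, W_zero4]
    rw [Finset.sum_congr rfl fun π _ => e π, W_zero4, Z_zero4, r_zero, Ht_zero, W2_zero]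
    simp
  by_cases h2 : v = 0
  · subst h2
    have e : ∀ π : Perm (Fin 4), W (fun i => u i * (0 : Fin 4 → ℝ) (π i)) = 0 := fun π => by
      have : (fun i => u i * (0 : Fin 4 → ℝ) (π i)) = 0 := by funext i; simp
      rw [this, W_zero4]
    rw [Finset.sum_congr rfl fun π _ => e π, W_zero4, Z_zero4, r_zero, Ht_zero, W2_zero]
    simp
  have cW : ∀ {w : Fin 4 → ℝ}, (∀ i, 0 ≤ w i) → ContinuousAt (fun e => W (shf w e)) 0 :=
    fun hw => continuousAt_W_path (continuous_shf _) (fun e i => shf_nonneg hw e i) 0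
  have cZ : ∀ w : Fin 4 → ℝ, ContinuousAt (fun e => Z (shf w e)) 0 := fun w => by
    have : (fun e => Z (shf w e)) = fun e => c0 (shf w e) / 4 := by funext e; exact Z_four _
    rw [this]
    exact ((continuous_c0.comp (continuous_shf w)).div_const 4).continuousAt
  have cW2 : ∀ {w : Fin 4 → ℝ}, (∀ i, 0 ≤ w i) → w ≠ 0 →
      ContinuousAt (fun e => W2 (shf w e)) 0 := by
    intro w hw hw0
    refine ((cW hw).pow 2).div (cZ w) ?_
    rw [shf_zero, Z_four]
    have := sum_pos_of_ne hw hw0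
    positivity
  have cr : ∀ {w : Fin 4 → ℝ}, (∀ i, 0 ≤ w i) → w ≠ 0 →
      ContinuousAt (fun e => r (shf w e)) 0 := by
    intro w hw hw0
    exact ContinuousAt.comp (g := r) (by rw [shf_zero]; exact continuousAt_r hw hw0)
      (continuous_shf w).continuousAt
  have cHt : ∀ {w : Fin 4 → ℝ}, (∀ i, 0 ≤ w i) → w ≠ 0 →
      ContinuousAt (fun e => Ht (shf w e)) 0 := by
    intro w hw hw0
    exact ContinuousAt.comp (g := Ht) (by rw [shf_zero]; exact continuousAt_Ht hw hw0)
      (continuous_shf w).continuousAt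
  have key := le_of_path
    (f := fun e => ∑ π : Perm (Fin 4), W (fun i => shf u e i * shf v e (π i)))
    (g := fun e => 24 * (W (shf u e) * Z (shf v e) + W (shf v e) * Z (shf u e) -
      (r (shf v e) * Ht (shf u e) + r (shf u e) * Ht (shf v e)) -
        1 / 10000 * (W2 (shf u e) * W (shf v e) + W (shf u e) * W2 (shf v e)))) ?_ ?_ ?_
  · simpa only [shf_zero] using key
  · refine tendsto_finsetSum _ fun π _ => ?_
    refine continuousAt_W_path (y := fun e i => shf u e i * shf v e (π i)) ?_ ?_ 0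
    · have c1 := continuous_shf u
      have c2 := continuous_shf v
      refine continuous_pi fun i => ?_
      exact ((continuous_apply i).comp c1).mul ((continuous_apply (π i)).comp c2)
    · intro e i
      exact mul_nonneg (shf_nonneg hu e i) (shf_nonneg hv e _)
  · exact continuousAt_const.mul (((((cW hu).mul (cZ v)).add ((cW hv).mul (cZ u))).sub
      (((cr hv h2).mul (cHt hu h1)).add ((cr hu h1).mul (cHt hv h2)))).sub
      (continuousAt_const.mul (((cW2 hu h1).mul (cW hv)).add ((cW hu).mul (cW2 hv h2)))))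
  · intro e he
    exact pairW_pos Fc (fun i => shf_pos hu he i) (fun i => shf_pos hv he i)

theorem r_nonneg (Fc : Facts) {u : Fin 4 → ℝ} (hu : ∀ i, 0 ≤ u i) : 0 ≤ r u := by
  have h := Fc.polyR _ (srt0_of_nonneg hu)
  rw [sym_RN] at h
  have h0 := hu 0; have h1 := hu 1; have h2 := hu 2; have h3 := hu 3
  have hc : 0 ≤ c0 u := by unfold c0; positivity
  unfold r
  positivity

theorem A_nonneg (Fc : Facts) (u : Fin 4 → ℝ) : 0 ≤ A u := by
  have h := Fc.polyB _ (srt0_of_nonneg (sq_nonneg' u))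
  rw [sym_AN] at h
  unfold A
  positivity

theorem H_le_Ht (Fc : Facts) {u : Fin 4 → ℝ} (hu : ∀ i, 0 ≤ u i) : H u ≤ Ht u := by
  by_cases h0 : u = 0
  · subst h0; rw [H_zero, Ht_zero]
  have hc := sum_pos_of_ne hu h0
  set τ := Tuple.sort (sq u) with hτ
  have h := Fc.polyT _ (srt0_of_nonneg (sq_nonneg' u))
  rw [← hτ] at h
  have e : (fun i => (fun i => sq u (τ i)) i ^ 2) = fun i => u (τ i) := by
    funext i; simp only [sq]; rw [Real.sq_sqrt (hu _)]
  rw [e, sym_TN τ u, sym_HN τ (sq u), sym_S0 τ (sq u), S0_sq hu] at h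
  unfold H Ht
  rw [S0_sq hu, div_le_div_iff₀ (by positivity) (by positivity)]
  have : HN (sq u) * (40000 * c0 u ^ 5) = 2000 * c0 u * (20 * HN (sq u) * c0 u ^ 4) := by ring
  rw [this]
  have h2 := mul_le_mul_of_nonneg_left h (by positivity : (0 : ℝ) ≤ 2000 * c0 u)
  linarith

theorem pairW (Fc : Facts) {u v : Fin 4 → ℝ} (hu : ∀ i, 0 ≤ u i) (hv : ∀ i, 0 ≤ v i) :
    ∑ π : Perm (Fin 4), W (fun i => u i * v (π i)) ≤
      24 * (W u * Z v + W v * Z u - H u * r v - H v * r u -
        1 / 10000 * (W2 u * W v + W u * W2 v)) := by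
  have h := pairW0 Fc hu hv
  have h1 := mul_le_mul_of_nonneg_left (H_le_Ht Fc hu) (r_nonneg Fc hv)
  have h2 := mul_le_mul_of_nonneg_left (H_le_Ht Fc hv) (r_nonneg Fc hu)
  linarith

end Vale.Agent.P154.Q4
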