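import Vale.Agent.P154.Q4I0123
import Vale.Agent.P154.Q4I0132
import Vale.Agent.P154.Q4I0213
import Vale.Agent.P154.Q4I0231
import Vale.Agent.P154.Q4I0312
import Vale.Agent.P154.Q4I0321
import Vale.Agent.P154.Q4I1023
import Vale.Agent.P154.Q4I1032
import Vale.Agent.P154.Q4I1203
import Vale.Agent.P154.Q4I1230
import Vale.Agent.P154.Q4I1302
import Vale.Agent.P154.Q4I1320
import Vale.Agent.P154.Q4I2013
import Vale.Agent.P154.Q4I2031
import Vale.Agent.P154.Q4I2103
import Vale.Agent.P154.Q4I2130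
import Vale.Agent.P154.Q4I2301
import Vale.Agent.P154.Q4I2310
import Vale.Agent.P154.Q4I3012
import Vale.Agent.P154.Q4I3021
import Vale.Agent.P154.Q4I3102
import Vale.Agent.P154.Q4I3120
import Vale.Agent.P154.Q4I3201
import Vale.Agent.P154.Q4I3210
import Vale.Agent.P154.Q4II

/-!
# P154: the polynomial facts `polyI` and `polyII`
-/

namespace Vale.Agent.P154.Q4

open PExp Equiv

theorem I_all (p : Fin 4 → Fin 4) (hp : p ∈ (![0, 1, 2, 3] :: L23)) (y z : Fin 4 → ℝ)
    (hy : ∀ i, 0 ≤ y i) (hz : ∀ i, 0 ≤ z i) :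
    0 ≤ ev (env8 (lin c00 y) (fun i => lin c00 z (p i))) FI.px := by
  simp only [L23, List.mem_cons, List.not_mem_nil, or_false] at hp
  rcases hp with rfl | rfl | rfl | rfl | rfl | rfl | rfl | rfl | rfl | rfl | rfl | rfl | rfl | rfl | rfl | rfl | rfl | rfl | rfl | rfl | rfl | rfl | rfl | rfl
  · exact I0123 y z hy hz
  · exact I0132 y z hy hz
  · exact I0213 y z hy hz
  · exact I0231 y z hy hz
  · exact I0312 y z hy hz
  · exact I0321 y z hy hz
  · exact I1023 y z hy hz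
  · exact I1032 y z hy hz
  · exact I1203 y z hy hz
  · exact I1230 y z hy hz
  · exact I1302 y z hy hz
  · exact I1320 y z hy hz
  · exact I2013 y z hy hz
  · exact I2031 y z hy hz
  · exact I2103 y z hy hz
  · exact I2130 y z hy hz
  · exact I2301 y z hy hz
  · exact I2310 y z hy hz
  · exact I3012 y z hy hz
  · exact I3021 y z hy hz
  · exact I3102 y z hy hz
  · exact I3120 y z hy hz
  · exact I3201 y z hy hz
  · exact I3210 y z hy hz

/-- coordinates in the chamber -/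
def dt (t : Fin 4 → ℝ) : Fin 4 → ℝ := ![t 0, t 1 - t 0, t 2 - t 1, t 3 - t 2]

theorem dt_nonneg {t : Fin 4 → ℝ} (ht : Srt t) (i : Fin 4) : 0 ≤ dt t i := by
  obtain ⟨h0, h1, h2, h3⟩ := ht
  fin_cases i <;> simp [dt] <;> linarith

theorem polyI (t s : Fin 4 → ℝ) (ht : Srt t) (hs : Srt s) (π : Perm (Fin 4)) :
    (t 0 ^ 2 * s (π 0) ^ 2 + t 1 ^ 2 * s (π 1) ^ 2 + t 2 ^ 2 * s (π 2) ^ 2 + t 3 ^ 2 * s (π 3) ^ 2) *
      KK t (fun i => s (π i)) ≤ 5 * (S0 t * S0 s) ^ 2 * TT (fun i => t i * s (π i)) := by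
  have h := I_all (fun i => π i) (perm_cases π) (dt t) (dt s) (dt_nonneg ht) (dt_nonneg hs)
  rw [ev_FI] at h
  have e1 : lin c00 (dt t) = t := lin_c00 t
  have e2 : lin c00 (dt s) = s := lin_c00 s
  rw [e1, e2] at h
  have e3 : S0 (fun i => s (π i)) = S0 s := by
    have hc := perm_cases π
    have key : ∀ p ∈ (![0, 1, 2, 3] :: L23), S0 (fun i => s (p i)) = S0 s := by
      intro p hp
      simp only [L23, List.mem_cons, List.not_mem_nil, or_false] at hp
      rcases hp with rfl | rfl | rfl | rfl | rfl | rfl | rfl | rfl | rfl | rfl | rfl | rfl | rfl | rfl | rfl | rfl | rfl | rfl | rfl | rfl | rfl | rfl | rfl | rfl <;> simp [S0] <;> ring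
    exact key _ hc
  rw [e3] at h
  linarith

theorem polyII (t s : Fin 4 → ℝ) (ht : Srt t) (hs : Srt s) :
    HN t * S0 t * AN s + HN s * S0 s * AN t ≤
      2000 * ∑ π : Perm (Fin 4), KK t (fun i => s (π i)) +
      2500 * (16816 * (s11 t * s11 s) - 69750 * (S0 t * S0 s)) * (S0 t * S0 s) ^ 2 := by
  have h := blk hII chkII (dt t) (dt s) (dt_nonneg ht) (dt_nonneg hs)
  have e1 : lin c00 (dt t) = t := lin_c00 t
  have e2 : lin c00 (dt s) = s := lin_c00 s
  rw [e1, e2] at h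
  have e3 : (fun i => s ((![0, 1, 2, 3] : Fin 4 → Fin 4) i)) = s := by
    funext i; fin_cases i <;> rfl
  rw [e3] at h
  have h' : 0 ≤ vo t s FII := h
  have hs2 := sum_perm_list (fun p => KK t (fun i => s (p i)))
  rw [hs2, e3]
  unfold FII at h'
  rw [vo_a, vo_s, vo_sumO, vo_RII, vs_kof] at h'
  have hK : ∀ s, vo t s KKo = KK t s := fun _ => rfl
  simp only [hK] at h'
  push_cast at h'
  nlinarith [h']

end Vale.Agent.P154.Q4
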