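import Vale.Agent.P154.Kron

/-!
# P154: a row-wise checker for polynomials in two groups of variables
-/

namespace Vale.Agent.P154

open MvPolynomial Finset

namespace PExp

/-- sign (`true` means negative) and magnitude -/
structure SN where
  s : Bool
  m : ℕ

namespace SN

/-- value -/
def toInt (a : SN) : ℤ := cond a.s (-(a.m : ℤ)) (a.m : ℤ)

/-- product -/
def mul (a b : SN) : SN := ⟨cond a.s (not b.s) b.s, Nat.mul a.m b.m⟩

/-- sum -/
def add (a b : SN) : SN :=
  cond (cond a.s (not b.s) b.s)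
    (cond (Nat.ble b.m a.m) ⟨a.s, Nat.sub a.m b.m⟩ ⟨b.s, Nat.sub b.m a.m⟩)
    ⟨a.s, Nat.add a.m b.m⟩

/-- negation -/
def neg (a : SN) : SN := ⟨not a.s, a.m⟩

theorem toInt_neg (a : SN) : (neg a).toInt = -1 * a.toInt := by
  obtain ⟨sa, ma⟩ := a
  cases sa <;> simp [neg, toInt]

/-- zero -/
def zero : SN := ⟨false, 0⟩

/-- one -/
def one : SN := ⟨false, 1⟩

theorem toInt_mul (a b : SN) : (mul a b).toInt = a.toInt * b.toInt := by
  obtain ⟨sa, ma⟩ := a
  obtain ⟨sb, mb⟩ := b
  cases sa <;> cases sb <;> simp [mul, toInt]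

theorem toInt_add (a b : SN) : (add a b).toInt = a.toInt + b.toInt := by
  obtain ⟨sa, ma⟩ := a
  obtain ⟨sb, mb⟩ := b
  have hb : Nat.ble mb ma = decide (mb ≤ ma) := by
    rw [Bool.eq_iff_iff, Nat.ble_eq, decide_eq_true_iff]
  by_cases h : mb ≤ ma
  · cases sa <;> cases sb <;> simp [add, toInt, hb, h] <;> omega
  · cases sa <;> cases sb <;> simp [add, toInt, hb, h] <;> omega

/-- conversion -/
def ofInt (z : ℤ) : SN := ⟨Nat.ble 1 (-z).toNat, Nat.add z.toNat (-z).toNat⟩

theorem toInt_ofInt (z : ℤ) : (ofInt z).toInt = z := by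
  unfold ofInt toInt
  by_cases h : 1 ≤ (-z).toNat
  · have : Nat.ble 1 (-z).toNat = true := by rw [Nat.ble_eq]; exact h
    simp only [this, cond_true, Nat.add_eq]
    omega
  · have : Nat.ble 1 (-z).toNat = false := by
      rw [← Bool.not_eq_true, Nat.ble_eq]; exact h
    simp only [this, cond_false, Nat.add_eq]
    omega

theorem toInt_zero : zero.toInt = 0 := rfl
theorem toInt_one : one.toInt = 1 := rfl

end SN

section lists

variable {α : Type}

/-- addition of coefficient lists -/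
def addL (add : α → α → α) (l : List α) : List α → List α :=
  @List.rec α (fun _ => List α → List α) (fun q => q)
    (fun a as ih q => @List.rec α (fun _ => List α) (a :: as) (fun b bs _ => add a b :: ih bs) q) l

/-- map -/
def mapL (f : α → α) (l : List α) : List α :=
  @List.rec α (fun _ => List α) [] (fun a _ ih => f a :: ih) l

/-- multiplication of coefficient lists -/
def mulL (zero : α) (add mul : α → α → α) (l q : List α) : List α :=
  @List.rec α (fun _ => List α) []
    (fun a as ih => @List.rec α (fun _ => List α) (mapL (mul a) q)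
      (fun _ _ _ => addL add (mapL (mul a) q) (zero :: ih)) as) l

/-- all -/
def allL (p : α → Bool) (l : List α) : Bool :=
  @List.rec α (fun _ => Bool) true (fun a _ ih => cond (p a) ih false) l

variable {R : Type} [CommRing R]

/-- the polynomial of a list -/
noncomputable def toP (φ : α → R) (l : List α) : Polynomial R :=
  @List.rec α (fun _ => Polynomial R) 0 (fun a _ ih => Polynomial.C (φ a) + Polynomial.X * ih) l

theorem toP_nil (φ : α → R) : toP φ [] = 0 := rfl

theorem toP_cons (φ : α → R) (a : α) (l : List α) :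
    toP φ (a :: l) = Polynomial.C (φ a) + Polynomial.X * toP φ l := rfl

theorem toP_addL (φ : α → R) (add : α → α → α) (h : ∀ a b, φ (add a b) = φ a + φ b)
    (l q : List α) : toP φ (addL add l q) = toP φ l + toP φ q := by
  induction l generalizing q with
  | nil => rw [toP_nil, zero_add]; rfl
  | cons a as ih =>
    cases q with
    | nil => rw [toP_nil, add_zero]; rfl
    | cons b bs =>
      have : addL add (a :: as) (b :: bs) = add a b :: addL add as bs := rfl
      rw [this, toP_cons, toP_cons, toP_cons, ih, h, Polynomial.C_add]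
      ring

theorem toP_mapL (φ : α → R) (f : α → α) (c : R) (h : ∀ a, φ (f a) = c * φ a)
    (l : List α) : toP φ (mapL f l) = Polynomial.C c * toP φ l := by
  induction l with
  | nil => rw [toP_nil, mul_zero]; rfl
  | cons a as ih =>
    have : mapL f (a :: as) = f a :: mapL f as := rfl
    rw [this, toP_cons, toP_cons, ih, h, Polynomial.C_mul]
    ring

theorem toP_mulL (φ : α → R) (zero : α) (add mul : α → α → α) (h0 : φ zero = 0)
    (ha : ∀ a b, φ (add a b) = φ a + φ b) (hm : ∀ a b, φ (mul a b) = φ a * φ b)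
    (l q : List α) : toP φ (mulL zero add mul l q) = toP φ l * toP φ q := by
  induction l with
  | nil => rw [toP_nil, zero_mul]; rfl
  | cons a as ih =>
    have e1 := toP_mapL φ (mul a) (φ a) (fun b => hm a b) q
    cases as with
    | nil =>
      have : mulL zero add mul [a] q = mapL (mul a) q := rfl
      rw [this, e1, toP_cons, toP_nil, mul_zero, add_zero]
    | cons b bs =>
      have : mulL zero add mul (a :: b :: bs) q =
        addL add (mapL (mul a) q) (zero :: mulL zero add mul (b :: bs) q) := rfl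
      rw [this, toP_addL φ add ha, e1, toP_cons, h0, ih, toP_cons φ a]
      simp only [map_zero]
      ring

theorem toP_coeff (φ : α → R) (l : List α) (i : ℕ) :
    (toP φ l).coeff i = 0 ∨ ∃ a ∈ l, (toP φ l).coeff i = φ a := by
  induction l generalizing i with
  | nil => left; rfl
  | cons a as ih =>
    rw [toP_cons]
    cases i with
    | zero =>
      right
      refine ⟨a, List.mem_cons_self, ?_⟩
      simp
    | succ i =>
      rw [Polynomial.coeff_add, Polynomial.coeff_C_succ, Polynomial.coeff_X_mul, zero_add]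
      rcases ih i with h | ⟨c, hc, h⟩
      · left; exact h
      · right; exact ⟨c, List.mem_cons_of_mem _ hc, h⟩

theorem allL_spec (p : α → Bool) (l : List α) (h : allL p l = true) : ∀ a ∈ l, p a = true := by
  induction l with
  | nil => simp
  | cons a as ih =>
    have e : allL p (a :: as) = cond (p a) (allL p as) false := rfl
    rw [e] at h
    cases hp : p a with
    | false => rw [hp] at h; simp at h
    | true =>
      rw [hp] at h
      intro b hb
      rcases List.mem_cons.1 hb with rfl | hb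
      · exact hp
      · exact ih h b hb

end lists

abbrev L1 := List SN
abbrev L2 := List L1
abbrev L3 := List L2

def add1 : L1 → L1 → L1 := addL SN.add
def add2 : L2 → L2 → L2 := addL add1
def add3 : L3 → L3 → L3 := addL add2
def mul1 : L1 → L1 → L1 := mulL SN.zero SN.add SN.mul
def mul2 : L2 → L2 → L2 := mulL [] add1 mul1
def mul3 : L3 → L3 → L3 := mulL [] add2 mul2

/-- constants -/
def cst (a : SN) : L3 := [[[a]]]

/-- powers -/
def pow3 (a : L3) (n : ℕ) : L3 :=
  @Nat.rec (fun _ => L3) (cst SN.one) (fun _ ih => mul3 ih a) n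

/-- the weights -/
structure Wt where
  w0 : ℕ
  w1 : ℕ
  w2 : ℕ

/-- the weight of the variable `i` -/
def Wt.get (w : Wt) (i : ℕ) : ℕ := cond (Nat.beq i 3) w.w0 (cond (Nat.beq i 4) w.w1 w.w2)

/-- the variables -/
def var3 (b : ℕ) (w : Wt) (i : ℕ) : L3 :=
  cond (Nat.beq i 0) [[], [[SN.one]]]
    (cond (Nat.beq i 1) [[[], [SN.one]]]
      (cond (Nat.beq i 2) [[[SN.zero, SN.one]]]
        (cst ⟨false, Nat.pow 2 (Nat.mul b (w.get i))⟩)))

/-- negation -/
def neg3 : L3 → L3 := mapL (mapL (mapL SN.neg))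

/-- evaluation -/
noncomputable def evN (b : ℕ) (w : Wt) (e : PExp) : L3 :=
  @PExp.rec (fun _ => L3) (fun z => cst (SN.ofInt z)) (fun i => var3 b w i)
    (fun _ _ x y => add3 x y) (fun _ _ x y => add3 x (neg3 y))
    (fun _ _ x y => mul3 x y) (fun _ n x => pow3 x n) e

abbrev R1 := Polynomial ℤ
abbrev R2 := Polynomial R1
abbrev R3 := Polynomial R2

/-- polynomial of a nested list -/
noncomputable def p1 : L1 → R1 := toP SN.toInt
noncomputable def p2 : L2 → R2 := toP p1
noncomputable def p3 : L3 → R3 := toP p2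

theorem p1_add (a b : L1) : p1 (add1 a b) = p1 a + p1 b := toP_addL _ _ SN.toInt_add a b
theorem p2_add (a b : L2) : p2 (add2 a b) = p2 a + p2 b := toP_addL _ _ p1_add a b
theorem p3_add (a b : L3) : p3 (add3 a b) = p3 a + p3 b := toP_addL _ _ p2_add a b
theorem p1_mul (a b : L1) : p1 (mul1 a b) = p1 a * p1 b :=
  toP_mulL _ _ _ _ SN.toInt_zero SN.toInt_add SN.toInt_mul a b
theorem p2_mul (a b : L2) : p2 (mul2 a b) = p2 a * p2 b :=
  toP_mulL _ _ _ _ (toP_nil _) p1_add p1_mul a b
theorem p3_mul (a b : L3) : p3 (mul3 a b) = p3 a * p3 b :=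
  toP_mulL _ _ _ _ (toP_nil _) p2_add p2_mul a b

theorem p3_neg (a : L3) : p3 (neg3 a) = -p3 a := by
  have h1 : ∀ a : L1, p1 (mapL SN.neg a) = -1 * p1 a := fun a => by
    have := toP_mapL SN.toInt SN.neg (-1) SN.toInt_neg a
    rwa [Polynomial.C_neg, Polynomial.C_1] at this
  have h2 : ∀ a : L2, p2 (mapL (mapL SN.neg) a) = -1 * p2 a := fun a => by
    have := toP_mapL p1 (mapL SN.neg) (-1) h1 a
    rwa [Polynomial.C_neg, Polynomial.C_1] at this
  have := toP_mapL p2 (mapL (mapL SN.neg)) (-1) h2 a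
  rw [Polynomial.C_neg, Polynomial.C_1, neg_one_mul] at this
  exact this

theorem p3_cst (a : SN) : p3 (cst a) = Polynomial.C (Polynomial.C (Polynomial.C a.toInt)) := by
  simp [p3, p2, p1, cst, toP_cons, toP_nil]

theorem p3_pow (a : L3) (n : ℕ) : p3 (pow3 a n) = p3 a ^ n := by
  induction n with
  | zero =>
    have : pow3 a 0 = cst SN.one := rfl
    rw [this, p3_cst, SN.toInt_one, pow_zero]
    simp
  | succ n ih =>
    have : pow3 a (n + 1) = mul3 (pow3 a n) a := rfl
    rw [this, p3_mul, ih, pow_succ]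

theorem p3_evN (b : ℕ) (w : Wt) (e : PExp) :
    p3 (evN b w e) = ev (fun i => p3 (var3 b w i)) e := by
  induction e with
  | k z =>
    have : evN b w (.k z) = cst (SN.ofInt z) := rfl
    rw [this, p3_cst, SN.toInt_ofInt]
    simp [ev]
  | v i => rfl
  | add x y ihx ihy =>
    have : evN b w (.add x y) = add3 (evN b w x) (evN b w y) := rfl
    rw [this, p3_add, ihx, ihy]; rfl
  | sub x y ihx ihy =>
    have : evN b w (.sub x y) = add3 (evN b w x) (neg3 (evN b w y)) := rfl
    rw [this, p3_add, p3_neg, ihx, ihy]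
    simp only [ev]
    ring
  | mul x y ihx ihy =>
    have : evN b w (.mul x y) = mul3 (evN b w x) (evN b w y) := rfl
    rw [this, p3_mul, ihx, ihy]; rfl
  | pow x n ih =>
    have : evN b w (.pow x n) = pow3 (evN b w x) n := rfl
    rw [this, p3_pow, ih]; rfl

/-- coefficient -/
noncomputable def cf (i j k : ℕ) : R3 →+ ℤ :=
  { toFun := fun p => ((p.coeff i).coeff j).coeff k
    map_zero' := by simp
    map_add' := fun p q => by simp }

theorem cf_entry (test : SN → Bool) (l : L3)
    (h : allL (allL (allL test)) l = true) (i j k : ℕ) :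
    cf i j k (p3 l) = 0 ∨ ∃ a : SN, test a = true ∧ cf i j k (p3 l) = a.toInt := by
  have e : cf i j k (p3 l) = (((toP p2 l).coeff i).coeff j).coeff k := rfl
  rw [e]
  rcases toP_coeff p2 l i with h1 | ⟨l2, hl2, h1⟩
  · left; rw [h1]; simp
  · rw [h1]
    have t2 := allL_spec _ _ h l2 hl2
    rcases toP_coeff p1 l2 j with h2 | ⟨l1, hl1, h2⟩
    · left
      have : (p2 l2).coeff j = 0 := h2
      rw [this]; simp
    · have : (p2 l2).coeff j = p1 l1 := h2
      rw [this]
      have t1 := allL_spec _ _ t2 l1 hl1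
      rcases toP_coeff SN.toInt l1 k with h3 | ⟨a, ha, h3⟩
      · left; exact h3
      · right; exact ⟨a, allL_spec _ _ t1 a ha, h3⟩

/-- weight of an exponent -/
def wt (w : Wt) (d : ℕ →₀ ℕ) : ℕ := w.w0 * d 3 + w.w1 * d 4 + w.w2 * d 5

theorem var3_eq (b : ℕ) (w : Wt) : ∀ i, p3 (var3 b w i) =
    if i = 0 then Polynomial.X else if i = 1 then Polynomial.C Polynomial.X else if i = 2 then
      Polynomial.C (Polynomial.C Polynomial.X)
    else Polynomial.C (Polynomial.C (Polynomial.C (((2 : ℕ) ^ (b * w.get i) : ℕ) : ℤ))) := by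
  intro i
  match i with
  | 0 =>
    have : var3 b w 0 = [[], [[SN.one]]] := rfl
    rw [this]
    simp [p3, p2, p1, toP_cons, toP_nil, SN.toInt_one]
  | 1 =>
    have : var3 b w 1 = [[[], [SN.one]]] := rfl
    rw [this]
    simp [p3, p2, p1, toP_cons, toP_nil, SN.toInt_one]
  | 2 =>
    have : var3 b w 2 = [[[SN.zero, SN.one]]] := rfl
    rw [this]
    simp [p3, p2, p1, toP_cons, toP_nil, SN.toInt_one, SN.toInt_zero]
  | i + 3 =>
    have : var3 b w (i + 3) = cst ⟨false, Nat.pow 2 (Nat.mul b (w.get (i + 3)))⟩ := rfl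
    rw [this, p3_cst]
    simp [SN.toInt]

/-- the monomial in `R3` -/
theorem mono_eq (i j k : ℕ) (c : ℤ) :
    (Polynomial.C (Polynomial.C (Polynomial.C c)) : R3) * (Polynomial.X ^ i *
      ((Polynomial.C Polynomial.X) ^ j * (Polynomial.C (Polynomial.C Polynomial.X)) ^ k)) =
    Polynomial.monomial i (Polynomial.monomial j (Polynomial.monomial k c)) := by
  rw [← Polynomial.C_mul_X_pow_eq_monomial, ← Polynomial.C_mul_X_pow_eq_monomial,
    ← Polynomial.C_mul_X_pow_eq_monomial]
  simp only [Polynomial.C_mul, Polynomial.C_pow]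
  ring

theorem cst_nat (m : ℕ) : (Polynomial.C (Polynomial.C (Polynomial.C (m : ℤ))) : R3) = (m : R3) := by
  rw [map_natCast, map_natCast, map_natCast]

theorem phi_monomial (b : ℕ) (w : Wt) (d : ℕ →₀ ℕ) (c : ℕ) (hd : ∀ i, 6 ≤ i → d i = 0) :
    eval₂Hom (Nat.castRingHom R3) (fun i => p3 (var3 b w i)) (monomial d c) =
      Polynomial.monomial (d 0) (Polynomial.monomial (d 1) (Polynomial.monomial (d 2)
        ((c * 2 ^ (b * wt w d) : ℕ) : ℤ))) := by
  rw [coe_eval₂Hom, eval₂_monomial]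
  have h1 : (d.prod fun i k => p3 (var3 b w i) ^ k) =
      ∏ i ∈ range 6, p3 (var3 b w i) ^ (d i) := by
    unfold Finsupp.prod
    apply prod_subset
    · intro i hi
      rw [mem_range]
      by_contra hcon
      exact (Finsupp.mem_support_iff.mp hi) (hd i (by omega))
    · intro i _ hi
      have : d i = 0 := Finsupp.notMem_support_iff.mp hi
      simp only [this, pow_zero]
  rw [h1, ← mono_eq]
  simp only [prod_range_succ, prod_range_zero, one_mul]
  have v0 : p3 (var3 b w 0) = Polynomial.X := by rw [var3_eq]; rfl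
  have v1 : p3 (var3 b w 1) = Polynomial.C Polynomial.X := by rw [var3_eq]; rfl
  have v2 : p3 (var3 b w 2) = Polynomial.C (Polynomial.C Polynomial.X) := by rw [var3_eq]; rfl
  have v3 : p3 (var3 b w 3) = (((2 : ℕ) ^ (b * w.w0) : ℕ) : R3) := by
    rw [var3_eq]
    exact cst_nat _
  have v4 : p3 (var3 b w 4) = (((2 : ℕ) ^ (b * w.w1) : ℕ) : R3) := by
    rw [var3_eq]
    exact cst_nat _
  have v5 : p3 (var3 b w 5) = (((2 : ℕ) ^ (b * w.w2) : ℕ) : R3) := by
    rw [var3_eq]
    exact cst_nat _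
  rw [v0, v1, v2, v3, v4, v5]
  have h2 : (Polynomial.C (Polynomial.C (Polynomial.C ((c * 2 ^ (b * wt w d) : ℕ) : ℤ))) : R3) =
      (c : R3) * ((((2 : ℕ) ^ (b * w.w0) : ℕ) : R3) ^ d 3 * (((2 : ℕ) ^ (b * w.w1) : ℕ) : R3) ^ d 4 *
      (((2 : ℕ) ^ (b * w.w2) : ℕ) : R3) ^ d 5) := by
    have h3 : c * 2 ^ (b * wt w d) = c * ((2 ^ (b * w.w0)) ^ d 3 * (2 ^ (b * w.w1)) ^ d 4 *
        (2 ^ (b * w.w2)) ^ d 5) := by
      rw [← pow_mul, ← pow_mul, ← pow_mul, ← pow_add, ← pow_add]
      congr 2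
      unfold wt
      ring
    rw [cst_nat, h3]
    push_cast
    ring
  rw [h2]
  simp only [eq_natCast]
  ring

/-- the group of coefficients -/
noncomputable def gr (w : Wt) (i j k : ℕ) (P : MP) (κ : ℕ) : ℕ :=
  ∑ d ∈ P.support with ((d 0 = i ∧ d 1 = j ∧ d 2 = k) ∧ wt w d = κ), P.coeff d

theorem gr_le (w : Wt) (i j k : ℕ) (P : MP) (κ : ℕ) :
    gr w i j k P κ ≤ MvPolynomial.eval (fun _ => 1) P := by
  rw [MvPolynomial.eval_eq]
  simp only [one_pow, prod_const_one, mul_one]
  exact sum_le_sum_of_subset (filter_subset _ _)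

theorem cf_phi (b K : ℕ) (w : Wt) (i j k : ℕ) (P : MP) (hP : ∀ d ∈ P.support, ∀ i, 6 ≤ i → d i = 0)
    (hK : ∀ d ∈ P.support, wt w d < K) :
    cf i j k (eval₂Hom (Nat.castRingHom R3) (fun i => p3 (var3 b w i)) P) =
      ((∑ κ ∈ range K, gr w i j k P κ * (2 ^ b) ^ κ : ℕ) : ℤ) := by
  conv_lhs => rw [P.as_sum]
  rw [map_sum, map_sum]
  have h1 : ∀ d ∈ P.support, cf i j k (eval₂Hom (Nat.castRingHom R3)
      (fun i => p3 (var3 b w i)) (monomial d (P.coeff d))) =
      ((if (d 0 = i ∧ d 1 = j ∧ d 2 = k) then P.coeff d * (2 ^ b) ^ (wt w d) else 0 : ℕ) : ℤ) := by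
    intro d hd
    rw [phi_monomial b w d _ (hP d hd)]
    have e : ∀ z : ℤ, cf i j k (Polynomial.monomial (d 0) (Polynomial.monomial (d 1)
        (Polynomial.monomial (d 2) z))) = if (d 0 = i ∧ d 1 = j ∧ d 2 = k) then z else 0 := by
      intro z
      show (((Polynomial.monomial (d 0) (Polynomial.monomial (d 1)
        (Polynomial.monomial (d 2) z)) : R3).coeff i).coeff j).coeff k = _
      rw [Polynomial.coeff_monomial]
      by_cases a0 : d 0 = i
      · rw [if_pos a0, Polynomial.coeff_monomial]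
        by_cases a1 : d 1 = j
        · rw [if_pos a1, Polynomial.coeff_monomial]
          by_cases a2 : d 2 = k
          · rw [if_pos a2, if_pos ⟨a0, a1, a2⟩]
          · rw [if_neg a2, if_neg (fun h => a2 h.2.2)]
        · rw [if_neg a1, if_neg (fun h => a1 h.2.1)]
          simp
      · rw [if_neg a0, if_neg (fun h => a0 h.1)]
        simp
    rw [e]
    rw [← pow_mul]
    push_cast
    rfl
  rw [sum_congr rfl h1]
  rw [← Nat.cast_sum]
  congr 1
  unfold gr
  simp only [sum_mul]
  have h2 : ∀ κ ∈ range K, ∑ d ∈ P.support with ((d 0 = i ∧ d 1 = j ∧ d 2 = k) ∧ wt w d = κ),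
      P.coeff d * (2 ^ b) ^ κ = ∑ d ∈ P.support with wt w d = κ,
      (if (d 0 = i ∧ d 1 = j ∧ d 2 = k) then P.coeff d * (2 ^ b) ^ (wt w d) else 0) := by
    intro κ _
    rw [sum_filter, sum_filter]
    apply sum_congr rfl
    intro d _
    by_cases a : (d 0 = i ∧ d 1 = j ∧ d 2 = k)
    · by_cases a' : wt w d = κ
      · rw [if_pos ⟨a, a'⟩, if_pos a', if_pos a, a']
      · rw [if_neg (fun h => a' h.2), if_neg a']
    · rw [if_neg (fun h => a h.1), if_neg a, ite_self]
  rw [sum_congr rfl h2]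
  rw [← sum_fiberwise_of_maps_to (s := P.support) (t := range K) (g := wt w)]
  intro d hd
  rw [mem_range]
  exact hK d hd

/-- total degree in the packed variables -/
def tdg : PExp → ℕ
  | .k _ => 0
  | .v j => cond (Nat.ble 3 j) 1 0
  | .add a b => max (tdg a) (tdg b)
  | .sub a b => max (tdg a) (tdg b)
  | .mul a b => tdg a + tdg b
  | .pow a n => n * tdg a

theorem tdg_mul (P Q : MP) (s t : ℕ) (hP : ∀ d ∈ P.support, d 3 + d 4 + d 5 ≤ s)
    (hQ : ∀ d ∈ Q.support, d 3 + d 4 + d 5 ≤ t) :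
    ∀ d ∈ (P * Q).support, d 3 + d 4 + d 5 ≤ s + t := by
  intro d hd
  have := MvPolynomial.support_mul P Q hd
  rw [Finset.mem_add] at this
  obtain ⟨c, hc, e, he, rfl⟩ := this
  have h1 := hP c hc
  have h2 := hQ e he
  simp only [Finsupp.coe_add, Pi.add_apply]
  omega

theorem tdg_add (P Q : MP) (s : ℕ) (hP : ∀ d ∈ P.support, d 3 + d 4 + d 5 ≤ s)
    (hQ : ∀ d ∈ Q.support, d 3 + d 4 + d 5 ≤ s) :
    ∀ d ∈ (P + Q).support, d 3 + d 4 + d 5 ≤ s := by
  intro d hd
  have := MvPolynomial.support_add hd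
  rcases Finset.mem_union.1 this with h | h
  · exact hP d h
  · exact hQ d h

theorem tdg_pmul (a b : MP × MP) (s t : ℕ)
    (ha : (∀ d ∈ a.1.support, d 3 + d 4 + d 5 ≤ s) ∧ (∀ d ∈ a.2.support, d 3 + d 4 + d 5 ≤ s))
    (hb : (∀ d ∈ b.1.support, d 3 + d 4 + d 5 ≤ t) ∧ (∀ d ∈ b.2.support, d 3 + d 4 + d 5 ≤ t)) :
    (∀ d ∈ (pmul a b).1.support, d 3 + d 4 + d 5 ≤ s + t) ∧
      (∀ d ∈ (pmul a b).2.support, d 3 + d 4 + d 5 ≤ s + t) :=
  ⟨tdg_add _ _ _ (tdg_mul _ _ _ _ ha.1 hb.1) (tdg_mul _ _ _ _ ha.2 hb.2),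
    tdg_add _ _ _ (tdg_mul _ _ _ _ ha.1 hb.2) (tdg_mul _ _ _ _ ha.2 hb.1)⟩

theorem tdg_spec (e : PExp) :
    (∀ d ∈ (pr (R := MP) X e).1.support, d 3 + d 4 + d 5 ≤ tdg e) ∧
      (∀ d ∈ (pr (R := MP) X e).2.support, d 3 + d 4 + d 5 ≤ tdg e) := by
  induction e with
  | k z =>
    simp only [pr, tdg]
    constructor
    · intro d hd
      rw [← MvPolynomial.C_eq_coe_nat] at hd
      have h0 := MvPolynomial.mem_support_iff.1 hd
      rw [coeff_C] at h0
      by_cases h1 : 0 = d
      · subst h1; simp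
      · rw [if_neg h1] at h0; exact absurd rfl h0
    · intro d hd
      rw [← MvPolynomial.C_eq_coe_nat] at hd
      have h0 := MvPolynomial.mem_support_iff.1 hd
      rw [coeff_C] at h0
      by_cases h1 : 0 = d
      · subst h1; simp
      · rw [if_neg h1] at h0; exact absurd rfl h0
  | v j =>
    simp only [pr, tdg]
    refine ⟨?_, by simp⟩
    intro d hd
    rw [support_X, mem_singleton] at hd
    subst hd
    simp only [Finsupp.single_apply]
    by_cases h : 3 ≤ j
    · have : Nat.ble 3 j = true := by rw [Nat.ble_eq]; exact h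
      rw [this, cond_true]
      split_ifs <;> omega
    · have : Nat.ble 3 j = false := by rw [← Bool.not_eq_true, Nat.ble_eq]; exact h
      rw [this, cond_false]
      split_ifs <;> omega
  | add a b iha ihb =>
    simp only [pr, tdg]
    exact ⟨tdg_add _ _ _ (fun d hd => (iha.1 d hd).trans (le_max_left _ _))
        (fun d hd => (ihb.1 d hd).trans (le_max_right _ _)),
      tdg_add _ _ _ (fun d hd => (iha.2 d hd).trans (le_max_left _ _))
        (fun d hd => (ihb.2 d hd).trans (le_max_right _ _))⟩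
  | sub a b iha ihb =>
    simp only [pr, tdg]
    exact ⟨tdg_add _ _ _ (fun d hd => (iha.1 d hd).trans (le_max_left _ _))
        (fun d hd => (ihb.2 d hd).trans (le_max_right _ _)),
      tdg_add _ _ _ (fun d hd => (iha.2 d hd).trans (le_max_left _ _))
        (fun d hd => (ihb.1 d hd).trans (le_max_right _ _))⟩
  | mul a b iha ihb =>
    simp only [pr, tdg]
    exact tdg_pmul _ _ _ _ iha ihb
  | pow a n ih =>
    simp only [pr, tdg]
    induction n with
    | zero => simp [ppow]
    | succ n ihn =>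
      rw [ppow, Nat.succ_mul]
      exact tdg_pmul _ _ _ _ ihn ih

/-- the test on one row -/
def rowOK (G : ℕ) (a : SN) : Bool :=
  cond a.s (Nat.beq a.m 0) (Nat.beq (Nat.land (Nat.add a.m G) G) G)

/-- the offset -/
def gOff (b K : ℕ) : ℕ :=
  Nat.mul (Nat.pow 2 (Nat.sub b 1)) (Nat.div (Nat.sub (Nat.pow 2 (Nat.mul b K)) 1)
    (Nat.sub (Nat.pow 2 b) 1))

/-- weights are injective on the simplex of degree `n` -/
def WInj (w : Wt) (n : ℕ) : Prop := ∀ a b c a' b' c' : ℕ, a + b + c ≤ n → a' + b' + c' ≤ n →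
  w.w0 * a + w.w1 * b + w.w2 * c = w.w0 * a' + w.w1 * b' + w.w2 * c' → a = a' ∧ b = b' ∧ c = c'

/-- the row test -/
noncomputable def rows (b K : ℕ) (w : Wt) (e : PExp) : Bool :=
  allL (allL (allL (rowOK (gOff b K)))) (evN b w e)

/-- the small tests -/
def pre (b K n : ℕ) (w : Wt) (e : PExp) : Bool :=
  let q := pr (fun _ => 1) e
  cond (Nat.blt 0 b) (cond (vb 6 e) (cond (Nat.ble (tdg e) n)
    (cond (Nat.blt q.1 (2 ^ (b - 1))) (cond (Nat.blt q.2 (2 ^ (b - 1)))
      (cond (Nat.blt (Nat.mul w.w0 n) K) (cond (Nat.ble w.w0 w.w2) (cond (Nat.ble w.w1 w.w2)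
        (Nat.blt (Nat.mul w.w2 n) K) false) false) false) false) false) false) false) false

theorem rowOK_spec (G : ℕ) (a : SN) (h : rowOK G a = true) :
    0 ≤ a.toInt ∧ Nat.land (a.toInt.toNat + G) G = G := by
  obtain ⟨sa, ma⟩ := a
  cases sa with
  | true =>
    have h1 : Nat.beq ma 0 = true := h
    have h2 : ma = 0 := Nat.eq_of_beq_eq_true h1
    subst h2
    refine ⟨by simp [SN.toInt], ?_⟩
    simp only [SN.toInt, cond_true]
    have : (-((0 : ℕ) : ℤ)).toNat + G = G := by simp
    rw [this]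
    exact Nat.and_self G
  | false =>
    have h1 : Nat.beq (Nat.land (Nat.add ma G) G) G = true := h
    have h2 := Nat.eq_of_beq_eq_true h1
    refine ⟨by simp [SN.toInt], ?_⟩
    simp only [SN.toInt, cond_false, Int.toNat_natCast]
    exact h2

theorem coeff_le_of_rows (b K n : ℕ) (w : Wt) (e : PExp) (hw : WInj w n)
    (hpre : pre b K n w e = true) (hrows : rows b K w e = true) :
    ∀ d, (pr (R := MP) X e).2.coeff d ≤ (pr (R := MP) X e).1.coeff d := by
  simp only [pre, Bool.cond_false_right, Bool.and_eq_true, Nat.blt_eq, Nat.ble_eq] at hpre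
  obtain ⟨hb, hv, htd, hq1, hq2, hK0, hw02, hw12, hK2⟩ := hpre
  set P := (pr (R := MP) X e).1 with hPdef
  set Q := (pr (R := MP) X e).2 with hQdef
  have hPz : ∀ d ∈ P.support, ∀ i, 6 ≤ i → d i = 0 := fun d hd i hi => by
    have := (monomial_le_degreeOf i hd).trans (dg_spec i e).1
    rw [dg_eq_zero 6 i hi e hv] at this
    omega
  have hQz : ∀ d ∈ Q.support, ∀ i, 6 ≤ i → d i = 0 := fun d hd i hi => by
    have := (monomial_le_degreeOf i hd).trans (dg_spec i e).2
    rw [dg_eq_zero 6 i hi e hv] at this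
    omega
  have hPt : ∀ d ∈ P.support, d 3 + d 4 + d 5 ≤ n := fun d hd => ((tdg_spec e).1 d hd).trans htd
  have hQt : ∀ d ∈ Q.support, d 3 + d 4 + d 5 ≤ n := fun d hd => ((tdg_spec e).2 d hd).trans htd
  have hwt : ∀ d : ℕ →₀ ℕ, d 3 + d 4 + d 5 ≤ n → wt w d < K := by
    intro d hd
    have h1 : w.w0 * d 3 ≤ w.w2 * d 3 := Nat.mul_le_mul_right _ hw02
    have h2 : w.w1 * d 4 ≤ w.w2 * d 4 := Nat.mul_le_mul_right _ hw12
    have h3 : w.w2 * (d 3 + d 4 + d 5) ≤ w.w2 * n := Nat.mul_le_mul_left _ hd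
    have h4 : w.w2 * (d 3 + d 4 + d 5) = w.w2 * d 3 + w.w2 * d 4 + w.w2 * d 5 := by ring
    have h5 : Nat.mul w.w2 n = w.w2 * n := rfl
    unfold wt
    omega
  have e2 := pr_map (MvPolynomial.eval (fun _ : ℕ => (1 : ℕ))) (X (R := ℕ)) e
  simp only [eval_X] at e2
  rw [e2] at hq1 hq2
  simp only [← hPdef, ← hQdef] at hq1 hq2
  have e1 := pr_map (eval₂Hom (Nat.castRingHom R3) (fun i => p3 (var3 b w i))) (X (R := ℕ)) e
  simp only [eval₂Hom_X'] at e1
  have hev := p3_evN b w e
  rw [ev_eq] at hev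
  have e1' : pr (fun i => p3 (var3 b w i)) e = _ := e1
  rw [e1'] at hev
  simp only [← hPdef, ← hQdef] at hev
  have hG : gOff b K = ∑ k ∈ range K, 2 ^ (b - 1) * (2 ^ b) ^ k := by
    have : gOff b K = 2 ^ (b - 1) * ((2 ^ (b * K) - 1) / (2 ^ b - 1)) := rfl
    rw [this, ← mul_sum, pow_mul, Nat.geomSum_eq]
    calc 2 = 2 ^ 1 := by norm_num
      _ ≤ 2 ^ b := Nat.pow_le_pow_right (by norm_num) hb
  have key : ∀ i j k κ : ℕ, κ < K → gr w i j k Q κ ≤ gr w i j k P κ := by
    intro i j k κ hκ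
    have hc := congrArg (cf i j k) hev
    rw [map_sub, cf_phi b K w i j k P hPz (fun d hd => hwt d (hPt d hd)),
      cf_phi b K w i j k Q hQz (fun d hd => hwt d (hQt d hd))] at hc
    have hrow : ∃ V : ℕ, cf i j k (p3 (evN b w e)) = (V : ℤ) ∧
        Nat.land (V + gOff b K) (gOff b K) = gOff b K := by
      rcases cf_entry _ _ hrows i j k with h0 | ⟨a, ha, h0⟩
      · refine ⟨0, by rw [h0]; rfl, ?_⟩
        rw [Nat.zero_add]
        exact Nat.and_self _
      · obtain ⟨h1, h2⟩ := rowOK_spec _ _ ha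
        refine ⟨a.toInt.toNat, ?_, h2⟩
        rw [h0, Int.toNat_of_nonneg h1]
    obtain ⟨V, hV, hland⟩ := hrow
    rw [hV] at hc
    refine land_spec b K (gr w i j k P) (gr w i j k Q)
      (fun k' => lt_of_le_of_lt (gr_le w i j k P k') hq1)
      (fun k' => lt_of_le_of_lt (gr_le w i j k Q k') hq2) hb (gOff b K) hG ?_ κ hκ
    have hsum : ∑ k' ∈ range K, gr w i j k P k' * (2 ^ b) ^ k' + gOff b K -
        ∑ k' ∈ range K, gr w i j k Q k' * (2 ^ b) ^ k' = V + gOff b K := by
      omega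
    rw [hsum]
    exact hland
  intro d
  by_cases hd : d ∈ Q.support
  · have h1 : Q.coeff d ≤ gr w (d 0) (d 1) (d 2) Q (wt w d) := by
      unfold gr
      exact single_le_sum (f := fun d => Q.coeff d) (fun _ _ => Nat.zero_le _)
        (mem_filter.mpr ⟨hd, ⟨rfl, rfl, rfl⟩, rfl⟩)
    have h2 := key (d 0) (d 1) (d 2) (wt w d) (hwt d (hQt d hd))
    have h3 : gr w (d 0) (d 1) (d 2) P (wt w d) ≤ P.coeff d := by
      unfold gr
      calc ∑ c ∈ P.support with ((c 0 = d 0 ∧ c 1 = d 1 ∧ c 2 = d 2) ∧ wt w c = wt w d), P.coeff c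
          ≤ ∑ c ∈ ({d} : Finset (ℕ →₀ ℕ)), P.coeff c := by
            apply sum_le_sum_of_subset
            intro c hc
            rw [mem_filter] at hc
            obtain ⟨hc1, ⟨c0, c1, c2⟩, hcw⟩ := hc
            rw [mem_singleton]
            obtain ⟨c3, c4, c5⟩ := hw _ _ _ _ _ _ (hPt c hc1) (hQt d hd) hcw
            ext i
            match i with
            | 0 => exact c0
            | 1 => exact c1
            | 2 => exact c2
            | 3 => exact c3
            | 4 => exact c4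
            | 5 => exact c5
            | i + 6 => rw [hPz c hc1 _ (by omega), hQz d hd _ (by omega)]
        _ = P.coeff d := by simp
    exact h1.trans (h2.trans h3)
  · rw [MvPolynomial.notMem_support_iff.mp hd]
    exact Nat.zero_le _

/-- nonnegative values from the comparison of coefficients -/
theorem nonneg_of_coeff_le (e : PExp)
    (hc : ∀ d, (pr (R := MP) X e).2.coeff d ≤ (pr (R := MP) X e).1.coeff d)
    (x : ℕ → ℝ) (hx : ∀ i, 0 ≤ x i) : 0 ≤ ev x e := by
  rw [ev_eq]
  have hmap := pr_map (MvPolynomial.eval₂Hom (Nat.castRingHom ℝ) x) (X (R := ℕ)) e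
  simp only [eval₂Hom_X'] at hmap
  have hx' : (fun i => x i) = x := rfl
  rw [hmap, sub_nonneg]
  simp only [coe_eval₂Hom]
  set P := (pr (R := MP) X e).1
  set Q := (pr (R := MP) X e).2
  have hdec : P = Q + ∑ d ∈ P.support ∪ Q.support, monomial d (P.coeff d - Q.coeff d) := by
    ext d
    rw [coeff_add, coeff_sum]
    simp only [coeff_monomial]
    rw [sum_ite_eq']
    split_ifs with hd
    · have := hc d; omega
    · rw [mem_union, not_or] at hd
      rw [MvPolynomial.notMem_support_iff.mp hd.1, MvPolynomial.notMem_support_iff.mp hd.2]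
      rfl
  rw [hdec, eval₂_add]
  have : 0 ≤ eval₂ (Nat.castRingHom ℝ) x
      (∑ d ∈ P.support ∪ Q.support, monomial d (P.coeff d - Q.coeff d)) := by
    rw [← coe_eval₂Hom, map_sum]
    apply sum_nonneg
    intro d _
    rw [coe_eval₂Hom, eval₂_monomial]
    apply mul_nonneg
    · simp
    · unfold Finsupp.prod
      exact prod_nonneg fun i _ => pow_nonneg (hx i) _
  linarith

/-- soundness -/
theorem ev_nonneg3 (b K n : ℕ) (w : Wt) (e : PExp) (hw : WInj w n)
    (hpre : pre b K n w e = true) (hrows : rows b K w e = true)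
    (x : ℕ → ℝ) (hx : ∀ i, 0 ≤ x i) : 0 ≤ ev x e :=
  nonneg_of_coeff_le e (coeff_le_of_rows b K n w e hw hpre hrows) x hx

end PExp

end Vale.Agent.P154
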