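import Vale.Agent.P154.Q4Cover
import Vale.Agent.P154.Sep

/-!
# P154: row tests for bihomogeneous polynomials on pairs of cells
-/

namespace Vale.Agent.P154

open MvPolynomial Finset

namespace PExp

/-- substitution -/
def sbst (σ : ℕ → PExp) : PExp → PExp
  | .k z => .k z
  | .v i => σ i
  | .add a b => .add (sbst σ a) (sbst σ b)
  | .sub a b => .sub (sbst σ a) (sbst σ b)
  | .mul a b => .mul (sbst σ a) (sbst σ b)
  | .pow a n => .pow (sbst σ a) n

theorem ev_sbst {R : Type*} [CommRing R] (x : ℕ → R) (σ : ℕ → PExp) (e : PExp) :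
    ev x (sbst σ e) = ev (fun i => ev x (σ i)) e := by
  induction e with
  | k z => rfl
  | v i => rfl
  | add a b iha ihb => simp only [sbst, ev, iha, ihb]
  | sub a b iha ihb => simp only [sbst, ev, iha, ihb]
  | mul a b iha ihb => simp only [sbst, ev, iha, ihb]
  | pow a n ih => simp only [sbst, ev, ih]

/-- conversion -/
noncomputable def snI (z : ℤ) : SN := @Int.rec (fun _ => SN) (fun n => ⟨false, n⟩) (fun n => ⟨true, Nat.succ n⟩) z

theorem toInt_snI (z : ℤ) : (snI z).toInt = z := by
  cases z with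
  | ofNat n => rfl
  | negSucc n => rfl

/-- index of a variable, `4` if not a variable -/
noncomputable def vi (e : PExp) : ℕ :=
  @PExp.rec (fun _ => ℕ) (fun _ => 4) (fun i => i) (fun _ _ _ _ => 4) (fun _ _ _ _ => 4)
    (fun _ _ _ _ => 4) (fun _ _ _ => 4) e

theorem vi_spec (e : PExp) (h : Nat.ble (vi e) 3 = true) : e = .v (vi e) := by
  cases e with
  | v i => rfl
  | k z => exact absurd h (by
      show ¬ Nat.ble 4 3 = true
      decide)
  | add a b => exact absurd h (by
      show ¬ Nat.ble 4 3 = true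
      decide)
  | sub a b => exact absurd h (by
      show ¬ Nat.ble 4 3 = true
      decide)
  | mul a b => exact absurd h (by
      show ¬ Nat.ble 4 3 = true
      decide)
  | pow a n => exact absurd h (by
      show ¬ Nat.ble 4 3 = true
      decide)

/-- power -/
def spow (a : SN) (n : ℕ) : SN := ⟨cond a.s (Nat.beq (Nat.mod n 2) 1) false, Nat.pow a.m n⟩

theorem toInt_spow (a : SN) (n : ℕ) : (spow a n).toInt = a.toInt ^ n := by
  obtain ⟨sa, ma⟩ := a
  cases sa with
  | false => simp [spow, SN.toInt]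
  | true =>
    rcases Nat.even_or_odd n with he | ho
    · have h0 : Nat.beq (Nat.mod n 2) 1 = false := by
        have : Nat.mod n 2 = 0 := Nat.even_iff.1 he
        rw [this]; rfl
      simp only [spow, SN.toInt, cond_true, h0, cond_false]
      rw [he.neg_pow]
      exact Int.natCast_pow _ _
    · have h0 : Nat.beq (Nat.mod n 2) 1 = true := by
        have : Nat.mod n 2 = 1 := Nat.odd_iff.1 ho
        rw [this]; rfl
      simp only [spow, SN.toInt, cond_true, h0]
      rw [ho.neg_pow]
      exact congrArg Neg.neg (Int.natCast_pow _ _)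

/-- evaluation; multiplication by the first four variables is done by `lm` -/
noncomputable def evS (ρ : ℕ → SN) (lm : ℕ → SN → SN) (e : PExp) : SN :=
  @PExp.rec (fun _ => SN) (fun z => snI z) ρ
    (fun _ _ x y => SN.add x y) (fun _ _ x y => SN.add x (SN.neg y))
    (fun a _ x y => cond (Nat.ble (vi a) 3) (lm (vi a) y) (SN.mul x y)) (fun _ n x => spow x n) e

theorem evS_spec (ρ : ℕ → SN) (lm : ℕ → SN → SN) (τ : ℕ → ℤ) (h1 : ∀ i, (ρ i).toInt = τ i)
    (h2 : ∀ i x, (lm i x).toInt = τ i * x.toInt) (e : PExp) :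
    (evS ρ lm e).toInt = ev τ e := by
  induction e with
  | k z =>
    show (snI z).toInt = _
    rw [toInt_snI]; simp [ev]
  | v i => exact h1 i
  | add a c iha ihb =>
    show (SN.add (evS ρ lm a) (evS ρ lm c)).toInt = _
    rw [SN.toInt_add, iha, ihb]; rfl
  | sub a c iha ihb =>
    show (SN.add (evS ρ lm a) (SN.neg (evS ρ lm c))).toInt = _
    rw [SN.toInt_add, SN.toInt_neg, iha, ihb]
    simp only [ev]; ring
  | mul a c iha ihb =>
    show (cond (Nat.ble (vi a) 3) (lm (vi a) (evS ρ lm c)) (SN.mul (evS ρ lm a) (evS ρ lm c))).toInt = _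
    cases hb : Nat.ble (vi a) 3 with
    | true =>
      rw [cond_true, h2, ihb]
      conv_rhs => rw [vi_spec a hb]
      rfl
    | false =>
      rw [cond_false, SN.toInt_mul, iha, ihb]
      rfl
  | pow a n ih =>
    show (spow (evS ρ lm a) n).toInt = _
    rw [toInt_spow, ih]; rfl

/-- sum of the absolute values of the coefficients, with weights -/
noncomputable def nb (x : ℕ → ℕ) (e : PExp) : ℕ :=
  @PExp.rec (fun _ => ℕ) (fun z => (snI z).m) x (fun _ _ a b => Nat.add a b)
    (fun _ _ a b => Nat.add a b) (fun _ _ a b => Nat.mul a b) (fun _ n a => Nat.pow a n) e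

theorem nb_sbst (σ : ℕ → PExp) (e : PExp) :
    (pr (fun _ => 1) (sbst σ e)).1 + (pr (fun _ => 1) (sbst σ e)).2 =
      nb (fun i => (pr (R := ℕ) (fun _ => 1) (σ i)).1 + (pr (R := ℕ) (fun _ => 1) (σ i)).2) e := by
  induction e with
  | k z =>
    show ((z.toNat : ℕ) + ((-z).toNat : ℕ) : ℕ) = (snI z).m
    cases z with
    | ofNat n => simp [snI]
    | negSucc n => simp [snI]
  | v i => rfl
  | add a b iha ihb =>
    simp only [sbst, pr]
    show _ = Nat.add _ _
    rw [Nat.add_eq]
    have : nb (fun i => (pr (R := ℕ) (fun _ => 1) (σ i)).1 + (pr (R := ℕ) (fun _ => 1) (σ i)).2)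
      (a.add b) = nb (fun i => (pr (R := ℕ) (fun _ => 1) (σ i)).1 + (pr (R := ℕ) (fun _ => 1) (σ i)).2) a
        + nb (fun i => (pr (R := ℕ) (fun _ => 1) (σ i)).1 + (pr (R := ℕ) (fun _ => 1) (σ i)).2) b := rfl
    have e := this
    rw [← iha, ← ihb] at e
    refine Eq.trans ?_ e.symm
    ring
  | sub a b iha ihb =>
    simp only [sbst, pr]
    have : nb (fun i => (pr (R := ℕ) (fun _ => 1) (σ i)).1 + (pr (R := ℕ) (fun _ => 1) (σ i)).2)
      (a.sub b) = nb (fun i => (pr (R := ℕ) (fun _ => 1) (σ i)).1 + (pr (R := ℕ) (fun _ => 1) (σ i)).2) a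
        + nb (fun i => (pr (R := ℕ) (fun _ => 1) (σ i)).1 + (pr (R := ℕ) (fun _ => 1) (σ i)).2) b := rfl
    rw [this, ← iha, ← ihb]
    ring
  | mul a b iha ihb =>
    simp only [sbst, pr, pmul]
    have : nb (fun i => (pr (R := ℕ) (fun _ => 1) (σ i)).1 + (pr (R := ℕ) (fun _ => 1) (σ i)).2)
      (a.mul b) = nb (fun i => (pr (R := ℕ) (fun _ => 1) (σ i)).1 + (pr (R := ℕ) (fun _ => 1) (σ i)).2) a
        * nb (fun i => (pr (R := ℕ) (fun _ => 1) (σ i)).1 + (pr (R := ℕ) (fun _ => 1) (σ i)).2) b := rfl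
    rw [this, ← iha, ← ihb]
    ring
  | pow a n ih =>
    simp only [sbst, pr]
    have : nb (fun i => (pr (R := ℕ) (fun _ => 1) (σ i)).1 + (pr (R := ℕ) (fun _ => 1) (σ i)).2)
      (a.pow n) = nb (fun i => (pr (R := ℕ) (fun _ => 1) (σ i)).1 + (pr (R := ℕ) (fun _ => 1) (σ i)).2) a
        ^ n := rfl
    rw [this, ← ih]
    generalize pr (fun _ => 1) (sbst σ a) = q
    induction n with
    | zero => rfl
    | succ n ihn =>
      have : ppow q (n + 1) = pmul (ppow q n) q := rfl
      rw [this, pow_succ, ← ihn (by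
        exact rfl)]
      simp only [pmul]
      ring

end PExp
end Vale.Agent.P154
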