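import Vale.Agent.P154.R5Fin
import Vale.Agent.P154.Near.RegNeg

/-!
# P154: three colours, all regular trees, `-1/2 ≤ λ ≤ 0`
-/

namespace Vale.Agent.P154

/-- nonreconstruction on all regular trees, `-1/2 ≤ λ ≤ 0` -/
theorem regular_neg {lam : ℝ} (h0 : -1 / 2 ≤ lam) (h1 : lam ≤ 0) {d : ℕ}
    (hd : d * lam ^ 2 ≤ 1) : Nonreconstruction (aRegular 3 lam d) := by
  rcases Nat.lt_or_ge 4 d with h | h
  · refine regular_B10 ?_ h1 hd
    have h5 : (5 : ℝ) ≤ d := by exact_mod_cast h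
    by_contra hc
    push Not at hc
    nlinarith [mul_le_mul_of_nonneg_right h5 (sq_nonneg lam)]
  · exact (threshold_four h0 h1 h).2.2 hd

end Vale.Agent.P154
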