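import Vale.Agent.P154.Ineq

/-!
# P154: the edge inequality for three colours
-/

namespace Vale.Agent.P154

namespace PExp

def sN (f s : PExp) : PExp :=
  mul (mul (sub s f) (pow (add s (mul (k 2) f)) 2))
    (add (add (mul (k 8) (pow s 3)) (mul (k 30) (mul (pow f 2) s))) (mul (k 16) (pow f 3)))

def sD (f s : PExp) : PExp := pow (add (add (pow s 2) (mul s f)) (pow f 2)) 3

def cR (a b s : PExp) : PExp :=
  sub (mul (sN a s) (sD b s)) (mul (sN b s) (sD a s))

theorem certR : chk 96 16 3 (cR (v 0) (add (v 0) (v 1)) (add (add (v 0) (v 1)) (v 2))) = true := by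
  decide +kernel

end PExp

open PExp

noncomputable def fN (f : ℝ) : ℝ := (1 - f) * (1 + 2 * f) ^ 2 * (8 + 30 * f ^ 2 + 16 * f ^ 3)
noncomputable def fD (f : ℝ) : ℝ := (1 + f + f ^ 2) ^ 3
noncomputable def psi (p : ℝ) : ℝ := 8 / 15 - 2 / 5 * p - 4 / 5 * p ^ 2 + 2 / 3 * p ^ 3

theorem R_anti {f g : ℝ} (h0 : 0 ≤ f) (h1 : f ≤ g) (h2 : g ≤ 1) :
    fN g * fD f ≤ fN f * fD g := by
  have h := ev_nonneg 96 16 3 _ certR (by norm_num) (env4 f (g - f) (1 - g) 0)
    (env4_nonneg h0 (by linarith) (by linarith) le_rfl)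
  have e : ev (env4 f (g - f) (1 - g) 0) (cR (v 0) (add (v 0) (v 1)) (add (add (v 0) (v 1)) (v 2)))
      = fN f * fD g - fN g * fD f := by
    simp only [cR, sN, sD, ev, env4, fN, fD, Int.cast_ofNat, if_true, one_ne_zero, if_false,
      two_ne_zero, OfNat.ofNat_ne_one]
    have e1 : f + (g - f) + (1 - g) = 1 := by ring
    have e2 : f + (g - f) = g := by ring
    rw [e1, e2]
    ring
  rw [e] at h
  linarith

theorem exists_phi {p : ℝ} (h0 : 0 ≤ p) (h1 : p ≤ 1) :
    ∃ f : ℝ, 0 ≤ f ∧ f ≤ 1 ∧ 3 * f ^ 2 = p * (1 + 2 * f ^ 3) := by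
  have hc : ContinuousOn (fun f : ℝ => 3 * f ^ 2 - p * (1 + 2 * f ^ 3)) (Set.Icc 0 1) := by
    apply Continuous.continuousOn; fun_prop
  have h := intermediate_value_Icc (zero_le_one) hc
  have hm : (0 : ℝ) ∈ Set.Icc ((fun f : ℝ => 3 * f ^ 2 - p * (1 + 2 * f ^ 3)) 0)
      ((fun f : ℝ => 3 * f ^ 2 - p * (1 + 2 * f ^ 3)) 1) := by
    constructor
    · norm_num; linarith
    · norm_num; linarith
  obtain ⟨f, hf, hf2⟩ := h hm
  exact ⟨f, hf.1, hf.2, by simp only at hf2; linarith⟩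

theorem exists_phi' {x : ℝ} (h0 : 0 ≤ x) (h1 : x ≤ 1) :
    ∃ f : ℝ, 0 ≤ f ∧ f ≤ 1 ∧ 3 * f ^ 3 = x * (1 + 2 * f ^ 3) := by
  have hc : ContinuousOn (fun f : ℝ => 3 * f ^ 3 - x * (1 + 2 * f ^ 3)) (Set.Icc 0 1) := by
    apply Continuous.continuousOn; fun_prop
  have h := intermediate_value_Icc (zero_le_one) hc
  have hm : (0 : ℝ) ∈ Set.Icc ((fun f : ℝ => 3 * f ^ 3 - x * (1 + 2 * f ^ 3)) 0)
      ((fun f : ℝ => 3 * f ^ 3 - x * (1 + 2 * f ^ 3)) 1) := by
    constructor
    · norm_num; linarith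
    · norm_num; linarith
  obtain ⟨f, hf, hf2⟩ := h hm
  exact ⟨f, hf.1, hf.2, by simp only at hf2; linarith⟩

theorem psi_anti {p q : ℝ} (h0 : 0 ≤ p) (h1 : p ≤ q) (h2 : q ≤ 1) : psi q ≤ psi p := by
  have e : psi p - psi q = (q - p) * (2 / 5 + 4 / 5 * (p + q) - 2 / 3 * (p ^ 2 + p * q + q ^ 2)) := by
    unfold psi; ring
  have hb : 0 ≤ 2 / 5 + 4 / 5 * (p + q) - 2 / 3 * (p ^ 2 + p * q + q ^ 2) := by
    have hp1 : p ≤ 1 := h1.trans h2
    have hq0 : 0 ≤ q := h0.trans h1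
    nlinarith [mul_nonneg h0 (sub_nonneg.mpr hp1), mul_nonneg hq0 (sub_nonneg.mpr h2),
      mul_nonneg h0 (sub_nonneg.mpr h2), mul_nonneg hq0 (sub_nonneg.mpr hp1)]
  nlinarith [mul_nonneg (sub_nonneg.mpr h1) hb]

theorem pow_pos_of_sq_aux {t : ℝ} (ht : t < 0) : 0 < t ^ 2 := by nlinarith

/-- two negative deviations are impossible -/
theorem dev_aux {x al be ga : ℝ} (hx : 0 < x) (ha : 0 ≤ x + al) (hb : 0 ≤ x + be)
    (hal : al < 0) (hbe : be < 0) (hs : 0 ≤ al + be + ga)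
    (h : x * (al * be + be * ga + ga * al) + al * be * ga = 0) : False := by
  -- `x (al+be) + al be ≤ x * max`
  have hga : 0 < ga := by linarith
  have h1 : al * be ≤ -(x * al) := by nlinarith
  have h2 : al * be ≤ -(x * be) := by nlinarith
  have h3 : x * (al + be) + al * be ≤ x * al := by linarith
  have h4 : x * (al + be) + al * be ≤ x * be := by linarith
  have h5 : x * (al * be) + ga * (x * (al + be) + al * be) = 0 := by linarith
  rcases le_total al be with hab | hab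
  · -- |al| is the larger one
    have h6 : ga * (x * (al + be) + al * be) ≤ ga * (x * al) := by
      exact mul_le_mul_of_nonneg_left h3 hga.le
    have h7 : ga * (x * al) ≤ (-al - be) * (x * al) := by
      have : x * al < 0 := mul_neg_of_pos_of_neg hx hal
      nlinarith
    have h8 : x * (al * be) + (-al - be) * (x * al) = -(x * al ^ 2) := by ring
    have h9 : 0 < x * al ^ 2 := mul_pos hx (pow_pos_of_sq_aux hal)
    linarith
  · have h6 : ga * (x * (al + be) + al * be) ≤ ga * (x * be) := by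
      exact mul_le_mul_of_nonneg_left h4 hga.le
    have h7 : ga * (x * be) ≤ (-al - be) * (x * be) := by
      have : x * be < 0 := mul_neg_of_pos_of_neg hx hbe
      nlinarith
    have h8 : x * (al * be) + (-al - be) * (x * be) = -(x * be ^ 2) := by ring
    have h9 : 0 < x * be ^ 2 := mul_pos hx (pow_pos_of_sq_aux hbe)
    linarith

theorem e2_bound {a b c x : ℝ} (ha : 0 ≤ a) (hb : 0 ≤ b) (hc : 0 ≤ c) (hs : a + b + c = 3)
    (hx0 : 0 ≤ x) (hx1 : x ≤ 1) (hp : a * b * c = x ^ 2 * (3 - 2 * x)) :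
    6 * x - 3 * x ^ 2 ≤ a * b + b * c + c * a := by
  rcases eq_or_lt_of_le hx0 with h0 | h0
  · rw [← h0]
    nlinarith [mul_nonneg ha hb, mul_nonneg hb hc, mul_nonneg hc ha]
  by_contra hcon
  push Not at hcon
  obtain ⟨al, hal⟩ : ∃ al, a = x + al := ⟨a - x, by ring⟩
  obtain ⟨be, hbe⟩ : ∃ be, b = x + be := ⟨b - x, by ring⟩
  obtain ⟨ga, hga⟩ : ∃ ga, c = x + ga := ⟨c - x, by ring⟩
  subst hal hbe hga
  have hsum : al + be + ga = 3 - 3 * x := by linarith
  have hga' : ga = 3 - 3 * x - al - be := by linarith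
  have hz : x * (al * be + be * ga + ga * al) + al * be * ga = 0 := by
    have : (x + al) * (x + be) * (x + ga) = x ^ 3 + x ^ 2 * (al + be + ga)
      + x * (al * be + be * ga + ga * al) + al * be * ga := by ring
    rw [this, hsum] at hp
    nlinarith
  have h2 : al * be + be * ga + ga * al < 0 := by
    have : (x + al) * (x + be) + (x + be) * (x + ga) + (x + ga) * (x + al)
      = 3 * x ^ 2 + 2 * x * (al + be + ga) + (al * be + be * ga + ga * al) := by ring
    rw [this, hsum] at hcon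
    nlinarith
  have h3 : 0 < al * be * ga := by
    have : x * (al * be + be * ga + ga * al) < 0 := mul_neg_of_pos_of_neg h0 h2
    linarith
  have hs' : 0 ≤ al + be + ga := by linarith
  -- sign cases
  rcases lt_trichotomy al 0 with h | h | h
  · -- al < 0: be * ga < 0
    have hbg : be * ga < 0 := by
      by_contra hbg
      push Not at hbg
      have : al * (be * ga) ≤ 0 := mul_nonpos_of_nonpos_of_nonneg h.le hbg
      nlinarith
    rcases lt_trichotomy be 0 with h' | h' | h'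
    · exact dev_aux h0 ha hb h h' hs' hz
    · rw [h'] at hbg; simp at hbg
    · have hg : ga < 0 := by
        by_contra hg
        push Not at hg
        have := mul_nonneg h'.le hg
        linarith
      exact dev_aux (ga := be) h0 ha hc h hg (by linarith) (by linarith)
  · rw [h] at h3; simp at h3
  · have hbg : 0 < be * ga := by
      by_contra hbg
      push Not at hbg
      have : al * (be * ga) ≤ 0 := mul_nonpos_of_nonneg_of_nonpos h.le hbg
      nlinarith
    rcases lt_trichotomy be 0 with h' | h' | h'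
    · have hg : ga < 0 := by
        by_contra hg
        push Not at hg
        have := mul_nonpos_of_nonpos_of_nonneg h'.le hg
        linarith
      exact dev_aux (ga := al) h0 hb hc h' hg (by linarith) (by linarith)
    · rw [h'] at hbg; simp at hbg
    · have hg : 0 < ga := by
        by_contra hg
        push Not at hg
        have := mul_nonpos_of_nonneg_of_nonpos h'.le hg
        linarith
      nlinarith [mul_pos h h', mul_pos h' hg, mul_pos hg h]

theorem scal_core {lam x : ℝ} {f g p P1 : ℝ} (hl0 : 0 ≤ lam)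
    (hx1 : x ≤ 1) (hf0 : 0 ≤ f) (hfg : f ≤ g) (hg1 : g ≤ 1)
    (hp : 3 * f ^ 2 = p * (1 + 2 * f ^ 3)) (hx : 3 * f ^ 3 = x * (1 + 2 * f ^ 3))
    (hP1 : 3 * g ^ 2 = P1 * (1 + 2 * g ^ 3))
    (hx' : 3 * g ^ 3 = (1 - lam * (1 - x)) * (1 + 2 * g ^ 3)) :
    psi P1 ≤ lam ^ 3 * psi p := by
  have hg0 : 0 ≤ g := hf0.trans hfg
  have hd1 : 0 < 1 + 2 * f ^ 3 := by positivity
  have hd2 : 0 < 1 + 2 * g ^ 3 := by positivity
  have hR := R_anti hf0 hfg hg1
  have hp' : p = 3 * f ^ 2 / (1 + 2 * f ^ 3) := by rw [hp]; field_simp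
  have hP' : P1 = 3 * g ^ 2 / (1 + 2 * g ^ 3) := by rw [hP1]; field_simp
  have hxx : 1 - x = (1 - f ^ 3) / (1 + 2 * f ^ 3) := by
    field_simp
    linarith
  have hxx' : lam * (1 - x) = (1 - g ^ 3) / (1 + 2 * g ^ 3) := by
    rw [eq_div_iff hd2.ne']
    linarith
  have e1 : 15 * psi p * fD f = fN f * (1 - x) ^ 3 := by
    rw [hp', hxx]; unfold psi fD fN
    field_simp
    ring
  have e2 : 15 * psi P1 * fD g = fN g * (lam * (1 - x)) ^ 3 := by
    rw [hP', hxx']; unfold psi fD fN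
    field_simp
    ring
  have hDf : 0 < fD f := by unfold fD; positivity
  have hDg : 0 < fD g := by unfold fD; positivity
  have e3 : 15 * (fD f * fD g) * (lam ^ 3 * psi p - psi P1)
      = (lam * (1 - x)) ^ 3 * (fN f * fD g - fN g * fD f) := by
    have : 15 * (fD f * fD g) * (lam ^ 3 * psi p - psi P1)
        = lam ^ 3 * fD g * (15 * psi p * fD f) - fD f * (15 * psi P1 * fD g) := by ring
    rw [this, e1, e2]
    ring
  have h4 : 0 ≤ (lam * (1 - x)) ^ 3 * (fN f * fD g - fN g * fD f) := by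
    apply mul_nonneg
    · apply pow_nonneg
      exact mul_nonneg hl0 (by linarith)
    · linarith
  rw [← e3] at h4
  have h5 : 0 < 15 * (fD f * fD g) := by positivity
  have h6 : 0 ≤ lam ^ 3 * psi p - psi P1 := by
    by_contra hcon
    push Not at hcon
    have := mul_neg_of_pos_of_neg h5 hcon
    linarith
  linarith

theorem h3_scal_norm {lam : ℝ} (hl0 : 0 ≤ lam) (hl1 : lam ≤ 1) {a b c : ℝ} (ha : 0 ≤ a)
    (hb : 0 ≤ b) (hc : 0 ≤ c) (hs : a + b + c = 3) :
    lam ^ 3 * h3 a b c ≤ h3 (lam * a + (1 - lam)) (lam * b + (1 - lam)) (lam * c + (1 - lam)) := by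
  set a' := lam * a + (1 - lam) with ha'
  set b' := lam * b + (1 - lam) with hb'
  set c' := lam * c + (1 - lam) with hc'
  have ha0 : 0 ≤ a' := by have := mul_nonneg hl0 ha; linarith
  have hb0 : 0 ≤ b' := by have := mul_nonneg hl0 hb; linarith
  have hc0 : 0 ≤ c' := by have := mul_nonneg hl0 hc; linarith
  have hs' : a' + b' + c' = 3 := by
    have : a' + b' + c' = lam * (a + b + c) + 3 * (1 - lam) := by rw [ha', hb', hc']; ring
    rw [this, hs]; ring
  set p := g3 a b c with hpdef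
  set P := g3 a' b' c' with hPdef
  have hp0 : 0 ≤ p := g3_nonneg ha hb hc
  have hP0 : 0 ≤ P := g3_nonneg ha0 hb0 hc0
  have hp1 : p ≤ 1 := by have := amgm3 ha hb hc; rw [hs] at this; linarith
  have hP1 : P ≤ 1 := by have := amgm3 ha0 hb0 hc0; rw [hs'] at this; linarith
  have hp3 : p ^ 3 = a * b * c := cube_of_root (by positivity)
  have hP3 : P ^ 3 = a' * b' * c' := cube_of_root (by positivity)
  have hH : h3 a b c = 2 * (1 - (a * b + b * c + c * a) / 3) + 2 / 5 * p + 4 / 5 * p ^ 2 - 6 / 5 := by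
    have hc'' : c = 3 - a - b := by linarith
    rw [h3_eq]; unfold al3 w3 fW; rw [← hpdef, hs, hc'']; ring
  have hH' : h3 a' b' c' = 2 * (1 - (a' * b' + b' * c' + c' * a') / 3) + 2 / 5 * P + 4 / 5 * P ^ 2
      - 6 / 5 := by
    have hc'' : c' = 3 - a' - b' := by linarith
    rw [h3_eq]; unfold al3 w3 fW; rw [← hPdef, hs', hc'']; ring
  set n := 1 - (a * b + b * c + c * a) / 3 with hn
  have hn' : 1 - (a' * b' + b' * c' + c' * a') / 3 = lam ^ 2 * n := by
    have hc'' : c = 3 - a - b := by linarith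
    rw [hn, ha', hb', hc', hc'']; ring
  have hP3' : P ^ 3 = 1 - 3 * lam ^ 2 * (1 - lam) * n - lam ^ 3 * (1 - p ^ 3) := by
    have hc'' : c = 3 - a - b := by linarith
    rw [hP3, hp3, hn, ha', hb', hc', hc'']; ring
  rw [hn'] at hH'
  have hdiff : h3 a' b' c' - lam ^ 3 * h3 a b c = lam ^ 3 * psi p - psi P := by
    rw [hH, hH']; unfold psi
    have : 2 * (lam ^ 2 * n) - 2 * lam ^ 3 * n = 2 / 3 * (1 - lam ^ 3 * (1 - p ^ 3) - P ^ 3) := by
      rw [hP3']; ring
    linarith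
  -- the parameters
  obtain ⟨f, hf0, hf1, hf⟩ := exists_phi hp0 hp1
  have hd1 : 0 < 1 + 2 * f ^ 3 := by positivity
  obtain ⟨x, hx⟩ : ∃ x, x = 3 * f ^ 3 / (1 + 2 * f ^ 3) := ⟨_, rfl⟩
  have hx3 : 3 * f ^ 3 = x * (1 + 2 * f ^ 3) := by rw [hx]; field_simp
  have hx0 : 0 ≤ x := by rw [hx]; positivity
  have hx1 : x ≤ 1 := by
    rw [hx, div_le_one hd1]
    have : f ^ 3 ≤ 1 := pow_le_one₀ hf0 hf1
    linarith
  have hpx : p ^ 3 = x ^ 2 * (3 - 2 * x) := by
    have : p = 3 * f ^ 2 / (1 + 2 * f ^ 3) := by rw [hf]; field_simp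
    rw [this, hx]
    field_simp
    ring
  have he2 := e2_bound ha hb hc hs hx0 hx1 (by rw [← hp3, hpx])
  have hnx : n ≤ (1 - x) ^ 2 := by
    have : (1 - x) ^ 2 = 1 - (6 * x - 3 * x ^ 2) / 3 := by ring
    rw [hn, this]; linarith
  have hlx1 : lam * (1 - x) ≤ 1 - x := mul_le_of_le_one_left (sub_nonneg.mpr hx1) hl1
  have hlx0 : 0 ≤ lam * (1 - x) := mul_nonneg hl0 (sub_nonneg.mpr hx1)
  have hx'0 : 0 ≤ 1 - lam * (1 - x) := by linarith
  have hx'1 : 1 - lam * (1 - x) ≤ 1 := by linarith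
  have hxx' : x ≤ 1 - lam * (1 - x) := by linarith
  obtain ⟨g, hg0, hg1, hg⟩ := exists_phi' hx'0 hx'1
  have hd2 : 0 < 1 + 2 * g ^ 3 := by positivity
  obtain ⟨P1, hP1def⟩ : ∃ P1, P1 = 3 * g ^ 2 / (1 + 2 * g ^ 3) := ⟨_, rfl⟩
  have hP1' : 3 * g ^ 2 = P1 * (1 + 2 * g ^ 3) := by rw [hP1def]; field_simp
  have hP10 : 0 ≤ P1 := by rw [hP1def]; positivity
  have hfg : f ≤ g := by
    by_contra hcon
    push Not at hcon
    have h1 : g ^ 3 < f ^ 3 := by gcongr
    have h2 : (1 - lam * (1 - x)) * ((1 + 2 * g ^ 3) * (1 + 2 * f ^ 3))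
        < x * ((1 + 2 * g ^ 3) * (1 + 2 * f ^ 3)) := by
      have e1 : (1 - lam * (1 - x)) * ((1 + 2 * g ^ 3) * (1 + 2 * f ^ 3))
          = 3 * g ^ 3 * (1 + 2 * f ^ 3) := by rw [hg]; ring
      have e2 : x * ((1 + 2 * g ^ 3) * (1 + 2 * f ^ 3)) = 3 * f ^ 3 * (1 + 2 * g ^ 3) := by
        rw [hx3]; ring
      rw [e1, e2]
      linarith
    have h3 : 0 < (1 + 2 * g ^ 3) * (1 + 2 * f ^ 3) := by positivity
    have h4 := lt_of_mul_lt_mul_right h2 h3.le
    linarith
  have hP1x : P1 ^ 3 = 1 - 3 * (lam * (1 - x)) ^ 2 + 2 * (lam * (1 - x)) ^ 3 := by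
    have h1 : lam * (1 - x) = (1 - g ^ 3) / (1 + 2 * g ^ 3) := by
      rw [eq_div_iff hd2.ne']
      linarith
    rw [h1, hP1def]
    field_simp
    ring
  have hPP1 : P1 ≤ P := by
    have h1 : P1 ^ 3 ≤ P ^ 3 := by
      rw [hP1x, hP3', hpx]
      have h2 : 0 ≤ 3 * lam ^ 2 * (1 - lam) * ((1 - x) ^ 2 - n) := by
        apply mul_nonneg
        · apply mul_nonneg (by positivity); linarith
        · linarith
      have h3 : 1 - 3 * lam ^ 2 * (1 - lam) * n - lam ^ 3 * (1 - x ^ 2 * (3 - 2 * x))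
          - (1 - 3 * (lam * (1 - x)) ^ 2 + 2 * (lam * (1 - x)) ^ 3)
          = 3 * lam ^ 2 * (1 - lam) * ((1 - x) ^ 2 - n) := by ring
      linarith
    exact (pow_le_pow_iff_left₀ hP10 hP0 (by norm_num)).mp h1
  have h1 := scal_core hl0 hx1 hf0 hfg hg1 hf hx3 hP1' hg
  have h2 := psi_anti hP10 hPP1 hP1
  linarith

theorem H3_scal (lam : ℝ) (hl0 : 0 ≤ lam) (hl1 : lam ≤ 1) (u : Fin 3 → ℝ) (hu : ∀ i, 0 ≤ u i) :
    lam ^ 3 * H3 u ≤ H3 (fun i => lam * u i + (1 - lam) * Z u) := by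
  have h0 := hu 0
  have h1 := hu 1
  have h2 := hu 2
  rw [H3_eq, H3_eq]
  rw [Z_three]
  set s := (u 0 + u 1 + u 2) / 3 with hsdef
  rcases eq_or_lt_of_le (show 0 ≤ s by positivity) with hs | hs
  · have e0 : u 0 = 0 := by linarith
    have e1 : u 1 = 0 := by linarith
    have e2 : u 2 = 0 := by linarith
    rw [← hs, e0, e1, e2]
    have : h3 0 0 0 = 0 := by
      unfold h3 fH g3; norm_num
    simp [this]
  · have e0 : u 0 = s * (u 0 / s) := by field_simp
    have e1 : u 1 = s * (u 1 / s) := by field_simp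
    have e2 : u 2 = s * (u 2 / s) := by field_simp
    have hsum : u 0 / s + u 1 / s + u 2 / s = 3 := by
      rw [← add_div, ← add_div, div_eq_iff hs.ne']; linarith
    have key := h3_scal_norm hl0 hl1 (div_nonneg h0 hs.le) (div_nonneg h1 hs.le)
      (div_nonneg h2 hs.le) hsum
    have hm0 : 0 ≤ lam * (u 0 / s) + (1 - lam) := by
      have := mul_nonneg hl0 (div_nonneg h0 hs.le); linarith
    have hm1 : 0 ≤ lam * (u 1 / s) + (1 - lam) := by
      have := mul_nonneg hl0 (div_nonneg h1 hs.le); linarith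
    have hm2 : 0 ≤ lam * (u 2 / s) + (1 - lam) := by
      have := mul_nonneg hl0 (div_nonneg h2 hs.le); linarith
    have c1 : h3 (u 0) (u 1) (u 2) = s * h3 (u 0 / s) (u 1 / s) (u 2 / s) := by
      rw [← h3_scale hs (div_nonneg h0 hs.le) (div_nonneg h1 hs.le) (div_nonneg h2 hs.le), ← e0,
        ← e1, ← e2]
    have c2 : h3 (lam * u 0 + (1 - lam) * s) (lam * u 1 + (1 - lam) * s)
        (lam * u 2 + (1 - lam) * s) = s * h3 (lam * (u 0 / s) + (1 - lam))
          (lam * (u 1 / s) + (1 - lam)) (lam * (u 2 / s) + (1 - lam)) := by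
      rw [← h3_scale hs hm0 hm1 hm2]
      congr 1
      · field_simp
      · field_simp
      · field_simp
    rw [c1, c2]
    calc lam ^ 3 * (s * h3 (u 0 / s) (u 1 / s) (u 2 / s))
        = s * (lam ^ 3 * h3 (u 0 / s) (u 1 / s) (u 2 / s)) := by ring
      _ ≤ _ := mul_le_mul_of_nonneg_left key hs.le

end Vale.Agent.P154
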