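import Vale.Agent.P154.Pe.PoisNeg
import Vale.Agent.P154.R5Neg
import Vale.Agent.P154.KS
import Vale.Agent.P154.Inst

/-!
# P154: three colours, the threshold for both tree models and all eigenvalues
-/

namespace Vale.Agent.P154

open MeasureTheory

theorem iff_of_both {a : ℕ → ℝ} {p : Prop} (h1 : ¬ p → Nonreconstruction a)
    (h2 : p → Reconstruction a) : (Reconstruction a ↔ p) ∧ (Nonreconstruction a ↔ ¬ p) :=
  ⟨⟨fun h => by_contra fun hp => not_both h (h1 hp), h2⟩,
    ⟨fun h hp => not_both (h2 hp) h, h1⟩⟩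

/-- regular trees, three colours, `-1/2 ≤ λ ≤ 0` -/
theorem threshold_regular_neg {lam : ℝ} (h0 : -1 / 2 ≤ lam) (h1 : lam ≤ 0) (d : ℕ) :
    (Reconstruction (aRegular 3 lam d) ↔ 1 < (d : ℝ) * lam ^ 2) ∧
    (Nonreconstruction (aRegular 3 lam d) ↔ (d : ℝ) * lam ^ 2 ≤ 1) := by
  have := iff_of_both (a := aRegular 3 lam d) (p := 1 < (d : ℝ) * lam ^ 2)
    (fun h => regular_neg h0 h1 (not_lt.1 h))
    (fun h => ks_regular (by norm_num) (admissible_three (by linarith) (by linarith)) h)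
  rwa [not_lt] at this

/-- Poisson trees, three colours, `-1/2 ≤ λ ≤ 0` -/
theorem threshold_poisson_neg {lam : ℝ} (h0 : -1 / 2 ≤ lam) (h1 : lam ≤ 0) (d : NNReal) :
    (Reconstruction (aPoisson 3 lam d) ↔ 1 < (d : ℝ) * lam ^ 2) ∧
    (Nonreconstruction (aPoisson 3 lam d) ↔ (d : ℝ) * lam ^ 2 ≤ 1) := by
  have := iff_of_both (a := aPoisson 3 lam d) (p := 1 < (d : ℝ) * lam ^ 2)
    (fun h => poisson_neg h0 h1 (not_lt.1 h))
    (fun h => ks_poisson (by norm_num) (admissible_three (by linarith) (by linarith)) h)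
  rwa [not_lt] at this

end Vale.Agent.P154
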